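import Mathlib

/-!
# Linear algebra over an infinite field for the S0270 construction (module M5)

`LineOpen`, the perturbation of linearly independent families, the pencil lemma, the rank lemma (4),
the construction of the admissible pair and `T0` (4), the onto version (4.1),
the multiplier lemma (4.2), and the LLD lemma (4.3).
-/

set_option autoImplicit false

open Module

namespace Crest.Agent.Kurosh.Rank

universe u v w x

section Perturb

variable {K : Type u} [Field K]
variable {W : Type w} [AddCommGroup W] [Module K W]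

/-- Coordinates of a linearly independent family by global functionals. -/
theorem exists_coords {ι : Type*} [Fintype ι] [DecidableEq ι] {a : ι → W}
    (ha : LinearIndependent K a) :
    ∃ φ : W →ₗ[K] (ι → K), ∀ i, φ (a i) = Pi.single i 1 := by
  classical
  let b : Basis ι K (Submodule.span K (Set.range a)) := Basis.span ha
  let f : Submodule.span K (Set.range a) →ₗ[K] (ι → K) := b.equivFun.toLinearMap
  obtain ⟨g, hg⟩ := LinearMap.exists_extend f
  refine ⟨g, fun i => ?_⟩
  have h1 : a i ∈ Submodule.span K (Set.range a) := Submodule.subset_span ⟨i, rfl⟩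
  have h2 : g (a i) = f ⟨a i, h1⟩ := by
    have := LinearMap.congr_fun hg ⟨a i, h1⟩
    simpa using this
  rw [h2]
  have h3 : (⟨a i, h1⟩ : Submodule.span K (Set.range a)) = b i := by
    apply Subtype.ext
    simp [b, Basis.span_apply]
  rw [h3]
  ext j
  simp [f, Pi.single_apply, eq_comm]

/-- **Perturbation.** If `a` is linearly independent then `a + λ b` is linearly independent for all
but finitely many `λ`. -/
theorem li_perturb {ι : Type*} [Finite ι] {a b : ι → W} (ha : LinearIndependent K a) :
    {l : K | ¬ LinearIndependent K (fun i => a i + l • b i)}.Finite := by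
  classical
  cases nonempty_fintype ι
  obtain ⟨φ, hφ⟩ := exists_coords ha
  let B : Matrix ι ι K := Matrix.of fun i j => φ (b i) j
  let p : Polynomial K := (-B).charpolyRev
  have hp0 : p.eval 0 = 1 := Matrix.eval_charpolyRev
  have hp : p ≠ 0 := by
    intro h
    rw [h] at hp0
    simp at hp0
  refine (p.roots.toFinset.finite_toSet).subset ?_
  intro l hl
  have hl' : ¬ LinearIndependent K (fun i => a i + l • b i) := hl
  have : p.IsRoot l := by
    by_contra hne
    apply hl'
    have hdet : p.eval l = (1 + l • B).det := by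
      simp only [p, Matrix.charpolyRev]
      rw [← Polynomial.coe_evalRingHom, RingHom.map_det]
      congr 1
      ext i j
      simp only [RingHom.mapMatrix_apply, Matrix.map_apply, Matrix.sub_apply, Matrix.smul_apply,
        Matrix.neg_apply, Matrix.add_apply, Matrix.one_apply, Polynomial.coe_evalRingHom,
        Polynomial.eval_sub, Polynomial.eval_mul, Polynomial.eval_X, Polynomial.eval_C,
        smul_eq_mul]
      split_ifs <;> simp
    have hne' : (1 + l • B).det ≠ 0 := by
      rw [← hdet]; exact hne
    have hrows : LinearIndependent K (fun i => (1 + l • B) i) :=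
      Matrix.linearIndependent_rows_of_det_ne_zero hne'
    apply LinearIndependent.of_comp φ
    have heq : (⇑φ ∘ fun i => a i + l • b i) = fun i => (1 + l • B) i := by
      ext i j
      simp [B, hφ, Matrix.one_apply, Pi.single_apply, eq_comm, map_add, map_smul]
    rw [heq]
    exact hrows
  simpa [Polynomial.mem_roots hp] using this

end Perturb

section LineOpen

variable (K : Type u) [Field K]
variable {T : Type v} [AddCommGroup T] [Module K T]
variable {W : Type w} [AddCommGroup W] [Module K W]
variable {V : Type x} [AddCommGroup V] [Module K V]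

/-- `S ⊆ T` is line-open: from a point of `S`, every line leaves `S` only finitely often.
Zariski open sets are line-open. -/
def LineOpen (S : Set T) : Prop := ∀ t ∈ S, ∀ w : T, {l : K | t + l • w ∉ S}.Finite

variable {K}

theorem lineOpen_univ : LineOpen K (Set.univ : Set T) := by
  intro t _ w
  simp

theorem LineOpen.inter {S S' : Set T} (h : LineOpen K S) (h' : LineOpen K S') :
    LineOpen K (S ∩ S') := by
  intro t ht w
  refine ((h t ht.1 w).union (h' t ht.2 w)).subset ?_
  intro l hl
  by_contra hcon
  simp only [Set.mem_union, Set.mem_ofPred_eq, not_or, not_not] at hcon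
  exact hl ⟨hcon.1, hcon.2⟩

theorem LineOpen.preimage {T' : Type*} [AddCommGroup T'] [Module K T'] {S : Set T}
    (h : LineOpen K S) (f : T' →ₗ[K] T) : LineOpen K (f ⁻¹' S) := by
  intro t ht w
  simpa [Set.mem_preimage, map_add, map_smul] using h (f t) ht (f w)

/-- The complement of a submodule is line-open. -/
theorem lineOpen_compl_submodule (U : Submodule K T) : LineOpen K ((U : Set T)ᶜ) := by
  intro t ht w
  refine Set.Subsingleton.finite ?_
  intro l hl l' hl'
  simp only [Set.mem_compl_iff, SetLike.mem_coe, not_not, Set.mem_ofPred_eq] at hl hl' ht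
  by_contra hne
  apply ht
  have h1 : (l - l') • w ∈ U := by
    have := U.sub_mem hl hl'
    convert this using 1
    simp [sub_smul]
  have hsub : l - l' ≠ 0 := sub_ne_zero.mpr hne
  have h2 : w ∈ U := by
    have := U.smul_mem (l - l')⁻¹ h1
    rwa [smul_smul, inv_mul_cancel₀ hsub, one_smul] at this
  have := U.sub_mem hl (U.smul_mem l h2)
  simpa using this

/-- A linear map sending a basis to an independent family is injective. -/
theorem injective_of_li_basis {ι : Type*} [Fintype ι] (b : Basis ι K V) (f : V →ₗ[K] W)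
    (h : LinearIndependent K (fun i => f (b i))) : Function.Injective f := by
  rw [← LinearMap.ker_eq_bot, LinearMap.ker_eq_bot']
  intro v hv
  have h1 : ∑ i, b.repr v i • f (b i) = 0 := by
    rw [← hv]
    conv_rhs => rw [← b.sum_repr v, map_sum]
    simp only [map_smul]
  have hz := (Fintype.linearIndependent_iff.mp h) (fun i => b.repr v i) h1
  have : b.repr v = 0 := by
    ext i
    simpa using hz i
  simpa using this

/-- Injectivity of a linear family is a line-open condition. -/
theorem lineOpen_injective [FiniteDimensional K V] (E : T →ₗ[K] V →ₗ[K] W) :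
    LineOpen K {t : T | Function.Injective (E t)} := by
  classical
  intro t ht w
  let b := Module.finBasis K V
  have hli : LinearIndependent K (fun i => E t (b i)) :=
    b.linearIndependent.map' (E t) (LinearMap.ker_eq_bot.mpr ht)
  refine (li_perturb (b := fun i => E w (b i)) hli).subset ?_
  intro l hl
  simp only [Set.mem_ofPred_eq] at hl ⊢
  intro hcon
  apply hl
  have : (E (t + l • w)) = (E t + l • E w) := by
    simp [map_add, map_smul]
  rw [this]
  apply injective_of_li_basis b
  simpa using hcon

/-- Linear independence of a linear family of vectors is a line-open condition. -/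
theorem lineOpen_linearIndependent {ι : Type*} [Finite ι] (x : ι → T →ₗ[K] W) :
    LineOpen K {t : T | LinearIndependent K (fun i => x i t)} := by
  intro t ht w
  refine (li_perturb (b := fun i => x i w) ht).subset ?_
  intro l hl
  simpa using hl

variable [Infinite K]

/-- From a point of a line-open set one can move in any direction avoiding any finite set. -/
theorem LineOpen.exists_add_smul {S : Set T} (h : LineOpen K S) {t : T} (ht : t ∈ S) (w : T)
    (F : Set K) (hF : F.Finite) : ∃ l : K, l ∉ F ∧ t + l • w ∈ S := by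
  have hfin : (F ∪ {l : K | t + l • w ∉ S}).Finite := hF.union (h t ht w)
  obtain ⟨l, hl⟩ := hfin.exists_notMem
  refine ⟨l, fun hc => hl (Or.inl hc), ?_⟩
  by_contra hc
  exact hl (Or.inr hc)

/-- Two nonempty line-open sets meet. -/
theorem LineOpen.inter_nonempty {S S' : Set T} (h : LineOpen K S) (h' : LineOpen K S')
    (hne : S.Nonempty) (hne' : S'.Nonempty) : (S ∩ S').Nonempty := by
  obtain ⟨t, ht⟩ := hne
  obtain ⟨t', ht'⟩ := hne'
  -- move from `t'` towards `t`
  have h1 := h t ht (t' - t)
  have h2 := h' t' ht' (t - t')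
  -- parametrise: `t + l (t' - t)`; `t' + (1 - l)(t - t')` is the same point
  have hfin : ({l : K | t + l • (t' - t) ∉ S} ∪ {l : K | t' + (1 - l) • (t - t') ∉ S'}).Finite := by
    refine h1.union ?_
    have : {l : K | t' + (1 - l) • (t - t') ∉ S'} = (fun c => 1 - c) ⁻¹' {l : K | t' + l • (t - t') ∉ S'} := rfl
    rw [this]
    exact h2.preimage (fun a _ b _ hab => by simpa using hab)
  obtain ⟨l, hl⟩ := hfin.exists_notMem
  simp only [Set.mem_union, Set.mem_ofPred_eq, not_or, not_not] at hl
  refine ⟨t + l • (t' - t), hl.1, ?_⟩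
  have : t + l • (t' - t) = t' + (1 - l) • (t - t') := by
    have : t' + (1 - l) • (t - t') = t' + (t - t') - l • (t - t') := by
      rw [sub_smul, one_smul]; abel
    rw [this]
    have h3 : l • (t' - t) = - (l • (t - t')) := by
      rw [← smul_neg]; simp
    rw [h3]; abel
  rw [this]
  exact hl.2

end LineOpen

section Pencil

variable {K : Type u} [Field K] [Infinite K]
variable {X : Type v} [AddCommGroup X] [Module K X] [Module.Finite K X]
variable {Y : Type w} [AddCommGroup Y] [Module K Y]

/-- **Pencil lemma.** If `E0` has maximal rank in the pencil `E0 + λ E1` (up to finitely many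
exceptional `λ`), then `E1 (ker E0) ⊆ range E0`. -/
theorem pencil (E0 E1 : X →ₗ[K] Y) (F : Set K) (hF : F.Finite)
    (hmax : ∀ l : K, l ∉ F →
      finrank K (LinearMap.range (E0 + l • E1)) ≤ finrank K (LinearMap.range E0))
    (f : X) (hf : E0 f = 0) : E1 f ∈ LinearMap.range E0 := by
  classical
  by_contra hnot
  set R := LinearMap.range E0 with hR
  let r := finrank K R
  let bR : Basis (Fin r) K R := Module.finBasis K R
  have hp : ∀ i, ∃ p : X, E0 p = (bR i : Y) := fun i => (bR i).2
  choose p hp using hp
  -- the independent family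
  have hliR : LinearIndependent K (fun i => (bR i : Y)) :=
    bR.linearIndependent.map' R.subtype (Submodule.ker_subtype R)
  have hspan : Submodule.span K (Set.range fun i => (bR i : Y)) = R := by
    have : Set.range (fun i => (bR i : Y)) = R.subtype '' Set.range bR := by
      ext y; simp [Set.mem_image, Set.mem_range]
    rw [this, ← Submodule.map_span, bR.span_eq]
    simp
  have hli : LinearIndependent K (Fin.cons (E1 f) (fun i => (bR i : Y)) : Fin (r + 1) → Y) := by
    rw [linearIndependent_finCons]
    exact ⟨hliR, by rwa [hspan]⟩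
  have hfin := li_perturb (b := (Fin.cons 0 (fun i => E1 (p i)) : Fin (r + 1) → Y)) hli
  obtain ⟨l, hl⟩ := ((hfin.union hF).union (Set.finite_singleton (0 : K))).exists_notMem
  simp only [Set.mem_union, Set.mem_ofPred_eq, Set.mem_singleton_iff, not_or, not_not] at hl
  obtain ⟨⟨hl1, hl2⟩, hl3⟩ := hl
  -- all the vectors lie in the range of `E0 + l E1`
  set E := E0 + l • E1 with hE
  have hin : ∀ i, ((Fin.cons (E1 f) (fun i => (bR i : Y)) : Fin (r + 1) → Y) i
      + l • (Fin.cons 0 (fun i => E1 (p i)) : Fin (r + 1) → Y) i) ∈ LinearMap.range E := by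
    intro i
    refine Fin.cases ?_ (fun j => ?_) i
    · refine ⟨l⁻¹ • f, ?_⟩
      simp [hE, hf, smul_smul, hl3]
    · refine ⟨p j, ?_⟩
      simp [hE, hp]
  have hcard : r + 1 ≤ finrank K (LinearMap.range E) := by
    have hli2 : LinearIndependent K (fun i => (⟨_, hin i⟩ : LinearMap.range E)) := by
      apply LinearIndependent.of_comp (LinearMap.range E).subtype
      exact hl1
    have := hli2.fintype_card_le_finrank
    simpa using this
  have hh : finrank K (LinearMap.range E) ≤ finrank K R := hmax l hl2
  have hr : finrank K R = r := rfl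
  omega

end Pencil

section RankLemma

variable {K : Type u} [Field K] [Infinite K]
variable {T : Type v} [AddCommGroup T] [Module K T]
variable {V : Type x} [AddCommGroup V] [Module K V] [Module.Finite K V]
variable {W : Type w} [AddCommGroup W] [Module K W]

/-- The rank of a linear map, as a natural number (`T` finite dimensional). -/
noncomputable abbrev rk (f : T →ₗ[K] W) : ℕ := finrank K (LinearMap.range f)

/-- **Rank lemma.** Let `P` be a linear family of maps `T → W` parametrised by a finite dimensional
space `V`, every nonzero member of which has rank at least `dim V`. Then in every nonempty line-open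
`S ⊆ T` there is `t` with `v ↦ P v t` injective. -/
theorem exists_injective (P : V →ₗ[K] T →ₗ[K] W)
    (h : ∀ v, v ≠ 0 → finrank K V ≤ rk (P v))
    {S : Set T} (hS : LineOpen K S) (hne : S.Nonempty) :
    ∃ t ∈ S, Function.Injective (P.flip t) := by
  classical
  -- choose `t ∈ S` maximising the rank of `P.flip t`
  have hbdd : ∀ t : T, rk (P.flip t) ≤ finrank K V := fun t => LinearMap.finrank_range_le _
  obtain ⟨t, ht, hmaxt⟩ : ∃ t ∈ S, ∀ t' ∈ S, rk (P.flip t') ≤ rk (P.flip t) := by
    let vals : Set ℕ := (fun t => rk (P.flip t)) '' S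
    have hvals : vals.Nonempty := hne.image _
    have hb : BddAbove vals := ⟨finrank K V, by
      rintro _ ⟨t, _, rfl⟩
      exact hbdd t⟩
    obtain ⟨t, ht, hteq⟩ := Nat.sSup_mem hvals hb
    refine ⟨t, ht, fun t' ht' => ?_⟩
    have : rk (P.flip t') ≤ sSup vals := le_csSup hb ⟨t', ht', rfl⟩
    simpa [hteq] using (this.trans_eq hteq.symm)
  refine ⟨t, ht, ?_⟩
  by_contra hninj
  -- a nonzero kernel vector
  obtain ⟨v, hv0, hv⟩ : ∃ v, v ≠ 0 ∧ P.flip t v = 0 := by
    by_contra hcon
    push Not at hcon
    apply hninj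
    rw [← LinearMap.ker_eq_bot, LinearMap.ker_eq_bot']
    intro v hv
    by_contra hv0
    exact hcon v hv0 hv
  have hlt : rk (P.flip t) < finrank K V := by
    by_contra hge
    have heq : finrank K (LinearMap.range (P.flip t)) = finrank K V :=
      le_antisymm (hbdd t) (not_lt.mp hge)
    have := LinearMap.finrank_range_add_finrank_ker (P.flip t)
    have hker : finrank K (LinearMap.ker (P.flip t)) = 0 := by omega
    have hbot := Submodule.finrank_eq_zero.mp hker
    exact hninj (LinearMap.ker_eq_bot.mp hbot)
  -- every `P v w` lies in the range of `P.flip t`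
  have hall : ∀ w : T, P v w ∈ LinearMap.range (P.flip t) := by
    intro w
    have hfin := hS t ht w
    refine pencil (P.flip t) (P.flip w) {l : K | t + l • w ∉ S} hfin ?_ v hv
    intro l hl
    have hl' : t + l • w ∈ S := by simpa using hl
    have := hmaxt _ hl'
    have he : P.flip (t + l • w) = P.flip t + l • P.flip w := by
      simp [map_add, map_smul]
    rw [he] at this
    exact this
  have hle : LinearMap.range (P v) ≤ LinearMap.range (P.flip t) := by
    rintro _ ⟨w, rfl⟩
    exact hall w
  have := Submodule.finrank_mono hle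
  have h2 := h v hv0
  simp only [rk] at hlt h2
  omega

/-- Variant with a subspace `N` of parameters on which `P` vanishes. -/
theorem exists_ker_le (P : V →ₗ[K] T →ₗ[K] W) (N : Submodule K V)
    (hN : N ≤ LinearMap.ker P)
    (h : ∀ v, v ∉ N → finrank K (V ⧸ N) ≤ rk (P v))
    {S : Set T} (hS : LineOpen K S) (hne : S.Nonempty) :
    ∃ t ∈ S, ∀ v, P v t = 0 → v ∈ N := by
  classical
  let Pb : (V ⧸ N) →ₗ[K] T →ₗ[K] W := N.liftQ P hN
  have hPb : ∀ v, Pb (N.mkQ v) = P v := fun v => by
    simp [Pb]
  obtain ⟨t, ht, hinj⟩ := exists_injective Pb (by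
    intro v hv
    obtain ⟨v0, rfl⟩ := N.mkQ_surjective v
    rw [hPb]
    apply h
    intro hmem
    apply hv
    simpa using hmem) hS hne
  refine ⟨t, ht, fun v hv => ?_⟩
  have h0 : Pb.flip t (N.mkQ v) = Pb.flip t 0 := by
    simp only [LinearMap.flip_apply, hPb, hv, map_zero, LinearMap.zero_apply]
  have := hinj h0
  simpa using this

end RankLemma

section Duality

variable {K : Type u} [Field K]
variable {X : Type v} [AddCommGroup X] [Module K X]
variable {V : Type x} [AddCommGroup V] [Module K V] [Module.Finite K V]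

/-- A family of functionals on a finite dimensional `V` separating points is everything. -/
theorem surjective_of_separating (L : X →ₗ[K] Dual K V)
    (h : ∀ v : V, (∀ x, L x v = 0) → v = 0) : Function.Surjective L := by
  rw [← LinearMap.range_eq_top]
  have hbot : (LinearMap.range L).dualCoannihilator = ⊥ := by
    rw [eq_bot_iff]
    intro v hv
    rw [Submodule.mem_bot]
    apply h
    intro x
    rw [Submodule.mem_dualCoannihilator] at hv
    exact hv _ ⟨x, rfl⟩
  have h1 := Subspace.finrank_add_finrank_dualCoannihilator_eq (LinearMap.range L)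
  rw [hbot, finrank_bot, add_zero] at h1
  apply Submodule.eq_top_of_finrank_eq
  rw [h1, Subspace.dual_finrank_eq]

end Duality

section RankRestrict

variable {K : Type u} [Field K]
variable {T : Type v} [AddCommGroup T] [Module K T] [Module.Finite K T]
variable {W : Type w} [AddCommGroup W] [Module K W]
variable {W' : Type*} [AddCommGroup W'] [Module K W']

/-- Restricting the domain to a subspace drops the rank by at most the codimension. -/
theorem rk_le_domRestrict (f : T →ₗ[K] W) (T0 : Submodule K T) :
    finrank K (LinearMap.range f)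
      ≤ finrank K (LinearMap.range (f.domRestrict T0)) + (finrank K T - finrank K T0) := by
  obtain ⟨C, hC⟩ := Submodule.exists_isCompl T0
  have hrange : LinearMap.range f = T0.map f ⊔ C.map f := by
    rw [← Submodule.map_sup, hC.sup_eq_top, Submodule.map_top]
  have h1 : LinearMap.range (f.domRestrict T0) = T0.map f := by
    ext y
    simp [LinearMap.mem_range]
  have h2 : finrank K (C.map f) ≤ finrank K C := Submodule.finrank_map_le f C
  have h3 : finrank K T0 + finrank K C = finrank K T := Submodule.finrank_add_eq_of_isCompl hC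
  have h4 := Submodule.finrank_add_le_finrank_add_finrank (T0.map f) (C.map f)
  rw [hrange, h1]
  omega

/-- Composing with `g` drops the rank by at most the dimension of the kernel of `g`. -/
theorem rk_le_comp {X : Type*} [AddCommGroup X] [Module K X] (f : X →ₗ[K] W) (g : W →ₗ[K] W')
    [Module.Finite K (LinearMap.range f)] [Module.Finite K (LinearMap.ker g)] :
    finrank K (LinearMap.range f)
      ≤ finrank K (LinearMap.range (g ∘ₗ f)) + finrank K (LinearMap.ker g) := by
  have h1 := LinearMap.finrank_range_add_finrank_ker (g.domRestrict (LinearMap.range f))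
  have h2 : LinearMap.range (g.domRestrict (LinearMap.range f)) = LinearMap.range (g ∘ₗ f) := by
    ext y
    constructor
    · rintro ⟨⟨_, x, rfl⟩, rfl⟩
      exact ⟨x, rfl⟩
    · rintro ⟨x, rfl⟩
      exact ⟨⟨f x, x, rfl⟩, rfl⟩
  have h3 : finrank K (LinearMap.ker (g.domRestrict (LinearMap.range f)))
      ≤ finrank K (LinearMap.ker g) := by
    let L : LinearMap.ker (g.domRestrict (LinearMap.range f)) →ₗ[K] LinearMap.ker g :=
      { toFun := fun z => ⟨(z.1 : W), LinearMap.mem_ker.mpr (LinearMap.mem_ker.mp z.2)⟩
        map_add' := fun a b => rfl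
        map_smul' := fun c a => rfl }
    have hinj : Function.Injective L := by
      intro a b hab
      apply Subtype.ext
      apply Subtype.ext
      (have h0 := congrArg Subtype.val hab; exact h0)
    exact LinearMap.finrank_le_finrank_of_injective hinj
  rw [h2] at h1
  omega

/-- Restricting a form in its second variable to a subspace `T''` drops the rank by at most the
codimension of `T''`. -/
theorem rk_le_dualRestrict (f : W' →ₗ[K] (T →ₗ[K] K)) (T'' : Submodule K T) :
    finrank K (LinearMap.range f)
      ≤ finrank K (LinearMap.range (T''.subtype.dualMap ∘ₗ f)) + (finrank K T - finrank K T'') := by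
  have h1 : finrank K (LinearMap.ker T''.subtype.dualMap) = finrank K T - finrank K T'' := by
    have h2 := LinearMap.finrank_range_add_finrank_ker T''.subtype.dualMap
    have h3 : LinearMap.range T''.subtype.dualMap = ⊤ :=
      LinearMap.range_eq_top.mpr (LinearMap.dualMap_surjective_of_injective T''.injective_subtype)
    rw [h3, finrank_top, Subspace.dual_finrank_eq, Subspace.dual_finrank_eq] at h2
    omega
  rw [← h1]
  have : Module.Finite K (LinearMap.range f) :=
    FiniteDimensional.finiteDimensional_submodule (K := K) (V := T →ₗ[K] K) _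
  have : Module.Finite K (LinearMap.ker T''.subtype.dualMap) :=
    FiniteDimensional.finiteDimensional_submodule (K := K) (V := T →ₗ[K] K) _
  exact rk_le_comp f _

end RankRestrict

section Pair

variable {K : Type u} [Field K] [Infinite K]
variable {T : Type v} [AddCommGroup T] [Module K T] [Module.Finite K T]
variable {V : Type x} [AddCommGroup V] [Module K V] [Module.Finite K V]

/-- `τ ↦ (v ↦ P v t τ)`. -/
noncomputable def Pt (P : V →ₗ[K] T →ₗ[K] T →ₗ[K] K) (t : T) : T →ₗ[K] Dual K V :=
  (P.flip t).flip

@[simp] theorem Pt_apply (P : V →ₗ[K] T →ₗ[K] T →ₗ[K] K) (t τ : T) (v : V) :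
    Pt P t τ v = P v t τ := rfl

/-- `T0(t) = ⋂_v ker P_v(t,·)`. -/
noncomputable def T0 (P : V →ₗ[K] T →ₗ[K] T →ₗ[K] K) (t : T) : Submodule K T :=
  LinearMap.ker (Pt P t)

theorem mem_T0 {P : V →ₗ[K] T →ₗ[K] T →ₗ[K] K} {t τ : T} :
    τ ∈ T0 P t ↔ ∀ v, P v t τ = 0 := by
  simp only [T0, LinearMap.mem_ker]
  constructor
  · intro h v
    exact LinearMap.congr_fun h v
  · intro h
    ext v
    exact h v

theorem finrank_T0_ge (P : V →ₗ[K] T →ₗ[K] T →ₗ[K] K) (t : T) :
    finrank K T - finrank K V ≤ finrank K (T0 P t) := by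
  have h := LinearMap.finrank_range_add_finrank_ker (Pt P t)
  have h2 : finrank K (LinearMap.range (Pt P t)) ≤ finrank K V := by
    calc _ ≤ finrank K (Dual K V) := Submodule.finrank_le _
      _ = _ := Subspace.dual_finrank_eq
  have h3 : finrank K (T0 P t) = finrank K (LinearMap.ker (Pt P t)) := rfl
  omega

/-- **Admissible pair (4), (4.1).** `P` a space of alternating forms on `T`, `q = dim V`, `T''` a
subspace, every nonzero form of rank at least `3 q + codim T''`.  Then in every nonempty line-open
`S1` there is `t1`, and in every nonempty line-open subset of `T0(t1)` there is `t2`, such that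
`P_v(t1,t2) = 0` for all `v` and `τ ↦ (P_·(t1,τ), P_·(t2,τ))` maps `T''` onto `V^* × V^*`.
(Take `T'' = ⊤` for the plain statement; `5 q` is more than enough.) -/
theorem exists_pair (P : V →ₗ[K] T →ₗ[K] T →ₗ[K] K) (T'' : Submodule K T)
    (hr : ∀ v, v ≠ 0 → 3 * finrank K V + (finrank K T - finrank K T'')
      ≤ finrank K (LinearMap.range (P v)))
    {S1 : Set T} (hS1 : LineOpen K S1) (hne1 : S1.Nonempty)
    (S2 : ∀ t, Set (T0 P t))
    (hS2 : ∀ t ∈ S1, LineOpen K (S2 t) ∧ (S2 t).Nonempty) :
    ∃ t1 ∈ S1, ∃ t2, t2 ∈ S2 t1 ∧ (∀ f g : Dual K V, ∃ τ ∈ T'',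
        Pt P t1 τ = f ∧ Pt P t2.1 τ = g) := by
  classical
  set q := finrank K V with hq
  -- first variable
  let P1 : V →ₗ[K] T →ₗ[K] Dual K T'' := P.compr₂ T''.subtype.dualMap
  have hP1 : ∀ v, P1 v = T''.subtype.dualMap ∘ₗ P v := fun v => by
    ext x y; rfl
  obtain ⟨t1, ht1, hinj1⟩ := exists_injective P1 (by
    intro v hv
    rw [hP1]
    have h1 := rk_le_dualRestrict (P v) T''
    have h2 := hr v hv
    have h3 : finrank K V ≤ finrank K (LinearMap.range (T''.subtype.dualMap ∘ₗ P v)) := by omega
    exact h3) hS1 hne1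
  -- surjectivity onto the first factor, on `T''`
  have hsurj1 : ∀ f : Dual K V, ∃ τ ∈ T'', Pt P t1 τ = f := by
    let L : T'' →ₗ[K] Dual K V := (Pt P t1).domRestrict T''
    have hL : Function.Surjective L := by
      apply surjective_of_separating
      intro v hv
      apply hinj1
      simp only [map_zero]
      ext x
      exact hv x
    intro f
    obtain ⟨τ, hτ⟩ := hL f
    exact ⟨τ.1, τ.2, hτ⟩
  -- the space `T0(t1)` and the forms restricted to it
  set T1 := T0 P t1 with hT1
  let T3 : Submodule K T := T1 ⊓ T''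
  have hfr1 := finrank_T0_ge P t1
  have hfr3 : finrank K T - finrank K T3 ≤ q + (finrank K T - finrank K T'') := by
    have h1 := Submodule.finrank_sup_add_finrank_inf_eq T1 T''
    have h2 : finrank K (T1 ⊔ T'' : Submodule K T) ≤ finrank K T := Submodule.finrank_le _
    have h3 : finrank K T'' ≤ finrank K T := Submodule.finrank_le _
    have h4 : finrank K T3 = finrank K (T1 ⊓ T'' : Submodule K T) := rfl
    have h5 : finrank K T - q ≤ finrank K T1 := hfr1
    omega
  let P2 : V →ₗ[K] T1 →ₗ[K] Dual K T3 :=
    { toFun := fun v => T3.subtype.dualMap ∘ₗ (P v) ∘ₗ T1.subtype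
      map_add' := fun a b => by ext x y; simp
      map_smul' := fun c a => by ext x y; simp }
  obtain ⟨t2, ht2, hinj2⟩ := exists_injective P2 (by
    intro v hv
    have h2 := hr v hv
    have h3 := rk_le_domRestrict (P v) T1
    have h4 := rk_le_dualRestrict ((P v).domRestrict T1) T3
    have h5 : T3.subtype.dualMap ∘ₗ (P v).domRestrict T1 = P2 v := rfl
    rw [h5] at h4
    have h6 : finrank K T1 ≤ finrank K T := Submodule.finrank_le _
    have h7 : finrank K T'' ≤ finrank K T := Submodule.finrank_le _
    have h8 : finrank K T - q ≤ finrank K T1 := hfr1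
    have h9 : finrank K V = q := rfl
    have h10 : finrank K V ≤ finrank K (LinearMap.range (P2 v)) := by omega
    exact h10) (hS2 t1 ht1).1 (hS2 t1 ht1).2
  refine ⟨t1, ht1, t2, ht2, ?_⟩
  -- surjectivity onto the second factor, on `T3`
  have hsurj2 : ∀ g : Dual K V, ∃ τ ∈ T3, Pt P t2.1 τ = g := by
    let L : T3 →ₗ[K] Dual K V := (Pt P t2.1).domRestrict T3
    have hL : Function.Surjective L := by
      apply surjective_of_separating
      intro v hv
      apply hinj2
      simp only [map_zero]
      ext x
      exact hv x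
    intro g
    obtain ⟨τ, hτ⟩ := hL g
    exact ⟨τ.1, τ.2, hτ⟩
  intro f g
  obtain ⟨τ1, h1, h1'⟩ := hsurj1 f
  obtain ⟨τ2, h2, h2'⟩ := hsurj2 (g - Pt P t2.1 τ1)
  refine ⟨τ1 + τ2, T''.add_mem h1 h2.2, ?_, ?_⟩
  · have : Pt P t1 τ2 = 0 := h2.1
    rw [map_add, h1', this, add_zero]
  · rw [map_add, h2']; abel

/-- Alternating forms are antisymmetric. -/
theorem alt_antisymm (B : T →ₗ[K] T →ₗ[K] K) (alt : ∀ t, B t t = 0) (x y : T) :
    B x y = - B y x := by
  have := alt (x + y)
  simp only [map_add, LinearMap.add_apply, alt, zero_add, add_zero] at this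
  exact eq_neg_of_add_eq_zero_left (by rw [add_comm]; exact this)

/-- `t1, t2 ∈ T0(t1) ⊓ T0(t2)` for an alternating family with `P_v(t1,t2) = 0`. -/
theorem mem_T0_inf (P : V →ₗ[K] T →ₗ[K] T →ₗ[K] K) (alt : ∀ v t, P v t t = 0) {t1 t2 : T}
    (h : ∀ v, P v t1 t2 = 0) : t1 ∈ T0 P t1 ⊓ T0 P t2 ∧ t2 ∈ T0 P t1 ⊓ T0 P t2 := by
  refine ⟨⟨mem_T0.mpr fun v => alt v t1, mem_T0.mpr fun v => ?_⟩,
    ⟨mem_T0.mpr h, mem_T0.mpr fun v => alt v t2⟩⟩
  rw [alt_antisymm (P v) (alt v), h v, neg_zero]

/-- **(4.1).** If `τ ↦ (P_·(t1,τ), P_·(t2,τ))` maps `T''` onto `V^* × V^*` then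
`T0(t1) ⊓ T0(t2) ⊔ T'' = ⊤`; hence `T0` maps onto the image of every map with kernel `T''`. -/
theorem T0_sup_eq_top (P : V →ₗ[K] T →ₗ[K] T →ₗ[K] K) (T'' : Submodule K T) {t1 t2 : T}
    (h : ∀ f g : Dual K V, ∃ τ ∈ T'', Pt P t1 τ = f ∧ Pt P t2 τ = g) :
    (T0 P t1 ⊓ T0 P t2) ⊔ T'' = ⊤ := by
  rw [eq_top_iff]
  intro x _
  obtain ⟨y, hy, h1, h2⟩ := h (Pt P t1 x) (Pt P t2 x)
  have hx : x = (x - y) + y := by abel
  rw [hx]
  refine Submodule.add_mem_sup ⟨?_, ?_⟩ hy
  · simp [T0, LinearMap.mem_ker, map_sub, h1]
  · simp [T0, LinearMap.mem_ker, map_sub, h2]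

theorem map_T0_eq {E : Type*} [AddCommGroup E] [Module K E]
    (P : V →ₗ[K] T →ₗ[K] T →ₗ[K] K) (pr : T →ₗ[K] E) {t1 t2 : T}
    (h : ∀ f g : Dual K V, ∃ τ ∈ LinearMap.ker pr, Pt P t1 τ = f ∧ Pt P t2 τ = g) :
    (T0 P t1 ⊓ T0 P t2).map pr = LinearMap.range pr := by
  apply le_antisymm
  · exact LinearMap.map_le_range
  · rintro _ ⟨x, rfl⟩
    have hx : x ∈ (T0 P t1 ⊓ T0 P t2) ⊔ LinearMap.ker pr := by
      rw [T0_sup_eq_top P _ h]; trivial
    obtain ⟨a, ha, b, hb, rfl⟩ := Submodule.mem_sup.mp hx
    refine ⟨a, ha, ?_⟩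
    simp [LinearMap.mem_ker.mp hb]

end Pair

section LLD

variable {K : Type u} [Field K] [Infinite K]
variable {T : Type v} [AddCommGroup T] [Module K T] [Module.Finite K T]
variable {V : Type x} [AddCommGroup V] [Module K V] [Module.Finite K V]
variable {W : Type w} [AddCommGroup W] [Module K W]

/-- **LLD lemma (4.3).** Let `P` be a linear family of maps `T → W`, every nonzero member of rank at
least `2 dim V`, and `Q : T → W` with `Q t ∈ {P v t : v}` for `t` in a nonempty line-open set.
Then `Q = P v0` for a single `v0`. -/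
theorem lld (P : V →ₗ[K] T →ₗ[K] W) (Q : T →ₗ[K] W)
    (hr : ∀ v, v ≠ 0 → 2 * finrank K V ≤ finrank K (LinearMap.range (P v)))
    {S : Set T} (hS : LineOpen K S) (hne : S.Nonempty)
    (h : ∀ t ∈ S, Q t ∈ LinearMap.range (P.flip t)) :
    ∃ v0, Q = P v0 := by
  classical
  -- `t0` generic, `Q' = Q - P v0` with `Q' t0 = 0`
  obtain ⟨t0, ht0, hinj0⟩ := exists_injective P (by
    intro v hv
    have := hr v hv
    have h3 : finrank K V ≤ finrank K (LinearMap.range (P v)) := by omega
    exact h3) hS hne
  obtain ⟨v0, hv0⟩ := h t0 ht0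
  refine ⟨v0, ?_⟩
  set Q' : T →ₗ[K] W := Q - P v0 with hQ'
  have hQ0 : Q' t0 = 0 := by
    simp only [hQ', LinearMap.sub_apply]
    rw [← hv0]
    simp
  have hQS : ∀ t ∈ S, Q' t ∈ LinearMap.range (P.flip t) := by
    intro t ht
    obtain ⟨v1, hv1⟩ := h t ht
    refine ⟨v1 - v0, ?_⟩
    simp [hQ', ← hv1]
  -- Claim 1: the image of `Q'` lies in `Z = range (P.flip t0)`.
  set Z := LinearMap.range (P.flip t0) with hZ
  let S0 : Set T := S ∩ {t | Function.Injective (P.flip t)}
  have hS0 : LineOpen K S0 := hS.inter (lineOpen_injective P.flip)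
  have ht0S0 : t0 ∈ S0 := ⟨ht0, hinj0⟩
  have hclaim1 : ∀ t, Q' t ∈ Z := by
    intro t
    by_contra hnot
    let b := Module.finBasis K V
    have hliV : LinearIndependent K (fun i => P.flip t0 (b i)) :=
      b.linearIndependent.map' (P.flip t0) (LinearMap.ker_eq_bot.mpr hinj0)
    have hspan : Submodule.span K (Set.range fun i => P.flip t0 (b i)) = Z := by
      have : Set.range (fun i => P.flip t0 (b i)) = (P.flip t0) '' Set.range b := by
        ext y; simp [Set.mem_image, Set.mem_range]
      rw [this, ← Submodule.map_span, b.span_eq, Submodule.map_top]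
    have hli : LinearIndependent K (Fin.cons (Q' t) (fun i => P.flip t0 (b i)) :
        Fin (finrank K V + 1) → W) := by
      rw [linearIndependent_finCons]
      exact ⟨hliV, by rwa [hspan]⟩
    have hfin := li_perturb (b := (Fin.cons 0 (fun i => P.flip t (b i)) :
        Fin (finrank K V + 1) → W)) hli
    obtain ⟨l, hl⟩ := ((hfin.union (hS t0 ht0 t)).union (Set.finite_singleton (0 : K))).exists_notMem
    simp only [Set.mem_union, Set.mem_ofPred_eq, Set.mem_singleton_iff, not_or, not_not] at hl
    obtain ⟨⟨hl1, hl2⟩, hl3⟩ := hl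
    obtain ⟨v1, hv1⟩ := hQS _ hl2
    -- `l Q' t = P v1 t0 + l P v1 t`, contradiction with independence
    have hQ1 : Q' (t0 + l • t) = l • Q' t := by
      simp [map_add, map_smul, hQ0]
    rw [hQ1] at hv1
    have hsum : ∑ i, (b.repr v1 i) • (P.flip t0 (b i) + l • P.flip t (b i)) = l • Q' t := by
      rw [← hv1]
      have : v1 = ∑ i, b.repr v1 i • b i := (b.sum_repr v1).symm
      conv_rhs => rw [this]
      simp only [LinearMap.flip_apply, map_sum, map_smul, map_add, LinearMap.add_apply,
        LinearMap.sum_apply, LinearMap.smul_apply]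
    -- dependency in the perturbed family
    have hdep := Fintype.linearIndependent_iff.mp hl1
      (Fin.cons (-l) (fun i => b.repr v1 i)) (by
        rw [Fin.sum_univ_succ]
        simp only [Fin.cons_zero, Fin.cons_succ, zero_smul, smul_zero, add_zero, neg_smul]
        simp only [smul_add] at hsum ⊢
        rw [hsum]
        simp) 0
    simp only [Fin.cons_zero] at hdep
    exact hl3 (neg_eq_zero.mp hdep)
  -- Claim 2: `Q'` vanishes on a line-open nonempty set.
  let π := Z.mkQ
  let Pb : V →ₗ[K] T →ₗ[K] (W ⧸ Z) := P.compr₂ π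
  have hZfin : finrank K Z ≤ finrank K V := LinearMap.finrank_range_le _
  have : Module.Finite K Z := by
    rw [hZ]; exact Module.Finite.range _
  obtain ⟨t1, ht1, hinj1⟩ := exists_injective Pb (by
    intro v hv
    have h2 := hr v hv
    -- rank of the composite
    have h3 : finrank K (LinearMap.range (P v))
        ≤ finrank K (LinearMap.range (Pb v)) + finrank K Z := by
      let R := LinearMap.range (P v)
      have h4 : LinearMap.range (Pb v) = R.map π := by
        ext y
        simp [Pb, R, LinearMap.mem_range, π]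
      rw [h4]
      have h5 := LinearMap.finrank_range_add_finrank_ker (π.domRestrict R)
      have h6 : LinearMap.range (π.domRestrict R) = R.map π := by
        ext y
        simp [LinearMap.mem_range]
      have h7 : finrank K (LinearMap.ker (π.domRestrict R)) ≤ finrank K Z := by
        let L : LinearMap.ker (π.domRestrict R) →ₗ[K] Z :=
          { toFun := fun z => ⟨(z.1 : W), by
              have h0 : π (z.1 : W) = 0 := LinearMap.mem_ker.mp z.2
              simpa [π] using h0⟩
            map_add' := fun a b => rfl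
            map_smul' := fun c a => rfl }
        have hinj : Function.Injective L := by
          intro a b hab
          apply Subtype.ext
          apply Subtype.ext
          (have h0 := congrArg Subtype.val hab; exact h0)
        exact LinearMap.finrank_le_finrank_of_injective hinj
      rw [h6] at h5
      have hR : finrank K R = finrank K (LinearMap.range (P v)) := rfl
      omega
    have h9 : finrank K V ≤ finrank K (LinearMap.range (Pb v)) := by omega
    exact h9) hS0 ⟨t0, ht0S0⟩
  have hzero : ∀ t ∈ S0 ∩ {t | Function.Injective (Pb.flip t)}, Q' t = 0 := by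
    rintro t ⟨htS0, htinj⟩
    obtain ⟨v1, hv1⟩ := hQS t htS0.1
    have h1 : Pb.flip t v1 = 0 := by
      have : (π (P v1 t)) = 0 := by
        have h2 : P v1 t = Q' t := hv1
        rw [h2]
        simpa [π] using hclaim1 t
      exact this
    have hv10 : v1 = 0 := htinj (by simpa using h1)
    rw [← hv1, hv10]
    simp
  have hS1 : LineOpen K (S0 ∩ {t | Function.Injective (Pb.flip t)}) :=
    hS0.inter (lineOpen_injective Pb.flip)
  have ht1S1 : t1 ∈ S0 ∩ {t | Function.Injective (Pb.flip t)} := ⟨ht1, hinj1⟩
  have hQzero : Q' = 0 := by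
    ext t
    obtain ⟨l, hl, hl2⟩ := hS1.exists_add_smul ht1S1 t {0} (Set.finite_singleton _)
    have h1 := hzero _ hl2
    rw [map_add, map_smul, hzero t1 ht1S1, zero_add] at h1
    have hl0 : l ≠ 0 := by simpa using hl
    simpa [hl0] using h1
  rw [hQ', sub_eq_zero] at hQzero
  exact hQzero

/-- LLD with a subspace `N` of parameters on which `P` vanishes. -/
theorem lld_quot (P : V →ₗ[K] T →ₗ[K] W) (Q : T →ₗ[K] W) (N : Submodule K V)
    (hN : N ≤ LinearMap.ker P)
    (hr : ∀ v, v ∉ N → 2 * finrank K (V ⧸ N) ≤ finrank K (LinearMap.range (P v)))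
    {S : Set T} (hS : LineOpen K S) (hne : S.Nonempty)
    (h : ∀ t ∈ S, Q t ∈ LinearMap.range (P.flip t)) :
    ∃ v0, Q = P v0 := by
  classical
  let Pb : (V ⧸ N) →ₗ[K] T →ₗ[K] W := N.liftQ P hN
  have hPb : ∀ v, Pb (N.mkQ v) = P v := fun v => by simp [Pb]
  obtain ⟨v0, hv0⟩ := lld Pb Q (by
    intro v hv
    obtain ⟨v0, rfl⟩ := N.mkQ_surjective v
    rw [hPb]
    apply hr
    intro hmem
    apply hv
    simpa using hmem) hS hne (by
    intro t ht
    obtain ⟨v1, hv1⟩ := h t ht
    refine ⟨N.mkQ v1, ?_⟩
    rw [← hv1]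
    simp only [LinearMap.flip_apply, hPb])
  obtain ⟨v1, rfl⟩ := N.mkQ_surjective v0
  exact ⟨v1, by rw [hv0, hPb]⟩

end LLD

section Multiplier

variable {K : Type u} [Field K] [Infinite K]
variable {L : Type v} [Field L] [Algebra K L] [FiniteDimensional K L]

/-- `(a,b) ↦ a + μ b` on `A × A`. -/
noncomputable def Phi (A : Submodule K L) (μ : L) : (A × A) →ₗ[K] L :=
  (A.subtype ∘ₗ LinearMap.fst K A A) + (LinearMap.mulLeft K μ ∘ₗ A.subtype ∘ₗ LinearMap.snd K A A)

/-- `(a,b) ↦ ν b` on `A × A`. -/
noncomputable def Psi (A : Submodule K L) (ν : L) : (A × A) →ₗ[K] L :=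
  LinearMap.mulLeft K ν ∘ₗ A.subtype ∘ₗ LinearMap.snd K A A

@[simp] theorem Phi_apply (A : Submodule K L) (μ : L) (p : A × A) :
    Phi A μ p = p.1 + μ * p.2 := by
  simp [Phi]

@[simp] theorem Psi_apply (A : Submodule K L) (ν : L) (p : A × A) :
    Psi A ν p = ν * p.2 := by
  simp [Psi]

theorem Phi_add_smul (A : Submodule K L) (μ ν : L) (l : K) :
    Phi A (μ + l • ν) = Phi A μ + l • Psi A ν := by
  refine LinearMap.ext fun p => ?_
  simp only [Phi_apply, LinearMap.add_apply, LinearMap.smul_apply, Psi_apply, add_mul,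
    smul_mul_assoc, add_assoc]

theorem range_Phi (A : Submodule K L) (μ : L) :
    LinearMap.range (Phi A μ) = A ⊔ A.map (LinearMap.mulLeft K μ) := by
  apply le_antisymm
  · rintro _ ⟨p, rfl⟩
    rw [Phi_apply]
    exact Submodule.add_mem_sup p.1.2 ⟨p.2, p.2.2, rfl⟩
  · intro x hx
    obtain ⟨a, ha, b, ⟨c, hc, rfl⟩, rfl⟩ := Submodule.mem_sup.mp hx
    exact ⟨(⟨a, ha⟩, ⟨c, hc⟩), by simp⟩

/-- The set of good multipliers is line-open in `A`. -/
theorem lineOpen_multiplier (A : Submodule K L) :
    LineOpen K {μ : A | A ⊔ A.map (LinearMap.mulLeft K (μ : L)) = ⊤} := by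
  classical
  intro μ hμ ν
  have hμ' : LinearMap.range (Phi A (μ : L)) = ⊤ := by
    rw [range_Phi]; exact hμ
  let b := Module.finBasis K L
  have hp : ∀ i, ∃ p : A × A, Phi A (μ : L) p = b i := fun i => by
    have : b i ∈ LinearMap.range (Phi A (μ : L)) := by rw [hμ']; trivial
    exact this
  choose p hp using hp
  have hli : LinearIndependent K (fun i => Phi A (μ : L) (p i)) := by
    simpa [hp] using b.linearIndependent
  refine (li_perturb (b := fun i => Psi A (ν : L) (p i)) hli).subset ?_
  intro l hl
  simp only [Set.mem_ofPred_eq] at hl ⊢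
  intro hcon
  apply hl
  -- `n` independent vectors in the range of `Phi (μ + l ν)` span `L`.
  have hrange : LinearMap.range (Phi A ((μ : L) + l • (ν : L))) = ⊤ := by
    rw [eq_top_iff]
    have hspan : Submodule.span K (Set.range fun i => Phi A (μ : L) (p i) + l • Psi A (ν : L) (p i))
        = ⊤ := by
      apply hcon.span_eq_top_of_card_eq_finrank'
      simp
    rw [← hspan, Submodule.span_le]
    rintro _ ⟨i, rfl⟩
    refine ⟨p i, ?_⟩
    rw [Phi_add_smul]
    simp
  rw [range_Phi] at hrange
  simpa using hrange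

/-- **Multiplier lemma (4.2).** If `A ⊆ L` has `dim A > 2 codim A`, some `μ ∈ A` has
`A + μ A = L`. -/
theorem exists_multiplier (A : Submodule K L)
    (h : 2 * (finrank K L - finrank K A) < finrank K A) :
    ∃ μ : A, A ⊔ A.map (LinearMap.mulLeft K (μ : L)) = ⊤ := by
  classical
  -- choose `μ0` maximising the rank
  obtain ⟨μ0, hμ0⟩ : ∃ μ0 : A, ∀ μ : A,
      finrank K (LinearMap.range (Phi A (μ : L))) ≤ finrank K (LinearMap.range (Phi A (μ0 : L))) := by
    let vals : Set ℕ := Set.range fun μ : A => finrank K (LinearMap.range (Phi A (μ : L)))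
    have hvals : vals.Nonempty := Set.range_nonempty _
    have hb : BddAbove vals := ⟨finrank K L, by
      rintro _ ⟨μ, rfl⟩
      exact Submodule.finrank_le _⟩
    obtain ⟨μ0, hμ0⟩ := Nat.sSup_mem hvals hb
    refine ⟨μ0, fun μ => ?_⟩
    have : finrank K (LinearMap.range (Phi A (μ : L))) ≤ sSup vals := le_csSup hb ⟨μ, rfl⟩
    simpa [hμ0] using (this.trans_eq hμ0.symm)
  refine ⟨μ0, ?_⟩
  rw [← range_Phi]
  by_contra hne
  have hlt : LinearMap.range (Phi A (μ0 : L)) < ⊤ := lt_top_iff_ne_top.mpr hne
  obtain ⟨φ, hφ0, hφ⟩ := Submodule.exists_dual_map_eq_bot_of_lt_top hlt inferInstance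
  -- `A1 = {b ∈ A | μ0 b ∈ A}`
  let A1 : Submodule K L := A ⊓ A.comap (LinearMap.mulLeft K (μ0 : L))
  -- the pencil lemma
  have hpen : ∀ (ν : A) (b : L), b ∈ A1 → (ν : L) * b ∈ LinearMap.range (Phi A (μ0 : L)) := by
    intro ν b hb
    have hb1 : b ∈ A := hb.1
    have hb2 : (μ0 : L) * b ∈ A := hb.2
    have := pencil (Phi A (μ0 : L)) (Psi A (ν : L)) ∅ Set.finite_empty (by
      intro l _
      have := hμ0 (μ0 + l • ν)
      rw [show (((μ0 + l • ν : A)) : L) = (μ0 : L) + l • (ν : L) by simp, Phi_add_smul] at this
      exact this) (⟨-((μ0 : L) * b), A.neg_mem hb2⟩, ⟨b, hb1⟩) (by simp)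
    simpa using this
  -- dimension count
  have hA1 : finrank K A ≤ finrank K A1 + (finrank K L - finrank K A) := by
    let h' : A →ₗ[K] L ⧸ A := A.mkQ ∘ₗ LinearMap.mulLeft K (μ0 : L) ∘ₗ A.subtype
    have h1 := LinearMap.finrank_range_add_finrank_ker h'
    have h2 : finrank K (LinearMap.range h') ≤ finrank K (L ⧸ A) := Submodule.finrank_le _
    have h3 := Submodule.finrank_quotient_add_finrank A
    have h4 : finrank K (LinearMap.ker h') ≤ finrank K A1 := by
      let J : LinearMap.ker h' →ₗ[K] A1 :=
        { toFun := fun z => ⟨(z.1 : L), z.1.2, by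
            have h0 : h' z.1 = 0 := LinearMap.mem_ker.mp z.2
            have h00 : A.mkQ ((μ0 : L) * (z.1 : L)) = 0 := h0
            simpa using h00⟩
          map_add' := fun a b => rfl
          map_smul' := fun c a => rfl }
      have hinj : Function.Injective J := by
        intro a b hab
        apply Subtype.ext
        apply Subtype.ext
        (have h0 := congrArg Subtype.val hab; exact h0)
      exact LinearMap.finrank_le_finrank_of_injective hinj
    omega
  -- `ν ↦ φ(ν ·)` embeds `A` into the annihilator of `A1`.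
  let I : A →ₗ[K] A1.dualAnnihilator :=
    { toFun := fun ν => ⟨φ ∘ₗ LinearMap.mulLeft K (ν : L), by
        rw [Submodule.mem_dualAnnihilator]
        intro b hb
        have h1 := hpen ν b hb
        have hm : φ ((ν : L) * b) ∈ (LinearMap.range (Phi A (μ0 : L))).map φ :=
          ⟨_, h1, rfl⟩
        rw [hφ] at hm
        exact (Submodule.mem_bot K).mp hm⟩
      map_add' := fun a b => by
        apply Subtype.ext
        ext x
        simp [add_mul]
      map_smul' := fun c a => by
        apply Subtype.ext
        ext x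
        simp }
  have hI : Function.Injective I := by
    refine (injective_iff_map_eq_zero I).mpr ?_
    intro ν hν
    by_contra hν0
    have hν0' : (ν : L) ≠ 0 := by simpa using hν0
    apply hφ0
    ext x
    have h1 := congrArg (fun z : A1.dualAnnihilator => (z : Dual K L) ((ν : L)⁻¹ * x)) hν
    simpa [I, mul_inv_cancel_left₀ hν0'] using h1
  have hle := LinearMap.finrank_le_finrank_of_injective hI
  have h5 := Subspace.finrank_add_finrank_dualAnnihilator_eq A1
  omega

end Multiplier

end Crest.Agent.Kurosh.Rank
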