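/-
S0270, module M4 (helper34): the calculus at a state, abstractly.

Setting: `F` (coefficients), `K` (the central field `K_I`), `A` a finite dimensional `K`-algebra with a
symmetric nondegenerate trace form `τ`, a point `ρ : ι → A`, a list `a : ℕ → FreeAlgebra F ι`.
-/
import Mathlib

set_option autoImplicit false

namespace Crest.Agent.Kurosh.State

open scoped BigOperators

section Calculus

variable {F A ι : Type*} [CommRing F] [Ring A] [Algebra F A]

/-- Evaluation of a noncommutative polynomial at a point. -/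
noncomputable def ev (ρ : ι → A) : FreeAlgebra F ι →ₐ[F] A := FreeAlgebra.lift F ρ

@[simp] lemma ev_ι (ρ : ι → A) (i : ι) : ev ρ (FreeAlgebra.ι F i) = ρ i := by
  simp [ev]

/-- The 2×2 upper triangular representation computing the first derivative. -/
noncomputable def biHom (ρ t : ι → A) : FreeAlgebra F ι →ₐ[F] Matrix (Fin 2) (Fin 2) A :=
  FreeAlgebra.lift F (fun i => !![ρ i, t i; 0, ρ i])

/-- The 3×3 upper triangular representation computing the second derivative. -/
noncomputable def triHom (ρ t t' : ι → A) : FreeAlgebra F ι →ₐ[F] Matrix (Fin 3) (Fin 3) A :=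
  FreeAlgebra.lift F (fun i => !![ρ i, t i, 0; 0, ρ i, t' i; 0, 0, ρ i])

lemma biHom_diag (ρ t : ι → A) (a : FreeAlgebra F ι) :
    biHom ρ t a 0 0 = ev ρ a ∧ biHom ρ t a 1 1 = ev ρ a ∧ biHom ρ t a 1 0 = 0 := by
  induction a using FreeAlgebra.induction with
  | grade0 r =>
      simp only [AlgHom.commutes, Matrix.algebraMap_matrix_apply]
      simp
  | grade1 i => simp [biHom, ev]
  | mul a b ha hb =>
      obtain ⟨h1, h2, h3⟩ := ha
      obtain ⟨h4, h5, h6⟩ := hb
      simp [Matrix.mul_apply, Fin.sum_univ_two, h1, h2, h3, h4, h5, h6]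
  | add a b ha hb =>
      obtain ⟨h1, h2, h3⟩ := ha
      obtain ⟨h4, h5, h6⟩ := hb
      simp [h1, h2, h3, h4, h5, h6]

/-- First derivative `∂a[t]` at `ρ`. -/
noncomputable def d1 (ρ t : ι → A) (a : FreeAlgebra F ι) : A := biHom ρ t a 0 1

/-- Second derivative `B_a[t,t']` at `ρ`: all ways of replacing two letters, the left by `t`,
the right by `t'`. -/
noncomputable def d2 (ρ t t' : ι → A) (a : FreeAlgebra F ι) : A := triHom ρ t t' a 0 2

@[simp] lemma d1_algebraMap (ρ t : ι → A) (r : F) :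
    d1 ρ t (algebraMap F (FreeAlgebra F ι) r) = 0 := by
  simp [d1, Matrix.algebraMap_matrix_apply]

@[simp] lemma d1_ι (ρ t : ι → A) (i : ι) : d1 ρ t (FreeAlgebra.ι F i) = t i := by
  simp [d1, biHom]

lemma d1_mul (ρ t : ι → A) (a b : FreeAlgebra F ι) :
    d1 ρ t (a * b) = d1 ρ t a * ev ρ b + ev ρ a * d1 ρ t b := by
  obtain ⟨h1, -, -⟩ := biHom_diag (F := F) ρ t a
  obtain ⟨-, h2, -⟩ := biHom_diag (F := F) ρ t b
  simp only [d1, map_mul, Matrix.mul_apply, Fin.sum_univ_two, h1, h2]
  rw [add_comm]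

@[simp] lemma d1_add (ρ t : ι → A) (a b : FreeAlgebra F ι) :
    d1 ρ t (a + b) = d1 ρ t a + d1 ρ t b := by
  simp [d1]

@[simp] lemma d1_smul (ρ t : ι → A) (r : F) (a : FreeAlgebra F ι) :
    d1 ρ t (r • a) = r • d1 ρ t a := by
  simp [d1]

@[simp] lemma d1_zero (ρ t : ι → A) : d1 ρ t (0 : FreeAlgebra F ι) = 0 := by
  simp [d1]

lemma d1_add_t (ρ t t' : ι → A) (a : FreeAlgebra F ι) :
    d1 ρ (t + t') a = d1 ρ t a + d1 ρ t' a := by
  induction a using FreeAlgebra.induction with
  | grade0 r => simp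
  | grade1 i => simp
  | mul a b ha hb => simp only [d1_mul, ha, hb]; noncomm_ring
  | add a b ha hb => simp only [d1_add, ha, hb]; abel

@[simp] lemma d1_zero_t (ρ : ι → A) (a : FreeAlgebra F ι) : d1 ρ 0 a = 0 := by
  induction a using FreeAlgebra.induction with
  | grade0 r => simp
  | grade1 i => simp
  | mul a b ha hb => simp only [d1_mul, ha, hb]; simp
  | add a b ha hb => simp only [d1_add, ha, hb]; simp

lemma d1_smul_t {K : Type*} [Field K] [Algebra K A] (ρ t : ι → A) (r : K) (a : FreeAlgebra F ι) :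
    d1 ρ (r • t) a = r • d1 ρ t a := by
  induction a using FreeAlgebra.induction with
  | grade0 s => simp
  | grade1 i => simp
  | mul a b ha hb =>
      simp only [d1_mul, ha, hb, smul_add, smul_mul_assoc, mul_smul_comm]
  | add a b ha hb => simp only [d1_add, ha, hb, smul_add]

lemma triHom_entries (ρ t t' : ι → A) (a : FreeAlgebra F ι) :
    triHom ρ t t' a 0 0 = ev ρ a ∧ triHom ρ t t' a 1 1 = ev ρ a ∧ triHom ρ t t' a 2 2 = ev ρ a ∧
    triHom ρ t t' a 1 0 = 0 ∧ triHom ρ t t' a 2 0 = 0 ∧ triHom ρ t t' a 2 1 = 0 ∧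
    triHom ρ t t' a 0 1 = d1 ρ t a ∧ triHom ρ t t' a 1 2 = d1 ρ t' a := by
  induction a using FreeAlgebra.induction with
  | grade0 r =>
      simp only [AlgHom.commutes, Matrix.algebraMap_matrix_apply]
      simp
  | grade1 i => simp [triHom, ev, d1, biHom]
  | mul a b ha hb =>
      obtain ⟨h1, h2, h3, h4, h5, h6, h7, h8⟩ := ha
      obtain ⟨g1, g2, g3, g4, g5, g6, g7, g8⟩ := hb
      simp [Matrix.mul_apply, Fin.sum_univ_three, h1, h2, h3, h4, h5, h6, h7, h8, g1, g2, g3, g4,
        g5, g6, g7, g8, d1_mul]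
      exact ⟨add_comm _ _, add_comm _ _⟩
  | add a b ha hb =>
      obtain ⟨h1, h2, h3, h4, h5, h6, h7, h8⟩ := ha
      obtain ⟨g1, g2, g3, g4, g5, g6, g7, g8⟩ := hb
      simp [h1, h2, h3, h4, h5, h6, h7, h8, g1, g2, g3, g4, g5, g6, g7, g8]

@[simp] lemma d2_algebraMap (ρ t t' : ι → A) (r : F) :
    d2 ρ t t' (algebraMap F (FreeAlgebra F ι) r) = 0 := by
  simp [d2, Matrix.algebraMap_matrix_apply]

@[simp] lemma d2_ι (ρ t t' : ι → A) (i : ι) : d2 ρ t t' (FreeAlgebra.ι F i) = 0 := by
  simp [d2, triHom]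

lemma d2_mul (ρ t t' : ι → A) (a b : FreeAlgebra F ι) :
    d2 ρ t t' (a * b) = d2 ρ t t' a * ev ρ b + ev ρ a * d2 ρ t t' b + d1 ρ t a * d1 ρ t' b := by
  obtain ⟨h1, h2, h3, h4, h5, h6, h7, h8⟩ := triHom_entries (F := F) ρ t t' a
  obtain ⟨g1, g2, g3, g4, g5, g6, g7, g8⟩ := triHom_entries (F := F) ρ t t' b
  simp only [d2, map_mul, Matrix.mul_apply, Fin.sum_univ_three, h1, g3, h7, g8]
  abel

@[simp] lemma d2_add (ρ t t' : ι → A) (a b : FreeAlgebra F ι) :
    d2 ρ t t' (a + b) = d2 ρ t t' a + d2 ρ t t' b := by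
  simp [d2]

@[simp] lemma d2_smul (ρ t t' : ι → A) (r : F) (a : FreeAlgebra F ι) :
    d2 ρ t t' (r • a) = r • d2 ρ t t' a := by
  simp [d2]

lemma d2_add_left (ρ t t₁ t' : ι → A) (a : FreeAlgebra F ι) :
    d2 ρ (t + t₁) t' a = d2 ρ t t' a + d2 ρ t₁ t' a := by
  induction a using FreeAlgebra.induction with
  | grade0 r => simp
  | grade1 i => simp
  | mul a b ha hb => simp only [d2_mul, ha, hb, d1_add_t]; noncomm_ring
  | add a b ha hb => simp only [d2_add, ha, hb]; abel

lemma d2_add_right (ρ t t' t₁ : ι → A) (a : FreeAlgebra F ι) :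
    d2 ρ t (t' + t₁) a = d2 ρ t t' a + d2 ρ t t₁ a := by
  induction a using FreeAlgebra.induction with
  | grade0 r => simp
  | grade1 i => simp
  | mul a b ha hb => simp only [d2_mul, ha, hb, d1_add_t]; noncomm_ring
  | add a b ha hb => simp only [d2_add, ha, hb]; abel

lemma d2_smul_left {K : Type*} [Field K] [Algebra K A] (ρ t t' : ι → A) (r : K)
    (a : FreeAlgebra F ι) : d2 ρ (r • t) t' a = r • d2 ρ t t' a := by
  induction a using FreeAlgebra.induction with
  | grade0 s => simp
  | grade1 i => simp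
  | mul a b ha hb =>
      simp only [d2_mul, ha, hb, d1_smul_t, smul_add, smul_mul_assoc, mul_smul_comm]
  | add a b ha hb => simp only [d2_add, ha, hb, smul_add]

lemma d2_smul_right {K : Type*} [Field K] [Algebra K A] (ρ t t' : ι → A) (r : K)
    (a : FreeAlgebra F ι) : d2 ρ t (r • t') a = r • d2 ρ t t' a := by
  induction a using FreeAlgebra.induction with
  | grade0 s => simp
  | grade1 i => simp
  | mul a b ha hb =>
      simp only [d2_mul, ha, hb, d1_smul_t, smul_add, smul_mul_assoc, mul_smul_comm]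
  | add a b ha hb => simp only [d2_add, ha, hb, smul_add]

/-- A derivation (noncommutative setting: Mathlib's `Derivation` needs commutativity), additive and
killing the coefficients in `F`. -/
structure IsDer (D : A → A) : Prop where
  add : ∀ x y, D (x + y) = D x + D y
  mul : ∀ x y, D (x * y) = D x * y + x * D y
  alg : ∀ r : F, D (algebraMap F A r) = 0

variable {D : A → A}

lemma IsDer.zero (hD : IsDer (F := F) D) : D 0 = 0 := by
  have := hD.add 0 0
  simpa using this

lemma IsDer.smul (hD : IsDer (F := F) D) (r : F) (x : A) : D (r • x) = r • D x := by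
  rw [Algebra.smul_def, hD.mul, hD.alg, zero_mul, zero_add, Algebra.smul_def]

lemma IsDer.sub (hD : IsDer (F := F) D) (x y : A) : D (x - y) = D x - D y := by
  have := hD.add (x - y) y
  rw [sub_add_cancel] at this
  rw [this, add_sub_cancel_right]

/-- A derivation killing the coefficients moves the values by the first derivative. -/
theorem der_ev (hD : IsDer (F := F) D) (ρ : ι → A) (a : FreeAlgebra F ι) :
    D (ev ρ a) = d1 ρ (fun i => D (ρ i)) a := by
  induction a using FreeAlgebra.induction with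
  | grade0 r => simp [hD.alg]
  | grade1 i => simp
  | mul a b ha hb => simp only [map_mul, hD.mul, d1_mul, ha, hb]
  | add a b ha hb => simp only [map_add, hD.add, d1_add, ha, hb]

/-- Product rule for the first derivative: `D(∂a[τ]) = ∂a[Dτ] + B_a[Dρ,τ] + B_a[τ,Dρ]`. -/
theorem der_d1 (hD : IsDer (F := F) D) (ρ τ : ι → A) (a : FreeAlgebra F ι) :
    D (d1 ρ τ a) = d1 ρ (fun i => D (τ i)) a + d2 ρ (fun i => D (ρ i)) τ a
      + d2 ρ τ (fun i => D (ρ i)) a := by
  induction a using FreeAlgebra.induction with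
  | grade0 r => simp [hD.zero]
  | grade1 i => simp
  | mul a b ha hb =>
      simp only [d1_mul, d2_mul, hD.add, hD.mul, ha, hb, der_ev hD]
      noncomm_ring
  | add a b ha hb =>
      simp only [d1_add, d2_add, hD.add, ha, hb]
      abel

end Calculus


section State

variable {K A : Type*} [Field K] [Ring A] [Algebra K A]

/-- `ad β = [β, ·]` -/
noncomputable def adL (β : A) : A →ₗ[K] A :=
  LinearMap.mulLeft K β - LinearMap.mulRight K β

@[simp] lemma adL_apply (β x : A) : adL (K := K) β x = β * x - x * β := by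
  simp [adL]

/-- The centraliser of `β` as a `K`-subspace. -/
noncomputable def cent (β : A) : Submodule K A := LinearMap.ker (adL (K := K) β)

/-- The commutator space `[β,A]`. -/
noncomputable def imAd (β : A) : Submodule K A := LinearMap.range (adL (K := K) β)

lemma mem_cent {β x : A} : x ∈ cent (K := K) β ↔ β * x = x * β := by
  simp [cent, sub_eq_zero]

lemma mem_imAd {β x : A} : x ∈ imAd (K := K) β ↔ ∃ y, β * y - y * β = x := by
  simp [imAd]

/-- The data attached to a splitting `A = C(β) ⊕ [β,A]`. -/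
structure Split (β : A) where
  /-- projection to the centraliser along `[β,A]` -/
  e : A →ₗ[K] A
  /-- partial inverse of `ad β`, with values in `[β,A]` -/
  inv : A →ₗ[K] A
  e_mem : ∀ x, e x ∈ cent (K := K) β
  e_cent : ∀ x, x ∈ cent (K := K) β → e x = x
  e_imAd : ∀ x, x ∈ imAd (K := K) β → e x = 0
  inv_mem : ∀ x, inv x ∈ imAd (K := K) β
  ad_inv : ∀ x, β * inv x - inv x * β = x - e x

/-- The splitting data from `IsCompl`. -/
lemma exists_split {β : A} (h : IsCompl (cent (K := K) β) (imAd (K := K) β)) :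
    Nonempty (Split (K := K) β) := by
  classical
  -- restriction of `ad β` to `imAd β` is a bijection of `imAd β`
  let C := cent (K := K) β
  let R := imAd (K := K) β
  have hRmem : ∀ x : R, adL (K := K) β (x : A) ∈ R := fun x => LinearMap.mem_range_self _ _
  let f : R →ₗ[K] R := (adL (K := K) β ∘ₗ R.subtype).codRestrict R hRmem
  have hfv : ∀ x : R, (f x : A) = β * (x : A) - (x : A) * β := by
    intro x
    show adL (K := K) β (x : A) = _
    simp
  have hf_inj : Function.Injective f := by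
    rw [← LinearMap.ker_eq_bot, eq_bot_iff]
    intro x hx
    have h1 : β * (x : A) - (x : A) * β = 0 := by
      have := congrArg Subtype.val (LinearMap.mem_ker.mp hx)
      rw [hfv] at this
      simpa using this
    have h2 : (x : A) ∈ C := by
      show (x : A) ∈ cent (K := K) β
      rw [mem_cent]
      exact sub_eq_zero.mp h1
    have h3 : (x : A) ∈ C ⊓ R := ⟨h2, x.2⟩
    rw [h.inf_eq_bot] at h3
    simpa using h3
  have hf_surj : Function.Surjective f := by
    rintro ⟨y, hy⟩
    obtain ⟨z, rfl⟩ := LinearMap.mem_range.mp hy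
    have hz : z ∈ C ⊔ R := by rw [h.sup_eq_top]; trivial
    obtain ⟨c, hc, r, hr, rfl⟩ := Submodule.mem_sup.mp hz
    refine ⟨⟨r, hr⟩, ?_⟩
    apply Subtype.ext
    rw [hfv]
    have hc0 : β * c = c * β := mem_cent.mp hc
    simp only [adL_apply, mul_add, add_mul, hc0]
    abel
  let g : R ≃ₗ[K] R := LinearEquiv.ofBijective f ⟨hf_inj, hf_surj⟩
  let pC : A →ₗ[K] A := C.projection R h
  have hpC_mem : ∀ x, pC x ∈ C := fun x => Submodule.projection_apply_mem _ _
  let pR : A →ₗ[K] R := Submodule.projectionOnto R C h.symm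
  have hdecomp : ∀ x, pC x + (pR x : A) = x := by
    intro x
    have h1 := Submodule.projection_add_projection_eq_self h x
    have h2 := Submodule.coe_projectionOnto_apply h.symm x
    simp only [pC, pR]
    rw [h2]
    exact h1
  refine ⟨⟨pC, R.subtype ∘ₗ (g.symm : R →ₗ[K] R) ∘ₗ pR, hpC_mem, ?_, ?_, ?_, ?_⟩⟩
  · intro x hx
    exact Submodule.projection_apply_of_mem_left h hx
  · intro x hx
    exact (Submodule.projection_apply_eq_zero_iff h).mpr hx
  · intro x
    exact (g.symm (pR x)).2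
  · intro x
    have hg : f (g.symm (pR x)) = pR x := g.apply_symm_apply (pR x)
    have h3 : β * ((g.symm (pR x)) : A) - ((g.symm (pR x)) : A) * β = (pR x : A) := by
      have := congrArg Subtype.val hg
      rwa [hfv] at this
    have h4 : x - pC x = (pR x : A) := by
      rw [eq_sub_of_add_eq' (hdecomp x)]
    show β * ((g.symm (pR x)) : A) - ((g.symm (pR x)) : A) * β = x - pC x
    rw [h3, h4]

end State


section Point

variable {F K A ι : Type*} [Field F] [Field K] [Ring A] [Algebra F K] [Algebra K A] [Algebra F A]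
  [IsScalarTower F K A]

/-- A point together with a list of elements, a trace form, and splittings. -/
structure Pt (F K A ι : Type*) [Field F] [Field K] [Ring A] [Algebra F K] [Algebra K A]
    [Algebra F A] [IsScalarTower F K A] where
  /-- the point -/
  ρ : ι → A
  /-- the list; pad with `0` beyond its length -/
  a : ℕ → FreeAlgebra F ι
  /-- the trace form -/
  τ : A →ₗ[K] K
  τ_comm : ∀ x y, τ (x * y) = τ (y * x)
  τ_nondeg : ∀ x, (∀ y, τ (x * y) = 0) → x = 0
  /-- splitting data -/
  split : ∀ i, Split (K := K) (ev ρ (a i))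

namespace Pt

variable (P : Pt F K A ι)

/-- `β_i = a_i(ρ)` -/
noncomputable def β (i : ℕ) : A := ev P.ρ (P.a i)

/-- the projection to `C_i` along `[β_i,A]` -/
noncomputable def e (i : ℕ) : A →ₗ[K] A := (P.split i).e

/-- `t ↦ ∂a_i[t]` as a `K`-linear map -/
noncomputable def dL (i : ℕ) : (ι → A) →ₗ[K] A where
  toFun t := d1 P.ρ t (P.a i)
  map_add' t t' := d1_add_t _ _ _ _
  map_smul' r t := by simpa using d1_smul_t P.ρ t r (P.a i)

@[simp] lemma dL_apply (i : ℕ) (t : ι → A) : P.dL i t = d1 P.ρ t (P.a i) := rfl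

/-- `T^{<l}`: the `t` with `∂a_i[t] ∈ [β_i,A]` for all `i<l`. -/
noncomputable def T (l : ℕ) : Submodule K (ι → A) where
  carrier := {t | ∀ i < l, P.e i (P.dL i t) = 0}
  add_mem' := by
    intro t t' ht ht' i hi
    simp only [map_add, ht i hi, ht' i hi, add_zero]
  zero_mem' := by
    intro i _
    rw [map_zero, map_zero]
  smul_mem' := by
    intro r t ht i hi
    simp only [map_smul, ht i hi, smul_zero]

lemma mem_T {l : ℕ} {t : ι → A} : t ∈ P.T l ↔ ∀ i < l, P.e i (P.dL i t) = 0 := Iff.rfl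

lemma T_anti {l m : ℕ} (h : l ≤ m) : P.T m ≤ P.T l :=
  fun _ ht i hi => ht i (lt_of_lt_of_le hi h)

lemma mem_T_succ {l : ℕ} {t : ι → A} :
    t ∈ P.T (l + 1) ↔ t ∈ P.T l ∧ P.e l (P.dL l t) = 0 := by
  constructor
  · intro h
    exact ⟨P.T_anti (Nat.le_succ l) h, h l (Nat.lt_succ_self l)⟩
  · rintro ⟨h1, h2⟩ i hi
    rcases Nat.lt_succ_iff_lt_or_eq.mp hi with h | rfl
    · exact h1 i h
    · exact h2

/-- `w_i(t)`: the solution of `∂a_i[t] + [β_i,w] = 0` in `[β_i,A]`, for `t` with `∂a_i[t]∈[β_i,A]`. -/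
noncomputable def w (i : ℕ) : (ι → A) →ₗ[K] A := -((P.split i).inv ∘ₗ P.dL i)

lemma w_mem (i : ℕ) (t : ι → A) : P.w i t ∈ imAd (K := K) (P.β i) := by
  have := (P.split i).inv_mem (P.dL i t)
  simpa [w, β] using neg_mem this

/-- Always `∂a_i[t] + [β_i, w_i t] = e_i ∂a_i[t]`. -/
lemma dL_add_comm_w (i : ℕ) (t : ι → A) :
    P.dL i t + (P.β i * P.w i t - P.w i t * P.β i) = P.e i (P.dL i t) := by
  have h := (P.split i).ad_inv (P.dL i t)
  simp only [w, LinearMap.neg_apply, LinearMap.comp_apply]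
  have h' : P.β i * (P.split i).inv (P.dL i t) - (P.split i).inv (P.dL i t) * P.β i
      = P.dL i t - P.e i (P.dL i t) := h
  have h'' : P.β i * -(P.split i).inv (P.dL i t) - -(P.split i).inv (P.dL i t) * P.β i
      = -(P.β i * (P.split i).inv (P.dL i t) - (P.split i).inv (P.dL i t) * P.β i) := by
    noncomm_ring
  rw [h'', h']
  abel

lemma dL_eq_of_mem {l i : ℕ} (hi : i < l) {t : ι → A} (ht : t ∈ P.T l) :
    P.dL i t = -(P.β i * P.w i t - P.w i t * P.β i) := by
  have h := P.dL_add_comm_w i t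
  rw [ht i hi] at h
  exact eq_neg_of_add_eq_zero_left h

lemma e_mem (i : ℕ) (x : A) : P.β i * P.e i x = P.e i x * P.β i :=
  mem_cent.mp ((P.split i).e_mem x)

lemma e_of_mem_cent (i : ℕ) {x : A} (hx : P.β i * x = x * P.β i) : P.e i x = x :=
  (P.split i).e_cent x (mem_cent.mpr hx)

lemma e_of_mem_imAd (i : ℕ) {x : A} (hx : x ∈ imAd (K := K) (P.β i)) : P.e i x = 0 :=
  (P.split i).e_imAd x hx

lemma e_comm (i : ℕ) (y : A) : P.e i (P.β i * y - y * P.β i) = 0 :=
  P.e_of_mem_imAd i (mem_imAd.mpr ⟨y, rfl⟩)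

/-- Elements of `C_i` are orthogonal to `[β_i,A]`. -/
lemma τ_cent_comm {i : ℕ} {c : A} (hc : P.β i * c = c * P.β i) (y : A) :
    P.τ (c * (P.β i * y - y * P.β i)) = 0 := by
  have h1 : P.τ (c * (y * P.β i)) = P.τ (P.β i * (c * y)) := by
    rw [← mul_assoc, P.τ_comm]
  have h2 : P.β i * (c * y) = c * P.β i * y := by rw [← mul_assoc, hc]
  rw [mul_sub, map_sub, h1, h2, mul_assoc, sub_self]

/-- `x - e x` is a commutator. -/
lemma sub_e_eq (i : ℕ) (x : A) :
    x - P.e i x = P.β i * (P.split i).inv x - (P.split i).inv x * P.β i :=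
  ((P.split i).ad_inv x).symm

/-- Pairing with `c∈C_i` only sees `e_i`. -/
lemma τ_cent_e {i : ℕ} {c : A} (hc : P.β i * c = c * P.β i) (x : A) :
    P.τ (c * P.e i x) = P.τ (c * x) := by
  have h := P.τ_cent_comm hc ((P.split i).inv x)
  rw [← P.sub_e_eq, mul_sub, map_sub, sub_eq_zero] at h
  exact h.symm

/-- A vector orthogonal to `[β_i,A]` lies in `C_i`. -/
lemma cent_of_orth {i : ℕ} {c : A} (h : ∀ y, P.τ (c * (P.β i * y - y * P.β i)) = 0) :
    P.β i * c = c * P.β i := by
  have : c * P.β i - P.β i * c = 0 := by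
    apply P.τ_nondeg
    intro y
    have h1 : P.τ (c * (y * P.β i)) = P.τ (P.β i * (c * y)) := by
      rw [← mul_assoc, P.τ_comm]
    have h2 := h y
    rw [mul_sub, map_sub, h1, ← mul_assoc, ← mul_assoc] at h2
    rw [sub_mul, map_sub]
    exact h2
  exact (sub_eq_zero.mp this).symm

lemma e_mul_left {i : ℕ} {y : A} (hy : P.β i * y = y * P.β i) (x : A) :
    P.e i (y * x) = y * P.e i x := by
  have h1 : y * x = y * P.e i x + (P.β i * (y * (P.split i).inv x) - (y * (P.split i).inv x) * P.β i) := by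
    have h2 := P.sub_e_eq i x
    have h3 : x = P.e i x + (P.β i * (P.split i).inv x - (P.split i).inv x * P.β i) := by
      rw [← h2]; abel
    calc y * x = y * (P.e i x + (P.β i * (P.split i).inv x - (P.split i).inv x * P.β i)) := by
              rw [← h3]
      _ = _ := by
              rw [mul_add, mul_sub, ← mul_assoc y (P.β i), ← hy, mul_assoc, mul_assoc]
  rw [h1, map_add, P.e_comm, add_zero]
  apply P.e_of_mem_cent
  rw [← mul_assoc, hy, mul_assoc, P.e_mem, mul_assoc]

lemma e_mul_right {i : ℕ} {y : A} (hy : P.β i * y = y * P.β i) (x : A) :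
    P.e i (x * y) = P.e i x * y := by
  have h1 : x * y = P.e i x * y + (P.β i * ((P.split i).inv x * y) - ((P.split i).inv x * y) * P.β i) := by
    have h2 := P.sub_e_eq i x
    have h3 : x = P.e i x + (P.β i * (P.split i).inv x - (P.split i).inv x * P.β i) := by
      rw [← h2]; abel
    calc x * y = (P.e i x + (P.β i * (P.split i).inv x - (P.split i).inv x * P.β i)) * y := by
              rw [← h3]
      _ = _ := by
              rw [add_mul, sub_mul, mul_assoc (P.β i), mul_assoc _ (P.β i) y, hy, mul_assoc _ y]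
  rw [h1, map_add, P.e_comm, add_zero]
  apply P.e_of_mem_cent
  rw [← mul_assoc, P.e_mem, mul_assoc, hy, mul_assoc]

/-! ### The kernel `𝕂` -/

/-- `𝕂_r` (the kernel of the list `a_0,…,a_{r-1}`): vectors `c`, supported on `i<r`, `c_i ∈ C_i`,
with `∑ τ(c_i ∂a_i[t]) = 0` for all `t`. -/
noncomputable def KK (r : ℕ) : Submodule K (ℕ → A) where
  carrier := {c | (∀ i, r ≤ i → c i = 0) ∧ (∀ i, P.β i * c i = c i * P.β i) ∧
      ∀ t : ι → A, ∑ i ∈ Finset.range r, P.τ (c i * P.dL i t) = 0}
  add_mem' := by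
    rintro c c' ⟨h1, h2, h3⟩ ⟨h1', h2', h3'⟩
    refine ⟨fun i hi => by simp [h1 i hi, h1' i hi], fun i => ?_, fun t => ?_⟩
    · simp only [Pi.add_apply, mul_add, add_mul, h2 i, h2' i]
    · simp only [Pi.add_apply, add_mul, map_add, Finset.sum_add_distrib, h3 t, h3' t, add_zero]
  zero_mem' := by
    refine ⟨fun _ _ => rfl, fun i => ?_, fun t => ?_⟩ <;> simp
  smul_mem' := by
    rintro r c ⟨h1, h2, h3⟩
    refine ⟨fun i hi => by simp [h1 i hi], fun i => ?_, fun t => ?_⟩
    · simp only [Pi.smul_apply, mul_smul_comm, smul_mul_assoc, h2 i]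
    · have : ∀ i, P.τ ((r • c) i * P.dL i t) = r • P.τ (c i * P.dL i t) := by
        intro i
        simp only [Pi.smul_apply, smul_mul_assoc, map_smul]
      simp only [this, ← Finset.smul_sum, h3 t, smul_zero]

lemma mem_KK {r : ℕ} {c : ℕ → A} :
    c ∈ P.KK r ↔ (∀ i, r ≤ i → c i = 0) ∧ (∀ i, P.β i * c i = c i * P.β i) ∧
      ∀ t : ι → A, ∑ i ∈ Finset.range r, P.τ (c i * P.dL i t) = 0 := Iff.rfl

lemma KK_mono {l r : ℕ} (h : l ≤ r) : P.KK l ≤ P.KK r := by
  rintro c ⟨h1, h2, h3⟩
  refine ⟨fun i hi => h1 i (le_trans h hi), h2, fun t => ?_⟩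
  rw [← h3 t]
  symm
  apply Finset.sum_subset (Finset.range_mono h)
  intro i _ hi
  rw [h1 i (by simpa using hi), zero_mul, map_zero]

/-- A kernel vector of length `l+1` with zero newest component has length `l`. -/
lemma mem_KK_of_last {l : ℕ} {c : ℕ → A} (hc : c ∈ P.KK (l + 1)) (h0 : c l = 0) : c ∈ P.KK l := by
  obtain ⟨h1, h2, h3⟩ := hc
  refine ⟨fun i hi => ?_, h2, fun t => ?_⟩
  · rcases Nat.eq_or_lt_of_le hi with rfl | hi
    · exact h0
    · exact h1 i hi
  · have := h3 t
    rwa [Finset.sum_range_succ, h0, zero_mul, map_zero, add_zero] at this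

/-- For `c∈𝕂` and `t ∈ T^{<r}`... the sum of pairings of components against commutators vanish. -/
lemma sum_τ_comm {r : ℕ} {c : ℕ → A} (hc : c ∈ P.KK r) (y : ℕ → A) :
    ∑ i ∈ Finset.range r, P.τ (c i * (P.β i * y i - y i * P.β i)) = 0 :=
  Finset.sum_eq_zero fun i _ => P.τ_cent_comm (hc.2.1 i) _

/-- In finite dimension the trace form represents every functional. -/
lemma exists_rep [FiniteDimensional K A] (φ : A →ₗ[K] K) : ∃ c, ∀ y, φ y = P.τ (c * y) := by
  let T : A →ₗ[K] Module.Dual K A :=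
    { toFun := fun x => P.τ ∘ₗ LinearMap.mulLeft K x
      map_add' := by
        intro x y
        ext z
        simp [add_mul]
      map_smul' := by
        intro r x
        ext z
        simp [smul_mul_assoc] }
  have hinj : Function.Injective T := by
    rw [← LinearMap.ker_eq_bot, eq_bot_iff]
    intro x hx
    have h0 : ∀ y, P.τ (x * y) = 0 := fun y => by
      have := LinearMap.congr_fun (LinearMap.mem_ker.mp hx) y
      simpa [T] using this
    simpa using P.τ_nondeg x h0
  have hsurj : Function.Surjective T :=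
    (LinearMap.injective_iff_surjective_of_finrank_eq_finrank
      (Subspace.dual_finrank_eq (K := K) (V := A)).symm).mp hinj
  obtain ⟨c, hc⟩ := hsurj φ
  refine ⟨c, fun y => ?_⟩
  rw [← hc]
  simp [T]

/-- Functionals on a finite product are sums of pairings. -/
lemma exists_rep_pi [FiniteDimensional K A] {r : ℕ} (φ : (Fin r → A) →ₗ[K] K) :
    ∃ c : Fin r → A, ∀ y, φ y = ∑ i, P.τ (c i * y i) := by
  classical
  choose c hc using fun i : Fin r => P.exists_rep (φ ∘ₗ LinearMap.single K (fun _ => A) i)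
  refine ⟨c, fun y => ?_⟩
  conv_lhs => rw [← Finset.univ_sum_single y]
  rw [map_sum]
  refine Finset.sum_congr rfl fun i _ => ?_
  rw [← hc i (y i)]
  rfl

/-- **Solvability criterion** (`𝕂` is the dual of the cokernel of `𝕃`). -/
theorem solvable_iff [FiniteDimensional K A] (r : ℕ) (x : ℕ → A) :
    (∃ (t : ι → A) (w : ℕ → A), ∀ i < r, P.dL i t + (P.β i * w i - w i * P.β i) = x i) ↔
      ∀ c ∈ P.KK r, ∑ i ∈ Finset.range r, P.τ (c i * x i) = 0 := by
  classical
  constructor
  · rintro ⟨t, w, h⟩ c hc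
    have h1 : ∀ i ∈ Finset.range r, P.τ (c i * x i) =
        P.τ (c i * P.dL i t) + P.τ (c i * (P.β i * w i - w i * P.β i)) := by
      intro i hi
      rw [← h i (Finset.mem_range.mp hi), mul_add, map_add]
    rw [Finset.sum_congr rfl h1, Finset.sum_add_distrib, hc.2.2 t, P.sum_τ_comm hc, add_zero]
  · intro h
    by_contra hno
    -- the range of `𝕃` in `Fin r → A`
    let L : ((ι → A) × (Fin r → A)) →ₗ[K] (Fin r → A) :=
      { toFun := fun p i => P.dL i p.1 + (P.β i * p.2 i - p.2 i * P.β i)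
        map_add' := by
          intro p q
          funext i
          simp only [Prod.fst_add, Prod.snd_add, map_add, Pi.add_apply, mul_add, add_mul]
          abel
        map_smul' := by
          intro s p
          funext i
          simp only [Prod.smul_fst, Prod.smul_snd, map_smul, Pi.smul_apply, mul_smul_comm,
            smul_mul_assoc, RingHom.id_apply, smul_add, smul_sub] }
    let x' : Fin r → A := fun i => x i
    have hx' : x' ∉ LinearMap.range L := by
      rintro ⟨⟨t, w⟩, hw⟩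
      apply hno
      refine ⟨t, fun i => if hi : i < r then w ⟨i, hi⟩ else 0, fun i hi => ?_⟩
      have := congrFun hw ⟨i, hi⟩
      simpa [hi, L, x'] using this
    obtain ⟨φ, hφx, hφ⟩ := Submodule.exists_le_ker_of_notMem hx'
    obtain ⟨c, hc⟩ := P.exists_rep_pi φ
    let c' : ℕ → A := fun i => if hi : i < r then c ⟨i, hi⟩ else 0
    have hc'_val : ∀ i : Fin r, c' i = c i := fun i => by simp [c', i.2]
    have hsum : ∀ f : ℕ → A, ∑ i ∈ Finset.range r, P.τ (c' i * f i)
        = ∑ i : Fin r, P.τ (c i * f i) := by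
      intro f
      rw [← Fin.sum_univ_eq_sum_range (fun i => P.τ (c' i * f i))]
      exact Finset.sum_congr rfl fun i _ => by rw [hc'_val]
    have hvan : ∀ p, φ (L p) = 0 := fun p => hφ (LinearMap.mem_range_self _ _)
    have hc'mem : c' ∈ P.KK r := by
      refine ⟨fun i hi => ?_, fun i => ?_, fun t => ?_⟩
      · simp [c', not_lt.mpr hi]
      · by_cases hi : i < r
        · apply P.cent_of_orth
          intro y
          have h1 := hvan (0, Function.update 0 ⟨i, hi⟩ y)
          rw [hc] at h1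
          rw [Finset.sum_eq_single (⟨i, hi⟩ : Fin r)] at h1
          · have hc'i : c' i = c ⟨i, hi⟩ := hc'_val ⟨i, hi⟩
            rw [hc'i]
            simpa [L] using h1
          · intro j _ hj
            simp [L, hj]
          · simp
        · simp [c', hi]
      · rw [hsum (fun i => P.dL i t)]
        have h1 := hvan (t, 0)
        rw [hc] at h1
        simpa [L] using h1
    apply hφx
    rw [hc]
    have := h c' hc'mem
    rw [hsum x] at this
    exact this

/-! ### Moves and the graded pieces of the kernel -/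

/-- `Mov_l = Π_l(T^{<l})`, where `Π_l(t) = e_l ∂a_l[t]`. -/
noncomputable def Mov (l : ℕ) : Submodule K A :=
  (P.T l).map (P.e l ∘ₗ P.dL l)

lemma mem_Mov {l : ℕ} {x : A} : x ∈ P.Mov l ↔ ∃ t ∈ P.T l, P.e l (P.dL l t) = x := by
  simp [Mov]

/-- `gr_l 𝕂 ≅ Mov_l^⊥`: a `c_l∈C_l` is the newest component of a kernel vector iff it is
orthogonal to `Mov_l`. -/
theorem exists_lift_iff [FiniteDimensional K A] [Finite ι] (l : ℕ) {cl : A}
    (hcl : P.β l * cl = cl * P.β l) :
    (∃ c ∈ P.KK (l + 1), c l = cl) ↔ ∀ x ∈ P.Mov l, P.τ (cl * x) = 0 := by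
  classical
  constructor
  · rintro ⟨c, hc, rfl⟩ x hx
    obtain ⟨t, ht, rfl⟩ := P.mem_Mov.mp hx
    rw [P.τ_cent_e hcl]
    have h3 := hc.2.2 t
    rw [Finset.sum_range_succ] at h3
    have h4 : ∑ i ∈ Finset.range l, P.τ (c i * P.dL i t) = 0 := by
      refine Finset.sum_eq_zero fun i hi => ?_
      have hi' := Finset.mem_range.mp hi
      rw [← P.τ_cent_e (hc.2.1 i), ht i hi', mul_zero, map_zero]
    rwa [h4, zero_add] at h3
  · intro h
    -- the map `E t = (e_i ∂a_i[t])_{i<l}`
    let E : (ι → A) →ₗ[K] (Fin l → A) := LinearMap.pi fun i => P.e i ∘ₗ P.dL i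
    have hker : LinearMap.ker E ≤ P.T l := by
      intro t ht i hi
      have := congrFun (LinearMap.mem_ker.mp ht) ⟨i, hi⟩
      simpa [E] using this
    let f : Module.Dual K (ι → A) := P.τ ∘ₗ LinearMap.mulLeft K cl ∘ₗ P.dL l
    have hf : f ∈ (LinearMap.ker E).dualAnnihilator := by
      rw [Submodule.mem_dualAnnihilator]
      intro t ht
      have := h (P.e l (P.dL l t)) (P.mem_Mov.mpr ⟨t, hker ht, rfl⟩)
      rw [P.τ_cent_e hcl] at this
      simpa [f] using this
    rw [← LinearMap.range_dualMap_eq_dualAnnihilator_ker] at hf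
    obtain ⟨g, hg⟩ := hf
    obtain ⟨b, hb⟩ := P.exists_rep_pi g
    -- replace `b_i` by `c_i ∈ C_i`
    have hrep : ∀ i : ℕ, ∀ b0 : A, ∃ c0 : A, P.β i * c0 = c0 * P.β i ∧
        ∀ x, P.τ (c0 * x) = P.τ (b0 * P.e i x) := by
      intro i b0
      obtain ⟨c0, h0⟩ := P.exists_rep (P.τ ∘ₗ LinearMap.mulLeft K b0 ∘ₗ P.e i)
      refine ⟨c0, P.cent_of_orth fun y => ?_, fun x => ?_⟩
      · rw [← h0]
        simp [P.e_comm]
      · rw [← h0]
        simp
    let c1 : ℕ → A := fun i => if hi : i < l then -(hrep i (b ⟨i, hi⟩)).choose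
      else if i = l then cl else 0
    refine ⟨c1, ⟨fun i hi => ?_, fun i => ?_, fun t => ?_⟩, ?_⟩
    · have h1 : ¬ i < l := by omega
      have h2 : i ≠ l := by omega
      simp [c1, h1, h2]
    · by_cases hi : i < l
      · have := (hrep i (b ⟨i, hi⟩)).choose_spec.1
        simp only [c1, hi, dif_pos, mul_neg, neg_mul, this]
      · by_cases hil : i = l
        · subst hil
          simp [c1, hcl]
        · simp [c1, hi, hil]
    · rw [Finset.sum_range_succ]
      have hl : c1 l = cl := by simp [c1]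
      rw [hl]
      have hgt := LinearMap.congr_fun hg t
      have h2 : f t = ∑ i : Fin l, P.τ (b i * E t i) := by
        rw [← hgt]
        simp only [LinearMap.dualMap_apply]
        exact hb _
      have h3 : P.τ (cl * P.dL l t) = f t := rfl
      rw [h3, h2, ← Fin.sum_univ_eq_sum_range (fun i => P.τ (c1 i * P.dL i t)),
        ← Finset.sum_add_distrib]
      refine Finset.sum_eq_zero fun i _ => ?_
      have hi := i.2
      have h4 := (hrep i (b ⟨i, hi⟩)).choose_spec.2 (P.dL i t)
      simp only [c1, hi, dif_pos, neg_mul, map_neg]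
      rw [h4]
      simp [E]
    · simp [c1]

/-! ### The second order form -/

/-- `Γ_c(t,t') = ∑_{i<r} τ(c_i (B_i[t,t'] + ∂a_i[t] w_i(t')))`. -/
noncomputable def Gam (r : ℕ) (c : ℕ → A) (t t' : ι → A) : K :=
  ∑ i ∈ Finset.range r, P.τ (c i * (d2 P.ρ t t' (P.a i) + P.dL i t * P.w i t'))

/-- Symmetric part (without the factor `1/2`). -/
noncomputable def SS (r : ℕ) (c : ℕ → A) (t t' : ι → A) : K := P.Gam r c t t' + P.Gam r c t' t

/-- Antisymmetric part (without the factor `1/2`). -/
noncomputable def PP (r : ℕ) (c : ℕ → A) (t t' : ι → A) : K := P.Gam r c t t' - P.Gam r c t' t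

lemma Gam_add_left (r : ℕ) (c : ℕ → A) (t t₁ t' : ι → A) :
    P.Gam r c (t + t₁) t' = P.Gam r c t t' + P.Gam r c t₁ t' := by
  simp only [Gam, ← Finset.sum_add_distrib, ← map_add, ← mul_add]
  refine Finset.sum_congr rfl fun i _ => ?_
  rw [d2_add_left, map_add]
  congr 1
  noncomm_ring

lemma Gam_add_right (r : ℕ) (c : ℕ → A) (t t' t₁ : ι → A) :
    P.Gam r c t (t' + t₁) = P.Gam r c t t' + P.Gam r c t t₁ := by
  simp only [Gam, ← Finset.sum_add_distrib, ← map_add, ← mul_add]
  refine Finset.sum_congr rfl fun i _ => ?_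
  rw [d2_add_right, map_add]
  congr 1
  noncomm_ring

lemma Gam_smul_left (r : ℕ) (c : ℕ → A) (s : K) (t t' : ι → A) :
    P.Gam r c (s • t) t' = s * P.Gam r c t t' := by
  simp only [Gam, Finset.mul_sum]
  refine Finset.sum_congr rfl fun i _ => ?_
  rw [d2_smul_left, map_smul, smul_mul_assoc, ← smul_add, mul_smul_comm, map_smul, smul_eq_mul]

lemma Gam_smul_right (r : ℕ) (c : ℕ → A) (s : K) (t t' : ι → A) :
    P.Gam r c t (s • t') = s * P.Gam r c t t' := by
  simp only [Gam, Finset.mul_sum]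
  refine Finset.sum_congr rfl fun i _ => ?_
  rw [d2_smul_right, map_smul, mul_smul_comm, ← smul_add, mul_smul_comm, map_smul, smul_eq_mul]

lemma Gam_add_c (r : ℕ) (c c' : ℕ → A) (t t' : ι → A) :
    P.Gam r (c + c') t t' = P.Gam r c t t' + P.Gam r c' t t' := by
  simp only [Gam, ← Finset.sum_add_distrib, ← map_add, Pi.add_apply, add_mul]

lemma Gam_smul_c (r : ℕ) (s : K) (c : ℕ → A) (t t' : ι → A) :
    P.Gam r (s • c) t t' = s * P.Gam r c t t' := by
  simp only [Gam, Finset.mul_sum, Pi.smul_apply, smul_mul_assoc, map_smul, smul_eq_mul]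

/-- The two-move effect at a target: `ε₁₂Γ(t,t') + ε₂₁Γ(t',t) = ½((ε₁₂+ε₂₁)S + (ε₁₂-ε₂₁)P)`. -/
lemma eps_combo [CharZero K] (r : ℕ) (c : ℕ → A) (t t' : ι → A) (e₁ e₂ : K) :
    e₁ * P.Gam r c t t' + e₂ * P.Gam r c t' t =
      2⁻¹ * ((e₁ + e₂) * P.SS r c t t' + (e₁ - e₂) * P.PP r c t t') := by
  simp only [SS, PP]
  field_simp
  ring

variable {D : A → A}

/-- **The S-identity** (2.2): if `D` is a derivation killing the coefficients, `t = Dρ ∈ T`, then
`S_c(t,τ') = 0` for all `τ' ∈ T`. -/
theorem S_identity (hD : IsDer (F := F) D) {r : ℕ} {c : ℕ → A} (hc : c ∈ P.KK r)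
    {t τ' : ι → A} (ht : t = fun i => D (P.ρ i)) (htT : t ∈ P.T r) (hτ' : τ' ∈ P.T r) :
    P.SS r c t τ' = 0 := by
  have key : ∀ i ∈ Finset.range r,
      P.τ (c i * (d2 P.ρ t τ' (P.a i) + P.dL i t * P.w i τ')) +
        P.τ (c i * (d2 P.ρ τ' t (P.a i) + P.dL i τ' * P.w i t)) =
      - P.τ (c i * P.dL i (fun j => D (τ' j))) := by
    intro i hi
    have hi' := Finset.mem_range.mp hi
    set β := P.β i with hβ
    set w' := P.w i τ' with hw'
    set w0 := P.w i t with hw0
    have hcc : β * c i = c i * β := hc.2.1 i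
    have h1 : P.dL i τ' = -(β * w' - w' * β) := P.dL_eq_of_mem hi' hτ'
    have h2 : P.dL i t = -(β * w0 - w0 * β) := P.dL_eq_of_mem hi' htT
    have h3 : D β = P.dL i t := by
      have := der_ev hD P.ρ (P.a i)
      rw [ht]
      exact this
    -- apply `D` to `h1`
    have h4 : D (P.dL i τ') = P.dL i (fun j => D (τ' j)) + d2 P.ρ t τ' (P.a i)
        + d2 P.ρ τ' t (P.a i) := by
      have := der_d1 hD P.ρ τ' (P.a i)
      rw [← ht] at this
      exact this
    have h5 : D (P.dL i τ') = -(P.dL i t * w' + β * D w' - D w' * β - w' * P.dL i t) := by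
      rw [h1]
      have hneg : D (-(β * w' - w' * β)) = -D (β * w' - w' * β) := by
        have := hD.sub 0 (β * w' - w' * β)
        rw [zero_sub, hD.zero, zero_sub] at this
        exact this
      rw [hneg, hD.sub, hD.mul, hD.mul, h3]
      congr 1
      abel
    have h6 : d2 P.ρ t τ' (P.a i) + d2 P.ρ τ' t (P.a i) =
        -(P.dL i t * w' + β * D w' - D w' * β - w' * P.dL i t) - P.dL i (fun j => D (τ' j)) := by
      rw [← h5, h4]
      abel
    have h7 : P.τ (c i * (β * D w' - D w' * β)) = 0 := P.τ_cent_comm hcc _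
    -- the two `w`-terms cancel
    have h8 : P.τ (c i * (w' * P.dL i t)) + P.τ (c i * (P.dL i τ' * w0)) = 0 := by
      rw [h1, h2]
      have e1 : c i * (w' * -(β * w0 - w0 * β)) = -(c i * w' * β * w0) + c i * w' * w0 * β := by
        noncomm_ring
      have e2 : c i * (-(β * w' - w' * β) * w0) = -(c i * β * w' * w0) + c i * w' * β * w0 := by
        noncomm_ring
      rw [e1, e2, map_add, map_add, map_neg, map_neg]
      have e3 : P.τ (c i * w' * w0 * β) = P.τ (c i * β * w' * w0) := by
        rw [P.τ_comm, ← mul_assoc, ← mul_assoc, hcc]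
      rw [e3]
      abel
    have e : P.τ (c i * (d2 P.ρ t τ' (P.a i) + P.dL i t * w')) +
        P.τ (c i * (d2 P.ρ τ' t (P.a i) + P.dL i τ' * w0)) =
        P.τ (c i * (d2 P.ρ t τ' (P.a i) + d2 P.ρ τ' t (P.a i)))
          + P.τ (c i * (P.dL i t * w')) + P.τ (c i * (P.dL i τ' * w0)) := by
      simp only [mul_add, map_add]
      abel
    rw [e, h6]
    have e' : c i * (-(P.dL i t * w' + β * D w' - D w' * β - w' * P.dL i t)
        - P.dL i (fun j => D (τ' j))) =
        -(c i * (P.dL i t * w')) - c i * (β * D w' - D w' * β) + c i * (w' * P.dL i t)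
          - c i * P.dL i (fun j => D (τ' j)) := by
      noncomm_ring
    rw [e', map_sub, map_add, map_sub, map_neg, h7]
    have h8' : P.τ (c i * (w' * P.dL i t)) = - P.τ (c i * (P.dL i τ' * w0)) :=
      eq_neg_of_add_eq_zero_left h8
    rw [h8']
    ring
  have hsum := Finset.sum_congr rfl key
  rw [Finset.sum_add_distrib, Finset.sum_neg_distrib, hc.2.2] at hsum
  simpa [SS, Gam] using hsum

/-- Under a derivation killing the coefficients, `Dρ` satisfies `e_i ∂a_i[Dρ] = 0` as soon as `β_i`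
is a root of a polynomial `P_i` with coefficients killed by `D` and `P_i'(β_i)` is a unit.
Below: the power rule. -/
lemma e_der_pow (hD : IsDer (F := F) D) (i : ℕ) (k : ℕ) :
    P.e i (D (P.β i ^ (k + 1))) = ((k + 1 : ℕ) : A) * (P.β i ^ k * P.e i (D (P.β i))) := by
  induction k with
  | zero => simp
  | succ k ih =>
      have hpowc : P.β i * P.β i ^ (k + 1) = P.β i ^ (k + 1) * P.β i :=
        (pow_succ' _ _).symm.trans (pow_succ _ _)
      rw [pow_succ (P.β i) (k + 1), hD.mul, map_add, P.e_mul_right (y := P.β i) rfl,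
        P.e_mul_left hpowc, ih, mul_assoc, mul_assoc, ← P.e_mem, ← mul_assoc (P.β i ^ k), ← pow_succ]
      push_cast
      noncomm_ring

/-- `Dρ ∈ T` when `D` kills the coefficients of the `P_i`. -/
theorem der_mem_T (hD : IsDer (F := F) D) {r : ℕ} (Q : ℕ → Polynomial F)
    (hQ : ∀ i < r, Polynomial.aeval (P.β i) (Q i) = 0)
    (hQ' : ∀ i < r, IsUnit (Polynomial.aeval (P.β i) (Polynomial.derivative (Q i)))) :
    (fun j => D (P.ρ j)) ∈ P.T r := by
  intro i hi
  have hdβ : P.dL i (fun j => D (P.ρ j)) = D (P.β i) := (der_ev hD P.ρ (P.a i)).symm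
  rw [hdβ]
  -- the polynomial identity
  have hpoly : ∀ p : Polynomial F, P.e i (D (Polynomial.aeval (P.β i) p)) =
      Polynomial.aeval (P.β i) (Polynomial.derivative p) * P.e i (D (P.β i)) := by
    intro p
    induction p using Polynomial.induction_on' with
    | add p q hp hq =>
        simp only [map_add, hD.add, hp, hq, add_mul]
    | monomial k a =>
        have h1 : Polynomial.aeval (P.β i) (Polynomial.monomial k a) = a • P.β i ^ k := by
          rw [Polynomial.aeval_monomial, Algebra.smul_def]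
        have h2 : (P.e i) (a • D (P.β i ^ k)) = a • (P.e i) (D (P.β i ^ k)) := by
          rw [← algebraMap_smul K a (D (P.β i ^ k)), map_smul, algebraMap_smul]
        cases k with
        | zero =>
            simp [hD.alg]
        | succ k =>
            rw [h1, hD.smul, h2, P.e_der_pow hD, Polynomial.derivative_monomial,
              Polynomial.aeval_monomial, Algebra.smul_def]
            simp only [map_mul, map_natCast, mul_assoc, Nat.add_sub_cancel]
  have h0 := hpoly (Q i)
  rw [hQ i hi, hD.zero, map_zero] at h0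
  exact ((hQ' i hi).mul_right_eq_zero).mp h0.symm

end Pt

end Point

end Crest.Agent.Kurosh.State
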