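/-
S0270 (Kurosh), blueprint v3 §D, §G: invariants of a state, abstract over one stage.
`P : State.Pt F K A (Fin 2)`: `F` coefficient field, `K` central field, `A` f.d. division algebra,
`P.τ` the trace, `P.ρ` the state, `P.a` the list.

All definitions here are sorry-free. Notation of blueprint v3:
  II k = 𝕀(k)  Fy l y = F_y  Ay l y = A_y  Ly l y = 𝔏_y  PPy l y = 𝒫(y)
  PPl S l = 𝒫_l  RR S l = R_l  Annl l = 𝔸_l
  Rec = the numbers (n_l, σ_l, q_l) of the list, Valid = §G.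
-/
import Crest.Agent.Kurosh.State
import Crest.Agent.Kurosh.Rank

set_option autoImplicit false

namespace Crest.Agent.Kurosh.Inv

open State Module

variable {F K A : Type*} [Field F] [Field K] [DivisionRing A] [Algebra F K] [Algebra K A]
  [Algebra F A] [IsScalarTower F K A]

/-- The numbers attached to an entry of the list. -/
structure Rec where
  /-- `n_l`: `deg a_l(Z) = N/n_l` on the first optimal set -/
  n : ℕ
  /-- `σ_l`: `[𝖫:K] = N/σ_l` on the second optimal set -/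
  σ : ℕ
  /-- `q_l`: the stable defect -/
  q : ℕ

/-- `q#(k) = ∑_{u<k} q_u`. -/
def qS (R : ℕ → Rec) (k : ℕ) : ℕ := ∑ u ∈ Finset.range k, (R u).q

namespace St

variable (P : Pt F K A (Fin 2))

/-- `P_c` as a bilinear form in `t,t'`. -/
noncomputable def PPb (r : ℕ) (c : ℕ → A) : (Fin 2 → A) →ₗ[K] (Fin 2 → A) →ₗ[K] K :=
  LinearMap.mk₂ K (fun t t' => P.PP r c t t')
    (by
      intro t t₁ t'
      simp only [Pt.PP, Pt.Gam_add_left, Pt.Gam_add_right]
      ring)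
    (by
      intro s t t'
      simp only [Pt.PP, Pt.Gam_smul_left, Pt.Gam_smul_right, smul_eq_mul]
      ring)
    (by
      intro t t' t₁
      simp only [Pt.PP, Pt.Gam_add_left, Pt.Gam_add_right]
      ring)
    (by
      intro s t t'
      simp only [Pt.PP, Pt.Gam_smul_left, Pt.Gam_smul_right, smul_eq_mul]
      ring)

@[simp] lemma PPb_apply (r : ℕ) (c : ℕ → A) (t t' : Fin 2 → A) :
    PPb P r c t t' = P.PP r c t t' := rfl

/-- The rank of `P_c` on `𝕋 × 𝕋`. -/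
noncomputable def rkOn (r : ℕ) (c : ℕ → A) (TT : Submodule K (Fin 2 → A)) : ℕ :=
  finrank K (LinearMap.range ((PPb P r c).domRestrict₁₂ TT TT))

/-- `𝕀(k)`: the kernel vectors whose form `P_c` vanishes on `T(k) × T(k)`. -/
noncomputable def II (k : ℕ) : Submodule K (ℕ → A) where
  carrier := {c | c ∈ P.KK k ∧ ∀ t ∈ P.T k, ∀ t' ∈ P.T k, P.PP k c t t' = 0}
  add_mem' := by
    rintro c c' ⟨h1, h2⟩ ⟨h1', h2'⟩
    refine ⟨add_mem h1 h1', fun t ht t' ht' => ?_⟩
    simp only [Pt.PP, Pt.Gam_add_c]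
    have h3 := h2 t ht t' ht'
    have h4 := h2' t ht t' ht'
    simp only [Pt.PP] at h3 h4
    linear_combination h3 + h4
  zero_mem' := by
    refine ⟨zero_mem _, fun t _ t' _ => ?_⟩
    simp [Pt.PP, Pt.Gam]
  smul_mem' := by
    rintro s c ⟨h1, h2⟩
    refine ⟨Submodule.smul_mem _ s h1, fun t ht t' ht' => ?_⟩
    have h3 := h2 t ht t' ht'
    simp only [Pt.PP] at h3 ⊢
    simp only [Pt.Gam_smul_c]
    linear_combination s * h3

/-- `𝕀(k)` relative to `𝕋`: the kernel vectors `c` with `P_c = 0` on `𝕋 × T(k)`. For `𝕋 = T(k)` this is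
`II k`. At a valid state it is `{c ∈ 𝕂(k) : P_c = 0 on 𝕋 × 𝕋}` (by the rank clause and the lifts). -/
noncomputable def IIT (k : ℕ) (TT : Submodule K (Fin 2 → A)) : Submodule K (ℕ → A) where
  carrier := {c | c ∈ P.KK k ∧ ∀ t ∈ TT, ∀ τ ∈ P.T k, P.PP k c t τ = 0}
  add_mem' := by
    rintro c c' ⟨h1, h2⟩ ⟨h1', h2'⟩
    refine ⟨add_mem h1 h1', fun t ht t' ht' => ?_⟩
    simp only [Pt.PP, Pt.Gam_add_c]
    have h3 := h2 t ht t' ht'
    have h4 := h2' t ht t' ht'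
    simp only [Pt.PP] at h3 h4
    linear_combination h3 + h4
  zero_mem' := by
    refine ⟨zero_mem _, fun t _ t' _ => ?_⟩
    simp [Pt.PP, Pt.Gam]
  smul_mem' := by
    rintro s c ⟨h1, h2⟩
    refine ⟨Submodule.smul_mem _ s h1, fun t ht t' ht' => ?_⟩
    have h3 := h2 t ht t' ht'
    simp only [Pt.PP] at h3 ⊢
    simp only [Pt.Gam_smul_c]
    linear_combination s * h3

/-- `C_l`, the centraliser of `β_l`, as a `K`-subspace. -/
noncomputable abbrev Cl (l : ℕ) : Submodule K A := cent (K := K) (P.β l)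

/-- `𝔸_l = Ann_{C_l}(Mov_l)`. -/
noncomputable def Annl (l : ℕ) : Submodule K A where
  carrier := {x | x ∈ Cl P l ∧ ∀ z ∈ P.Mov l, P.τ (x * z) = 0}
  add_mem' := by
    rintro x x' ⟨h1, h2⟩ ⟨h1', h2'⟩
    exact ⟨add_mem h1 h1', fun z hz => by rw [add_mul, map_add, h2 z hz, h2' z hz, add_zero]⟩
  zero_mem' := ⟨zero_mem _, fun z _ => by simp⟩
  smul_mem' := by
    rintro s x ⟨h1, h2⟩
    exact ⟨Submodule.smul_mem _ s h1, fun z hz => by
      rw [smul_mul_assoc, map_smul, h2 z hz, smul_zero]⟩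

/-- `F_y = K[β_l, y]`. -/
noncomputable def Fy (l : ℕ) (y : A) : Subalgebra K A := Algebra.adjoin K {P.β l, y}

/-- The image of `W` under the `τ`-orthogonal projection to the subspace `E`:
the `f ∈ E` such that `τ(f f') = τ(z f')` for some `z ∈ W` and all `f' ∈ E`. For `E` a subfield
this is `e_E(W)` (no choice of a projection is involved in the definition). -/
noncomputable def eIm (E W : Submodule K A) : Submodule K A where
  carrier := {f | f ∈ E ∧ ∃ z ∈ W, ∀ f' ∈ E, P.τ (f * f') = P.τ (z * f')}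
  add_mem' := by
    rintro f f' ⟨h1, z, hz, h2⟩ ⟨h1', z', hz', h2'⟩
    exact ⟨add_mem h1 h1', z + z', add_mem hz hz', fun e he => by
      rw [add_mul, add_mul, map_add, map_add, h2 e he, h2' e he]⟩
  zero_mem' := ⟨zero_mem _, 0, zero_mem _, fun _ _ => by simp⟩
  smul_mem' := by
    rintro s f ⟨h1, z, hz, h2⟩
    exact ⟨Submodule.smul_mem _ s h1, s • z, Submodule.smul_mem _ s hz, fun e he => by
      rw [smul_mul_assoc, smul_mul_assoc, map_smul, map_smul, h2 e he]⟩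

/-- `A_y = e_{F_y}(Mov_l)`. -/
noncomputable def Ay (l : ℕ) (y : A) : Submodule K A :=
  eIm P (Subalgebra.toSubmodule (Fy P l y)) (P.Mov l)

/-- `𝔏_y = K[y⁻¹ A_y]`. -/
noncomputable def Ly (l : ℕ) (y : A) : Subalgebra K A :=
  Algebra.adjoin K ((fun x => y⁻¹ * x) '' (Ay P l y : Set A))

/-- `𝒫(y) = {p ∈ C(F_y) : τ(p y f) = 0 ∀ f ∈ 𝔏_y}`. -/
noncomputable def PPy (l : ℕ) (y : A) : Submodule K A where
  carrier := {p | p * P.β l = P.β l * p ∧ p * y = y * p ∧ ∀ f ∈ Ly P l y, P.τ (p * (y * f)) = 0}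
  add_mem' := by
    rintro p p' ⟨h1, h2, h3⟩ ⟨h1', h2', h3'⟩
    refine ⟨by rw [add_mul, mul_add, h1, h1'], by rw [add_mul, mul_add, h2, h2'], fun f hf => ?_⟩
    rw [add_mul, map_add, h3 f hf, h3' f hf, add_zero]
  zero_mem' := ⟨by simp, by simp, fun f _ => by simp⟩
  smul_mem' := by
    rintro s p ⟨h1, h2, h3⟩
    refine ⟨by rw [smul_mul_assoc, mul_smul_comm, h1], by rw [smul_mul_assoc, mul_smul_comm, h2],
      fun f hf => ?_⟩
    rw [smul_mul_assoc, map_smul, h3 f hf, smul_zero]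

/-- `𝒫_l = ∑_{y ∈ S_l} 𝒫(y)`. -/
noncomputable def PPl (S : ℕ → Set A) (l : ℕ) : Submodule K A := ⨆ y ∈ S l, PPy P l y

/-- `R_l = 𝒫_l^⊥ ∩ C_l`. -/
noncomputable def RR (S : ℕ → Set A) (l : ℕ) : Submodule K A where
  carrier := {x | x ∈ Cl P l ∧ ∀ p ∈ PPl P S l, P.τ (p * x) = 0}
  add_mem' := by
    rintro x x' ⟨h1, h2⟩ ⟨h1', h2'⟩
    exact ⟨add_mem h1 h1', fun z hz => by rw [mul_add, map_add, h2 z hz, h2' z hz, add_zero]⟩
  zero_mem' := ⟨zero_mem _, fun z _ => by simp⟩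
  smul_mem' := by
    rintro s x ⟨h1, h2⟩
    exact ⟨Submodule.smul_mem _ s h1, fun z hz => by
      rw [mul_smul_comm, map_smul, h2 z hz, smul_zero]⟩

/-- The inner directions `t = [ρ,w]`. -/
noncomputable def Inn : Submodule K (Fin 2 → A) :=
  LinearMap.range (LinearMap.pi fun v => adL (K := K) (P.ρ v))

/-- `y` is good for the index `l`, with the numbers `(n,σ,q)` and `dim A = N²` (blueprint §G). The
clause on `𝔏_y` is inherited along level-ups from the creation of the entry. -/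
structure Good (N : ℕ) (r : Rec) (l : ℕ) (y : A) : Prop where
  mem : y ∈ P.Mov l
  ne : y ≠ 0
  dimF : finrank K (Fy P l y) = N / r.n
  dimA : N / r.σ ≤ finrank K (Ay P l y) + r.q
  dimL : finrank K (Ly P l y) = N / r.σ

/-- The directions produced by derivations: `T_int = {Dρ : D derivation, D|F = 0, D K ⊂ K}`. -/
def Tint (t : Fin 2 → A) : Prop :=
  ∃ D : A → A, IsDer (F := F) D ∧ (∀ c : K, ∃ c' : K, D (algebraMap K A c) = algebraMap K A c') ∧
    t = fun v => D (P.ρ v)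

/-- `Smooth(k)`. -/
def Smooth (k : ℕ) : Prop := ∀ t ∈ P.T k, Tint P t

/-- A state valid for indices `u < l`, with `𝕋 ⊂ T(r)`, `l ≤ r` (blueprint §G with two numbers:
`l` = number of verified indices, `r` = the length of the list for the rank clause).
`Q u` are the frozen polynomials, `N² = dim A`. -/
structure Valid (N : ℕ) (R : ℕ → Rec) (Q : ℕ → Polynomial F) (l r : ℕ) (S : ℕ → Set A)
    (TT : Submodule K (Fin 2 → A)) : Prop where
  le : l ≤ r
  /-- normalisation of the trace -/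
  one : P.τ 1 = 1
  /-- V1: frozen values, separable -/
  frozen : ∀ u < r, Polynomial.aeval (P.β u) (Q u) = 0 ∧
    IsUnit (Polynomial.aeval (P.β u) (Polynomial.derivative (Q u)))
  /-- V2: the commutant of the state is `K` -/
  comm : ∀ x : A, (∀ v, x * P.ρ v = P.ρ v * x) → ∃ c : K, x = algebraMap K A c
  /-- the divisibility of the numbers -/
  dvd : ∀ u < r, (R u).n ∣ N ∧ (R u).σ ∣ N
  /-- a crude bound used to take `m` large -/
  qbd : qS R r ≤ N ^ 2
  /-- the stable defect is small (`RC` at the creation of the entry; needed for the multiplier E4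
  in the Lifting Lemma) -/
  q_small : ∀ u < r, 3 * (R u).q < N / (R u).σ
  /-- the witnesses -/
  S_ne : ∀ u < l, (S u).Nonempty
  S_good : ∀ u < l, ∀ y ∈ S u, Good P N (R u) u y
  /-- V4 -/
  mov_le : ∀ u < l, P.Mov u ≤ RR P S u
  mov_codim : ∀ u < l, finrank K (RR P S u) ≤ finrank K (P.Mov u) + (R u).q
  /-- V5: rank of the non-implied vectors -/
  rank : ∀ u < l, ∀ c ∈ P.KK (u + 1), c u ∉ PPl P S u → 5 * qS R r ≤ rkOn P r c TT
  /-- V5: implied vectors lift into `𝕀` -/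
  lift : ∀ u < l, ∀ p ∈ PPl P S u, ∃ c ∈ IIT P (u + 1) TT, c u = p
  /-- V7 -/
  big : ∀ u < l, ∀ y ∈ S u,
    N / (R u).σ ≤ finrank K (eIm P (Subalgebra.toSubmodule (Fy P u y)) (RR P S u))
  /-- V8 -/
  TT_le : TT ≤ P.T r
  TT_S : ∀ k ≤ r, ∀ t ∈ TT, ∀ c ∈ P.KK k, ∀ t' ∈ P.T k, P.SS k c t t' = 0
  TT_big : 2 * qS R r + 2 ≤ finrank K (↥TT) - finrank K ↥(TT ⊓ Inn P)

/-- An admissible pair for the prefix `k` in `𝕋`. -/
structure Adm (k : ℕ) (TT : Submodule K (Fin 2 → A)) (t1 t2 : Fin 2 → A) : Prop where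
  mem1 : t1 ∈ TT
  mem2 : t2 ∈ TT
  /-- the S-property for the prefix `k` -/
  S1 : ∀ c ∈ P.KK k, ∀ t' ∈ P.T k, P.SS k c t1 t' = 0
  S2 : ∀ c ∈ P.KK k, ∀ t' ∈ P.T k, P.SS k c t2 t' = 0
  /-- H1 -/
  H1 : ∀ c ∈ P.KK k, P.PP k c t1 t2 = 0
  /-- H2, joint surjectivity -/
  H2 : ∀ φ₁ φ₂ : (ℕ → A) →ₗ[K] K, (∀ c ∈ IIT P k TT, φ₁ c = 0) → (∀ c ∈ IIT P k TT, φ₂ c = 0) →
    ∃ t' ∈ TT, ∀ c ∈ P.KK k, P.PP k c t1 t' = φ₁ c ∧ P.PP k c t2 t' = φ₂ c
  /-- `t1, t2` independent modulo inner directions -/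
  indep : ∀ x y : K, x • t1 + y • t2 ∈ Inn P → x = 0 ∧ y = 0

/-- `allowed_k(K,j)` (`hK0 : K ≡ 0`, `hK1 : K ≡ -1`, `hj : j ≡ -1 ... ` given as propositions):
the `τ ∈ T(k)` with `P_𝕂(t1,τ)=0` unless `K≡0`, `P_𝕂(t2,τ)=0` if `K≡-1`, `j≢-1`
(a move at `(K,j)`, cf. `PSol.Obs_move_T`: the factors `ζ^K-1` and `ζ^K-ζ^j`). Use with
`hK0 := m ∣ K`, `hK1 := m ∣ K+1 ∧ ¬ m ∣ j+1`. -/
noncomputable def allowed (k : ℕ) (t1 t2 : Fin 2 → A) (hK0 hK1 : Prop) : Submodule K (Fin 2 → A) where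
  carrier := {τ | τ ∈ P.T k ∧ (¬ hK0 → ∀ c ∈ P.KK k, P.PP k c t1 τ = 0) ∧
    (hK1 → ∀ c ∈ P.KK k, P.PP k c t2 τ = 0)}
  add_mem' := by
    rintro τ τ' ⟨h1, h2, h3⟩ ⟨h1', h2', h3'⟩
    refine ⟨add_mem h1 h1', fun h c hc => ?_, fun h c hc => ?_⟩
    · have a := h2 h c hc; have b := h2' h c hc
      simp only [Pt.PP, Pt.Gam_add_left, Pt.Gam_add_right] at a b ⊢
      linear_combination a + b
    · have a := h3 h c hc; have b := h3' h c hc
      simp only [Pt.PP, Pt.Gam_add_left, Pt.Gam_add_right] at a b ⊢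
      linear_combination a + b
  zero_mem' := by
    refine ⟨zero_mem _, fun _ c _ => ?_, fun _ c _ => ?_⟩ <;>
      simpa using (PPb P k c _).map_zero
  smul_mem' := by
    rintro s τ ⟨h1, h2, h3⟩
    refine ⟨Submodule.smul_mem _ s h1, fun h c hc => ?_, fun h c hc => ?_⟩
    · have a := h2 h c hc
      simp only [Pt.PP, Pt.Gam_smul_left, Pt.Gam_smul_right] at a ⊢
      linear_combination s * a
    · have a := h3 h c hc
      simp only [Pt.PP, Pt.Gam_smul_left, Pt.Gam_smul_right] at a ⊢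
      linear_combination s * a

/-- `q(Z)`-part of the class condition `RC(Z)` for the index `k` (blueprint K.1). -/
def RC (N : ℕ) (R : ℕ → Rec) (k : ℕ) (ell : ℕ) : Prop :=
  3 * (ell - finrank K (P.Mov k)) < ell ∧
  ∀ c ∈ P.KK k, c ∉ II P k → 5 * qS R k + 2 * finrank K (P.Mov k) + 2 ≤ rkOn P k c (P.T k)

/-- The class bound for the index `k` at a class state `P`: `Mov_k ≠ 0` implies the three
optimality inequalities for `n`, `σ`, `q` (blueprint K.1). -/
def CB (N : ℕ) (R : ℕ → Rec) (k : ℕ) : Prop :=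
  ∀ y ∈ P.Mov k, y ≠ 0 →
    (R k).n * finrank K (Algebra.adjoin K {P.β k}) ≤ N ∧
    ((R k).n * finrank K (Algebra.adjoin K {P.β k}) = N →
      (R k).σ * finrank K (Ly P k y) ≤ N ∧
      ((R k).σ * finrank K (Ly P k y) = N → RC P N R k (finrank K (Ly P k y)) →
        (R k).q ≤ finrank K (Ly P k y) - finrank K (P.Mov k)))

end St

end Crest.Agent.Kurosh.Inv
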