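import Mathlib

/-!
# S0270 module M7: valued independence (abstract)

`U` is a division ring, `K` a central field (`Algebra K U`), `v` an additive valuation on `U` with
values in `WithTop G`.  No Hahn series here: everything is abstract, so the Hensel/Key/Lifting
modules can use it for the `s'`-order (value group `ℤ`, residue ring `A_I((s))`) or for any other
order.

* `val_sum_eq_of_min`: a finite sum with a strictly minimal term has the value of that term.
* `linearIndependent_of_val_distinct`: elements with values distinct modulo `v(Kˣ)` are independent.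
* `ResIndep`: "residues independent over the residue field of `K`" in residue-free form.
* `linearIndependent_mul_of_resIndep`: the products `r i * π j` are independent (fundamental
  inequality); `card_mul_card_le_finrank` is its numeric form `f * e ≤ [L : K]`.
-/

set_option autoImplicit false

namespace Crest.Agent.Kurosh.Valued

open Finset

section Valuation

variable {U : Type*} [DivisionRing U]
variable {G : Type*} [AddCommGroup G] [LinearOrder G] [IsOrderedAddMonoid G]

/-- In a division ring a valuation takes the value `⊤` only at `0`. -/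
theorem val_ne_top (v : AddValuation U (WithTop G)) {x : U} (hx : x ≠ 0) : v x ≠ ⊤ := by
  intro h
  have h1 : v (x * x⁻¹) = v x + v x⁻¹ := v.map_mul _ _
  rw [mul_inv_cancel₀ hx, v.map_one, h, top_add] at h1
  exact WithTop.zero_ne_top h1

theorem val_eq_top_iff (v : AddValuation U (WithTop G)) {x : U} : v x = ⊤ ↔ x = 0 :=
  ⟨fun h => by_contra fun hx => val_ne_top v hx h, fun h => by rw [h, v.map_zero]⟩

/-- A finite sum with a strictly minimal term has the value of that term. -/
theorem val_sum_eq_of_min (v : AddValuation U (WithTop G)) {ι : Type*} [DecidableEq ι]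
    (s : Finset ι) (f : ι → U) {i₀ : ι} (hi₀ : i₀ ∈ s)
    (hmin : ∀ i ∈ s, i ≠ i₀ → v (f i₀) < v (f i)) :
    v (∑ i ∈ s, f i) = v (f i₀) := by
  rw [← Finset.add_sum_erase s f hi₀]
  by_cases hE : s.erase i₀ = ∅
  · rw [hE]; simp
  have key : ∀ t : Finset ι, t ⊆ s.erase i₀ → t.Nonempty → v (f i₀) < v (∑ i ∈ t, f i) := by
    intro t
    induction t using Finset.induction_on with
    | empty => intro _ h; exact absurd h (by simp)
    | insert a t ha ih =>
      intro hsub _
      rw [Finset.sum_insert ha]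
      have hae : a ∈ s.erase i₀ := hsub (Finset.mem_insert_self _ _)
      have h1 : v (f i₀) < v (f a) :=
        hmin a (Finset.mem_of_mem_erase hae) (Finset.ne_of_mem_erase hae)
      rcases t.eq_empty_or_nonempty with h | h
      · subst h; simpa using h1
      · exact lt_of_lt_of_le (lt_min h1 (ih (fun x hx => hsub (Finset.mem_insert_of_mem hx)) h))
          (v.map_add _ _)
  exact v.map_add_eq_of_lt_left (key _ (Finset.Subset.refl _) (Finset.nonempty_iff_ne_empty.2 hE))

/-- If a finite family of nonzero elements has pairwise distinct values, the sum is nonzero. -/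
theorem sum_ne_zero_of_val_distinct (v : AddValuation U (WithTop G)) {ι : Type*} [DecidableEq ι]
    (s : Finset ι) (hs : s.Nonempty) (f : ι → U) (hf : ∀ i ∈ s, f i ≠ 0)
    (hd : ∀ i ∈ s, ∀ j ∈ s, i ≠ j → v (f i) ≠ v (f j)) : ∑ i ∈ s, f i ≠ 0 := by
  obtain ⟨i₀, hi₀, hmin⟩ := s.exists_min_image (fun i => v (f i)) hs
  have h := val_sum_eq_of_min v s f hi₀ (fun i hi hne =>
    lt_of_le_of_ne (hmin i hi) (hd i₀ hi₀ i hi (Ne.symm hne)))
  intro h0
  rw [h0, v.map_zero] at h
  exact val_ne_top v (hf i₀ hi₀) h.symm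

end Valuation

section Independence

variable {U : Type*} [DivisionRing U] {K : Type*} [Field K] [Algebra K U]
variable {G : Type*} [AddCommGroup G] [LinearOrder G] [IsOrderedAddMonoid G]

/-- Elements whose values are pairwise distinct modulo `v(Kˣ)` are `K`-linearly independent. -/
theorem linearIndependent_of_val_distinct (v : AddValuation U (WithTop G)) {ι : Type*}
    (x : ι → U) (hx : ∀ i, x i ≠ 0)
    (hd : ∀ i j, i ≠ j → ∀ a b : K, a ≠ 0 → b ≠ 0 → v (a • x i) ≠ v (b • x j)) :
    LinearIndependent K x := by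
  classical
  rw [linearIndependent_iff']
  intro s g hg
  by_contra hcon
  push Not at hcon
  obtain ⟨i₁, hi₁, hi₁0⟩ := hcon
  have hne : (s.filter fun i => g i ≠ 0).Nonempty := ⟨i₁, by simp [hi₁, hi₁0]⟩
  have h := sum_ne_zero_of_val_distinct v (s.filter fun i => g i ≠ 0) hne (fun i => g i • x i)
    (fun i hi => smul_ne_zero (by simpa using (Finset.mem_filter.1 hi).2) (hx i))
    (fun i hi j hj hij => hd i j hij (g i) (g j) (by simpa using (Finset.mem_filter.1 hi).2)
      (by simpa using (Finset.mem_filter.1 hj).2))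
  apply h
  rw [Finset.sum_filter_of_ne]
  · exact hg
  · intro i _ hi h0
    exact hi (by simp [h0])

/-- `v(a • x) = v(a • 1) + v x`. -/
theorem val_smul (v : AddValuation U (WithTop G)) (a : K) (x : U) :
    v (a • x) = v (a • (1 : U)) + v x := by
  rw [← v.map_mul, smul_mul_assoc, one_mul]

/-- "The residues of `r i` are independent over the residue field of `K`", in residue-free form:
an integral combination with some unit coefficient has value exactly `0`.  (If `res` is a residue
map with kernel `{v > 0}` on `{v ≥ 0}`, independence of the `res (r i)` over `res (O_K)` implies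
this; see `resIndep_of_res`.) -/
def ResIndep (v : AddValuation U (WithTop G)) (K : Type*) [Field K] [Algebra K U] {ι : Type*}
    (r : ι → U) : Prop :=
  ∀ (s : Finset ι) (c : ι → K), (∀ i ∈ s, 0 ≤ v (c i • (1 : U))) →
    (∃ i ∈ s, v (c i • (1 : U)) = 0) → v (∑ i ∈ s, c i • r i) = 0

/-- Fundamental inequality, independence form: residues independent and values distinct modulo
`v(Kˣ)` imply the products `r i * π j` are `K`-independent. -/
theorem linearIndependent_mul_of_resIndep (v : AddValuation U (WithTop G)) {ι κ : Type*}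
    (r : ι → U) (hr : ResIndep v K r) (π : κ → U) (hπ : ∀ j, π j ≠ 0)
    (hd : ∀ j j', j ≠ j' → ∀ a b : K, a ≠ 0 → b ≠ 0 → v (a • π j) ≠ v (b • π j')) :
    LinearIndependent K (fun p : ι × κ => r p.1 * π p.2) := by
  classical
  rw [linearIndependent_iff']
  intro t g hg
  by_contra hcon
  push Not at hcon
  obtain ⟨p₁, hp₁, hp₁0⟩ := hcon
  -- extend `g` by zero, regroup by `κ`
  let I : Finset ι := t.image Prod.fst
  let J : Finset κ := t.image Prod.snd
  let g' : ι → κ → K := fun i j => if (i, j) ∈ t then g (i, j) else 0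
  let y : κ → U := fun j => ∑ i ∈ I, g' i j • r i
  have hsum : ∑ j ∈ J, y j * π j = 0 := by
    rw [← hg]
    have h1 : ∀ j ∈ J, y j * π j = ∑ i ∈ I, g' i j • (r i * π j) := by
      intro j _
      simp only [y, Finset.sum_mul, smul_mul_assoc]
    rw [Finset.sum_congr rfl h1, ← Finset.sum_product']
    symm
    have hsub : t ⊆ (J ×ˢ I).image Prod.swap := by
      intro p hp
      refine Finset.mem_image.2 ⟨(p.2, p.1), ?_, by simp⟩
      exact Finset.mem_product.2 ⟨Finset.mem_image_of_mem _ hp, Finset.mem_image_of_mem _ hp⟩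
    have h2 : ∑ q ∈ J ×ˢ I, g' q.2 q.1 • (r q.2 * π q.1) =
        ∑ p ∈ (J ×ˢ I).image Prod.swap, g' p.1 p.2 • (r p.1 * π p.2) := by
      rw [Finset.sum_image (fun a _ b _ h => Prod.swap_injective h)]
      rfl
    rw [h2, ← Finset.sum_subset hsub]
    · apply Finset.sum_congr rfl
      intro p hp
      simp [g', hp]
    · intro p _ hp
      simp [g', hp]
  -- the nonzero groups
  let J' : Finset κ := J.filter fun j => ∃ i ∈ I, g' i j ≠ 0
  have hJ' : J'.Nonempty := by
    refine ⟨p₁.2, Finset.mem_filter.2 ⟨Finset.mem_image_of_mem _ hp₁, p₁.1,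
      Finset.mem_image_of_mem _ hp₁, ?_⟩⟩
    simpa [g', hp₁] using hp₁0
  -- for `j ∈ J'` pick a coefficient of minimal value
  have hpick : ∀ j ∈ J', ∃ a : K, a ≠ 0 ∧ ∃ w : U, y j = a • w ∧ v w = 0 := by
    intro j hj
    obtain ⟨-, i₀', hi₀', hne'⟩ := Finset.mem_filter.1 hj
    let I' := I.filter fun i => g' i j ≠ 0
    have hI' : I'.Nonempty := ⟨i₀', Finset.mem_filter.2 ⟨hi₀', hne'⟩⟩
    obtain ⟨i₀, hi₀, hmin⟩ := I'.exists_min_image (fun i => v (g' i j • (1 : U))) hI'
    have ha : g' i₀ j ≠ 0 := (Finset.mem_filter.1 hi₀).2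
    refine ⟨g' i₀ j, ha, ∑ i ∈ I, ((g' i₀ j)⁻¹ * g' i j) • r i, ?_, ?_⟩
    · simp only [y, Finset.smul_sum, smul_smul]
      apply Finset.sum_congr rfl
      intro i _
      rw [mul_inv_cancel_left₀ ha]
    · apply hr I
      · intro i hi
        by_cases h0 : g' i j = 0
        · simp [h0]
        · have hle := hmin i (Finset.mem_filter.2 ⟨hi, h0⟩)
          have h1 : ((g' i₀ j)⁻¹ * g' i j) • (1 : U) =
              ((g' i₀ j)⁻¹ • (1 : U)) * (g' i j • (1 : U)) := by
            rw [smul_mul_smul_comm, one_mul]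
          have h2 : v ((g' i₀ j)⁻¹ • (1 : U)) + v (g' i₀ j • (1 : U)) = 0 := by
            rw [← v.map_mul, smul_mul_smul_comm, one_mul, inv_mul_cancel₀ ha, one_smul, v.map_one]
          rw [h1, v.map_mul]
          calc (0 : WithTop G) = v ((g' i₀ j)⁻¹ • (1 : U)) + v (g' i₀ j • (1 : U)) := h2.symm
            _ ≤ _ := by gcongr
      · refine ⟨i₀, (Finset.mem_filter.1 hi₀).1, ?_⟩
        rw [inv_mul_cancel₀ ha, one_smul, v.map_one]
  choose! a ha w hy hw using hpick
  have hval : ∀ j ∈ J', v (y j * π j) = v (a j • π j) := by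
    intro j hj
    rw [hy j hj, smul_mul_assoc, val_smul v, v.map_mul, hw j hj, zero_add, val_smul v (a j) (π j)]
  have hne : ∀ j ∈ J', y j * π j ≠ 0 := by
    intro j hj
    refine mul_ne_zero ?_ (hπ j)
    rw [hy j hj]
    refine smul_ne_zero (ha j hj) ?_
    intro h0
    have := hw j hj
    rw [h0, v.map_zero] at this
    exact WithTop.top_ne_zero this
  have hfin := sum_ne_zero_of_val_distinct v J' hJ' (fun j => y j * π j) hne (by
    intro j hj j' hj' hjj
    rw [hval j hj, hval j' hj']
    exact hd j j' hjj _ _ (ha j hj) (ha j' hj'))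
  apply hfin
  have hsub : J' ⊆ J := Finset.filter_subset _ _
  rw [Finset.sum_subset hsub]
  · exact hsum
  · intro j hj hj'
    have h0 : ∀ i ∈ I, g' i j = 0 := by
      intro i hi
      by_contra hne
      exact hj' (Finset.mem_filter.2 ⟨hj, i, hi, hne⟩)
    simp only [y]
    rw [Finset.sum_eq_zero]
    · simp
    · intro i hi
      simp [h0 i hi]

/-- Fundamental inequality, numeric form: `f * e ≤ [L : K]`. -/
theorem card_mul_card_le_finrank (v : AddValuation U (WithTop G)) {ι κ : Type*} [Fintype ι]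
    [Fintype κ] (L : Submodule K U) [FiniteDimensional K L]
    (r : ι → U) (hr : ResIndep v K r) (π : κ → U) (hπ : ∀ j, π j ≠ 0)
    (hd : ∀ j j', j ≠ j' → ∀ a b : K, a ≠ 0 → b ≠ 0 → v (a • π j) ≠ v (b • π j'))
    (hL : ∀ i j, r i * π j ∈ L) :
    Fintype.card ι * Fintype.card κ ≤ Module.finrank K L := by
  have hli := linearIndependent_mul_of_resIndep v r hr π hπ hd
  let f : ι × κ → L := fun p => ⟨r p.1 * π p.2, hL p.1 p.2⟩
  have hf : LinearIndependent K f := by
    apply LinearIndependent.of_comp L.subtype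
    exact hli
  have := hf.fintype_card_le_finrank
  simpa [Fintype.card_prod] using this

/-- Bridge from a residue map: `res` is additive on the valuation ring, its kernel there is
`{v > 0}`, it is `O_K`-semilinear through `ρ` (the residue of `K`), and the residues are
independent over `ρ(O_K)`.  Then `ResIndep` holds. -/
theorem resIndep_of_res (v : AddValuation U (WithTop G)) {ι : Type*} {D : Type*} [Ring D]
    (r : ι → U) (hr0 : ∀ i, 0 ≤ v (r i))
    (res : U → D)
    (hadd : ∀ x y, 0 ≤ v x → 0 ≤ v y → res (x + y) = res x + res y)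
    (hzero : res 0 = 0)
    (hker : ∀ x, 0 ≤ v x → (res x = 0 ↔ 0 < v x))
    (hmul : ∀ x y, 0 ≤ v x → 0 ≤ v y → res (x * y) = res x * res y)
    (hind : ∀ (s : Finset ι) (c : ι → K), (∀ i ∈ s, 0 ≤ v (c i • (1 : U))) →
      ∑ i ∈ s, res (c i • (1 : U)) * res (r i) = 0 → ∀ i ∈ s, res (c i • (1 : U)) = 0) :
    ResIndep v K r := by
  classical
  intro s c hc ⟨i₀, hi₀, hunit⟩
  have hterm : ∀ i ∈ s, 0 ≤ v (c i • r i) := by
    intro i hi
    rw [val_smul v]
    exact add_nonneg (hc i hi) (hr0 i)
  have hsumnn : ∀ t : Finset ι, t ⊆ s → 0 ≤ v (∑ i ∈ t, c i • r i) ∧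
      res (∑ i ∈ t, c i • r i) = ∑ i ∈ t, res (c i • (1 : U)) * res (r i) := by
    intro t
    induction t using Finset.induction_on with
    | empty => intro _; simp [hzero]
    | insert a t ha ih =>
      intro hsub
      have hat := hterm a (hsub (Finset.mem_insert_self _ _))
      obtain ⟨h1, h2⟩ := ih (fun x hx => hsub (Finset.mem_insert_of_mem hx))
      rw [Finset.sum_insert ha, Finset.sum_insert ha]
      refine ⟨le_trans (le_min hat h1) (v.map_add _ _), ?_⟩
      rw [hadd _ _ hat h1, h2]
      congr 1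
      have : c a • r a = (c a • (1 : U)) * r a := by rw [smul_mul_assoc, one_mul]
      rw [this, hmul _ _ (hc a (hsub (Finset.mem_insert_self _ _))) (hr0 a)]
  obtain ⟨hnn, hres⟩ := hsumnn s (Finset.Subset.refl _)
  by_contra hne
  have hpos : 0 < v (∑ i ∈ s, c i • r i) := lt_of_le_of_ne hnn (Ne.symm hne)
  have h0 : res (∑ i ∈ s, c i • r i) = 0 := (hker _ hnn).2 hpos
  rw [hres] at h0
  have := hind s c hc h0 i₀ hi₀
  rw [(hker _ (hc i₀ hi₀)) ] at this
  rw [hunit] at this
  exact lt_irrefl _ this

end Independence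

section Kummer

/-- Kummer lemma: if `ζ_m ∈ E`, `w ^ m ∈ E` and the degree of `w` over `E` is prime to `m`, then
`w ∈ E`. -/
theorem mem_fieldRange_of_pow_mem_of_coprime {E F : Type*} [Field E] [Field F] [Algebra E F]
    {m : ℕ} (hm : 0 < m) {ζ : E} (hζ : IsPrimitiveRoot ζ m) {w : F}
    (hw : w ^ m ∈ (algebraMap E F).fieldRange)
    (hdeg : (minpoly E w).natDegree.Coprime m) :
    w ∈ (algebraMap E F).fieldRange := by
  classical
  by_cases hw0 : w = 0
  · rw [hw0]; exact zero_mem _
  obtain ⟨a, ha⟩ := hw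
  have hζ' : IsPrimitiveRoot (algebraMap E F ζ) m :=
    hζ.map_of_injective (algebraMap E F).injective
  -- `w` is integral
  have hroot : Polynomial.aeval w (Polynomial.X ^ m - Polynomial.C a) = 0 := by
    simp [← ha, Algebra.algebraMap_eq_smul_one]
  have hne : (Polynomial.X ^ m - Polynomial.C a : Polynomial E) ≠ 0 :=
    Polynomial.X_pow_sub_C_ne_zero hm a
  have hint : IsIntegral E w := by
    refine ⟨(Polynomial.C (Polynomial.leadingCoeff (Polynomial.X ^ m - Polynomial.C a))⁻¹ *
      (Polynomial.X ^ m - Polynomial.C a)), Polynomial.monic_C_mul_of_mul_leadingCoeff_eq_one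
        (by simp [hne]), ?_⟩
    rw [Polynomial.eval₂_mul]
    have : Polynomial.eval₂ (algebraMap E F) w (Polynomial.X ^ m - Polynomial.C a) = 0 := hroot
    rw [this, mul_zero]
  set f := minpoly E w with hf
  have hfm : f.Monic := minpoly.monic hint
  have hdvd : f ∣ Polynomial.X ^ m - Polynomial.C a := minpoly.dvd E w hroot
  -- `f` splits over `F`, with roots `ζ ^ i * w`
  have hsplitM : ((Polynomial.X ^ m - Polynomial.C a : Polynomial E).map (algebraMap E F)).Splits := by
    have : (Polynomial.X ^ m - Polynomial.C a : Polynomial E).map (algebraMap E F) =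
        ∏ i ∈ Finset.range m, (Polynomial.X - Polynomial.C ((algebraMap E F ζ) ^ i * w)) := by
      rw [Polynomial.map_sub, Polynomial.map_pow, Polynomial.map_X, Polynomial.map_C, ha]
      exact X_pow_sub_C_eq_prod hζ' hm rfl
    rw [this]
    exact Polynomial.Splits.prod (fun i _ => Polynomial.Splits.X_sub_C _)
  have hsplit : (f.map (algebraMap E F)).Splits :=
    hsplitM.of_dvd (Polynomial.map_ne_zero hne) (Polynomial.map_dvd _ hdvd)
  have hroots : ∀ ρ ∈ (f.map (algebraMap E F)).roots, ∃ z : E, z ≠ 0 ∧ ρ = algebraMap E F z * w := by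
    intro ρ hρ
    have hρ0 : (f.map (algebraMap E F)).IsRoot ρ := Polynomial.isRoot_of_mem_roots hρ
    have h1 : ρ ^ m = algebraMap E F a := by
      have h2 := Polynomial.eval_eq_zero_of_dvd_of_eval_eq_zero
        (Polynomial.map_dvd (algebraMap E F) hdvd) hρ0
      simpa [sub_eq_zero] using h2
    have h3 : (ρ / w) ^ m = 1 := by
      rw [div_pow, h1, ha, div_self (pow_ne_zero _ hw0)]
    have : NeZero m := ⟨hm.ne'⟩
    obtain ⟨i, _, hi⟩ := hζ'.eq_pow_of_pow_eq_one h3
    refine ⟨ζ ^ i, pow_ne_zero _ (hζ.ne_zero hm.ne'), ?_⟩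
    rw [map_pow, hi, div_mul_cancel₀ _ hw0]
  have hprod : ∀ M : Multiset F, (∀ ρ ∈ M, ∃ z : E, z ≠ 0 ∧ ρ = algebraMap E F z * w) →
      ∃ z : E, z ≠ 0 ∧ M.prod = algebraMap E F z * w ^ (Multiset.card M) := by
    intro M
    induction M using Multiset.induction_on with
    | empty => intro _; exact ⟨1, one_ne_zero, by simp⟩
    | cons ρ M ih =>
      intro h
      obtain ⟨z₁, hz₁0, hz₁⟩ := h ρ (Multiset.mem_cons_self _ _)
      obtain ⟨z₂, hz₂0, hz₂⟩ := ih (fun x hx => h x (Multiset.mem_cons_of_mem hx))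
      refine ⟨z₁ * z₂, mul_ne_zero hz₁0 hz₂0, ?_⟩
      rw [Multiset.prod_cons, hz₂, hz₁, Multiset.card_cons, map_mul, pow_succ]
      ring
  obtain ⟨z, hz0, hz⟩ := hprod _ hroots
  have hcard : Multiset.card (f.map (algebraMap E F)).roots = f.natDegree := by
    have := hsplit.natDegree_eq_card_roots
    rw [Polynomial.natDegree_map] at this
    exact this.symm
  have hcoeff := hsplit.coeff_zero_eq_prod_roots_of_monic (hfm.map _)
  rw [hz, hcard, Polynomial.natDegree_map, Polynomial.coeff_map] at hcoeff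
  have hwd : w ^ f.natDegree ∈ (algebraMap E F).fieldRange := by
    set c' : E := (-1) ^ f.natDegree * z with hc'
    have hc'0 : c' ≠ 0 := mul_ne_zero (pow_ne_zero _ (by simp)) hz0
    have h1 : algebraMap E F (f.coeff 0) = algebraMap E F c' * w ^ f.natDegree := by
      rw [hcoeff, hc', map_mul, map_pow, map_neg, map_one]
      ring
    refine ⟨f.coeff 0 * c'⁻¹, ?_⟩
    rw [map_mul, map_inv₀, h1]
    have : algebraMap E F c' ≠ 0 := (map_ne_zero _).2 hc'0
    field_simp
  have hwm : w ^ m ∈ (algebraMap E F).fieldRange := ⟨a, ha⟩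
  -- Bezout
  have hgcd : Int.gcd f.natDegree m = 1 := by simpa using hdeg
  have hbez : (f.natDegree : ℤ) * Int.gcdA f.natDegree m + m * Int.gcdB f.natDegree m = 1 := by
    have := Int.gcd_eq_gcd_ab f.natDegree m
    rw [hgcd] at this
    simpa using this.symm
  have hfinal : w = (w ^ f.natDegree) ^ (Int.gcdA f.natDegree m) * (w ^ m) ^ (Int.gcdB f.natDegree m) := by
    rw [← zpow_natCast, ← zpow_natCast, ← zpow_mul, ← zpow_mul, ← zpow_add₀ hw0, hbez, zpow_one]
  rw [hfinal]
  exact mul_mem (zpow_mem hwd _) (zpow_mem hwm _)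

end Kummer

section Trace

variable {K A : Type*} [Field K] [DivisionRing A] [Algebra K A]

/-- The centraliser of `β`, as a `K`-subspace. -/
def cent (K : Type*) {A : Type*} [Field K] [DivisionRing A] [Algebra K A] (β : A) :
    Submodule K A where
  carrier := {x | x * β = β * x}
  add_mem' := by
    intro x y hx hy
    simp only [Set.mem_ofPred_eq] at *
    rw [add_mul, mul_add, hx, hy]
  zero_mem' := by simp
  smul_mem' := by
    intro c x hx
    simp only [Set.mem_ofPred_eq] at *
    rw [smul_mul_assoc, mul_smul_comm, hx]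

/-- `ad β : y ↦ β y - y β` as a `K`-linear map. -/
def ad (K : Type*) {A : Type*} [Field K] [DivisionRing A] [Algebra K A] (β : A) : A →ₗ[K] A where
  toFun y := β * y - y * β
  map_add' := by
    intro x y
    rw [mul_add, add_mul]
    abel
  map_smul' := by
    intro c x
    simp only [RingHom.id_apply]
    rw [mul_smul_comm, smul_mul_assoc, smul_sub]

theorem mem_cent {β x : A} : x ∈ cent K β ↔ x * β = β * x := Iff.rfl

theorem ad_apply (β y : A) : ad K β y = β * y - y * β := rfl

theorem ker_ad (β : A) : LinearMap.ker (ad K β) = cent K β := by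
  ext x
  simp only [LinearMap.mem_ker, ad_apply, mem_cent, sub_eq_zero]
  exact ⟨Eq.symm, Eq.symm⟩

/-- A `K`-linear trace form `τ : A → K`: cyclic, normalised, nondegenerate. -/
structure IsTraceForm (τ : A →ₗ[K] K) : Prop where
  comm : ∀ x y, τ (x * y) = τ (y * x)
  one : τ 1 = 1
  nondeg : ∀ x, x ≠ 0 → ∃ y, τ (x * y) ≠ 0

variable {τ : A →ₗ[K] K}

/-- `x` is orthogonal to all commutators `[β, y]` iff it commutes with `β`. -/
theorem mem_cent_iff_orthogonal (hτ : IsTraceForm τ) (β x : A) :
    x ∈ cent K β ↔ ∀ y, τ (x * ad K β y) = 0 := by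
  have key : ∀ y, τ (x * ad K β y) = τ ((x * β - β * x) * y) := by
    intro y
    rw [ad_apply, mul_sub, sub_mul, map_sub, map_sub, ← mul_assoc x y β, hτ.comm (x * y) β,
      ← mul_assoc x β y, ← mul_assoc β x y]
  constructor
  · intro hx y
    rw [key, mem_cent.1 hx]
    simp
  · intro h
    by_contra hx
    have hne : x * β - β * x ≠ 0 := sub_ne_zero.2 hx
    obtain ⟨y, hy⟩ := hτ.nondeg _ hne
    exact hy (by rw [← key]; exact h y)

/-- The centraliser is closed under inverses. -/
theorem inv_mem_cent {β c : A} (hc : c ∈ cent K β) : c⁻¹ ∈ cent K β := by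
  by_cases h0 : c = 0
  · simp [h0, (cent K β).zero_mem]
  rw [mem_cent] at hc ⊢
  calc c⁻¹ * β = c⁻¹ * (β * c) * c⁻¹ := by
        rw [mul_assoc c⁻¹ _ c⁻¹, mul_assoc β, mul_inv_cancel₀ h0, mul_one]
    _ = c⁻¹ * (c * β) * c⁻¹ := by rw [hc]
    _ = β * c⁻¹ := by rw [inv_mul_cancel_left₀ h0]

/-- Centraliser and commutator space meet in `0`; no separability needed. -/
theorem disjoint_cent_range_ad (hτ : IsTraceForm τ) (β : A) :
    Disjoint (cent K β) (LinearMap.range (ad K β)) := by
  rw [Submodule.disjoint_def]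
  intro c hc hr
  by_contra h0
  obtain ⟨y, hy⟩ := hr
  have h1 := (mem_cent_iff_orthogonal hτ β c⁻¹).1 (inv_mem_cent hc) y
  rw [hy, inv_mul_cancel₀ h0, hτ.one] at h1
  exact one_ne_zero h1

/-- In finite dimension `A = C(β) ⊕ [β, A]`. -/
theorem isCompl_cent_range_ad [FiniteDimensional K A] (hτ : IsTraceForm τ) (β : A) :
    IsCompl (cent K β) (LinearMap.range (ad K β)) := by
  rw [Submodule.isCompl_iff_disjoint]
  · exact disjoint_cent_range_ad hτ β
  · have := LinearMap.finrank_range_add_finrank_ker (ad K β)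
    rw [ker_ad] at this
    omega

/-- The orthogonal projection `e : A → C(β)`. -/
noncomputable def proj [FiniteDimensional K A] (hτ : IsTraceForm τ) (β : A) : A →ₗ[K] cent K β :=
  Submodule.projectionOnto _ _ (isCompl_cent_range_ad hτ β)

theorem proj_apply_cent [FiniteDimensional K A] (hτ : IsTraceForm τ) (β : A) (c : cent K β) :
    proj hτ β (c : A) = c :=
  Submodule.projectionOnto_apply_left (isCompl_cent_range_ad hτ β) c

theorem proj_apply_ad [FiniteDimensional K A] (hτ : IsTraceForm τ) (β y : A) :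
    proj hτ β (ad K β y) = 0 :=
  Submodule.projectionOnto_apply_of_mem_right (isCompl_cent_range_ad hτ β) (LinearMap.mem_range_self _ y)

/-- `x - e(x)` is a commutator. -/
theorem sub_proj_mem_range [FiniteDimensional K A] (hτ : IsTraceForm τ) (β x : A) :
    x - (proj hτ β x : A) ∈ LinearMap.range (ad K β) := by
  have h := isCompl_cent_range_ad hτ β
  obtain ⟨c, r, hc, hr, rfl⟩ : ∃ c r, c ∈ cent K β ∧ r ∈ LinearMap.range (ad K β) ∧ c + r = x := by
    have : x ∈ cent K β ⊔ LinearMap.range (ad K β) := by rw [h.sup_eq_top]; trivial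
    obtain ⟨c, hc, r, hr, hx⟩ := Submodule.mem_sup.1 this
    exact ⟨c, r, hc, hr, hx⟩
  obtain ⟨y, rfl⟩ := hr
  have h1 : proj hτ β (c + ad K β y) = ⟨c, hc⟩ := by
    rw [map_add, proj_apply_ad, add_zero]
    exact proj_apply_cent hτ β ⟨c, hc⟩
  rw [h1]
  simp

/-- `e` is the `τ`-orthogonal projection: `τ(c e(x)) = τ(c x)` for `c` in the centraliser. -/
theorem trace_mul_proj [FiniteDimensional K A] (hτ : IsTraceForm τ) (β : A) {c : A}
    (hc : c ∈ cent K β) (x : A) : τ (c * (proj hτ β x : A)) = τ (c * x) := by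
  obtain ⟨y, hy⟩ := sub_proj_mem_range hτ β x
  have h1 := (mem_cent_iff_orthogonal hτ β c).1 hc y
  rw [hy, mul_sub, map_sub, sub_eq_zero] at h1
  exact h1.symm

/-- The centraliser acts on commutators: `c [β, y] = [β, c y]`. -/
theorem mul_ad_of_mem_cent {β c : A} (hc : c ∈ cent K β) (y : A) :
    c * ad K β y = ad K β (c * y) := by
  rw [ad_apply, ad_apply, mul_sub, ← mul_assoc, mem_cent.1 hc, mul_assoc, mul_assoc]

theorem ad_mul_of_mem_cent {β c : A} (hc : c ∈ cent K β) (y : A) :
    ad K β y * c = ad K β (y * c) := by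
  rw [ad_apply, ad_apply, sub_mul, mul_assoc, mul_assoc, ← mem_cent.1 hc, mul_assoc]

/-- `e` is `C(β)`-bilinear: `e(c x) = c e(x)`. -/
theorem proj_mul_left [FiniteDimensional K A] (hτ : IsTraceForm τ) (β : A) {c : A}
    (hc : c ∈ cent K β) (x : A) : (proj hτ β (c * x) : A) = c * (proj hτ β x : A) := by
  obtain ⟨y, hy⟩ := sub_proj_mem_range hτ β x
  have hx : x = (proj hτ β x : A) + ad K β y := by rw [hy]; abel
  have hcm : c * (proj hτ β x : A) ∈ cent K β := by
    rw [mem_cent, mul_assoc, mem_cent.1 (proj hτ β x).2, ← mul_assoc, mem_cent.1 hc, mul_assoc]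
  have h1 : c * x = c * (proj hτ β x : A) + ad K β (c * y) := by
    conv_lhs => rw [hx]
    rw [mul_add, mul_ad_of_mem_cent hc]
  rw [h1, map_add, proj_apply_ad, add_zero]
  exact congrArg Subtype.val (proj_apply_cent hτ β ⟨_, hcm⟩)

end Trace

end Crest.Agent.Kurosh.Valued
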