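import Crest.Agent.Kurosh.Inertial
import Crest.Agent.Kurosh.Valued

/-!
# S0270 module M8a: the algebra of the Key Lemma, part 1 (abstract)

`R` is a complete valued division ring, `K` a central field with a continuous nondegenerate form;
think `R = A((s))`, `K = K_I((s^m))`, `v` the `s`-order.  Nothing here knows about Hahn series, states
or lists.

* `first_order_of_conj`: if `κ ≡ 1` mod `n` and `ν ≡ y` mod `n`, then `g = κ⁻¹ ν κ` satisfies
  `g ≡ y` mod `n` and `ν - g ≡ [κ - 1, y]` mod `2n`.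
* `exists_first_order`: the unramified case. `ν ∈ E`, `[E:K] ≤ [K[z₀]:K]`, `z ∈ E` close to `z₀`.
  Then `g ∈ K[z₀]`.
* `exists_pow_root`, `pow_root_unique`: `m`-th roots near `1` in closed commutative subalgebras.
* `exists_first_order_ram`: the ramified case: `W ∈ E`, `s^{-K''} W ≡ y ∈ K[z₀]`, `gcd(K'',m)=1`,
  `[E:K] ≤ [K[z₀,s]:K]`.  Then `g ∈ K[z₀,s]`.
-/

set_option autoImplicit false

namespace Crest.Agent.Kurosh.KeyCore

open Polynomial Inertial

variable {K : Type*} [Field K] {R : Type*} [DivisionRing R] [Algebra K R]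
variable {v : AddValuation R (WithTop ℤ)}

omit [Algebra K R] in
theorem val_of_sub_one {κ : R} {n : ℕ} (hn : 1 ≤ n) (h : (n : WithTop ℤ) ≤ v (κ - 1)) :
    v κ = 0 := by
  have hn0 : (0 : WithTop ℤ) < (n : WithTop ℤ) := by exact_mod_cast hn
  have e : κ = 1 + (κ - 1) := by abel
  rw [e, AddValuation.map_add_eq_of_lt_left, v.map_one]
  rw [v.map_one]
  exact lt_of_lt_of_le hn0 h

omit [Algebra K R] in
theorem val_inv_of_val_zero {κ : R} (h : v κ = 0) : v κ⁻¹ = 0 := by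
  have hκ0 : κ ≠ 0 := by
    intro h0
    rw [h0, v.map_zero] at h
    exact WithTop.top_ne_zero h
  have h1 : v (κ * κ⁻¹) = v κ + v κ⁻¹ := v.map_mul _ _
  rw [mul_inv_cancel₀ hκ0, v.map_one, h, zero_add] at h1
  exact h1.symm

omit [Algebra K R] in
/-- First-order formula for a conjugation by `κ ≡ 1`. -/
theorem first_order_of_conj {κ ν y : R} {n : ℕ} (hn : 1 ≤ n) (hκ0 : κ ≠ 0)
    (hκ : (n : WithTop ℤ) ≤ v (κ - 1)) (hy : 0 ≤ v y)
    (hν : (n : WithTop ℤ) ≤ v (ν - y)) :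
    (n : WithTop ℤ) ≤ v (κ⁻¹ * ν * κ - y) ∧
      ((2 * n : ℕ) : WithTop ℤ) ≤
        v (ν - κ⁻¹ * ν * κ - ((κ - 1) * y - y * (κ - 1))) := by
  have hn0 : (0 : WithTop ℤ) ≤ (n : WithTop ℤ) := by exact_mod_cast Nat.zero_le n
  have hvκ := val_of_sub_one (v := v) hn hκ
  have hvκi := val_inv_of_val_zero (v := v) hvκ
  set g := κ⁻¹ * ν * κ with hg
  have hκg : κ * g = ν * κ := by
    rw [hg, ← mul_assoc, ← mul_assoc, mul_inv_cancel₀ hκ0, one_mul]
  have e1 : g - y = κ⁻¹ * ((ν - y) * κ + (y * (κ - 1) - (κ - 1) * y)) := by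
    have e0 : (ν - y) * κ + (y * (κ - 1) - (κ - 1) * y) = ν * κ - κ * y := by noncomm_ring
    rw [e0, mul_sub, inv_mul_cancel_left₀ hκ0, hg, mul_assoc]
  have hgy : (n : WithTop ℤ) ≤ v (g - y) := by
    rw [e1]
    refine val_mul_ge v (le_of_eq hvκi.symm) ?_
    refine le_trans (le_min ?_ ?_) (v.map_add _ _)
    · exact val_mul_ge' v hν (le_of_eq hvκ.symm)
    · refine le_trans (le_min ?_ ?_) (v.map_sub _ _)
      · exact val_mul_ge v hy hκ
      · exact val_mul_ge' v hκ hy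
  refine ⟨hgy, ?_⟩
  have e2 : ν - g - ((κ - 1) * y - y * (κ - 1)) = (κ - 1) * (g - y) - (ν - y) * (κ - 1) := by
    have : (κ - 1) * g - ν * (κ - 1) = ν - g := by
      rw [sub_mul, mul_sub, hκg]
      noncomm_ring
    rw [← this]
    noncomm_ring
  rw [e2]
  have hh : ((2 * n : ℕ) : WithTop ℤ) = (n : WithTop ℤ) + (n : WithTop ℤ) := by
    rw [two_mul, Nat.cast_add]
  rw [hh]
  refine le_trans (le_min ?_ ?_) (v.map_sub _ _)
  · rw [v.map_mul]; exact add_le_add hκ hgy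
  · rw [v.map_mul]; exact add_le_add hν hκ

/-- **Unramified case.** -/
theorem exists_first_order [FiniteDimensional K R] {f : K[X]} (hf : Integral v f)
    (τ : R →ₗ[K] K) (hnd : ∀ x, x ≠ 0 → ∃ y, τ (x * y) ≠ 0)
    (hτv : ∀ x, v x ≤ v (algebraMap K R (τ x)))
    (hcpl : ∀ x : ℕ → R, (∀ k : ℕ, (k : WithTop ℤ) ≤ v (x (k + 1) - x k)) →
      ∃ l, ∀ k : ℕ, (k : WithTop ℤ) ≤ v (l - x k))
    (E : Subalgebra K R) (hcomm : ∀ a ∈ E, ∀ b ∈ E, a * b = b * a)
    {z₀ : R} (hz₀ : 0 ≤ v z₀) (hfz₀ : aeval z₀ f = 0)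
    (hd₀ : v (aeval z₀ (Polynomial.derivative f)) = 0)
    (hdim : Module.finrank K E ≤ Module.finrank K (Algebra.adjoin K {z₀}))
    {z : R} (hzE : z ∈ E) {n : ℕ} (hn : 1 ≤ n) (hzz : (n : WithTop ℤ) ≤ v (z - z₀))
    {ν y : R} (hνE : ν ∈ E) (hy : 0 ≤ v y) (hν : (n : WithTop ℤ) ≤ v (ν - y)) :
    ∃ κ' g : R, g ∈ Algebra.adjoin K {z₀} ∧ (n : WithTop ℤ) ≤ v κ' ∧
      (n : WithTop ℤ) ≤ v (g - y) ∧
      ((2 * n : ℕ) : WithTop ℤ) ≤ v (ν - g - (κ' * y - y * κ')) := by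
  obtain ⟨κ, hκ0, hκ, -, -, hback⟩ := exists_conj_subalgebra hf τ hnd hτv hcpl E hcomm hz₀ hfz₀ hd₀
    hdim hzE hn hzz
  obtain ⟨h1, h2⟩ := first_order_of_conj hn hκ0 hκ hy hν
  exact ⟨κ - 1, κ⁻¹ * ν * κ, hback ν hνE, hκ, h1, h2⟩

omit [Algebra K R] in
theorem commute_geo_left {y x : R} (h : Commute y x) (n : ℕ) : Commute y (geo y x n) := by
  induction n with
  | zero => simp [geo]
  | succ n ih => exact (Commute.pow_right (Commute.refl y) n).add_right (ih.mul_right h)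

section PowRoot

variable (E : Subalgebra K R)

/-- Newton for `X^m = t`, one step. -/
theorem pow_root_step (hcomm : ∀ a ∈ E, ∀ b ∈ E, a * b = b * a) (hinv : ∀ a ∈ E, a⁻¹ ∈ E)
    {m : ℕ} (hm : v (m : R) = 0) (hm0 : 1 ≤ m) {t r : R} (ht : t ∈ E) (hr : r ∈ E)
    (hr1 : v r = 0) {k : ℕ} (hk : 1 ≤ k) (hrt : (k : WithTop ℤ) ≤ v (r ^ m - t)) :
    ∃ r' ∈ E, v r' = 0 ∧ ((k + 1 : ℕ) : WithTop ℤ) ≤ v (r' ^ m - t) ∧
      (k : WithTop ℤ) ≤ v (r' - r) := by
  have hk1 : (0 : WithTop ℤ) < (k : WithTop ℤ) := by exact_mod_cast hk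
  have hr0 : r ≠ 0 := by
    intro h; rw [h, v.map_zero] at hr1; exact WithTop.top_ne_zero hr1
  have hmR : (m : R) ≠ 0 := by
    intro h; rw [h, v.map_zero] at hm; exact WithTop.top_ne_zero hm
  set d : R := (m : R) * r ^ (m - 1) with hd
  have hd0 : d ≠ 0 := mul_ne_zero hmR (pow_ne_zero _ hr0)
  have hvd : v d = 0 := by
    rw [hd, v.map_mul, hm, zero_add, AddValuation.map_pow, hr1]
    simp
  have hdE : d ∈ E := E.mul_mem (by exact_mod_cast (natCast_mem E m)) (E.pow_mem hr _)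
  have hvinv : v d⁻¹ = 0 := val_inv_of_val_zero hvd
  have hrmE : r ^ m ∈ E := E.pow_mem hr m
  set h : R := (r ^ m - t) * d⁻¹ with hh
  have hhE : h ∈ E := E.mul_mem (E.sub_mem hrmE ht) (hinv d hdE)
  have hhk : (k : WithTop ℤ) ≤ v h := val_mul_ge' v hrt (le_of_eq hvinv.symm)
  set r' := r - h with hr'
  have hsub : r' - r = -h := by rw [hr']; abel
  have hr'E : r' ∈ E := E.sub_mem hr hhE
  have hsubk : (k : WithTop ℤ) ≤ v (r' - r) := by rw [hsub, v.map_neg]; exact hhk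
  have hvr' : v r' = 0 := by
    rw [hr', sub_eq_add_neg, AddValuation.map_add_eq_of_lt_left, hr1]
    rw [v.map_neg, hr1]
    exact lt_of_lt_of_le hk1 hhk
  refine ⟨r', hr'E, hvr', ?_, hsubk⟩
  -- `r'^m - t = (geo r' r m - d) (r' - r)`
  have hc : r' * r = r * r' := hcomm _ hr'E _ hr
  have hcm' : Commute r' (geo r' r m) := commute_geo_left (show Commute r' r from hc) m
  have hrel : geo r' r m * (r' - r) = r' ^ m - r ^ m := by
    have := geo_rel r' r m
    rw [← this, mul_sub, hcm'.eq]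
  have hgeo : (k : WithTop ℤ) ≤ v (geo r' r m - d) := by
    have := val_geo_sub v (le_of_eq hvr'.symm) (le_of_eq hr1.symm) hsubk m
    rwa [geo_self] at this
  have hdh : d * h = r ^ m - t := by
    rw [hh, ← mul_assoc, hcomm d hdE _ (E.sub_mem hrmE ht), mul_assoc, mul_inv_cancel₀ hd0, mul_one]
  have e : r' ^ m - t = (geo r' r m - d) * (r' - r) := by
    rw [sub_mul, hrel, hsub, mul_neg, hdh]
    abel
  rw [e, v.map_mul]
  calc ((k + 1 : ℕ) : WithTop ℤ) ≤ (k : WithTop ℤ) + (k : WithTop ℤ) := by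
        have : ((k + 1 : ℕ) : ℤ) ≤ (k : ℤ) + k := by push_cast; omega
        exact_mod_cast this
    _ ≤ _ := add_le_add hgeo hsubk

/-- Two commuting `m`-th roots of the same element that are `≡ 1` coincide. -/
theorem pow_root_unique {m : ℕ} (hm : v (m : R) = 0) (hm0 : 1 ≤ m) {a b : R} (hab : Commute a b)
    (ha : (1 : WithTop ℤ) ≤ v (a - 1)) (hb : (1 : WithTop ℤ) ≤ v (b - 1)) (h : a ^ m = b ^ m) :
    a = b := by
  have h01 : (0 : WithTop ℤ) < 1 := by exact_mod_cast Nat.one_pos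
  have hva : v a = 0 := val_of_sub_one (v := v) (n := 1) le_rfl (by simpa using ha)
  have hvb : v b = 0 := val_of_sub_one (v := v) (n := 1) le_rfl (by simpa using hb)
  have hab1 : (1 : WithTop ℤ) ≤ v (a - b) := by
    have e : a - b = (a - 1) - (b - 1) := by abel
    rw [e]
    exact le_trans (le_min ha hb) (v.map_sub _ _)
  have hgeo := val_geo_sub v (le_of_eq hva.symm) (le_of_eq hvb.symm) hab1 m
  rw [geo_self] at hgeo
  have hd : v ((m : R) * b ^ (m - 1)) = 0 := by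
    rw [v.map_mul, hm, zero_add, AddValuation.map_pow, hvb]
    simp
  have hg : geo a b m ≠ 0 := by
    intro h0
    rw [h0, zero_sub, v.map_neg, hd] at hgeo
    exact absurd h01 (not_lt.2 hgeo)
  have hcm : Commute a (geo a b m) := commute_geo_left hab m
  have hrel := geo_rel a b m
  rw [h, sub_self, hcm.eq, ← mul_sub] at hrel
  exact sub_eq_zero.1 ((mul_eq_zero.1 hrel).resolve_left hg)

/-- `m`-th roots near `1` in a closed commutative subalgebra. -/
theorem exists_pow_root (hcomm : ∀ a ∈ E, ∀ b ∈ E, a * b = b * a) (hinv : ∀ a ∈ E, a⁻¹ ∈ E)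
    (hclosed : ∀ x : R, (∀ k : ℕ, ∃ z ∈ E, (k : WithTop ℤ) ≤ v (x - z)) → x ∈ E)
    (hcpl : ∀ x : ℕ → R, (∀ k : ℕ, (k : WithTop ℤ) ≤ v (x (k + 1) - x k)) →
      ∃ l, ∀ k : ℕ, (k : WithTop ℤ) ≤ v (l - x k))
    {m : ℕ} (hm : v (m : R) = 0) (hm0 : 1 ≤ m) {t : R} (ht : t ∈ E) {n : ℕ} (hn : 1 ≤ n)
    (htv : (n : WithTop ℤ) ≤ v (t - 1)) :
    ∃ r ∈ E, r ^ m = t ∧ (n : WithTop ℤ) ≤ v (r - 1) := by
  let P : ℕ → R → Prop := fun k w => w ∈ E ∧ v w = 0 ∧ ((n + k : ℕ) : WithTop ℤ) ≤ v (w ^ m - t)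
  have hstep : ∀ k w, P k w → ∃ w', P (k + 1) w' ∧ ((n + k : ℕ) : WithTop ℤ) ≤ v (w' - w) := by
    rintro k w ⟨h1, h2, h3⟩
    obtain ⟨w', h5, h6, h7, h8⟩ :=
      pow_root_step E hcomm hinv hm hm0 ht h1 h2 (k := n + k) (by omega) h3
    exact ⟨w', ⟨h5, h6, by simpa [add_assoc] using h7⟩, h8⟩
  have hstart : P 0 1 := by
    refine ⟨E.one_mem, v.map_one, ?_⟩
    rw [one_pow, Nat.add_zero]
    have : (1 : R) - t = -(t - 1) := by abel
    rw [this, v.map_neg]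
    exact htv
  let seq : (k : ℕ) → {w // P k w} := fun k => Nat.rec
    (⟨1, hstart⟩ : {w // P 0 w})
    (fun k w => ⟨Classical.choose (hstep k w.1 w.2), (Classical.choose_spec (hstep k w.1 w.2)).1⟩) k
  have hseq : ∀ k, ((n + k : ℕ) : WithTop ℤ) ≤ v ((seq (k + 1)).1 - (seq k).1) := fun k =>
    (Classical.choose_spec (hstep k (seq k).1 (seq k).2)).2
  have hseq0 : (seq 0).1 = 1 := rfl
  have hcoe : ∀ a b : ℕ, a ≤ b → (a : WithTop ℤ) ≤ (b : WithTop ℤ) := by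
    intro a b hab
    exact_mod_cast hab
  obtain ⟨l, hl⟩ := hcpl (fun k => (seq k).1) (fun k =>
    le_trans (hcoe k (n + k) (by omega)) (hseq k))
  have hlE : l ∈ E := hclosed l (fun k => ⟨(seq k).1, (seq k).2.1, hl k⟩)
  have hl0 : 0 ≤ v l := by
    have h1 : l = (l - (seq 0).1) + (seq 0).1 := by abel
    rw [h1]
    refine le_trans (le_min ?_ ?_) (v.map_add _ _)
    · exact le_trans (by exact_mod_cast Nat.zero_le 0) (hl 0)
    · exact le_of_eq (seq 0).2.2.1.symm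
  have hval : ∀ k, (n : WithTop ℤ) ≤ v ((seq k).1 - 1) := by
    intro k
    induction k with
    | zero => simp [hseq0]
    | succ k ih =>
      have e : (seq (k + 1)).1 - 1 = ((seq (k + 1)).1 - (seq k).1) + ((seq k).1 - 1) := by abel
      rw [e]
      refine le_trans (le_min ?_ ih) (v.map_add _ _)
      exact le_trans (hcoe n (n + k) (by omega)) (hseq k)
  refine ⟨l, hlE, ?_, ?_⟩
  · have : l ^ m - t = 0 := by
      apply eq_zero_of_forall_le (v := v)
      intro k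
      have e : l ^ m - t = (l ^ m - (seq k).1 ^ m) + ((seq k).1 ^ m - t) := by abel
      rw [e]
      refine le_trans (le_min ?_ ?_) (v.map_add _ _)
      · rcases val_pow_sub v hl0 (le_of_eq (seq k).2.2.1.symm) (hl k) m with h | h
        · exact h
        · omega
      · exact le_trans (hcoe k (n + k) (by omega)) (seq k).2.2.2
    exact sub_eq_zero.1 this
  · have e : l - 1 = (l - (seq n).1) + ((seq n).1 - 1) := by abel
    rw [e]
    exact le_trans (le_min (hl n) (hval n)) (v.map_add _ _)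

end PowRoot

section Ramified

variable (E : Subalgebra K R)

theorem zpow_mem_of_inv (hinv : ∀ a ∈ E, a⁻¹ ∈ E) {a : R} (ha : a ∈ E) (k : ℤ) : a ^ k ∈ E := by
  cases k with
  | ofNat n => simpa using E.pow_mem ha n
  | negSucc n =>
    rw [zpow_negSucc]
    exact hinv _ (E.pow_mem ha _)

/-- **`s ∈ E`**. `E` is closed and commutative, contains `s^m` and `y` (a unit) and `w`, and `s` is
central with `s^{-K''} w ≡ y` mod `n`, `gcd(K'',m)=1`.  Then `s ∈ E`, and `s^{-K''} w ∈ E`. -/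
theorem mem_of_ram (hcomm : ∀ a ∈ E, ∀ b ∈ E, a * b = b * a) (hinv : ∀ a ∈ E, a⁻¹ ∈ E)
    (hclosed : ∀ x : R, (∀ k : ℕ, ∃ z ∈ E, (k : WithTop ℤ) ≤ v (x - z)) → x ∈ E)
    (hcpl : ∀ x : ℕ → R, (∀ k : ℕ, (k : WithTop ℤ) ≤ v (x (k + 1) - x k)) →
      ∃ l, ∀ k : ℕ, (k : WithTop ℤ) ≤ v (l - x k))
    {m : ℕ} (hm : v (m : R) = 0) (hm0 : 1 ≤ m) {s : R} (hs0 : s ≠ 0) (hsc : ∀ x, Commute s x)
    (hsm : s ^ m ∈ E) {K'' : ℤ} (hcop : IsCoprime K'' (m : ℤ)) {y w : R} (hy : y ∈ E)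
    (hvy : v y = 0) (hw : w ∈ E) {n : ℕ} (hn : 1 ≤ n)
    (hν : (n : WithTop ℤ) ≤ v (s ^ (-K'') * w - y)) :
    s ∈ E ∧ s ^ (-K'') * w ∈ E := by
  have hn0 : (0 : WithTop ℤ) < (n : WithTop ℤ) := by exact_mod_cast hn
  have hy0 : y ≠ 0 := by
    intro h; rw [h, v.map_zero] at hvy; exact WithTop.top_ne_zero hvy
  have hvyi : v y⁻¹ = 0 := val_inv_of_val_zero hvy
  set ν := s ^ (-K'') * w with hνdef
  set b := y⁻¹ * ν with hb
  have hsz : ∀ (k : ℤ) (x : R), Commute (s ^ k) x := fun k x => (hsc x).zpow_left₀ k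
  have hb1 : (n : WithTop ℤ) ≤ v (b - 1) := by
    have e : b - 1 = y⁻¹ * (ν - y) := by
      rw [mul_sub, inv_mul_cancel₀ hy0]
    rw [e]
    exact val_mul_ge v (le_of_eq hvyi.symm) hν
  -- commutation of `b` with `E`
  have hνc : ∀ a ∈ E, Commute a ν := by
    intro a ha
    exact ((hsz (-K'') a).symm).mul_right (hcomm a ha w hw)
  have hbc : ∀ a ∈ E, Commute a b := by
    intro a ha
    exact (show Commute a y⁻¹ from (show Commute a y from hcomm a ha y hy).inv_right₀).mul_right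
      (hνc a ha)
  -- `t = b^m` lies in `E`
  have hcyν : Commute y⁻¹ ν := hνc _ (hinv y hy)
  have ht : b ^ m ∈ E := by
    have e : b ^ m = y⁻¹ ^ m * ν ^ m := hcyν.mul_pow m
    have e2 : ν ^ m = (s ^ m) ^ (-K'') * w ^ m := by
      have e3 : (s ^ (-K'')) ^ m = (s ^ m) ^ (-K'') := by
        rw [← zpow_natCast (s ^ (-K'')) m, ← zpow_mul, ← zpow_natCast s m, ← zpow_mul, mul_comm]
      rw [hνdef, (hsz (-K'') w).mul_pow m, e3]
    rw [e, e2]
    exact E.mul_mem (E.pow_mem (hinv y hy) m)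
      (E.mul_mem (zpow_mem_of_inv E hinv hsm _) (E.pow_mem hw m))
  have ht1 : (n : WithTop ℤ) ≤ v (b ^ m - 1) := by
    have hvb : v b = 0 := val_of_sub_one hn hb1
    rcases val_pow_sub v (le_of_eq hvb.symm) (by rw [v.map_one]) hb1 m with h | h
    · rwa [one_pow] at h
    · omega
  obtain ⟨r, hrE, hrm, hr1⟩ := exists_pow_root E hcomm hinv hclosed hcpl hm hm0 ht hn ht1
  have hbr : b = r := by
    have h1 : ∀ x : R, (n : WithTop ℤ) ≤ v (x - 1) → (1 : WithTop ℤ) ≤ v (x - 1) := by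
      intro x hx
      refine le_trans ?_ hx
      exact_mod_cast hn
    exact pow_root_unique hm hm0 (hbc r hrE).symm (h1 b hb1) (h1 r hr1) hrm.symm
  have hbE : b ∈ E := hbr ▸ hrE
  have hνE : ν ∈ E := by
    have : ν = y * b := by rw [hb, ← mul_assoc, mul_inv_cancel₀ hy0, one_mul]
    rw [this]
    exact E.mul_mem hy hbE
  refine ⟨?_, hνE⟩
  -- `s^{K''} ∈ E`
  have hνne : ν ≠ 0 := by
    intro h
    have hvb : v b = 0 := val_of_sub_one hn hb1
    rw [hb, h, mul_zero, v.map_zero] at hvb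
    exact WithTop.top_ne_zero hvb
  have hsK : s ^ K'' ∈ E := by
    have hw0 : w ≠ 0 := by
      intro h
      rw [hνdef, h, mul_zero] at hνne
      exact hνne rfl
    have : s ^ K'' = w * ν⁻¹ := by
      have e : ν = s ^ (-K'') * w := hνdef
      rw [e, mul_inv_rev, mul_inv_cancel_left₀ hw0, zpow_neg, inv_inv]
    rw [this]
    exact E.mul_mem hw (hinv ν hνE)
  obtain ⟨p, q, hpq⟩ := hcop
  have e : s = (s ^ K'') ^ p * (s ^ m) ^ q := by
    rw [← zpow_mul, ← zpow_natCast s m, ← zpow_mul, ← zpow_add₀ hs0, mul_comm K'', mul_comm (m : ℤ),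
      hpq, zpow_one]
  rw [e]
  exact E.mul_mem (zpow_mem_of_inv E hinv hsK p) (zpow_mem_of_inv E hinv hsm q)

/-- The conjugate `κ⁻¹ E κ` of a subalgebra. -/
def conjSub (κ : R) (hκ : κ ≠ 0) (E : Subalgebra K R) : Subalgebra K R where
  carrier := {x | κ * x * κ⁻¹ ∈ E}
  mul_mem' := by
    intro a b ha hb
    have e : κ * (a * b) * κ⁻¹ = (κ * a * κ⁻¹) * (κ * b * κ⁻¹) := by
      simp only [mul_assoc]
      rw [inv_mul_cancel_left₀ hκ]
    show κ * (a * b) * κ⁻¹ ∈ E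
    rw [e]
    exact E.mul_mem ha hb
  add_mem' := by
    intro a b ha hb
    show κ * (a + b) * κ⁻¹ ∈ E
    rw [mul_add, add_mul]
    exact E.add_mem ha hb
  algebraMap_mem' := by
    intro r
    show κ * (algebraMap K R r) * κ⁻¹ ∈ E
    rw [← Algebra.commutes, mul_assoc, mul_inv_cancel₀ hκ, mul_one]
    exact E.algebraMap_mem r

theorem mem_conjSub {κ : R} {hκ : κ ≠ 0} {E : Subalgebra K R} {x : R} :
    x ∈ conjSub κ hκ E ↔ κ * x * κ⁻¹ ∈ E := Iff.rfl

theorem conj_inv_mem {κ : R} {hκ : κ ≠ 0} {E : Subalgebra K R} {x : R} (hx : x ∈ E) :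
    κ⁻¹ * x * κ ∈ conjSub κ hκ E := by
  rw [mem_conjSub]
  have : κ * (κ⁻¹ * x * κ) * κ⁻¹ = x := by
    simp only [mul_assoc]
    rw [mul_inv_cancel₀ hκ, mul_one, mul_inv_cancel_left₀ hκ]
  rw [this]
  exact hx

/-- The conjugation gives a linear equivalence, so the dimension does not change. -/
theorem finrank_conjSub {κ : R} {hκ : κ ≠ 0} {E : Subalgebra K R} :
    Module.finrank K (conjSub κ hκ E) = Module.finrank K E := by
  let φ : (conjSub κ hκ E) →ₗ[K] E :=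
    { toFun := fun a => ⟨κ * a * κ⁻¹, a.2⟩
      map_add' := fun a b => Subtype.ext (by simp [mul_add, add_mul])
      map_smul' := fun c a => Subtype.ext (by simp [Algebra.smul_def, mul_assoc, Algebra.commutes]) }
  have hinj : Function.Injective φ := by
    rw [injective_iff_map_eq_zero]
    intro a ha
    have h1 : κ * (a : R) * κ⁻¹ = 0 := congrArg Subtype.val ha
    have h2 : (a : R) = 0 := by
      rcases mul_eq_zero.1 h1 with h | h
      · rcases mul_eq_zero.1 h with h | h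
        · exact absurd h hκ
        · exact h
      · exact absurd (inv_eq_zero.1 h) hκ
    exact Subtype.ext h2
  have hsurj : Function.Surjective φ := by
    intro b
    refine ⟨⟨κ⁻¹ * b * κ, conj_inv_mem b.2⟩, Subtype.ext ?_⟩
    show κ * (κ⁻¹ * (b : R) * κ) * κ⁻¹ = b
    simp only [mul_assoc]
    rw [mul_inv_cancel₀ hκ, mul_one, mul_inv_cancel_left₀ hκ]
  exact LinearEquiv.finrank_eq (LinearEquiv.ofBijective φ ⟨hinj, hsurj⟩)

/-- **Ramified case.** -/
theorem exists_first_order_ram [FiniteDimensional K R] {f : K[X]} (hf : Integral v f)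
    (τ : R →ₗ[K] K) (hnd : ∀ x, x ≠ 0 → ∃ y, τ (x * y) ≠ 0)
    (hτv : ∀ x, v x ≤ v (algebraMap K R (τ x)))
    (hcpl : ∀ x : ℕ → R, (∀ k : ℕ, (k : WithTop ℤ) ≤ v (x (k + 1) - x k)) →
      ∃ l, ∀ k : ℕ, (k : WithTop ℤ) ≤ v (l - x k))
    (E : Subalgebra K R) (hcomm : ∀ a ∈ E, ∀ b ∈ E, a * b = b * a)
    {z₀ : R} (hz₀ : 0 ≤ v z₀) (hfz₀ : aeval z₀ f = 0)
    (hd₀ : v (aeval z₀ (Polynomial.derivative f)) = 0)
    {z : R} (hzE : z ∈ E) {n : ℕ} (hn : 1 ≤ n) (hzz : (n : WithTop ℤ) ≤ v (z - z₀))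
    {m : ℕ} (hm : v (m : R) = 0) (hm0 : 1 ≤ m) {s : R} (hs0 : s ≠ 0) (hsc : ∀ x, Commute s x)
    {u : K} (hu : algebraMap K R u = s ^ m) {K'' : ℤ} (hcop : IsCoprime K'' (m : ℤ))
    (hdim : Module.finrank K E ≤ Module.finrank K (Algebra.adjoin K {z₀, s}))
    {y W : R} (hyF : y ∈ Algebra.adjoin K {z₀}) (hvy : v y = 0) (hWE : W ∈ E)
    (hν : (n : WithTop ℤ) ≤ v (s ^ (-K'') * W - y)) :
    ∃ κ' g : R, g ∈ Algebra.adjoin K {z₀, s} ∧ (n : WithTop ℤ) ≤ v κ' ∧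
      (n : WithTop ℤ) ≤ v (g - y) ∧
      ((2 * n : ℕ) : WithTop ℤ) ≤ v (s ^ (-K'') * W - g - (κ' * y - y * κ')) := by
  haveI hEfd : FiniteDimensional K E :=
    FiniteDimensional.finiteDimensional_submodule (Subalgebra.toSubmodule E)
  have hn0 : (0 : WithTop ℤ) < (n : WithTop ℤ) := by exact_mod_cast hn
  have hz : 0 ≤ v z := by
    have h1 : z = (z - z₀) + z₀ := by abel
    rw [h1]
    exact le_trans (le_min (le_trans hn0.le hzz) hz₀) (v.map_add _ _)
  have hd : v (aeval z (Polynomial.derivative f)) = 0 := by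
    have h1 := val_aeval_sub (Integral.derivative hf) hz hz₀ hzz
    have e : aeval z (Polynomial.derivative f) = aeval z₀ (Polynomial.derivative f) +
        (aeval z (Polynomial.derivative f) - aeval z₀ (Polynomial.derivative f)) := by abel
    rw [e, AddValuation.map_add_eq_of_lt_left, hd₀]
    rw [hd₀]
    exact lt_of_lt_of_le hn0 h1
  have hfz : (n : WithTop ℤ) ≤ v (aeval z f) := by
    have h1 := val_aeval_sub hf hz hz₀ hzz
    rwa [hfz₀, sub_zero] at h1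
  have hinvE : ∀ a ∈ E, a⁻¹ ∈ E := fun a ha => inv_mem_of_finite E ha
  have hclosedE : ∀ x : R, (∀ k : ℕ, ∃ z ∈ E, (k : WithTop ℤ) ≤ v (x - z)) → x ∈ E :=
    fun x hx => mem_of_limit τ hnd hτv (Subalgebra.toSubmodule E) hx
  obtain ⟨yt, hytE, hfyt, hytz⟩ := exists_root hf E hcomm hinvE hclosedE hcpl hzE hz hd hn hfz
  have hytz₀ : (n : WithTop ℤ) ≤ v (yt - z₀) := by
    have e : yt - z₀ = (yt - z) + (z - z₀) := by abel
    rw [e]
    exact le_trans (le_min hytz hzz) (v.map_add _ _)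
  have hyt0 : 0 ≤ v yt := by
    have h1 : yt = (yt - z₀) + z₀ := by abel
    rw [h1]
    exact le_trans (le_min (le_trans hn0.le hytz₀) hz₀) (v.map_add _ _)
  obtain ⟨κ, hκ0, hκ, hκv⟩ := exists_conj hf hyt0 hz₀ hfyt hfz₀ hd₀ hn0 hytz₀
  have hvκ : v κ = 0 := val_of_sub_one hn hκv
  have hvκi : v κ⁻¹ = 0 := val_inv_of_val_zero hvκ
  -- the conjugated subalgebra
  set E' := conjSub κ hκ0 E with hE'
  have hconj : κ * z₀ * κ⁻¹ = yt := by
    rw [← hκ, mul_assoc, mul_inv_cancel₀ hκ0, mul_one]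
  have hz₀E' : z₀ ∈ E' := by
    rw [hE', mem_conjSub, hconj]; exact hytE
  have hFE' : Algebra.adjoin K {z₀} ≤ E' := Algebra.adjoin_le (Set.singleton_subset_iff.2 hz₀E')
  have hcomm' : ∀ a ∈ E', ∀ b ∈ E', a * b = b * a := by
    intro a ha b hb
    have h1 := hcomm _ ha _ hb
    have e1 : (κ * a * κ⁻¹) * (κ * b * κ⁻¹) = κ * (a * b) * κ⁻¹ := by
      simp only [mul_assoc]
      rw [inv_mul_cancel_left₀ hκ0]
    have e2 : (κ * b * κ⁻¹) * (κ * a * κ⁻¹) = κ * (b * a) * κ⁻¹ := by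
      simp only [mul_assoc]
      rw [inv_mul_cancel_left₀ hκ0]
    rw [e1, e2] at h1
    exact mul_left_cancel₀ hκ0 (mul_right_cancel₀ (inv_ne_zero hκ0) h1)
  have hinv' : ∀ a ∈ E', a⁻¹ ∈ E' := by
    intro a ha
    have h1 := hinvE _ ha
    have e : (κ * a * κ⁻¹)⁻¹ = κ * a⁻¹ * κ⁻¹ := by
      simp [mul_assoc]
    rw [e] at h1
    exact h1
  have hclosed' : ∀ x : R, (∀ k : ℕ, ∃ z ∈ E', (k : WithTop ℤ) ≤ v (x - z)) → x ∈ E' := by
    intro x hx
    apply hclosedE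
    intro k
    obtain ⟨w, hw, hwk⟩ := hx k
    refine ⟨κ * w * κ⁻¹, hw, ?_⟩
    have e : κ * x * κ⁻¹ - κ * w * κ⁻¹ = κ * (x - w) * κ⁻¹ := by noncomm_ring
    rw [e, v.map_mul, v.map_mul, hvκ, hvκi, zero_add, add_zero]
    exact hwk
  have hvmem : (s ^ m) ∈ E' := by
    rw [← hu]
    exact E'.algebraMap_mem u
  have hy0 : 0 ≤ v y := le_of_eq hvy.symm
  obtain ⟨h1, h2⟩ := first_order_of_conj hn hκ0 hκv hy0 hν
  have hg : κ⁻¹ * (s ^ (-K'') * W) * κ = s ^ (-K'') * (κ⁻¹ * W * κ) := by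
    have hc : Commute (s ^ (-K'')) κ⁻¹ := (hsc _).zpow_left₀ _
    rw [← mul_assoc, ← hc.eq]
    simp only [mul_assoc]
  rw [hg] at h1 h2
  have hwE' : κ⁻¹ * W * κ ∈ E' := conj_inv_mem hWE
  obtain ⟨hsE', hνE'⟩ := mem_of_ram E' hcomm' hinv' hclosed' hcpl hm hm0 hs0 hsc hvmem hcop
    (hFE' hyF) hvy hwE' hn h1
  have hF₂ : Algebra.adjoin K {z₀, s} ≤ E' := by
    refine Algebra.adjoin_le ?_
    intro x hx
    rcases hx with rfl | hx
    · exact hz₀E'
    · rw [Set.mem_singleton_iff.1 hx]; exact hsE'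
  haveI hE'fd : FiniteDimensional K E' :=
    FiniteDimensional.finiteDimensional_submodule (Subalgebra.toSubmodule E')
  have heq : Subalgebra.toSubmodule (Algebra.adjoin K {z₀, s}) = Subalgebra.toSubmodule E' := by
    refine Submodule.eq_of_le_of_finrank_le (fun x hx => hF₂ hx) ?_
    have : Module.finrank K E' = Module.finrank K E := finrank_conjSub
    exact le_trans (le_of_eq this) hdim
  have hgF : s ^ (-K'') * (κ⁻¹ * W * κ) ∈ Algebra.adjoin K {z₀, s} := by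
    have : s ^ (-K'') * (κ⁻¹ * W * κ) ∈ Subalgebra.toSubmodule E' := hνE'
    rw [← heq] at this
    exact this
  exact ⟨κ - 1, _, hgF, hκv, h1, h2⟩

end Ramified

section Products

variable {R' : Type*} [DivisionRing R'] {w : AddValuation R' (WithTop ℤ)}

/-- Ordered product `∏_{r<k} (y + B r)`. -/
def ordProd (y : R') (B : ℕ → R') : ℕ → R'
  | 0 => 1
  | k + 1 => ordProd y B k * (y + B k)

/-- First-order term of `ordProd`: `∑_{r<k} y^r (B r) y^{k-1-r}`. -/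
def ordFirst (y : R') (B : ℕ → R') : ℕ → R'
  | 0 => 0
  | k + 1 => ordFirst y B k * y + y ^ k * B k

theorem val_ordFirst_ge {y : R'} {B : ℕ → R'} (hy : 0 ≤ w y) {n : WithTop ℤ} (hB : ∀ r, n ≤ w (B r))
    (k : ℕ) : n ≤ w (ordFirst y B k) := by
  induction k with
  | zero => simp [ordFirst]
  | succ k ih =>
    refine le_trans (le_min ?_ ?_) (w.map_add _ _)
    · exact val_mul_ge' w ih hy
    · exact val_mul_ge w (val_pow_nonneg w hy k) (hB k)

/-- `∏ (y + B r) ≡ y^k + ordFirst` modulo second order. -/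
theorem val_ordProd_sub {y : R'} {B : ℕ → R'} (hy : 0 ≤ w y) {n : ℕ}
    (hB : ∀ r, (n : WithTop ℤ) ≤ w (B r)) (k : ℕ) :
    ((2 * n : ℕ) : WithTop ℤ) ≤ w (ordProd y B k - y ^ k - ordFirst y B k) := by
  have hn0 : (0 : WithTop ℤ) ≤ (n : WithTop ℤ) := by exact_mod_cast Nat.zero_le n
  have hh : ((2 * n : ℕ) : WithTop ℤ) = (n : WithTop ℤ) + (n : WithTop ℤ) := by
    rw [two_mul, Nat.cast_add]
  induction k with
  | zero => simp [ordProd, ordFirst]
  | succ k ih =>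
    have e : ordProd y B (k + 1) - y ^ (k + 1) - ordFirst y B (k + 1)
        = (ordProd y B k - y ^ k - ordFirst y B k) * (y + B k) + ordFirst y B k * B k := by
      simp only [ordProd, ordFirst, pow_succ]
      noncomm_ring
    rw [e]
    refine le_trans (le_min ?_ ?_) (w.map_add _ _)
    · refine val_mul_ge' w ih ?_
      exact le_trans (le_min hy (le_trans hn0 (hB k))) (w.map_add _ _)
    · rw [w.map_mul, hh]
      exact add_le_add (val_ordFirst_ge hy hB k) (hB k)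

end Products

section Coef

variable {K₀ : Type*} [Field K₀] {A : Type*} [DivisionRing A] [Algebra K₀ A]
variable {R' : Type*} [DivisionRing R'] {w : AddValuation R' (WithTop ℤ)}

/-- Coefficient extraction on `R' = A((s))` (only what is used). -/
structure CoefData (A R' : Type*) [DivisionRing A] [DivisionRing R']
    (w : AddValuation R' (WithTop ℤ)) where
  ι : A →+* R'
  c : ℤ → R' →+ A
  c_low : ∀ (q : ℤ) (x : R'), ((q : ℤ) : WithTop ℤ) < w x → c q x = 0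
  c_mul_left : ∀ (q : ℤ) (a : A) (x : R'), c q (ι a * x) = a * c q x
  c_mul_right : ∀ (q : ℤ) (a : A) (x : R'), c q (x * ι a) = c q x * a

variable (D : CoefData A R' w)

theorem CoefData.c_rel {ν g κ' : R'} {a : A} {n : ℕ}
    (h : ((2 * n : ℕ) : WithTop ℤ) ≤ w (ν - g - (κ' * D.ι a - D.ι a * κ'))) {q : ℤ}
    (hq : q < 2 * n) :
    D.c q ν = D.c q g + (D.c q κ' * a - a * D.c q κ') := by
  have h1 : D.c q (ν - g - (κ' * D.ι a - D.ι a * κ')) = 0 := by
    apply D.c_low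
    refine lt_of_lt_of_le ?_ h
    have h2 : ((q : ℤ) : WithTop ℤ) < (((2 * n : ℕ) : ℤ) : WithTop ℤ) :=
      WithTop.coe_lt_coe.2 (by exact_mod_cast hq)
    rwa [WithTop.coe_natCast] at h2
  rw [map_sub, map_sub, map_sub, D.c_mul_right, D.c_mul_left] at h1
  have : D.c q ν - D.c q g - (D.c q κ' * a - a * D.c q κ') = 0 := h1
  exact sub_eq_zero.1 (by rw [← this]; abel)

theorem CoefData.c_ordFirst (y : A) (B : ℕ → R') (q : ℤ) (k : ℕ) (x : A)
    (hB : ∀ r, D.c q (B r) = x) :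
    D.c q (ordFirst (D.ι y) B k) = ordFirst y (fun _ => x) k := by
  induction k with
  | zero => simp [ordFirst]
  | succ k ih =>
    simp only [ordFirst, map_add]
    rw [D.c_mul_right, ih, ← map_pow, D.c_mul_left, hB]

end Coef

section Proj

open Crest.Agent.Kurosh.Valued

variable {K₀ : Type*} [Field K₀] {A : Type*} [DivisionRing A] [Algebra K₀ A]
variable [FiniteDimensional K₀ A] {τ₀ : A →ₗ[K₀] K₀} (hτ₀ : IsTraceForm τ₀) (z₀ : A)

/-- `e` is `C(β)`-bilinear on the right. -/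
theorem proj_mul_right {c : A} (hc : c ∈ cent K₀ z₀) (x : A) :
    (proj hτ₀ z₀ (x * c) : A) = (proj hτ₀ z₀ x : A) * c := by
  obtain ⟨y, hy⟩ := sub_proj_mem_range hτ₀ z₀ x
  have hx : x = (proj hτ₀ z₀ x : A) + ad K₀ z₀ y := by rw [hy]; abel
  have hcm : (proj hτ₀ z₀ x : A) * c ∈ cent K₀ z₀ := by
    rw [mem_cent, mul_assoc, mem_cent.1 hc, ← mul_assoc, mem_cent.1 (proj hτ₀ z₀ x).2, mul_assoc]
  have h1 : x * c = (proj hτ₀ z₀ x : A) * c + ad K₀ z₀ (y * c) := by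
    conv_lhs => rw [hx]
    rw [add_mul, ad_mul_of_mem_cent hc]
  rw [h1, map_add, proj_apply_ad, add_zero]
  exact congrArg Subtype.val (proj_apply_cent hτ₀ z₀ ⟨_, hcm⟩)

omit [FiniteDimensional K₀ A] in
/-- Everything in `K[z₀]` commutes with `C(z₀)`. -/
theorem commute_of_mem_adjoin {a c : A} (ha : a ∈ Algebra.adjoin K₀ {z₀}) (hc : c ∈ cent K₀ z₀) :
    a * c = c * a := by
  induction ha using Algebra.adjoin_induction with
  | mem a ha => rw [Set.mem_singleton_iff.1 ha]; exact (mem_cent.1 hc).symm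
  | algebraMap r => exact Algebra.commutes r c
  | add a b _ _ h1 h2 => rw [add_mul, mul_add, h1, h2]
  | mul a b _ _ h1 h2 => rw [mul_assoc, h2, ← mul_assoc, h1, mul_assoc]

omit [FiniteDimensional K₀ A] in
theorem adjoin_le_cent {a : A} (ha : a ∈ Algebra.adjoin K₀ {z₀}) : a ∈ cent K₀ z₀ := by
  rw [mem_cent]
  have hz : z₀ ∈ cent K₀ z₀ := by rw [mem_cent]
  exact commute_of_mem_adjoin z₀ ha hz

/-- `e` kills commutators with elements of `K[z₀]`. -/
theorem proj_comm {a : A} (ha : a ∈ Algebra.adjoin K₀ {z₀}) (x : A) :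
    (proj hτ₀ z₀ (x * a) : A) = (proj hτ₀ z₀ (a * x) : A) := by
  have hac := adjoin_le_cent z₀ ha
  rw [proj_mul_right hτ₀ z₀ hac, proj_mul_left hτ₀ z₀ hac,
    commute_of_mem_adjoin z₀ ha (proj hτ₀ z₀ x).2]

/-- `e` of `∑_{r<k} y^r x y^{k-1-r}` is `k y^{k-1} e(x)`. -/
theorem proj_ordFirst {y : A} (hy : y ∈ Algebra.adjoin K₀ {z₀}) (x : A) (k : ℕ) :
    (proj hτ₀ z₀ (ordFirst y (fun _ => x) k) : A) = (k : A) * y ^ (k - 1) * (proj hτ₀ z₀ x : A) := by
  have hyc := adjoin_le_cent z₀ hy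
  have hcomm : y * (proj hτ₀ z₀ x : A) = (proj hτ₀ z₀ x : A) * y :=
    commute_of_mem_adjoin z₀ hy (proj hτ₀ z₀ x).2
  have hpc : ∀ k : ℕ, y ^ k ∈ cent K₀ z₀ := by
    intro k
    exact adjoin_le_cent z₀ (Subalgebra.pow_mem _ hy k)
  induction k with
  | zero => simp [ordFirst]
  | succ k ih =>
    simp only [ordFirst, map_add, Submodule.coe_add]
    rw [proj_mul_right hτ₀ z₀ hyc, ih, proj_mul_left hτ₀ z₀ (hpc k)]
    rcases k with _ | k
    · simp
    · simp only [Nat.add_sub_cancel]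
      have h1 : (((k + 1 : ℕ) : A)) * y ^ k * (proj hτ₀ z₀ x : A) * y
          = ((k + 1 : ℕ) : A) * y ^ (k + 1) * (proj hτ₀ z₀ x : A) := by
        rw [mul_assoc _ (proj hτ₀ z₀ x : A) y, ← hcomm, ← mul_assoc, mul_assoc _ (y ^ k) y, pow_succ]
      rw [h1]
      push_cast
      noncomm_ring

/-- The final step: `e(x)` lies in `K[z₀]`. -/
theorem proj_mem_of_first_order {m : ℕ} (hm : (m : A) ≠ 0) {y : A}
    (hy : y ∈ Algebra.adjoin K₀ {z₀}) (hy0 : y ≠ 0) {x g κ : A}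
    (hg : g ∈ Algebra.adjoin K₀ {z₀})
    (h : ordFirst y (fun _ => x) m = g + (κ * y ^ m - y ^ m * κ)) :
    (proj hτ₀ z₀ x : A) ∈ Algebra.adjoin K₀ {z₀} := by
  have hym : y ^ m ∈ Algebra.adjoin K₀ {z₀} := Subalgebra.pow_mem _ hy m
  have h1 := congrArg (fun t => (proj hτ₀ z₀ t : A)) h
  simp only [map_add, map_sub, Submodule.coe_add, Submodule.coe_sub] at h1
  rw [proj_comm hτ₀ z₀ hym κ, sub_self, add_zero, proj_ordFirst hτ₀ z₀ hy,
    show (proj hτ₀ z₀ g : A) = g from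
      congrArg Subtype.val (proj_apply_cent hτ₀ z₀ ⟨g, adjoin_le_cent z₀ hg⟩)] at h1
  haveI : FiniteDimensional K₀ (Algebra.adjoin K₀ {z₀}) :=
    FiniteDimensional.finiteDimensional_submodule (Subalgebra.toSubmodule (Algebra.adjoin K₀ {z₀}))
  have hd : (m : A) * y ^ (m - 1) ≠ 0 := mul_ne_zero hm (pow_ne_zero _ hy0)
  have hdmem : (m : A) * y ^ (m - 1) ∈ Algebra.adjoin K₀ {z₀} :=
    Subalgebra.mul_mem _ (natCast_mem _ m) (Subalgebra.pow_mem _ hy _)
  have e : (proj hτ₀ z₀ x : A) = ((m : A) * y ^ (m - 1))⁻¹ * g := by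
    rw [← h1, inv_mul_cancel_left₀ hd]
  rw [e]
  exact Subalgebra.mul_mem _ (inv_mem_of_finite _ hdmem) hg

end Proj

end Crest.Agent.Kurosh.KeyCore
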