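import Mathlib

/-!
# S0270 module M7b: the inertial lemma (abstract)

`R` is a division ring, `K` a field with `Algebra K R` (central scalars), `v` an additive valuation
on `R`.  No Hahn series here.

* `biv f y x` is the bivariate polynomial `h(u,v)=(f(u)-f(v))/(u-v)` evaluated at `u = y` (on the
  left) and `v = x` (on the right).  `y * biv f y x - biv f y x * x = f(y) - f(x)`: so two roots of
  `f` are intertwined by `biv f y x`, and `biv f x x = f'(x)`.  This gives the conjugation lemma
  `exists_conj` with the exact accuracy `κ ≡ 1` modulo the distance of the two roots, with no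
  Hensel recursion and no Skolem-Noether.
* `exists_root`: Newton iteration inside a subalgebra closed under limits.
* `mem_of_limit`: a `K`-subspace of a finite dimensional `K`-algebra with a continuous
  nondegenerate `K`-valued form is closed.
* `exists_conj_subalgebra`: a commutative finite dimensional subalgebra `E` containing an
  approximate root of `f` close to the generator `z₀` of `F₁ = K[z₀]`, with
  `[E : K] ≤ [F₁ : K]`, is `κ F₁ κ⁻¹` with `κ ≡ 1`.
-/

set_option autoImplicit false

namespace Crest.Agent.Kurosh.Inertial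

open Polynomial Finset

section Biv

variable {K : Type*} [Field K] {R : Type*} [Ring R] [Algebra K R]

/-- `∑_{i<n} y^i x^{n-1-i}` by recursion. -/
def geo (y x : R) : ℕ → R
  | 0 => 0
  | n + 1 => y ^ n + geo y x n * x

theorem geo_rel (y x : R) (n : ℕ) : y * geo y x n - geo y x n * x = y ^ n - x ^ n := by
  induction n with
  | zero => simp [geo]
  | succ n ih =>
    have h : y * geo y x n = geo y x n * x + (y ^ n - x ^ n) := by rw [← ih]; abel
    simp only [geo, mul_add, add_mul]
    rw [← mul_assoc, h, pow_succ' y n, pow_succ x n]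
    noncomm_ring

theorem geo_self (x : R) (n : ℕ) : geo x x n = (n : R) * x ^ (n - 1) := by
  induction n with
  | zero => simp [geo]
  | succ n ih =>
    simp only [geo, ih]
    rcases n with _ | n
    · simp
    · simp only [Nat.add_sub_cancel, mul_assoc, ← pow_succ]
      push_cast
      rw [add_mul, add_mul, add_mul, one_mul]
      abel

/-- The bivariate polynomial `(f(u)-f(v))/(u-v)` at `u = y` on the left, `v = x` on the right. -/
noncomputable def biv (f : K[X]) (y x : R) : R := f.sum fun n c => c • geo y x n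

theorem biv_add (f g : K[X]) (y x : R) : biv (f + g) y x = biv f y x + biv g y x := by
  unfold biv
  exact Polynomial.sum_add_index _ _ _ (fun _ => by simp) (fun _ _ _ => by simp [add_smul])

theorem biv_monomial (n : ℕ) (c : K) (y x : R) : biv (monomial n c) y x = c • geo y x n := by
  unfold biv
  exact Polynomial.sum_monomial_index _ _ (by simp)

theorem biv_rel (f : K[X]) (y x : R) :
    y * biv f y x - biv f y x * x = aeval y f - aeval x f := by
  induction f using Polynomial.induction_on' with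
  | add p q hp hq =>
    rw [biv_add, map_add, map_add, mul_add, add_mul]
    have : y * biv p y x + y * biv q y x - (biv p y x * x + biv q y x * x)
        = (y * biv p y x - biv p y x * x) + (y * biv q y x - biv q y x * x) := by abel
    rw [this, hp, hq]; abel
  | monomial n c =>
    rw [biv_monomial, aeval_monomial, aeval_monomial, ← Algebra.smul_def, ← Algebra.smul_def,
      mul_smul_comm, smul_mul_assoc, ← smul_sub, geo_rel, smul_sub]

theorem biv_self (f : K[X]) (x : R) : biv f x x = aeval x (derivative f) := by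
  induction f using Polynomial.induction_on' with
  | add p q hp hq => rw [biv_add, derivative_add, map_add, hp, hq]
  | monomial n c =>
    rw [biv_monomial, derivative_monomial, aeval_monomial, geo_self, ← Algebra.smul_def]
    push_cast
    rw [mul_smul, Algebra.smul_def (n : K), map_natCast]

/-- Intertwining: two roots of `f` are intertwined by `biv f y x`. -/
theorem biv_intertwine (f : K[X]) {y x : R} (hy : aeval y f = 0) (hx : aeval x f = 0) :
    y * biv f y x = biv f y x * x := by
  have := biv_rel f y x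
  rw [hy, hx, sub_zero, sub_eq_zero] at this
  exact this

/-- If `x` commutes with `y` then it commutes with `geo y x n`. -/
theorem commute_geo {y x : R} (h : Commute x y) (n : ℕ) : Commute x (geo y x n) := by
  induction n with
  | zero => simp [geo]
  | succ n ih => exact (h.pow_right n).add_right (ih.mul_right (Commute.refl x))

theorem commute_biv (f : K[X]) {y x : R} (h : Commute x y) : Commute x (biv f y x) := by
  induction f using Polynomial.induction_on' with
  | add p q hp hq => rw [biv_add]; exact hp.add_right hq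
  | monomial n c =>
    rw [biv_monomial]
    exact (commute_geo h n).smul_right c

/-- For commuting `x, y`: `f(y) - f(x) = biv f y x * (y - x)`. -/
theorem biv_mul_sub (f : K[X]) {y x : R} (h : Commute x y) :
    biv f y x * (y - x) = aeval y f - aeval x f := by
  rw [← biv_rel f y x, mul_sub]
  have : biv f y x * y = y * biv f y x := by
    have h1 : Commute y (geo y x 0) := by simp [geo]
    have hc : Commute y (biv f y x) := by
      induction f using Polynomial.induction_on' with
      | add p q hp hq => rw [biv_add]; exact hp.add_right hq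
      | monomial n c =>
        rw [biv_monomial]
        refine Commute.smul_right ?_ c
        induction n with
        | zero => simp [geo]
        | succ n ih => exact (Commute.pow_right (Commute.refl y) n).add_right (ih.mul_right h.symm)
    exact hc.eq.symm
  rw [this]

end Biv

section Val

variable {K : Type*} [Field K] {R : Type*} [DivisionRing R] [Algebra K R]
variable {G : Type*} [AddCommGroup G] [LinearOrder G] [IsOrderedAddMonoid G]
variable (v : AddValuation R (WithTop G))

theorem val_pow_nonneg {x : R} (hx : 0 ≤ v x) (n : ℕ) : 0 ≤ v (x ^ n) := by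
  rw [AddValuation.map_pow]
  exact nsmul_nonneg hx n

theorem val_geo_nonneg {y x : R} (hy : 0 ≤ v y) (hx : 0 ≤ v x) (n : ℕ) : 0 ≤ v (geo y x n) := by
  induction n with
  | zero => simp [geo]
  | succ n ih =>
    refine le_trans (le_min (val_pow_nonneg v hy n) ?_) (v.map_add _ _)
    rw [v.map_mul]
    exact add_nonneg ih hx

theorem val_mul_ge {a b : R} {n : WithTop G} (ha : 0 ≤ v a) (hb : n ≤ v b) : n ≤ v (a * b) := by
  rw [v.map_mul]
  calc n = 0 + n := (zero_add n).symm
    _ ≤ v a + v b := add_le_add ha hb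

theorem val_mul_ge' {a b : R} {n : WithTop G} (ha : n ≤ v a) (hb : 0 ≤ v b) : n ≤ v (a * b) := by
  rw [v.map_mul]
  calc n = n + 0 := (add_zero n).symm
    _ ≤ v a + v b := add_le_add ha hb

theorem val_pow_sub {y x : R} (hy : 0 ≤ v y) (hx : 0 ≤ v x) {m : WithTop G} (hm : m ≤ v (y - x))
    (n : ℕ) : m ≤ v (y ^ n - x ^ n) ∨ n = 0 := by
  induction n with
  | zero => right; rfl
  | succ n ih =>
    left
    have e : y ^ (n + 1) - x ^ (n + 1) = y * (y ^ n - x ^ n) + (y - x) * x ^ n := by
      rw [pow_succ' y n, pow_succ' x n]; noncomm_ring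
    rw [e]
    refine le_trans (le_min ?_ (val_mul_ge' v hm (val_pow_nonneg v hx n))) (v.map_add _ _)
    rcases ih with ih | rfl
    · exact val_mul_ge v hy ih
    · simp

theorem val_geo_sub {y x : R} (hy : 0 ≤ v y) (hx : 0 ≤ v x) {m : WithTop G} (hm : m ≤ v (y - x))
    (n : ℕ) : m ≤ v (geo y x n - geo x x n) := by
  induction n with
  | zero => simp [geo]
  | succ n ih =>
    have e : geo y x (n + 1) - geo x x (n + 1)
        = (y ^ n - x ^ n) + (geo y x n - geo x x n) * x := by
      simp only [geo]; noncomm_ring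
    rw [e]
    refine le_trans (le_min ?_ (val_mul_ge' v ih hx)) (v.map_add _ _)
    rcases val_pow_sub v hy hx hm n with h | rfl
    · exact h
    · simp

variable {v}

/-- All coefficients of `f` have nonnegative value. -/
def Integral (v : AddValuation R (WithTop G)) (f : K[X]) : Prop :=
  ∀ i, 0 ≤ v (algebraMap K R (f.coeff i))

theorem val_smul_ge {c : K} {a : R} {m : WithTop G} (hc : 0 ≤ v (algebraMap K R c))
    (ha : m ≤ v a) : m ≤ v (c • a) := by
  rw [Algebra.smul_def]
  exact val_mul_ge v hc ha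

theorem Integral.derivative {f : K[X]} (hf : Integral v f) : Integral v (Polynomial.derivative f) := by
  intro i
  rw [coeff_derivative, map_mul]
  have h : ((i : K) + 1) = ((i + 1 : ℕ) : K) := by push_cast; rfl
  rw [h, map_natCast]
  refine le_trans ?_ (le_of_eq (v.map_mul _ _).symm)
  refine add_nonneg (hf _) ?_
  have : ∀ n : ℕ, 0 ≤ v (n : R) := by
    intro n
    induction n with
    | zero => simp
    | succ n ih =>
      push_cast
      refine le_trans (le_min ih ?_) (v.map_add _ _)
      rw [v.map_one]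
  exact this _

theorem val_aeval_nonneg {f : K[X]} (hf : Integral v f) {x : R} (hx : 0 ≤ v x) :
    0 ≤ v (aeval x f) := by
  rw [aeval_eq_sum_range]
  refine v.map_le_sum ?_
  intro i _
  exact val_smul_ge (hf i) (val_pow_nonneg v hx i)

theorem val_biv_nonneg {f : K[X]} (hf : Integral v f) {x y : R} (hy : 0 ≤ v y) (hx : 0 ≤ v x) :
    0 ≤ v (biv f y x) := by
  unfold biv
  rw [Polynomial.sum_def]
  refine v.map_le_sum ?_
  intro i _
  exact val_smul_ge (hf i) (val_geo_nonneg v hy hx i)

/-- `biv f y x ≡ f'(x)` modulo the distance of `y` and `x`. -/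
theorem val_biv_sub {f : K[X]} (hf : Integral v f) {x y : R} (hy : 0 ≤ v y) (hx : 0 ≤ v x)
    {m : WithTop G} (hm : m ≤ v (y - x)) : m ≤ v (biv f y x - aeval x (Polynomial.derivative f)) := by
  rw [← biv_self]
  unfold biv
  rw [Polynomial.sum_def, Polynomial.sum_def, ← Finset.sum_sub_distrib]
  refine v.map_le_sum ?_
  intro i _
  rw [← smul_sub]
  exact val_smul_ge (hf i) (val_geo_sub v hy hx hm i)

/-- **Conjugation lemma.** Two close roots of `f` at which `f'` is a unit are conjugate by an
element `κ ≡ 1` modulo their distance. -/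
theorem exists_conj {f : K[X]} (hf : Integral v f) {x y : R} (hy : 0 ≤ v y) (hx : 0 ≤ v x)
    (hfy : aeval y f = 0) (hfx : aeval x f = 0) (hd : v (aeval x (Polynomial.derivative f)) = 0)
    {m : WithTop G} (hm0 : 0 < m) (hm : m ≤ v (y - x)) :
    ∃ κ : R, κ ≠ 0 ∧ y * κ = κ * x ∧ m ≤ v (κ - 1) := by
  set d := aeval x (Polynomial.derivative f) with hddef
  have hd0 : d ≠ 0 := by
    intro h
    rw [h, v.map_zero] at hd
    exact WithTop.top_ne_zero hd
  have hcomm : Commute x d := by
    have : d ∈ Algebra.adjoin K {x} := by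
      rw [hddef]
      exact Polynomial.aeval_mem_adjoin_singleton K x
    have hc : ∀ a ∈ Algebra.adjoin K {x}, Commute x a := by
      intro a ha
      induction ha using Algebra.adjoin_induction with
      | mem a ha => rw [Set.mem_singleton_iff.1 ha]
      | algebraMap r => exact Algebra.commutes r x |>.symm
      | add a b _ _ h1 h2 => exact h1.add_right h2
      | mul a b _ _ h1 h2 => exact h1.mul_right h2
    exact hc d this
  have hdinv : Commute x d⁻¹ := hcomm.inv_right₀
  have hvinv : v d⁻¹ = 0 := by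
    have h1 : v (d * d⁻¹) = v d + v d⁻¹ := v.map_mul _ _
    rw [mul_inv_cancel₀ hd0, v.map_one, hd, zero_add] at h1
    exact h1.symm
  refine ⟨biv f y x * d⁻¹, ?_, ?_, ?_⟩
  · intro h0
    have h1 : biv f y x * d⁻¹ - 1 = (biv f y x - d) * d⁻¹ := by
      rw [sub_mul, mul_inv_cancel₀ hd0]
    have h2 := val_mul_ge' v (val_biv_sub hf hy hx hm) (le_of_eq hvinv.symm)
    rw [← hddef, ← h1, h0, zero_sub, v.map_neg, v.map_one] at h2
    exact absurd hm0 (not_lt.2 h2)
  · rw [← mul_assoc, biv_intertwine f hfy hfx, mul_assoc, mul_assoc, hdinv.eq]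
  · have h1 : biv f y x * d⁻¹ - 1 = (biv f y x - d) * d⁻¹ := by
      rw [sub_mul, mul_inv_cancel₀ hd0]
    rw [h1]
    exact val_mul_ge' v (val_biv_sub hf hy hx hm) (le_of_eq hvinv.symm)

/-- `f(y) ≡ f(x)` modulo the distance of `x` and `y`, no commutativity needed. -/
theorem val_aeval_sub {f : K[X]} (hf : Integral v f) {x y : R} (hy : 0 ≤ v y) (hx : 0 ≤ v x)
    {m : WithTop G} (hm : m ≤ v (y - x)) : m ≤ v (aeval y f - aeval x f) := by
  rw [aeval_eq_sum_range, aeval_eq_sum_range, ← Finset.sum_sub_distrib]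
  refine v.map_le_sum ?_
  intro i _
  rw [← smul_sub]
  refine val_smul_ge (hf i) ?_
  rcases val_pow_sub v hy hx hm i with h | rfl
  · exact h
  · simp

end Val

section Hensel

variable {K : Type*} [Field K] {R : Type*} [DivisionRing R] [Algebra K R]
variable {v : AddValuation R (WithTop ℤ)}

/-- A nonzero element has finite value, so it cannot have value `≥ k` for all naturals `k`. -/
theorem eq_zero_of_forall_le {x : R} (h : ∀ k : ℕ, (k : WithTop ℤ) ≤ v x) : x = 0 := by
  by_contra hx
  have h1 : v x ≠ ⊤ := by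
    intro h2
    have h3 : v (x * x⁻¹) = v x + v x⁻¹ := v.map_mul _ _
    rw [mul_inv_cancel₀ hx, v.map_one, h2, top_add] at h3
    exact WithTop.zero_ne_top h3
  obtain ⟨a, ha⟩ := WithTop.ne_top_iff_exists.1 h1
  have h2 := h (a.toNat + 1)
  rw [← ha] at h2
  have h3 : ((a.toNat + 1 : ℕ) : ℤ) ≤ a := by exact_mod_cast h2
  push_cast at h3
  have := Int.self_le_toNat a
  omega

/-- **Closedness of subspaces.** In a finite dimensional `K`-algebra with a nondegenerate
continuous form, a `K`-subspace contains the limits of its elements. -/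
theorem mem_of_limit [FiniteDimensional K R] (τ : R →ₗ[K] K) (hnd : ∀ x, x ≠ 0 → ∃ y, τ (x * y) ≠ 0)
    (hτv : ∀ x, v x ≤ v (algebraMap K R (τ x))) (E : Submodule K R) {x : R}
    (hx : ∀ k : ℕ, ∃ z ∈ E, (k : WithTop ℤ) ≤ v (x - z)) : x ∈ E := by
  by_contra hxE
  obtain ⟨f, hfx, hfE⟩ := Submodule.exists_dual_map_eq_bot_of_notMem hxE inferInstance
  -- `f = τ (c * ·)`
  let Φ : R →ₗ[K] Module.Dual K R := (LinearMap.mul K R).compr₂ τ
  have hΦ : ∀ c y, Φ c y = τ (c * y) := fun _ _ => rfl
  have hinj : Function.Injective Φ := by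
    rw [injective_iff_map_eq_zero]
    intro c hc
    by_contra hc0
    obtain ⟨y, hy⟩ := hnd c hc0
    exact hy (by rw [← hΦ, hc]; rfl)
  have hsurj : Function.Surjective Φ :=
    (LinearMap.injective_iff_surjective_of_finrank_eq_finrank
      (Subspace.dual_finrank_eq (K := K) (V := R)).symm).1 hinj
  obtain ⟨c, rfl⟩ := hsurj f
  have hE0 : ∀ z ∈ E, Φ c z = 0 := by
    intro z hz
    have : Φ c z ∈ E.map (Φ c) := Submodule.mem_map_of_mem hz
    rw [hfE] at this
    simpa using this
  have hc0 : c ≠ 0 := by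
    rintro rfl
    exact hfx (by simp)
  have hvc : v c ≠ ⊤ := by
    intro h2
    have h3 : v (c * c⁻¹) = v c + v c⁻¹ := v.map_mul _ _
    rw [mul_inv_cancel₀ hc0, v.map_one, h2, top_add] at h3
    exact WithTop.zero_ne_top h3
  obtain ⟨a, ha⟩ := WithTop.ne_top_iff_exists.1 hvc
  -- the value of `algebraMap (Φ c x)` is arbitrarily large
  have hz : algebraMap K R (Φ c x) = 0 := by
    apply eq_zero_of_forall_le (v := v)
    intro k
    obtain ⟨z, hzE, hzk⟩ := hx (k + (-a).toNat)
    have e : Φ c x = τ (c * (x - z)) := by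
      rw [← hΦ, map_sub, hE0 z hzE, sub_zero]
    rw [e]
    refine le_trans ?_ (hτv _)
    rw [v.map_mul, ← ha]
    refine le_trans ?_ (add_le_add_right hzk _)
    have h5 : ((k : ℤ)) ≤ a + ((k + (-a).toNat : ℕ) : ℤ) := by
      omega
    have h6 : (((k : ℤ)) : WithTop ℤ) ≤ ((a + ((k + (-a).toNat : ℕ) : ℤ) : ℤ) : WithTop ℤ) :=
      WithTop.coe_le_coe.2 h5
    rw [WithTop.coe_add] at h6
    exact h6
  exact hfx ((map_eq_zero_iff _ (algebraMap K R).injective).1 hz)

/-- One Newton step. -/
theorem newton_step {f : K[X]} (hf : Integral v f) (E : Subalgebra K R)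
    (hcomm : ∀ a ∈ E, ∀ b ∈ E, a * b = b * a) (hinv : ∀ a ∈ E, a⁻¹ ∈ E)
    {z : R} (hzE : z ∈ E) (hz : 0 ≤ v z) (hd : v (aeval z (Polynomial.derivative f)) = 0)
    {k : ℕ} (hk : 1 ≤ k) (hfz : (k : WithTop ℤ) ≤ v (aeval z f)) :
    ∃ z' ∈ E, 0 ≤ v z' ∧ v (aeval z' (Polynomial.derivative f)) = 0 ∧
      ((k + 1 : ℕ) : WithTop ℤ) ≤ v (aeval z' f) ∧ (k : WithTop ℤ) ≤ v (z' - z) := by
  set d := aeval z (Polynomial.derivative f) with hddef
  have hd0 : d ≠ 0 := by
    intro h
    rw [h, v.map_zero] at hd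
    exact WithTop.top_ne_zero hd
  have hvinv : v d⁻¹ = 0 := by
    have h1 : v (d * d⁻¹) = v d + v d⁻¹ := v.map_mul _ _
    rw [mul_inv_cancel₀ hd0, v.map_one, hd, zero_add] at h1
    exact h1.symm
  have hdE : d ∈ E := by
    rw [hddef]
    exact (Polynomial.aeval_mem_adjoin_singleton K z |> fun h =>
      (Algebra.adjoin_le (Set.singleton_subset_iff.2 hzE)) h)
  have hfE : aeval z f ∈ E :=
    (Algebra.adjoin_le (Set.singleton_subset_iff.2 hzE)) (Polynomial.aeval_mem_adjoin_singleton K z)
  set h := aeval z f * d⁻¹ with hh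
  have hhE : h ∈ E := E.mul_mem hfE (hinv d hdE)
  have hhk : (k : WithTop ℤ) ≤ v h := val_mul_ge' v hfz (le_of_eq hvinv.symm)
  have hk0 : (0 : WithTop ℤ) ≤ (k : WithTop ℤ) := by exact_mod_cast Nat.zero_le k
  have hk1 : (0 : WithTop ℤ) < (k : WithTop ℤ) := by exact_mod_cast hk
  set z' := z - h with hz'
  have hsub : z' - z = -h := by rw [hz']; abel
  have hz'E : z' ∈ E := E.sub_mem hzE hhE
  have hsubk : (k : WithTop ℤ) ≤ v (z' - z) := by rw [hsub, v.map_neg]; exact hhk
  have hz'0 : 0 ≤ v z' := by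
    rw [hz']
    refine le_trans (le_min hz ?_) (v.map_sub _ _)
    exact le_trans hk0 hhk
  have hcz : Commute z z' := hcomm z hzE z' hz'E
  refine ⟨z', hz'E, hz'0, ?_, ?_, hsubk⟩
  · -- `f'(z') ≡ f'(z)`
    have h1 := val_aeval_sub (Integral.derivative hf) hz'0 hz hsubk
    have e : aeval z' (Polynomial.derivative f) = d + (aeval z' (Polynomial.derivative f) - d) := by
      abel
    rw [e, AddValuation.map_add_eq_of_lt_left, hd]
    rw [hd]
    exact lt_of_lt_of_le hk1 h1
  · -- `f(z') = (biv - d) (z' - z)`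
    have h1 : aeval z' f = (biv f z' z - d) * (z' - z) := by
      have h2 := biv_mul_sub f hcz
      have hdh : d * h = aeval z f := by
        rw [hh, ← mul_assoc, hcomm d hdE _ hfE, mul_assoc, mul_inv_cancel₀ hd0, mul_one]
      rw [sub_mul, h2, hsub, mul_neg, hdh]
      abel
    rw [h1, v.map_mul]
    have h3 := val_biv_sub hf hz'0 hz hsubk
    calc ((k + 1 : ℕ) : WithTop ℤ) ≤ (k : WithTop ℤ) + (k : WithTop ℤ) := by
          have : ((k + 1 : ℕ) : ℤ) ≤ (k : ℤ) + k := by push_cast; omega
          exact_mod_cast this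
      _ ≤ _ := add_le_add h3 hsubk

/-- **Hensel inside a closed commutative subalgebra**: an approximate root `z` of `f` with `f'(z)` a
unit is close to a root. -/
theorem exists_root {f : K[X]} (hf : Integral v f) (E : Subalgebra K R)
    (hcomm : ∀ a ∈ E, ∀ b ∈ E, a * b = b * a) (hinv : ∀ a ∈ E, a⁻¹ ∈ E)
    (hclosed : ∀ x : R, (∀ k : ℕ, ∃ z ∈ E, (k : WithTop ℤ) ≤ v (x - z)) → x ∈ E)
    (hcpl : ∀ x : ℕ → R, (∀ k : ℕ, (k : WithTop ℤ) ≤ v (x (k + 1) - x k)) →
      ∃ l, ∀ k : ℕ, (k : WithTop ℤ) ≤ v (l - x k))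
    {z : R} (hzE : z ∈ E) (hz : 0 ≤ v z) (hd : v (aeval z (Polynomial.derivative f)) = 0)
    {n : ℕ} (hn : 1 ≤ n) (hfz : (n : WithTop ℤ) ≤ v (aeval z f)) :
    ∃ y ∈ E, aeval y f = 0 ∧ (n : WithTop ℤ) ≤ v (y - z) := by
  -- the Newton sequence
  let P : ℕ → R → Prop := fun k w => w ∈ E ∧ 0 ≤ v w ∧
    v (aeval w (Polynomial.derivative f)) = 0 ∧ ((n + k : ℕ) : WithTop ℤ) ≤ v (aeval w f)
  have hstep : ∀ k w, P k w → ∃ w', P (k + 1) w' ∧ ((n + k : ℕ) : WithTop ℤ) ≤ v (w' - w) := by
    rintro k w ⟨h1, h2, h3, h4⟩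
    obtain ⟨w', h5, h6, h7, h8, h9⟩ :=
      newton_step hf E hcomm hinv h1 h2 h3 (k := n + k) (by omega) h4
    exact ⟨w', ⟨h5, h6, h7, by simpa [add_assoc] using h8⟩, h9⟩
  let seq : (k : ℕ) → {w // P k w} := fun k => Nat.rec
    (⟨z, hzE, hz, hd, by simpa using hfz⟩ : {w // P 0 w})
    (fun k w => ⟨Classical.choose (hstep k w.1 w.2), (Classical.choose_spec (hstep k w.1 w.2)).1⟩) k
  have hseq : ∀ k, ((n + k : ℕ) : WithTop ℤ) ≤ v ((seq (k + 1)).1 - (seq k).1) := fun k =>
    (Classical.choose_spec (hstep k (seq k).1 (seq k).2)).2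
  have hseq0 : (seq 0).1 = z := rfl
  have hcoe : ∀ a b : ℕ, a ≤ b → (a : WithTop ℤ) ≤ (b : WithTop ℤ) := by
    intro a b hab
    exact_mod_cast hab
  obtain ⟨l, hl⟩ := hcpl (fun k => (seq k).1) (fun k =>
    le_trans (hcoe k (n + k) (by omega)) (hseq k))
  have hlE : l ∈ E := hclosed l (fun k => ⟨(seq k).1, (seq k).2.1, hl k⟩)
  have hl0 : 0 ≤ v l := by
    have h1 : l = (l - (seq 0).1) + (seq 0).1 := by abel
    rw [h1]
    refine le_trans (le_min ?_ hz) (v.map_add _ _)
    exact le_trans (by exact_mod_cast Nat.zero_le 0) (hl 0)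
  have hval : ∀ k, (n : WithTop ℤ) ≤ v ((seq k).1 - z) := by
    intro k
    induction k with
    | zero => simp [hseq0]
    | succ k ih =>
      have e : (seq (k + 1)).1 - z = ((seq (k + 1)).1 - (seq k).1) + ((seq k).1 - z) := by abel
      rw [e]
      refine le_trans (le_min ?_ ih) (v.map_add _ _)
      exact le_trans (hcoe n (n + k) (by omega)) (hseq k)
  refine ⟨l, hlE, ?_, ?_⟩
  · apply eq_zero_of_forall_le (v := v)
    intro k
    have e : aeval l f = (aeval l f - aeval (seq k).1 f) + aeval (seq k).1 f := by abel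
    rw [e]
    refine le_trans (le_min ?_ ?_) (v.map_add _ _)
    · exact val_aeval_sub hf hl0 (seq k).2.2.1 (hl k)
    · exact le_trans (hcoe k (n + k) (by omega)) (seq k).2.2.2.2
  · have e : l - z = (l - (seq n).1) + ((seq n).1 - z) := by abel
    rw [e]
    exact le_trans (le_min (hl n) (hval n)) (v.map_add _ _)

/-- A finite dimensional subalgebra of a division ring is closed under inverses. -/
theorem inv_mem_of_finite (E : Subalgebra K R) [FiniteDimensional K E] {a : R} (ha : a ∈ E) :
    a⁻¹ ∈ E := by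
  by_cases h0 : a = 0
  · rw [h0, inv_zero]; exact E.zero_mem
  let L : E →ₗ[K] E := LinearMap.mulLeft K (⟨a, ha⟩ : E)
  have hinj : Function.Injective L := by
    rw [injective_iff_map_eq_zero]
    intro b hb
    have hb' : a * (b : R) = 0 := congrArg Subtype.val hb
    rcases mul_eq_zero.1 hb' with h | h
    · exact absurd h h0
    · exact Subtype.ext h
  obtain ⟨b, hb⟩ := (LinearMap.injective_iff_surjective.1 hinj) (1 : E)
  have hb' : a * (b : R) = 1 := congrArg Subtype.val hb
  rw [← eq_inv_of_mul_eq_one_right hb']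
  exact b.2

/-- **Inertial lemma.** `E` is a commutative finite dimensional `K`-subalgebra of a complete valued
division algebra with continuous nondegenerate trace; `F₁ = K[z₀]`; `f(z₀)=0`, `f'(z₀)` a unit;
`E` contains an element `z` at distance `≥ n` of `z₀` and `[E:K] ≤ [F₁:K]`.  Then `E = κ F₁ κ⁻¹` for
some `κ ≡ 1` modulo `s^n`. -/
theorem exists_conj_subalgebra [FiniteDimensional K R] {f : K[X]} (hf : Integral v f)
    (τ : R →ₗ[K] K) (hnd : ∀ x, x ≠ 0 → ∃ y, τ (x * y) ≠ 0)
    (hτv : ∀ x, v x ≤ v (algebraMap K R (τ x)))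
    (hcpl : ∀ x : ℕ → R, (∀ k : ℕ, (k : WithTop ℤ) ≤ v (x (k + 1) - x k)) →
      ∃ l, ∀ k : ℕ, (k : WithTop ℤ) ≤ v (l - x k))
    (E : Subalgebra K R) (hcomm : ∀ a ∈ E, ∀ b ∈ E, a * b = b * a)
    {z₀ : R} (hz₀ : 0 ≤ v z₀) (hfz₀ : aeval z₀ f = 0)
    (hd₀ : v (aeval z₀ (Polynomial.derivative f)) = 0)
    (hdim : Module.finrank K E ≤ Module.finrank K (Algebra.adjoin K {z₀}))
    {z : R} (hzE : z ∈ E) {n : ℕ} (hn : 1 ≤ n) (hzz : (n : WithTop ℤ) ≤ v (z - z₀)) :
    ∃ κ : R, κ ≠ 0 ∧ (n : WithTop ℤ) ≤ v (κ - 1) ∧ κ * z₀ * κ⁻¹ ∈ E ∧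
      (∀ a ∈ Algebra.adjoin K {z₀}, κ * a * κ⁻¹ ∈ E) ∧
      (∀ b ∈ E, κ⁻¹ * b * κ ∈ Algebra.adjoin K {z₀}) := by
  haveI hEfd : FiniteDimensional K E :=
    FiniteDimensional.finiteDimensional_submodule (Subalgebra.toSubmodule E)
  haveI hFfd : FiniteDimensional K (Algebra.adjoin K {z₀}) :=
    FiniteDimensional.finiteDimensional_submodule (Subalgebra.toSubmodule (Algebra.adjoin K {z₀}))
  have hn0 : (0 : WithTop ℤ) < (n : WithTop ℤ) := by exact_mod_cast hn
  have hz : 0 ≤ v z := by
    have h1 : z = (z - z₀) + z₀ := by abel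
    rw [h1]
    exact le_trans (le_min (le_trans hn0.le hzz) hz₀) (v.map_add _ _)
  have hd : v (aeval z (Polynomial.derivative f)) = 0 := by
    have h1 := val_aeval_sub (Integral.derivative hf) hz hz₀ hzz
    have e : aeval z (Polynomial.derivative f) = aeval z₀ (Polynomial.derivative f) +
        (aeval z (Polynomial.derivative f) - aeval z₀ (Polynomial.derivative f)) := by abel
    rw [e, AddValuation.map_add_eq_of_lt_left, hd₀]
    rw [hd₀]
    exact lt_of_lt_of_le hn0 h1
  have hfz : (n : WithTop ℤ) ≤ v (aeval z f) := by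
    have h1 := val_aeval_sub hf hz hz₀ hzz
    rwa [hfz₀, sub_zero] at h1
  obtain ⟨y, hyE, hfy, hyz⟩ := exists_root hf E hcomm (fun a ha => inv_mem_of_finite E ha)
    (fun x hx => mem_of_limit τ hnd hτv (Subalgebra.toSubmodule E) hx) hcpl hzE hz hd hn hfz
  have hyz₀ : (n : WithTop ℤ) ≤ v (y - z₀) := by
    have e : y - z₀ = (y - z) + (z - z₀) := by abel
    rw [e]
    exact le_trans (le_min hyz hzz) (v.map_add _ _)
  have hy0 : 0 ≤ v y := by
    have h1 : y = (y - z₀) + z₀ := by abel
    rw [h1]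
    exact le_trans (le_min (le_trans hn0.le hyz₀) hz₀) (v.map_add _ _)
  obtain ⟨κ, hκ0, hκ, hκv⟩ := exists_conj hf hy0 hz₀ hfy hfz₀ hd₀ hn0 hyz₀
  have hconj : κ * z₀ * κ⁻¹ = y := by
    rw [← hκ, mul_assoc, mul_inv_cancel₀ hκ0, mul_one]
  have hmap : ∀ a ∈ Algebra.adjoin K {z₀}, κ * a * κ⁻¹ ∈ E := by
    intro a ha
    induction ha using Algebra.adjoin_induction with
    | mem a ha =>
      rw [Set.mem_singleton_iff.1 ha, hconj]
      exact hyE
    | algebraMap r =>
      rw [← Algebra.commutes, mul_assoc, mul_inv_cancel₀ hκ0, mul_one]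
      exact E.algebraMap_mem r
    | add a b _ _ h1 h2 =>
      rw [mul_add, add_mul]
      exact E.add_mem h1 h2
    | mul a b _ _ h1 h2 =>
      have e : κ * (a * b) * κ⁻¹ = (κ * a * κ⁻¹) * (κ * b * κ⁻¹) := by
        simp only [mul_assoc]
        rw [inv_mul_cancel_left₀ hκ0]
      rw [e]
      exact E.mul_mem h1 h2
  -- the conjugation map
  let φ : (Algebra.adjoin K {z₀}) →ₗ[K] E :=
    { toFun := fun a => ⟨κ * a * κ⁻¹, hmap a a.2⟩
      map_add' := fun a b => Subtype.ext (by simp [mul_add, add_mul])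
      map_smul' := fun c a => Subtype.ext (by simp [Algebra.smul_def, mul_assoc, Algebra.commutes]) }
  have hφ : ∀ a, (φ a : R) = κ * a * κ⁻¹ := fun _ => rfl
  have hinj : Function.Injective φ := by
    rw [injective_iff_map_eq_zero]
    intro a ha
    have h1 : κ * (a : R) * κ⁻¹ = 0 := by rw [← hφ, ha]; rfl
    have h2 : (a : R) = 0 := by
      rcases mul_eq_zero.1 h1 with h | h
      · rcases mul_eq_zero.1 h with h | h
        · exact absurd h hκ0
        · exact h
      · exact absurd (inv_eq_zero.1 h) hκ0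
    exact Subtype.ext h2
  have hsurj : Function.Surjective φ := by
    have hle := LinearMap.finrank_le_finrank_of_injective hinj
    exact (LinearMap.injective_iff_surjective_of_finrank_eq_finrank (le_antisymm hle hdim)).1 hinj
  refine ⟨κ, hκ0, hκv, hconj ▸ hyE, hmap, ?_⟩
  intro b hb
  obtain ⟨a, ha⟩ := hsurj ⟨b, hb⟩
  have h1 : κ * (a : R) * κ⁻¹ = b := congrArg Subtype.val ha
  have h2 : κ⁻¹ * b * κ = a := by
    rw [← h1]
    simp only [mul_assoc]
    rw [inv_mul_cancel₀ hκ0, mul_one, inv_mul_cancel_left₀ hκ0]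
  rw [h2]
  exact a.2

end Hensel

end Crest.Agent.Kurosh.Inertial
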