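import Crest.Agent.Kurosh.Valued
import Crest.Agent.Kurosh.Inertial

/-!
# S0270 module M8a: the `s'`-adic layer of the Key Lemma

Everything here is about valued division rings; no Hahn series.  Complements `KeyCore.lean`, which
has the residue-level part of the Key Lemma.

* `val_aeval_taylor`: `P(β + w + O(j+1)) = P(β) + P'(β) w + O(j+1)` when `w` commutes with `β`.
* `resAlg`, `finrank_resAlg_mul_le`: the residue algebra of a subalgebra and the fundamental
  inequality `[res F : 𝕂] · m ≤ [F : K']` when `F` contains an element of value prime to `m`.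
-/

set_option autoImplicit false

namespace Crest.Agent.Kurosh.KeyOne

open Polynomial

section Taylor

variable {K : Type*} [Field K] {R : Type*} [DivisionRing R] [Algebra K R]
variable (v : AddValuation R (WithTop ℤ))

/-- `(β + w + O(j+1))^n = β^n + n β^{n-1} w + O(j+1)` when `w` commutes with `β`,
`β` integral, `v w ≥ j ≥ 1`. -/
theorem val_pow_taylor {β w H : R} {j : ℤ} (hj : 1 ≤ j) (hβ : 0 ≤ v β)
    (hw : (j : WithTop ℤ) ≤ v w) (hcomm : β * w = w * β)
    (hH : ((j + 1 : ℤ) : WithTop ℤ) ≤ v (H - β - w)) (n : ℕ) :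
    ((j + 1 : ℤ) : WithTop ℤ) ≤ v (H ^ n - β ^ n - (n : R) * β ^ (n - 1) * w) := by
  have hj0 : (0 : WithTop ℤ) ≤ (j : WithTop ℤ) := by exact_mod_cast (by omega : 0 ≤ j)
  have hj1 : (0 : WithTop ℤ) ≤ ((j + 1 : ℤ) : WithTop ℤ) := by exact_mod_cast (by omega : 0 ≤ j + 1)
  have hH0 : 0 ≤ v H := by
    have e : H = (H - β - w) + (β + w) := by abel
    rw [e]
    exact le_trans (le_min (le_trans hj1 hH)
      (le_trans (le_min hβ (le_trans hj0 hw)) (v.map_add _ _))) (v.map_add _ _)
  have hHw : (j : WithTop ℤ) ≤ v (H - β) := by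
    have e : H - β = (H - β - w) + w := by abel
    rw [e]
    refine le_trans (le_min (le_trans ?_ hH) hw) (v.map_add _ _)
    exact_mod_cast (by omega : j ≤ j + 1)
  have hpow : ∀ n : ℕ, 0 ≤ v (β ^ n) := fun n => Inertial.val_pow_nonneg v hβ n
  have hcast : ∀ n : ℕ, 0 ≤ v (n : R) := by
    intro n
    induction n with
    | zero => simp
    | succ n ih =>
      push_cast
      refine le_trans (le_min ih ?_) (v.map_add _ _)
      rw [v.map_one]
  induction n with
  | zero =>
    simp
  | succ n ih =>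
    -- H^{n+1} = H^n H
    set E := H ^ n - β ^ n - (n : R) * β ^ (n - 1) * w with hE
    set D := H - β - w with hD
    have hcomm' : β ^ n * w = w * β ^ n := (Commute.pow_left hcomm n).eq
    have e : H ^ (n + 1) - β ^ (n + 1) - ((n + 1 : ℕ) : R) * β ^ (n + 1 - 1) * w =
        E * H + (n : R) * β ^ (n - 1) * w * (H - β) + β ^ n * D +
          ((n : R) * β ^ (n - 1) * w * β - (n : R) * β ^ n * w) := by
      rw [hE, hD, pow_succ H, pow_succ β]
      simp only [Nat.add_sub_cancel]
      push_cast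
      noncomm_ring
    have e2 : (n : R) * β ^ (n - 1) * w * β - (n : R) * β ^ n * w = 0 := by
      rcases Nat.eq_zero_or_pos n with h0 | hpos
      · simp [h0]
      · obtain ⟨k, rfl⟩ : ∃ k, n = k + 1 := ⟨n - 1, by omega⟩
        simp only [Nat.add_sub_cancel]
        have : β ^ k * w * β = β ^ (k + 1) * w := by
          rw [mul_assoc, ← hcomm, ← mul_assoc, ← pow_succ]
        rw [mul_assoc _ (β ^ k) w, mul_assoc _ (β ^ k * w) β, this, ← mul_assoc]
        simp
    rw [e, e2, add_zero]
    refine le_trans (le_min (le_trans (le_min ?_ ?_) (v.map_add _ _)) ?_) (v.map_add _ _)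
    · rw [v.map_mul]
      calc ((j + 1 : ℤ) : WithTop ℤ) = ((j + 1 : ℤ) : WithTop ℤ) + 0 := (add_zero _).symm
        _ ≤ _ := add_le_add ih hH0
    · rw [v.map_mul, v.map_mul, v.map_mul]
      have hj2 : ((j + 1 : ℤ) : WithTop ℤ) ≤ (j : WithTop ℤ) + (j : WithTop ℤ) := by
        have : j + 1 ≤ j + j := by omega
        exact_mod_cast this
      calc ((j + 1 : ℤ) : WithTop ℤ) ≤ (j : WithTop ℤ) + (j : WithTop ℤ) := hj2
        _ = 0 + 0 + (j : WithTop ℤ) + (j : WithTop ℤ) := by simp
        _ ≤ _ := add_le_add (add_le_add (add_le_add (hcast n) (hpow _)) hw) hHw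
    · rw [v.map_mul]
      calc ((j + 1 : ℤ) : WithTop ℤ) = 0 + ((j + 1 : ℤ) : WithTop ℤ) := (zero_add _).symm
        _ ≤ _ := add_le_add (hpow n) hH

/-- Taylor at first order: `P(β + w + O(j+1)) = P(β) + P'(β) w + O(j+1)` when `w` commutes with `β`,
for a polynomial `P` with scalars of value `≥ 0`. -/
theorem val_aeval_taylor (hK : ∀ c : K, c ≠ 0 → v (algebraMap K R c) = 0) {β w H : R} {j : ℤ}
    (hj : 1 ≤ j) (hβ : 0 ≤ v β) (hw : (j : WithTop ℤ) ≤ v w) (hcomm : β * w = w * β)
    (hH : ((j + 1 : ℤ) : WithTop ℤ) ≤ v (H - β - w)) (P : K[X]) :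
    ((j + 1 : ℤ) : WithTop ℤ) ≤
      v (aeval H P - aeval β P - aeval β (Polynomial.derivative P) * w) := by
  induction P using Polynomial.induction_on' with
  | add p q hp hq =>
    have e : aeval H (p + q) - aeval β (p + q) - aeval β (Polynomial.derivative (p + q)) * w =
        (aeval H p - aeval β p - aeval β (Polynomial.derivative p) * w) +
          (aeval H q - aeval β q - aeval β (Polynomial.derivative q) * w) := by
      simp only [map_add, add_mul]
      abel
    rw [e]
    exact le_trans (le_min hp hq) (v.map_add _ _)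
  | monomial n c =>
    by_cases hc : c = 0
    · simp [hc]
    have h := val_pow_taylor v hj hβ hw hcomm hH n
    have e : aeval H (monomial n c) - aeval β (monomial n c) -
        aeval β (Polynomial.derivative (monomial n c)) * w =
        algebraMap K R c * (H ^ n - β ^ n - (n : R) * β ^ (n - 1) * w) := by
      simp only [aeval_monomial, Polynomial.derivative_monomial, mul_sub, map_mul, map_natCast,
        mul_assoc]
    rw [e, v.map_mul, hK c hc, zero_add]
    exact h

end Taylor

section Residue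

/-- Abstract residue data: `U` a valued division ring over `K'`, `res : U → R` a residue map on the
valuation ring, `𝕂` the residue field of `K'`. -/
structure ResData (K' U 𝕂 R : Type*) [Field K'] [DivisionRing U] [Algebra K' U] [Field 𝕂] [Ring R]
    [Algebra 𝕂 R] where
  /-- the valuation -/
  v : AddValuation U (WithTop ℤ)
  /-- the residue map -/
  res : U → R
  res_add : ∀ x y, 0 ≤ v x → 0 ≤ v y → res (x + y) = res x + res y
  res_mul : ∀ x y, 0 ≤ v x → 0 ≤ v y → res (x * y) = res x * res y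
  res_one : res 1 = 1
  res_ker : ∀ x, 0 ≤ v x → (res x = 0 ↔ 0 < v x)
  /-- the residue of an integral scalar is a scalar -/
  res_scalar : ∀ c : K', 0 ≤ v (c • (1 : U)) → ∃ a : 𝕂, res (c • (1 : U)) = algebraMap 𝕂 R a
  /-- every scalar of `𝕂` lifts -/
  lift_scalar : ∀ a : 𝕂, ∃ c : K', 0 ≤ v (c • (1 : U)) ∧ res (c • (1 : U)) = algebraMap 𝕂 R a

variable {K' U 𝕂 R : Type*} [Field K'] [DivisionRing U] [Algebra K' U] [Field 𝕂] [Ring R]
  [Algebra 𝕂 R] (D : ResData K' U 𝕂 R)

namespace ResData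

theorem res_zero : D.res 0 = 0 :=
  (D.res_ker 0 (by rw [D.v.map_zero]; exact le_top)).2 (by rw [D.v.map_zero]; exact WithTop.coe_lt_top 0)

/-- The residue algebra of a `K'`-subalgebra `F` of `U`. -/
def resAlg (F : Subalgebra K' U) : Subalgebra 𝕂 R where
  carrier := {r | ∃ x ∈ F, 0 ≤ D.v x ∧ D.res x = r}
  mul_mem' := by
    rintro _ _ ⟨x, hx, hx0, rfl⟩ ⟨y, hy, hy0, rfl⟩
    refine ⟨x * y, F.mul_mem hx hy, ?_, D.res_mul x y hx0 hy0⟩
    rw [D.v.map_mul]
    exact add_nonneg hx0 hy0
  add_mem' := by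
    rintro _ _ ⟨x, hx, hx0, rfl⟩ ⟨y, hy, hy0, rfl⟩
    exact ⟨x + y, F.add_mem hx hy, le_trans (le_min hx0 hy0) (D.v.map_add _ _),
      D.res_add x y hx0 hy0⟩
  algebraMap_mem' := by
    intro a
    obtain ⟨c, hc0, hc⟩ := D.lift_scalar a
    exact ⟨c • (1 : U), by
      rw [Algebra.smul_def, mul_one]
      exact F.algebraMap_mem c, hc0, hc⟩

theorem mem_resAlg {F : Subalgebra K' U} {r : R} :
    r ∈ D.resAlg F ↔ ∃ x ∈ F, 0 ≤ D.v x ∧ D.res x = r := Iff.rfl

theorem res_mem_resAlg {F : Subalgebra K' U} {x : U} (hx : x ∈ F) (hx0 : 0 ≤ D.v x) :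
    D.res x ∈ D.resAlg F := ⟨x, hx, hx0, rfl⟩

theorem resAlg_comm {F : Subalgebra K' U} (hF : ∀ a ∈ F, ∀ b ∈ F, a * b = b * a) :
    ∀ a ∈ D.resAlg F, ∀ b ∈ D.resAlg F, a * b = b * a := by
  rintro _ ⟨x, hx, hx0, rfl⟩ _ ⟨y, hy, hy0, rfl⟩
  rw [← D.res_mul x y hx0 hy0, ← D.res_mul y x hy0 hx0, hF x hx y hy]

/-- A family of elements of `U` whose residues are `𝕂`-independent is `ResIndep`. -/
theorem resIndep {ι : Type*} (r : ι → U) (hr0 : ∀ i, 0 ≤ D.v (r i))
    (hli : LinearIndependent 𝕂 (fun i => D.res (r i))) : Valued.ResIndep D.v K' r := by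
  classical
  refine Valued.resIndep_of_res D.v r hr0 D.res D.res_add D.res_zero D.res_ker D.res_mul ?_
  intro s c hc hsum
  choose! a ha using fun i (hi : i ∈ s) => D.res_scalar (c i) (hc i hi)
  have h1 : ∑ i ∈ s, a i • D.res (r i) = 0 := by
    rw [← hsum]
    refine Finset.sum_congr rfl fun i hi => ?_
    rw [ha i hi, Algebra.smul_def]
  have h2 := linearIndependent_iff'.1 hli s a h1
  intro i hi
  rw [ha i hi, h2 i hi, map_zero]

/-- **Fundamental inequality.**  `F` is a finite dimensional subalgebra containing `π` of value `j`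
prime to `m`, and the values of `K'` are multiples of the prime `m`.  Then
`[res F : 𝕂] * m ≤ [F : K']`. -/
theorem finrank_resAlg_mul_le (F : Subalgebra K' U) [FiniteDimensional K' F]
    [FiniteDimensional 𝕂 (D.resAlg F)]
    {m : ℕ} (hm : m.Prime) (hval : ∀ c : K', c ≠ 0 → ∃ n : ℤ, D.v (c • (1 : U)) = ((m * n : ℤ) : WithTop ℤ))
    {π : U} (hπ : π ∈ F) {j : ℤ} (hπv : D.v π = (j : WithTop ℤ)) (hj : ¬ (m : ℤ) ∣ j) :
    Module.finrank 𝕂 (D.resAlg F) * m ≤ Module.finrank K' F := by
  classical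
  -- a basis of the residue algebra and lifts
  let b := Module.finBasis 𝕂 (D.resAlg F)
  have hlift : ∀ i, ∃ x ∈ F, 0 ≤ D.v x ∧ D.res x = (b i : R) := fun i => (b i).2
  choose r hrF hr0 hrres using hlift
  have hli : LinearIndependent 𝕂 (fun i => D.res (r i)) := by
    have h1 : LinearIndependent 𝕂 (fun i => ((b i : D.resAlg F) : R)) :=
      b.linearIndependent.map' (D.resAlg F).val.toLinearMap
        (LinearMap.ker_eq_bot.2 Subtype.val_injective)
    simpa only [hrres] using h1
  have hind := D.resIndep r hr0 hli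
  have hπ0 : π ≠ 0 := by
    intro h0
    rw [h0, D.v.map_zero] at hπv
    exact WithTop.top_ne_coe hπv
  have hπpow : ∀ i : ℕ, D.v (π ^ i) = ((i * j : ℤ) : WithTop ℤ) := by
    intro i
    rw [AddValuation.map_pow, hπv]
    rw [← WithTop.coe_nsmul]
    simp
  have := Valued.card_mul_card_le_finrank D.v (L := Subalgebra.toSubmodule F)
    r hind (fun i : Fin m => π ^ (i : ℕ)) (fun i => pow_ne_zero _ hπ0) ?_
    (fun i i' => F.mul_mem (hrF i) (F.pow_mem hπ _))
  · simpa [Module.finrank_fintype_fun_eq_card] using this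
  · intro i i' hii' a b' ha hb' heq
    obtain ⟨n1, hn1⟩ := hval a ha
    obtain ⟨n2, hn2⟩ := hval b' hb'
    rw [Valued.val_smul D.v a, Valued.val_smul D.v b' (π ^ (i' : ℕ)), hn1, hn2, hπpow, hπpow] at heq
    have h1 : (m : ℤ) * n1 + (i : ℕ) * j = (m : ℤ) * n2 + (i' : ℕ) * j := by
      exact_mod_cast heq
    have h2 : (m : ℤ) ∣ (((i : ℕ) : ℤ) - ((i' : ℕ) : ℤ)) * j := by
      refine ⟨n2 - n1, ?_⟩
      linear_combination h1
    have hp : Prime (m : ℤ) := Nat.prime_iff_prime_int.1 hm
    rcases hp.dvd_or_dvd h2 with h3 | h3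
    · apply hii'
      have hi := i.2
      have hi' := i'.2
      obtain ⟨k, hk⟩ := h3
      have hk0 : k = 0 := by
        by_contra hk0
        have : (m : ℤ) ≤ |((i : ℕ) : ℤ) - ((i' : ℕ) : ℤ)| := by
          rw [hk, abs_mul]
          have : (1 : ℤ) ≤ |k| := Int.one_le_abs hk0
          have hm0 : (0 : ℤ) ≤ |(m : ℤ)| := abs_nonneg _
          nlinarith [abs_of_nonneg (Int.natCast_nonneg m)]
        have h5 : |((i : ℕ) : ℤ) - ((i' : ℕ) : ℤ)| < (m : ℤ) := by
          rw [abs_lt]
          constructor <;> omega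
        omega
      rw [hk0, mul_zero] at hk
      ext
      omega
    · exact hj h3

/-- Without ramification information: `[res F : 𝕂] ≤ [F : K']`. -/
theorem finrank_resAlg_le (F : Subalgebra K' U) [FiniteDimensional K' F]
    [FiniteDimensional 𝕂 (D.resAlg F)] :
    Module.finrank 𝕂 (D.resAlg F) ≤ Module.finrank K' F := by
  classical
  let b := Module.finBasis 𝕂 (D.resAlg F)
  have hlift : ∀ i, ∃ x ∈ F, 0 ≤ D.v x ∧ D.res x = (b i : R) := fun i => (b i).2
  choose r hrF hr0 hrres using hlift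
  have hli : LinearIndependent 𝕂 (fun i => D.res (r i)) := by
    have h1 : LinearIndependent 𝕂 (fun i => ((b i : D.resAlg F) : R)) :=
      b.linearIndependent.map' (D.resAlg F).val.toLinearMap
        (LinearMap.ker_eq_bot.2 Subtype.val_injective)
    simpa only [hrres] using h1
  have hind := D.resIndep r hr0 hli
  have := Valued.card_mul_card_le_finrank D.v (L := Subalgebra.toSubmodule F)
    r hind (fun _ : Fin 1 => (1 : U)) (fun _ => one_ne_zero) ?_
    (fun i _ => by simpa using hrF i)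
  · simpa [Module.finrank_fintype_fun_eq_card] using this
  · intro i i' hii'
    exact absurd (Subsingleton.elim i i') hii'

end ResData

end Residue

end Crest.Agent.Kurosh.KeyOne
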