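import Crest.Agent.Kurosh.THahn
import Crest.Agent.Kurosh.KeyCore
import Crest.Agent.Kurosh.KeyOne

/-!
# S0270 module M8a: the Key Lemma on twisted Hahn series

* `THS.val π hπ`: the valuation `x ↦ π (ord x)` for a monotone additive `π : G → ℤ`.
* `THS.subDiv Γ R'`: series with support in a subgroup `Γ` and coefficients in a subalgebra `R'`
  closed under inverses: a sub-division-ring.
-/

set_option autoImplicit false
set_option linter.unusedSectionVars false

namespace Crest.Agent.Kurosh

namespace THS

open Finset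

variable {G k : Type*} [AddCommGroup G] [LinearOrder G] [IsOrderedAddMonoid G] [Field k]
variable {R : Type*} [DivisionRing R] [Algebra k R] {ε : Bichar G k}

lemma coeff_one_zero : (1 : THS R ε).coeff 0 = 1 := by
  classical
  rw [coeff_one, if_pos rfl]

lemma ord_one : (1 : THS R ε).ord = 0 := by
  classical
  have h1 : (1 : THS R ε) ≠ 0 := one_ne_zero
  have h2 := ord_mem h1
  by_contra hne
  exact (mem_supp.1 h2) (by rw [coeff_one, if_neg hne])

section Val

variable (π : G →+ ℤ) (hπ : Monotone π)

open Classical in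
/-- The valuation `x ↦ π (ord x)` for a monotone additive map `π : G → ℤ`. -/
noncomputable def val : AddValuation (THS R ε) (WithTop ℤ) :=
  AddValuation.of (fun x => if x = 0 then ⊤ else ((π x.ord : ℤ) : WithTop ℤ))
    (by simp)
    (by
      rw [if_neg one_ne_zero, ord_one, map_zero]
      rfl)
    (by
      intro x y
      by_cases hxy : x + y = 0
      · rw [if_pos hxy]
        exact le_top
      rw [if_neg hxy]
      have h1 := ord_mem hxy
      have h2 : x.coeff (x + y).ord + y.coeff (x + y).ord ≠ 0 := h1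
      by_cases hx : x.coeff (x + y).ord = 0
      · have hy : y.coeff (x + y).ord ≠ 0 := by
          intro h
          exact h2 (by rw [hx, h, add_zero])
        have hy0 : y ≠ 0 := by
          rintro rfl
          exact hy rfl
        rw [if_neg hy0]
        refine le_trans (min_le_right _ _) ?_
        exact WithTop.coe_le_coe.2 (hπ (ord_le hy))
      · have hx0 : x ≠ 0 := by
          rintro rfl
          exact hx rfl
        rw [if_neg hx0]
        refine le_trans (min_le_left _ _) ?_
        exact WithTop.coe_le_coe.2 (hπ (ord_le hx)))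
    (by
      intro x y
      by_cases hx : x = 0
      · simp [hx]
      by_cases hy : y = 0
      · simp [hy]
      rw [if_neg hx, if_neg hy, if_neg (mul_ne_zero hx hy), ord_mul hx hy, map_add]
      rfl)

variable {π hπ}

lemma val_of_ne {x : THS R ε} (hx : x ≠ 0) : val π hπ x = ((π x.ord : ℤ) : WithTop ℤ) := by
  classical
  show (if x = 0 then ⊤ else ((π x.ord : ℤ) : WithTop ℤ)) = _
  rw [if_neg hx]

lemma le_val_iff {x : THS R ε} {n : ℤ} :
    (n : WithTop ℤ) ≤ val π hπ x ↔ ∀ g, x.coeff g ≠ 0 → n ≤ π g := by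
  constructor
  · intro h g hg
    have hx : x ≠ 0 := by
      rintro rfl
      exact hg rfl
    rw [val_of_ne hx] at h
    exact le_trans (WithTop.coe_le_coe.1 h) (hπ (ord_le hg))
  · intro h
    by_cases hx : x = 0
    · rw [hx, (val π hπ).map_zero]
      exact le_top
    rw [val_of_ne hx]
    exact WithTop.coe_le_coe.2 (h _ (ord_mem hx))

lemma coeff_eq_zero_of_lt_val {x : THS R ε} {g : G} (h : ((π g : ℤ) : WithTop ℤ) < val π hπ x) :
    x.coeff g = 0 := by
  by_contra hg
  have hx : x ≠ 0 := by
    rintro rfl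
    exact hg rfl
  rw [val_of_ne hx] at h
  have := hπ (ord_le hg)
  exact absurd (WithTop.coe_lt_coe.1 h) (not_lt.2 this)

end Val

section SubDiv

variable (Γ : AddSubgroup G) (R' : Subalgebra k R)

/-- Series with support in a subgroup `Γ` and coefficients in a subalgebra `R'`. -/
def IsIn (x : THS R ε) : Prop :=
  (∀ g, x.coeff g ≠ 0 → g ∈ Γ) ∧ ∀ g, x.coeff g ∈ R'

variable {Γ R'}

lemma IsIn.zero : IsIn Γ R' (0 : THS R ε) :=
  ⟨fun _ h => absurd rfl h, fun _ => R'.zero_mem⟩

lemma IsIn.one : IsIn Γ R' (1 : THS R ε) := by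
  classical
  constructor
  · intro g hg
    rw [coeff_one] at hg
    by_cases h : g = 0
    · rw [h]; exact Γ.zero_mem
    · rw [if_neg h] at hg
      exact absurd rfl hg
  · intro g
    rw [coeff_one]
    split_ifs
    · exact R'.one_mem
    · exact R'.zero_mem

lemma IsIn.add {x y : THS R ε} (hx : IsIn Γ R' x) (hy : IsIn Γ R' y) : IsIn Γ R' (x + y) := by
  constructor
  · intro g hg
    by_cases h : x.coeff g = 0
    · apply hy.1
      intro h2
      exact hg (by rw [coeff_add, h, h2, add_zero])
    · exact hx.1 g h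
  · intro g
    exact R'.add_mem (hx.2 g) (hy.2 g)

lemma IsIn.neg {x : THS R ε} (hx : IsIn Γ R' x) : IsIn Γ R' (-x) := by
  constructor
  · intro g hg
    apply hx.1
    intro h
    exact hg (by rw [coeff_neg, h, neg_zero])
  · intro g
    exact R'.neg_mem (hx.2 g)

lemma IsIn.mul {x y : THS R ε} (hx : IsIn Γ R' x) (hy : IsIn Γ R' y) : IsIn Γ R' (x * y) := by
  constructor
  · intro g hg
    obtain ⟨a, ha, b, hb, rfl⟩ := supp_mul_subset x y hg
    exact Γ.add_mem (hx.1 a ha) (hy.1 b hb)
  · intro g
    rw [coeff_mul]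
    exact R'.sum_mem fun ij _ => R'.smul_mem (R'.mul_mem (hx.2 _) (hy.2 _)) _

/-- The inverse of a series of `IsIn Γ R'` is `IsIn Γ R'`, if `R'` is closed under inverses. -/
lemma IsIn.inv (hR' : ∀ a ∈ R', a⁻¹ ∈ R') {x : THS R ε} (hx : IsIn Γ R' x) :
    IsIn Γ R' x⁻¹ := by
  classical
  by_cases hx0 : x = 0
  · rw [hx0, inv_zero]
    exact IsIn.zero
  set w := x⁻¹ with hw
  have hxw : x * w = 1 := mul_inv_cancel₀ hx0
  -- the bad set
  let B : Set G := {g | w.coeff g ≠ 0 ∧ (g ∉ Γ ∨ w.coeff g ∉ R')}
  have hBsub : B ⊆ w.supp := fun g hg => hg.1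
  have hBwf : B.IsWF := (w.isPWO_supp.mono hBsub).isWF
  by_cases hBne : B.Nonempty
  swap
  · rw [Set.not_nonempty_iff_eq_empty] at hBne
    constructor
    · intro g hg
      by_contra h
      have : g ∈ B := ⟨hg, Or.inl h⟩
      rw [hBne] at this
      exact this
    · intro g
      by_contra h
      have hg : w.coeff g ≠ 0 := by
        intro h0
        rw [h0] at h
        exact h R'.zero_mem
      have : g ∈ B := ⟨hg, Or.inr h⟩
      rw [hBne] at this
      exact this
  exfalso
  set g0 := hBwf.min hBne with hg0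
  have hg0B : g0 ∈ B := hBwf.min_mem hBne
  have hmin : ∀ b, b < g0 → w.coeff b ≠ 0 → b ∈ Γ ∧ w.coeff b ∈ R' := by
    intro b hb hb0
    by_contra hcon
    have hbB : b ∈ B := ⟨hb0, by
      by_contra h
      push Not at h
      exact hcon h⟩
    exact absurd (hBwf.min_le hBne hbB) (not_le.2 hb)
  set o := x.ord with ho
  have hc : x.coeff o ≠ 0 := ord_mem hx0
  have hcoef : (x * w).coeff (o + g0) = (if o + g0 = 0 then 1 else 0) := by
    rw [hxw, coeff_one]
  rw [coeff_mul] at hcoef
  have hmem : (o, g0) ∈ Finset.antidiagonal x.isPWO_supp w.isPWO_supp (o + g0) :=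
    Finset.mem_antidiagonal.2 ⟨hc, hg0B.1, rfl⟩
  rw [← Finset.add_sum_erase _ _ hmem] at hcoef
  -- the other terms
  have hother : ∀ ij ∈ (Finset.antidiagonal x.isPWO_supp w.isPWO_supp (o + g0)).erase (o, g0),
      ij.1 ∈ Γ ∧ ij.2 ∈ Γ ∧ ε ij.1 ij.2 • (x.coeff ij.1 * w.coeff ij.2) ∈ R' := by
    rintro ⟨a, b⟩ hab
    obtain ⟨hne, hab'⟩ := Finset.mem_erase.1 hab
    obtain ⟨ha, hb, hsum⟩ := Finset.mem_antidiagonal.1 hab'
    simp only at hsum ha hb ⊢
    have hoa : o ≤ a := ord_le ha
    have hlt : o < a := by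
      refine lt_of_le_of_ne hoa ?_
      rintro rfl
      apply hne
      have : b = g0 := add_left_cancel hsum
      rw [this]
    have hbg : b < g0 := by
      by_contra hle
      rw [not_lt] at hle
      have := add_lt_add_of_lt_of_le hlt hle
      rw [hsum] at this
      exact lt_irrefl _ this
    obtain ⟨h1, h2⟩ := hmin b hbg hb
    exact ⟨hx.1 a ha, h1, R'.smul_mem (R'.mul_mem (hx.2 a) h2) _⟩
  have hε := ε.ne_zero o g0
  rcases hg0B.2 with hΓ | hR
  · -- the exponent is not in `Γ`
    have h1 : o + g0 ∉ Γ := by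
      intro h
      apply hΓ
      have := Γ.sub_mem h (hx.1 o hc)
      rwa [add_sub_cancel_left] at this
    have h2 : (Finset.antidiagonal x.isPWO_supp w.isPWO_supp (o + g0)).erase (o, g0) = ∅ := by
      rw [Finset.eq_empty_iff_forall_notMem]
      rintro ⟨a, b⟩ hab
      obtain ⟨ha, hb, -⟩ := hother _ hab
      obtain ⟨-, hab'⟩ := Finset.mem_erase.1 hab
      obtain ⟨-, -, hsum⟩ := Finset.mem_antidiagonal.1 hab'
      exact h1 (by
        have := Γ.add_mem ha hb
        simpa [hsum] using this)
    rw [h2, Finset.sum_empty, add_zero, if_neg (fun h => h1 (by rw [h]; exact Γ.zero_mem))] at hcoef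
    have h3 : x.coeff o * w.coeff g0 = 0 := (smul_eq_zero.1 hcoef).resolve_left hε
    exact (mul_ne_zero hc hg0B.1) h3
  · -- the coefficient is not in `R'`
    apply hR
    have h1 : ε o g0 • (x.coeff o * w.coeff g0) ∈ R' := by
      have e : ε o g0 • (x.coeff o * w.coeff g0) = (if o + g0 = 0 then (1 : R) else 0) -
          ∑ ij ∈ (Finset.antidiagonal x.isPWO_supp w.isPWO_supp (o + g0)).erase (o, g0),
            ε ij.1 ij.2 • (x.coeff ij.1 * w.coeff ij.2) := by
        rw [← hcoef]
        abel
      rw [e]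
      refine R'.sub_mem ?_ (R'.sum_mem fun ij hij => (hother ij hij).2.2)
      split_ifs
      · exact R'.one_mem
      · exact R'.zero_mem
    have h2 : x.coeff o * w.coeff g0 ∈ R' := by
      have := R'.smul_mem h1 (ε o g0)⁻¹
      rwa [smul_smul, inv_mul_cancel₀ hε, one_smul] at this
    have h3 := R'.mul_mem (hR' _ (hx.2 o)) h2
    rwa [← mul_assoc, inv_mul_cancel₀ hc, one_mul] at h3

variable (Γ R')

/-- The sub-division-ring of series with support in `Γ` and coefficients in `R'`. -/
def subDiv (hR' : ∀ a ∈ R', a⁻¹ ∈ R') : Subfield (THS R ε) where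
  carrier := {x | IsIn Γ R' x}
  mul_mem' := IsIn.mul
  one_mem' := IsIn.one
  add_mem' := IsIn.add
  zero_mem' := IsIn.zero
  neg_mem' := IsIn.neg
  inv_mem' := fun _ hx => IsIn.inv hR' hx

end SubDiv

section Scal

variable {K : Type*} [Field K] {A : Type*} [DivisionRing A] [Algebra K A] {e : Bichar G K}

theorem bot_inv_mem : ∀ a ∈ (⊥ : Subalgebra K A), a⁻¹ ∈ (⊥ : Subalgebra K A) := by
  intro a ha
  obtain ⟨c, rfl⟩ := Algebra.mem_bot.1 ha
  rw [← map_inv₀]
  exact Subalgebra.algebraMap_mem _ _

/-- A subgroup on which the bicharacter is symmetric against everything. -/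
structure SymSub (e : Bichar G K) where
  /-- the subgroup -/
  Γ : AddSubgroup G
  symm : ∀ γ ∈ Γ, ∀ g, e γ g = e g γ

variable (A) in
/-- Series with support in `S.Γ` and coefficients in `K`. -/
def scalSub (S : SymSub e) : Subfield (THS A e) := subDiv S.Γ (⊥ : Subalgebra K A) bot_inv_mem

variable (S : SymSub e)

theorem mem_scalSub {x : THS A e} : x ∈ scalSub A S ↔ IsIn S.Γ (⊥ : Subalgebra K A) x := Iff.rfl

theorem mul_comm_of_isIn {x : THS A e} (hx : IsIn S.Γ (⊥ : Subalgebra K A) x) (y : THS A e) :
    x * y = y * x := by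
  classical
  ext g
  rw [coeff_mul, coeff_mul]
  refine Finset.sum_nbij' Prod.swap Prod.swap ?_ ?_ ?_ ?_ ?_
  · rintro ⟨a, b⟩ h
    obtain ⟨ha, hb, hab⟩ := Finset.mem_antidiagonal.1 h
    exact Finset.mem_antidiagonal.2 ⟨hb, ha, by simpa [add_comm] using hab⟩
  · rintro ⟨a, b⟩ h
    obtain ⟨ha, hb, hab⟩ := Finset.mem_antidiagonal.1 h
    exact Finset.mem_antidiagonal.2 ⟨hb, ha, by simpa [add_comm] using hab⟩
  · rintro ⟨a, b⟩ -
    rfl
  · rintro ⟨a, b⟩ -
    rfl
  · rintro ⟨a, b⟩ h
    obtain ⟨ha, hb, hab⟩ := Finset.mem_antidiagonal.1 h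
    simp only [Prod.swap_prod_mk]
    rw [S.symm a (hx.1 a ha) b]
    obtain ⟨c, hc⟩ := Algebra.mem_bot.1 (hx.2 a)
    rw [← hc, Algebra.commutes]

variable (A) in
/-- The central field `K((Γ))` as a type. -/
def Scal (S : SymSub e) : Type _ := ↥(scalSub A S)

noncomputable instance : Field (Scal A S) :=
  { (inferInstance : DivisionRing ↥(scalSub A S)) with
    mul_comm := fun a b => Subtype.ext (mul_comm_of_isIn S a.2 b.1) }

noncomputable instance : Algebra (Scal A S) (THS A e) :=
  RingHom.toAlgebra' (scalSub A S).subtype (fun c x => mul_comm_of_isIn S c.2 x)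

theorem Scal.smul_def (c : Scal A S) (x : THS A e) : c • x = c.1 * x := rfl

theorem Scal.algebraMap_def (c : Scal A S) : algebraMap (Scal A S) (THS A e) c = c.1 := rfl

/-- `K` inside the central field. -/
noncomputable def Scal.ofK : K →+* Scal A S where
  toFun c := ⟨mono 0 (algebraMap K A c), by
    classical
    constructor
    · intro g hg
      rw [coeff_mono] at hg
      by_cases h : g = 0
      · rw [h]; exact S.Γ.zero_mem
      · rw [if_neg h] at hg
        exact absurd rfl hg
    · intro g
      rw [coeff_mono]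
      split_ifs
      · exact Subalgebra.algebraMap_mem _ _
      · exact Subalgebra.zero_mem _⟩
  map_one' := by
    apply Subtype.ext
    show mono 0 (algebraMap K A 1) = 1
    rw [map_one]
    rfl
  map_mul' a b := by
    apply Subtype.ext
    show mono 0 (algebraMap K A (a * b)) = mono 0 (algebraMap K A a) * mono 0 (algebraMap K A b)
    rw [mono_mul_mono, map_mul]
    simp
  map_zero' := by
    apply Subtype.ext
    show mono 0 (algebraMap K A 0) = 0
    rw [map_zero]
    exact mono_zero' 0
  map_add' a b := by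
    apply Subtype.ext
    show mono 0 (algebraMap K A (a + b)) = mono 0 (algebraMap K A a) + mono 0 (algebraMap K A b)
    rw [map_add]
    exact mono_add 0 _ _

/-! ### The trace form -/

section Trace

open Classical

variable (τ : A →ₗ[K] K)

/-- `x ↦ ∑_{γ ∈ Γ} τ(x_γ) e_γ`, as a series. -/
noncomputable def traceSeries (x : THS A e) : THS A e := ofH
  { coeff := fun g => if g ∈ S.Γ then algebraMap K A (τ (x.coeff g)) else 0
    isPWO_support' := by
      refine x.isPWO_supp.mono ?_
      intro g hg
      have hg' : (if g ∈ S.Γ then algebraMap K A (τ (x.coeff g)) else 0) ≠ 0 := hg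
      intro h0
      have h0' : x.coeff g = 0 := h0
      rw [h0', map_zero, map_zero, ite_self] at hg'
      exact hg' rfl }

theorem coeff_traceSeries (x : THS A e) (g : G) : (traceSeries S τ x).coeff g =
    if g ∈ S.Γ then algebraMap K A (τ (x.coeff g)) else 0 := rfl

theorem traceSeries_supp (x : THS A e) : (traceSeries S τ x).supp ⊆ x.supp := by
  intro g hg
  have hg' : (if g ∈ S.Γ then algebraMap K A (τ (x.coeff g)) else 0) ≠ 0 := hg
  intro h0
  have h0' : x.coeff g = 0 := h0
  rw [h0', map_zero, map_zero, ite_self] at hg'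
  exact hg' rfl

theorem traceSeries_mem (x : THS A e) : traceSeries S τ x ∈ scalSub A S := by
  constructor
  · intro g hg
    by_contra h
    apply hg
    rw [coeff_traceSeries, if_neg h]
  · intro g
    rw [coeff_traceSeries]
    split_ifs
    · exact Subalgebra.algebraMap_mem _ _
    · exact Subalgebra.zero_mem _

/-- The `Scal`-valued trace form. -/
noncomputable def traceL : THS A e →ₗ[Scal A S] Scal A S where
  toFun x := ⟨traceSeries S τ x, traceSeries_mem S τ x⟩
  map_add' x y := by
    apply Subtype.ext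
    ext g
    show (traceSeries S τ (x + y)).coeff g = (traceSeries S τ x).coeff g + (traceSeries S τ y).coeff g
    rw [coeff_traceSeries, coeff_traceSeries, coeff_traceSeries]
    split_ifs
    · rw [coeff_add, map_add, map_add]
    · rw [add_zero]
  map_smul' c x := by
    apply Subtype.ext
    ext g
    show (traceSeries S τ (c.1 * x)).coeff g = (c.1 * traceSeries S τ x).coeff g
    rw [coeff_traceSeries, coeff_mul_right' x.isPWO_supp (traceSeries_supp S τ x), coeff_mul]
    have hc := c.2
    split_ifs with hg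
    · rw [map_sum, map_sum]
      refine Finset.sum_congr rfl ?_
      rintro ⟨a, b⟩ h
      obtain ⟨ha, hb, hab⟩ := Finset.mem_antidiagonal.1 h
      simp only at hab ha hb ⊢
      have haΓ : a ∈ S.Γ := hc.1 a ha
      have hbΓ : b ∈ S.Γ := by
        have := S.Γ.sub_mem hg haΓ
        rwa [← hab, add_sub_cancel_left] at this
      rw [coeff_traceSeries, if_pos hbΓ]
      obtain ⟨κ, hκ⟩ := Algebra.mem_bot.1 (hc.2 a)
      have e1 : e a b • (algebraMap K A κ * x.coeff b) = (e a b * κ) • x.coeff b := by
        rw [← Algebra.smul_def, smul_smul]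
      rw [← hκ, e1, map_smul, smul_eq_mul, Algebra.smul_def, map_mul, map_mul, mul_assoc]
    · symm
      refine Finset.sum_eq_zero ?_
      rintro ⟨a, b⟩ h
      obtain ⟨ha, hb, hab⟩ := Finset.mem_antidiagonal.1 h
      simp only at hab ha hb ⊢
      have haΓ : a ∈ S.Γ := hc.1 a ha
      have hbΓ : b ∉ S.Γ := by
        intro hb'
        exact hg (by
          rw [← hab]
          exact S.Γ.add_mem haΓ hb')
      rw [coeff_traceSeries, if_neg hbΓ, mul_zero, smul_zero]

theorem traceL_coe (x : THS A e) : ((traceL S τ x : Scal A S).1) = traceSeries S τ x := rfl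

/-- The trace form is nondegenerate. -/
theorem traceL_nondeg (hnd : ∀ a : A, a ≠ 0 → ∃ b, τ (a * b) ≠ 0) (x : THS A e) (hx : x ≠ 0) :
    ∃ y, traceL S τ (x * y) ≠ 0 := by
  obtain ⟨b, hb⟩ := hnd _ (ord_mem hx)
  refine ⟨mono (-x.ord) b, ?_⟩
  intro h0
  have h1 : (traceSeries S τ (x * mono (-x.ord) b)).coeff 0 = 0 := by
    have := congrArg (fun t : Scal A S => t.1) h0
    have h2 : traceSeries S τ (x * mono (-x.ord) b) = 0 := this
    rw [h2]
    rfl
  rw [coeff_traceSeries, if_pos S.Γ.zero_mem] at h1
  have h2 := coeff_mul_mono (-x.ord) b x x.ord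
  rw [add_neg_cancel] at h2
  rw [h2, map_smul] at h1
  have h4 := (map_eq_zero _).1 h1
  exact hb ((smul_eq_zero.1 h4).resolve_left (e.ne_zero _ _))

theorem traceL_val (π : G →+ ℤ) (hπ : Monotone π) (x : THS A e) :
    val π hπ x ≤ val π hπ (algebraMap (Scal A S) (THS A e) (traceL S τ x)) := by
  by_cases hx : x = 0
  · rw [hx, map_zero (traceL S τ), map_zero (algebraMap (Scal A S) (THS A e))]
  rw [val_of_ne hx]
  rw [Scal.algebraMap_def, traceL_coe, le_val_iff]
  intro g hg
  exact hπ (ord_le (traceSeries_supp S τ x hg))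

end Trace

/-! ### Finite dimension -/

section Finite

open Classical

/-- Finite set of representatives of `G / Γ` and finite dimensional coefficients give a finite
dimensional algebra over `Scal`. -/
theorem finite_of_reps [FiniteDimensional K A] (T : Finset G) (hT : ∀ g, ∃ t ∈ T, g - t ∈ S.Γ)
    (hT' : ∀ t ∈ T, ∀ t' ∈ T, t - t' ∈ S.Γ → t = t') : Module.Finite (Scal A S) (THS A e) := by
  let b := Module.finBasis K A
  -- the coefficients
  let C : G → Fin (Module.finrank K A) → THS A e → THS A e := fun t i x => ofH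
    { coeff := fun γ => if γ ∈ S.Γ then
        (e γ t)⁻¹ • algebraMap K A (b.repr (x.coeff (γ + t)) i) else 0
      isPWO_support' := by
        have hmono : Monotone (fun g : G => g - t) := fun a c h => sub_le_sub_right h t
        refine (x.isPWO_supp.image_of_monotone hmono).mono ?_
        intro γ hγ
        refine ⟨γ + t, ?_, by simp⟩
        intro h0
        apply hγ
        show (if γ ∈ S.Γ then (e γ t)⁻¹ • algebraMap K A (b.repr (x.coeff (γ + t)) i) else 0) = 0
        have h0' : x.coeff (γ + t) = 0 := h0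
        rw [h0']
        simp }
  have hCc : ∀ t i x γ, (C t i x).coeff γ = if γ ∈ S.Γ then
      (e γ t)⁻¹ • algebraMap K A (b.repr (x.coeff (γ + t)) i) else 0 := fun _ _ _ _ => rfl
  have hCmem : ∀ t i x, C t i x ∈ scalSub A S := by
    intro t i x
    constructor
    · intro g hg
      by_contra h
      apply hg
      rw [hCc, if_neg h]
    · intro g
      rw [hCc]
      split_ifs
      · exact Subalgebra.smul_mem _ (Subalgebra.algebraMap_mem _ _) _
      · exact Subalgebra.zero_mem _
  let c : G → Fin (Module.finrank K A) → THS A e → Scal A S := fun t i x => ⟨C t i x, hCmem t i x⟩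
  have hdecomp : ∀ x : THS A e, x = ∑ t ∈ T, ∑ i, c t i x • mono t (b i) := by
    intro x
    ext g
    obtain ⟨t₀, ht₀, hg₀⟩ := hT g
    have hcoef : ∀ y : THS A e, ∀ s : Finset (Fin (Module.finrank K A)) , True := fun _ _ => trivial
    have hsum : ∀ (S' : Finset G) (F : G → THS A e), (∑ t ∈ S', F t).coeff g =
        ∑ t ∈ S', (F t).coeff g := by
      intro S' F
      induction S' using Finset.induction_on with
      | empty => rfl
      | insert a s ha ih => rw [Finset.sum_insert ha, Finset.sum_insert ha, coeff_add, ih]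
    have hsum' : ∀ (F : Fin (Module.finrank K A) → THS A e), (∑ i, F i).coeff g =
        ∑ i, (F i).coeff g := by
      intro F
      have : ∀ s : Finset (Fin (Module.finrank K A)), (∑ i ∈ s, F i).coeff g =
          ∑ i ∈ s, (F i).coeff g := by
        intro s
        induction s using Finset.induction_on with
        | empty => rfl
        | insert a s ha ih => rw [Finset.sum_insert ha, Finset.sum_insert ha, coeff_add, ih]
      exact this _
    have hterm : ∀ t i, (c t i x • mono t (b i) : THS A e).coeff g =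
        if g - t ∈ S.Γ then b.repr (x.coeff g) i • b i else 0 := by
      intro t i
      rw [Scal.smul_def]
      have h1 := coeff_mul_mono t (b i) (c t i x).1 (g - t)
      rw [sub_add_cancel] at h1
      rw [h1]
      show e (g - t) t • ((C t i x).coeff (g - t) * b i) = _
      rw [hCc]
      split_ifs with h
      · rw [sub_add_cancel, smul_mul_assoc, smul_smul, mul_inv_cancel₀ (e.ne_zero _ _), one_smul,
          Algebra.smul_def]
      · rw [zero_mul, smul_zero]
    rw [hsum, Finset.sum_eq_single t₀]
    · rw [hsum']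
      simp only [hterm, if_pos hg₀]
      exact (b.sum_repr _).symm
    · intro t ht hne
      rw [hsum']
      simp only [hterm]
      rw [Finset.sum_eq_zero]
      intro i _
      rw [if_neg]
      intro h
      apply hne
      apply hT' t ht t₀ ht₀
      have := S.Γ.sub_mem hg₀ h
      have e2 : g - t₀ - (g - t) = t - t₀ := by abel
      rwa [e2] at this
    · intro h
      exact absurd ht₀ h
  refine ⟨⟨(T ×ˢ (Finset.univ : Finset (Fin (Module.finrank K A)))).image
    (fun p => mono p.1 (b p.2)), ?_⟩⟩
  rw [eq_top_iff]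
  intro x _
  rw [hdecomp x]
  refine Submodule.sum_mem _ fun t ht => Submodule.sum_mem _ fun i _ => Submodule.smul_mem _ _ ?_
  apply Submodule.subset_span
  simp only [Finset.coe_image, Set.mem_image, Finset.mem_coe, Finset.mem_product, Finset.mem_univ,
    and_true]
  exact ⟨(t, i), ht, rfl⟩

end Finite

end Scal

end THS


/-! ## Laurent series `A((s))` -/

namespace KeyHahn

open THS Polynomial

variable (K : Type*) [Field K] (A : Type*) [DivisionRing A] [Algebra K A]

/-- The trivial bicharacter on `ℤ`. -/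
def triv : Bichar ℤ K where
  toFun _ _ := 1
  add_left' _ _ _ := by simp
  add_right' _ _ _ := by simp
  ne_zero' _ _ := one_ne_zero

@[simp] theorem triv_apply (a b : ℤ) : triv K a b = 1 := rfl

/-- `A((s))`. -/
abbrev Lau : Type _ := THS A (triv K)

/-- The `s`-adic valuation on `A((s))`. -/
noncomputable def w : AddValuation (Lau K A) (WithTop ℤ) := THS.val (AddMonoidHom.id ℤ) monotone_id

variable {K A}

theorem le_w_iff {x : Lau K A} {n : ℤ} : (n : WithTop ℤ) ≤ w K A x ↔ ∀ q, x.coeff q ≠ 0 → n ≤ q :=
  THS.le_val_iff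

theorem coeff_eq_zero_of_lt_w {x : Lau K A} {q : ℤ} (h : (q : WithTop ℤ) < w K A x) :
    x.coeff q = 0 := THS.coeff_eq_zero_of_lt_val (π := AddMonoidHom.id ℤ) (hπ := monotone_id) h

/-- The embedding of the coefficients. -/
noncomputable abbrev iota : A →+* Lau K A := THS.constHom

theorem coeff_iota_mul (a : A) (x : Lau K A) (q : ℤ) :
    (iota a * x : Lau K A).coeff q = a * x.coeff q := by
  have h := coeff_mono_mul (0 : ℤ) a x q
  rw [zero_add] at h
  show (mono 0 a * x : Lau K A).coeff q = _
  rw [h, triv_apply, one_smul]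

theorem coeff_mul_iota (a : A) (x : Lau K A) (q : ℤ) :
    (x * iota a : Lau K A).coeff q = x.coeff q * a := by
  have h := coeff_mul_mono (0 : ℤ) a x q
  rw [add_zero] at h
  show (x * mono 0 a : Lau K A).coeff q = _
  rw [h, triv_apply, one_smul]

open Classical in
theorem coeff_iota (a : A) (q : ℤ) : (iota a : Lau K A).coeff q = if q = 0 then a else 0 :=
  coeff_mono 0 a q

/-- Coefficient extraction in `A((s))`. -/
noncomputable def coefData : KeyCore.CoefData A (Lau K A) (w K A) where
  ι := iota
  c q :=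
    { toFun := fun x => x.coeff q
      map_zero' := rfl
      map_add' := fun _ _ => rfl }
  c_low _ _ h := coeff_eq_zero_of_lt_w h
  c_mul_left q a x := coeff_iota_mul a x q
  c_mul_right q a x := coeff_mul_iota a x q

theorem coefData_c (q : ℤ) (x : Lau K A) : (coefData.c q x) = x.coeff q := rfl

/-- `s`. -/
noncomputable def sV : Lau K A := mono 1 1

theorem sV_mul_mono (a : ℤ) (c : A) : (sV * mono a c : Lau K A) = mono (1 + a) c := by
  rw [sV, mono_mul_mono, triv_apply, one_smul, one_mul]

theorem sV_pow (n : ℕ) : (sV ^ n : Lau K A) = mono (n : ℤ) 1 := by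
  induction n with
  | zero => rfl
  | succ n ih =>
    rw [pow_succ, ih, sV, mono_mul_mono, triv_apply, one_smul, one_mul]
    push_cast
    rfl

theorem sV_ne_zero : (sV : Lau K A) ≠ 0 := by
  classical
  intro h
  have h1 : (sV : Lau K A).coeff 1 = 1 := by
    rw [sV, coeff_mono, if_pos rfl]
  rw [h] at h1
  exact zero_ne_one h1

theorem sV_zpow (z : ℤ) : (sV ^ z : Lau K A) = mono z 1 := by
  rcases Int.eq_nat_or_neg z with ⟨n, rfl | rfl⟩
  · rw [zpow_natCast, sV_pow]
  · rw [zpow_neg, zpow_natCast, sV_pow]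
    apply inv_eq_of_mul_eq_one_right
    rw [mono_mul_mono, triv_apply, one_smul, one_mul, add_neg_cancel]
    rfl

theorem mono_mul_comm (a : ℤ) (x : Lau K A) : mono a (1 : A) * x = x * mono a 1 := by
  ext g
  have h1 := coeff_mono_mul a (1 : A) x (g - a)
  have h2 := coeff_mul_mono a (1 : A) x (g - a)
  rw [add_sub_cancel] at h1
  rw [sub_add_cancel] at h2
  rw [h1, h2]
  simp

/-- `s` is central. -/
theorem sV_central (x : Lau K A) : Commute (sV : Lau K A) x :=
  mono_mul_comm 1 x

theorem w_sV : w K A (sV : Lau K A) = 1 := by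
  classical
  have h0 := sV_ne_zero (K := K) (A := A)
  rw [w, val_of_ne h0]
  have h1 : (sV : Lau K A).ord = 1 := by
    have h2 := ord_mem h0
    by_contra hne
    apply mem_supp.1 h2
    show (mono 1 1 : Lau K A).coeff (sV : Lau K A).ord = 0
    rw [coeff_mono, if_neg hne]
  rw [h1]
  rfl

theorem coeff_sV_zpow_mul (z : ℤ) (x : Lau K A) (q : ℤ) :
    (sV ^ z * x : Lau K A).coeff q = x.coeff (q - z) := by
  rw [sV_zpow]
  have h1 := coeff_mono_mul z (1 : A) x (q - z)
  rw [add_sub_cancel] at h1
  rw [h1]
  simp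

/-! ### Completeness -/

/-- Laurent series from a coefficient function with bounded below support. -/
noncomputable def lauMk (f : ℤ → A) (b : ℤ) (hf : ∀ q, q < b → f q = 0) : Lau K A := ofH
  { coeff := f
    isPWO_support' := by
      have h1 : BddBelow (Function.support f) := ⟨b, fun q hq => by
        by_contra h
        exact hq (hf q (not_le.1 h))⟩
      exact (h1.isWF).isPWO }

theorem coeff_lauMk (f : ℤ → A) (b : ℤ) (hf : ∀ q, q < b → f q = 0) (q : ℤ) :
    (lauMk f b hf : Lau K A).coeff q = f q := rfl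

/-- `A((s))` is complete. -/
theorem lau_complete (x : ℕ → Lau K A)
    (hx : ∀ k : ℕ, (k : WithTop ℤ) ≤ w K A (x (k + 1) - x k)) :
    ∃ l, ∀ k : ℕ, (k : WithTop ℤ) ≤ w K A (l - x k) := by
  have hstep : ∀ (q : ℤ) (k : ℕ), q < k → (x (k + 1)).coeff q = (x k).coeff q := by
    intro q k hq
    have h1 : (q : WithTop ℤ) < w K A (x (k + 1) - x k) := by
      refine lt_of_lt_of_le ?_ (hx k)
      exact_mod_cast hq
    have h2 := coeff_eq_zero_of_lt_w h1
    rw [THS.coeff_sub] at h2
    exact sub_eq_zero.1 h2
  have hstable : ∀ (q : ℤ) (k k' : ℕ), q < k → k ≤ k' → (x k').coeff q = (x k).coeff q := by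
    intro q k k' hq hk
    induction k', hk using Nat.le_induction with
    | base => rfl
    | succ k' hk' ih =>
      rw [hstep q k' (lt_of_lt_of_le hq (by exact_mod_cast hk')), ih]
  let N : ℤ → ℕ := fun q => (q + 1).toNat
  have hN : ∀ q, q < (N q : ℤ) := by
    intro q
    have := Int.self_le_toNat (q + 1)
    show q < ((q + 1).toNat : ℤ)
    omega
  let b : ℤ := min 0 (x 0).ord
  have hf : ∀ q, q < b → (x (N q)).coeff q = 0 := by
    intro q hq
    have h0 : q < 0 := lt_of_lt_of_le hq (min_le_left _ _)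
    have h1 : N q = 0 := by
      show (q + 1).toNat = 0
      omega
    rw [h1]
    by_contra h
    have h2 := ord_le h
    exact absurd (lt_of_lt_of_le hq (min_le_right _ _)) (not_lt.2 h2)
  refine ⟨lauMk (fun q => (x (N q)).coeff q) b hf, fun k => ?_⟩
  have hgoal : (((k : ℕ) : ℤ) : WithTop ℤ) ≤
      w K A (lauMk (fun q => (x (N q)).coeff q) b hf - x k) := by
    rw [le_w_iff]
    intro q hq
    by_contra hlt
    rw [not_le] at hlt
    apply hq
    rw [THS.coeff_sub, coeff_lauMk]
    have h3 : N q ≤ k := by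
      show (q + 1).toNat ≤ k
      omega
    rw [hstable q (N q) k (hN q) h3, sub_self]
  exact_mod_cast hgoal

/-! ### The central field `K((s^m))` -/

variable (K) in
/-- The subgroup `mℤ`. -/
def lauS (m : ℕ) : SymSub (triv K) where
  Γ := AddSubgroup.zmultiples (m : ℤ)
  symm _ _ _ := rfl

theorem mem_lauS {m : ℕ} {q : ℤ} : q ∈ (lauS K m).Γ ↔ (m : ℤ) ∣ q :=
  Int.mem_zmultiples_iff

/-- The finite dimension of `A((s))` over `K((s^m))`. -/
theorem lau_finite [FiniteDimensional K A] {m : ℕ} (hm : 0 < m) :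
    Module.Finite (Scal A (lauS K m)) (Lau K A) := by
  classical
  refine finite_of_reps (lauS K m) ((Finset.range m).image (fun i : ℕ => (i : ℤ))) ?_ ?_
  · intro g
    refine ⟨((g % m).toNat : ℤ), ?_, ?_⟩
    · refine Finset.mem_image.2 ⟨(g % m).toNat, Finset.mem_range.2 ?_, rfl⟩
      have h1 := Int.emod_lt_of_pos g (by exact_mod_cast hm : (0 : ℤ) < m)
      have h2 := Int.emod_nonneg g (by exact_mod_cast hm.ne' : (m : ℤ) ≠ 0)
      omega
    · rw [mem_lauS]
      have h2 := Int.emod_nonneg g (by exact_mod_cast hm.ne' : (m : ℤ) ≠ 0)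
      rw [Int.toNat_of_nonneg h2]
      exact Int.dvd_self_sub_emod
  · intro t ht t' ht' h
    obtain ⟨i, hi, rfl⟩ := Finset.mem_image.1 ht
    obtain ⟨i', hi', rfl⟩ := Finset.mem_image.1 ht'
    rw [mem_lauS] at h
    have h1 := Finset.mem_range.1 hi
    have h2 := Finset.mem_range.1 hi'
    obtain ⟨c, hc⟩ := h
    have hc0 : c = 0 := by
      by_contra hne
      have h3 : (m : ℤ) ≤ |(i : ℤ) - i'| := by
        rw [hc, abs_mul, abs_of_nonneg (Int.natCast_nonneg m)]
        have : (1 : ℤ) ≤ |c| := Int.one_le_abs hne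
        nlinarith [Int.natCast_nonneg m]
      have h4 : |(i : ℤ) - i'| < m := by
        rw [abs_lt]
        constructor <;> omega
      omega
    rw [hc0, mul_zero] at hc
    omega

end KeyHahn

end Crest.Agent.Kurosh
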