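import Crest.Agent.Kurosh.THahn

/-!
# Euler derivations on twisted Hahn series

For an additive map `φ : G →+ k`, `euler φ` multiplies the coefficient at `g` by `φ g`.
It is a `k`-linear derivation of `THS R ε`.
-/

set_option linter.unusedSectionVars false

namespace Crest.Agent.Kurosh

open Finset

variable {G k : Type*} [AddCommGroup G] [LinearOrder G] [IsOrderedAddMonoid G] [Field k]
variable {R : Type*} [DivisionRing R] [Algebra k R]

namespace THS

variable {ε : Bichar G k}

/-- The Euler derivation attached to an additive map `φ : G →+ k`. -/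
noncomputable def euler (φ : G →+ k) : THS R ε →ₗ[k] THS R ε where
  toFun x := ofH
    { coeff := fun g => φ g • x.coeff g
      isPWO_support' := by
        refine x.isPWO_supp.mono ?_
        intro g hg
        by_contra hn
        have h0 : x.coeff g = 0 := by
          by_contra h
          exact hn h
        apply hg
        show φ g • x.coeff g = 0
        rw [h0, smul_zero] }
  map_add' x y := by
    ext g
    show φ g • (x + y).coeff g = φ g • x.coeff g + φ g • y.coeff g
    rw [coeff_add, smul_add]
  map_smul' c x := by
    ext g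
    show φ g • (c • x).coeff g = c • (φ g • x.coeff g)
    rw [coeff_smul, smul_comm]

@[simp] lemma coeff_euler (φ : G →+ k) (x : THS R ε) (g : G) :
    (euler φ x).coeff g = φ g • x.coeff g := rfl

lemma supp_euler_subset (φ : G →+ k) (x : THS R ε) : (euler φ x).supp ⊆ x.supp := by
  intro g hg
  by_contra hn
  have h0 : x.coeff g = 0 := by
    by_contra h
    exact hn h
  apply hg
  show φ g • x.coeff g = 0
  rw [h0, smul_zero]

/-- Leibniz rule. -/
lemma euler_mul (φ : G →+ k) (x y : THS R ε) :
    euler φ (x * y) = euler φ x * y + x * euler φ y := by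
  ext a
  rw [coeff_add, coeff_euler, coeff_mul_left' x.isPWO_supp (supp_euler_subset φ x),
    coeff_mul_right' y.isPWO_supp (supp_euler_subset φ y), coeff_mul, Finset.smul_sum,
    ← Finset.sum_add_distrib]
  apply Finset.sum_congr rfl
  rintro ⟨i, j⟩ hij
  obtain ⟨_, _, h⟩ := Finset.mem_antidiagonal.1 hij
  simp only at h
  subst h
  simp only [coeff_euler, map_add, add_smul, smul_mul_assoc, mul_smul_comm]
  rw [smul_comm (φ i) (ε i j), smul_comm (φ j) (ε i j)]

@[simp] lemma euler_mono (φ : G →+ k) (g : G) (c : R) :
    euler φ (mono g c : THS R ε) = mono g (φ g • c) := by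
  classical
  ext a
  rw [coeff_euler, coeff_mono, coeff_mono]
  split_ifs with h
  · rw [h]
  · rw [smul_zero]

@[simp] lemma euler_one (φ : G →+ k) : euler φ (1 : THS R ε) = 0 := by
  rw [one_eq_mono, euler_mono]
  simp [mono_zero']

lemma euler_constHom (φ : G →+ k) (c : R) : euler φ (constHom (ε := ε) c) = 0 := by
  show euler φ (mono 0 c : THS R ε) = 0
  rw [euler_mono]
  simp [mono_zero']

lemma euler_algebraMap (φ : G →+ k) (c : k) : euler φ (algebraMap k (THS R ε) c) = 0 := by
  rw [algebraMap_eq, euler_mono]
  simp [mono_zero']

/-- An Euler derivation vanishes on series supported on `ker φ`. -/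
lemma euler_eq_zero_of_supp (φ : G →+ k) (x : THS R ε) (h : ∀ g ∈ x.supp, φ g = 0) :
    euler φ x = 0 := by
  ext g
  rw [coeff_euler]
  by_cases hg : x.coeff g = 0
  · rw [hg, smul_zero]; rfl
  · rw [h g hg, zero_smul]; rfl

/-- Support is additive-closed: the set of series supported in a subgroup is a subring. -/
noncomputable def supportedIn (H : AddSubgroup G) : Subring (THS R ε) where
  carrier := {x | x.supp ⊆ H}
  zero_mem' := by
    intro g hg
    exact absurd rfl hg
  one_mem' := by
    classical
    intro g hg
    have hg' : (1 : THS R ε).coeff g ≠ 0 := hg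
    rw [coeff_one] at hg'
    by_cases h : g = 0
    · rw [h]; exact H.zero_mem
    · rw [if_neg h] at hg'; exact absurd rfl hg'
  add_mem' := by
    intro x y hx hy g hg
    by_contra hn
    have h1 : x.coeff g = 0 := by
      by_contra h
      exact hn (hx h)
    have h2 : y.coeff g = 0 := by
      by_contra h
      exact hn (hy h)
    apply hg
    show (x + y).coeff g = 0
    rw [coeff_add, h1, h2, add_zero]
  neg_mem' := by
    intro x hx g hg
    apply hx
    intro h
    apply hg
    show (-x).coeff g = 0
    rw [coeff_neg]
    show -(x.coeff g) = 0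
    have : x.coeff g = 0 := h
    rw [this, neg_zero]
  mul_mem' := by
    intro x y hx hy g hg
    obtain ⟨i, hi, j, hj, rfl⟩ := supp_mul_subset x y hg
    exact H.add_mem (hx hi) (hy hj)

lemma mem_supportedIn {H : AddSubgroup G} {x : THS R ε} :
    x ∈ supportedIn (R := R) (ε := ε) H ↔ x.supp ⊆ H := Iff.rfl

end THS

end Crest.Agent.Kurosh
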