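/-
S0270, M1b (helper69): generic support calculus on twisted Hahn series.
* `restrict P x`: keep the coefficients in `P`;
* `subS H : Subfield (THS R ε)`: series supported in a subgroup `H`;
* `restrict_mul_left/right`: `restrict P (u*v) = u * restrict P v` for `u` supported in `H`, `P` `H`-stable;
* centrality of series supported in a subgroup on which the twist is symmetric;
* `resRing`, `res`: the residue ring homomorphism attached to a monotone additive map `π`.
-/
import Crest.Agent.Kurosh.THahnEuler

set_option autoImplicit false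
set_option linter.unusedSectionVars false

namespace Crest.Agent.Kurosh

open Finset

variable {G k : Type*} [AddCommGroup G] [LinearOrder G] [IsOrderedAddMonoid G] [Field k]
variable {R : Type*} [DivisionRing R] [Algebra k R]

namespace THS

variable {ε : Bichar G k}

lemma eq_zero_of_mem_supp_one {g : G} (hg : g ∈ (1 : THS R ε).supp) : g = 0 := by
  classical
  by_contra hne
  exact (mem_supp.1 hg) (by rw [coeff_one, if_neg hne])

/-- Product formula with any PWO sets containing the supports. -/
lemma coeff_mul_both {x y : THS R ε} {a : G} {s t : Set G} (hs : s.IsPWO) (ht : t.IsPWO)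
    (hxs : x.supp ⊆ s) (hyt : y.supp ⊆ t) :
    (x * y).coeff a = ∑ ij ∈ antidiagonal hs ht a,
      ε ij.1 ij.2 • (x.coeff ij.1 * y.coeff ij.2) := by
  rw [coeff_mul_left' hs hxs]
  apply Finset.sum_subset (antidiagonal_mono_right hyt)
  intro b hb hb'
  have : y.coeff b.2 = 0 := by
    by_contra h
    apply hb'
    obtain ⟨h1, _, h3⟩ := mem_antidiagonal.1 hb
    exact mem_antidiagonal.2 ⟨h1, h, h3⟩
  simp [this]

open Classical in
/-- Keep the coefficients in `P`. -/
noncomputable def restrict (P : Set G) (x : THS R ε) : THS R ε := ofH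
  { coeff := fun g => if g ∈ P then x.coeff g else 0
    isPWO_support' := by
      refine x.isPWO_supp.mono ?_
      intro g hg
      by_contra hn
      have h0 : x.coeff g = 0 := by
        by_contra h
        exact hn h
      apply hg
      show (if g ∈ P then x.coeff g else 0) = 0
      simp [h0] }

open Classical in
lemma coeff_restrict (P : Set G) (x : THS R ε) (g : G) :
    (restrict P x).coeff g = if g ∈ P then x.coeff g else 0 := rfl

lemma coeff_restrict_of_mem {P : Set G} (x : THS R ε) {g : G} (h : g ∈ P) :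
    (restrict P x).coeff g = x.coeff g := by
  classical
  rw [coeff_restrict, if_pos h]

lemma coeff_restrict_of_not_mem {P : Set G} (x : THS R ε) {g : G} (h : g ∉ P) :
    (restrict P x).coeff g = 0 := by
  classical
  rw [coeff_restrict, if_neg h]

lemma supp_restrict_subset (P : Set G) (x : THS R ε) : (restrict P x).supp ⊆ x.supp ∩ P := by
  classical
  intro g hg
  have hg' : (restrict P x).coeff g ≠ 0 := hg
  rw [coeff_restrict] at hg'
  by_cases h : g ∈ P
  · rw [if_pos h] at hg'
    exact ⟨hg', h⟩
  · rw [if_neg h] at hg'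
    exact absurd rfl hg'

lemma restrict_eq_self {P : Set G} {x : THS R ε} (h : x.supp ⊆ P) : restrict P x = x := by
  classical
  ext g
  rw [coeff_restrict]
  by_cases hg : g ∈ P
  · rw [if_pos hg]
  · rw [if_neg hg]
    by_contra hne
    exact hg (h (mem_supp.2 (fun h0 => hne h0.symm)))

lemma restrict_eq_self_iff {P : Set G} {x : THS R ε} : restrict P x = x ↔ x.supp ⊆ P := by
  refine ⟨fun h => ?_, restrict_eq_self⟩
  rw [← h]
  exact fun g hg => (supp_restrict_subset P x hg).2

lemma restrict_add (P : Set G) (x y : THS R ε) : restrict P (x + y) = restrict P x + restrict P y := by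
  classical
  ext g
  simp only [coeff_restrict, coeff_add]
  split_ifs <;> simp

lemma restrict_neg (P : Set G) (x : THS R ε) : restrict P (-x) = - restrict P x := by
  classical
  ext g
  simp only [coeff_restrict, coeff_neg]
  split_ifs <;> simp

lemma restrict_sub (P : Set G) (x y : THS R ε) : restrict P (x - y) = restrict P x - restrict P y := by
  classical
  ext g
  simp only [coeff_restrict, coeff_sub]
  split_ifs <;> simp

lemma restrict_zero (P : Set G) : restrict P (0 : THS R ε) = 0 := by
  classical
  ext g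
  simp only [coeff_restrict, coeff_zero]
  split_ifs <;> rfl

lemma restrict_smul (P : Set G) (c : k) (x : THS R ε) : restrict P (c • x) = c • restrict P x := by
  classical
  ext g
  simp only [coeff_restrict, coeff_smul]
  split_ifs <;> simp

/-- `restrict` as an additive map. -/
noncomputable def restrictAddHom (P : Set G) : THS R ε →+ THS R ε where
  toFun := restrict P
  map_zero' := restrict_zero P
  map_add' := restrict_add P

/-- If `u` is supported in `H` and `P` is stable under translation by `H`, `restrict P` is left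
`u`-linear. -/
lemma restrict_mul_left {H : Set G} {P : Set G} (hP : ∀ a ∈ H, ∀ b, b ∈ P ↔ a + b ∈ P)
    {u : THS R ε} (hu : u.supp ⊆ H) (v : THS R ε) :
    restrict P (u * v) = u * restrict P v := by
  classical
  ext g
  have hv : (restrict P v).supp ⊆ v.supp := fun h hh => (supp_restrict_subset P v hh).1
  rw [coeff_mul_right' v.isPWO_supp hv, coeff_restrict, coeff_mul]
  by_cases hg : g ∈ P
  · rw [if_pos hg]
    refine Finset.sum_congr rfl fun ij hij => ?_
    obtain ⟨hi, _, hsum⟩ := mem_antidiagonal.1 hij
    have hb : ij.2 ∈ P := (hP ij.1 (hu hi) ij.2).2 (by rw [hsum]; exact hg)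
    rw [coeff_restrict, if_pos hb]
  · rw [if_neg hg]
    symm
    refine Finset.sum_eq_zero fun ij hij => ?_
    obtain ⟨hi, _, hsum⟩ := mem_antidiagonal.1 hij
    have hb : ij.2 ∉ P := fun hb => hg (by rw [← hsum]; exact (hP ij.1 (hu hi) ij.2).1 hb)
    rw [coeff_restrict, if_neg hb, mul_zero, smul_zero]

/-- Right version of `restrict_mul_left`. -/
lemma restrict_mul_right {H : Set G} {P : Set G} (hP : ∀ a ∈ H, ∀ b, b ∈ P ↔ b + a ∈ P)
    {u : THS R ε} (hu : u.supp ⊆ H) (v : THS R ε) :
    restrict P (v * u) = restrict P v * u := by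
  classical
  ext g
  have hv : (restrict P v).supp ⊆ v.supp := fun h hh => (supp_restrict_subset P v hh).1
  rw [coeff_mul_left' v.isPWO_supp hv, coeff_restrict, coeff_mul]
  by_cases hg : g ∈ P
  · rw [if_pos hg]
    refine Finset.sum_congr rfl fun ij hij => ?_
    obtain ⟨_, hi, hsum⟩ := mem_antidiagonal.1 hij
    have hb : ij.1 ∈ P := (hP ij.2 (hu hi) ij.1).2 (by rw [hsum]; exact hg)
    rw [coeff_restrict, if_pos hb]
  · rw [if_neg hg]
    symm
    refine Finset.sum_eq_zero fun ij hij => ?_
    obtain ⟨_, hi, hsum⟩ := mem_antidiagonal.1 hij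
    have hb : ij.1 ∉ P := fun hb => hg (by rw [← hsum]; exact (hP ij.2 (hu hi) ij.1).1 hb)
    rw [coeff_restrict, if_neg hb, zero_mul, smul_zero]

/-- Series supported in a subgroup: a division subring. -/
noncomputable def subS (H : AddSubgroup G) : Subfield (THS R ε) :=
  { (supportedIn (R := R) (ε := ε) H) with
    inv_mem' := by
      intro u hu
      by_cases h0 : u = 0
      · subst h0
        simpa using (supportedIn (R := R) (ε := ε) H).zero_mem
      · have hu' : u.supp ⊆ H := hu
        have hP : ∀ a ∈ (H : Set G), ∀ b, b ∈ (H : Set G) ↔ a + b ∈ (H : Set G) := by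
          intro a ha b
          exact (H.add_mem_cancel_left ha).symm
        have h1 := restrict_mul_left (P := (H : Set G)) hP hu' u⁻¹
        rw [mul_inv_cancel₀ h0] at h1
        have h2 : restrict (H : Set G) (1 : THS R ε) = 1 := by
          apply restrict_eq_self
          intro g hg
          rw [eq_zero_of_mem_supp_one hg]
          exact H.zero_mem
        rw [h2] at h1
        have h3 : restrict (H : Set G) u⁻¹ = u⁻¹ := by
          have h4 : u * u⁻¹ = u * restrict (H : Set G) u⁻¹ := by
            rw [← h1, mul_inv_cancel₀ h0]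
          exact (mul_left_cancel₀ h0 h4).symm
        exact restrict_eq_self_iff.mp h3 }

lemma mem_subS {H : AddSubgroup G} {x : THS R ε} : x ∈ subS (R := R) (ε := ε) H ↔ x.supp ⊆ H :=
  Iff.rfl

lemma mono_mem_subS {H : AddSubgroup G} {g : G} (hg : g ∈ H) (c : R) :
    (mono g c : THS R ε) ∈ subS (R := R) (ε := ε) H := by
  intro h hh
  have := supp_mono_subset (ε := ε) g c hh
  rw [Set.mem_singleton_iff] at this
  rw [this]
  exact hg

lemma subS_mono {H H' : AddSubgroup G} (h : H ≤ H') :
    subS (R := R) (ε := ε) H ≤ subS (R := R) (ε := ε) H' :=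
  fun _ hx g hg => h (hx hg)

/-- Monomial times series: coefficientwise centrality criterion. If the twist is symmetric on
pairs with first entry in `H` and the coefficients of `u` commute with `R`, `u` is central. -/
lemma mul_comm_of_symm {H : Set G} (hH : ∀ a ∈ H, ∀ b, ε a b = ε b a) {u : THS R ε}
    (hu : u.supp ⊆ H) (hc : ∀ a (r : R), u.coeff a * r = r * u.coeff a) (v : THS R ε) :
    u * v = v * u := by
  classical
  ext g
  rw [coeff_mul, coeff_mul]
  refine Finset.sum_bij' (fun ij _ => ij.swap) (fun ij _ => ij.swap) ?_ ?_ ?_ ?_ ?_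
  · intro ij hij
    obtain ⟨h1, h2, h3⟩ := mem_antidiagonal.1 hij
    exact mem_antidiagonal.2 ⟨h2, h1, by rw [Prod.fst_swap, Prod.snd_swap, add_comm]; exact h3⟩
  · intro ij hij
    obtain ⟨h1, h2, h3⟩ := mem_antidiagonal.1 hij
    exact mem_antidiagonal.2 ⟨h2, h1, by rw [Prod.fst_swap, Prod.snd_swap, add_comm]; exact h3⟩
  · intro ij _; rfl
  · intro ij _; rfl
  · intro ij hij
    obtain ⟨h1, _, _⟩ := mem_antidiagonal.1 hij
    simp only [Prod.fst_swap, Prod.snd_swap]
    rw [hH ij.1 (hu h1) ij.2, hc]

/-- The valuation subring attached to a monotone additive map and a subgroup. -/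
noncomputable def resRing {G' : Type*} [AddCommGroup G'] [PartialOrder G'] [IsOrderedAddMonoid G']
    (π : G →+ G') (H : AddSubgroup G) : Subring (THS R ε) where
  carrier := {x | x.supp ⊆ H ∧ ∀ g ∈ x.supp, 0 ≤ π g}
  mul_mem' := by
    rintro x y ⟨hx1, hx2⟩ ⟨hy1, hy2⟩
    refine ⟨?_, ?_⟩
    · intro g hg
      obtain ⟨a, ha, b, hb, rfl⟩ := supp_mul_subset x y hg
      exact H.add_mem (hx1 ha) (hy1 hb)
    · intro g hg
      obtain ⟨a, ha, b, hb, rfl⟩ := supp_mul_subset x y hg
      rw [map_add]
      exact add_nonneg (hx2 a ha) (hy2 b hb)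
  one_mem' := by
    have h0 : ∀ g ∈ (1 : THS R ε).supp, g = 0 := fun g hg => eq_zero_of_mem_supp_one hg
    refine ⟨fun g hg => ?_, fun g hg => ?_⟩
    · rw [h0 g hg]
      exact H.zero_mem
    · rw [h0 g hg, map_zero]
  add_mem' := by
    rintro x y ⟨hx1, hx2⟩ ⟨hy1, hy2⟩
    have hsub : (x + y).supp ⊆ x.supp ∪ y.supp := by
      intro g hg
      by_contra hn
      simp only [Set.mem_union, not_or, mem_supp, not_not] at hn
      exact (mem_supp.1 hg) (by rw [coeff_add, hn.1, hn.2, add_zero])
    refine ⟨fun g hg => ?_, fun g hg => ?_⟩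
    · rcases hsub hg with h | h
      · exact hx1 h
      · exact hy1 h
    · rcases hsub hg with h | h
      · exact hx2 g h
      · exact hy2 g h
  zero_mem' := by
    refine ⟨fun g hg => ?_, fun g hg => ?_⟩
    · exact absurd rfl hg
    · exact absurd rfl hg
  neg_mem' := by
    rintro x ⟨hx1, hx2⟩
    have hsub : (-x).supp ⊆ x.supp := by
      intro g hg hn
      have hn' : x.coeff g = 0 := hn
      exact (mem_supp.1 hg) (by rw [coeff_neg, hn', neg_zero])
    exact ⟨fun g hg => hx1 (hsub hg), fun g hg => hx2 g (hsub hg)⟩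

lemma mem_resRing {G' : Type*} [AddCommGroup G'] [PartialOrder G'] [IsOrderedAddMonoid G']
    {π : G →+ G'} {H : AddSubgroup G} {x : THS R ε} :
    x ∈ resRing (R := R) (ε := ε) π H ↔ x.supp ⊆ H ∧ ∀ g ∈ x.supp, 0 ≤ π g := Iff.rfl

/-- The residue map: keep the coefficients on `ker π`. -/
noncomputable def res {G' : Type*} [AddCommGroup G'] [PartialOrder G'] [IsOrderedAddMonoid G']
    (π : G →+ G') (H : AddSubgroup G) :
    resRing (R := R) (ε := ε) π H →+* subS (R := R) (ε := ε) (H ⊓ π.ker) where
  toFun x := ⟨restrict (π.ker : Set G) x.1, by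
    intro g hg
    obtain ⟨h1, h2⟩ := supp_restrict_subset _ _ hg
    exact ⟨x.2.1 h1, h2⟩⟩
  map_one' := by
    apply Subtype.ext
    apply restrict_eq_self
    intro g hg
    rw [eq_zero_of_mem_supp_one hg]
    exact π.ker.zero_mem
  map_zero' := by
    apply Subtype.ext
    exact restrict_zero _
  map_add' x y := by
    apply Subtype.ext
    exact restrict_add _ _ _
  map_mul' x y := by
    classical
    apply Subtype.ext
    show restrict (π.ker : Set G) (x.1 * y.1)
      = restrict (π.ker : Set G) x.1 * restrict (π.ker : Set G) y.1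
    ext g
    have hx : (restrict (π.ker : Set G) x.1).supp ⊆ x.1.supp :=
      fun h hh => (supp_restrict_subset _ _ hh).1
    have hy : (restrict (π.ker : Set G) y.1).supp ⊆ y.1.supp :=
      fun h hh => (supp_restrict_subset _ _ hh).1
    rw [coeff_mul_both x.1.isPWO_supp y.1.isPWO_supp hx hy, coeff_restrict, coeff_mul]
    by_cases hg : g ∈ (π.ker : Set G)
    · rw [if_pos hg]
      refine Finset.sum_congr rfl fun ij hij => ?_
      obtain ⟨hi, hj, hsum⟩ := mem_antidiagonal.1 hij
      have hpi : 0 ≤ π ij.1 := x.2.2 _ hi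
      have hpj : 0 ≤ π ij.2 := y.2.2 _ hj
      have hsum0 : π ij.1 + π ij.2 = 0 := by
        rw [← map_add, hsum]
        exact hg
      have h1 : π ij.1 = 0 := by
        apply le_antisymm _ hpi
        calc π ij.1 ≤ π ij.1 + π ij.2 := le_add_of_nonneg_right hpj
          _ = 0 := hsum0
      have h2 : π ij.2 = 0 := by
        apply le_antisymm _ hpj
        calc π ij.2 ≤ π ij.1 + π ij.2 := le_add_of_nonneg_left hpi
          _ = 0 := hsum0
      rw [coeff_restrict_of_mem _ (show ij.1 ∈ (π.ker : Set G) from h1),
        coeff_restrict_of_mem _ (show ij.2 ∈ (π.ker : Set G) from h2)]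
    · rw [if_neg hg]
      symm
      refine Finset.sum_eq_zero fun ij hij => ?_
      obtain ⟨hi, hj, hsum⟩ := mem_antidiagonal.1 hij
      have hnot : ij.1 ∉ (π.ker : Set G) ∨ ij.2 ∉ (π.ker : Set G) := by
        by_contra hcon
        push Not at hcon
        apply hg
        rw [← hsum]
        exact π.ker.add_mem hcon.1 hcon.2
      rcases hnot with h | h
      · rw [coeff_restrict_of_not_mem _ h, zero_mul, smul_zero]
      · rw [coeff_restrict_of_not_mem _ h, mul_zero, smul_zero]

lemma coe_res {G' : Type*} [AddCommGroup G'] [PartialOrder G'] [IsOrderedAddMonoid G']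
    (π : G →+ G') (H : AddSubgroup G) (x : resRing (R := R) (ε := ε) π H) :
    ((res π H x : subS (R := R) (ε := ε) (H ⊓ π.ker)) : THS R ε) = restrict (π.ker : Set G) x.1 :=
  rfl

/-- A series in the residue ring with nonzero residue has its inverse in the residue ring (for
a linear order target and a monotone `π`). -/
lemma inv_mem_resRing {G' : Type*} [AddCommGroup G'] [LinearOrder G'] [IsOrderedAddMonoid G']
    {π : G →+ G'} (hπ : Monotone π) {H : AddSubgroup G} {x : THS R ε}
    (hx : x ∈ resRing (R := R) (ε := ε) π H) (hres : restrict (π.ker : Set G) x ≠ 0) :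
    x⁻¹ ∈ resRing (R := R) (ε := ε) π H := by
  have hx0 : x ≠ 0 := by
    rintro rfl
    exact hres (restrict_zero _)
  have hsub : x⁻¹ ∈ subS (R := R) (ε := ε) H := (subS (R := R) (ε := ε) H).inv_mem hx.1
  refine ⟨hsub, ?_⟩
  -- the order of `x` lies in the kernel
  have hord : π x.ord = 0 := by
    apply le_antisymm _ (hx.2 _ (ord_mem hx0))
    obtain ⟨g, hg⟩ : ∃ g, (restrict (π.ker : Set G) x).coeff g ≠ 0 := by
      by_contra hcon
      push Not at hcon
      exact hres (ext fun g => by rw [hcon g]; rfl)
    obtain ⟨h1, h2⟩ := supp_restrict_subset _ _ hg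
    have h3 : π g = 0 := h2
    rw [← h3]
    exact hπ (ord_le h1)
  intro g hg
  have hinv0 : x⁻¹ ≠ 0 := inv_ne_zero hx0
  have h1 : x⁻¹.ord ≤ g := ord_le hg
  have h2 : x.ord + x⁻¹.ord = 0 := by
    rw [← ord_mul hx0 hinv0, mul_inv_cancel₀ hx0]
    have h3 : (1 : THS R ε).ord ∈ (1 : THS R ε).supp := ord_mem one_ne_zero
    exact eq_zero_of_mem_supp_one h3
  have h3 : π x⁻¹.ord = 0 := by
    have := congrArg π h2
    rw [map_add, hord, zero_add, map_zero] at this
    exact this
  rw [← h3]
  exact hπ h1

end THS

end Crest.Agent.Kurosh
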