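/-
S0270, M1b (helper69): the concrete universe.
`G = Colex (ℕ →₀ Glvl)`, `Glvl = ℤ ×ₗ (Lex (ℕᵒᵈ →₀ ℤ) ×ₗ ℤ)` (largest level most significant,
inside a level `j`, then the commutative coordinates `c_ν` (larger `ν` more significant), then `K`),
`LevelData`: `p_i ≥ 1`, `ζ_i` primitive `p_i`-th root of unity, `U = THS k ε`,
`A_I`, `K_I`, trace `τ_I`, monomial basis, residue maps, limits, and the level isomorphism.
-/
import Crest.Agent.Kurosh.HahnSub

set_option autoImplicit false
set_option linter.unusedSimpArgs false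
set_option linter.unusedVariables false

namespace Crest.Agent.Kurosh.Levels

open scoped Finsupp

/-- Exponents of the commutative coordinates of one level: larger index more significant. -/
abbrev CExp := Lex (ℕᵒᵈ →₀ ℤ)

/-- The part of one level below `j`: `(α, K)`, `α` first. -/
abbrev MLvl := CExp ×ₗ ℤ

/-- One level: `(j, α, K)`, `j` most significant, `K` least significant. -/
abbrev G0 := ℤ ×ₗ MLvl

/-- The element `(j, α, K)` of one level. -/
def mkLvl (j : ℤ) (α : CExp) (K : ℤ) : G0 := toLex (j, toLex (α, K))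

/-- The `s`-exponent on `MLvl`. -/
def kappa : MLvl →+ ℤ where
  toFun a := (ofLex a).2
  map_zero' := rfl
  map_add' _ _ := rfl

@[simp] theorem kappa_apply (a : MLvl) : kappa a = (ofLex a).2 := rfl

theorem mkLvl_add (j j' : ℤ) (α α' : CExp) (K K' : ℤ) :
    mkLvl j α K + mkLvl j' α' K' = mkLvl (j + j') (α + α') (K + K') := rfl
theorem mkLvl_zero : mkLvl 0 0 0 = 0 := rfl

/-- The value group: finitely many levels, the largest index is the most significant one. -/
abbrev G := Colex (ℕ →₀ G0)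

/-- The coordinate of `g` at level `i`. -/
def coord (g : G) (i : ℕ) : G0 := (ofColex g) i

@[simp] theorem coord_add (g h : G) (i : ℕ) : coord (g + h) i = coord g i + coord h i := rfl
@[simp] theorem coord_zero (i : ℕ) : coord (0 : G) i = 0 := rfl
@[simp] theorem coord_neg (g : G) (i : ℕ) : coord (-g) i = - coord g i := rfl
@[simp] theorem coord_sub (g h : G) (i : ℕ) : coord (g - h) i = coord g i - coord h i := rfl

@[ext] theorem G_ext {g h : G} (H : ∀ i, coord g i = coord h i) : g = h := by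
  apply (ofColex (α := ℕ →₀ G0)).injective
  exact Finsupp.ext H

theorem lt_iff {a b : G} : a < b ↔ ∃ i, (∀ j, i < j → coord a j = coord b j) ∧ coord a i < coord b i :=
  Finsupp.Colex.lt_iff

/-- The top part: keep only the levels `> n`. -/
noncomputable def hi (n : ℕ) : G →+ G where
  toFun g := toColex ((ofColex g).filter (fun i => n < i))
  map_zero' := by
    apply G_ext; intro i
    have h0 : ofColex (0 : G) = 0 := rfl
    by_cases h : n < i <;> simp [coord, h0, Finsupp.filter_apply, h]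
  map_add' a b := by
    apply G_ext; intro i
    by_cases h : n < i <;> simp [coord, h]

/-- The low part: keep only the levels `≤ n`. -/
noncomputable def lo (n : ℕ) : G →+ G where
  toFun g := toColex ((ofColex g).filter (fun i => ¬ n < i))
  map_zero' := by
    apply G_ext; intro i
    have h0 : ofColex (0 : G) = 0 := rfl
    by_cases h : n < i <;> simp [coord, h0, Finsupp.filter_apply, h]
  map_add' a b := by
    apply G_ext; intro i
    by_cases h : n < i <;> simp [coord, h]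

@[simp] theorem coord_hi (n : ℕ) (g : G) (i : ℕ) : coord (hi n g) i = if n < i then coord g i else 0 := by
  simp [hi, coord, Finsupp.filter_apply]

@[simp] theorem coord_lo (n : ℕ) (g : G) (i : ℕ) : coord (lo n g) i = if n < i then 0 else coord g i := by
  by_cases h : n < i <;> simp [lo, coord, Finsupp.filter_apply, h]

theorem hi_add_lo (n : ℕ) (g : G) : hi n g + lo n g = g := by
  apply G_ext; intro i
  by_cases h : n < i <;> simp [h]

/-- `hi n` is monotone. -/
theorem hi_mono (n : ℕ) : Monotone (hi n) := by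
  intro a b hab
  rcases hab.eq_or_lt with rfl | hlt
  · exact le_rfl
  obtain ⟨i, hi1, hi2⟩ := lt_iff.mp hlt
  by_cases h : n < i
  · apply le_of_lt
    refine lt_iff.mpr ⟨i, fun j hj => ?_, ?_⟩
    · simp only [coord_hi, hi1 j hj]
    · simpa [h] using hi2
  · have : hi n a = hi n b := by
      apply G_ext; intro j
      by_cases hj : n < j
      · simp only [coord_hi, if_pos hj]
        exact hi1 j (lt_of_not_ge (fun hle => h (lt_of_lt_of_le hj hle)))
      · simp [hj]
    exact this.le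

/-- The level monomial. -/
noncomputable def lev (i : ℕ) (v : G0) : G := toColex (Finsupp.single i v)

@[simp] theorem coord_lev_same (i : ℕ) (v : G0) : coord (lev i v) i = v := by
  simp [lev, coord]

theorem coord_lev_ne {i j : ℕ} (h : i ≠ j) (v : G0) : coord (lev i v) j = 0 := by
  simp [lev, coord, h]

/-- Levels used in `g`: all nonzero coordinates in `I`. -/
def SuppIn (I : Finset ℕ) (g : G) : Prop := ∀ i, i ∉ I → coord g i = 0

/-- The twist: `ε(g,h) = ∏ᵢ ζᵢ ^ (j_i(g) K_i(h))`. -/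
noncomputable def eps {k : Type*} [Field k] (ζ : ℕ → k) (g h : G) : k :=
  (ofColex g).prod (fun i v => ζ i ^ ((ofLex v).1 * (ofLex (ofLex (coord h i)).2).2))

section Eps
variable {k : Type*} [Field k] (ζ : ℕ → k) (hζ : ∀ i, ζ i ≠ 0)
include hζ

theorem eps_add_left (g g' h : G) : eps ζ (g + g') h = eps ζ g h * eps ζ g' h := by
  unfold eps
  have : ofColex (g + g') = ofColex g + ofColex g' := rfl
  rw [this]
  refine Finsupp.prod_add_index' ?_ ?_
  · intro i
    simp
  · intro i v w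
    have : (ofLex (v + w)).1 = (ofLex v).1 + (ofLex w).1 := rfl
    rw [this, add_mul, zpow_add₀ (hζ i)]

theorem eps_add_right (g h h' : G) : eps ζ g (h + h') = eps ζ g h * eps ζ g h' := by
  unfold eps
  rw [← Finsupp.prod_mul]
  refine Finset.prod_congr rfl fun i _ => ?_
  have : (ofLex (ofLex (coord (h + h') i)).2).2
      = (ofLex (ofLex (coord h i)).2).2 + (ofLex (ofLex (coord h' i)).2).2 := rfl
  dsimp only
  rw [this, mul_add, zpow_add₀ (hζ i)]

omit hζ in
theorem eps_zero_left (h : G) : eps ζ 0 h = 1 := by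
  simp [eps]

omit hζ in
theorem eps_zero_right (g : G) : eps ζ g 0 = 1 := by
  unfold eps
  refine Finset.prod_eq_one fun i _ => ?_
  have : (ofLex (ofLex (coord (0 : G) i)).2).2 = 0 := rfl
  dsimp only
  rw [this]
  simp

omit hζ in
theorem eps_eq_finprod (I : Finset ℕ) (g h : G) (hg : SuppIn I g) :
    eps ζ g h = ∏ i ∈ I, ζ i ^ ((ofLex (coord g i)).1 * (ofLex (ofLex (coord h i)).2).2) := by
  unfold eps
  apply Finsupp.prod_of_support_subset
  · intro i hi
    by_contra hI
    simp only [Finsupp.mem_support_iff] at hi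
    exact hi (hg i hI)
  · intro i _
    simp

end Eps


/-- The coordinate `j` of `g` at level `i` (most significant inside the level). -/
def jj (g : G) (i : ℕ) : ℤ := (ofLex (coord g i)).1
/-- The coordinate `K` of `g` at level `i`. -/
def kk (g : G) (i : ℕ) : ℤ := (ofLex (ofLex (coord g i)).2).2
/-- The commutative coordinates of `g` at level `i`. -/
def cc (g : G) (i : ℕ) : CExp := (ofLex (ofLex (coord g i)).2).1

@[simp] theorem jj_add (g h : G) (i : ℕ) : jj (g + h) i = jj g i + jj h i := rfl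
@[simp] theorem kk_add (g h : G) (i : ℕ) : kk (g + h) i = kk g i + kk h i := rfl
@[simp] theorem jj_zero (i : ℕ) : jj 0 i = 0 := rfl
@[simp] theorem kk_zero (i : ℕ) : kk 0 i = 0 := rfl
@[simp] theorem jj_neg (g : G) (i : ℕ) : jj (-g) i = - jj g i := rfl
@[simp] theorem kk_neg (g : G) (i : ℕ) : kk (-g) i = - kk g i := rfl
@[simp] theorem jj_sub (g h : G) (i : ℕ) : jj (g - h) i = jj g i - jj h i := rfl
@[simp] theorem kk_sub (g h : G) (i : ℕ) : kk (g - h) i = kk g i - kk h i := rfl
@[simp] theorem cc_add (g h : G) (i : ℕ) : cc (g + h) i = cc g i + cc h i := rfl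
@[simp] theorem cc_zero (i : ℕ) : cc 0 i = 0 := rfl
@[simp] theorem cc_neg (g : G) (i : ℕ) : cc (-g) i = - cc g i := rfl
@[simp] theorem cc_sub (g h : G) (i : ℕ) : cc (g - h) i = cc g i - cc h i := rfl

theorem jj_kk_eq_zero_of_coord {g : G} {i : ℕ} (h : coord g i = 0) : jj g i = 0 ∧ kk g i = 0 := by
  simp [jj, kk, h]

/-- The data of the levels. -/
structure LevelData (k : Type*) [Field k] where
  p : ℕ → ℕ
  p_pos : ∀ i, 0 < p i
  ζ : ℕ → k
  prim : ∀ i, IsPrimitiveRoot (ζ i) (p i)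

namespace LevelData

variable {k : Type*} [Field k] (D : LevelData k)

theorem ζ_ne_zero (i : ℕ) : D.ζ i ≠ 0 := (D.prim i).ne_zero (D.p_pos i).ne'

theorem ζ_zpow_eq_one {i : ℕ} {n : ℤ} (h : (D.p i : ℤ) ∣ n) : D.ζ i ^ n = 1 :=
  (D.prim i).zpow_eq_one_iff_dvd n |>.2 h

/-- The twist as a bicharacter. -/
noncomputable def eps : Bichar G k where
  toFun := Levels.eps D.ζ
  add_left' := eps_add_left D.ζ D.ζ_ne_zero
  add_right' := eps_add_right D.ζ D.ζ_ne_zero
  ne_zero' := by
    intro a b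
    unfold Levels.eps Finsupp.prod
    exact Finset.prod_ne_zero_iff.2 fun i _ => zpow_ne_zero _ (D.ζ_ne_zero i)

theorem eps_apply (g h : G) (I : Finset ℕ) (hg : SuppIn I g) :
    D.eps g h = ∏ i ∈ I, D.ζ i ^ (jj g i * kk h i) :=
  Levels.eps_eq_finprod D.ζ I g h hg

/-- The universe. -/
abbrev U : Type _ := THS (R := k) D.eps

/-- Elements supported on levels of a set. -/
def GsubS (S : Set ℕ) : AddSubgroup G where
  carrier := {g | ∀ i, i ∉ S → coord g i = 0}
  add_mem' := by
    intro a b ha hb i hi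
    simp [ha i hi, hb i hi]
  zero_mem' := fun i _ => rfl
  neg_mem' := by
    intro a ha i hi
    simp [ha i hi]

/-- Elements supported on levels of a finite set. -/
abbrev Gsub (I : Finset ℕ) : AddSubgroup G := GsubS (I : Set ℕ)

theorem mem_Gsub {I : Finset ℕ} {g : G} : g ∈ Gsub I ↔ SuppIn I g :=
  ⟨fun h i hi => h i (by simpa using hi), fun h i hi => h i (by simpa using hi)⟩

/-- The lattice of central monomials with levels in `I`. -/
def Lam (I : Finset ℕ) : AddSubgroup G where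
  carrier := {g | SuppIn I g ∧ ∀ i, (D.p i : ℤ) ∣ jj g i ∧ (D.p i : ℤ) ∣ kk g i}
  add_mem' := by
    rintro a b ⟨ha, ha'⟩ ⟨hb, hb'⟩
    refine ⟨fun i hi => by simp [ha i hi, hb i hi], fun i => ?_⟩
    rw [jj_add, kk_add]
    exact ⟨dvd_add (ha' i).1 (hb' i).1, dvd_add (ha' i).2 (hb' i).2⟩
  zero_mem' := ⟨fun i _ => rfl, fun i => by simp⟩
  neg_mem' := by
    rintro a ⟨ha, ha'⟩
    refine ⟨fun i hi => by simp [ha i hi], fun i => ?_⟩
    rw [jj_neg, kk_neg]
    exact ⟨(dvd_neg).2 (ha' i).1, (dvd_neg).2 (ha' i).2⟩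

theorem mem_Lam {I : Finset ℕ} {g : G} :
    g ∈ D.Lam I ↔ SuppIn I g ∧ ∀ i, (D.p i : ℤ) ∣ jj g i ∧ (D.p i : ℤ) ∣ kk g i := Iff.rfl

theorem Lam_le_Gsub (I : Finset ℕ) : D.Lam I ≤ Gsub I := fun _ hg => mem_Gsub.2 hg.1

/-- The division algebra `A_I`. -/
noncomputable def A (I : Finset ℕ) : Subfield D.U := THS.subS (Gsub I)

/-- The centre `K_I`, as a subfield of the universe. -/
noncomputable def K (I : Finset ℕ) : Subfield D.U := THS.subS (D.Lam I)

theorem mem_A {I : Finset ℕ} {x : D.U} : x ∈ D.A I ↔ x.supp ⊆ Gsub I := Iff.rfl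
theorem mem_K {I : Finset ℕ} {x : D.U} : x ∈ D.K I ↔ x.supp ⊆ D.Lam I := Iff.rfl

theorem K_le_A (I : Finset ℕ) : D.K I ≤ D.A I := THS.subS_mono (D.Lam_le_Gsub I)

theorem A_mono {I J : Finset ℕ} (h : I ⊆ J) : D.A I ≤ D.A J := by
  apply THS.subS_mono
  intro g hg i hi
  exact hg i (fun hI => hi (by simpa using h (by simpa using hI)))

theorem K_mono {I J : Finset ℕ} (h : I ⊆ J) : D.K I ≤ D.K J := by
  apply THS.subS_mono
  rintro g ⟨hg1, hg2⟩
  exact ⟨fun i hi => hg1 i (fun hI => hi (h hI)), hg2⟩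

/-- The twist is trivial with a central monomial on the left. -/
theorem eps_Lam_left {I : Finset ℕ} {a : G} (ha : a ∈ D.Lam I) (b : G) : D.eps a b = 1 := by
  rw [D.eps_apply a b I ha.1]
  refine Finset.prod_eq_one fun i _ => ?_
  exact D.ζ_zpow_eq_one (Dvd.dvd.mul_right (ha.2 i).1 _)

/-- The twist is trivial with a central monomial on the right. -/
theorem eps_Lam_right {I : Finset ℕ} {a : G} (ha : a ∈ D.Lam I) (b : G) : D.eps b a = 1 := by
  unfold eps
  show Levels.eps D.ζ b a = 1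
  unfold Levels.eps Finsupp.prod
  refine Finset.prod_eq_one fun i _ => ?_
  exact D.ζ_zpow_eq_one (Dvd.dvd.mul_left (ha.2 i).2 _)

/-- `K_I` is central in the universe. -/
theorem K_central {I : Finset ℕ} {u : D.U} (hu : u ∈ D.K I) (v : D.U) : u * v = v * u := by
  refine THS.mul_comm_of_symm (H := (D.Lam I : Set G)) ?_ hu (fun a r => mul_comm _ _) v
  intro a ha b
  rw [D.eps_Lam_left ha, D.eps_Lam_right ha]

/-- `K_I` as a field. -/
noncomputable instance fieldK (I : Finset ℕ) : Field (D.K I) :=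
  { (inferInstance : DivisionRing (D.K I)) with
    mul_comm := fun a b => Subtype.ext (D.K_central a.2 b.1) }

/-- The algebra structure of `A_I` over `K_I`. -/
noncomputable instance algKA (I : Finset ℕ) : Algebra (D.K I) (D.A I) :=
  (Subfield.inclusion (D.K_le_A I)).toAlgebra' (fun c x => Subtype.ext (D.K_central c.2 x.1))

theorem algebraMap_KA_coe (I : Finset ℕ) (c : D.K I) :
    ((algebraMap (D.K I) (D.A I) c : D.A I) : D.U) = c := rfl

theorem smul_KA_coe (I : Finset ℕ) (c : D.K I) (x : D.A I) :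
    ((c • x : D.A I) : D.U) = c * x := rfl


/-! ### Scalars -/

theorem algebraMap_mem (I : Finset ℕ) (c : k) : algebraMap k D.U c ∈ D.K I := by
  rw [THS.algebraMap_eq]
  exact THS.mono_mem_subS (D.Lam I).zero_mem _

/-- The constants as a ring hom to `K_I`. -/
noncomputable def constK (I : Finset ℕ) : k →+* D.K I :=
  (algebraMap k D.U).codRestrict (D.K I) (fun c => D.algebraMap_mem I c)

noncomputable instance algkK (I : Finset ℕ) : Algebra k (D.K I) :=
  (D.constK I).toAlgebra' (fun c x => Subtype.ext (Algebra.commutes c x.1))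

noncomputable instance algkA (I : Finset ℕ) : Algebra k (D.A I) :=
  ((Subfield.inclusion (D.K_le_A I)).comp (D.constK I)).toAlgebra'
    (fun c x => Subtype.ext (Algebra.commutes c x.1))

theorem algebraMap_kK_coe (I : Finset ℕ) (c : k) :
    ((algebraMap k (D.K I) c : D.K I) : D.U) = algebraMap k D.U c := rfl

theorem algebraMap_kA_coe (I : Finset ℕ) (c : k) :
    ((algebraMap k (D.A I) c : D.A I) : D.U) = algebraMap k D.U c := rfl

instance scalarTower_kKA (I : Finset ℕ) : IsScalarTower k (D.K I) (D.A I) :=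
  IsScalarTower.of_algebraMap_eq (fun _ => rfl)

/-! ### Monomials -/

/-- The monomial `e_g`. -/
noncomputable def e (g : G) : D.U := THS.mono g 1

theorem e_mem_A {I : Finset ℕ} {g : G} (hg : g ∈ Gsub I) : D.e g ∈ D.A I :=
  THS.mono_mem_subS hg 1

theorem e_mem_K {I : Finset ℕ} {g : G} (hg : g ∈ D.Lam I) : D.e g ∈ D.K I :=
  THS.mono_mem_subS hg 1

theorem e_mul_e (g h : G) : D.e g * D.e h = D.eps g h • D.e (g + h) := by
  classical
  unfold e
  rw [THS.mono_mul_mono]
  ext a
  simp [THS.coeff_mono]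

theorem e_zero : D.e 0 = 1 := rfl

theorem coeff_e (g h : G) [Decidable (h = g)] : (D.e g).coeff h = if h = g then 1 else 0 := by
  classical
  unfold e
  rw [THS.coeff_mono]
  congr

theorem e_ne_zero (g : G) : D.e g ≠ 0 := by
  classical
  intro h
  have := congrArg (fun x : D.U => x.coeff g) h
  simp [coeff_e] at this

/-- `e_g` is invertible with inverse a multiple of `e_{-g}`. -/
theorem e_inv (g : G) : (D.e g)⁻¹ = (D.eps g (-g))⁻¹ • D.e (-g) := by
  apply inv_eq_of_mul_eq_one_right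
  rw [mul_smul_comm, e_mul_e, smul_smul, add_neg_cancel, inv_mul_cancel₀ (D.eps.ne_zero _ _), one_smul]
  rfl

/-- The level monomials. -/
noncomputable def gs (i : ℕ) : G := lev i (mkLvl 0 0 1)
/-- The level monomials. -/
noncomputable def gs' (i : ℕ) : G := lev i (mkLvl 1 0 0)

/-- `s_i`. -/
noncomputable def s (i : ℕ) : D.U := D.e (gs i)
/-- `s_i'`. -/
noncomputable def s' (i : ℕ) : D.U := D.e (gs' i)

theorem suppIn_lev (i : ℕ) (v : G0) : SuppIn {i} (lev i v) := by
  intro j hj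
  have : j ≠ i := by simpa using hj
  exact coord_lev_ne this.symm v

theorem jj_lev_same (i : ℕ) (v : G0) : jj (lev i v) i = (ofLex v).1 := by
  simp [jj]
theorem kk_lev_same (i : ℕ) (v : G0) : kk (lev i v) i = (ofLex (ofLex v).2).2 := by
  simp [kk]

theorem eps_lev_lev (i : ℕ) (v w : G0) :
    D.eps (lev i v) (lev i w) = D.ζ i ^ ((ofLex v).1 * (ofLex (ofLex w).2).2) := by
  rw [D.eps_apply _ _ {i} (suppIn_lev i v)]
  simp [jj_lev_same, kk_lev_same]

/-- The quantum plane relation. -/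
theorem s'_mul_s (i : ℕ) : D.s' i * D.s i = D.ζ i • (D.s i * D.s' i) := by
  unfold s s'
  have h1 : D.eps (gs' i) (gs i) = D.ζ i := by
    unfold gs gs'
    rw [eps_lev_lev]
    simp [mkLvl]
  have h2 : D.eps (gs i) (gs' i) = 1 := by
    unfold gs gs'
    rw [eps_lev_lev]
    simp [mkLvl]
  rw [e_mul_e, e_mul_e, add_comm, h1, h2, one_smul]

theorem gs_mem {I : Finset ℕ} {i : ℕ} (hi : i ∈ I) : gs i ∈ Gsub I := by
  refine mem_Gsub.2 fun j hj => coord_lev_ne ?_ _
  rintro rfl
  exact hj hi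

theorem gs'_mem {I : Finset ℕ} {i : ℕ} (hi : i ∈ I) : gs' i ∈ Gsub I := by
  refine mem_Gsub.2 fun j hj => coord_lev_ne ?_ _
  rintro rfl
  exact hj hi

theorem s_mem_A {I : Finset ℕ} {i : ℕ} (hi : i ∈ I) : D.s i ∈ D.A I := D.e_mem_A (gs_mem hi)
theorem s'_mem_A {I : Finset ℕ} {i : ℕ} (hi : i ∈ I) : D.s' i ∈ D.A I := D.e_mem_A (gs'_mem hi)
theorem s_ne_zero (i : ℕ) : D.s i ≠ 0 := D.e_ne_zero _
theorem s'_ne_zero (i : ℕ) : D.s' i ≠ 0 := D.e_ne_zero _

/-! ### The trace -/

theorem Lam_stable_left (I : Finset ℕ) :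
    ∀ a ∈ (D.Lam I : Set G), ∀ b, b ∈ (D.Lam I : Set G) ↔ a + b ∈ (D.Lam I : Set G) :=
  fun _ ha _ => ((D.Lam I).add_mem_cancel_left ha).symm

theorem Lam_stable_right (I : Finset ℕ) :
    ∀ a ∈ (D.Lam I : Set G), ∀ b, b ∈ (D.Lam I : Set G) ↔ b + a ∈ (D.Lam I : Set G) :=
  fun _ ha _ => ((D.Lam I).add_mem_cancel_right ha).symm

/-- The trace `τ_I : A_I → K_I`: projection on the central monomials. -/
noncomputable def τ (I : Finset ℕ) : D.A I →ₗ[D.K I] D.K I where
  toFun x := ⟨THS.restrict (D.Lam I : Set G) x.1, fun _ hg => (THS.supp_restrict_subset _ _ hg).2⟩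
  map_add' x y := Subtype.ext (THS.restrict_add _ _ _)
  map_smul' c x := Subtype.ext (THS.restrict_mul_left (D.Lam_stable_left I) c.2 x.1)

theorem τ_coe (I : Finset ℕ) (x : D.A I) :
    ((D.τ I x : D.K I) : D.U) = THS.restrict (D.Lam I : Set G) x.1 := rfl

/-- Symmetry of the twist on a pair whose sum is central. -/
theorem eps_symm_of_add_mem {I : Finset ℕ} {a b : G} (h : a + b ∈ D.Lam I) :
    D.eps a b = D.eps b a := by
  classical
  set J := (ofColex a).support ∪ (ofColex b).support with hJ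
  have ha : SuppIn J a := by
    intro i hi
    by_contra hne
    exact hi (Finset.mem_union_left _ (Finsupp.mem_support_iff.2 hne))
  have hb : SuppIn J b := by
    intro i hi
    by_contra hne
    exact hi (Finset.mem_union_right _ (Finsupp.mem_support_iff.2 hne))
  rw [D.eps_apply a b J ha, D.eps_apply b a J hb]
  refine Finset.prod_congr rfl fun i _ => ?_
  obtain ⟨t1, ht1⟩ := (h.2 i).1
  obtain ⟨t2, ht2⟩ := (h.2 i).2
  rw [jj_add] at ht1
  rw [kk_add] at ht2
  have h1 : jj a i * kk b i - jj b i * kk a i = (D.p i : ℤ) * (jj a i * t2 - t1 * kk a i) := by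
    have e1 : jj b i = D.p i * t1 - jj a i := by linarith
    have e2 : kk b i = D.p i * t2 - kk a i := by linarith
    rw [e1, e2]
    ring
  have h2 : D.ζ i ^ (jj a i * kk b i - jj b i * kk a i) = 1 :=
    D.ζ_zpow_eq_one ⟨_, h1⟩
  rw [zpow_sub₀ (D.ζ_ne_zero i)] at h2
  exact (div_eq_one_iff_eq (zpow_ne_zero _ (D.ζ_ne_zero i))).1 h2

/-- Swap in the product formula. -/
theorem coeff_mul_swap (x y : D.U) (g : G) (h : ∀ a b, a + b = g → D.eps a b = D.eps b a) :
    (x * y).coeff g = (y * x).coeff g := by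
  classical
  rw [THS.coeff_mul, THS.coeff_mul]
  refine Finset.sum_bij' (fun ij _ => ij.swap) (fun ij _ => ij.swap) ?_ ?_ ?_ ?_ ?_
  · intro ij hij
    obtain ⟨h1, h2, h3⟩ := Finset.mem_antidiagonal.1 hij
    exact Finset.mem_antidiagonal.2 ⟨h2, h1, by rw [Prod.fst_swap, Prod.snd_swap, add_comm]; exact h3⟩
  · intro ij hij
    obtain ⟨h1, h2, h3⟩ := Finset.mem_antidiagonal.1 hij
    exact Finset.mem_antidiagonal.2 ⟨h2, h1, by rw [Prod.fst_swap, Prod.snd_swap, add_comm]; exact h3⟩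
  · intro ij _; rfl
  · intro ij _; rfl
  · intro ij hij
    obtain ⟨_, _, h3⟩ := Finset.mem_antidiagonal.1 hij
    simp only [Prod.fst_swap, Prod.snd_swap, smul_eq_mul]
    rw [h ij.1 ij.2 h3, mul_comm (x.coeff ij.1)]

theorem τ_comm (I : Finset ℕ) (x y : D.A I) : D.τ I (x * y) = D.τ I (y * x) := by
  classical
  apply Subtype.ext
  rw [τ_coe, τ_coe]
  ext g
  show (THS.restrict (D.Lam I : Set G) (x.1 * y.1)).coeff g
    = (THS.restrict (D.Lam I : Set G) (y.1 * x.1)).coeff g
  rw [THS.coeff_restrict, THS.coeff_restrict]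
  by_cases hg : g ∈ (D.Lam I : Set G)
  · rw [if_pos hg, if_pos hg]
    apply D.coeff_mul_swap
    intro a b hab
    exact D.eps_symm_of_add_mem (by rw [hab]; exact hg)
  · rw [if_neg hg, if_neg hg]

theorem τ_one (I : Finset ℕ) : D.τ I 1 = 1 := by
  apply Subtype.ext
  rw [τ_coe]
  apply THS.restrict_eq_self
  intro g hg
  rw [THS.eq_zero_of_mem_supp_one hg]
  exact (D.Lam I).zero_mem

/-- Nondegeneracy of the trace, with an explicit test monomial. -/
theorem τ_nondeg_mono (I : Finset ℕ) {x : D.A I} {g : G} (hg : g ∈ x.1.supp) :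
    ∃ y : D.A I, D.τ I (x * y) ≠ 0 := by
  have hgI : g ∈ Gsub I := x.2 hg
  refine ⟨⟨D.e (-g), D.e_mem_A ((Gsub I).neg_mem hgI)⟩, fun h0 => ?_⟩
  have h1 : ((D.τ I (x * ⟨D.e (-g), D.e_mem_A ((Gsub I).neg_mem hgI)⟩) : D.K I) : D.U).coeff 0 = 0 := by
    rw [h0]
    rfl
  rw [τ_coe, THS.coeff_restrict_of_mem _ (D.Lam I).zero_mem] at h1
  have h3 : ((x.1 * D.e (-g))).coeff (g + -g) = D.eps g (-g) • (x.1.coeff g * 1) :=
    THS.coeff_mul_mono (-g) 1 x.1 g
  rw [add_neg_cancel] at h3
  have h4 : (x.1 * D.e (-g)).coeff 0 = 0 := h1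
  rw [h4] at h3
  have h5 : D.eps g (-g) • (x.1.coeff g * 1) ≠ 0 :=
    smul_ne_zero (D.eps.ne_zero _ _) (by simpa using hg)
  exact h5 h3.symm

theorem τ_nondeg (I : Finset ℕ) (x : D.A I) (hx : x ≠ 0) : ∃ y : D.A I, D.τ I (x * y) ≠ 0 := by
  have h0 : x.1 ≠ 0 := fun h => hx (Subtype.ext h)
  exact D.τ_nondeg_mono I (THS.ord_mem h0)

/-- In the form used by `State.Pt`. -/
theorem τ_nondeg' (I : Finset ℕ) (x : D.A I) (h : ∀ y, D.τ I (x * y) = 0) : x = 0 := by
  by_contra hx
  obtain ⟨y, hy⟩ := D.τ_nondeg I x hx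
  exact hy (h y)

/-! ### The monomial basis -/

/-- Residues at the levels of `I`. -/
abbrev Idx (I : Finset ℕ) : Type := ∀ i : I, Fin (D.p i) × Fin (D.p i)

/-- The representative monomial of a residue class. -/
noncomputable def rep (I : Finset ℕ) (r : D.Idx I) : G :=
  ∑ i : I, lev i (mkLvl (r i).1.val 0 (r i).2.val)

theorem rep_coord (I : Finset ℕ) (r : D.Idx I) (i : I) :
    jj (D.rep I r) i = (r i).1.val ∧ kk (D.rep I r) i = (r i).2.val := by
  classical
  have key : coord (D.rep I r) i = mkLvl ((r i).1.val : ℤ) 0 ((r i).2.val : ℤ) := by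
    have h : ∀ (S : Finset I), coord (∑ l ∈ S, lev (l : ℕ) (mkLvl ((r l).1.val : ℤ) 0 ((r l).2.val : ℤ))) i
        = if i ∈ S then mkLvl ((r i).1.val : ℤ) 0 ((r i).2.val : ℤ) else 0 := by
      intro S
      induction S using Finset.induction_on with
      | empty => simp
      | insert a S ha ih =>
        rw [Finset.sum_insert ha, coord_add, ih]
        by_cases hia : i = a
        · subst hia
          simp [ha]
        · have hne : (a : ℕ) ≠ i := fun h => hia (Subtype.ext h.symm)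
          rw [coord_lev_ne hne]
          simp [hia]
    unfold rep
    rw [h Finset.univ]
    simp
  simp [jj, kk, key, mkLvl]

theorem rep_mem (I : Finset ℕ) (r : D.Idx I) : D.rep I r ∈ Gsub I := by
  refine (Gsub I).sum_mem fun i _ => ?_
  refine mem_Gsub.2 fun j hj => coord_lev_ne ?_ _
  rintro rfl
  exact hj i.2

/-- The coset of a residue class. -/
def coset (I : Finset ℕ) (r : D.Idx I) : Set G := {g | g - D.rep I r ∈ D.Lam I}

theorem mem_coset {I : Finset ℕ} {r : D.Idx I} {g : G} :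
    g ∈ D.coset I r ↔ g - D.rep I r ∈ D.Lam I := Iff.rfl

theorem coset_stable_left (I : Finset ℕ) (r : D.Idx I) :
    ∀ a ∈ (D.Lam I : Set G), ∀ b, b ∈ D.coset I r ↔ a + b ∈ D.coset I r := by
  intro a ha b
  rw [mem_coset, mem_coset, add_sub_assoc]
  exact ((D.Lam I).add_mem_cancel_left ha).symm

/-- The residue class of an element of `G_I`. -/
noncomputable def idxOf (I : Finset ℕ) (g : G) : D.Idx I := fun i =>
  (⟨(jj g i % (D.p i : ℤ)).toNat, by
      have hp : (0 : ℤ) < D.p i := by exact_mod_cast D.p_pos i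
      have h1 := Int.emod_nonneg (jj g i) hp.ne'
      have h2 := Int.emod_lt_of_pos (jj g i) hp
      omega⟩,
   ⟨(kk g i % (D.p i : ℤ)).toNat, by
      have hp : (0 : ℤ) < D.p i := by exact_mod_cast D.p_pos i
      have h1 := Int.emod_nonneg (kk g i) hp.ne'
      have h2 := Int.emod_lt_of_pos (kk g i) hp
      omega⟩)

theorem mem_coset_idxOf {I : Finset ℕ} {g : G} (hg : g ∈ Gsub I) :
    g ∈ D.coset I (D.idxOf I g) := by
  rw [mem_coset]
  refine ⟨mem_Gsub.1 ((Gsub I).sub_mem hg (D.rep_mem I _)), fun i => ?_⟩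
  by_cases hi : i ∈ I
  · obtain ⟨h1, h2⟩ := D.rep_coord I (D.idxOf I g) ⟨i, hi⟩
    have hp : (0 : ℤ) < D.p i := by exact_mod_cast D.p_pos i
    rw [jj_sub, kk_sub]
    simp only at h1 h2
    rw [h1, h2]
    simp only [idxOf]
    have e1 : ((jj g i % (D.p i : ℤ)).toNat : ℤ) = jj g i % (D.p i : ℤ) :=
      Int.toNat_of_nonneg (Int.emod_nonneg _ hp.ne')
    have e2 : ((kk g i % (D.p i : ℤ)).toNat : ℤ) = kk g i % (D.p i : ℤ) :=
      Int.toNat_of_nonneg (Int.emod_nonneg _ hp.ne')
    rw [e1, e2]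
    exact ⟨Int.dvd_self_sub_emod, Int.dvd_self_sub_emod⟩
  · have h1 : coord (g - D.rep I (D.idxOf I g)) i = 0 :=
      mem_Gsub.1 ((Gsub I).sub_mem hg (D.rep_mem I _)) i hi
    obtain ⟨h2, h3⟩ := jj_kk_eq_zero_of_coord h1
    rw [jj_sub, kk_sub] at *
    rw [h2, h3]
    simp

theorem eq_idx_of_mem_coset {I : Finset ℕ} {g : G} {r r' : D.Idx I} (h : g ∈ D.coset I r)
    (h' : g ∈ D.coset I r') : r = r' := by
  funext i
  have hp : (0 : ℤ) < D.p i := by exact_mod_cast D.p_pos i
  have hdiff : D.rep I r - D.rep I r' ∈ D.Lam I := by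
    have := (D.Lam I).sub_mem h' h
    convert this using 1
    abel
  obtain ⟨a1, a2⟩ := D.rep_coord I r i
  obtain ⟨b1, b2⟩ := D.rep_coord I r' i
  obtain ⟨h1, h2⟩ := hdiff.2 i
  rw [jj_sub, a1, b1] at h1
  rw [kk_sub, a2, b2] at h2
  have hlt1 := (r i).1.isLt
  have hlt2 := (r' i).1.isLt
  have hlt3 := (r i).2.isLt
  have hlt4 := (r' i).2.isLt
  have e1 : ((r i).1.val : ℤ) = (r' i).1.val := by
    apply Int.eq_of_sub_eq_zero
    apply Int.eq_zero_of_abs_lt_dvd h1
    rw [abs_lt]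
    constructor <;> omega
  have e2 : ((r i).2.val : ℤ) = (r' i).2.val := by
    apply Int.eq_of_sub_eq_zero
    apply Int.eq_zero_of_abs_lt_dvd h2
    rw [abs_lt]
    constructor <;> omega
  exact Prod.ext (Fin.ext (by exact_mod_cast e1)) (Fin.ext (by exact_mod_cast e2))

theorem coeff_sum {ι : Type*} (S : Finset ι) (f : ι → D.U) (g : G) :
    (∑ r ∈ S, f r).coeff g = ∑ r ∈ S, (f r).coeff g := by
  classical
  induction S using Finset.induction_on with
  | empty => simp
  | insert a S ha ih => rw [Finset.sum_insert ha, Finset.sum_insert ha, THS.coeff_add, ih]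

/-- Decomposition of an element of `A_I` along the cosets. -/
theorem sum_restrict_coset {I : Finset ℕ} {x : D.U} (hx : x ∈ D.A I) :
    ∑ r : D.Idx I, THS.restrict (D.coset I r) x = x := by
  classical
  ext g
  rw [coeff_sum]
  by_cases hg : g ∈ Gsub I
  · rw [Finset.sum_eq_single (D.idxOf I g)]
    · exact THS.coeff_restrict_of_mem _ (D.mem_coset_idxOf hg)
    · intro r _ hr
      refine THS.coeff_restrict_of_not_mem _ fun hm => hr ?_
      exact D.eq_idx_of_mem_coset hm (D.mem_coset_idxOf hg)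
    · intro h
      exact absurd (Finset.mem_univ _) h
  · have hx0 : x.coeff g = 0 := by
      by_contra hne
      exact hg (hx (THS.mem_supp.2 hne))
    rw [hx0]
    refine Finset.sum_eq_zero fun r _ => ?_
    rw [THS.coeff_restrict]
    split_ifs
    · exact hx0
    · rfl

/-- The coefficient in `K_I` of the basis element. -/
theorem cr_mem (I : Finset ℕ) (x : D.U) (r : D.Idx I) :
    THS.restrict (D.coset I r) x * (D.e (D.rep I r))⁻¹ ∈ D.K I := by
  rw [D.e_inv, mul_smul_comm, Algebra.smul_def]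
  refine (D.K I).mul_mem (D.algebraMap_mem I _) ?_
  intro g hg
  obtain ⟨a, ha, b, hb, rfl⟩ := THS.supp_mul_subset _ _ hg
  have ha' : a ∈ D.coset I r := (THS.supp_restrict_subset _ _ ha).2
  have hb' : b = - D.rep I r := by
    have := THS.supp_mono_subset (ε := D.eps) (- D.rep I r) (1 : k) hb
    simpa using this
  rw [hb']
  show a + - D.rep I r ∈ D.Lam I
  rw [← sub_eq_add_neg]
  exact ha'

/-- The monomial basis vector. -/
noncomputable def bvec (I : Finset ℕ) (r : D.Idx I) : D.A I :=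
  ⟨D.e (D.rep I r), D.e_mem_A (D.rep_mem I r)⟩

theorem rep_mem_coset (I : Finset ℕ) (r : D.Idx I) : D.rep I r ∈ D.coset I r := by
  rw [mem_coset, sub_self]
  exact (D.Lam I).zero_mem

theorem restrict_e_coset (I : Finset ℕ) (r r' : D.Idx I) [Decidable (r' = r)] :
    THS.restrict (D.coset I r') (D.e (D.rep I r)) = if r' = r then D.e (D.rep I r) else 0 := by
  split_ifs with h
  · subst h
    apply THS.restrict_eq_self
    intro g hg
    have : g = D.rep I r' := by
      simpa using THS.supp_mono_subset (ε := D.eps) (D.rep I r') (1 : k) hg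
    rw [this]
    exact D.rep_mem_coset I r'
  · ext g
    rw [THS.coeff_restrict]
    split_ifs with hg
    · have hg2 : (D.e (D.rep I r)).coeff g ≠ 0 → False := by
        intro hne
        have : g = D.rep I r := by
          simpa using THS.supp_mono_subset (ε := D.eps) (D.rep I r) (1 : k) hne
        subst this
        exact h (D.eq_idx_of_mem_coset hg (D.rep_mem_coset I r))
      by_contra hne
      exact hg2 hne
    · rfl

theorem bvec_span (I : Finset ℕ) : ⊤ ≤ Submodule.span (D.K I) (Set.range (D.bvec I)) := by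
  classical
  rintro x -
  have h1 : (x : D.U) = ∑ r : D.Idx I, (THS.restrict (D.coset I r) x.1 * (D.e (D.rep I r))⁻¹)
      * D.e (D.rep I r) := by
    conv_lhs => rw [← D.sum_restrict_coset x.2]
    refine Finset.sum_congr rfl fun r _ => ?_
    rw [mul_assoc, inv_mul_cancel₀ (D.e_ne_zero _), mul_one]
  have h2 : x = ∑ r : D.Idx I, (⟨_, D.cr_mem I x.1 r⟩ : D.K I) • D.bvec I r := by
    apply Subtype.ext
    refine h1.trans ?_
    have : (((∑ r : D.Idx I, (⟨_, D.cr_mem I x.1 r⟩ : D.K I) • D.bvec I r) : D.A I) : D.U)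
        = ∑ r : D.Idx I, (((⟨_, D.cr_mem I x.1 r⟩ : D.K I) • D.bvec I r : D.A I) : D.U) :=
      map_sum (D.A I).subtype _ _
    rw [this]
    rfl
  rw [h2]
  exact Submodule.sum_mem _ fun r _ =>
    Submodule.smul_mem _ _ (Submodule.subset_span ⟨r, rfl⟩)

theorem bvec_li (I : Finset ℕ) : LinearIndependent (D.K I) (D.bvec I) := by
  classical
  rw [Fintype.linearIndependent_iff]
  intro c hc r0
  have h1 : ∑ r : D.Idx I, ((c r : D.K I) : D.U) * D.e (D.rep I r) = 0 := by
    have h2 : (((∑ r : D.Idx I, c r • D.bvec I r) : D.A I) : D.U) = 0 := by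
      rw [hc]
      rfl
    have h3 : (((∑ r : D.Idx I, c r • D.bvec I r) : D.A I) : D.U)
        = ∑ r : D.Idx I, ((c r • D.bvec I r : D.A I) : D.U) := map_sum (D.A I).subtype _ _
    rw [h3] at h2
    exact h2
  have h2 : ((c r0 : D.K I) : D.U) * D.e (D.rep I r0) = 0 := by
    have h3 := congrArg (THS.restrict (D.coset I r0)) h1
    rw [THS.restrict_zero] at h3
    have h4 : THS.restrict (D.coset I r0) (∑ r : D.Idx I, ((c r : D.K I) : D.U) * D.e (D.rep I r))
        = ∑ r : D.Idx I, THS.restrict (D.coset I r0) (((c r : D.K I) : D.U) * D.e (D.rep I r)) :=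
      map_sum (THS.restrictAddHom (D.coset I r0)) _ _
    rw [h4, Finset.sum_eq_single r0] at h3
    · rw [THS.restrict_mul_left (D.coset_stable_left I r0) (c r0).2, D.restrict_e_coset I r0 r0,
        if_pos rfl] at h3
      exact h3
    · intro r _ hr
      rw [THS.restrict_mul_left (D.coset_stable_left I r0) (c r).2, D.restrict_e_coset I r r0,
        if_neg hr.symm, mul_zero]
    · intro h
      exact absurd (Finset.mem_univ _) h
  have h3 : ((c r0 : D.K I) : D.U) = 0 := by
    rcases mul_eq_zero.1 h2 with h | h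
    · exact h
    · exact absurd h (D.e_ne_zero _)
  exact Subtype.ext h3

/-- The monomial basis of `A_I` over `K_I`. -/
noncomputable def basis (I : Finset ℕ) : Module.Basis (D.Idx I) (D.K I) (D.A I) :=
  Module.Basis.mk (D.bvec_li I) (D.bvec_span I)

instance finiteDimensional (I : Finset ℕ) : FiniteDimensional (D.K I) (D.A I) :=
  Module.Finite.of_basis (D.basis I)

/-- The degree `N_I = ∏ p_i`. -/
def deg (I : Finset ℕ) : ℕ := ∏ i ∈ I, D.p i

theorem finrank_A (I : Finset ℕ) : Module.finrank (D.K I) (D.A I) = D.deg I ^ 2 := by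
  classical
  rw [Module.finrank_eq_card_basis (D.basis I)]
  simp only [Fintype.card_pi, Fintype.card_prod, Fintype.card_fin]
  rw [deg, sq, ← Finset.prod_mul_distrib]
  exact Finset.prod_coe_sort I (fun i => D.p i * D.p i)

theorem jj_gs (i l : ℕ) : jj (gs i) l = 0 := by
  by_cases h : l = i
  · subst h
    simp [gs, jj_lev_same, mkLvl]
  · simp [jj, gs, coord_lev_ne (Ne.symm h)]

theorem kk_gs (i l : ℕ) [Decidable (l = i)] : kk (gs i) l = if l = i then 1 else 0 := by
  by_cases h : l = i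
  · subst h
    simp [gs, kk_lev_same, mkLvl]
  · simp [kk, gs, coord_lev_ne (Ne.symm h), h]

theorem jj_gs' (i l : ℕ) [Decidable (l = i)] : jj (gs' i) l = if l = i then 1 else 0 := by
  by_cases h : l = i
  · subst h
    simp [gs', jj_lev_same, mkLvl]
  · simp [jj, gs', coord_lev_ne (Ne.symm h), h]

theorem kk_gs' (i l : ℕ) : kk (gs' i) l = 0 := by
  by_cases h : l = i
  · subst h
    simp [gs', kk_lev_same, mkLvl]
  · simp [kk, gs', coord_lev_ne (Ne.symm h)]

theorem suppIn_support (g : G) : SuppIn (ofColex g).support g := by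
  intro i hi
  by_contra hne
  exact hi (Finsupp.mem_support_iff.2 hne)

theorem eps_gs_right (g : G) (i : ℕ) : D.eps g (gs i) = D.ζ i ^ jj g i := by
  classical
  have hg : SuppIn ((ofColex g).support ∪ {i}) g := fun l hl =>
    suppIn_support g l (fun h => hl (Finset.mem_union_left _ h))
  rw [D.eps_apply g (gs i) _ hg, Finset.prod_eq_single i]
  · simp [kk_gs]
  · intro l _ hl
    simp [kk_gs, hl]
  · intro h
    exact absurd (Finset.mem_union_right _ (Finset.mem_singleton_self i)) h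

theorem eps_gs_left (g : G) (i : ℕ) : D.eps (gs i) g = 1 := by
  classical
  rw [D.eps_apply (gs i) g {i} (suppIn_lev i _)]
  simp [jj_gs]

theorem eps_gs'_right (g : G) (i : ℕ) : D.eps g (gs' i) = 1 := by
  classical
  rw [D.eps_apply g (gs' i) _ (suppIn_support g)]
  exact Finset.prod_eq_one fun l _ => by simp [kk_gs']

theorem eps_gs'_left (g : G) (i : ℕ) : D.eps (gs' i) g = D.ζ i ^ kk g i := by
  classical
  rw [D.eps_apply (gs' i) g {i} (suppIn_lev i _)]
  simp [jj_gs']

/-- An element of `A_I` commuting with all `s_i, s_i'`, `i ∈ I`, lies in `K_I`. -/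
theorem mem_K_of_commute {I : Finset ℕ} {x : D.U} (hx : x ∈ D.A I)
    (h1 : ∀ i ∈ I, x * D.s i = D.s i * x) (h2 : ∀ i ∈ I, x * D.s' i = D.s' i * x) :
    x ∈ D.K I := by
  classical
  intro g hg
  have hgI : g ∈ Gsub I := hx hg
  have hne : x.coeff g ≠ 0 := hg
  -- commuting with a monomial forces equality of the twists
  have key : ∀ h : G, x * D.e h = D.e h * x → D.eps g h = D.eps h g := by
    intro h hh
    have e1 : (x * D.e h).coeff (g + h) = D.eps g h • (x.coeff g * 1) :=
      THS.coeff_mul_mono h 1 x g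
    have e2 : (D.e h * x).coeff (h + g) = D.eps h g • (1 * x.coeff g) :=
      THS.coeff_mono_mul h 1 x g
    rw [add_comm h g, ← hh, e1] at e2
    simp only [mul_one, one_mul, smul_eq_mul] at e2
    exact mul_right_cancel₀ hne e2
  refine ⟨mem_Gsub.1 hgI, fun i => ?_⟩
  by_cases hi : i ∈ I
  · constructor
    · have h3 := key (gs i) (h1 i hi)
      rw [eps_gs_right, eps_gs_left] at h3
      exact ((D.prim i).zpow_eq_one_iff_dvd _).1 h3
    · have h3 := key (gs' i) (h2 i hi)
      rw [eps_gs'_right, eps_gs'_left] at h3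
      exact ((D.prim i).zpow_eq_one_iff_dvd _).1 h3.symm
  · obtain ⟨h3, h4⟩ := jj_kk_eq_zero_of_coord (mem_Gsub.1 hgI i hi)
    rw [h3, h4]
    simp

/-- `K_I` is the centre of `A_I`. -/
theorem central_iff (I : Finset ℕ) (a : D.A I) :
    (∀ x : D.A I, a * x = x * a) ↔ (a : D.U) ∈ D.K I := by
  constructor
  · intro h
    refine D.mem_K_of_commute a.2 (fun i hi => ?_) (fun i hi => ?_)
    · exact congrArg Subtype.val (h ⟨_, D.s_mem_A hi⟩)
    · exact congrArg Subtype.val (h ⟨_, D.s'_mem_A hi⟩)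
  · intro h x
    exact Subtype.ext (D.K_central h x.1)

/-- In the form of `DoubleCent`: an element commuting with everything is a scalar. -/
theorem exists_scalar_of_central (I : Finset ℕ) (a : D.A I) (h : ∀ x : D.A I, a * x = x * a) :
    ∃ c : D.K I, a = algebraMap (D.K I) (D.A I) c :=
  ⟨⟨a.1, (D.central_iff I a).1 h⟩, rfl⟩

/-! ### Stages, residue maps, limits -/

/-- The levels `≤ n`. -/
abbrev Rg (n : ℕ) : Finset ℕ := Finset.range (n + 1)

theorem mem_Gsub_Rg {n : ℕ} {g : G} : g ∈ Gsub (Rg n) ↔ ∀ i, n < i → coord g i = 0 := by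
  constructor
  · intro h i hi
    exact mem_Gsub.1 h i (by simpa using hi)
  · intro h
    refine mem_Gsub.2 fun i hi => h i ?_
    simpa [Nat.lt_succ_iff] using hi

theorem hi_eq_zero_iff {n : ℕ} {g : G} : hi n g = 0 ↔ g ∈ Gsub (Rg n) := by
  rw [mem_Gsub_Rg]
  constructor
  · intro h i hi'
    have := congrArg (fun z => coord z i) h
    simpa [hi'] using this
  · intro h
    apply G_ext
    intro i
    by_cases hi' : n < i
    · simp [hi', h i hi']
    · simp [hi']

theorem hi_hi {n m : ℕ} (h : n ≤ m) (g : G) : hi m (hi n g) = hi m g := by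
  apply G_ext
  intro i
  by_cases hi' : m < i
  · have : n < i := lt_of_le_of_lt h hi'
    simp [hi', this]
  · simp [hi']

theorem ker_hi (n : ℕ) : ((hi n).ker : Set G) = (Gsub (Rg n) : Set G) := by
  ext g
  exact hi_eq_zero_iff

theorem Gsub_Rg_mono {n m : ℕ} (h : n ≤ m) : Gsub (Rg n) ≤ Gsub (Rg m) := by
  intro g hg
  rw [mem_Gsub_Rg] at hg ⊢
  intro i hi'
  exact hg i (lt_of_le_of_lt h hi')

/-- The top level of `g`. -/
noncomputable def lvl (g : G) : ℕ := (ofColex g).support.sup id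

theorem mem_Gsub_lvl (g : G) : g ∈ Gsub (Rg (lvl g)) := by
  rw [mem_Gsub_Rg]
  intro i hi'
  by_contra hne
  have : i ≤ lvl g := Finset.le_sup (f := id) (Finsupp.mem_support_iff.2 hne)
  omega

theorem lvl_le_iff {n : ℕ} {g : G} : lvl g ≤ n ↔ g ∈ Gsub (Rg n) := by
  constructor
  · intro h
    exact Gsub_Rg_mono h (mem_Gsub_lvl g)
  · intro h
    rw [mem_Gsub_Rg] at h
    refine Finset.sup_le fun i hi' => ?_
    by_contra hn
    exact (Finsupp.mem_support_iff.1 hi') (h i (not_le.1 hn))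

/-- The valuation ring of level `> n`: series whose top part is `≥ 0`. -/
noncomputable def O (n : ℕ) : Subring D.U := THS.resRing (hi n) ⊤

theorem mem_O {n : ℕ} {x : D.U} : x ∈ D.O n ↔ ∀ g ∈ x.supp, 0 ≤ hi n g :=
  ⟨fun h => h.2, fun h => ⟨fun _ _ => trivial, h⟩⟩

theorem A_le_O (n : ℕ) {x : D.U} (hx : x ∈ D.A (Rg n)) : x ∈ D.O n := by
  rw [mem_O]
  intro g hg
  rw [hi_eq_zero_iff.2 (hx hg)]

/-- The residue map `O n → A n`. -/
noncomputable def resn (n : ℕ) : D.O n →+* D.A (Rg n) :=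
  (Subfield.inclusion (THS.subS_mono (R := k) (ε := D.eps) (H := ⊤ ⊓ (hi n).ker) (H' := Gsub (Rg n))
    (fun g hg => hi_eq_zero_iff.1 (AddSubgroup.mem_inf.1 hg).2))).comp
    (THS.res (R := k) (ε := D.eps) (hi n) ⊤)

theorem coe_resn (n : ℕ) (x : D.O n) :
    ((D.resn n x : D.A (Rg n)) : D.U) = THS.restrict (Gsub (Rg n) : Set G) x.1 := by
  have : ((D.resn n x : D.A (Rg n)) : D.U) = THS.restrict ((hi n).ker : Set G) x.1 := rfl
  rw [this, ker_hi]

theorem coeff_resn_of_mem (n : ℕ) (x : D.O n) {g : G} (hg : g ∈ Gsub (Rg n)) :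
    ((D.resn n x : D.A (Rg n)) : D.U).coeff g = x.1.coeff g := by
  rw [coe_resn]
  exact THS.coeff_restrict_of_mem _ hg

theorem resn_coe_of_mem (n : ℕ) {x : D.U} (hx : x ∈ D.A (Rg n)) :
    ((D.resn n ⟨x, D.A_le_O n hx⟩ : D.A (Rg n)) : D.U) = x := by
  rw [coe_resn]
  exact THS.restrict_eq_self hx

/-- Descent of the valuation ring: for `n ≤ m`, if `x ∈ O m` and its residue lies in `O n`, then
`x ∈ O n`. -/
theorem mem_O_of_res {n m : ℕ} (h : n ≤ m) {x : D.U} (hx : x ∈ D.O m)
    (hres : THS.restrict (Gsub (Rg m) : Set G) x ∈ D.O n) : x ∈ D.O n := by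
  rw [mem_O] at hx hres ⊢
  intro g hg
  by_contra hneg
  have hneg' : hi n g ≤ 0 := le_of_not_ge hneg
  have h1 : hi m g ≤ 0 := by
    rw [← hi_hi h g]
    simpa using hi_mono m hneg'
  have h2 : hi m g = 0 := le_antisymm h1 (hx g hg)
  have h3 : g ∈ Gsub (Rg m) := hi_eq_zero_iff.1 h2
  have h4 : g ∈ (THS.restrict (Gsub (Rg m) : Set G) x).supp := by
    rw [THS.mem_supp, THS.coeff_restrict_of_mem _ h3]
    exact hg
  exact hneg (hres g h4)

/-- **Hahn limit of a chain.** A chain `X n ∈ A n` with `X (n+1) ∈ O n` of residue `X n`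
has a limit. -/
theorem exists_limit (X : ℕ → D.U) (hA : ∀ n, X n ∈ D.A (Rg n)) (hO : ∀ n, X (n + 1) ∈ D.O n)
    (hres : ∀ n, THS.restrict (Gsub (Rg n) : Set G) (X (n + 1)) = X n) :
    ∃ L : D.U, ∀ n, L ∈ D.O n ∧ THS.restrict (Gsub (Rg n) : Set G) L = X n := by
  classical
  -- stability of coefficients
  have hstab : ∀ {n m : ℕ}, n ≤ m → ∀ {g : G}, g ∈ Gsub (Rg n) → (X m).coeff g = (X n).coeff g := by
    intro n m hnm g hg
    induction m, hnm using Nat.le_induction with
    | base => rfl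
    | succ m hm ih =>
      rw [← ih, ← hres m]
      symm
      exact THS.coeff_restrict_of_mem _ (Gsub_Rg_mono hm hg)
  -- higher elements of the chain lie in the lower valuation rings
  have hXO : ∀ {n m : ℕ}, n ≤ m → X m ∈ D.O n := by
    intro n m hnm
    induction m, hnm using Nat.le_induction with
    | base => exact D.A_le_O n (hA n)
    | succ m hm ih =>
      refine D.mem_O_of_res hm (hO m) ?_
      rw [hres m]
      exact ih
  -- the support
  let S : Set G := {g | (X (lvl g)).coeff g ≠ 0}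
  have hSO : ∀ n, ∀ g ∈ S, 0 ≤ hi n g := by
    intro n g hg
    by_cases hl : lvl g ≤ n
    · rw [hi_eq_zero_iff.2 (lvl_le_iff.1 hl)]
    · exact (D.mem_O.1 (hXO (not_le.1 hl).le)) g hg
  have hSW : S.IsWF := by
    rw [Set.isWF_iff_no_descending_seq]
    intro f hf hfS
    set n := lvl (f 0) with hn
    have hfle : ∀ t, f t ≤ f 0 := fun t => hf.antitone (Nat.zero_le t)
    have h0 : hi n (f 0) = 0 := hi_eq_zero_iff.2 (mem_Gsub_lvl _)
    have hz : ∀ t, hi n (f t) = 0 := fun t =>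
      le_antisymm (h0 ▸ hi_mono n (hfle t)) (hSO n _ (hfS t))
    have hm : ∀ t, f t ∈ (X n).supp := by
      intro t
      have h1 : f t ∈ Gsub (Rg n) := hi_eq_zero_iff.1 (hz t)
      have h2 : lvl (f t) ≤ n := lvl_le_iff.2 h1
      rw [THS.mem_supp, hstab h2 (mem_Gsub_lvl (f t))]
      exact hfS t
    exact ((X n).isPWO_supp.isWF.mono (by rintro _ ⟨t, rfl⟩; exact hm t) :
        (Set.range f).IsWF) |> fun hw => by
      rw [Set.isWF_iff_no_descending_seq] at hw
      exact hw f hf (fun t => ⟨t, rfl⟩)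
  let L : D.U := THS.ofH { coeff := fun g => (X (lvl g)).coeff g, isPWO_support' := hSW.isPWO }
  have hL : ∀ g, L.coeff g = (X (lvl g)).coeff g := fun g => rfl
  refine ⟨L, fun n => ⟨D.mem_O.2 fun g hg => hSO n g hg, ?_⟩⟩
  ext g
  rw [THS.coeff_restrict]
  by_cases hg : g ∈ (Gsub (Rg n) : Set G)
  · rw [if_pos hg, hL]
    exact (hstab (lvl_le_iff.2 hg) (mem_Gsub_lvl g)).symm
  · rw [if_neg hg]
    by_contra hne
    exact hg (hA n (THS.mem_supp.2 (Ne.symm hne)))

/-- The quantum relation in `A n`, in the form required by `Limit.kurosh_final`. -/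
theorem hLevels_of_chain (hp : ∀ M : ℕ, ∃ n, M ≤ D.p n) {x y : D.U}
    (hx : ∀ n, x ∈ D.O n) (hy : ∀ n, y ∈ D.O n)
    (hC : ∀ n, ∀ a : D.A (Rg n), a * D.resn n ⟨x, hx n⟩ = D.resn n ⟨x, hx n⟩ * a →
      a * D.resn n ⟨y, hy n⟩ = D.resn n ⟨y, hy n⟩ * a →
      ∃ c : D.K (Rg n), a = algebraMap (D.K (Rg n)) (D.A (Rg n)) c) (M : ℕ) :
    ∃ n, (∀ a : D.A (Rg n), a * D.resn n ⟨x, hx n⟩ = D.resn n ⟨x, hx n⟩ * a →
        a * D.resn n ⟨y, hy n⟩ = D.resn n ⟨y, hy n⟩ * a →
        ∃ c : D.K (Rg n), a = algebraMap (D.K (Rg n)) (D.A (Rg n)) c) ∧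
      ∃ (u v : D.A (Rg n)) (ζ : D.K (Rg n)), v * u = ζ • (u * v) ∧ u ≠ 0 ∧ v ≠ 0 ∧
        Function.Injective fun i : Fin M => ζ ^ i.val := by
  obtain ⟨n, hn⟩ := hp M
  have hmem : n ∈ Rg n := Finset.self_mem_range_succ n
  refine ⟨n, hC n, ⟨_, D.s_mem_A hmem⟩, ⟨_, D.s'_mem_A hmem⟩,
    algebraMap k (D.K (Rg n)) (D.ζ n), ?_, ?_, ?_, ?_⟩
  · apply Subtype.ext
    show D.s' n * D.s n = ((algebraMap k (D.K (Rg n)) (D.ζ n) : D.K (Rg n)) : D.U) * (D.s n * D.s' n)
    rw [D.s'_mul_s, D.algebraMap_kK_coe, ← Algebra.smul_def]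
  · exact fun h => D.s_ne_zero n (congrArg Subtype.val h)
  · exact fun h => D.s'_ne_zero n (congrArg Subtype.val h)
  · intro i i' h
    have h1 : algebraMap k (D.K (Rg n)) (D.ζ n ^ i.val) = algebraMap k (D.K (Rg n)) (D.ζ n ^ i'.val) := by
      simpa using h
    have h2 : D.ζ n ^ i.val = D.ζ n ^ i'.val := (algebraMap k (D.K (Rg n))).injective h1
    exact Fin.ext ((D.prim n).pow_inj (lt_of_lt_of_le i.2 hn) (lt_of_lt_of_le i'.2 hn) h2)

/-! ### The commutative coordinates -/

/-- The monomial of the commutative coordinate `c_{i,ν}`. -/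
noncomputable def gc (i ν : ℕ) : G := lev i (mkLvl 0 (toLex (Finsupp.single (OrderDual.toDual ν) 1)) 0)

/-- The commutative coordinate `c_{i,ν}`. -/
noncomputable def c (i ν : ℕ) : D.U := D.e (gc i ν)

theorem jj_gc (i ν l : ℕ) : jj (gc i ν) l = 0 := by
  by_cases h : l = i
  · subst h
    simp [gc, jj_lev_same, mkLvl]
  · simp [jj, gc, coord_lev_ne (Ne.symm h)]

theorem kk_gc (i ν l : ℕ) : kk (gc i ν) l = 0 := by
  by_cases h : l = i
  · subst h
    simp [gc, kk_lev_same, mkLvl]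
  · simp [kk, gc, coord_lev_ne (Ne.symm h)]

theorem gc_mem_Lam {I : Finset ℕ} {i : ℕ} (hi : i ∈ I) (ν : ℕ) : gc i ν ∈ D.Lam I := by
  refine ⟨fun j hj => coord_lev_ne ?_ _, fun l => ?_⟩
  · rintro rfl
    exact hj hi
  · rw [jj_gc, kk_gc]
    simp

theorem c_mem_K {I : Finset ℕ} {i : ℕ} (hi : i ∈ I) (ν : ℕ) : D.c i ν ∈ D.K I :=
  D.e_mem_K (D.gc_mem_Lam hi ν)

theorem c_ne_zero (i ν : ℕ) : D.c i ν ≠ 0 := D.e_ne_zero _

theorem c_central (i ν : ℕ) (x : D.U) : D.c i ν * x = x * D.c i ν :=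
  D.K_central (D.c_mem_K (Finset.mem_singleton_self i) ν) x

/-! ### Compatibility of the trace -/

theorem mem_Lam_iff_of_le {I J : Finset ℕ} (h : I ⊆ J) {g : G} (hg : g ∈ Gsub I) :
    g ∈ D.Lam J ↔ g ∈ D.Lam I := by
  refine ⟨fun hJ => ⟨mem_Gsub.1 hg, hJ.2⟩, fun hI => ⟨fun i hi => hI.1 i fun h' => hi (h h'), hI.2⟩⟩

theorem τ_compat {I J : Finset ℕ} (h : I ⊆ J) (x : D.A I) (hx : (x : D.U) ∈ D.A J) :
    ((D.τ J ⟨x, hx⟩ : D.K J) : D.U) = D.τ I x := by
  classical
  rw [τ_coe, τ_coe]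
  ext g
  rw [THS.coeff_restrict, THS.coeff_restrict]
  by_cases hg : (x : D.U).coeff g = 0
  · simp [hg]
  · have hgI : g ∈ Gsub I := x.2 (THS.mem_supp.2 hg)
    simp only [SetLike.mem_coe, D.mem_Lam_iff_of_le h hgI]

theorem coe_τ_of_mem_K {I : Finset ℕ} (x : D.A I) (hx : (x : D.U) ∈ D.K I) :
    ((D.τ I x : D.K I) : D.U) = x := by
  rw [τ_coe]
  exact THS.restrict_eq_self hx

/-- `τ` is the identity on `K`. -/
theorem τ_algebraMap (I : Finset ℕ) (c : D.K I) : D.τ I (algebraMap (D.K I) (D.A I) c) = c := by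
  apply Subtype.ext
  exact D.coe_τ_of_mem_K _ c.2

end LevelData

/-! ### The concrete data -/

namespace Data

/-- The next prime of the sequence given the product so far. -/
noncomputable def stepP (f : ℕ → ℕ) (N : ℕ) : ℕ :=
  Classical.choose (Nat.exists_infinite_primes (max (f N) (N + 1)))

theorem stepP_spec (f : ℕ → ℕ) (N : ℕ) :
    max (f N) (N + 1) ≤ stepP f N ∧ (stepP f N).Prime :=
  Classical.choose_spec (Nat.exists_infinite_primes (max (f N) (N + 1)))

/-- The products `N_n`. -/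
noncomputable def seqN (f : ℕ → ℕ) : ℕ → ℕ
  | 0 => 1
  | n + 1 => seqN f n * stepP f (seqN f n)

/-- The primes `p_n` (`p_0 = 1`). -/
noncomputable def seqP (f : ℕ → ℕ) : ℕ → ℕ
  | 0 => 1
  | n + 1 => stepP f (seqN f n)

theorem seqP_pos (f : ℕ → ℕ) (n : ℕ) : 0 < seqP f n := by
  cases n with
  | zero => exact Nat.one_pos
  | succ n => exact (stepP_spec f _).2.pos

theorem seqN_eq (f : ℕ → ℕ) (n : ℕ) : seqN f n = ∏ i ∈ Finset.range (n + 1), seqP f i := by
  induction n with
  | zero => simp [seqN, seqP]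
  | succ n ih =>
    rw [Finset.prod_range_succ, ← ih]
    rfl

end Data

open Data in
/-- The level data: `p_0 = 1`, and `p_{n+1}` a prime `≥ f (N_n)` and `> N_n`. -/
noncomputable def dataOf (f : ℕ → ℕ) : LevelData ℂ where
  p := seqP f
  p_pos := seqP_pos f
  ζ i := Complex.exp (2 * Real.pi * Complex.I / (seqP f i))
  prim i := Complex.isPrimitiveRoot_exp _ (seqP_pos f i).ne'

namespace Data

variable (f : ℕ → ℕ)

theorem dataOf_p_zero : (dataOf f).p 0 = 1 := rfl

theorem dataOf_prime (n : ℕ) : ((dataOf f).p (n + 1)).Prime := (stepP_spec f _).2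

theorem deg_eq (n : ℕ) : (dataOf f).deg (LevelData.Rg n) = seqN f n :=
  (seqN_eq f n).symm

theorem dataOf_ge (n : ℕ) : f ((dataOf f).deg (LevelData.Rg n)) ≤ (dataOf f).p (n + 1) := by
  rw [deg_eq]
  exact le_trans (le_max_left _ _) (stepP_spec f _).1

theorem dataOf_gt (n : ℕ) : (dataOf f).deg (LevelData.Rg n) < (dataOf f).p (n + 1) := by
  rw [deg_eq]
  exact lt_of_lt_of_le (Nat.lt_succ_self _) (le_trans (le_max_right _ _) (stepP_spec f _).1)

theorem le_seqN (n : ℕ) : seqP f n ≤ seqN f n := by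
  rw [seqN_eq]
  exact Nat.le_of_dvd (Finset.prod_pos fun i _ => seqP_pos f i)
    (Finset.dvd_prod_of_mem _ (Finset.self_mem_range_succ n))

theorem le_p (n : ℕ) : n ≤ (dataOf f).p n := by
  induction n with
  | zero => exact Nat.zero_le _
  | succ n ih =>
    have h1 := dataOf_gt f n
    rw [deg_eq] at h1
    have h2 : (dataOf f).p n ≤ seqN f n := le_seqN f n
    omega

theorem p_unbounded (M : ℕ) : ∃ n, M ≤ (dataOf f).p n := ⟨M, le_p f M⟩

end Data

end Crest.Agent.Kurosh.Levels
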