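/-
S0270 (Kurosh), blueprint v3 §A: the interface of one level-up and of the tower.

`Lv K A K' R τ`: `R` is the level-up of `(K,A,τ)` with central field `K'`: a ring isomorphism
`φ : R ≃ THS A (twist κ ζ)` over the monomial group `ℤ ×ₗ CE`, `CE = (c-exponents) ×ₗ ℤ`.
All local lemmas (Key, Lifting, §J, Explore) are stated over an abstract `Lv`, so that nothing
depends on how the tower is realised. `Tw0`, `Tw`: the tower (realised in `Levels.lean`).
-/
import Crest.Agent.Kurosh.HenselTHS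
import Crest.Agent.Kurosh.KeyHahn
import Crest.Agent.Kurosh.Levels
import Crest.Agent.Kurosh.Inv

set_option autoImplicit false

namespace Crest.Agent.Kurosh.LU

open Hensel State Module
open _root_.Crest.Agent.Kurosh.Inv

/-- The exponents of a monomial in the `c_ν` and `s`: `(α, K)`; `s` is the least significant
coordinate, and `c_ν` is more significant for larger `ν`. -/
abbrev CE := Levels.MLvl

/-- The exponent of `s`. -/
abbrev κ : CE →+ ℤ := Levels.kappa

/-- The exponent of `c_ν`. -/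
noncomputable def cExp (ν : ℕ) : CE := toLex (toColex (Finsupp.single ν 1), 0)

/-- The exponent of `s`. -/
def sExp : CE := toLex (0, 1)

@[simp] lemma κ_cExp (ν : ℕ) : κ (cExp ν) = 0 := rfl
@[simp] lemma κ_sExp : κ sExp = 1 := rfl

/-- The exponents of monomials: `(j, α, K)`, the `s'`-order `j` first. -/
abbrev GLv := G2 CE

/-- `μ₁ = η s`, `η = c_0`. -/
noncomputable def mu1 : CE := cExp 0 + sExp

lemma κ_mu1 : κ mu1 = 1 := by
  rw [mu1, map_add, κ_cExp, κ_sExp, zero_add]

/-- Central monomials: the lattice `j, K ∈ mℤ`. -/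
def centLat (m : ℕ) : AddSubgroup GLv where
  carrier := {g | (m : ℤ) ∣ (ofLex g).1 ∧ (m : ℤ) ∣ κ (ofLex g).2}
  add_mem' := by
    rintro a b ⟨h1, h2⟩ ⟨h3, h4⟩
    refine ⟨?_, ?_⟩
    · simpa using dvd_add h1 h3
    · simpa using dvd_add h2 h4
  zero_mem' := ⟨dvd_zero _, by simp⟩
  neg_mem' := by
    rintro a ⟨h1, h2⟩
    refine ⟨?_, ?_⟩
    · simpa using h1
    · simpa using h2

/-- One level-up of `(K,A,τ)` (`K'` the new centre, `R` the new algebra). -/
structure Lv (K A K' R : Type*) [Field K] [DivisionRing A] [Algebra K A] [Field K'] [DivisionRing R]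
    [Algebra K R] [Algebra K' R] [Algebra K K'] [IsScalarTower K K' R] (τ : A →ₗ[K] K) where
  /-- the new prime -/
  m : ℕ
  m_prime : m.Prime
  /-- the twist -/
  ζ : K
  ζ_prim : IsPrimitiveRoot ζ m
  ζ_ne : ζ ≠ 0
  /-- the coordinates: `x = ∑ (φ x)_g e_g` -/
  φ : R ≃+* THS A (twist κ ζ ζ_ne)
  φ_alg : ∀ c : K, φ (algebraMap K R c) = THS.mono 0 (algebraMap K A c)
  /-- the abstract level-up ring of `HenselPass` on the same ring -/
  lev : Lev CE K A R
  lev_κ : lev.κ = κ
  lev_μ₁ : lev.μ₁ = mu1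
  lev_ζ : lev.ζ = ζ
  lev_mono : ∀ (x : A) (n : CE) (j : ℕ), φ (lev.mono x n j) = THS.mono (idx n (j : ℤ)) x
  lev_coeff : ∀ (n : CE) (j : ℕ) (x : R), lev.coeff n j x = (φ x).coeff (idx n (j : ℤ))
  lev_fil : ∀ (j : ℕ) (x : R), x ∈ lev.Φ.fil j ↔ ∀ g ∈ (φ x).supp, (j : ℤ) ≤ (ofLex g).1
  /-- `K'` = series on the central lattice with coefficients in `K` -/
  mem_K' : ∀ x : R, x ∈ (algebraMap K' R).range ↔
    ∀ g, ((φ x).coeff g ≠ 0 → g ∈ centLat m ∧ (φ x).coeff g ∈ (algebraMap K A).range)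
  /-- the new trace: the part on the central lattice -/
  τ' : R →ₗ[K'] K'
  τ'_coeff : ∀ (x : R) (g : GLv), (φ (algebraMap K' R (τ' x))).coeff g =
    open Classical in if g ∈ centLat m then algebraMap K A (τ ((φ x).coeff g)) else 0

namespace Lv

variable {K A K' R : Type*} [Field K] [DivisionRing A] [Algebra K A] [Field K'] [DivisionRing R]
  [Algebra K R] [Algebra K' R] [Algebra K K'] [IsScalarTower K K' R] {τ : A →ₗ[K] K}
  (L : Lv K A K' R τ)

/-- The coefficient of `x` at the monomial `g`. -/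
noncomputable def c (g : GLv) (x : R) : A := (L.φ x).coeff g

/-- The vector `t' : Fin 2 → R` has leading term `τ₀ e_g`: all coefficients below `g` vanish and the
coefficient at `g` is `τ₀`. -/
def HasLead (t' : Fin 2 → R) (g : GLv) (τ₀ : Fin 2 → A) : Prop :=
  ∀ v, (∀ h, h < g → L.c h (t' v) = 0) ∧ L.c g (t' v) = τ₀ v

end Lv

/-- The ambient division ring with its subfields and subrings. -/
class Tw0 where
  U : Type
  [div : DivisionRing U]
  [cz : CharZero U]
  Kn : ℕ → Subfield U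
  An : ℕ → Subfield U
  Kn_le_An : ∀ n x, x ∈ Kn n → x ∈ An n
  Kn_le_succ : ∀ n, Kn n ≤ Kn (n + 1)
  An_le_succ : ∀ n, An n ≤ An (n + 1)
  central : ∀ n x, x ∈ Kn n → ∀ y : U, x * y = y * x

attribute [instance] Tw0.div Tw0.cz

namespace Tw0

variable [Tw0]

noncomputable instance fieldKn (n : ℕ) : Field (Kn n) :=
  { (inferInstance : DivisionRing (Kn n)) with
    mul_comm := fun a b => Subtype.ext (central n _ a.2 _) }

/-- `K n → A n` -/
noncomputable def KtoA (n : ℕ) : Kn n →+* An n where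
  toFun x := ⟨x, Kn_le_An n _ x.2⟩
  map_one' := rfl
  map_mul' _ _ := rfl
  map_zero' := rfl
  map_add' _ _ := rfl

noncomputable instance algKA (n : ℕ) : Algebra (Kn n) (An n) :=
  (KtoA n).toAlgebra' fun c x => Subtype.ext (central n _ c.2 _)

/-- `K n → A (n+1)` -/
noncomputable instance algKA1 (n : ℕ) : Algebra (Kn n) (An (n + 1)) :=
  ((KtoA (n + 1)).comp (Subfield.inclusion (Kn_le_succ n))).toAlgebra' fun c x =>
    Subtype.ext (central n _ c.2 _)

noncomputable instance algKK1 (n : ℕ) : Algebra (Kn n) (Kn (n + 1)) :=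
  (Subfield.inclusion (Kn_le_succ n)).toAlgebra

instance towKK1 (n : ℕ) : IsScalarTower (Kn n) (Kn (n + 1)) (An (n + 1)) :=
  IsScalarTower.of_algebraMap_eq fun _ => rfl

/-- A central subfield of `U`. -/
class CentF (F : Subfield U) : Prop where
  central : ∀ x ∈ F, ∀ y : U, x * y = y * x

noncomputable instance fieldF (F : Subfield U) [h : CentF F] : Field F :=
  { (inferInstance : DivisionRing F) with
    mul_comm := fun a b => Subtype.ext (h.central _ a.2 _) }

noncomputable instance algFU (F : Subfield U) [h : CentF F] : Algebra F U :=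
  (Subfield.subtype F).toAlgebra' fun c x => h.central _ c.2 _

/-- The coefficient subfield `F` lives in `K n`. -/
instance factSucc (F : Subfield U) (n : ℕ) [h : Fact (F ≤ Kn n)] : Fact (F ≤ Kn (n + 1)) :=
  ⟨h.out.trans (Kn_le_succ n)⟩

variable (F : Subfield U) [CentF F]

noncomputable instance algFK (n : ℕ) [h : Fact (F ≤ Kn n)] : Algebra F (Kn n) :=
  (Subfield.inclusion h.out).toAlgebra

noncomputable instance algFA (n : ℕ) [h : Fact (F ≤ Kn n)] : Algebra F (An n) :=
  ((KtoA n).comp (Subfield.inclusion h.out)).toAlgebra' fun c x =>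
    Subtype.ext (central n _ (h.out c.2) _)

instance towFKA (n : ℕ) [Fact (F ≤ Kn n)] : IsScalarTower F (Kn n) (An n) :=
  IsScalarTower.of_algebraMap_eq fun _ => rfl

noncomputable instance algFA1 (n : ℕ) [Fact (F ≤ Kn n)] : Algebra F (An (n + 1)) :=
  algFA F (n + 1)

instance towFKA1 (n : ℕ) [Fact (F ≤ Kn n)] : IsScalarTower F (Kn n) (An (n + 1)) :=
  IsScalarTower.of_algebraMap_eq fun _ => rfl

end Tw0

open Tw0

/-- The tower: trace forms and level-ups. -/
class Tw [Tw0] where
  N : ℕ → ℕ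
  N_pos : ∀ n, 0 < N n
  fin : ∀ n, FiniteDimensional (Kn n) (An n)
  finrank_eq : ∀ n, finrank (Kn n) (An n) = N n ^ 2
  τ : ∀ n, An n →ₗ[Kn n] Kn n
  hτ : ∀ n, Valued.IsTraceForm (τ n)
  lv : ∀ n, Lv (Kn n) (An n) (Kn (n + 1)) (An (n + 1)) (τ n)
  N_succ : ∀ n, N (n + 1) = N n * (lv n).m
  m_big : ∀ n, 100 * N n ^ 2 + 100 ≤ (lv n).m
  /-- the trace of the level-up is the trace of the next stage -/
  τ_succ : ∀ n, (lv n).τ' = τ (n + 1)
  /-- the start -/
  N_zero : N 0 = 1
  ρ₀ : Fin 2 → An 0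
  /-- the Euler derivations of the start -/
  start_T : ∀ (t : Fin 2 → An 0), ∃ D : An 0 → An 0, (∀ x y, D (x + y) = D x + D y) ∧
    (∀ x y, D (x * y) = D x * y + x * D y) ∧ (∀ c : ℚ, D (algebraMap ℚ _ c) = 0) ∧
    (∀ c : Kn 0, ∃ c' : Kn 0, D (algebraMap (Kn 0) (An 0) c) = algebraMap (Kn 0) (An 0) c') ∧
    t = fun v => D (ρ₀ v)

attribute [instance] Tw.fin

open Tw

variable [Tw0] [Tw] (F : Subfield U) [CentF F]

/-- A state at stage `n`. -/
abbrev Stt (n : ℕ) := Fin 2 → An n

/-- The point of `State.Pt` of a state `ρ` at stage `n`, for the list `a`. -/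
noncomputable def pt (n : ℕ) [Fact (F ≤ Kn n)] (ρ : Stt n) (a : ℕ → FreeAlgebra F (Fin 2)) :
    Pt F (Kn n) (An n) (Fin 2) where
  ρ := ρ
  a := a
  τ := τ n
  τ_comm := (hτ n).comm
  τ_nondeg := fun x hx => by
    by_contra h0
    obtain ⟨y, hy⟩ := (hτ n).nondeg x h0
    exact hy (hx y)
  split := fun i => Classical.choice (by
    apply exists_split
    have h := Valued.isCompl_cent_range_ad (hτ n) (ev ρ (a i))
    have h1 : cent (K := Kn n) (ev ρ (a i)) = Valued.cent (Kn n) (ev ρ (a i)) := by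
      ext x
      simp only [mem_cent]
      exact ⟨fun h => h.symm, fun h => h.symm⟩
    have h2 : imAd (K := Kn n) (ev ρ (a i)) = LinearMap.range (Valued.ad (Kn n) (ev ρ (a i))) := by
      ext x
      simp only [mem_imAd, LinearMap.mem_range, Valued.ad_apply]
    rw [h1, h2]
    exact h)

/-- One level-up step between states. -/
inductive UpStep : (Σ n, Stt n) → (Σ n, Stt n) → Prop
  | mk (n : ℕ) (ρ : Stt n) (X : Stt (n + 1))
      (h : ∀ v, X v - (lv n).lev.inc (ρ v) ∈ (lv n).lev.Φ.fil 1) : UpStep ⟨n, ρ⟩ ⟨n + 1, X⟩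

/-- `Z` is above `Z0`. -/
def Above : (Σ n, Stt n) → (Σ n, Stt n) → Prop := Relation.ReflTransGen UpStep

/-- The list data (for a coefficient field `F`). -/
structure Lst where
  /-- the words; only the first entries matter -/
  a : ℕ → FreeAlgebra F (Fin 2)
  /-- the frozen polynomials -/
  Q : ℕ → Polynomial F
  /-- the numbers -/
  R : ℕ → Rec
  /-- the base state of the class of the entry -/
  Z0 : ℕ → Σ n, Stt n

end Crest.Agent.Kurosh.LU
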