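/-
S0270 (Kurosh), blueprint v3: the definitions of the top level statements (no sorry).
The theorems to prove are listed in `Plan.lean`.
-/
import Crest.Agent.Kurosh.LevelUp

set_option autoImplicit false

namespace Crest.Agent.Kurosh.Plan

open Hensel State Module LU LU.Tw0 LU.Tw
open _root_.Crest.Agent.Kurosh.Inv
open _root_.Crest.Agent.Kurosh.Inv.St

variable [Tw0] [Tw] (F : Subfield U) [CentF F]

/-- The class bound of the entry `u` of the list: every class state satisfies `CB`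
(the three optimality inequalities, blueprint K.1).  -/
def Opt (Ls : Lst F) (u : ℕ) : Prop :=
  ∀ (n : ℕ) [Fact (F ≤ Kn n)] (Z : Stt n) (S : ℕ → Set (An n)),
    Above (Ls.Z0 u) ⟨n, Z⟩ →
    Valid (pt F n Z Ls.a) (N n) Ls.R Ls.Q u u S ((pt F n Z Ls.a).T u) →
    Smooth (pt F n Z Ls.a) u →
    CB (pt F n Z Ls.a) (N n) Ls.R u

/-- The context of a state: valid, above the base states of all entries, class bounds. -/
structure Ctx (Ls : Lst F) (n : ℕ) [Fact (F ≤ Kn n)] (ρ : Stt n) (l r : ℕ) (S : ℕ → Set (An n))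
    (TT : Submodule (Kn n) (Fin 2 → An n)) : Prop where
  valid : Valid (pt F n ρ Ls.a) (N n) Ls.R Ls.Q l r S TT
  above : ∀ u < r, Above (Ls.Z0 u) ⟨n, ρ⟩
  opt : ∀ u < r, Opt F Ls u

/-- `ORACLE` for the prefix `l`: the obstructions of a partial solution vanish on `𝕀(l)` and, at
central monomials, on `𝕂(l)`. -/
def Orc (l : ℕ) : Prop :=
  ∀ (Ls : Lst F) (n : ℕ) [Fact (F ≤ Kn n)] (ρ : Stt n) (r : ℕ) (S : ℕ → Set (An n))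
    (TT : Submodule (Kn n) (Fin 2 → An n)),
    Ctx F Ls n ρ l r S TT → ∀ t1 t2, Adm (pt F n ρ Ls.a) l TT t1 t2 →
    ∀ J, 2 ≤ J → ∀ (X : Fin 2 → An (n + 1)) (g : ℕ → An (n + 1)),
      (lv n).lev.PSol (pt F n ρ Ls.a) l (J + 1) t1 t2 X g →
      (∀ m : CE, ∀ c ∈ IIT (pt F n ρ Ls.a) l TT,
        (lv n).lev.Obs (pt F n ρ Ls.a) l m (J + 1) X g c = 0) ∧
      (∀ m : CE, (lv n).lev.ζ ^ (lv n).lev.κ m = 1 → (lv n).lev.ζ ^ ((J : ℤ) + 1) = 1 →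
        ∀ c ∈ (pt F n ρ Ls.a).KK l, (lv n).lev.Obs (pt F n ρ Ls.a) l m (J + 1) X g c = 0)

/-- Fresh moves: `TTX ≤ T(r')(X)` consists of derivations of `X`, and every `τ₀ ∈ 𝕋₀` allowed at
the residue `(K,j)` is the leading term of an element of `TTX` at a monomial of that residue. -/
structure Fresh (Ls : Lst F) (n : ℕ) [Fact (F ≤ Kn n)] (ρ : Stt n) (r' : ℕ) (t1 t2 : Fin 2 → An n)
    (TT0 : Submodule (Kn n) (Fin 2 → An n)) (X : Stt (n + 1))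
    (TTX : Submodule (Kn (n + 1)) (Fin 2 → An (n + 1))) : Prop where
  le : TTX ≤ (pt F (n + 1) X Ls.a).T r'
  int : ∀ t ∈ TTX, Tint (pt F (n + 1) X Ls.a) t
  lead : ∀ (K j : ℤ) (τ₀ : Fin 2 → An n), τ₀ ∈ TT0 →
    τ₀ ∈ allowed (pt F n ρ Ls.a) r' t1 t2 (((lv n).m : ℤ) ∣ K)
      (((lv n).m : ℤ) ∣ K + 1 ∧ ¬ ((lv n).m : ℤ) ∣ j + 1) →
    ∃ t' ∈ TTX, ∃ (n0 : CE) (j0 : ℕ) (τ' : Fin 2 → An n),
      ((lv n).m : ℤ) ∣ κ n0 - K ∧ ((lv n).m : ℤ) ∣ (j0 : ℤ) - j ∧ 2 ≤ j0 ∧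
      τ' ∈ (pt F n ρ Ls.a).T r' ∧
      ((∀ c ∈ (pt F n ρ Ls.a).KK r', (pt F n ρ Ls.a).PP r' c t2 τ₀ = 0) → τ' = 0) ∧
      ∀ v, t' v - (lv n).lev.mono (τ₀ v) n0 j0 - (lv n).lev.mono (τ' v) (n0 + mu1) j0 ∈
        (lv n).lev.Φ.fil (j0 + 1)

/-- Validity of fresh level-ups: `l ≤ r'` indices verified at `X` (blueprint §J). -/
def Val (l r' : ℕ) : Prop :=
  ∀ (Ls : Lst F) (n : ℕ) [Fact (F ≤ Kn n)] (ρ : Stt n) (r : ℕ) (S : ℕ → Set (An n))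
    (TT TT0 : Submodule (Kn n) (Fin 2 → An n)),
    Ctx F Ls n ρ r' r S TT → ∀ t1 t2, Adm (pt F n ρ Ls.a) r' TT t1 t2 →
    TT ≤ TT0 → TT0 ≤ (pt F n ρ Ls.a).T r' →
    ∀ (X : Stt (n + 1)) (g : ℕ → An (n + 1)) (TTX : Submodule (Kn (n + 1)) (Fin 2 → An (n + 1))),
      (∀ J, (lv n).lev.PSol (pt F n ρ Ls.a) r' J t1 t2 X g) →
      Fresh F Ls n ρ r' t1 t2 TT0 X TTX →
      ∃ S' : ℕ → Set (An (n + 1)),
        Valid (pt F (n + 1) X Ls.a) (N (n + 1)) Ls.R Ls.Q l r' S' TTX ∧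
        (∀ u < l, (lv n).m ^ 2 * finrank (Kn n) (PPl (pt F n ρ Ls.a) S u) ≤
          finrank (Kn (n + 1)) (PPl (pt F (n + 1) X Ls.a) S' u)) ∧
        (∀ u < l, ∀ c ∈ (pt F (n + 1) X Ls.a).KK (u + 1), c u ∉ PPl (pt F (n + 1) X Ls.a) S' u →
          (lv n).m ^ 2 * qS Ls.R r' ≤ rkOn (pt F (n + 1) X Ls.a) r' c TTX) ∧
        (∀ u < l, finrank (Kn (n + 1)) (RR (pt F (n + 1) X Ls.a) S' u) =
          finrank (Kn (n + 1)) ((pt F (n + 1) X Ls.a).Mov u) + (Ls.R u).q) ∧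
        (l = r' → TT0 = (pt F n ρ Ls.a).T r' →
          Smooth (pt F (n + 1) X Ls.a) r' ∧ TTX = (pt F (n + 1) X Ls.a).T r')

/-- The frame of the entry `l` over an exact solution for the prefix `l`: first error at order `j`.
-/
structure Frame (Ls : Lst F) (n : ℕ) [Fact (F ≤ Kn n)] (ρ : Stt n) (l : ℕ) (t1 t2 : Fin 2 → An n)
    (j : ℕ) (X : Stt (n + 1)) (gl : An (n + 1)) : Prop where
  fs : gl ∈ (lv n).lev.FS
  lead : gl - (1 + (lv n).lev.mono ((pt F n ρ Ls.a).w l t1) 0 1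
    + (lv n).lev.mono ((pt F n ρ Ls.a).w l t2) (lv n).lev.μ₁ 1) ∈ (lv n).lev.Φ.fil 2
  err : ev X (Ls.a l) * gl - gl * (lv n).lev.inc ((pt F n ρ Ls.a).β l) ∈ (lv n).lev.Φ.fil j

/-- The class bounds at a valid state, by a test level-up (first half of §I): every nonzero `y ∈ Mov_l`
has `n_l [F_y:K] ≤ N` and, in case of equality, `σ_l [𝔏_y:K] ≤ N`. -/
def UBS (l : ℕ) : Prop :=
  ∀ (Ls : Lst F) (n : ℕ) [Fact (F ≤ Kn n)] (ρ : Stt n) (r : ℕ) (S : ℕ → Set (An n))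
    (TT : Submodule (Kn n) (Fin 2 → An n)),
    l < r → Ctx F Ls n ρ l r S TT → ∀ t1 t2, Adm (pt F n ρ Ls.a) l TT t1 t2 →
    ∀ y ∈ (pt F n ρ Ls.a).Mov l, y ≠ 0 →
      (Ls.R l).n * finrank (Kn n) (Fy (pt F n ρ Ls.a) l y) ≤ N n ∧
      ((Ls.R l).n * finrank (Kn n) (Fy (pt F n ρ Ls.a) l y) = N n →
        (Ls.R l).σ * finrank (Kn n) (Ly (pt F n ρ Ls.a) l y) ≤ N n)

/-- **Key Lemma** (blueprint §I). -/
def KeyS (l : ℕ) : Prop :=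
  ∀ (Ls : Lst F) (n : ℕ) [Fact (F ≤ Kn n)] (ρ : Stt n) (r : ℕ) (S : ℕ → Set (An n))
    (TT : Submodule (Kn n) (Fin 2 → An n)),
    l < r → Ctx F Ls n ρ l r S TT → ∀ t1 t2, Adm (pt F n ρ Ls.a) l TT t1 t2 →
    ∀ y, Good (pt F n ρ Ls.a) (N n) (Ls.R l) l y →
      (∀ p ∈ PPy (pt F n ρ Ls.a) l y, ∀ z ∈ (pt F n ρ Ls.a).Mov l, (τ n) (p * z) = 0) ∧
      ∀ j, 2 ≤ j → ∀ (X : Stt (n + 1)) (g : ℕ → An (n + 1)) (gl : An (n + 1)),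
        (∀ J, (lv n).lev.PSol (pt F n ρ Ls.a) l J t1 t2 X g) →
        Frame F Ls n ρ l t1 t2 j X gl →
        ∀ (n0 : CE), ∀ p ∈ PPy (pt F n ρ Ls.a) l y,
          (τ n) (p * (lv n).lev.coeff n0 j
            (ev X (Ls.a l) * gl - gl * (lv n).lev.inc ((pt F n ρ Ls.a).β l))) = 0

/-- **Lifting Lemma** (blueprint §L). -/
def LiftS (l : ℕ) : Prop :=
  ∀ (Ls : Lst F) (n : ℕ) [Fact (F ≤ Kn n)] (ρ : Stt n) (r : ℕ) (S : ℕ → Set (An n))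
    (TT : Submodule (Kn n) (Fin 2 → An n)),
    Ctx F Ls n ρ (l + 1) r S TT → ∀ t1 t2, Adm (pt F n ρ Ls.a) (l + 1) TT t1 t2 →
    ∀ j, 2 ≤ j → ((lv n).m ∣ j) → ∀ (X : Stt (n + 1)) (g : ℕ → An (n + 1)) (gl : An (n + 1)),
      (∀ J, (lv n).lev.PSol (pt F n ρ Ls.a) l J t1 t2 X g) →
      Frame F Ls n ρ l t1 t2 j X gl →
      ∀ (n0 : CE), ((lv n).m : ℤ) ∣ κ n0 → ∀ c ∈ Annl (pt F n ρ Ls.a) l,
        (τ n) (c * (lv n).lev.coeff n0 j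
          (ev X (Ls.a l) * gl - gl * (lv n).lev.inc ((pt F n ρ Ls.a).β l))) = 0

/-- The tight test (§J(j), Lifting with `Ĝ = 0`): `dim A_y ≤ Λ - q_l` for good `y`. -/
def TightS (l : ℕ) : Prop :=
  ∀ (Ls : Lst F) (n : ℕ) [Fact (F ≤ Kn n)] (ρ : Stt n) (r : ℕ) (S : ℕ → Set (An n))
    (TT : Submodule (Kn n) (Fin 2 → An n)),
    Ctx F Ls n ρ (l + 1) r S TT → ∀ t1 t2, Adm (pt F n ρ Ls.a) (l + 1) TT t1 t2 →
    ∀ y, Good (pt F n ρ Ls.a) (N n) (Ls.R l) l y →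
      finrank (Kn n) (Ay (pt F n ρ Ls.a) l y) + (Ls.R l).q ≤ N n / (Ls.R l).σ

/-- The value of a word at a state, in `U`. -/
noncomputable def evU {F : Subfield U} [CentF F] {n : ℕ} (Z : Stt n) (b : FreeAlgebra F (Fin 2)) : U :=
  ev (fun v => ((Z v : An n) : U)) b

end Crest.Agent.Kurosh.Plan
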