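/-
S0270, blueprint v3 §D–§E (helper94): the layer `𝕀`, `𝕄`, `allowed` over `State.lean` and `Rank.lean`.

For a point `P : Pt F K A ι`:
* `P.II k` (`𝕀(k)`), `P.MM k` (`𝕄 = 𝕂(k)/𝕀(k)`), `P.PForm k 𝕋 h : 𝕄 → 𝕋 → 𝕋 → K` trilinear alternating;
* dimension formula for `T(k)`: `finrank_T_add`;
* `𝕂(l+1)/𝕂(l) ≅ Ann_{C_l}(Mov_l)`: `finrank_KK_succ`, `finrank_Ann_add`;
* admissible pairs (E2, E3) for `PForm`: `exists_pair_of_rank`, `eq_II_of_pair`, `map_T0_eq_Mov`;
* `allowed` and the count `sum_finrank_allowed`.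
-/
import Crest.Agent.Kurosh.State
import Crest.Agent.Kurosh.Rank

set_option autoImplicit false

namespace Crest.Agent.Kurosh.State

open Module

namespace Pt

variable {F K A ι : Type*} [Field F] [Field K] [Ring A] [Algebra F K] [Algebra K A] [Algebra F A]
  [IsScalarTower F K A] (P : Pt F K A ι)

/-! ### `PP` is trilinear -/

lemma PP_add_left (r : ℕ) (c : ℕ → A) (t t₁ t' : ι → A) :
    P.PP r c (t + t₁) t' = P.PP r c t t' + P.PP r c t₁ t' := by
  simp only [PP, Gam_add_left, Gam_add_right]; ring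

lemma PP_add_right (r : ℕ) (c : ℕ → A) (t t' t₁ : ι → A) :
    P.PP r c t (t' + t₁) = P.PP r c t t' + P.PP r c t t₁ := by
  simp only [PP, Gam_add_left, Gam_add_right]; ring

lemma PP_smul_left (r : ℕ) (c : ℕ → A) (s : K) (t t' : ι → A) :
    P.PP r c (s • t) t' = s * P.PP r c t t' := by
  simp only [PP, Gam_smul_left, Gam_smul_right]; ring

lemma PP_smul_right (r : ℕ) (c : ℕ → A) (s : K) (t t' : ι → A) :
    P.PP r c t (s • t') = s * P.PP r c t t' := by
  simp only [PP, Gam_smul_left, Gam_smul_right]; ring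

lemma PP_add_c (r : ℕ) (c c' : ℕ → A) (t t' : ι → A) :
    P.PP r (c + c') t t' = P.PP r c t t' + P.PP r c' t t' := by
  simp only [PP, Gam_add_c]; ring

lemma PP_smul_c (r : ℕ) (s : K) (c : ℕ → A) (t t' : ι → A) :
    P.PP r (s • c) t t' = s * P.PP r c t t' := by
  simp only [PP, Gam_smul_c]; ring

lemma PP_self (r : ℕ) (c : ℕ → A) (t : ι → A) : P.PP r c t t = 0 := sub_self _

lemma PP_antisymm (r : ℕ) (c : ℕ → A) (t t' : ι → A) : P.PP r c t t' = - P.PP r c t' t := by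
  simp [PP]

/-- `P_c` with `r` fixed, trilinear in all three arguments. -/
noncomputable def PPtri (r : ℕ) : (ℕ → A) →ₗ[K] (ι → A) →ₗ[K] (ι → A) →ₗ[K] K where
  toFun c := LinearMap.mk₂ K (fun t t' => P.PP r c t t')
    (P.PP_add_left r c) (fun s t t' => P.PP_smul_left r c s t t')
    (P.PP_add_right r c) (fun s t t' => P.PP_smul_right r c s t t')
  map_add' c c' := by
    ext t t'
    simp [P.PP_add_c]
  map_smul' s c := by
    ext t t'
    simp [P.PP_smul_c]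

@[simp] lemma PPtri_apply (r : ℕ) (c : ℕ → A) (t t' : ι → A) :
    P.PPtri r c t t' = P.PP r c t t' := rfl

/-! ### `𝕀` and `𝕄` -/

/-- `𝕀(k)`: the `c ∈ 𝕂(k)` with `P_c = 0` on `T(k) × T(k)`. -/
noncomputable def II (k : ℕ) : Submodule K (ℕ → A) where
  carrier := {c | c ∈ P.KK k ∧ ∀ t ∈ P.T k, ∀ t' ∈ P.T k, P.PP k c t t' = 0}
  add_mem' := by
    rintro c c' ⟨h1, h2⟩ ⟨h1', h2'⟩
    refine ⟨(P.KK k).add_mem h1 h1', fun t ht t' ht' => ?_⟩
    rw [P.PP_add_c, h2 t ht t' ht', h2' t ht t' ht', add_zero]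
  zero_mem' := by
    refine ⟨(P.KK k).zero_mem, fun t _ t' _ => ?_⟩
    have := P.PP_smul_c k 0 0 t t'
    simpa using this
  smul_mem' := by
    rintro s c ⟨h1, h2⟩
    refine ⟨(P.KK k).smul_mem s h1, fun t ht t' ht' => ?_⟩
    rw [P.PP_smul_c, h2 t ht t' ht', mul_zero]

lemma mem_II {k : ℕ} {c : ℕ → A} :
    c ∈ P.II k ↔ c ∈ P.KK k ∧ ∀ t ∈ P.T k, ∀ t' ∈ P.T k, P.PP k c t t' = 0 := Iff.rfl

lemma II_le_KK (k : ℕ) : P.II k ≤ P.KK k := fun _ h => h.1

/-- `𝕀` as a submodule of `𝕂`. -/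
noncomputable abbrev IIs (k : ℕ) : Submodule K (P.KK k) := (P.II k).comap (P.KK k).subtype

/-- `𝕄(k) = 𝕂(k)/𝕀(k)`. -/
noncomputable abbrev MM (k : ℕ) : Type _ := (P.KK k) ⧸ P.IIs k

/-- the class of `c` in `𝕄(k)`. -/
noncomputable abbrev mkM (k : ℕ) (c : P.KK k) : P.MM k := Submodule.Quotient.mk c

lemma mkM_eq_zero_iff {k : ℕ} {c : P.KK k} : P.mkM k c = 0 ↔ (c : ℕ → A) ∈ P.II k := by
  rw [mkM, Submodule.Quotient.mk_eq_zero]
  rfl

/-- The forms on a subspace `𝕋`, for `c ∈ 𝕂(k)`. -/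
noncomputable def PFormK (k : ℕ) (𝕋 : Submodule K (ι → A)) : P.KK k →ₗ[K] 𝕋 →ₗ[K] 𝕋 →ₗ[K] K where
  toFun c := LinearMap.mk₂ K (fun (t t' : 𝕋) => P.PP k c t t')
    (fun t t₁ t' => by simp [P.PP_add_left])
    (fun s t t' => by simp [P.PP_smul_left])
    (fun t t' t₁ => by simp [P.PP_add_right])
    (fun s t t' => by simp [P.PP_smul_right])
  map_add' c c' := by
    ext t t'
    simp [P.PP_add_c]
  map_smul' s c := by
    ext t t'
    simp [P.PP_smul_c]

@[simp] lemma PFormK_apply (k : ℕ) (𝕋 : Submodule K (ι → A)) (c : P.KK k) (t t' : 𝕋) :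
    P.PFormK k 𝕋 c t t' = P.PP k c t t' := rfl

/-- The form on a subspace `𝕋 ≤ T(k)`, on the quotient `𝕄(k)`. -/
noncomputable def PForm (k : ℕ) (𝕋 : Submodule K (ι → A)) (h𝕋 : 𝕋 ≤ P.T k) :
    P.MM k →ₗ[K] 𝕋 →ₗ[K] 𝕋 →ₗ[K] K := by
  refine Submodule.liftQ (M₂ := 𝕋 →ₗ[K] 𝕋 →ₗ[K] K) (τ₁₂ := RingHom.id K) (P.IIs k) (P.PFormK k 𝕋) ?_
  intro c hc
  refine LinearMap.mem_ker.2 ?_
  refine LinearMap.ext fun t => LinearMap.ext fun t' => ?_
  exact hc.2 t.1 (h𝕋 t.2) t'.1 (h𝕋 t'.2)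

@[simp] lemma PForm_mk (k : ℕ) (𝕋 : Submodule K (ι → A)) (h𝕋 : 𝕋 ≤ P.T k) (c : P.KK k) (t t' : 𝕋) :
    P.PForm k 𝕋 h𝕋 (P.mkM k c) t t' = P.PP k c t t' := rfl

lemma PForm_alt (k : ℕ) (𝕋 : Submodule K (ι → A)) (h𝕋 : 𝕋 ≤ P.T k) (v : P.MM k) (t : 𝕋) :
    P.PForm k 𝕋 h𝕋 v t t = 0 := by
  obtain ⟨c, rfl⟩ := Submodule.Quotient.mk_surjective _ v
  exact P.PP_self k c t

/-- For `c ∈ 𝕂(k)`, `Γ` and `P` do not see larger `r`. -/
lemma Gam_of_le {k r : ℕ} (h : k ≤ r) {c : ℕ → A} (hc : c ∈ P.KK k) (t t' : ι → A) :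
    P.Gam r c t t' = P.Gam k c t t' := by
  unfold Gam
  symm
  apply Finset.sum_subset (Finset.range_mono h)
  intro i _ hi
  rw [hc.1 i (by simpa using hi), zero_mul, map_zero]

lemma PP_of_le {k r : ℕ} (h : k ≤ r) {c : ℕ → A} (hc : c ∈ P.KK k) (t t' : ι → A) :
    P.PP r c t t' = P.PP k c t t' := by
  simp only [PP, P.Gam_of_le h hc]

lemma SS_of_le {k r : ℕ} (h : k ≤ r) {c : ℕ → A} (hc : c ∈ P.KK k) (t t' : ι → A) :
    P.SS r c t t' = P.SS k c t t' := by
  simp only [SS, P.Gam_of_le h hc]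

lemma KK_zero : P.KK 0 = ⊥ := by
  rw [eq_bot_iff]
  intro c hc
  rw [Submodule.mem_bot]
  funext i
  exact hc.1 i (Nat.zero_le i)

/-! ### Finiteness -/

/-- coordinates of a vector supported on `i<r`. -/
noncomputable def KKcoord (r : ℕ) : P.KK r →ₗ[K] (Fin r → A) where
  toFun c i := (c : ℕ → A) i
  map_add' _ _ := rfl
  map_smul' _ _ := rfl

lemma KKcoord_injective (r : ℕ) : Function.Injective (P.KKcoord r) := by
  intro c c' h
  apply Subtype.ext
  funext i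
  by_cases hi : i < r
  · exact congrFun h ⟨i, hi⟩
  · rw [c.2.1 i (not_lt.mp hi), c'.2.1 i (not_lt.mp hi)]

instance KK_finite [FiniteDimensional K A] (r : ℕ) : Module.Finite K (P.KK r) :=
  Module.Finite.of_injective (P.KKcoord r) (P.KKcoord_injective r)

instance MM_finite [FiniteDimensional K A] (k : ℕ) : Module.Finite K (P.MM k) :=
  Module.Finite.quotient K _

/-! ### The dimension of `T(k)` -/

section Dim

variable [FiniteDimensional K A]

/-- `x ↦ τ(c x)` on `C_i`, for `c ∈ C_i`. -/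
noncomputable def pairC (i : ℕ) : cent (K := K) (P.β i) →ₗ[K] Dual K (cent (K := K) (P.β i)) where
  toFun c := (P.τ ∘ₗ LinearMap.mulLeft K (c : A)) ∘ₗ (cent (K := K) (P.β i)).subtype
  map_add' c c' := by
    ext x
    simp [add_mul]
  map_smul' s c := by
    ext x
    simp

@[simp] lemma pairC_apply (i : ℕ) (c x : cent (K := K) (P.β i)) :
    P.pairC i c x = P.τ ((c : A) * x) := rfl

lemma pairC_injective (i : ℕ) : Function.Injective (P.pairC i) := by
  rw [injective_iff_map_eq_zero]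
  intro c hc
  apply Subtype.ext
  apply P.τ_nondeg
  intro y
  have hc' : P.β i * (c : A) = c * P.β i := mem_cent.1 c.2
  rw [← P.τ_cent_e hc']
  have h1 : P.β i * P.e i y = P.e i y * P.β i := P.e_mem i y
  have := LinearMap.congr_fun hc ⟨P.e i y, mem_cent.2 h1⟩
  simpa using this

lemma pairC_surjective (i : ℕ) : Function.Surjective (P.pairC i) :=
  (LinearMap.injective_iff_surjective_of_finrank_eq_finrank
    (Subspace.dual_finrank_eq).symm).1 (P.pairC_injective i)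

/-- `∏_{i<r} C_i`. -/
abbrev CP (r : ℕ) : Type _ := (i : Fin r) → cent (K := K) (P.β i)

/-- `t ↦ (Π_i t)_{i<r}`. -/
noncomputable def EE (r : ℕ) : (ι → A) →ₗ[K] P.CP (K := K) r :=
  LinearMap.pi fun i =>
    LinearMap.codRestrict (cent (K := K) (P.β i)) (P.e i ∘ₗ P.dL i)
      (fun t => mem_cent.2 (P.e_mem i _))

lemma EE_apply (r : ℕ) (t : ι → A) (i : Fin r) : ((P.EE r t i : cent (K := K) (P.β i)) : A)
    = P.e i (P.dL i t) := rfl

lemma ker_EE (r : ℕ) : LinearMap.ker (P.EE r) = P.T r := by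
  ext t
  simp only [LinearMap.mem_ker, mem_T]
  constructor
  · intro h i hi
    have := congrFun h ⟨i, hi⟩
    exact congrArg Subtype.val this
  · intro h
    funext i
    apply Subtype.ext
    exact h i i.2

/-- The pairing on `∏ C_i`. -/
noncomputable def pairCP (r : ℕ) : P.CP (K := K) r →ₗ[K] Dual K (P.CP (K := K) r) where
  toFun c :=
    { toFun := fun x => ∑ i : Fin r, P.τ ((c i : A) * (x i : A))
      map_add' := fun x y => by
        simp only [Pi.add_apply, Submodule.coe_add, mul_add, map_add, Finset.sum_add_distrib]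
      map_smul' := fun s x => by
        simp only [Pi.smul_apply, Submodule.coe_smul, mul_smul_comm, map_smul, RingHom.id_apply,
          Finset.smul_sum] }
  map_add' c c' := LinearMap.ext fun x => by
    change ∑ i : Fin r, P.τ (((c + c') i : A) * (x i : A)) =
      ∑ i : Fin r, P.τ ((c i : A) * (x i : A)) + ∑ i : Fin r, P.τ ((c' i : A) * (x i : A))
    simp only [Pi.add_apply, Submodule.coe_add, add_mul, map_add, Finset.sum_add_distrib]
  map_smul' s c := LinearMap.ext fun x => by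
    change ∑ i : Fin r, P.τ (((s • c) i : A) * (x i : A)) =
      s • ∑ i : Fin r, P.τ ((c i : A) * (x i : A))
    simp only [Pi.smul_apply, Submodule.coe_smul, smul_mul_assoc, map_smul, Finset.smul_sum]

lemma pairCP_apply (r : ℕ) (c x : P.CP (K := K) r) :
    P.pairCP r c x = ∑ i : Fin r, P.τ ((c i : A) * (x i : A)) := rfl

lemma pairCP_injective (r : ℕ) : Function.Injective (P.pairCP (K := K) r) := by
  classical
  rw [injective_iff_map_eq_zero]
  intro c hc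
  funext i
  apply P.pairC_injective i
  ext x
  have h := LinearMap.congr_fun hc (Pi.single i x)
  rw [pairCP_apply] at h
  rw [Finset.sum_eq_single i] at h
  · simpa using h
  · intro j _ hj
    simp [Pi.single_eq_of_ne hj]
  · simp

lemma pairCP_surjective (r : ℕ) : Function.Surjective (P.pairCP (K := K) r) :=
  (LinearMap.injective_iff_surjective_of_finrank_eq_finrank
    (Subspace.dual_finrank_eq).symm).1 (P.pairCP_injective r)

variable [Finite ι]

/-- `c ↦ (t ↦ ∑ τ(c_i ∂a_i[t]))`. -/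
noncomputable def Phi (r : ℕ) : P.CP (K := K) r →ₗ[K] Dual K (ι → A) :=
  (P.EE r).dualMap ∘ₗ P.pairCP r

omit [Finite ι] in
lemma Phi_apply (r : ℕ) (c : P.CP (K := K) r) (t : ι → A) :
    P.Phi r c t = ∑ i : Fin r, P.τ ((c i : A) * P.dL i t) := by
  have : P.Phi r c t = ∑ i : Fin r, P.τ ((c i : A) * P.e i (P.dL i t)) := rfl
  rw [this]
  refine Finset.sum_congr rfl fun i _ => ?_
  exact P.τ_cent_e (mem_cent.1 (c i).2) _

/-- `c ∈ 𝕂(r)` as an element of `∏ C_i`. -/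
noncomputable def KKtoCP (r : ℕ) : P.KK r →ₗ[K] P.CP (K := K) r :=
  LinearMap.pi fun i => LinearMap.codRestrict (cent (K := K) (P.β i))
    (LinearMap.proj (i : ℕ) ∘ₗ (P.KK r).subtype) (fun c => mem_cent.2 (c.2.2.1 i))

omit [Finite ι] in
lemma KKtoCP_apply (r : ℕ) (c : P.KK r) (i : Fin r) :
    ((P.KKtoCP r c i : cent (K := K) (P.β i)) : A) = (c : ℕ → A) i := rfl

omit [Finite ι] in
lemma KKtoCP_injective (r : ℕ) : Function.Injective (P.KKtoCP (K := K) r) := by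
  intro c c' h
  apply P.KKcoord_injective r
  funext i
  exact congrArg Subtype.val (congrFun h i)

omit [Finite ι] in
lemma range_KKtoCP (r : ℕ) : LinearMap.range (P.KKtoCP (K := K) r) = LinearMap.ker (P.Phi r) := by
  classical
  apply le_antisymm
  · rintro _ ⟨c, rfl⟩
    rw [LinearMap.mem_ker]
    ext t
    rw [Phi_apply]
    have h3 := c.2.2.2 t
    rw [← Fin.sum_univ_eq_sum_range (fun i => P.τ ((c : ℕ → A) i * P.dL i t))] at h3
    simpa [KKtoCP_apply] using h3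
  · intro c hc
    rw [LinearMap.mem_ker] at hc
    let c' : ℕ → A := fun i => if hi : i < r then (c ⟨i, hi⟩ : A) else 0
    have hc'v : ∀ i : Fin r, c' i = (c i : A) := fun i => by simp [c', i.2]
    have hmem : c' ∈ P.KK r := by
      refine ⟨fun i hi => ?_, fun i => ?_, fun t => ?_⟩
      · simp [c', not_lt.mpr hi]
      · by_cases hi : i < r
        · simp only [c', hi, dif_pos]
          exact mem_cent.1 (c ⟨i, hi⟩).2
        · simp [c', hi]
      · have h := LinearMap.congr_fun hc t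
        rw [Phi_apply] at h
        rw [← Fin.sum_univ_eq_sum_range (fun i => P.τ (c' i * P.dL i t))]
        simpa [hc'v] using h
    refine ⟨⟨c', hmem⟩, ?_⟩
    funext i
    apply Subtype.ext
    rw [KKtoCP_apply]
    exact hc'v i

/-- **Dimension formula**: `dim T(r) + ∑_{i<r} dim C_i = dim (ι → A) + dim 𝕂(r)`. -/
theorem finrank_T_add (r : ℕ) :
    finrank K (P.T r) + ∑ i : Fin r, finrank K (cent (K := K) (P.β i)) =
      finrank K (ι → A) + finrank K (P.KK r) := by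
  have h1 := LinearMap.finrank_range_add_finrank_ker (P.EE r)
  rw [P.ker_EE] at h1
  have h2 := LinearMap.finrank_range_add_finrank_ker (P.Phi r)
  rw [← P.range_KKtoCP, LinearMap.finrank_range_of_inj (P.KKtoCP_injective r),
    Module.finrank_pi_fintype] at h2
  have h3 : LinearMap.range (P.Phi r) = LinearMap.range (P.EE r).dualMap := by
    apply LinearMap.range_comp_of_range_eq_top
    exact LinearMap.range_eq_top.2 (P.pairCP_surjective r)
  rw [h3, LinearMap.finrank_range_dualMap_eq_finrank_range] at h2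
  omega

/-! ### `𝕂(l+1)/𝕂(l) ≅ Ann_{C_l}(Mov_l)` -/

/-- `Ann_{C_l}(Mov_l)`. -/
noncomputable def Ann (l : ℕ) : Submodule K A where
  carrier := {x | P.β l * x = x * P.β l ∧ ∀ y ∈ P.Mov l, P.τ (x * y) = 0}
  add_mem' := by
    rintro x x' ⟨h1, h2⟩ ⟨h1', h2'⟩
    refine ⟨by rw [mul_add, add_mul, h1, h1'], fun y hy => ?_⟩
    rw [add_mul, map_add, h2 y hy, h2' y hy, add_zero]
  zero_mem' := by
    refine ⟨by simp, fun y _ => by simp⟩
  smul_mem' := by
    rintro s x ⟨h1, h2⟩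
    refine ⟨by rw [mul_smul_comm, smul_mul_assoc, h1], fun y hy => ?_⟩
    rw [smul_mul_assoc, map_smul, h2 y hy, smul_zero]

omit [Finite ι] in
lemma mem_Ann {l : ℕ} {x : A} :
    x ∈ P.Ann l ↔ P.β l * x = x * P.β l ∧ ∀ y ∈ P.Mov l, P.τ (x * y) = 0 := Iff.rfl

lemma mem_Ann_iff_lift {l : ℕ} {x : A} : x ∈ P.Ann l ↔ ∃ c ∈ P.KK (l + 1), c l = x := by
  constructor
  · rintro ⟨h1, h2⟩
    exact (P.exists_lift_iff l h1).2 h2
  · rintro ⟨c, hc, rfl⟩
    exact ⟨hc.2.1 l, (P.exists_lift_iff l (hc.2.1 l)).1 ⟨c, hc, rfl⟩⟩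

omit [Finite ι] in
lemma Mov_le_cent (l : ℕ) : P.Mov l ≤ cent (K := K) (P.β l) := by
  intro x hx
  obtain ⟨t, _, rfl⟩ := P.mem_Mov.1 hx
  exact mem_cent.2 (P.e_mem l _)

/-- `dim 𝕂(l+1) = dim 𝕂(l) + dim Ann_{C_l}(Mov_l)`. -/
theorem finrank_KK_succ (l : ℕ) :
    finrank K (P.KK (l + 1)) = finrank K (P.KK l) + finrank K (P.Ann l) := by
  let f : P.KK (l + 1) →ₗ[K] A := LinearMap.proj l ∘ₗ (P.KK (l + 1)).subtype
  have h := LinearMap.finrank_range_add_finrank_ker f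
  have hr : LinearMap.range f = P.Ann l := by
    ext x
    rw [P.mem_Ann_iff_lift]
    constructor
    · rintro ⟨c, rfl⟩
      exact ⟨c, c.2, rfl⟩
    · rintro ⟨c, hc, rfl⟩
      exact ⟨⟨c, hc⟩, rfl⟩
  have hk : LinearMap.ker f = (P.KK l).comap (P.KK (l + 1)).subtype := by
    ext c
    simp only [LinearMap.mem_ker, Submodule.mem_comap, Submodule.subtype_apply]
    constructor
    · intro h0
      exact P.mem_KK_of_last c.2 h0
    · intro h0
      exact h0.1 l le_rfl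
  have hle : P.KK l ≤ P.KK (l + 1) := P.KK_mono (Nat.le_succ l)
  have h2 : finrank K ((P.KK l).comap (P.KK (l + 1)).subtype) = finrank K (P.KK l) :=
    (Submodule.comapSubtypeEquivOfLe hle).finrank_eq
  rw [hr, hk, h2] at h
  omega

/-- `dim 𝕂(r) = ∑_{l<r} dim Ann_{C_l}(Mov_l)`. -/
theorem finrank_KK_eq_sum (r : ℕ) :
    finrank K (P.KK r) = ∑ l ∈ Finset.range r, finrank K (P.Ann l) := by
  induction r with
  | zero => simp [P.KK_zero]
  | succ r ih => rw [P.finrank_KK_succ, ih, Finset.sum_range_succ]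

/-- `dim 𝕄(k) + dim 𝕀(k) = dim 𝕂(k)`. -/
theorem finrank_MM_add (k : ℕ) :
    finrank K (P.MM k) + finrank K (P.II k) = finrank K (P.KK k) := by
  have h1 := Submodule.finrank_quotient_add_finrank (P.IIs k)
  have h2 : finrank K (P.IIs k) = finrank K (P.II k) :=
    (Submodule.comapSubtypeEquivOfLe (P.II_le_KK k)).finrank_eq
  rw [h2] at h1
  exact h1

omit [Finite ι] in
/-- `dim Ann_{C_l}(Mov_l) + dim Mov_l = dim C_l`. -/
theorem finrank_Ann_add (l : ℕ) :
    finrank K (P.Ann l) + finrank K (P.Mov l) = finrank K (cent (K := K) (P.β l)) := by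
  set C := cent (K := K) (P.β l) with hC
  let M : Submodule K C := (P.Mov l).comap C.subtype
  have hM : finrank K M = finrank K (P.Mov l) :=
    (Submodule.comapSubtypeEquivOfLe (P.Mov_le_cent l)).finrank_eq
  let φ : C →ₗ[K] Dual K M := M.subtype.dualMap ∘ₗ P.pairC l
  have hs : Function.Surjective φ := by
    intro f
    obtain ⟨g, hg⟩ := LinearMap.exists_extend f
    obtain ⟨c, hc⟩ := P.pairC_surjective l g
    refine ⟨c, ?_⟩
    change M.subtype.dualMap (P.pairC l c) = f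
    rw [hc, ← hg]
    rfl
  have hker : LinearMap.ker φ = (P.Ann l).comap C.subtype := by
    ext c
    simp only [LinearMap.mem_ker, Submodule.mem_comap, Submodule.subtype_apply]
    constructor
    · intro h0
      refine ⟨mem_cent.1 c.2, fun y hy => ?_⟩
      exact LinearMap.congr_fun h0 ⟨⟨y, P.Mov_le_cent l hy⟩, hy⟩
    · intro h0
      ext y
      exact h0.2 y.1.1 y.2
  have hleA : P.Ann l ≤ C := fun x hx => mem_cent.2 hx.1
  have h2 : finrank K ((P.Ann l).comap C.subtype) = finrank K (P.Ann l) :=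
    (Submodule.comapSubtypeEquivOfLe hleA).finrank_eq
  have h1 := LinearMap.finrank_range_add_finrank_ker φ
  have h3 : finrank K (Dual K M) = finrank K M := @Subspace.dual_finrank_eq K M _ _ _
  rw [LinearMap.range_eq_top.2 hs, finrank_top, h3, hM, hker, h2] at h1
  omega

end Dim

/-! ### Admissible pairs (E2, E3) -/

section Pair

open Rank

variable [FiniteDimensional K A] [Finite ι]

instance T_finite (𝕋 : Submodule K (ι → A)) : Module.Finite K 𝕋 := inferInstance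

/-- `T0(t)` inside `ι → A`: the `τ` with `P_c(t,τ) = 0` for all `c ∈ 𝕂(k)`. -/
noncomputable def TT0 (k : ℕ) (t : ι → A) : Submodule K (ι → A) where
  carrier := {τ | ∀ c ∈ P.KK k, P.PP k c t τ = 0}
  add_mem' := by
    intro τ τ' h h' c hc
    rw [P.PP_add_right, h c hc, h' c hc, add_zero]
  zero_mem' := by
    intro c _
    have := P.PP_smul_right k c 0 t 0
    simpa using this
  smul_mem' := by
    intro s τ h c hc
    rw [P.PP_smul_right, h c hc, mul_zero]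

omit [FiniteDimensional K A] [Finite ι] in
lemma mem_TT0 {k : ℕ} {t τ : ι → A} : τ ∈ P.TT0 k t ↔ ∀ c ∈ P.KK k, P.PP k c t τ = 0 := Iff.rfl

variable [Infinite K]

/-- `T0` of `Rank` for `PForm` and `TT0`. -/
lemma mem_T0_PForm {k : ℕ} {𝕋 : Submodule K (ι → A)} {h𝕋 : 𝕋 ≤ P.T k} {t τ : 𝕋} :
    τ ∈ T0 (P.PForm k 𝕋 h𝕋) t ↔ (τ : ι → A) ∈ P.TT0 k t := by
  rw [mem_T0]
  constructor
  · intro h c hc
    exact h (P.mkM k ⟨c, hc⟩)
  · intro h v
    obtain ⟨c, rfl⟩ := Submodule.Quotient.mk_surjective _ v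
    exact h c.1 c.2

/-- (E2) **Admissible pair.**  `𝕋 ≤ T(k)`, `q = dim 𝕄(k)`, `U` a subspace of `𝕋` of codimension `> q+1`
(e.g. inner directions), `T''` a subspace (e.g. `ker Π`, `⊤`), every nonzero class of rank
`≥ 3q + codim T''` on `𝕋`, `S1` line-open nonempty. There are `t1 ∈ S1`, `t2`, independent modulo `U`,
`P_c(t1,t2) = 0`, and `τ ↦ (P_·(t1,τ), P_·(t2,τ))` maps `T''` onto `𝕄^* × 𝕄^*`. -/
theorem exists_pair_of_rank (k : ℕ) (𝕋 : Submodule K (ι → A)) (h𝕋 : 𝕋 ≤ P.T k)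
    (U T'' : Submodule K 𝕋)
    (hU : finrank K U + finrank K (P.MM k) + 1 < finrank K 𝕋)
    (hr : ∀ v : P.MM k, v ≠ 0 → 3 * finrank K (P.MM k) + (finrank K 𝕋 - finrank K T'')
      ≤ finrank K (LinearMap.range (P.PForm k 𝕋 h𝕋 v)))
    {S1 : Set 𝕋} (hS1 : LineOpen K S1) (hne1 : S1.Nonempty) :
    ∃ t1 t2 : 𝕋, t1 ∈ S1 ∧ t1 ∉ U ∧ t2 ∉ U ⊔ Submodule.span K {t1} ∧
      (∀ c ∈ P.KK k, P.PP k c t1 t2 = 0) ∧
      ∀ f g : Dual K (P.MM k), ∃ τ ∈ T'', Rank.Pt (P.PForm k 𝕋 h𝕋) t1 τ = f ∧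
        Rank.Pt (P.PForm k 𝕋 h𝕋) t2 τ = g := by
  classical
  set Pf := P.PForm k 𝕋 h𝕋 with hPf
  have hUne : U ≠ ⊤ := by
    intro h
    rw [h, finrank_top] at hU
    omega
  have hS1' : LineOpen K (S1 ∩ ((U : Set 𝕋)ᶜ)) := hS1.inter (lineOpen_compl_submodule U)
  have hne1' : (S1 ∩ ((U : Set 𝕋)ᶜ)).Nonempty := by
    have h1 : ((U : Set 𝕋)ᶜ).Nonempty := by
      obtain ⟨x, hx⟩ := SetLike.exists_not_mem_of_ne_top U hUne rfl
      exact ⟨x, hx⟩
    exact hS1.inter_nonempty (lineOpen_compl_submodule U) hne1 h1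
  let S2 : ∀ t, Set (T0 Pf t) := fun t =>
    {x | (x : 𝕋) ∉ U ⊔ Submodule.span K {t}}
  have hS2 : ∀ t ∈ S1 ∩ ((U : Set 𝕋)ᶜ), LineOpen K (S2 t) ∧ (S2 t).Nonempty := by
    intro t _
    constructor
    · exact (lineOpen_compl_submodule (U ⊔ Submodule.span K {t})).preimage (T' := T0 Pf t) (T0 Pf t).subtype
    · by_contra hne
      have hle : T0 Pf t ≤ U ⊔ Submodule.span K {t} := by
        intro x hx
        by_contra hx'
        exact hne ⟨⟨x, hx⟩, hx'⟩
      have h1 := Submodule.finrank_mono hle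
      have h2 := finrank_T0_ge Pf t
      have h3 : finrank K (U ⊔ Submodule.span K {t} : Submodule K 𝕋) ≤ finrank K U + 1 := by
        have h4 := Submodule.finrank_add_le_finrank_add_finrank U (Submodule.span K {t})
        have h5 : finrank K (Submodule.span K {t}) ≤ 1 := by
          by_cases h0 : t = 0
          · have h6 : Submodule.span K {t} = ⊥ := by
              rw [Submodule.span_singleton_eq_bot]; exact h0
            rw [h6, finrank_bot]; omega
          · rw [finrank_span_singleton h0]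
        omega
      omega
  obtain ⟨t1, ht1, t2, ht2, hsurj⟩ := exists_pair Pf T'' hr hS1' hne1' S2 hS2
  refine ⟨t1, t2, ht1.1, ht1.2, ht2, ?_, hsurj⟩
  intro c hc
  exact (P.mem_T0_PForm.1 t2.2) c hc

/-- Consequence of the surjectivity: joint injectivity on `𝕄`. -/
theorem mem_II_of_pair {k : ℕ} {𝕋 : Submodule K (ι → A)} {h𝕋 : 𝕋 ≤ P.T k} {t1 : 𝕋}
    (hs : ∀ f : Dual K (P.MM k), ∃ τ : 𝕋, Rank.Pt (P.PForm k 𝕋 h𝕋) t1 τ = f)
    {c : ℕ → A} (hc : c ∈ P.KK k) (h0 : ∀ τ ∈ 𝕋, P.PP k c t1 τ = 0) : c ∈ P.II k := by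
  have h1 : P.mkM k ⟨c, hc⟩ = 0 := (Module.forall_dual_apply_eq_zero_iff K _).1 (fun f => by
    obtain ⟨τ, hτ⟩ := hs f
    rw [← hτ]
    exact h0 τ τ.2)
  exact P.mkM_eq_zero_iff.1 h1

/-- (E3) with `Π = e_l ∂a_l` on `𝕋`: `T0(t1) ∩ T0(t2)` maps onto `Π(𝕋)`. -/
theorem map_T0_eq_range {k : ℕ} {𝕋 : Submodule K (ι → A)} {h𝕋 : 𝕋 ≤ P.T k} {t1 t2 : 𝕋} {E : Type*}
    [AddCommGroup E] [Module K E] (pr : 𝕋 →ₗ[K] E)
    (hs : ∀ f g : Dual K (P.MM k), ∃ τ ∈ LinearMap.ker pr, Rank.Pt (P.PForm k 𝕋 h𝕋) t1 τ = f ∧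
      Rank.Pt (P.PForm k 𝕋 h𝕋) t2 τ = g)
    (x : 𝕋) : ∃ τ : 𝕋, (τ : ι → A) ∈ P.TT0 k t1 ∧ (τ : ι → A) ∈ P.TT0 k t2 ∧ pr τ = pr x := by
  have h := map_T0_eq (P.PForm k 𝕋 h𝕋) pr hs
  have hx : pr x ∈ (T0 (P.PForm k 𝕋 h𝕋) t1 ⊓ T0 (P.PForm k 𝕋 h𝕋) t2).map pr := by
    rw [h]; exact LinearMap.mem_range_self _ _
  obtain ⟨τ, hτ, hτx⟩ := hx
  exact ⟨τ, P.mem_T0_PForm.1 hτ.1, P.mem_T0_PForm.1 hτ.2, hτx⟩

/-! ### `allowed` and the count -/

/-- `allowed_k(e)`, `e = (K,j)` a residue mod `m`: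
`T(k) ∩ [ker P_𝕄(t1,·) if K ≠ 0] ∩ [ker P_𝕄(t2,·) if K = -1, j ≠ 0]`. -/
noncomputable def allowed {m : ℕ} (k : ℕ) (t1 t2 : ι → A) (e : ZMod m × ZMod m) :
    Submodule K (ι → A) :=
  P.T k ⊓ (if e.1 = 0 then ⊤ else P.TT0 k t1) ⊓ (if e.1 = -1 ∧ e.2 ≠ 0 then P.TT0 k t2 else ⊤)

/-- Count: `∑_e dim allowed_k(e) + (m²-1) q = m² dim T(k)`, `q = dim 𝕄(k)`, if
`τ ↦ (P_·(t1,τ), P_·(t2,τ))` maps `T(k)` onto `𝕄^* × 𝕄^*`. -/
theorem sum_finrank_allowed {m : ℕ} [NeZero m] (hm : 2 ≤ m) (k : ℕ) (t1 t2 : P.T k)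
    (hs : ∀ f g : Dual K (P.MM k), ∃ τ : P.T k, Rank.Pt (P.PForm k (P.T k) le_rfl) t1 τ = f ∧
      Rank.Pt (P.PForm k (P.T k) le_rfl) t2 τ = g) :
    ∑ e : ZMod m × ZMod m, finrank K (P.allowed k (t1 : ι → A) t2 e)
      + (m ^ 2 - 1) * finrank K (P.MM k) = m ^ 2 * finrank K (P.T k) := by
  classical
  set a := finrank K (P.T k) with ha
  set q := finrank K (P.MM k) with hq
  set Pf := P.PForm k (P.T k) le_rfl with hPf
  -- the kernels
  let L1 := Rank.Pt Pf t1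
  let L2 := Rank.Pt Pf t2
  have hL1 : Function.Surjective L1 := fun f => by
    obtain ⟨τ, h, _⟩ := hs f 0
    exact ⟨τ, h⟩
  have hLL : Function.Surjective (L1.prod L2) := fun ⟨f, g⟩ => by
    obtain ⟨τ, h, h'⟩ := hs f g
    exact ⟨τ, by simp [L1, L2, h, h']⟩
  have hd : finrank K (Dual K (P.MM k)) = q := Subspace.dual_finrank_eq
  have h1 : finrank K (LinearMap.ker L1) + q = a := by
    have := LinearMap.finrank_range_add_finrank_ker L1
    rw [LinearMap.range_eq_top.2 hL1, finrank_top, hd] at this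
    omega
  have h2 : finrank K (LinearMap.ker (L1.prod L2)) + 2 * q = a := by
    have := LinearMap.finrank_range_add_finrank_ker (L1.prod L2)
    rw [LinearMap.range_eq_top.2 hLL, finrank_top, Module.finrank_prod, hd] at this
    omega
  -- identification of the subspaces
  have hmap : ∀ (S : Submodule K (ι → A)) (K' : Submodule K (P.T k)),
      (∀ τ : P.T k, τ ∈ K' ↔ (τ : ι → A) ∈ S) → finrank K K' = finrank K (P.T k ⊓ S : Submodule K _) := by
    intro S K' h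
    have h3 : K'.map (P.T k).subtype = P.T k ⊓ S := by
      ext x
      constructor
      · rintro ⟨y, hy, rfl⟩
        exact ⟨y.2, (h y).1 hy⟩
      · rintro ⟨hx1, hx2⟩
        exact ⟨⟨x, hx1⟩, (h _).2 hx2, rfl⟩
    rw [← h3]
    exact (LinearEquiv.finrank_eq (Submodule.equivMapOfInjective _ (P.T k).injective_subtype K'))
  have hker1 : finrank K (P.T k ⊓ P.TT0 k t1 : Submodule K _) + q = a := by
    rw [← hmap (P.TT0 k t1) (LinearMap.ker L1)]
    · exact h1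
    · intro τ
      exact P.mem_T0_PForm
  have hker2 : finrank K (P.T k ⊓ P.TT0 k t1 ⊓ P.TT0 k t2 : Submodule K _) + 2 * q = a := by
    rw [inf_assoc, ← hmap (P.TT0 k t1 ⊓ P.TT0 k t2) (LinearMap.ker (L1.prod L2))]
    · exact h2
    · intro τ
      rw [LinearMap.ker_prod]
      exact Iff.and P.mem_T0_PForm P.mem_T0_PForm
  -- each residue
  have hpt : ∀ e : ZMod m × ZMod m, finrank K (P.allowed k (t1 : ι → A) t2 e)
      + ((if e.1 = 0 then 0 else 1) + (if e.1 = -1 ∧ e.2 ≠ 0 then 1 else 0)) * q = a := by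
    intro e
    haveI : Fact (1 < m) := ⟨by omega⟩
    by_cases h0 : e.1 = 0
    · have hne : ¬ (e.1 = -1 ∧ e.2 ≠ 0) := by
        rintro ⟨h, _⟩
        rw [h0] at h
        have : (1 : ZMod m) = 0 := by
          have h' : (0 : ZMod m) + 1 = -1 + 1 := by rw [h]
          simpa using h'
        exact one_ne_zero this
      have e1 : P.allowed k (t1 : ι → A) t2 e = P.T k := by
        simp only [allowed]
        rw [if_pos h0, if_neg hne, inf_top_eq, inf_top_eq]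
      rw [e1, if_pos h0, if_neg hne]
      simp [ha]
    · by_cases hb : e.1 = -1 ∧ e.2 ≠ 0
      · have e1 : P.allowed k (t1 : ι → A) t2 e = P.T k ⊓ P.TT0 k t1 ⊓ P.TT0 k t2 := by
          simp only [allowed]
          rw [if_neg h0, if_pos hb]
        rw [e1, if_neg h0, if_pos hb]
        omega
      · have e1 : P.allowed k (t1 : ι → A) t2 e = P.T k ⊓ P.TT0 k t1 := by
          simp only [allowed]
          rw [if_neg h0, if_neg hb, inf_top_eq]
        rw [e1, if_neg h0, if_neg hb]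
        omega
  -- sum over the residues
  have hcount : ∑ e : ZMod m × ZMod m,
      ((if e.1 = 0 then 0 else 1) + (if e.1 = -1 ∧ e.2 ≠ 0 then 1 else 0)) = m ^ 2 - 1 := by
    have hc : Fintype.card (ZMod m) = m := ZMod.card m
    rw [Finset.sum_add_distrib, Fintype.sum_prod_type, Fintype.sum_prod_type]
    have h3 : ∀ x : ZMod m, ∑ _y : ZMod m, (if x = 0 then 0 else 1) = if x = 0 then 0 else m := by
      intro x
      by_cases hx : x = 0
      · simp [hx]
      · simp [hx, hc]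
    have h4 : ∀ x : ZMod m, ∑ y : ZMod m, (if x = -1 ∧ y ≠ 0 then 1 else 0)
        = if x = -1 then m - 1 else 0 := by
      intro x
      by_cases hx : x = -1
      · simp only [hx, true_and, if_true]
        have : ∑ y : ZMod m, (if y ≠ 0 then 1 else 0) = m - 1 := by
          rw [Finset.sum_boole]
          simp only [Nat.cast_id]
          rw [Finset.filter_ne', Finset.card_erase_of_mem (Finset.mem_univ _), Finset.card_univ, hc]
        exact this
      · simp [hx]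
    simp only [h3, h4]
    rw [Finset.sum_ite, Finset.sum_ite]
    simp only [Finset.sum_const_zero, zero_add, add_zero, Finset.sum_const, smul_eq_mul]
    rw [Finset.filter_ne', Finset.card_erase_of_mem (Finset.mem_univ _), Finset.card_univ, hc,
      Finset.filter_eq' , if_pos (Finset.mem_univ _), Finset.card_singleton]
    have hm1 : 1 ≤ m := by omega
    obtain ⟨n, rfl⟩ : ∃ n, m = n + 1 := ⟨m - 1, by omega⟩
    simp only [Nat.add_sub_cancel]
    have : (n + 1) ^ 2 - 1 = n * (n + 1) + 1 * n := by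
      have : (n + 1) ^ 2 = n * (n + 1) + 1 * n + 1 := by ring
      omega
    rw [this]
  -- conclusion
  have hsum := Finset.sum_congr (rfl : (Finset.univ : Finset (ZMod m × ZMod m)) = Finset.univ)
    (fun e _ => hpt e)
  rw [Finset.sum_add_distrib, ← Finset.sum_mul, hcount, Finset.sum_const, Finset.card_univ,
    Fintype.card_prod, ZMod.card, smul_eq_mul] at hsum
  rw [hsum, pow_two]

/-! ### The relative version: a subspace `N` of `𝕂(k)` in place of `𝕀(k)`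

`N` is a subspace with `P_c = 0` on `𝕋 × 𝕋` for `c ∈ N`, e.g. `N = IIT k 𝕋`. -/

/-- `𝕂(k)/N`. -/
noncomputable abbrev MMN (k : ℕ) (N : Submodule K (ℕ → A)) : Type _ :=
  (P.KK k) ⧸ N.comap (P.KK k).subtype

/-- the class of `c` in `𝕂(k)/N`. -/
noncomputable abbrev mkMN (k : ℕ) (N : Submodule K (ℕ → A)) (c : P.KK k) : P.MMN k N :=
  Submodule.Quotient.mk c

omit [FiniteDimensional K A] [Finite ι] [Infinite K] in
lemma mkMN_eq_zero_iff {k : ℕ} {N : Submodule K (ℕ → A)} {c : P.KK k} :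
    P.mkMN k N c = 0 ↔ (c : ℕ → A) ∈ N := by
  rw [mkMN, Submodule.Quotient.mk_eq_zero]
  rfl

omit [Finite ι] [Infinite K] in
/-- `dim 𝕂(k)/N + dim N = dim 𝕂(k)`. -/
theorem finrank_MMN_add {k : ℕ} {N : Submodule K (ℕ → A)} (hN : N ≤ P.KK k) :
    finrank K (P.MMN k N) + finrank K N = finrank K (P.KK k) := by
  have h1 := Submodule.finrank_quotient_add_finrank (N.comap (P.KK k).subtype)
  have h2 : finrank K (N.comap (P.KK k).subtype) = finrank K N :=
    (Submodule.comapSubtypeEquivOfLe hN).finrank_eq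
  rw [h2] at h1
  exact h1

/-- The form on `𝕋`, on the quotient `𝕂(k)/N`. -/
noncomputable def PFormN (k : ℕ) (N : Submodule K (ℕ → A)) (𝕋 : Submodule K (ι → A))
    (hN : ∀ c ∈ N, ∀ t ∈ 𝕋, ∀ t' ∈ 𝕋, P.PP k c t t' = 0) :
    P.MMN k N →ₗ[K] 𝕋 →ₗ[K] 𝕋 →ₗ[K] K := by
  refine Submodule.liftQ (M₂ := 𝕋 →ₗ[K] 𝕋 →ₗ[K] K) (τ₁₂ := RingHom.id K) _ (P.PFormK k 𝕋) ?_
  intro c hc
  refine LinearMap.mem_ker.2 ?_
  refine LinearMap.ext fun t => LinearMap.ext fun t' => ?_
  exact hN c.1 hc t.1 t.2 t'.1 t'.2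

omit [FiniteDimensional K A] [Finite ι] [Infinite K] in
@[simp] lemma PFormN_mk (k : ℕ) (N : Submodule K (ℕ → A)) (𝕋 : Submodule K (ι → A))
    (hN : ∀ c ∈ N, ∀ t ∈ 𝕋, ∀ t' ∈ 𝕋, P.PP k c t t' = 0) (c : P.KK k) (t t' : 𝕋) :
    P.PFormN k N 𝕋 hN (P.mkMN k N c) t t' = P.PP k c t t' := rfl

lemma mem_T0_PFormN {k : ℕ} {N : Submodule K (ℕ → A)} {𝕋 : Submodule K (ι → A)}
    {hN : ∀ c ∈ N, ∀ t ∈ 𝕋, ∀ t' ∈ 𝕋, P.PP k c t t' = 0} {t τ : 𝕋} :
    τ ∈ T0 (P.PFormN k N 𝕋 hN) t ↔ (τ : ι → A) ∈ P.TT0 k t := by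
  rw [mem_T0]
  constructor
  · intro h c hc
    exact h (P.mkMN k N ⟨c, hc⟩)
  · intro h v
    obtain ⟨c, rfl⟩ := Submodule.Quotient.mk_surjective _ v
    exact h c.1 c.2

/-- (E2) **Admissible pair**, relative version. `N ≤ 𝕂(k)`, `P_c = 0` on `𝕋×𝕋` for `c∈N`,
`𝕋 ≤ T(k)`, `q = dim 𝕂(k)/N`, `U` a subspace of `𝕋` of codimension `> q+1`, `T''` a subspace, every
nonzero class of rank `≥ 3q + codim T''` on `𝕋`, `S1` line-open nonempty. There are `t1 ∈ S1`, `t2`,
independent modulo `U`, `P_c(t1,t2) = 0`, and `τ ↦ (P_·(t1,τ), P_·(t2,τ))` maps `T''` onto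
`(𝕂/N)^* × (𝕂/N)^*`. -/
theorem exists_pair_of_rankN (k : ℕ) (N : Submodule K (ℕ → A)) (𝕋 : Submodule K (ι → A))
    (hN : ∀ c ∈ N, ∀ t ∈ 𝕋, ∀ t' ∈ 𝕋, P.PP k c t t' = 0)
    (U T'' : Submodule K 𝕋)
    (hU : finrank K U + finrank K (P.MMN k N) + 1 < finrank K 𝕋)
    (hr : ∀ v : P.MMN k N, v ≠ 0 → 3 * finrank K (P.MMN k N) + (finrank K 𝕋 - finrank K T'')
      ≤ finrank K (LinearMap.range (P.PFormN k N 𝕋 hN v)))
    {S1 : Set 𝕋} (hS1 : LineOpen K S1) (hne1 : S1.Nonempty) :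
    ∃ t1 t2 : 𝕋, t1 ∈ S1 ∧ t1 ∉ U ∧ t2 ∉ U ⊔ Submodule.span K {t1} ∧
      (∀ c ∈ P.KK k, P.PP k c t1 t2 = 0) ∧
      ∀ f g : Dual K (P.MMN k N), ∃ τ ∈ T'', Rank.Pt (P.PFormN k N 𝕋 hN) t1 τ = f ∧
        Rank.Pt (P.PFormN k N 𝕋 hN) t2 τ = g := by
  classical
  set Pf := P.PFormN k N 𝕋 hN with hPf
  have hUne : U ≠ ⊤ := by
    intro h
    rw [h, finrank_top] at hU
    omega
  have hS1' : LineOpen K (S1 ∩ ((U : Set 𝕋)ᶜ)) := hS1.inter (lineOpen_compl_submodule U)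
  have hne1' : (S1 ∩ ((U : Set 𝕋)ᶜ)).Nonempty := by
    have h1 : ((U : Set 𝕋)ᶜ).Nonempty := by
      obtain ⟨x, hx⟩ := SetLike.exists_not_mem_of_ne_top U hUne rfl
      exact ⟨x, hx⟩
    exact hS1.inter_nonempty (lineOpen_compl_submodule U) hne1 h1
  let S2 : ∀ t, Set (T0 Pf t) := fun t =>
    {x | (x : 𝕋) ∉ U ⊔ Submodule.span K {t}}
  have hS2 : ∀ t ∈ S1 ∩ ((U : Set 𝕋)ᶜ), LineOpen K (S2 t) ∧ (S2 t).Nonempty := by
    intro t _
    constructor
    · exact (lineOpen_compl_submodule (U ⊔ Submodule.span K {t})).preimage (T' := T0 Pf t) (T0 Pf t).subtype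
    · by_contra hne
      have hle : T0 Pf t ≤ U ⊔ Submodule.span K {t} := by
        intro x hx
        by_contra hx'
        exact hne ⟨⟨x, hx⟩, hx'⟩
      have h1 := Submodule.finrank_mono hle
      have h2 := finrank_T0_ge Pf t
      have h3 : finrank K (U ⊔ Submodule.span K {t} : Submodule K 𝕋) ≤ finrank K U + 1 := by
        have h4 := Submodule.finrank_add_le_finrank_add_finrank U (Submodule.span K {t})
        have h5 : finrank K (Submodule.span K {t}) ≤ 1 := by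
          by_cases h0 : t = 0
          · have h6 : Submodule.span K {t} = ⊥ := by
              rw [Submodule.span_singleton_eq_bot]; exact h0
            rw [h6, finrank_bot]; omega
          · rw [finrank_span_singleton h0]
        omega
      omega
  obtain ⟨t1, ht1, t2, ht2, hsurj⟩ := exists_pair Pf T'' hr hS1' hne1' S2 hS2
  refine ⟨t1, t2, ht1.1, ht1.2, ht2, ?_, hsurj⟩
  intro c hc
  exact (P.mem_T0_PFormN.1 t2.2) c hc

omit [Infinite K] in
/-- Consequence of the surjectivity: joint injectivity on `𝕂/N`. -/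
theorem mem_of_pairN {k : ℕ} {N : Submodule K (ℕ → A)} {𝕋 : Submodule K (ι → A)}
    {hN : ∀ c ∈ N, ∀ t ∈ 𝕋, ∀ t' ∈ 𝕋, P.PP k c t t' = 0} {t1 : 𝕋}
    (hs : ∀ f : Dual K (P.MMN k N), ∃ τ : 𝕋, Rank.Pt (P.PFormN k N 𝕋 hN) t1 τ = f)
    {c : ℕ → A} (hc : c ∈ P.KK k) (h0 : ∀ τ ∈ 𝕋, P.PP k c t1 τ = 0) : c ∈ N := by
  have h1 : P.mkMN k N ⟨c, hc⟩ = 0 := (Module.forall_dual_apply_eq_zero_iff K _).1 (fun f => by
    obtain ⟨τ, hτ⟩ := hs f
    rw [← hτ]
    exact h0 τ τ.2)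
  exact P.mkMN_eq_zero_iff.1 h1

/-- (E3) relative version. -/
theorem map_T0_eq_rangeN {k : ℕ} {N : Submodule K (ℕ → A)} {𝕋 : Submodule K (ι → A)}
    {hN : ∀ c ∈ N, ∀ t ∈ 𝕋, ∀ t' ∈ 𝕋, P.PP k c t t' = 0} {t1 t2 : 𝕋} {E : Type*}
    [AddCommGroup E] [Module K E] (pr : 𝕋 →ₗ[K] E)
    (hs : ∀ f g : Dual K (P.MMN k N), ∃ τ ∈ LinearMap.ker pr, Rank.Pt (P.PFormN k N 𝕋 hN) t1 τ = f ∧
      Rank.Pt (P.PFormN k N 𝕋 hN) t2 τ = g)
    (x : 𝕋) : ∃ τ : 𝕋, (τ : ι → A) ∈ P.TT0 k t1 ∧ (τ : ι → A) ∈ P.TT0 k t2 ∧ pr τ = pr x := by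
  have h := map_T0_eq (P.PFormN k N 𝕋 hN) pr hs
  have hx : pr x ∈ (T0 (P.PFormN k N 𝕋 hN) t1 ⊓ T0 (P.PFormN k N 𝕋 hN) t2).map pr := by
    rw [h]; exact LinearMap.mem_range_self _ _
  obtain ⟨τ, hτ, hτx⟩ := hx
  exact ⟨τ, P.mem_T0_PFormN.1 hτ.1, P.mem_T0_PFormN.1 hτ.2, hτx⟩

/-- `τ ↦ (c ↦ P_c(t,τ))`, on `T(k)`, for `t` with `P_c(t,·) = 0` on `T(k)`, `c ∈ N`. -/
noncomputable def PairN (k : ℕ) (N : Submodule K (ℕ → A)) (t : ι → A)
    (ht : ∀ c ∈ N, ∀ τ ∈ P.T k, P.PP k c t τ = 0) : P.T k →ₗ[K] Dual K (P.MMN k N) where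
  toFun τ := Submodule.liftQ _ (((P.PPtri k).flip t).flip (τ : ι → A) ∘ₗ (P.KK k).subtype) (by
    intro c hc
    exact ht c.1 hc τ.1 τ.2)
  map_add' τ τ' := by
    ext c
    exact P.PP_add_right k c t τ τ'
  map_smul' s τ := by
    ext c
    exact P.PP_smul_right k c s t τ

omit [FiniteDimensional K A] [Finite ι] [Infinite K] in
@[simp] lemma PairN_mk (k : ℕ) (N : Submodule K (ℕ → A)) (t : ι → A)
    (ht : ∀ c ∈ N, ∀ τ ∈ P.T k, P.PP k c t τ = 0) (τ : P.T k) (c : P.KK k) :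
    P.PairN k N t ht τ (P.mkMN k N c) = P.PP k c t τ := rfl

omit [FiniteDimensional K A] [Finite ι] [Infinite K] in
lemma mem_ker_PairN {k : ℕ} {N : Submodule K (ℕ → A)} {t : ι → A}
    {ht : ∀ c ∈ N, ∀ τ ∈ P.T k, P.PP k c t τ = 0} {τ : P.T k} :
    τ ∈ LinearMap.ker (P.PairN k N t ht) ↔ (τ : ι → A) ∈ P.TT0 k t := by
  rw [LinearMap.mem_ker]
  constructor
  · intro h c hc
    exact LinearMap.congr_fun h (P.mkMN k N ⟨c, hc⟩)
  · intro h
    ext c
    exact h c.1 c.2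

omit [Infinite K] in
/-- Count, relative version: `∑_e dim allowed_k(e) + (m²-1) q = m² dim T(k)`, `q = dim 𝕂(k)/N`, if
`τ ↦ (P_·(t1,τ), P_·(t2,τ))` maps `T(k)` onto `(𝕂/N)^* × (𝕂/N)^*`. -/
theorem sum_finrank_allowedN {m : ℕ} [NeZero m] (hm : 2 ≤ m) (k : ℕ) (N : Submodule K (ℕ → A))
    (t1 t2 : ι → A) (ht1 : ∀ c ∈ N, ∀ τ ∈ P.T k, P.PP k c t1 τ = 0)
    (ht2 : ∀ c ∈ N, ∀ τ ∈ P.T k, P.PP k c t2 τ = 0)
    (hs : ∀ f g : Dual K (P.MMN k N), ∃ τ : P.T k, P.PairN k N t1 ht1 τ = f ∧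
      P.PairN k N t2 ht2 τ = g) :
    ∑ e : ZMod m × ZMod m, finrank K (P.allowed k t1 t2 e)
      + (m ^ 2 - 1) * finrank K (P.MMN k N) = m ^ 2 * finrank K (P.T k) := by
  classical
  set a := finrank K (P.T k) with ha
  set q := finrank K (P.MMN k N) with hq
  -- the kernels
  let L1 := P.PairN k N t1 ht1
  let L2 := P.PairN k N t2 ht2
  have hL1 : Function.Surjective L1 := fun f => by
    obtain ⟨τ, h, _⟩ := hs f 0
    exact ⟨τ, h⟩
  have hLL : Function.Surjective (L1.prod L2) := fun ⟨f, g⟩ => by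
    obtain ⟨τ, h, h'⟩ := hs f g
    exact ⟨τ, by simp [L1, L2, h, h']⟩
  have hd : finrank K (Dual K (P.MMN k N)) = q := Subspace.dual_finrank_eq
  have h1 : finrank K (LinearMap.ker L1) + q = a := by
    have := LinearMap.finrank_range_add_finrank_ker L1
    rw [LinearMap.range_eq_top.2 hL1, finrank_top, hd] at this
    omega
  have h2 : finrank K (LinearMap.ker (L1.prod L2)) + 2 * q = a := by
    have := LinearMap.finrank_range_add_finrank_ker (L1.prod L2)
    rw [LinearMap.range_eq_top.2 hLL, finrank_top, Module.finrank_prod, hd] at this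
    omega
  -- identification of the subspaces
  have hmap : ∀ (S : Submodule K (ι → A)) (K' : Submodule K (P.T k)),
      (∀ τ : P.T k, τ ∈ K' ↔ (τ : ι → A) ∈ S) → finrank K K' = finrank K (P.T k ⊓ S : Submodule K _) := by
    intro S K' h
    have h3 : K'.map (P.T k).subtype = P.T k ⊓ S := by
      ext x
      constructor
      · rintro ⟨y, hy, rfl⟩
        exact ⟨y.2, (h y).1 hy⟩
      · rintro ⟨hx1, hx2⟩
        exact ⟨⟨x, hx1⟩, (h _).2 hx2, rfl⟩
    rw [← h3]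
    exact (LinearEquiv.finrank_eq (Submodule.equivMapOfInjective _ (P.T k).injective_subtype K'))
  have hker1 : finrank K (P.T k ⊓ P.TT0 k t1 : Submodule K _) + q = a := by
    rw [← hmap (P.TT0 k t1) (LinearMap.ker L1)]
    · exact h1
    · intro τ
      exact P.mem_ker_PairN
  have hker2 : finrank K (P.T k ⊓ P.TT0 k t1 ⊓ P.TT0 k t2 : Submodule K _) + 2 * q = a := by
    rw [inf_assoc, ← hmap (P.TT0 k t1 ⊓ P.TT0 k t2) (LinearMap.ker (L1.prod L2))]
    · exact h2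
    · intro τ
      rw [LinearMap.ker_prod]
      exact Iff.and P.mem_ker_PairN P.mem_ker_PairN
  -- each residue
  have hpt : ∀ e : ZMod m × ZMod m, finrank K (P.allowed k t1 t2 e)
      + ((if e.1 = 0 then 0 else 1) + (if e.1 = -1 ∧ e.2 ≠ 0 then 1 else 0)) * q = a := by
    intro e
    haveI : Fact (1 < m) := ⟨by omega⟩
    by_cases h0 : e.1 = 0
    · have hne : ¬ (e.1 = -1 ∧ e.2 ≠ 0) := by
        rintro ⟨h, _⟩
        rw [h0] at h
        have : (1 : ZMod m) = 0 := by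
          have h' : (0 : ZMod m) + 1 = -1 + 1 := by rw [h]
          simpa using h'
        exact one_ne_zero this
      have e1 : P.allowed k t1 t2 e = P.T k := by
        simp only [allowed]
        rw [if_pos h0, if_neg hne, inf_top_eq, inf_top_eq]
      rw [e1, if_pos h0, if_neg hne]
      simp [ha]
    · by_cases hb : e.1 = -1 ∧ e.2 ≠ 0
      · have e1 : P.allowed k t1 t2 e = P.T k ⊓ P.TT0 k t1 ⊓ P.TT0 k t2 := by
          simp only [allowed]
          rw [if_neg h0, if_pos hb]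
        rw [e1, if_neg h0, if_pos hb]
        omega
      · have e1 : P.allowed k t1 t2 e = P.T k ⊓ P.TT0 k t1 := by
          simp only [allowed]
          rw [if_neg h0, if_neg hb, inf_top_eq]
        rw [e1, if_neg h0, if_neg hb]
        omega
  -- sum over the residues
  have hcount : ∑ e : ZMod m × ZMod m,
      ((if e.1 = 0 then 0 else 1) + (if e.1 = -1 ∧ e.2 ≠ 0 then 1 else 0)) = m ^ 2 - 1 := by
    have hc : Fintype.card (ZMod m) = m := ZMod.card m
    rw [Finset.sum_add_distrib, Fintype.sum_prod_type, Fintype.sum_prod_type]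
    have h3 : ∀ x : ZMod m, ∑ _y : ZMod m, (if x = 0 then 0 else 1) = if x = 0 then 0 else m := by
      intro x
      by_cases hx : x = 0
      · simp [hx]
      · simp [hx, hc]
    have h4 : ∀ x : ZMod m, ∑ y : ZMod m, (if x = -1 ∧ y ≠ 0 then 1 else 0)
        = if x = -1 then m - 1 else 0 := by
      intro x
      by_cases hx : x = -1
      · simp only [hx, true_and, if_true]
        have : ∑ y : ZMod m, (if y ≠ 0 then 1 else 0) = m - 1 := by
          rw [Finset.sum_boole]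
          simp only [Nat.cast_id]
          rw [Finset.filter_ne', Finset.card_erase_of_mem (Finset.mem_univ _), Finset.card_univ, hc]
        exact this
      · simp [hx]
    simp only [h3, h4]
    rw [Finset.sum_ite, Finset.sum_ite]
    simp only [Finset.sum_const_zero, zero_add, add_zero, Finset.sum_const, smul_eq_mul]
    rw [Finset.filter_ne', Finset.card_erase_of_mem (Finset.mem_univ _), Finset.card_univ, hc,
      Finset.filter_eq' , if_pos (Finset.mem_univ _), Finset.card_singleton]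
    have hm1 : 1 ≤ m := by omega
    obtain ⟨n, rfl⟩ : ∃ n, m = n + 1 := ⟨m - 1, by omega⟩
    simp only [Nat.add_sub_cancel]
    have : (n + 1) ^ 2 - 1 = n * (n + 1) + 1 * n := by
      have : (n + 1) ^ 2 = n * (n + 1) + 1 * n + 1 := by ring
      omega
    rw [this]
  -- conclusion
  have hsum := Finset.sum_congr (rfl : (Finset.univ : Finset (ZMod m × ZMod m)) = Finset.univ)
    (fun e _ => hpt e)
  rw [Finset.sum_add_distrib, ← Finset.sum_mul, hcount, Finset.sum_const, Finset.card_univ,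
    Fintype.card_prod, ZMod.card, smul_eq_mul] at hsum
  rw [hsum, pow_two]

end Pair

end Pt

end Crest.Agent.Kurosh.State
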