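/-
S0270 (Kurosh), blueprint v3 §E: existence of admissible pairs at a valid state, and `𝕂(0)=0`.
`orc_zero`, `exists_adm` of `Plan.lean`; the dimension of `𝕀(k)` relative to `𝕋` (`IIT`).
-/
import Crest.Agent.Kurosh.PlanDefs
import Crest.Agent.Kurosh.StateII

set_option autoImplicit false

namespace Crest.Agent.Kurosh.AdmExist

open Hensel State Module LU LU.Tw0 LU.Tw
open _root_.Crest.Agent.Kurosh.Inv
open _root_.Crest.Agent.Kurosh.Inv.St

section Abstract

variable {F K A : Type*} [Field F] [Field K] [DivisionRing A] [Algebra F K] [Algebra K A]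
  [Algebra F A] [IsScalarTower F K A] (P : State.Pt F K A (Fin 2))

lemma mem_II_iff {k : ℕ} {c : ℕ → A} : c ∈ St.II P k ↔ c ∈ P.II k := Iff.rfl

/-- `𝕀(u) ≤ 𝕀(l)` for `u ≤ l`. -/
lemma II_mono {u l : ℕ} (h : u ≤ l) : St.II P u ≤ St.II P l := by
  rintro c ⟨h1, h2⟩
  refine ⟨P.KK_mono h h1, fun t ht t' ht' => ?_⟩
  rw [P.PP_of_le h h1]
  exact h2 t (P.T_anti h ht) t' (P.T_anti h ht')

/-- `IIT(u,𝕋) ≤ IIT(l,𝕋)` for `u ≤ l`. -/
lemma IIT_mono {u l : ℕ} (h : u ≤ l) (TT : Submodule K (Fin 2 → A)) : IIT P u TT ≤ IIT P l TT := by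
  rintro c ⟨h1, h2⟩
  refine ⟨P.KK_mono h h1, fun t ht t' ht' => ?_⟩
  rw [P.PP_of_le h h1]
  exact h2 t ht t' (P.T_anti h ht')

lemma IIT_le_KK (k : ℕ) (TT : Submodule K (Fin 2 → A)) : IIT P k TT ≤ P.KK k := fun _ h => h.1

/-- `𝕀(k) ≤ IIT(k,𝕋)` for `𝕋 ≤ T(k)`. -/
lemma II_le_IIT {k : ℕ} {TT : Submodule K (Fin 2 → A)} (h : TT ≤ P.T k) : St.II P k ≤ IIT P k TT :=
  fun _ hc => ⟨hc.1, fun t ht t' ht' => hc.2 t (h ht) t' ht'⟩

/-- `IIT(k,T(k)) = 𝕀(k)`. -/
lemma IIT_self (k : ℕ) : IIT P k (P.T k) = St.II P k := by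
  ext c
  exact Iff.rfl

/-- `P_c = 0` on `𝕋×𝕋` for `c ∈ IIT(k,𝕋)`, `𝕋 ≤ T(k)`. -/
lemma IIT_vanish {k : ℕ} {TT : Submodule K (Fin 2 → A)} (h : TT ≤ P.T k) :
    ∀ c ∈ IIT P k TT, ∀ t ∈ TT, ∀ t' ∈ TT, P.PP k c t t' = 0 :=
  fun _ hc t ht t' ht' => hc.2 t ht t' (h ht')

/-- `𝒫_l ⊂ C_l`. -/
lemma PPl_le_cent (S : ℕ → Set A) (l : ℕ) : PPl P S l ≤ Cl P l := by
  refine iSup₂_le fun y _ p hp => ?_
  exact mem_cent.2 hp.1.symm

variable [FiniteDimensional K A]

/-- The orthogonal of `W ⊂ C_l` in `C_l` has the complementary dimension. -/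
lemma finrank_RR_add (S : ℕ → Set A) (l : ℕ) :
    finrank K (RR P S l) + finrank K (PPl P S l) = finrank K (cent (K := K) (P.β l)) := by
  set C := cent (K := K) (P.β l) with hC
  have hW : PPl P S l ≤ C := PPl_le_cent P S l
  let M : Submodule K C := (PPl P S l).comap C.subtype
  have hM : finrank K M = finrank K (PPl P S l) :=
    (Submodule.comapSubtypeEquivOfLe hW).finrank_eq
  let φ : C →ₗ[K] Dual K M := M.subtype.dualMap ∘ₗ P.pairC l
  have hs : Function.Surjective φ := by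
    intro f
    obtain ⟨g, hg⟩ := LinearMap.exists_extend f
    obtain ⟨c, hc⟩ := P.pairC_surjective l g
    refine ⟨c, ?_⟩
    change M.subtype.dualMap (P.pairC l c) = f
    rw [hc, ← hg]
    rfl
  have hker : LinearMap.ker φ = (RR P S l).comap C.subtype := by
    ext c
    simp only [LinearMap.mem_ker, Submodule.mem_comap, Submodule.subtype_apply]
    constructor
    · intro h0
      refine ⟨c.2, fun p hp => ?_⟩
      rw [P.τ_comm]
      exact LinearMap.congr_fun h0 ⟨⟨p, hW hp⟩, hp⟩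
    · intro h0
      ext y
      have := h0.2 y.1.1 y.2
      rw [P.τ_comm] at this
      exact this
  have hleA : RR P S l ≤ C := fun x hx => hx.1
  have h2 : finrank K ((RR P S l).comap C.subtype) = finrank K (RR P S l) :=
    (Submodule.comapSubtypeEquivOfLe hleA).finrank_eq
  have h1 := LinearMap.finrank_range_add_finrank_ker φ
  have h3 : finrank K (Dual K M) = finrank K M := @Subspace.dual_finrank_eq K M _ _ _
  rw [LinearMap.range_eq_top.2 hs, finrank_top, h3, hM, hker, h2] at h1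
  omega

variable {N : ℕ} {R : ℕ → Rec} {Q : ℕ → Polynomial F} {l r : ℕ} {S : ℕ → Set A}
  {TT : Submodule K (Fin 2 → A)}

/-- `dim 𝔸_u ≤ dim 𝒫_u + q_u`. -/
lemma finrank_Ann_le (hV : Valid P N R Q l r S TT) {u : ℕ} (hu : u < l) :
    finrank K (P.Ann u) ≤ finrank K (PPl P S u) + (R u).q := by
  have h1 := P.finrank_Ann_add u
  have h2 := finrank_RR_add P S u
  have h3 := hV.mov_codim u hu
  omega

instance IIT_finite (k : ℕ) (TT : Submodule K (Fin 2 → A)) : Module.Finite K (IIT P k TT) :=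
  Submodule.finiteDimensional_of_le (IIT_le_KK P k TT)

/-- `dim IIT(k,𝕋) ≥ ∑_{u<k} dim 𝒫_u`. -/
lemma sum_finrank_PPl_le (hV : Valid P N R Q l r S TT) {k : ℕ} (hk : k ≤ l) :
    ∑ u ∈ Finset.range k, finrank K (PPl P S u) ≤ finrank K (IIT P k TT) := by
  induction k with
  | zero => simp
  | succ k ih =>
    have ih' := ih (by omega)
    rw [Finset.sum_range_succ]
    have hkl : k < l := by omega
    let f : IIT P (k + 1) TT →ₗ[K] A := LinearMap.proj k ∘ₗ (IIT P (k + 1) TT).subtype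
    have h := LinearMap.finrank_range_add_finrank_ker f
    have hr : PPl P S k ≤ LinearMap.range f := by
      intro p hp
      obtain ⟨c, hc, rfl⟩ := hV.lift k hkl p hp
      exact ⟨⟨c, hc⟩, rfl⟩
    have hle : IIT P k TT ≤ IIT P (k + 1) TT := IIT_mono P (Nat.le_succ k) TT
    have hker : (IIT P k TT).comap (IIT P (k + 1) TT).subtype ≤ LinearMap.ker f := by
      intro c hc
      rw [LinearMap.mem_ker]
      exact hc.1.1 k le_rfl
    have h2 : finrank K ((IIT P k TT).comap (IIT P (k + 1) TT).subtype) = finrank K (IIT P k TT) :=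
      (Submodule.comapSubtypeEquivOfLe hle).finrank_eq
    have h3 := Submodule.finrank_mono hr
    have h4 := Submodule.finrank_mono hker
    omega

/-- The quotient `𝕄(l) = 𝕂(l)/IIT(l,𝕋)`. -/
noncomputable abbrev MMT (P : State.Pt F K A (Fin 2)) (l : ℕ) (TT : Submodule K (Fin 2 → A)) :
    Type _ := P.MMN l (IIT P l TT)

/-- `dim 𝕂(l)/IIT(l,𝕋) ≤ q#(l)`. -/
lemma finrank_MMT_le (hV : Valid P N R Q l r S TT) :
    finrank K (MMT P l TT) ≤ qS R l := by
  have h1 : finrank K (MMT P l TT) + finrank K (IIT P l TT) = finrank K (P.KK l) :=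
    P.finrank_MMN_add (IIT_le_KK P l TT)
  have h2 := P.finrank_KK_eq_sum l
  have h3 := sum_finrank_PPl_le P hV (le_refl l)
  have h4 : ∑ u ∈ Finset.range l, finrank K (P.Ann u) ≤
      ∑ u ∈ Finset.range l, (finrank K (PPl P S u) + (R u).q) :=
    Finset.sum_le_sum fun u hu => finrank_Ann_le P hV (Finset.mem_range.1 hu)
  rw [Finset.sum_add_distrib] at h4
  unfold qS
  omega

omit [FiniteDimensional K A] in
/-- A class not in `IIT(l,𝕋)` has a representative with non-implied top component. -/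
lemma exists_top (hV : Valid P N R Q l r S TT) {k : ℕ} (hk : k ≤ l) :
    ∀ c ∈ P.KK k, c ∉ IIT P l TT → ∃ u < l, ∃ c' ∈ P.KK (u + 1), c - c' ∈ IIT P l TT ∧
      c' u ∉ PPl P S u := by
  induction k with
  | zero =>
    intro c hc hc'
    exfalso
    apply hc'
    rw [P.KK_zero, Submodule.mem_bot] at hc
    rw [hc]
    exact zero_mem _
  | succ k ih =>
    intro c hc hc'
    have hkl : k < l := by omega
    by_cases hp : c k ∈ PPl P S k
    · obtain ⟨c'', hc'', hck⟩ := hV.lift k hkl _ hp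
      have h1 : c - c'' ∈ P.KK (k + 1) := sub_mem hc hc''.1
      have h2 : c - c'' ∈ P.KK k := P.mem_KK_of_last h1 (by simp [hck])
      have h3 : c'' ∈ IIT P l TT := IIT_mono P (by omega) TT hc''
      have h4 : c - c'' ∉ IIT P l TT := fun h => hc' (by simpa using add_mem h h3)
      obtain ⟨u, hu, c', hc1, hc2, hc3⟩ := ih (by omega) _ h2 h4
      refine ⟨u, hu, c', hc1, ?_, hc3⟩
      have := add_mem hc2 h3
      have e : c - c'' - c' + c'' = c - c' := by abel
      rwa [e] at this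
    · exact ⟨k, hkl, c, hc, by simp [zero_mem], hp⟩

omit [FiniteDimensional K A] in
/-- Rank of a nonzero class on `𝕋`. -/
lemma rank_ge (hV : Valid P N R Q l r S TT) (v : MMT P l TT) (hv : v ≠ 0) :
    5 * qS R r ≤ finrank K (LinearMap.range (P.PFormN l (IIT P l TT) TT
      (IIT_vanish P ((hV.TT_le).trans (P.T_anti hV.le))) v)) := by
  have hlr := hV.le
  have hTT : TT ≤ P.T l := (hV.TT_le).trans (P.T_anti hlr)
  obtain ⟨⟨c, hc⟩, rfl⟩ := Submodule.Quotient.mk_surjective _ v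
  have hc0 : c ∉ IIT P l TT := fun h => hv (P.mkMN_eq_zero_iff.2 h)
  obtain ⟨u, hu, c', hc1, hc2, hc3⟩ := exists_top P hV le_rfl c hc hc0
  have h5 := hV.rank u hu c' hc1 hc3
  have hc'l : c' ∈ P.KK l := P.KK_mono (by omega) hc1
  have e : (PPb P r c').domRestrict₁₂ TT TT =
      P.PFormN l (IIT P l TT) TT (IIT_vanish P hTT) (P.mkMN l (IIT P l TT) ⟨c, hc⟩) := by
    ext t t'
    simp only [LinearMap.domRestrict₁₂_apply, PPb_apply, Pt.PFormN_mk]
    rw [P.PP_of_le hlr hc'l]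
    have h6 := hc2.2 t t.2 t' (hTT t'.2)
    have h7 := P.PP_add_c l (c - c') c' t t'
    rw [sub_add_cancel] at h7
    rw [h7, h6, zero_add]
  unfold rkOn at h5
  rw [e] at h5
  exact h5

omit [FiniteDimensional K A] in
lemma qS_mono (R : ℕ → Rec) {a b : ℕ} (h : a ≤ b) : qS R a ≤ qS R b :=
  Finset.sum_le_sum_of_subset (Finset.range_mono h)

/-- **Admissible pairs exist** (abstract form). -/
theorem exists_adm_abs [Infinite K] (hV : Valid P N R Q l r S TT) :
    ∃ t1 t2, Adm P l TT t1 t2 := by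
  classical
  have hS := hV.TT_S l hV.le
  have hlr := hV.le
  have hTT : TT ≤ P.T l := (hV.TT_le).trans (P.T_anti hlr)
  have hq : finrank K (MMT P l TT) ≤ qS R r := (finrank_MMT_le P hV).trans (qS_mono R hlr)
  let U : Submodule K TT := (Inn P).comap TT.subtype
  have hUf : finrank K U = finrank K ↥(TT ⊓ Inn P) := by
    have e : U = (TT ⊓ Inn P).comap TT.subtype := by
      ext x
      simp [U]
    rw [e]
    exact (Submodule.comapSubtypeEquivOfLe (inf_le_left)).finrank_eq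
  have hbig := hV.TT_big
  have hU : finrank K U + finrank K (MMT P l TT) + 1 < finrank K TT := by omega
  have hr : ∀ v : MMT P l TT, v ≠ 0 →
      3 * finrank K (MMT P l TT) + (finrank K TT - finrank K (⊤ : Submodule K TT))
      ≤ finrank K (LinearMap.range (P.PFormN l (IIT P l TT) TT (IIT_vanish P hTT) v)) := by
    intro v hv
    have h1 := rank_ge P hV v hv
    have h2 : finrank K TT - finrank K (⊤ : Submodule K TT) = 0 := by
      rw [finrank_top]; omega
    rw [h2]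
    omega
  obtain ⟨t1, t2, -, ht1, ht2, hPP, hsurj⟩ := P.exists_pair_of_rankN l (IIT P l TT) TT
    (IIT_vanish P hTT) U ⊤ hU hr (S1 := Set.univ) (Rank.lineOpen_univ) Set.univ_nonempty
  refine ⟨t1, t2, t1.2, t2.2, hS _ t1.2, hS _ t2.2, hPP, ?_, ?_⟩
  · intro φ₁ φ₂ h1 h2
    let f₁ : Dual K (MMT P l TT) := Submodule.liftQ _ (φ₁ ∘ₗ (P.KK l).subtype) (fun c hc => h1 _ hc)
    let f₂ : Dual K (MMT P l TT) := Submodule.liftQ _ (φ₂ ∘ₗ (P.KK l).subtype) (fun c hc => h2 _ hc)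
    obtain ⟨τ, -, h3, h4⟩ := hsurj f₁ f₂
    refine ⟨τ, τ.2, fun c hc => ⟨?_, ?_⟩⟩
    · have := LinearMap.congr_fun h3 (P.mkMN l (IIT P l TT) ⟨c, hc⟩)
      exact this
    · have := LinearMap.congr_fun h4 (P.mkMN l (IIT P l TT) ⟨c, hc⟩)
      exact this
  · intro x y hxy
    by_cases hy : y = 0
    · subst hy
      refine ⟨?_, rfl⟩
      by_contra hx
      apply ht1
      have e : (t1 : Fin 2 → A) = x⁻¹ • (x • (t1 : Fin 2 → A) + (0 : K) • (t2 : Fin 2 → A)) := by
        rw [zero_smul, add_zero, smul_smul, inv_mul_cancel₀ hx, one_smul]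
      show (t1 : Fin 2 → A) ∈ Inn P
      rw [e]
      exact Submodule.smul_mem _ _ hxy
    · exfalso
      apply ht2
      have h1 : y⁻¹ • (x • t1 + y • t2) ∈ U := by
        apply Submodule.smul_mem
        show ((x • t1 + y • t2 : TT) : Fin 2 → A) ∈ Inn P
        simpa using hxy
      have e : t2 = y⁻¹ • (x • t1 + y • t2) - (y⁻¹ * x) • t1 := by
        rw [smul_add, smul_smul, smul_smul, inv_mul_cancel₀ hy, one_smul]
        abel
      rw [e]
      exact Submodule.sub_mem _ (Submodule.mem_sup_left h1)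
        (Submodule.mem_sup_right (Submodule.smul_mem _ _ (Submodule.mem_span_singleton_self t1)))

/-! ### Consequences of the clauses of `Valid` (WP 301, for the other modules) -/

omit [FiniteDimensional K A] in
/-- `Valid` is monotone in the number of verified indices. -/
lemma Valid.mono (hV : Valid P N R Q l r S TT) {l' : ℕ} (h : l' ≤ l) :
    Valid P N R Q l' r S TT where
  le := h.trans hV.le
  frozen := hV.frozen
  comm := hV.comm
  dvd := hV.dvd
  qbd := hV.qbd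
  q_small := hV.q_small
  S_ne := fun u hu => hV.S_ne u (by omega)
  S_good := fun u hu => hV.S_good u (by omega)
  mov_le := fun u hu => hV.mov_le u (by omega)
  mov_codim := fun u hu => hV.mov_codim u (by omega)
  rank := fun u hu => hV.rank u (by omega)
  lift := fun u hu => hV.lift u (by omega)
  big := fun u hu => hV.big u (by omega)
  TT_le := hV.TT_le
  TT_S := hV.TT_S
  TT_big := hV.TT_big
  one := hV.one

/-- **`𝕀` detection on `𝕋`**: `c ∈ 𝕂(k)` with `P_c = 0` on `𝕋×𝕋` lies in `IIT(k,𝕋)` (`k ≤ l`). -/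
lemma mem_IIT_of_rank_zero (hV : Valid P N R Q l r S TT) {k : ℕ} (hk : k ≤ l) {c : ℕ → A}
    (hc : c ∈ P.KK k) (h0 : ∀ t ∈ TT, ∀ t' ∈ TT, P.PP k c t t' = 0) : c ∈ IIT P k TT := by
  by_contra hc0
  have hV' := Valid.mono P hV hk
  have hTT : TT ≤ P.T k := (hV'.TT_le).trans (P.T_anti hV'.le)
  have hv : P.mkMN k (IIT P k TT) ⟨c, hc⟩ ≠ 0 := fun h => hc0 (P.mkMN_eq_zero_iff.1 h)
  have h1 := rank_ge P hV' (P.mkMN k (IIT P k TT) ⟨c, hc⟩) hv
  have h2 : P.PFormN k (IIT P k TT) TT (IIT_vanish P hTT) (P.mkMN k (IIT P k TT) ⟨c, hc⟩) = 0 := by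
    ext t t'
    exact h0 t t.2 t' t'.2
  rw [h2, LinearMap.range_zero, finrank_bot] at h1
  have h3 : finrank K (MMT P k TT) ≤ qS R r :=
    (finrank_MMT_le P hV').trans (qS_mono R hV'.le)
  have h4 : finrank K (MMT P k TT) = 0 := by omega
  have h5 : Subsingleton (MMT P k TT) := Module.finrank_zero_iff.1 h4
  exact hv (Subsingleton.elim _ _)

/-- `IIT(k+1,𝕋) ∩ 𝕂(k) = IIT(k,𝕋)` for `k ≤ l`, `k < r`. -/
lemma mem_IIT_of_succ (hV : Valid P N R Q l r S TT) {k : ℕ} (hk : k ≤ l) (hkr : k < r) {c : ℕ → A}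
    (hc : c ∈ P.KK k) (h1 : c ∈ IIT P (k + 1) TT) : c ∈ IIT P k TT := by
  refine mem_IIT_of_rank_zero P hV hk hc fun t ht t' ht' => ?_
  have hT : TT ≤ P.T (k + 1) := (hV.TT_le).trans (P.T_anti hkr)
  rw [← P.PP_of_le (Nat.le_succ k) hc]
  exact h1.2 t ht t' (hT ht')

/-- `IIT(u+1,𝕋) → 𝒫_u`: the newest component of an element of `IIT(u+1,𝕋)` is implied (`u<l`). -/
lemma top_mem_PPl (hV : Valid P N R Q l r S TT) {u : ℕ} (hu : u < l) {c : ℕ → A}
    (h1 : c ∈ IIT P (u + 1) TT) : c u ∈ PPl P S u := by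
  by_contra hc
  have hur : u + 1 ≤ r := by have := hV.le; omega
  have h5 := hV.rank u hu c h1.1 hc
  have hT : TT ≤ P.T (u + 1) := (hV.TT_le).trans (P.T_anti hur)
  have h2 : (PPb P r c).domRestrict₁₂ TT TT = 0 := by
    ext t t'
    simp only [LinearMap.domRestrict₁₂_apply, PPb_apply, LinearMap.zero_apply]
    rw [P.PP_of_le hur h1.1]
    exact h1.2 t t.2 t' (hT t'.2)
  unfold rkOn at h5
  rw [h2, LinearMap.range_zero, finrank_bot] at h5
  -- all the `q` vanish, so `𝔸_u = 𝒫_u`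
  have hq0 : qS R r = 0 := by omega
  have hqu : (R u).q = 0 := by
    have h6 : (R u).q ≤ qS R r :=
      Finset.single_le_sum (f := fun i => (R i).q) (fun _ _ => Nat.zero_le _)
        (Finset.mem_range.2 (by omega))
    omega
  have h7 := finrank_Ann_le P hV hu
  rw [hqu, add_zero] at h7
  have hPA : PPl P S u ≤ P.Ann u := by
    intro p hp
    obtain ⟨c', hc', rfl⟩ := hV.lift u hu p hp
    exact P.mem_Ann_iff_lift.2 ⟨c', hc'.1, rfl⟩
  have h8 : PPl P S u = P.Ann u := Submodule.eq_of_le_of_finrank_le hPA h7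
  apply hc
  rw [h8]
  exact P.mem_Ann_iff_lift.2 ⟨c, h1.1, rfl⟩

/-- `dim IIT(k,𝕋) = ∑_{u<k} dim 𝒫_u` (`k ≤ l`). -/
theorem finrank_IIT_eq (hV : Valid P N R Q l r S TT) {k : ℕ} (hk : k ≤ l) :
    finrank K (IIT P k TT) = ∑ u ∈ Finset.range k, finrank K (PPl P S u) := by
  refine le_antisymm ?_ (sum_finrank_PPl_le P hV hk)
  induction k with
  | zero =>
    have : IIT P 0 TT = ⊥ := by
      rw [eq_bot_iff]
      intro c hc
      have := hc.1
      rw [P.KK_zero] at this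
      exact this
    rw [this, finrank_bot]
    simp
  | succ k ih =>
    have ih' := ih (by omega)
    rw [Finset.sum_range_succ]
    have hkl : k < l := by omega
    have hkr : k < r := by have := hV.le; omega
    let f : IIT P (k + 1) TT →ₗ[K] A := LinearMap.proj k ∘ₗ (IIT P (k + 1) TT).subtype
    have h := LinearMap.finrank_range_add_finrank_ker f
    have hr : LinearMap.range f ≤ PPl P S k := by
      rintro _ ⟨c, rfl⟩
      exact top_mem_PPl P hV hkl c.2
    have hle : IIT P k TT ≤ IIT P (k + 1) TT := IIT_mono P (Nat.le_succ k) TT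
    have hker : LinearMap.ker f ≤ (IIT P k TT).comap (IIT P (k + 1) TT).subtype := by
      intro c hc
      have h0 : (c : ℕ → A) k = 0 := LinearMap.mem_ker.1 hc
      exact mem_IIT_of_succ P hV (by omega) hkr (P.mem_KK_of_last c.2.1 h0) c.2
    have h2 : finrank K ((IIT P k TT).comap (IIT P (k + 1) TT).subtype) = finrank K (IIT P k TT) :=
      (Submodule.comapSubtypeEquivOfLe hle).finrank_eq
    have h3 := Submodule.finrank_mono hr
    have h4 := Submodule.finrank_mono hker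
    omega

/-- `dim 𝕄(k) + ∑_{u<k} dim Mov_u = ∑_{u<k} dim R_u` (`k ≤ l`, `𝕄 = 𝕂/IIT`): with `TightS`,
`dim 𝕄(k) = q#(k)`. -/
theorem finrank_MMT_add_sum (hV : Valid P N R Q l r S TT) {k : ℕ} (hk : k ≤ l) :
    finrank K (MMT P k TT) + ∑ u ∈ Finset.range k, finrank K (P.Mov u) =
      ∑ u ∈ Finset.range k, finrank K (RR P S u) := by
  have h1 : finrank K (MMT P k TT) + finrank K (IIT P k TT) = finrank K (P.KK k) :=
    P.finrank_MMN_add (IIT_le_KK P k TT)
  have h2 := P.finrank_KK_eq_sum k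
  have h3 := finrank_IIT_eq P hV hk
  have h4 : ∑ u ∈ Finset.range k, (finrank K (P.Ann u) + finrank K (P.Mov u)) =
      ∑ u ∈ Finset.range k, (finrank K (RR P S u) + finrank K (PPl P S u)) :=
    Finset.sum_congr rfl fun u _ => by rw [P.finrank_Ann_add u, finrank_RR_add P S u]
  rw [Finset.sum_add_distrib, Finset.sum_add_distrib] at h4
  omega

/-- `dim 𝕄(k) = q#(k)` if `dim R_u = dim Mov_u + q_u` for all `u<k`. -/
theorem finrank_MMT_eq (hV : Valid P N R Q l r S TT) {k : ℕ} (hk : k ≤ l)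
    (htight : ∀ u < k, finrank K (RR P S u) = finrank K (P.Mov u) + (R u).q) :
    finrank K (MMT P k TT) = qS R k := by
  have h1 := finrank_MMT_add_sum P hV hk
  have h2 : ∑ u ∈ Finset.range k, finrank K (RR P S u) =
      ∑ u ∈ Finset.range k, finrank K (P.Mov u) + qS R k := by
    unfold qS
    rw [← Finset.sum_add_distrib]
    exact Finset.sum_congr rfl fun u hu => htight u (Finset.mem_range.1 hu)
  omega

omit [FiniteDimensional K A] in
/-- (E3) `T0` maps onto `Mov_l` when `𝕋 ≤ T(l+1)`: for an admissible pair for the prefix `l`, every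
`y ∈ Mov_l` is `Π_l τ` for a `τ ∈ T(l)` with `P_c(t1,τ) = P_c(t2,τ) = 0`, `c ∈ 𝕂(l)`. -/
theorem exists_T0_of_mem_Mov {t1 t2 : Fin 2 → A} {k : ℕ} (hA : Adm P k TT t1 t2)
    (hTT : TT ≤ P.T (k + 1)) {y : A} (hy : y ∈ P.Mov k) :
    ∃ τ ∈ P.T k, P.e k (P.dL k τ) = y ∧ ∀ c ∈ P.KK k, P.PP k c t1 τ = 0 ∧ P.PP k c t2 τ = 0 := by
  classical
  obtain ⟨τ₀, hτ₀, rfl⟩ := P.mem_Mov.1 hy
  have hT : TT ≤ P.T k := hTT.trans (P.T_anti (Nat.le_succ k))
  -- the functionals `c ↦ P_c(t_b,τ₀)`, extended from `𝕂(k)` to all of `ℕ → A`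
  let g : (Fin 2 → A) → (P.KK k →ₗ[K] K) := fun t =>
    ((P.PPtri k).flip t).flip τ₀ ∘ₗ (P.KK k).subtype
  have hg : ∀ t (c : P.KK k), g t c = P.PP k c t τ₀ := fun _ _ => rfl
  obtain ⟨φ₁, hφ₁⟩ := LinearMap.exists_extend (g t1)
  obtain ⟨φ₂, hφ₂⟩ := LinearMap.exists_extend (g t2)
  have hφ₁' : ∀ c (hc : c ∈ P.KK k), φ₁ c = P.PP k c t1 τ₀ := fun c hc =>
    LinearMap.congr_fun hφ₁ ⟨c, hc⟩
  have hφ₂' : ∀ c (hc : c ∈ P.KK k), φ₂ c = P.PP k c t2 τ₀ := fun c hc =>
    LinearMap.congr_fun hφ₂ ⟨c, hc⟩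
  obtain ⟨t', ht', h⟩ := hA.H2 φ₁ φ₂
    (fun c hc => by rw [hφ₁' c hc.1]; exact hc.2 _ hA.mem1 _ hτ₀)
    (fun c hc => by rw [hφ₂' c hc.1]; exact hc.2 _ hA.mem2 _ hτ₀)
  refine ⟨τ₀ - t', sub_mem hτ₀ (hT ht'), ?_, fun c hc => ?_⟩
  · have h1 : P.e k (P.dL k t') = 0 := hTT ht' k (Nat.lt_succ_self k)
    rw [map_sub, map_sub, h1, sub_zero]
  · have e1 : ∀ t, P.PP k c t (τ₀ - t') = P.PP k c t τ₀ - P.PP k c t t' := fun t => by
      have := (P.PPtri k c t).map_sub τ₀ t'
      simpa using this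
    obtain ⟨h1, h2⟩ := h c hc
    rw [e1, e1, h1, h2, hφ₁' c hc, hφ₂' c hc]
    simp

end Abstract

section Tower

variable [Tw0] [Tw] {F : Subfield U} [CentF F]

open Crest.Agent.Kurosh.Plan

instance infKn (n : ℕ) : Infinite (Kn n) := by
  have : CharZero (Kn n) := inferInstance
  exact Infinite.of_injective (Nat.cast : ℕ → Kn n) Nat.cast_injective

/-- `orc_zero` of `Plan.lean`. -/
theorem orc_zero : Orc F 0 := by
  intro Ls n _ ρ r S TT _ t1 t2 _ J _ X g _
  refine ⟨fun m c hc => ?_, fun m _ _ c hc => ?_⟩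
  · have h0 : c = 0 := by
      have := hc.1
      rw [Pt.KK_zero, Submodule.mem_bot] at this
      exact this
    rw [h0, map_zero]
  · have h0 : c = 0 := by
      rw [Pt.KK_zero, Submodule.mem_bot] at hc
      exact hc
    rw [h0, map_zero]

/-- `exists_adm` of `Plan.lean`: existence of admissible pairs (§E, E2 + V5, with `K` infinite). -/
theorem exists_adm (Ls : Lst F) (n : ℕ) [Fact (F ≤ Kn n)] (ρ : Stt n) (l r : ℕ)
    (S : ℕ → Set (An n)) (TT : Submodule (Kn n) (Fin 2 → An n))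
    (h : Ctx F Ls n ρ l r S TT) :
    ∃ t1 t2, Adm (pt F n ρ Ls.a) l TT t1 t2 :=
  exists_adm_abs _ h.valid

end Tower

end Crest.Agent.Kurosh.AdmExist
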