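/-
S0270, WP299 (helper49): transport of the state invariants.

`SameTo P P' r`: two points (possibly over different coefficient fields) with the same `ρ`, `τ` and
the same `β_i`, `∂a_i`, `B_i` for `i < r`.  All objects of `Inv.lean` at indices below `r` agree, and
`Valid`, `CB`, `Good` transfer.

For `F ≤ F'` central in `U`: `tr h : FreeAlgebra F →ₐ FreeAlgebra F'`; `ListAgree`: the first `r`
entries of `Ls'` are the `tr` of those of `Ls`.  Then `Opt F Ls u → Opt F' Ls' u` and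
`Ctx F Ls ... → Ctx F' Ls' ...`.
-/
import Crest.Agent.Kurosh.PlanDefs

set_option autoImplicit false

namespace Crest.Agent.Kurosh.Transport

open State Module
open _root_.Crest.Agent.Kurosh.Inv
open _root_.Crest.Agent.Kurosh.Inv.St

section Split

variable {K A : Type*} [Field K] [Ring A] [Algebra K A]

lemma split_e_eq {β β' : A} (h : β = β') (S : Split (K := K) β) (S' : Split (K := K) β') (x : A) :
    S.e x = S'.e x := by
  subst h
  have h1 : x = S.e x + (β * S.inv x - S.inv x * β) := by rw [S.ad_inv]; abel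
  have h2 : S'.e (S.e x) = S.e x := S'.e_cent _ (S.e_mem x)
  have h3 : S'.e (β * S.inv x - S.inv x * β) = 0 :=
    S'.e_imAd _ (mem_imAd.mpr ⟨_, rfl⟩)
  conv_rhs => rw [h1, map_add, h2, h3, add_zero]

lemma split_inv_eq {β β' : A} (h : β = β') (S : Split (K := K) β) (S' : Split (K := K) β') (x : A) :
    S.inv x = S'.inv x := by
  subst h
  have he := split_e_eq rfl S S' x
  have h1 := S.ad_inv x
  have h2 := S'.ad_inv x
  set d := S.inv x - S'.inv x with hd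
  have hdc : d ∈ cent (K := K) β := by
    rw [mem_cent, ← sub_eq_zero]
    have : β * d - d * β = (β * S.inv x - S.inv x * β) - (β * S'.inv x - S'.inv x * β) := by
      rw [hd]; noncomm_ring
    rw [this, h1, h2, he]; abel
  have hdi : d ∈ imAd (K := K) β := Submodule.sub_mem _ (S.inv_mem x) (S'.inv_mem x)
  have h3 : S.e d = d := S.e_cent _ hdc
  have h4 : S.e d = 0 := S.e_imAd _ hdi
  exact sub_eq_zero.mp (h3.symm.trans h4)

end Split

section Abstract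

variable {F F' K A : Type*} [Field F] [Field F'] [Field K] [DivisionRing A]
  [Algebra F K] [Algebra K A] [Algebra F A] [IsScalarTower F K A]
  [Algebra F' K] [Algebra F' A] [IsScalarTower F' K A]

/-- Two points with the same data at the indices below `r`. -/
structure SameTo (P : Pt F K A (Fin 2)) (P' : Pt F' K A (Fin 2)) (r : ℕ) : Prop where
  ρ : P.ρ = P'.ρ
  τ : P.τ = P'.τ
  β : ∀ i < r, P.β i = P'.β i
  dL : ∀ i < r, ∀ t, P.dL i t = P'.dL i t
  d2 : ∀ i < r, ∀ t t', d2 P.ρ t t' (P.a i) = d2 P'.ρ t t' (P'.a i)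

namespace SameTo

variable {P : Pt F K A (Fin 2)} {P' : Pt F' K A (Fin 2)} {r : ℕ}

lemma symm (h : SameTo P P' r) : SameTo P' P r :=
  ⟨h.ρ.symm, h.τ.symm, fun i hi => (h.β i hi).symm, fun i hi t => (h.dL i hi t).symm,
    fun i hi t t' => by rw [h.d2 i hi]⟩

lemma mono (h : SameTo P P' r) {r' : ℕ} (hr : r' ≤ r) : SameTo P P' r' :=
  ⟨h.ρ, h.τ, fun i hi => h.β i (lt_of_lt_of_le hi hr),
    fun i hi t => h.dL i (lt_of_lt_of_le hi hr) t,
    fun i hi t t' => h.d2 i (lt_of_lt_of_le hi hr) t t'⟩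

lemma e_eq (h : SameTo P P' r) {i : ℕ} (hi : i < r) (x : A) : P.e i x = P'.e i x :=
  split_e_eq (h.β i hi) (P.split i) (P'.split i) x

lemma w_eq (h : SameTo P P' r) {i : ℕ} (hi : i < r) (t : Fin 2 → A) : P.w i t = P'.w i t := by
  show -(P.split i).inv (P.dL i t) = -(P'.split i).inv (P'.dL i t)
  rw [h.dL i hi t, split_inv_eq (h.β i hi) (P.split i) (P'.split i)]

lemma T_eq (h : SameTo P P' r) {l : ℕ} (hl : l ≤ r) : P.T l = P'.T l := by
  ext t
  simp only [Pt.mem_T]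
  constructor
  · intro ht i hi
    have := ht i hi
    rwa [h.e_eq (lt_of_lt_of_le hi hl), h.dL i (lt_of_lt_of_le hi hl)] at this
  · intro ht i hi
    have := ht i hi
    rwa [h.e_eq (lt_of_lt_of_le hi hl), h.dL i (lt_of_lt_of_le hi hl)]

lemma KK_eq (h : SameTo P P' r) {l : ℕ} (hl : l ≤ r) : P.KK l = P'.KK l := by
  ext c
  simp only [Pt.mem_KK]
  have hb : ∀ i, (∀ i, l ≤ i → c i = 0) →
      (P.β i * c i = c i * P.β i ↔ P'.β i * c i = c i * P'.β i) := by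
    intro i h0
    by_cases hi : i < l
    · rw [h.β i (lt_of_lt_of_le hi hl)]
    · simp [h0 i (not_lt.mp hi)]
  have hs : ∀ t, ∑ i ∈ Finset.range l, P.τ (c i * P.dL i t) =
      ∑ i ∈ Finset.range l, P'.τ (c i * P'.dL i t) := by
    intro t
    refine Finset.sum_congr rfl fun i hi => ?_
    rw [h.dL i (lt_of_lt_of_le (Finset.mem_range.mp hi) hl), h.τ]
  constructor
  · rintro ⟨h1, h2, h3⟩
    exact ⟨h1, fun i => (hb i h1).mp (h2 i), fun t => by rw [← hs, h3]⟩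
  · rintro ⟨h1, h2, h3⟩
    exact ⟨h1, fun i => (hb i h1).mpr (h2 i), fun t => by rw [hs, h3]⟩

lemma Mov_eq (h : SameTo P P' r) {l : ℕ} (hl : l < r) : P.Mov l = P'.Mov l := by
  ext x
  simp only [Pt.mem_Mov]
  rw [h.T_eq hl.le]
  constructor
  · rintro ⟨t, ht, rfl⟩
    exact ⟨t, ht, by rw [h.e_eq hl, h.dL l hl]⟩
  · rintro ⟨t, ht, rfl⟩
    exact ⟨t, ht, by rw [h.e_eq hl, h.dL l hl]⟩

lemma Gam_eq (h : SameTo P P' r) {l : ℕ} (hl : l ≤ r) (c : ℕ → A) (t t' : Fin 2 → A) :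
    P.Gam l c t t' = P'.Gam l c t t' := by
  unfold Pt.Gam
  refine Finset.sum_congr rfl fun i hi => ?_
  have hi' := lt_of_lt_of_le (Finset.mem_range.mp hi) hl
  rw [h.d2 i hi', h.dL i hi', h.w_eq hi', h.τ]

lemma SS_eq (h : SameTo P P' r) {l : ℕ} (hl : l ≤ r) (c : ℕ → A) (t t' : Fin 2 → A) :
    P.SS l c t t' = P'.SS l c t t' := by
  unfold Pt.SS
  rw [h.Gam_eq hl, h.Gam_eq hl]

lemma PP_eq (h : SameTo P P' r) {l : ℕ} (hl : l ≤ r) (c : ℕ → A) (t t' : Fin 2 → A) :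
    P.PP l c t t' = P'.PP l c t t' := by
  unfold Pt.PP
  rw [h.Gam_eq hl, h.Gam_eq hl]

lemma PPb_eq (h : SameTo P P' r) {l : ℕ} (hl : l ≤ r) (c : ℕ → A) : PPb P l c = PPb P' l c := by
  ext t t'
  exact h.PP_eq hl c _ _

lemma rkOn_eq (h : SameTo P P' r) {l : ℕ} (hl : l ≤ r) (c : ℕ → A) (TT : Submodule K (Fin 2 → A)) :
    rkOn P l c TT = rkOn P' l c TT := by
  unfold rkOn
  rw [h.PPb_eq hl]

lemma II_eq (h : SameTo P P' r) {l : ℕ} (hl : l ≤ r) : II P l = II P' l := by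
  ext c
  show (c ∈ P.KK l ∧ ∀ t ∈ P.T l, ∀ t' ∈ P.T l, P.PP l c t t' = 0) ↔
    (c ∈ P'.KK l ∧ ∀ t ∈ P'.T l, ∀ t' ∈ P'.T l, P'.PP l c t t' = 0)
  rw [h.KK_eq hl, h.T_eq hl]
  simp only [h.PP_eq hl]

lemma IIT_eq (h : SameTo P P' r) {l : ℕ} (hl : l ≤ r) (TT : Submodule K (Fin 2 → A)) :
    IIT P l TT = IIT P' l TT := by
  ext c
  show (c ∈ P.KK l ∧ ∀ t ∈ TT, ∀ t' ∈ P.T l, P.PP l c t t' = 0) ↔
    (c ∈ P'.KK l ∧ ∀ t ∈ TT, ∀ t' ∈ P'.T l, P'.PP l c t t' = 0)
  rw [h.KK_eq hl, h.T_eq hl]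
  simp only [h.PP_eq hl]

lemma Cl_eq (h : SameTo P P' r) {l : ℕ} (hl : l < r) : Cl P l = Cl P' l := by
  unfold Cl
  rw [h.β l hl]

lemma Annl_eq (h : SameTo P P' r) {l : ℕ} (hl : l < r) : Annl P l = Annl P' l := by
  ext x
  show (x ∈ Cl P l ∧ ∀ z ∈ P.Mov l, P.τ (x * z) = 0) ↔ (x ∈ Cl P' l ∧ ∀ z ∈ P'.Mov l, P'.τ (x * z) = 0)
  rw [h.Cl_eq hl, h.Mov_eq hl, h.τ]

lemma Fy_eq (h : SameTo P P' r) {l : ℕ} (hl : l < r) (y : A) : Fy P l y = Fy P' l y := by
  unfold Fy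
  rw [h.β l hl]

lemma eIm_eq (h : SameTo P P' r) (E W : Submodule K A) : eIm P E W = eIm P' E W := by
  ext f
  show (f ∈ E ∧ ∃ z ∈ W, ∀ f' ∈ E, P.τ (f * f') = P.τ (z * f')) ↔
    (f ∈ E ∧ ∃ z ∈ W, ∀ f' ∈ E, P'.τ (f * f') = P'.τ (z * f'))
  rw [h.τ]

lemma Ay_eq (h : SameTo P P' r) {l : ℕ} (hl : l < r) (y : A) : Ay P l y = Ay P' l y := by
  unfold Ay
  rw [h.Fy_eq hl, h.Mov_eq hl, h.eIm_eq]

lemma Ly_eq (h : SameTo P P' r) {l : ℕ} (hl : l < r) (y : A) : Ly P l y = Ly P' l y := by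
  unfold Ly
  rw [h.Ay_eq hl]

lemma PPy_eq (h : SameTo P P' r) {l : ℕ} (hl : l < r) (y : A) : PPy P l y = PPy P' l y := by
  ext p
  show (p * P.β l = P.β l * p ∧ p * y = y * p ∧ ∀ f ∈ Ly P l y, P.τ (p * (y * f)) = 0) ↔
    (p * P'.β l = P'.β l * p ∧ p * y = y * p ∧ ∀ f ∈ Ly P' l y, P'.τ (p * (y * f)) = 0)
  rw [h.β l hl, h.Ly_eq hl, h.τ]

lemma PPl_eq (h : SameTo P P' r) {l : ℕ} (hl : l < r) (S : ℕ → Set A) : PPl P S l = PPl P' S l := by
  unfold PPl
  simp only [h.PPy_eq hl]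

lemma RR_eq (h : SameTo P P' r) {l : ℕ} (hl : l < r) (S : ℕ → Set A) : RR P S l = RR P' S l := by
  ext x
  show (x ∈ Cl P l ∧ ∀ p ∈ PPl P S l, P.τ (p * x) = 0) ↔
    (x ∈ Cl P' l ∧ ∀ p ∈ PPl P' S l, P'.τ (p * x) = 0)
  rw [h.Cl_eq hl, h.PPl_eq hl, h.τ]

lemma Inn_eq (h : SameTo P P' r) : Inn P = Inn P' := by
  unfold Inn
  rw [h.ρ]

lemma Good_iff (h : SameTo P P' r) {l : ℕ} (hl : l < r) (N : ℕ) (R : Rec) (y : A) :
    Good P N R l y ↔ Good P' N R l y := by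
  constructor
  · rintro ⟨h1, h2, h3, h4, h5⟩
    refine ⟨by rwa [← h.Mov_eq hl], h2, by rwa [← h.Fy_eq hl], by rwa [← h.Ay_eq hl],
      by rwa [← h.Ly_eq hl]⟩
  · rintro ⟨h1, h2, h3, h4, h5⟩
    refine ⟨by rwa [h.Mov_eq hl], h2, by rwa [h.Fy_eq hl], by rwa [h.Ay_eq hl],
      by rwa [h.Ly_eq hl]⟩

end SameTo

lemma qS_congr {R R' : ℕ → Rec} {r : ℕ} (hR : ∀ u < r, R' u = R u) : qS R' r = qS R r := by
  unfold qS
  refine Finset.sum_congr rfl fun u hu => ?_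
  rw [hR u (Finset.mem_range.mp hu)]

/-- `Valid` transfers along `SameTo`. -/
theorem Valid.transfer {P : Pt F K A (Fin 2)} {P' : Pt F' K A (Fin 2)} {r l N : ℕ}
    (h : SameTo P P' r) {R R' : ℕ → Rec} (hR : ∀ u < r, R' u = R u)
    {Q : ℕ → Polynomial F} {Q' : ℕ → Polynomial F'}
    (hQ0 : ∀ u < r, Polynomial.aeval (P'.β u) (Q' u) = Polynomial.aeval (P.β u) (Q u))
    (hQ1 : ∀ u < r, Polynomial.aeval (P'.β u) (Polynomial.derivative (Q' u)) =
      Polynomial.aeval (P.β u) (Polynomial.derivative (Q u)))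
    {S : ℕ → Set A} {TT : Submodule K (Fin 2 → A)}
    (hV : Valid P N R Q l r S TT) : Valid P' N R' Q' l r S TT := by
  have hl := hV.le
  refine
    { le := hl
      one := by rw [← h.τ]; exact hV.one
      frozen := fun u hu => ?_
      comm := ?_
      dvd := fun u hu => by rw [hR u hu]; exact hV.dvd u hu
      qbd := by rw [qS_congr hR]; exact hV.qbd
      q_small := fun u hu => by rw [hR u hu]; exact hV.q_small u hu
      S_ne := hV.S_ne
      S_good := fun u hu y hy => ?_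
      mov_le := fun u hu => ?_
      mov_codim := fun u hu => ?_
      rank := fun u hu c hc hc' => ?_
      lift := fun u hu p hp => ?_
      big := fun u hu y hy => ?_
      TT_le := by rw [← h.T_eq le_rfl]; exact hV.TT_le
      TT_S := fun k hk t ht c hc t' ht' => ?_
      TT_big := by rw [qS_congr hR, ← h.Inn_eq]; exact hV.TT_big }
  · rw [hQ0 u hu, hQ1 u hu]; exact hV.frozen u hu
  · intro x hx
    refine hV.comm x fun v => ?_
    rw [h.ρ]; exact hx v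
  · have hu' := lt_of_lt_of_le hu hl
    rw [← h.Good_iff hu', hR u hu']
    exact hV.S_good u hu y hy
  · have hu' := lt_of_lt_of_le hu hl
    rw [← h.Mov_eq hu', ← h.RR_eq hu']
    exact hV.mov_le u hu
  · have hu' := lt_of_lt_of_le hu hl
    rw [← h.Mov_eq hu', ← h.RR_eq hu', hR u hu']
    exact hV.mov_codim u hu
  · have hu' := lt_of_lt_of_le hu hl
    rw [qS_congr hR, ← h.rkOn_eq le_rfl]
    refine hV.rank u hu c ?_ ?_
    · rwa [h.KK_eq hu']
    · rwa [h.PPl_eq hu']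
  · have hu' := lt_of_lt_of_le hu hl
    rw [← h.PPl_eq hu'] at hp
    obtain ⟨c, hc, hcu⟩ := hV.lift u hu p hp
    exact ⟨c, by rwa [← h.IIT_eq hu'], hcu⟩
  · have hu' := lt_of_lt_of_le hu hl
    rw [← h.eIm_eq, ← h.RR_eq hu', ← h.Fy_eq hu', hR u hu']
    exact hV.big u hu y hy
  · rw [← h.SS_eq hk]
    refine hV.TT_S k hk t ht c ?_ t' ?_
    · rwa [h.KK_eq hk]
    · rwa [h.T_eq hk]

/-- `RC` transfers. -/
lemma RC.transfer {P : Pt F K A (Fin 2)} {P' : Pt F' K A (Fin 2)} {k N ell : ℕ}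
    (h : SameTo P P' (k + 1)) {R R' : ℕ → Rec} (hR : ∀ u ≤ k, R' u = R u)
    (hC : RC P N R k ell) : RC P' N R' k ell := by
  have hk : k ≤ k + 1 := Nat.le_succ k
  obtain ⟨h1, h2⟩ := hC
  refine ⟨by rwa [← h.Mov_eq (Nat.lt_succ_self k)], fun c hc hc' => ?_⟩
  rw [← h.Mov_eq (Nat.lt_succ_self k), qS_congr (fun u hu => hR u hu.le), ← h.rkOn_eq hk,
    ← h.T_eq hk]
  exact h2 c (by rwa [h.KK_eq hk]) (by rwa [h.II_eq hk])

/-- `CB` transfers. -/
theorem CB.transfer {P : Pt F K A (Fin 2)} {P' : Pt F' K A (Fin 2)} {k N : ℕ}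
    (h : SameTo P P' (k + 1)) {R R' : ℕ → Rec} (hR : ∀ u ≤ k, R' u = R u)
    (hC : CB P N R k) : CB P' N R' k := by
  have hk1 : k < k + 1 := Nat.lt_succ_self k
  intro y hy hy0
  rw [← h.Mov_eq hk1] at hy
  obtain ⟨h1, h2⟩ := hC y hy hy0
  rw [hR k le_rfl]
  have hb : P.β k = P'.β k := h.β k hk1
  rw [← hb]
  refine ⟨h1, fun h3 => ?_⟩
  obtain ⟨h4, h5⟩ := h2 h3
  rw [← h.Ly_eq hk1]
  refine ⟨h4, fun h6 h7 => ?_⟩
  rw [← h.Mov_eq hk1]
  exact h5 h6 (RC.transfer h.symm (fun u hu => (hR u hu).symm) h7)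

/-- A derivation killing the larger coefficient field kills the smaller one. -/
lemma Tint.down [Algebra F F'] [IsScalarTower F F' A] {P : Pt F K A (Fin 2)}
    {P' : Pt F' K A (Fin 2)} (hρ : P.ρ = P'.ρ) {t : Fin 2 → A} (h : Tint P' t) : Tint P t := by
  obtain ⟨D, hD, hK, rfl⟩ := h
  refine ⟨D, ⟨hD.add, hD.mul, fun r => ?_⟩, hK, by rw [hρ]⟩
  rw [IsScalarTower.algebraMap_apply F F' A]
  exact hD.alg _

/-- `Smooth` goes down from `F'` to `F`. -/
theorem Smooth.down [Algebra F F'] [IsScalarTower F F' A] {P : Pt F K A (Fin 2)}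
    {P' : Pt F' K A (Fin 2)} {k : ℕ} (h : SameTo P P' k) (hS : Smooth P' k) : Smooth P k := by
  intro t ht
  rw [h.T_eq le_rfl] at ht
  exact Tint.down h.ρ (hS t ht)

/-- `Valid` is monotone in the number of verified indices. -/
theorem Valid.mono_l {P : Pt F K A (Fin 2)} {r l l' N : ℕ} {R : ℕ → Rec} {Q : ℕ → Polynomial F}
    {S : ℕ → Set A} {TT : Submodule K (Fin 2 → A)} (hl : l' ≤ l)
    (hV : Valid P N R Q l r S TT) : Valid P N R Q l' r S TT :=
  { le := hl.trans hV.le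
    one := hV.one
    frozen := hV.frozen
    comm := hV.comm
    dvd := hV.dvd
    qbd := hV.qbd
    q_small := hV.q_small
    S_ne := fun u hu => hV.S_ne u (lt_of_lt_of_le hu hl)
    S_good := fun u hu => hV.S_good u (lt_of_lt_of_le hu hl)
    mov_le := fun u hu => hV.mov_le u (lt_of_lt_of_le hu hl)
    mov_codim := fun u hu => hV.mov_codim u (lt_of_lt_of_le hu hl)
    rank := fun u hu => hV.rank u (lt_of_lt_of_le hu hl)
    lift := fun u hu => hV.lift u (lt_of_lt_of_le hu hl)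
    big := fun u hu => hV.big u (lt_of_lt_of_le hu hl)
    TT_le := hV.TT_le
    TT_S := hV.TT_S
    TT_big := hV.TT_big }

end Abstract

/-! ### The map of free algebras -/

section Tr

variable {F F' ι : Type*} [Field F] [Field F'] [Algebra F F']

/-- The map `FreeAlgebra F ι → FreeAlgebra F' ι`. -/
noncomputable def tr : FreeAlgebra F ι →ₐ[F] FreeAlgebra F' ι :=
  FreeAlgebra.lift F (FreeAlgebra.ι F')

@[simp] lemma tr_ι (i : ι) : tr (F := F) (F' := F') (FreeAlgebra.ι F i) = FreeAlgebra.ι F' i := by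
  simp [tr]

lemma tr_algebraMap (r : F) : tr (F := F) (F' := F') (ι := ι) (algebraMap F _ r) =
    algebraMap F' _ (algebraMap F F' r) := by
  rw [AlgHom.commutes]
  rw [IsScalarTower.algebraMap_apply F F' (FreeAlgebra F' ι)]

variable {A : Type*} [Ring A] [Algebra F A] [Algebra F' A] [IsScalarTower F F' A]

@[simp] lemma ev_tr (ρ : ι → A) (b : FreeAlgebra F ι) :
    ev ρ (tr (F' := F') b) = ev ρ b := by
  induction b using FreeAlgebra.induction with
  | grade0 r =>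
    rw [tr_algebraMap, AlgHom.commutes, AlgHom.commutes,
      ← IsScalarTower.algebraMap_apply F F' A]
  | grade1 i => simp
  | mul a b ha hb => simp only [map_mul, ha, hb]
  | add a b ha hb => simp only [map_add, ha, hb]

@[simp] lemma d1_tr (ρ t : ι → A) (b : FreeAlgebra F ι) :
    d1 ρ t (tr (F' := F') b) = d1 ρ t b := by
  induction b using FreeAlgebra.induction with
  | grade0 r => rw [tr_algebraMap, d1_algebraMap, d1_algebraMap]
  | grade1 i => simp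
  | mul a b ha hb => simp only [map_mul, d1_mul, ha, hb, ev_tr]
  | add a b ha hb => simp only [map_add, d1_add, ha, hb]

@[simp] lemma d2_tr (ρ t t' : ι → A) (b : FreeAlgebra F ι) :
    d2 ρ t t' (tr (F' := F') b) = d2 ρ t t' b := by
  induction b using FreeAlgebra.induction with
  | grade0 r => rw [tr_algebraMap]; simp
  | grade1 i => simp
  | mul a b ha hb => simp only [map_mul, d2_mul, ha, hb, ev_tr, d1_tr]
  | add a b ha hb => simp only [map_add, d2_add, ha, hb]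

end Tr

/-! ### The concrete statements on the tower -/

section Tower

open Hensel LU LU.Tw0 LU.Tw Plan

variable [Tw0] [Tw] {F F' : Subfield U} [CentF F] [CentF F']

/-- `F ≤ F'` as an algebra. -/
noncomputable instance algFF [h : Fact (F ≤ F')] : Algebra F F' :=
  (Subfield.inclusion h.out).toAlgebra

instance towFFA [Fact (F ≤ F')] (n : ℕ) [Fact (F ≤ Kn n)] [Fact (F' ≤ Kn n)] :
    IsScalarTower F F' (An n) :=
  IsScalarTower.of_algebraMap_eq fun _ => rfl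

/-- The states of `F` and of `F'` agree on the entries where the lists agree. -/
theorem sameTo_pt [Fact (F ≤ F')] (n : ℕ) [Fact (F ≤ Kn n)] [Fact (F' ≤ Kn n)] (Z : Stt n)
    {a : ℕ → FreeAlgebra F (Fin 2)} {a' : ℕ → FreeAlgebra F' (Fin 2)} {r : ℕ}
    (ha : ∀ i < r, a' i = tr (a i)) : SameTo (pt F n Z a) (pt F' n Z a') r where
  ρ := rfl
  τ := rfl
  β i hi := by
    show ev Z (a i) = ev Z (a' i)
    rw [ha i hi, ev_tr]
  dL i hi t := by
    show d1 Z t (a i) = d1 Z t (a' i)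
    rw [ha i hi, d1_tr]
  d2 i hi t t' := by
    show State.d2 Z t t' (a i) = State.d2 Z t t' (a' i)
    rw [ha i hi, d2_tr]

/-- `evU` of the image of a word. -/
lemma evU_tr [Fact (F ≤ F')] {n : ℕ} (Z : Stt n) (b : FreeAlgebra F (Fin 2)) :
    evU Z (tr (F' := F') b) = evU Z b := by
  unfold evU
  haveI : @IsScalarTower F F' U (Algebra.toSMul) (Algebra.toSMul) (Algebra.toSMul) :=
    IsScalarTower.of_algebraMap_eq fun _ => rfl
  exact ev_tr _ b

/-- `tr` of `tr`. -/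
lemma tr_tr {F'' : Subfield U} [CentF F''] [Fact (F ≤ F')] [Fact (F' ≤ F'')] [Fact (F ≤ F'')]
    (b : FreeAlgebra F (Fin 2)) :
    tr (F' := F'') (tr (F' := F') b) = tr (F' := F'') b := by
  induction b using FreeAlgebra.induction with
  | grade0 r =>
    rw [tr_algebraMap, tr_algebraMap, tr_algebraMap]
    rfl
  | grade1 i => simp
  | mul a b ha hb => simp only [map_mul, ha, hb]
  | add a b ha hb => simp only [map_add, ha, hb]

/-- The first `r` entries of `Ls'` come from those of `Ls`. -/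
structure ListAgree [Fact (F ≤ F')] (Ls : Lst F) (Ls' : Lst F') (r : ℕ) : Prop where
  a : ∀ u < r, Ls'.a u = tr (Ls.a u)
  Q : ∀ u < r, Ls'.Q u = (Ls.Q u).map (algebraMap F F')
  R : ∀ u < r, Ls'.R u = Ls.R u
  Z0 : ∀ u < r, Ls'.Z0 u = Ls.Z0 u

lemma ListAgree.mono [Fact (F ≤ F')] {Ls : Lst F} {Ls' : Lst F'} {r r' : ℕ}
    (h : ListAgree Ls Ls' r) (hr : r' ≤ r) : ListAgree Ls Ls' r' :=
  ⟨fun u hu => h.a u (lt_of_lt_of_le hu hr), fun u hu => h.Q u (lt_of_lt_of_le hu hr),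
    fun u hu => h.R u (lt_of_lt_of_le hu hr), fun u hu => h.Z0 u (lt_of_lt_of_le hu hr)⟩

/-- Composition of `ListAgree`. -/
lemma ListAgree.trans {F'' : Subfield U} [CentF F''] [Fact (F ≤ F')] [Fact (F' ≤ F'')]
    [Fact (F ≤ F'')] {Ls : Lst F} {Ls' : Lst F'} {Ls'' : Lst F''} {r : ℕ}
    (h : ListAgree Ls Ls' r) (h' : ListAgree Ls' Ls'' r) : ListAgree Ls Ls'' r where
  a u hu := by rw [h'.a u hu, h.a u hu, tr_tr]
  Q u hu := by
    rw [h'.Q u hu, h.Q u hu, Polynomial.map_map]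
    rfl
  R u hu := by rw [h'.R u hu, h.R u hu]
  Z0 u hu := by rw [h'.Z0 u hu, h.Z0 u hu]

/-- The image of a list. -/
noncomputable def Lst.tr [Fact (F ≤ F')] (Ls : Lst F) : Lst F' where
  a u := Transport.tr (Ls.a u)
  Q u := (Ls.Q u).map (algebraMap F F')
  R := Ls.R
  Z0 := Ls.Z0

lemma listAgree_tr [Fact (F ≤ F')] (Ls : Lst F) (r : ℕ) : ListAgree Ls (Lst.tr (F' := F') Ls) r :=
  ⟨fun _ _ => rfl, fun _ _ => rfl, fun _ _ => rfl, fun _ _ => rfl⟩

/-- `Valid` over `F` gives `Valid` over `F'`. -/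
theorem valid_up [Fact (F ≤ F')] (n : ℕ) [Fact (F ≤ Kn n)] [Fact (F' ≤ Kn n)] (Z : Stt n)
    {Ls : Lst F} {Ls' : Lst F'} {l r : ℕ} (hL : ListAgree Ls Ls' r)
    {S : ℕ → Set (An n)} {TT : Submodule (Kn n) (Fin 2 → An n)}
    (hV : Valid (pt F n Z Ls.a) (N n) Ls.R Ls.Q l r S TT) :
    Valid (pt F' n Z Ls'.a) (N n) Ls'.R Ls'.Q l r S TT := by
  have hs := sameTo_pt (F := F) (F' := F') n Z (a := Ls.a) (a' := Ls'.a) hL.a
  refine Valid.transfer hs hL.R (fun u hu => ?_) (fun u hu => ?_) hV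
  · rw [← hs.β u hu, hL.Q u hu, Polynomial.aeval_map_algebraMap]
  · rw [← hs.β u hu, hL.Q u hu, Polynomial.derivative_map, Polynomial.aeval_map_algebraMap]

/-- `Valid` over `F'` gives `Valid` over `F`. -/
theorem valid_down [Fact (F ≤ F')] (n : ℕ) [Fact (F ≤ Kn n)] [Fact (F' ≤ Kn n)] (Z : Stt n)
    {Ls : Lst F} {Ls' : Lst F'} {l r : ℕ} (hL : ListAgree Ls Ls' r)
    {S : ℕ → Set (An n)} {TT : Submodule (Kn n) (Fin 2 → An n)}
    (hV : Valid (pt F' n Z Ls'.a) (N n) Ls'.R Ls'.Q l r S TT) :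
    Valid (pt F n Z Ls.a) (N n) Ls.R Ls.Q l r S TT := by
  have hs := sameTo_pt (F := F) (F' := F') n Z (a := Ls.a) (a' := Ls'.a) hL.a
  refine Valid.transfer hs.symm (fun u hu => (hL.R u hu).symm) (fun u hu => ?_) (fun u hu => ?_) hV
  · rw [hs.β u hu, hL.Q u hu, Polynomial.aeval_map_algebraMap]
  · rw [hs.β u hu, hL.Q u hu, Polynomial.derivative_map, Polynomial.aeval_map_algebraMap]

/-- The class bounds transfer to the larger coefficient field. -/
theorem opt_up [Fact (F ≤ F')] {Ls : Lst F} {Ls' : Lst F'} {u : ℕ} (hL : ListAgree Ls Ls' (u + 1))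
    (hO : Opt F Ls u) : Opt F' Ls' u := by
  intro n hn Z S hab hV hSm
  haveI hn0 : Fact (F ≤ Kn n) := ⟨(Fact.out : F ≤ F').trans hn.out⟩
  have hs := sameTo_pt (F := F) (F' := F') n Z (a := Ls.a) (a' := Ls'.a) hL.a
  have hu : u ≤ u + 1 := Nat.le_succ u
  have hab' : Above (Ls.Z0 u) ⟨n, Z⟩ := by
    rw [← hL.Z0 u (Nat.lt_succ_self u)]; exact hab
  have hV' : Valid (pt F n Z Ls.a) (N n) Ls.R Ls.Q u u S ((pt F n Z Ls.a).T u) := by
    rw [hs.T_eq hu]
    exact valid_down n Z (hL.mono hu) hV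
  have hSm' : Smooth (pt F n Z Ls.a) u := Smooth.down (hs.mono hu) hSm
  exact CB.transfer hs (fun v hv => (hL.R v (Nat.lt_succ_of_le hv)).symm ▸ rfl)
    (hO n Z S hab' hV' hSm')

/-- The context transfers to the larger coefficient field. -/
theorem ctx_up [Fact (F ≤ F')] {Ls : Lst F} {Ls' : Lst F'} {r l : ℕ} (hL : ListAgree Ls Ls' r)
    (n : ℕ) [Fact (F ≤ Kn n)] [Fact (F' ≤ Kn n)] (ρ : Stt n)
    {S : ℕ → Set (An n)} {TT : Submodule (Kn n) (Fin 2 → An n)}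
    (h : Ctx F Ls n ρ l r S TT) : Ctx F' Ls' n ρ l r S TT where
  valid := valid_up n ρ hL h.valid
  above u hu := by rw [hL.Z0 u hu]; exact h.above u hu
  opt u hu := opt_up (hL.mono (Nat.succ_le_of_lt hu)) (h.opt u hu)

end Tower

end Crest.Agent.Kurosh.Transport
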