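/-
S0270 (Kurosh): `AlgLater`, the conclusion of `Plan.explore` (statement changed by helper72, G1: a later
list must AGREE with the list of the exploration, `Transport.ListAgree`, i.e. same words, same frozen
polynomials, same numbers, same base states, not only "same values").
-/
import Crest.Agent.Kurosh.Transport

set_option autoImplicit false

namespace Crest.Agent.Kurosh.Plan

open Hensel State Module LU LU.Tw0 LU.Tw
open _root_.Crest.Agent.Kurosh.Inv
open _root_.Crest.Agent.Kurosh.Inv.St

variable [Tw0] [Tw] (F : Subfield U) [CentF F]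

/-- `b` stays algebraic at all later states of the run (over longer lists with larger coefficient
fields, so the statement is in `U`): the list `Ls''` of the later state must agree with `Ls₀` on the
first `k₀` entries. -/
def AlgLater (n₀ : ℕ) (ρ₀ : Stt n₀) (k₀ : ℕ) (Ls₀ : Lst F)
    (b : FreeAlgebra F (Fin 2)) : Prop :=
  ∃ P : Polynomial F, P ≠ 0 ∧
    ∀ (F'' : Subfield U) (_ : CentF F'') (_ : Fact (F ≤ F'')) (Ls'' : Lst F'') (n : ℕ)
      (_ : Fact (F'' ≤ Kn n)) (Z : Stt n) (k : ℕ) (S : ℕ → Set (An n))
      (TT : Submodule (Kn n) (Fin 2 → An n)),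
      k₀ ≤ k → Ctx F'' Ls'' n Z k k S TT →
      Transport.ListAgree Ls₀ Ls'' k₀ →
      Above ⟨n₀, ρ₀⟩ ⟨n, Z⟩ →
      Polynomial.aeval (evU Z b) P = 0

end Crest.Agent.Kurosh.Plan
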