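/-
S0270 (Kurosh), blueprint v3 §J(l) and §F (helper62): the glue of the oracle.

* `Valid.mono`, `annl_le_ppl`, `mem_IIT_of_rank_zero`, `Adm.pred`: the pair for the prefix `l+1` is a
  pair for the prefix `l`.
* `first_error`: a partial solution for the prefix `l+1` has the same obstructions as the first
  error of a solution exact for the prefix `l`.
* `orc_succ`.
-/
import Crest.Agent.Kurosh.PlanDefs
import Crest.Agent.Kurosh.StateII

set_option autoImplicit false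
set_option linter.unusedSectionVars false

namespace Crest.Agent.Kurosh.OrcGlue

open Hensel State Module
open _root_.Crest.Agent.Kurosh.Inv
open _root_.Crest.Agent.Kurosh.Inv.St

/-! ### Functionals -/

/-- A functional vanishing on `Q ⊓ I` agrees on `Q` with a functional vanishing on `I`. -/
lemma exists_ext_functional {K V : Type*} [Field K] [AddCommGroup V] [Module K V]
    (Q I : Submodule K V) (φ : V →ₗ[K] K) (h : ∀ c ∈ Q, c ∈ I → φ c = 0) :
    ∃ ψ : V →ₗ[K] K, (∀ c ∈ I, ψ c = 0) ∧ ∀ c ∈ Q, ψ c = φ c := by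
  let f : Q →ₗ[K] (V ⧸ I) := I.mkQ ∘ₗ Q.subtype
  have hφ : (φ ∘ₗ Q.subtype) ∈ LinearMap.range f.dualMap := by
    rw [LinearMap.range_dualMap_eq_dualAnnihilator_ker, Submodule.mem_dualAnnihilator]
    intro x hx
    have hx' : (x : V) ∈ I := by
      have : I.mkQ (x : V) = 0 := hx
      simpa using this
    exact h _ x.2 hx'
  obtain ⟨g, hg⟩ := hφ
  refine ⟨g ∘ₗ I.mkQ, fun c hc => ?_, fun c hc => ?_⟩
  · have : I.mkQ c = 0 := by simpa using hc
    simp [this]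
  · have := LinearMap.congr_fun hg ⟨c, hc⟩
    simpa [f, LinearMap.dualMap_apply] using this

section Abstract

variable {F K A : Type*} [Field F] [Field K] [DivisionRing A] [Algebra F K] [Algebra K A]
  [Algebra F A] [IsScalarTower F K A] (P : Pt F K A (Fin 2))

variable {N : ℕ} {R : ℕ → Rec} {Q : ℕ → Polynomial F} {l r : ℕ} {S : ℕ → Set A}
  {TT : Submodule K (Fin 2 → A)}

/-- Restriction of the verified indices. -/
theorem _root_.Crest.Agent.Kurosh.Inv.St.Valid.mono {P : Pt F K A (Fin 2)}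
    (h : Valid P N R Q l r S TT) {l' : ℕ} (hl : l' ≤ l) :
    Valid P N R Q l' r S TT where
  le := hl.trans h.le
  one := h.one
  frozen := h.frozen
  comm := h.comm
  dvd := h.dvd
  qbd := h.qbd
  q_small := h.q_small
  S_ne := fun u hu => h.S_ne u (by omega)
  S_good := fun u hu => h.S_good u (by omega)
  mov_le := fun u hu => h.mov_le u (by omega)
  mov_codim := fun u hu => h.mov_codim u (by omega)
  rank := fun u hu => h.rank u (by omega)
  lift := fun u hu => h.lift u (by omega)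
  big := fun u hu => h.big u (by omega)
  TT_le := h.TT_le
  TT_S := h.TT_S
  TT_big := h.TT_big

variable [FiniteDimensional K A]

/-- `𝒫_u` contains `𝔸_u` when there is no defect. -/
lemma annl_le_ppl {u : ℕ} (h1 : P.Mov u ≤ RR P S u)
    (h2 : finrank K (RR P S u) ≤ finrank K (P.Mov u)) : Annl P u ≤ PPl P S u := by
  have hEq : P.Mov u = RR P S u := Submodule.eq_of_le_of_finrank_le h1 h2
  intro x hx
  by_contra hxW
  obtain ⟨φ, hφ, hφW⟩ := Submodule.exists_dual_map_eq_bot_of_notMem hxW inferInstance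
  obtain ⟨z, hz⟩ := P.exists_rep φ
  have hxC : P.β u * x = x * P.β u := mem_cent.mp hx.1
  have hφW' : ∀ p ∈ PPl P S u, φ p = 0 := by
    intro p hp
    have : φ p ∈ (PPl P S u).map φ := ⟨p, hp, rfl⟩
    rw [hφW] at this
    simpa using this
  have hle : PPl P S u ≤ Cl P u := by
    refine iSup₂_le fun y _ p hp => ?_
    exact mem_cent.mpr hp.1.symm
  -- the element `e z` of `R_u`
  have hez : P.β u * P.e u z = P.e u z * P.β u := P.e_mem u z
  have hzpair : ∀ p ∈ Cl P u, P.τ (p * P.e u z) = φ p := by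
    intro p hp
    have hpc : P.β u * p = p * P.β u := mem_cent.mp hp
    rw [P.τ_cent_e hpc, hz, P.τ_comm]
  have hmem : P.e u z ∈ RR P S u :=
    ⟨mem_cent.mpr hez, fun p hp => by rw [hzpair p (hle hp), hφW' p hp]⟩
  rw [← hEq] at hmem
  have := hx.2 _ hmem
  rw [hzpair x hx.1] at this
  exact hφ this

/-- `c ∈ 𝕂(u+1)` has its last component in `𝔸_u`. -/
lemma last_mem_annl {u : ℕ} {c : ℕ → A} (hc : c ∈ P.KK (u + 1)) : c u ∈ Annl P u := by
  have h : c u ∈ P.Ann u := P.mem_Ann_iff_lift.mpr ⟨c, hc, rfl⟩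
  exact ⟨mem_cent.mpr h.1, h.2⟩

lemma rkOn_eq_zero {r : ℕ} {c : ℕ → A} {TT : Submodule K (Fin 2 → A)}
    (h : ∀ t ∈ TT, ∀ t' ∈ TT, P.PP r c t t' = 0) : rkOn P r c TT = 0 := by
  unfold rkOn
  have h0 : (PPb P r c).domRestrict₁₂ TT TT = 0 := by
    ext t t'
    exact h t t.2 t' t'.2
  rw [h0, LinearMap.range_zero, finrank_bot]

variable {P}

/-- `𝕀(u) ≤ 𝕀(u+1)`. -/
lemma II_le_succ (u : ℕ) : II P u ≤ II P (u + 1) := by
  rintro c ⟨hc, h⟩
  refine ⟨P.KK_mono (by omega) hc, fun t ht t' ht' => ?_⟩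
  rw [P.PP_of_le (by omega) hc]
  exact h t (P.T_anti (by omega) ht) t' (P.T_anti (by omega) ht')

/-- `IIT(u,𝕋) ≤ IIT(u+1,𝕋)`. -/
lemma IIT_le_succ (u : ℕ) : IIT P u TT ≤ IIT P (u + 1) TT := by
  rintro c ⟨hc, h⟩
  refine ⟨P.KK_mono (by omega) hc, fun t ht t' ht' => ?_⟩
  rw [P.PP_of_le (by omega) hc]
  exact h t ht t' (P.T_anti (by omega) ht')

/-- A defect-free index: an element of `𝕂(u+1)` with vanishing form has last component in `𝒫_u`. -/
lemma last_mem_ppl_of_rank_zero (h : Valid P N R Q l r S TT) {u : ℕ} (hu : u < l) {c : ℕ → A}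
    (hc : c ∈ P.KK (u + 1)) (hrk : ∀ t ∈ TT, ∀ t' ∈ TT, P.PP r c t t' = 0) : c u ∈ PPl P S u := by
  by_contra hcu
  have h5 := h.rank u hu c hc hcu
  rw [rkOn_eq_zero P hrk] at h5
  have hq : qS R r = 0 := by omega
  have hur : u < r := lt_of_lt_of_le hu h.le
  have hqu : (R u).q = 0 := by
    have : (R u).q ≤ qS R r :=
      Finset.single_le_sum (f := fun u => (R u).q) (fun _ _ => Nat.zero_le _)
        (Finset.mem_range.mpr hur)
    omega
  have hcod := h.mov_codim u hu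
  rw [hqu, add_zero] at hcod
  exact hcu (annl_le_ppl P (h.mov_le u hu) hcod (last_mem_annl P hc))

/-- **`𝕀` detection on `𝕋`**: for `c ∈ 𝕂(l)`, a vanishing form on `𝕋` forces `c ∈ IIT(l,𝕋)`. -/
theorem mem_IIT_of_rank_zero (h : Valid P N R Q l r S TT) {c : ℕ → A} (hc : c ∈ P.KK l)
    (hrk : ∀ t ∈ TT, ∀ t' ∈ TT, P.PP r c t t' = 0) : c ∈ IIT P l TT := by
  induction l generalizing c with
  | zero =>
    have h0 : c = 0 := by
      have := P.KK_zero ▸ hc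
      simpa using this
    rw [h0]
    exact zero_mem _
  | succ u ih =>
    have hu : c u ∈ PPl P S u := last_mem_ppl_of_rank_zero h (by omega) hc hrk
    obtain ⟨c', hc', hc'u⟩ := h.lift u (by omega) _ hu
    have hur : u + 1 ≤ r := h.le
    have hTT : ∀ t ∈ TT, t ∈ P.T (u + 1) := fun t ht => P.T_anti hur (h.TT_le ht)
    have hdiff : c - c' ∈ P.KK u :=
      P.mem_KK_of_last (sub_mem hc hc'.1) (by simp [hc'u])
    have hrk' : ∀ t ∈ TT, ∀ t' ∈ TT, P.PP r (c - c') t t' = 0 := by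
      intro t ht t' ht'
      have e : c - c' = c + (-1 : K) • c' := by simp [sub_eq_add_neg]
      rw [e, P.PP_add_c, P.PP_smul_c, hrk t ht t' ht', P.PP_of_le hur hc'.1,
        hc'.2 t ht t' (hTT t' ht'), mul_zero, add_zero]
    have h3 := ih (h.mono (by omega)) hdiff hrk'
    have h4 : c = (c - c') + c' := by abel
    rw [h4]
    exact add_mem (IIT_le_succ u h3) hc'

/-- `c ∈ IIT(l+1,𝕋)` has last component in `𝒫_l`. -/
lemma last_mem_ppl_of_mem_IIT (h : Valid P N R Q (l + 1) r S TT) {c : ℕ → A}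
    (hc : c ∈ IIT P (l + 1) TT) : c l ∈ PPl P S l := by
  refine last_mem_ppl_of_rank_zero h (by omega) hc.1 fun t ht t' ht' => ?_
  have hr : l + 1 ≤ r := h.le
  rw [P.PP_of_le hr hc.1]
  exact hc.2 t ht t' (P.T_anti hr (h.TT_le ht'))

/-- The H2 of the prefix `l+1`, restricted to `𝕂(l)`, for functionals vanishing on `IIT(l,𝕋)`. -/
lemma H2_pred (h : Valid P N R Q (l + 1) r S TT) {t1 t2 : Fin 2 → A}
    (hA : Adm P (l + 1) TT t1 t2) (φ₁ φ₂ : (ℕ → A) →ₗ[K] K) (h1 : ∀ c ∈ IIT P l TT, φ₁ c = 0)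
    (h2 : ∀ c ∈ IIT P l TT, φ₂ c = 0) :
    ∃ t' ∈ TT, ∀ c ∈ P.KK l, P.PP (l + 1) c t1 t' = φ₁ c ∧ P.PP (l + 1) c t2 t' = φ₂ c := by
  have hr : l + 1 ≤ r := h.le
  have hmeet : ∀ c ∈ P.KK l, c ∈ IIT P (l + 1) TT → c ∈ IIT P l TT := by
    intro c hc hc'
    refine mem_IIT_of_rank_zero (h.mono (by omega)) hc fun t ht t' ht' => ?_
    rw [P.PP_of_le hr hc'.1]
    exact hc'.2 t ht t' (P.T_anti hr (h.TT_le ht'))
  obtain ⟨ψ₁, hψ₁, hψ₁'⟩ := exists_ext_functional (P.KK l) (IIT P (l + 1) TT) φ₁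
    fun c hc hc' => h1 c (hmeet c hc hc')
  obtain ⟨ψ₂, hψ₂, hψ₂'⟩ := exists_ext_functional (P.KK l) (IIT P (l + 1) TT) φ₂
    fun c hc hc' => h2 c (hmeet c hc hc')
  obtain ⟨t', ht', hk⟩ := hA.H2 ψ₁ ψ₂ hψ₁ hψ₂
  refine ⟨t', ht', fun c hc => ?_⟩
  have hc1 := P.KK_mono (Nat.le_succ l) hc
  rw [(hk c hc1).1, (hk c hc1).2, hψ₁' c hc, hψ₂' c hc]
  exact ⟨rfl, rfl⟩

end Abstract

/-! ### The first error of a partial solution -/

section Hens

open Calculus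

variable {M K A R : Type*} [AddCommGroup M] [DecidableEq M] [Field K] [Ring A] [Algebra K A] [Ring R]
  [Algebra K R] {L : Lev M K A R} {F : Type*} [Field F] [Algebra F K] [Algebra F A]
  [IsScalarTower F K A] [Algebra F R] [IsScalarTower F K R] {ι : Type*} {P : Pt F K A ι}
  {l J : ℕ} {t1 t2 : ι → A} {X : ι → R} {g : ℕ → R}

/-- A partial solution for a longer prefix is one for a shorter prefix. -/
theorem PSol_of_succ (h : L.PSol P (l + 1) J t1 t2 X g) : L.PSol P l J t1 t2 X g where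
  fsX := h.fsX
  fsg := h.fsg
  leadX := h.leadX
  leadg := fun i hi => h.leadg i (by omega)
  E_mem := fun i hi => h.E_mem i (by omega)

lemma Obs_succ_of_last (n : M) (j : ℕ) (X : ι → R) (g : ℕ → R) {c : ℕ → A} (hc : c l = 0) :
    L.Obs P (l + 1) n j X g c = L.Obs P l n j X g c := by
  rw [Lev.Obs_apply, Lev.Obs_apply, Finset.sum_range_succ, hc, zero_mul, map_zero, add_zero]

/-- Close elements have the same first error. -/
lemma E_mem_of_close {a : FreeAlgebra F ι} {j : ℕ} (hj : 1 ≤ j) {X X' : ι → R} {ρ : ι → A} {g g' : R}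
    (hX : ∀ v, X v - L.inc (ρ v) ∈ L.Φ.fil 1) (hg : g - 1 ∈ L.Φ.fil 1)
    (hX' : ∀ v, X' v - X v ∈ L.Φ.fil j) (hg' : g' - g ∈ L.Φ.fil j)
    (hE : Calculus.ev X a * g - g * L.inc (Calculus.ev ρ a) ∈ L.Φ.fil j) :
    Calculus.ev X' a * g' - g' * L.inc (Calculus.ev ρ a) ∈ L.Φ.fil j := by
  have h1 := Lev.E_first_order (L := L) (ρ := ρ) (a := a) hj hX hg hX' hg'
  have h2 : pd (fun v => L.inc (ρ v)) (X' - X) a ∈ L.Φ.fil j :=
    pd_mem (F := F) L.Φ L.coef_mem (fun v => L.inc_mem _) (fun v => hX' v) a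
  have h3 : L.inc (Calculus.ev ρ a) * (g' - g) ∈ L.Φ.fil j := by
    have := L.Φ.mul_mem (L.inc_mem (Calculus.ev ρ a)) hg'
    rwa [zero_add] at this
  have h4 : (g' - g) * L.inc (Calculus.ev ρ a) ∈ L.Φ.fil j := by
    have := L.Φ.mul_mem hg' (L.inc_mem (Calculus.ev ρ a))
    rwa [add_zero] at this
  have h5 := L.Φ.anti (Nat.le_succ j) h1
  have := add_mem (add_mem (add_mem h5 hE) h2) (sub_mem h3 h4)
  convert this using 1
  abel

variable [FiniteDimensional K A] [CharZero K]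

/-- **The first error of a partial solution.** `(X,g)` is a partial solution for the prefix `l+1`,
of order `J+1`. There is a solution `(X',g')` exact for the prefix `l`, with first error for the
entry `l` at order `J+1` (at least), such that the obstructions of `(X,g)` on classes that do not
feel the moves, or at central monomials, are the pairings with this first error. -/
theorem first_error
    (hS1 : ∀ c ∈ P.KK (l + 1), ∀ τ' ∈ P.T (l + 1),
      P.SS (l + 1) c t1 τ' = 0 ∧ P.SS (l + 1) c t2 τ' = 0)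
    (hSl : ∀ c ∈ P.KK l, ∀ τ' ∈ P.T l, P.SS l c t1 τ' = 0 ∧ P.SS l c t2 τ' = 0)
    (I : Submodule K (ℕ → A)) (hIl : I ≤ P.KK l)
    (hH2l : ∀ φ₁ φ₂ : (ℕ → A) →ₗ[K] K, (∀ c ∈ I, φ₁ c = 0) → (∀ c ∈ I, φ₂ c = 0) →
      ∃ τ' ∈ P.T l, ∀ c ∈ P.KK l, P.PP l c t1 τ' = φ₁ c ∧ P.PP l c t2 τ' = φ₂ c)
    (hH2' : ∀ φ₁ φ₂ : (ℕ → A) →ₗ[K] K, (∀ c ∈ I, φ₁ c = 0) → (∀ c ∈ I, φ₂ c = 0) →
      ∃ τ' ∈ P.T (l + 1), ∀ c ∈ P.KK l,
        P.PP (l + 1) c t1 τ' = φ₁ c ∧ P.PP (l + 1) c t2 τ' = φ₂ c)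
    (hO : ∀ J, 2 ≤ J → ∀ (X : ι → R) (g : ℕ → R), L.PSol P l (J + 1) t1 t2 X g →
      (∀ m : M, ∀ c ∈ I, L.Obs P l m (J + 1) X g c = 0) ∧
      (∀ m : M, L.ζ ^ L.κ m = 1 → L.ζ ^ ((J : ℤ) + 1) = 1 → ∀ c ∈ P.KK l,
        L.Obs P l m (J + 1) X g c = 0))
    (hJ : 2 ≤ J) (h : L.PSol P (l + 1) (J + 1) t1 t2 X g) :
    ∃ (X' : ι → R) (g' : ℕ → R), (∀ J', L.PSol P l J' t1 t2 X' g') ∧
      (g' l - (1 + L.mono (P.w l t1) 0 1 + L.mono (P.w l t2) L.μ₁ 1) ∈ L.Φ.fil 2) ∧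
      L.E P X' g' l ∈ L.Φ.fil (J + 1) ∧
      (∀ c ∈ P.KK (l + 1), (∀ τ' ∈ P.T (l + 1),
          P.PP (l + 1) c t1 τ' = 0 ∧ P.PP (l + 1) c t2 τ' = 0) → ∀ m : M,
        L.Obs P (l + 1) m (J + 1) X g c = P.τ (c l * L.coeff m (J + 1) (L.E P X' g' l))) ∧
      (∀ m : M, L.ζ ^ L.κ m = 1 → L.ζ ^ ((J : ℤ) + 1) = 1 → ∀ c ∈ P.KK (l + 1),
        L.Obs P (l + 1) m (J + 1) X g c = P.τ (c l * L.coeff m (J + 1) (L.E P X' g' l))) := by
  have h0 := PSol_of_succ h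
  have hlast : ∀ c ∈ P.KK l, c l = 0 := fun c hc => hc.1 l le_rfl
  obtain ⟨hI0, hC0⟩ := hO J hJ X g h0
  -- Step 1: moves in `T(l+1)` killing the obstructions of the prefix `l`
  obtain ⟨u, τ, hτT, -, hZ⟩ := h.moves_solving hJ I (P.KK l) (P.KK_mono (Nat.le_succ l)) hS1 hH2'
    (fun m c hc => by rw [Obs_succ_of_last m _ X g (hlast c (hIl hc))]; exact hI0 m c hc)
    (fun m hm hJ1 c hc => by rw [Obs_succ_of_last m _ X g (hlast c hc)]; exact hC0 m hm hJ1 c hc)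
  set X₁ := L.addX X u τ J with hX₁
  set g₁ := L.addg g u (fun m i => P.w i (τ m)) J with hg₁
  have h₁ : L.PSol P (l + 1) (J + 1) t1 t2 X₁ g₁ := h.addT hJ τ hτT u
  have h₁' := PSol_of_succ h₁
  -- Step 2: order `J+2` for the prefix `l`
  obtain ⟨Sa, tt, ww, h₂, -⟩ := h₁'.solve_all (by omega) (fun m c hc => by
    rw [← Obs_succ_of_last m _ X₁ g₁ (hlast c hc)]
    exact hZ m c hc)
  -- Step 3: exact for the prefix `l`
  obtain ⟨X', g', hex, hX', hg'⟩ := Lev.exists_limit (L := L) (P := P) (J1 := J + 1) (by omega) h₂ I hSl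
    hH2l (fun J' hJ' X₂ g₂ hs _ _ => hO J' (by omega) X₂ g₂ hs)
  have hX₁' : ∀ v, X' v - X₁ v ∈ L.Φ.fil (J + 1) := by
    intro v
    have h1 := hX' v
    have h2 : L.addX X₁ Sa tt (J + 1) v - X₁ v ∈ L.Φ.fil (J + 1) := by
      simp only [Lev.addX, add_sub_cancel_left]
      exact L.sum_mono_mem _ _ _
    have := add_mem h1 h2
    simpa using this
  have hg₁' : ∀ i, g' i - g₁ i ∈ L.Φ.fil (J + 1) := by
    intro i
    have h1 := hg' i
    have h2 : L.addg g₁ Sa ww (J + 1) i - g₁ i ∈ L.Φ.fil (J + 1) := by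
      simp only [Lev.addg, add_sub_cancel_left]
      exact L.sum_mono_mem _ _ _
    have := add_mem h1 h2
    simpa using this
  -- the lower terms of `(X₁,g₁)`
  have hX1f : ∀ v, X₁ v - L.inc (P.ρ v) ∈ L.Φ.fil 1 := by
    intro v
    have a1 := L.Φ.anti (Nat.le_succ 1) (h₁.leadX v)
    have a2 := L.mono_mem (t1 v) 0 1
    have a3 := L.mono_mem (t2 v) L.μ₁ 1
    have := add_mem (add_mem a1 a2) a3
    convert this using 1
    abel
  have hg1f : ∀ i < l + 1, g₁ i - 1 ∈ L.Φ.fil 1 := by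
    intro i hi
    have a1 := L.Φ.anti (Nat.le_succ 1) (h₁.leadg i hi)
    have a2 := L.mono_mem (P.w i t1) 0 1
    have a3 := L.mono_mem (P.w i t2) L.μ₁ 1
    have := add_mem (add_mem a1 a2) a3
    convert this using 1
    abel
  have hexE : ∀ i < l, L.E P X' g' i = 0 := fun i hi =>
    sub_eq_zero.mpr (Lev.exact_of_PSol hex hi)
  have hF5 : ∀ c ∈ P.KK (l + 1), ∀ m : M,
      L.Obs P (l + 1) m (J + 1) X₁ g₁ c = P.τ (c l * L.coeff m (J + 1) (L.E P X' g' l)) :=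
    fun c hc m => Lev.Obs_eq_first_error (by omega) hc hX1f hg1f hX₁' (fun i _ => hg₁' i) hexE m
  have hadd := fun (c : ℕ → A) (hc : c ∈ P.KK (l + 1)) (m : M) =>
    h.Obs_addT hJ τ hτT hS1 u hc m
  refine ⟨X', g', hex, ?_, ?_, ?_, ?_⟩
  · have a1 := h₁.leadg l (by omega)
    have a2 := L.Φ.anti (show 2 ≤ J + 1 by omega) (hg₁' l)
    have := add_mem a2 a1
    convert this using 1
    abel
  · exact E_mem_of_close (by omega) hX1f (hg1f l (by omega)) hX₁' (hg₁' l) (h₁.E_mem l (by omega))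
  · intro c hc hP m
    rw [← hF5 c hc m, hadd c hc m, (hP _ (hτT m)).1, (hP _ (hτT (m - L.μ₁))).2]
    simp
  · intro m hm hJ1 c hc
    rw [← hF5 c hc m, hadd c hc m, hm]
    have hz : L.ζ ^ L.κ (m - L.μ₁) - L.ζ ^ (J : ℤ) = 0 := by
      have hne := L.ζ_ne
      rw [map_sub, L.κ_μ₁, zpow_sub₀ hne, hm, sub_eq_zero]
      rw [zpow_add₀ hne] at hJ1
      field_simp
      simpa [mul_comm] using hJ1.symm
    rw [hz]
    simp

end Hens

/-! ### The induction step of the oracle -/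

section Top

open LU LU.Tw0 LU.Tw Plan

variable [Tw0] [Tw] {F : Subfield U} [CentF F]

/-- glue, §J(l) -/
theorem orc_succ (l : ℕ) (h1 : Orc F l) (_h2 : Val F l l) (h3 : KeyS F l) (h4 : LiftS F l) :
    Orc F (l + 1) := by
  intro Ls n _ ρ r S TT hC t1 t2 hA J hJ X g hP
  have hV := hC.valid
  have hr : l + 1 ≤ r := hV.le
  have hCl : Ctx F Ls n ρ l r S TT := ⟨hV.mono (Nat.le_succ l), hC.above, hC.opt⟩
  have hTT : TT ≤ (pt F n ρ Ls.a).T (l + 1) := hV.TT_le.trans ((pt F n ρ Ls.a).T_anti hr)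
  have hH2' := fun φ₁ φ₂ hφ₁ hφ₂ => H2_pred hV hA φ₁ φ₂ hφ₁ hφ₂
  have hAl : Adm (pt F n ρ Ls.a) l TT t1 t2 :=
    { mem1 := hA.mem1
      mem2 := hA.mem2
      S1 := hV.TT_S l (by omega) t1 hA.mem1
      S2 := hV.TT_S l (by omega) t2 hA.mem2
      H1 := fun c hc => by
        rw [← (pt F n ρ Ls.a).PP_of_le (Nat.le_succ l) hc]
        exact hA.H1 c ((pt F n ρ Ls.a).KK_mono (Nat.le_succ l) hc)
      H2 := fun φ₁ φ₂ hφ₁ hφ₂ => by
        obtain ⟨t', ht', hk⟩ := hH2' φ₁ φ₂ hφ₁ hφ₂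
        refine ⟨t', ht', fun c hc => ?_⟩
        rw [← (pt F n ρ Ls.a).PP_of_le (Nat.le_succ l) hc,
          ← (pt F n ρ Ls.a).PP_of_le (Nat.le_succ l) hc]
        exact hk c hc
      indep := hA.indep }
  have hO := h1 Ls n ρ r S TT hCl t1 t2 hAl
  obtain ⟨X', g', hex, hlead, hE, hPart1, hPart2⟩ := first_error (L := (lv n).lev)
    (P := pt F n ρ Ls.a) (l := l) (t1 := t1) (t2 := t2) (J := J)
    (fun c hc τ' hτ' => ⟨hA.S1 c hc τ' hτ', hA.S2 c hc τ' hτ'⟩)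
    (fun c hc τ' hτ' => ⟨hAl.S1 c hc τ' hτ', hAl.S2 c hc τ' hτ'⟩)
    (IIT (pt F n ρ Ls.a) l TT) (fun c hc => hc.1)
    (fun φ₁ φ₂ hφ₁ hφ₂ => by
      obtain ⟨t', ht', hk⟩ := hAl.H2 φ₁ φ₂ hφ₁ hφ₂
      exact ⟨t', (pt F n ρ Ls.a).T_anti (Nat.le_succ l) (hTT ht'), hk⟩)
    (fun φ₁ φ₂ hφ₁ hφ₂ => by
      obtain ⟨t', ht', hk⟩ := hH2' φ₁ φ₂ hφ₁ hφ₂
      exact ⟨t', hTT ht', hk⟩)
    hO hJ hP
  have hFrame : Frame F Ls n ρ l t1 t2 (J + 1) X' (g' l) :=
    ⟨(hex 0).fsg l, hlead, hE⟩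
  constructor
  · intro m c hc
    rw [hPart1 c hc.1 (fun τ' hτ' => ⟨hc.2 t1 hA.mem1 τ' hτ', hc.2 t2 hA.mem2 τ' hτ'⟩) m]
    have hcl := last_mem_ppl_of_mem_IIT hV hc
    set G := (lv n).lev.coeff m (J + 1) ((lv n).lev.E (pt F n ρ Ls.a) X' g' l) with hG
    have hle : PPl (pt F n ρ Ls.a) S l ≤
        LinearMap.ker ((τ n) ∘ₗ LinearMap.mulRight (Kn n) G) := by
      refine iSup₂_le fun y hy p hp => ?_
      have hgood := hV.S_good l (by omega) y hy
      exact (h3 Ls n ρ r S TT (by omega) hCl t1 t2 hAl y hgood).2 (J + 1) (by omega) X' g' (g' l) hex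
        hFrame m p hp
    exact hle hcl
  · intro m hm hJ1 c hc
    rw [hPart2 m hm hJ1 c hc]
    have hζ := (lv n).ζ_prim
    have hm' : (((lv n).m : ℕ) : ℤ) ∣ κ m := by
      rw [← hζ.zpow_eq_one_iff_dvd, ← (lv n).lev_ζ, ← (lv n).lev_κ]
      exact hm
    have hJ' : (lv n).m ∣ J + 1 := by
      have h5 : (((lv n).m : ℕ) : ℤ) ∣ ((J : ℤ) + 1) := by
        rw [← hζ.zpow_eq_one_iff_dvd, ← (lv n).lev_ζ]
        exact hJ1
      exact_mod_cast h5
    exact h4 Ls n ρ r S TT hC t1 t2 hA (J + 1) (by omega) hJ' X' g' (g' l) hex hFrame m hm' (c l)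
      (last_mem_annl _ hc)

end Top

end Crest.Agent.Kurosh.OrcGlue
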