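/-
S0270 (Kurosh), blueprint v3 §F + Euler (helper62): `exists_fresh` of `Plan.lean`.

* `cCo`, `HN`: the coordinates of `c_ν` in the exponents `CE`, the subgroups "only `c_ν`, `ν < N`".
* `exists_trunc`, `PSol_close`: truncation of partial solutions to finitely many monomials.
* `yOf`, `hyfree_yOf`: prescribed effect-free chains.
* `exists_chain_solution`: the exact solution with prescribed fresh chains; output in coordinates.
* `LU.Lv.eul`: Euler derivations on a level-up.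
* `exists_fresh`.
-/
import Crest.Agent.Kurosh.PlanDefs
import Crest.Agent.Kurosh.StateII
import Crest.Agent.Kurosh.THahnEuler
import Crest.Agent.Kurosh.OrcGlue

set_option autoImplicit false
set_option linter.unusedSectionVars false

namespace Crest.Agent.Kurosh.FreshEx

open Hensel State Module LU OrcGlue
open _root_.Crest.Agent.Kurosh.Inv
open _root_.Crest.Agent.Kurosh.Inv.St

/-! ### Coordinates of the exponents -/

/-- The exponent of `c_ν`. -/
def cCo (ν : ℕ) : CE →+ ℤ where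
  toFun a := (ofLex (ofLex a).1) (OrderDual.toDual ν)
  map_zero' := rfl
  map_add' _ _ := rfl

lemma cCo_cExp_self (ν : ℕ) : cCo ν (cExp ν) = 1 := by
  show (Finsupp.single ν (1 : ℤ)) ν = 1
  simp

lemma cCo_cExp_ne {ν ν' : ℕ} (h : ν ≠ ν') : cCo ν (cExp ν') = 0 := by
  show (Finsupp.single ν' (1 : ℤ)) ν = 0
  simp [h.symm]

/-- The monomial `s^K`. -/
def sPow (K : ℤ) : CE := toLex (0, K)

@[simp] lemma κ_sPow (K : ℤ) : κ (sPow K) = K := rfl

@[simp] lemma cCo_sPow (ν : ℕ) (K : ℤ) : cCo ν (sPow K) = 0 := rfl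

lemma cCo_sExp (ν : ℕ) : cCo ν sExp = 0 := rfl

lemma cCo_mu1 {ν : ℕ} (h : ν ≠ 0) : cCo ν mu1 = 0 := by
  rw [mu1, map_add, cCo_cExp_ne h, cCo_sExp, add_zero]

/-- The exponents with only `c_ν`, `ν < N`. -/
def HN (N : ℕ) : AddSubgroup CE where
  carrier := {a | ∀ ν, N ≤ ν → cCo ν a = 0}
  add_mem' := by
    intro a b ha hb ν hν
    rw [map_add, ha ν hν, hb ν hν, add_zero]
  zero_mem' := fun ν _ => map_zero _
  neg_mem' := by
    intro a ha ν hν
    rw [map_neg, ha ν hν, neg_zero]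

lemma mem_HN {N : ℕ} {a : CE} : a ∈ HN N ↔ ∀ ν, N ≤ ν → cCo ν a = 0 := Iff.rfl

lemma HN_mono : Monotone HN := fun _ _ h _ ha ν hν => ha ν (h.trans hν)

lemma exists_HN (a : CE) : ∃ N, a ∈ HN N := by
  classical
  refine ⟨(ofLex (ofLex a).1).support.sup (fun x => OrderDual.ofDual x) + 1, fun ν hν => ?_⟩
  by_contra h
  have h1 : OrderDual.toDual ν ∈ (ofLex (ofLex a).1).support := Finsupp.mem_support_iff.mpr h
  have h2 := Finset.le_sup (f := fun x => OrderDual.ofDual x) h1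
  simp only [OrderDual.ofDual_toDual] at h2
  omega

lemma exists_HN_finset (s : Finset CE) : ∃ N, ∀ a ∈ s, a ∈ HN N := by
  classical
  induction s using Finset.induction_on with
  | empty => exact ⟨0, by simp⟩
  | insert a s _ ih =>
    obtain ⟨N, hN⟩ := ih
    obtain ⟨N', hN'⟩ := exists_HN a
    refine ⟨max N N', fun b hb => ?_⟩
    rcases Finset.mem_insert.mp hb with rfl | hb
    · exact HN_mono (le_max_right _ _) hN'
    · exact HN_mono (le_max_left _ _) (hN b hb)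

lemma cExp_mem_HN {ν N : ℕ} (h : ν < N) : cExp ν ∈ HN N := fun ν' hν' =>
  cCo_cExp_ne (by omega)

lemma sPow_mem_HN (N : ℕ) (K : ℤ) : sPow K ∈ HN N := fun _ _ => rfl

lemma mu1_mem_HN {N : ℕ} (h : 1 ≤ N) : mu1 ∈ HN N :=
  add_mem (cExp_mem_HN (by omega)) (sPow_mem_HN N 1)

section Lev

variable {M K A R : Type*} [AddCommGroup M] [DecidableEq M] [Field K] [Ring A] [Algebra K A] [Ring R]
  [Algebra K R] {L : Lev M K A R}

/-- Truncation of an element of `FS` at an order. -/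
lemma exists_trunc {x : R} (hx : x ∈ L.FS) (J : ℕ) :
    ∃ (s : Finset M) (x' : R), x' ∈ L.FS ∧ x - x' ∈ L.Φ.fil J ∧
      ∀ n j, L.coeff n j x' ≠ 0 → n ∈ s := by
  classical
  induction J with
  | zero =>
    refine ⟨∅, 0, zero_mem _, ?_, fun n j h => absurd (map_zero _) h⟩
    simpa using ((L.FS_iff x).mp hx).1
  | succ J ih =>
    obtain ⟨s, x', hx', hsub, hs⟩ := ih
    set y := x - x' with hy
    have hyFS : y ∈ L.FS := sub_mem hx hx'
    have hfin := ((L.FS_iff y).mp hyFS).2 J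
    set S := hfin.toFinset with hS
    set w : R := ∑ n ∈ S, L.mono (L.coeff n J y) n J with hw
    refine ⟨s ∪ S, x' + w, add_mem hx' (L.sum_mono_mem_FS _ _ _), ?_, ?_⟩
    · have e : x - (x' + w) = y - w := by rw [hy]; abel
      rw [e]
      apply L.mem_fil_succ (sub_mem hsub (L.sum_mono_mem _ _ _))
      intro n
      rw [map_sub, L.coeff_sum_mono]
      by_cases hn : n ∈ S
      · rw [if_pos hn, sub_self]
      · rw [if_neg hn, sub_zero]
        by_contra h
        exact hn (hfin.mem_toFinset.mpr h)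
    · intro n j h
      rw [map_add] at h
      by_cases h1 : L.coeff n j x' = 0
      · rw [h1, zero_add] at h
        have h2 : n ∈ S := by
          by_cases hj : j = J
          · subst hj
            rw [hw, L.coeff_sum_mono] at h
            by_contra hn
            rw [if_neg hn] at h
            exact h rfl
          · rw [hw, L.coeff_sum_mono_of_ne _ _ _ hj] at h
            exact absurd rfl h
        exact Finset.mem_union_right _ h2
      · exact Finset.mem_union_left _ (hs n j h1)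

variable {F : Type*} [Field F] [Algebra F K] [Algebra F A]
  [IsScalarTower F K A] [Algebra F R] [IsScalarTower F K R] {ι : Type*} {P : Pt F K A ι}
  {k J : ℕ} {t1 t2 : ι → A} {X X' : ι → R} {g g' : ℕ → R}

/-- A point close to a partial solution is a partial solution. -/
theorem PSol_close (h : L.PSol P k J t1 t2 X g) (hJ : 2 ≤ J) (hfX : ∀ v, X' v ∈ L.FS)
    (hfg : ∀ i, g' i ∈ L.FS) (hX : ∀ v, X' v - X v ∈ L.Φ.fil J)
    (hg : ∀ i < k, g' i - g i ∈ L.Φ.fil J) : L.PSol P k J t1 t2 X' g' where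
  fsX := hfX
  fsg := hfg
  leadX := fun v => by
    have := add_mem (L.Φ.anti hJ (hX v)) (h.leadX v)
    convert this using 1
    abel
  leadg := fun i hi => by
    have := add_mem (L.Φ.anti hJ (hg i hi)) (h.leadg i hi)
    convert this using 1
    abel
  E_mem := fun i hi => by
    have hX1 : ∀ v, X v - L.inc (P.ρ v) ∈ L.Φ.fil 1 := fun v => by
      have a1 := L.Φ.anti (Nat.le_succ 1) (h.leadX v)
      have a2 := L.mono_mem (t1 v) 0 1
      have a3 := L.mono_mem (t2 v) L.μ₁ 1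
      have := add_mem (add_mem a1 a2) a3
      convert this using 1
      abel
    have hg1 : g i - 1 ∈ L.Φ.fil 1 := by
      have a1 := L.Φ.anti (Nat.le_succ 1) (h.leadg i hi)
      have a2 := L.mono_mem (P.w i t1) 0 1
      have a3 := L.mono_mem (P.w i t2) L.μ₁ 1
      have := add_mem (add_mem a1 a2) a3
      convert this using 1
      abel
    exact E_mem_of_close (by omega) hX1 hg1 hX (hg i hi) (h.E_mem i hi)

/-! ### Chains -/

variable [FiniteDimensional K A]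

lemma chain_id {c : ℕ → A} {j : ℕ} {μ : M} {τ τ' : ι → A}
    (h1 : (L.ζ ^ L.κ μ - 1) * P.PP k c t1 τ = 0)
    (h2 : (L.ζ ^ L.κ (μ + L.μ₁) - 1) * P.PP k c t1 τ'
      + (L.ζ ^ L.κ μ - L.ζ ^ (j : ℤ)) * P.PP k c t2 τ = 0)
    (h3 : P.PP k c t2 τ' = 0) (m : M) :
    (L.ζ ^ L.κ m - 1) * P.PP k c t1 (if m = μ then τ else if m = μ + L.μ₁ then τ' else 0)
      + (L.ζ ^ L.κ (m - L.μ₁) - L.ζ ^ (j : ℤ)) * P.PP k c t2
          (if m - L.μ₁ = μ then τ else if m - L.μ₁ = μ + L.μ₁ then τ' else 0) = 0 := by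
  have hμ₁ : L.μ₁ ≠ 0 := by
    intro h0
    have := L.κ_μ₁
    rw [h0, map_zero] at this
    exact absurd this (by norm_num)
  have hz1 : P.PP k c t1 (0 : ι → A) = 0 := Lev.PP_zero_right _ _
  have hz2 : P.PP k c t2 (0 : ι → A) = 0 := Lev.PP_zero_right _ _
  by_cases hm : m = μ
  · subst hm
    have h3' : m - L.μ₁ ≠ m := fun h => hμ₁ (by simpa using h)
    have h4 : m - L.μ₁ ≠ m + L.μ₁ := by
      intro h
      have := congrArg L.κ h
      rw [map_sub, map_add, L.κ_μ₁] at this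
      omega
    rw [if_pos rfl, if_neg h3', if_neg h4, hz2, mul_zero, add_zero]
    exact h1
  · by_cases hm1 : m = μ + L.μ₁
    · subst hm1
      rw [if_neg hm, if_pos rfl, add_sub_cancel_right, if_pos rfl]
      exact h2
    · by_cases hm2 : m - L.μ₁ = μ + L.μ₁
      · have h7 : m - L.μ₁ ≠ μ := fun h => hm1 (by rw [← h]; abel)
        rw [if_neg hm, if_neg hm1, hz1, mul_zero, zero_add, if_neg h7, if_pos hm2, h3, mul_zero]
      · have h7 : m - L.μ₁ ≠ μ := fun h => hm1 (by rw [← h]; abel)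
        rw [if_neg hm, if_neg hm1, if_neg h7, if_neg hm2, hz1, hz2, mul_zero, mul_zero, add_zero]

section yOf

variable {C : Type*} [Fintype C]

/-- The prescribed moves of a finite family of chains. -/
noncomputable def yOf (L : Lev M K A R) (jc : C → ℕ) (μc : C → M) (τc τd : C → ι → A) (j : ℕ) (m : M) :
    ι → A :=
  ∑ c, if jc c = j then (if m = μc c then τc c else if m = μc c + L.μ₁ then τd c else 0) else 0

variable {jc : C → ℕ} {μc : C → M} {τc τd : C → ι → A}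

lemma yOf_mem_T (h1 : ∀ c, τc c ∈ P.T k) (h2 : ∀ c, τd c ∈ P.T k) (j : ℕ) (m : M) :
    yOf L jc μc τc τd j m ∈ P.T k := by
  refine sum_mem fun c _ => ?_
  split_ifs
  · exact h1 c
  · exact h2 c
  · exact zero_mem _
  · exact zero_mem _

lemma yOf_finite (j : ℕ) : {m : M | yOf L jc μc τc τd j m ≠ 0}.Finite := by
  classical
  refine ((Finset.univ.image μc ∪ Finset.univ.image (fun c => μc c + L.μ₁)).finite_toSet).subset ?_
  intro m hm
  by_contra hcon
  apply hm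
  refine Finset.sum_eq_zero fun c _ => ?_
  have h1 : m ≠ μc c := fun h => hcon (by
    simp only [Finset.coe_union, Set.mem_union, Finset.mem_coe, Finset.mem_image, Finset.mem_univ,
      true_and]
    exact Or.inl ⟨c, h.symm⟩)
  have h2 : m ≠ μc c + L.μ₁ := fun h => hcon (by
    simp only [Finset.coe_union, Set.mem_union, Finset.mem_coe, Finset.mem_image, Finset.mem_univ,
      true_and]
    exact Or.inr ⟨c, h.symm⟩)
  rw [if_neg h1, if_neg h2, ite_self]

lemma exists_of_yOf_ne {j : ℕ} {m : M} (h : yOf L jc μc τc τd j m ≠ 0) :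
    ∃ c, jc c = j ∧ (m = μc c ∨ m = μc c + L.μ₁) := by
  by_contra hcon
  apply h
  refine Finset.sum_eq_zero fun c _ => ?_
  by_cases hj : jc c = j
  · have h1 : m ≠ μc c := fun h' => hcon ⟨c, hj, Or.inl h'⟩
    have h2 : m ≠ μc c + L.μ₁ := fun h' => hcon ⟨c, hj, Or.inr h'⟩
    rw [if_pos hj, if_neg h1, if_neg h2]
  · rw [if_neg hj]

lemma hyfree_yOf {c : ℕ → A} {j : ℕ}
    (h : ∀ i, jc i = j → (L.ζ ^ L.κ (μc i) - 1) * P.PP k c t1 (τc i) = 0 ∧
      (L.ζ ^ L.κ (μc i + L.μ₁) - 1) * P.PP k c t1 (τd i)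
        + (L.ζ ^ L.κ (μc i) - L.ζ ^ (j : ℤ)) * P.PP k c t2 (τc i) = 0 ∧
      P.PP k c t2 (τd i) = 0) (m : M) :
    (L.ζ ^ L.κ m - 1) * P.PP k c t1 (yOf L jc μc τc τd j m)
      + (L.ζ ^ L.κ (m - L.μ₁) - L.ζ ^ (j : ℤ)) * P.PP k c t2 (yOf L jc μc τc τd j (m - L.μ₁)) = 0 := by
  have e1 : ∀ (t : ι → A) (m' : M), P.PP k c t (yOf L jc μc τc τd j m') =
      ∑ i, P.PP k c t (if jc i = j then (if m' = μc i then τc i else
        if m' = μc i + L.μ₁ then τd i else 0) else 0) := by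
    intro t m'
    show P.PPtri k c t (∑ i, _) = _
    rw [map_sum]
    rfl
  rw [e1, e1, Finset.mul_sum, Finset.mul_sum, ← Finset.sum_add_distrib]
  refine Finset.sum_eq_zero fun i _ => ?_
  by_cases hj : jc i = j
  · rw [if_pos hj, if_pos hj]
    obtain ⟨a1, a2, a3⟩ := h i hj
    exact chain_id a1 a2 a3 m
  · rw [if_neg hj, if_neg hj, Lev.PP_zero_right, Lev.PP_zero_right, mul_zero, mul_zero, add_zero]

end yOf

end Lev

/-! ### The exact solution with prescribed fresh chains -/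

section Solution

variable {K A R : Type*} [Field K] [Ring A] [Algebra K A] [Ring R] [Algebra K R] {L : Lev CE K A R}
  {F : Type*} [Field F] [Algebra F K] [Algebra F A] [IsScalarTower F K A] [Algebra F R]
  [IsScalarTower F K R] {ι : Type*} [Finite ι] {P : Pt F K A ι} {k J : ℕ} {t1 t2 : ι → A}
  {X0 : ι → R} {g0 : ℕ → R} [FiniteDimensional K A] [CharZero K]

/-- The number of variables in use at order `j`. -/
def Nv (N₀ J₀ B W j : ℕ) : ℕ := N₀ + min (j + 1 - J₀) B * W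

lemma Nv_mono (N₀ J₀ B W : ℕ) : Monotone (Nv N₀ J₀ B W) := by
  intro a b hab
  unfold Nv
  have : min (a + 1 - J₀) B ≤ min (b + 1 - J₀) B := min_le_min_right _ (by omega)
  have := Nat.mul_le_mul_right W this
  omega

lemma le_Nv (N₀ J₀ B W j : ℕ) : N₀ ≤ Nv N₀ J₀ B W j := Nat.le_add_right _ _

/-- **The exact solution with prescribed fresh chains.** The chain `i` consists of `τc i` at
`c_{ν i} s^{a i}` and `τd i` at `c_{ν i} s^{a i} μ₁`, of order `J₀ + ordr i`, with `c_{ν i}` fresh: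
in the variable `c_{ν i}`, the solution `X` has no term below that order and exactly this chain at
that order. -/
theorem exists_chain_solution (hκ : L.κ = LU.κ) (hμ : L.μ₁ = mu1) (hJ : 2 ≤ J)
    (h0 : L.PSol P k (J + 1) t1 t2 X0 g0) (II : Submodule K (ℕ → A))
    (hS : ∀ c ∈ P.KK k, ∀ τ' ∈ P.T k, P.SS k c t1 τ' = 0 ∧ P.SS k c t2 τ' = 0)
    (hH2 : ∀ φ₁ φ₂ : (ℕ → A) →ₗ[K] K, (∀ c ∈ II, φ₁ c = 0) → (∀ c ∈ II, φ₂ c = 0) →
      ∃ τ' ∈ P.T k, ∀ c ∈ P.KK k, P.PP k c t1 τ' = φ₁ c ∧ P.PP k c t2 τ' = φ₂ c)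
    (hVan : ∀ J', J ≤ J' → ∀ (X : ι → R) (g : ℕ → R), L.PSol P k (J' + 1) t1 t2 X g →
      (∀ m : CE, ∀ c ∈ II, L.Obs P k m (J' + 1) X g c = 0) ∧
      (∀ m : CE, L.ζ ^ L.κ m = 1 → L.ζ ^ ((J' : ℤ) + 1) = 1 → ∀ c ∈ P.KK k,
        L.Obs P k m (J' + 1) X g c = 0))
    {C : Type*} [Fintype C] (ordr : C → ℕ) (B : ℕ) (hB : ∀ i, ordr i < B) (J₀ : ℕ) (hJ₀ : J < J₀)
    (ac : C → ℤ) (τc τd : C → ι → A) (hT1 : ∀ i, τc i ∈ P.T k) (hT2 : ∀ i, τd i ∈ P.T k)
    (hfree : ∀ i, ∀ c ∈ P.KK k, (L.ζ ^ (ac i) - 1) * P.PP k c t1 (τc i) = 0 ∧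
      (L.ζ ^ (ac i + 1) - 1) * P.PP k c t1 (τd i)
        + (L.ζ ^ (ac i) - L.ζ ^ ((J₀ + ordr i : ℕ) : ℤ)) * P.PP k c t2 (τc i) = 0 ∧
      P.PP k c t2 (τd i) = 0) :
    ∃ (ν : C → ℕ) (X : ι → R) (g : ℕ → R), (∀ J', L.PSol P k J' t1 t2 X g) ∧
      (∀ v, X v - X0 v ∈ L.Φ.fil J) ∧ (∀ i, g i - g0 i ∈ L.Φ.fil J) ∧
      ∀ i v (n : CE) j, j ≤ J₀ + ordr i →
        ((cCo (ν i) n : ℤ) : K) • L.coeff n j (X v) = if j = J₀ + ordr i then
          (if n = cExp (ν i) + sPow (ac i) then τc i v else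
            if n = cExp (ν i) + sPow (ac i) + mu1 then τd i v else 0) else 0 := by
  classical
  have := Fintype.ofFinite ι
  -- truncations
  have hX1 := fun v => exists_trunc (L := L) (h0.fsX v) (J + 1)
  have hg1 := fun i => exists_trunc (L := L) (h0.fsg i) (J + 1)
  choose sX X1 hX1F hX1c hX1s using hX1
  choose sg g1' hg1F hg1c hg1s using hg1
  set g1 : ℕ → R := fun i => if i < k then g1' i else 1 with hg1def
  have hg1FS : ∀ i, g1 i ∈ L.FS := by
    intro i
    simp only [hg1def]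
    split_ifs with hi
    · exact hg1F i
    · exact one_mem _
  have h1 : L.PSol P k (J + 1) t1 t2 X1 g1 :=
    PSol_close h0 (by omega) hX1F hg1FS
      (fun v => by simpa using neg_mem (hX1c v))
      (fun i hi => by
        simp only [hg1def, if_pos hi]
        simpa using neg_mem (hg1c i))
  -- the variables in use
  obtain ⟨N₁, hN₁⟩ := exists_HN_finset
    ((Finset.univ.biUnion sX) ∪ ((Finset.range k).biUnion sg))
  set N₀ := max N₁ 1 with hN₀
  have hN₀1 : 1 ≤ N₀ := le_max_right _ _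
  have hsX : ∀ v n, n ∈ sX v → n ∈ HN N₀ := fun v n hn =>
    HN_mono (le_max_left _ _) (hN₁ n (Finset.mem_union_left _
      (Finset.mem_biUnion.mpr ⟨v, Finset.mem_univ _, hn⟩)))
  have hsg : ∀ i < k, ∀ n, n ∈ sg i → n ∈ HN N₀ := fun i hi n hn =>
    HN_mono (le_max_left _ _) (hN₁ n (Finset.mem_union_right _
      (Finset.mem_biUnion.mpr ⟨i, Finset.mem_range.mpr hi, hn⟩)))
  -- the fresh variables
  set e := Fintype.equivFin C with he
  set W := Fintype.card C + 1 with hW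
  have heW : ∀ i, (e i : ℕ) < W := fun i => by
    have := (e i).2
    omega
  set ν : C → ℕ := fun i => N₀ + ordr i * W + e i with hν
  have hνinj : ∀ a b, ν a = ν b → a = b := by
    intro a b hab
    simp only [hν] at hab
    have h2 : ordr a = ordr b := by
      rcases lt_trichotomy (ordr a) (ordr b) with h | h | h
      · have : (ordr a + 1) * W ≤ ordr b * W := Nat.mul_le_mul_right W h
        have h3 := heW a
        rw [add_mul, one_mul] at this
        omega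
      · exact h
      · have : (ordr b + 1) * W ≤ ordr a * W := Nat.mul_le_mul_right W h
        have h3 := heW b
        rw [add_mul, one_mul] at this
        omega
    rw [h2] at hab
    exact e.injective (Fin.ext (by omega))
  have hν0 : ∀ i, ν i ≠ 0 := fun i => by
    simp only [hν]
    omega
  set Nf := Nv N₀ J₀ B W with hNf
  set Hf : ℕ → AddSubgroup CE := fun j => HN (Nf j) with hHfdef
  have hHf : Monotone Hf := fun a b hab => HN_mono (Nv_mono _ _ _ _ hab)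
  set jc : C → ℕ := fun i => J₀ + ordr i with hjc
  have hνlt : ∀ i, ν i < Nf (jc i) := by
    intro i
    have h2 : jc i + 1 - J₀ = ordr i + 1 := by
      simp only [hjc]
      omega
    have h3 : min (jc i + 1 - J₀) B = ordr i + 1 := by
      rw [h2]
      exact min_eq_left (hB i)
    simp only [hNf, Nv, hν, h3, add_mul, one_mul]
    have := heW i
    omega
  have hνge : ∀ i, Nf (jc i - 1) ≤ ν i := by
    intro i
    have h2 : jc i - 1 + 1 - J₀ = ordr i := by
      simp only [hjc]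
      omega
    have h3 : min (jc i - 1 + 1 - J₀) B = ordr i := by
      rw [h2]
      exact min_eq_left (hB i).le
    simp only [hNf, Nv, hν, h3]
    omega
  set μc : C → CE := fun i => cExp (ν i) + sPow (ac i) with hμc
  have hκμ : ∀ i, L.κ (μc i) = ac i := fun i => by
    simp only [hμc, hκ, map_add, κ_cExp, κ_sPow, zero_add]
  have hκμ1 : ∀ i, L.κ (μc i + L.μ₁) = ac i + 1 := fun i => by
    rw [map_add, hκμ, L.κ_μ₁]
  set y := yOf L jc μc τc τd with hy
  have hyfree : ∀ j, J ≤ j → ∀ c ∈ P.KK k, ∀ m : CE,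
      (L.ζ ^ L.κ m - 1) * P.PP k c t1 (y j m)
        + (L.ζ ^ L.κ (m - L.μ₁) - L.ζ ^ (j : ℤ)) * P.PP k c t2 (y j (m - L.μ₁)) = 0 := by
    intro j _ c hc m
    refine hyfree_yOf (fun i hi => ?_) m
    obtain ⟨a1, a2, a3⟩ := hfree i c hc
    rw [hκμ, hκμ1, ← hi]
    exact ⟨a1, a2, a3⟩
  have hyHf : ∀ j m, y j m ≠ 0 → m ∈ Hf j := by
    intro j m hne
    obtain ⟨i, hi, hm⟩ := exists_of_yOf_ne hne
    have h2 : cExp (ν i) ∈ HN (Nf j) := by
      rw [← hi]
      exact cExp_mem_HN (hνlt i)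
    have h3 : μc i ∈ HN (Nf j) := add_mem h2 (sPow_mem_HN _ _)
    have h4 : 1 ≤ Nf j := hN₀1.trans (le_Nv _ _ _ _ _)
    rcases hm with rfl | rfl
    · exact h3
    · rw [hμ]
      exact add_mem h3 (mu1_mem_HN h4)
  have hHc : ∀ j n, n ∈ HN N₀ → n ∈ Lev.Hc Hf J j := fun j n hn =>
    HN_mono (le_Nv _ _ _ _ _) hn
  have hX0f : ∀ v, X1 v ∈ L.FSf (Lev.Hc Hf J) (Lev.Hc_mono hHf J) := by
    intro v
    rw [L.FSf_iff]
    exact ⟨hX1F v, fun n j hne => hHc j n (hsX v n (hX1s v n j hne))⟩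
  have hg0f : ∀ i, g1 i ∈ L.FSf (Lev.Hc Hf J) (Lev.Hc_mono hHf J) := by
    intro i
    rw [L.FSf_iff]
    refine ⟨hg1FS i, fun n j hne => ?_⟩
    by_cases hi : i < k
    · simp only [hg1def, if_pos hi] at hne
      exact hHc j n (hsg i hi n (hg1s i n j hne))
    · simp only [hg1def, if_neg hi] at hne
      have h2 : L.coeff n j (1 : R) = if n = 0 ∧ j = 0 then 1 else 0 := by
        have := L.coeff_mono n j 1 0 0
        rwa [map_one, one_mul, L.mon_zero] at this
      rw [h2] at hne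
      have h3 : n = 0 := by
        by_contra h
        exact hne (if_neg (fun h' => h h'.1))
      rw [h3]
      exact zero_mem _
  obtain ⟨X, g, hex, hXc, hgc, hXf, -, hy1, -⟩ := Lev.exists_limit_presc (L := L) (P := P) (J1 := J) hJ h1
    II hS hH2 y (fun j => yOf_finite j) (fun j m => yOf_mem_T hT1 hT2 j m) hyfree Hf hHf
    (by
      rw [hμ]
      exact mu1_mem_HN (hN₀1.trans (le_Nv _ _ _ _ _)))
    hyHf hX0f hg0f (fun J' hJ' X' g' hs _ _ => hVan J' hJ' X' g' hs)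
  -- the solution
  set gf : ℕ → R := fun i => if i < k then g i else g0 i with hgf
  refine ⟨ν, X, gf, fun J' => ?_, fun v => ?_, fun i => ?_, ?_⟩
  · exact
      { fsX := (hex 0).fsX
        fsg := fun i => by
          simp only [hgf]
          split_ifs with hi
          · exact (hex 0).fsg i
          · exact h0.fsg i
        leadX := (hex 0).leadX
        leadg := fun i hi => by
          simp only [hgf, if_pos hi]
          exact (hex 0).leadg i hi
        E_mem := fun i hi => by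
          have := (hex J').E_mem i hi
          simpa only [Lev.E, hgf, if_pos hi] using this }
  · have := add_mem (hXc v) (L.Φ.anti (Nat.le_succ J) (neg_mem (hX1c v)))
    convert this using 1
    abel
  · simp only [hgf]
    split_ifs with hi
    · have h2 := hgc i
      simp only [hg1def, if_pos hi] at h2
      have := add_mem h2 (L.Φ.anti (Nat.le_succ J) (neg_mem (hg1c i)))
      convert this using 1
      abel
    · simp
  -- coordinates
  · intro i v n j hj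
    have hνi : ∀ m, m ∈ HN (Nf (jc i - 1)) → cCo (ν i) m = 0 := fun m hm => hm _ (hνge i)
    have hjc1 : 1 ≤ jc i := by
      simp only [hjc]
      omega
    have hne1 : cCo (ν i) (μc i) = 1 := by
      simp only [hμc, map_add, cCo_cExp_self, cCo_sPow, add_zero]
    have hne2 : cCo (ν i) (μc i + mu1) = 1 := by
      rw [map_add, hne1, cCo_mu1 (hν0 i), add_zero]
    by_cases hji : j = jc i
    · -- at the order of the chain
      subst hji
      show _ = if jc i = jc i then (if n = μc i then τc i v else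
        if n = μc i + mu1 then τd i v else 0) else 0
      rw [if_pos rfl]
      by_cases hn : n ∈ Hf (jc i - 1)
      · have h0n := hνi n hn
        have h2 : n ≠ μc i := fun h => by
          rw [h, hne1] at h0n
          exact absurd h0n (by norm_num)
        have h3 : n ≠ μc i + mu1 := fun h => by
          rw [h, hne2] at h0n
          exact absurd h0n (by norm_num)
        rw [h0n, if_neg h2, if_neg h3]
        simp
      · rw [hy1 (jc i) (by simp only [hjc]; omega) n hn v]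
        show ((cCo (ν i) n : ℤ) : K) • ((∑ c, if jc c = jc i then
          (if n = μc c then τc c else if n = μc c + L.μ₁ then τd c else 0) else 0 : ι → A) v) = _
        rw [Finset.sum_apply, Finset.smul_sum, Finset.sum_eq_single i]
        · rw [hμ]
          by_cases h2 : n = μc i
          · rw [if_pos rfl, if_pos h2, h2, hne1]
            simp
          · by_cases h3 : n = μc i + mu1
            · have h4 : n ≠ μc i := h2
              rw [if_pos rfl, if_neg h4, if_pos h3, h3, hne2, if_neg, if_pos rfl]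
              · simp
              · intro h5
                rw [h3] at h4
                exact h4 h5
            · rw [if_pos rfl, if_neg h2, if_neg h3, if_neg h2, if_neg h3]
              simp
        · intro c _ hc
          have hνne : ν i ≠ ν c := fun h => hc (hνinj _ _ h).symm
          have h2 : cCo (ν i) (μc c) = 0 := by
            simp only [hμc, map_add, cCo_cExp_ne hνne, cCo_sPow, add_zero]
          by_cases hjj : jc c = jc i
          · rw [if_pos hjj]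
            by_cases h3 : n = μc c
            · rw [if_pos h3, h3, h2]
              simp
            · rw [if_neg h3]
              by_cases h4 : n = μc c + L.μ₁
              · rw [if_pos h4, h4, hμ, map_add, h2, cCo_mu1 (hν0 i)]
                simp
              · rw [if_neg h4]
                simp
          · rw [if_neg hjj]
            simp
        · intro h
          exact absurd (Finset.mem_univ i) h
    · -- below the order of the chain
      have hj' : j ≤ jc i - 1 := by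
        simp only [hjc] at hji ⊢
        omega
      show _ = if j = jc i then _ else 0
      rw [if_neg hji]
      by_cases hz : L.coeff n j (X v) = 0
      · rw [hz, smul_zero]
      · have h2 : n ∈ Hf j := ((L.FSf_iff _ _ _).mp (hXf v)).2 n j hz
        have h3 : n ∈ HN (Nf (jc i - 1)) := HN_mono (Nv_mono _ _ _ _ hj') h2
        rw [hνi n h3]
        simp

end Solution

/-! ### Linear choice of the corrections -/

section Theta

variable {F K A : Type*} [Field F] [Field K] [Ring A] [Algebra F K] [Algebra K A] [Algebra F A]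
  [IsScalarTower F K A] {ι : Type*} {P : Pt F K A ι} {k : ℕ} {t1 t2 : ι → A}

/-- A linear choice of the corrections of `P_·(t2,τ)`, `τ ∈ W`, vanishing when `P_·(t2,τ) = 0` on `𝕂`. -/
theorem exists_Theta (I : Submodule K (ℕ → A))
    (hH2 : ∀ φ₁ φ₂ : (ℕ → A) →ₗ[K] K, (∀ c ∈ I, φ₁ c = 0) → (∀ c ∈ I, φ₂ c = 0) →
      ∃ τ' ∈ P.T k, ∀ c ∈ P.KK k, P.PP k c t1 τ' = φ₁ c ∧ P.PP k c t2 τ' = φ₂ c)
    (W : Submodule K (ι → A)) (hW : ∀ τ ∈ W, ∀ c ∈ I, P.PP k c t2 τ = 0) :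
    ∃ Θ : W →ₗ[K] (ι → A), (∀ τ, Θ τ ∈ P.T k) ∧
      (∀ τ : W, ∀ c ∈ P.KK k, P.PP k c t1 (Θ τ) = P.PP k c t2 τ ∧ P.PP k c t2 (Θ τ) = 0) ∧
      (∀ τ : W, (∀ c ∈ P.KK k, P.PP k c t2 τ = 0) → Θ τ = 0) := by
  classical
  -- `τ ↦ (c ↦ P_c(t2,τ))`
  let B₂ : (ι → A) →ₗ[K] (ℕ → A) →ₗ[K] K :=
    ((LinearMap.applyₗ (R := K) (M := ι → A) (M₂ := (ι → A) →ₗ[K] K) t2) ∘ₗ P.PPtri k).flip
  have hB₂ : ∀ τ c, B₂ τ c = P.PP k c t2 τ := fun _ _ => rfl
  let f : W →ₗ[K] (P.KK k →ₗ[K] K) :=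
    { toFun := fun τ => (B₂ τ) ∘ₗ (P.KK k).subtype
      map_add' := fun a b => by
        ext c
        simp
      map_smul' := fun r a => by
        ext c
        simp }
  have hf : ∀ (τ : W) (c : P.KK k), f τ c = P.PP k c t2 τ := fun _ _ => rfl
  let b := Basis.ofVectorSpace K (LinearMap.range f)
  have hb : ∀ i, ∃ τ' ∈ P.T k, ∀ c : P.KK k,
      P.PP k c t1 τ' = (b i : P.KK k →ₗ[K] K) c ∧ P.PP k c t2 τ' = 0 := by
    intro i
    obtain ⟨τ₀, hτ₀⟩ := (b i).2
    obtain ⟨τ', hτ', hk⟩ := hH2 (B₂ τ₀) 0 (fun c hc => hW _ τ₀.2 c hc) (fun _ _ => rfl)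
    refine ⟨τ', hτ', fun c => ?_⟩
    have := hk c c.2
    refine ⟨?_, this.2⟩
    rw [this.1, ← hτ₀]
    rfl
  choose τ' hτ'T hτ' using hb
  let Θ' : LinearMap.range f →ₗ[K] (ι → A) := b.constr K τ'
  have hΘ'b : ∀ i, Θ' (b i) = τ' i := fun i => by
    show b.constr K τ' (b i) = τ' i
    rw [Basis.constr_basis]
  have h1 : ∀ (c : P.KK k) (ψ : LinearMap.range f),
      P.PP k c t1 (Θ' ψ) = (ψ : P.KK k →ₗ[K] K) c := by
    intro c ψ
    have : (P.PPtri k c t1) ∘ₗ Θ' =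
        (LinearMap.applyₗ (R := K) (M := P.KK k) (M₂ := K) c) ∘ₗ (LinearMap.range f).subtype := by
      refine b.ext fun i => ?_
      show P.PP k c t1 (Θ' (b i)) = (b i : P.KK k →ₗ[K] K) c
      rw [hΘ'b]
      exact (hτ' i c).1
    exact LinearMap.congr_fun this ψ
  have h2 : ∀ (c : P.KK k) (ψ : LinearMap.range f), P.PP k c t2 (Θ' ψ) = 0 := by
    intro c ψ
    have : (P.PPtri k c t2) ∘ₗ Θ' = 0 := by
      refine b.ext fun i => ?_
      show P.PP k c t2 (Θ' (b i)) = 0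
      rw [hΘ'b]
      exact (hτ' i c).2
    exact LinearMap.congr_fun this ψ
  have h3 : ∀ ψ, Θ' ψ ∈ P.T k := by
    have : LinearMap.range Θ' ≤ P.T k := by
      show LinearMap.range (b.constr K τ') ≤ P.T k
      rw [Basis.constr_range]
      exact Submodule.span_le.mpr (by
        rintro _ ⟨i, rfl⟩
        exact hτ'T i)
    exact fun ψ => this ⟨ψ, rfl⟩
  refine ⟨Θ' ∘ₗ f.rangeRestrict, fun τ => h3 _, fun τ c hc => ⟨?_, h2 ⟨c, hc⟩ _⟩, fun τ hτ => ?_⟩
  · exact h1 ⟨c, hc⟩ _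
  · have : f.rangeRestrict τ = 0 := by
      apply Subtype.ext
      refine LinearMap.ext fun c => ?_
      exact hτ c c.2
    show Θ' (f.rangeRestrict τ) = 0
    rw [this, map_zero]

end Theta

/-! ### Polynomials under conjugation -/

section Frozen

variable {F A R : Type*} [Field F] [Ring A] [Ring R] [Algebra F A] [Algebra F R]

lemma aeval_conj (inc : A →+* R) (hinc : ∀ r : F, inc (algebraMap F A r) = algebraMap F R r)
    {x : R} {y : A} {g : R} (h : x * g = g * inc y) (Q : Polynomial F) :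
    Polynomial.aeval x Q * g = g * inc (Polynomial.aeval y Q) := by
  have hp : ∀ k : ℕ, x ^ k * g = g * inc (y ^ k) := by
    intro k
    induction k with
    | zero => simp
    | succ k ih =>
      rw [pow_succ, mul_assoc, h, ← mul_assoc, ih, mul_assoc, map_pow, map_pow, pow_succ]
  induction Q using Polynomial.induction_on' with
  | add p q hp' hq' => simp only [map_add, add_mul, mul_add, hp', hq']
  | monomial k r =>
    rw [Polynomial.aeval_monomial, Polynomial.aeval_monomial, map_mul, hinc, mul_assoc, hp,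
      ← mul_assoc, ← mul_assoc, Algebra.commutes]

end Frozen

/-! ### Euler derivations on a level-up -/

section Euler

variable {K A K' R : Type*} [Field K] [DivisionRing A] [Algebra K A] [Field K'] [DivisionRing R]
  [Algebra K R] [Algebra K' R] [Algebra K K'] [IsScalarTower K K' R] {τ : A →ₗ[K] K}
  (L : Lv K A K' R τ)

/-- The Euler derivation of an additive map `e` of the exponents. -/
noncomputable def eul (e : GLv →+ ℤ) (x : R) : R :=
  L.φ.symm (THS.euler ((Int.castAddHom K).comp e) (L.φ x))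

lemma φ_eul (e : GLv →+ ℤ) (x : R) :
    L.φ (eul L e x) = THS.euler ((Int.castAddHom K).comp e) (L.φ x) := by
  simp [eul]

lemma coeff_φ_eul (e : GLv →+ ℤ) (x : R) (g : GLv) :
    (L.φ (eul L e x)).coeff g = ((e g : ℤ) : K) • (L.φ x).coeff g := by
  rw [φ_eul, THS.coeff_euler]
  rfl

lemma eul_add (e : GLv →+ ℤ) (x y : R) : eul L e (x + y) = eul L e x + eul L e y := by
  simp [eul, map_add]

lemma eul_mul (e : GLv →+ ℤ) (x y : R) :
    eul L e (x * y) = eul L e x * y + x * eul L e y := by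
  apply L.φ.injective
  rw [map_add, map_mul, map_mul, φ_eul, φ_eul, φ_eul, map_mul, THS.euler_mul]

lemma eul_algebraMap (e : GLv →+ ℤ) (c : K) : eul L e (algebraMap K R c) = 0 := by
  apply L.φ.injective
  rw [φ_eul, L.φ_alg, THS.euler_mono, map_zero, map_zero, zero_smul]
  exact THS.mono_zero' _

/-- Euler derivations preserve the centre. -/
lemma eul_K' (e : GLv →+ ℤ) (c : K') : ∃ c' : K', eul L e (algebraMap K' R c) = algebraMap K' R c' := by
  have h1 := (L.mem_K' (algebraMap K' R c)).mp ⟨c, rfl⟩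
  have h2 : eul L e (algebraMap K' R c) ∈ (algebraMap K' R).range := by
    rw [L.mem_K']
    intro g hg
    rw [coeff_φ_eul] at hg ⊢
    have h3 : (L.φ (algebraMap K' R c)).coeff g ≠ 0 := fun h => hg (by rw [h, smul_zero])
    obtain ⟨h4, a, ha⟩ := h1 g h3
    refine ⟨h4, ((e g : ℤ) : K) * a, ?_⟩
    rw [map_mul, ha, Algebra.smul_def]
  obtain ⟨c', hc'⟩ := h2
  exact ⟨c', hc'.symm⟩

lemma lev_coeff_eul (e : GLv →+ ℤ) (n : CE) (j : ℕ) (x : R) :
    L.lev.coeff n j (eul L e x) = ((e (idx n (j : ℤ)) : ℤ) : K) • L.lev.coeff n j x := by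
  rw [L.lev_coeff, coeff_φ_eul, L.lev_coeff]

lemma eul_fil (e : GLv →+ ℤ) {j : ℕ} {x : R} (hx : x ∈ L.lev.Φ.fil j) : eul L e x ∈ L.lev.Φ.fil j := by
  rw [L.lev_fil] at hx ⊢
  intro g hg
  rw [φ_eul] at hg
  exact hx g (THS.supp_euler_subset _ _ hg)

/-- The exponent of `c_ν` on monomials. -/
noncomputable def eν (ν : ℕ) : GLv →+ ℤ where
  toFun g := cCo ν (ofLex g).2
  map_zero' := rfl
  map_add' a b := by
    show cCo ν ((ofLex a).2 + (ofLex b).2) = _
    rw [map_add]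

@[simp] lemma eν_idx (ν : ℕ) (n : CE) (j : ℤ) : eν ν (idx n j) = cCo ν n := rfl

/-- The central unit `c_ν⁻¹`. -/
noncomputable def cInv (ν : ℕ) : R := L.φ.symm (THS.mono (idx (-cExp ν) 0) 1)

lemma φ_cInv (ν : ℕ) : L.φ (cInv L ν) = THS.mono (idx (-cExp ν) 0) 1 := by
  simp [cInv]

lemma cInv_mem (ν : ℕ) : cInv L ν ∈ (algebraMap K' R).range := by
  classical
  rw [L.mem_K', φ_cInv]
  intro g hg
  have hg' : g = idx (-cExp ν) 0 := THS.supp_mono_subset _ _ hg
  subst hg'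
  refine ⟨⟨dvd_zero _, ?_⟩, 1, ?_⟩
  · show (L.m : ℤ) ∣ κ (-cExp ν)
    rw [map_neg, κ_cExp, neg_zero]
    exact dvd_zero _
  · rw [THS.coeff_mono, if_pos rfl, map_one]

lemma cInv_fil (ν : ℕ) : cInv L ν ∈ L.lev.Φ.fil 0 := by
  rw [L.lev_fil, φ_cInv]
  intro g hg
  have hg' : g = idx (-cExp ν) 0 := THS.supp_mono_subset _ _ hg
  subst hg'
  simp

lemma cInv_mul_mono (ν : ℕ) (x : A) (n : CE) (j : ℕ) :
    cInv L ν * L.lev.mono x (cExp ν + n) j = L.lev.mono x n j := by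
  apply L.φ.injective
  rw [map_mul, φ_cInv, L.lev_mono, L.lev_mono, THS.mono_mul_mono, idx_add, neg_add_cancel_left, zero_add]
  have : (twist κ L.ζ L.ζ_ne) (idx (-cExp ν) 0) (idx (cExp ν + n) (j : ℤ)) = 1 := by
    show L.ζ ^ ((0 : ℤ) * _) = 1
    simp
  rw [this, one_smul, one_mul]

/-- The derivation `c_ν⁻¹ D_ν`. -/
noncomputable def Dν (ν : ℕ) (x : R) : R := cInv L ν * eul L (eν ν) x

lemma Dν_K' (ν : ℕ) (c : K') : ∃ c' : K', Dν L ν (algebraMap K' R c) = algebraMap K' R c' := by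
  obtain ⟨c₀, hc₀⟩ := cInv_mem L ν
  obtain ⟨c₁, hc₁⟩ := eul_K' L (eν ν) c
  refine ⟨c₀ * c₁, ?_⟩
  rw [Dν, hc₁, ← hc₀, map_mul]

lemma Dν_isDer {F : Type*} [Field F] [Algebra F K] [Algebra F R] [IsScalarTower F K R] (ν : ℕ) :
    IsDer (F := F) (Dν L ν) where
  add x y := by
    simp only [Dν, eul_add, mul_add]
  mul x y := by
    obtain ⟨c₀, hc₀⟩ := cInv_mem L ν
    simp only [Dν, eul_mul, mul_add, ← hc₀]
    rw [← mul_assoc (algebraMap K' R c₀) (eul L (eν ν) x) y, ← mul_assoc (algebraMap K' R c₀) x,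
      Algebra.commutes c₀ x, mul_assoc x]
  alg r := by
    rw [IsScalarTower.algebraMap_apply F K R, Dν, eul_algebraMap, mul_zero]

/-- Coefficients vanishing at all orders `≤ J` give the filtration `J + 1`. -/
lemma fil_of_coeff {M K₁ A₁ R₁ : Type*} [AddCommGroup M] [DecidableEq M] [Field K₁] [Ring A₁]
    [Algebra K₁ A₁] [Ring R₁] [Algebra K₁ R₁] {L₁ : Lev M K₁ A₁ R₁} {x : R₁} (h0 : x ∈ L₁.Φ.fil 0)
    {J : ℕ} (h : ∀ n j, j ≤ J → L₁.coeff n j x = 0) : x ∈ L₁.Φ.fil (J + 1) := by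
  induction J with
  | zero => exact L₁.mem_fil_succ h0 fun n => h n 0 le_rfl
  | succ J ih =>
    exact L₁.mem_fil_succ (ih fun n j hj => h n j (by omega)) fun n => h n (J + 1) le_rfl

/-- The lead of a chain. -/
lemma chain_lead {x : R} (hx : x ∈ L.lev.Φ.fil 0) {ν : ℕ} {a : ℤ} {j0 : ℕ} {τ₁ τ₂ : A}
    (h : ∀ (n : CE) j, j ≤ j0 → ((cCo ν n : ℤ) : K) • L.lev.coeff n j x = if j = j0 then
      (if n = cExp ν + sPow a then τ₁ else if n = cExp ν + sPow a + mu1 then τ₂ else 0) else 0) :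
    Dν L ν x - L.lev.mono τ₁ (sPow a) j0 - L.lev.mono τ₂ (sPow a + mu1) j0 ∈ L.lev.Φ.fil (j0 + 1) := by
  classical
  set μ := cExp ν + sPow a with hμ
  have hne : μ ≠ μ + mu1 := by
    intro he
    have : κ μ = κ (μ + mu1) := congrArg κ he
    rw [map_add κ μ mu1, κ_mu1] at this
    omega
  have h1 : eul L (eν ν) x - L.lev.mono τ₁ μ j0 - L.lev.mono τ₂ (μ + mu1) j0 ∈ L.lev.Φ.fil (j0 + 1) := by
    refine fil_of_coeff (sub_mem (sub_mem (eul_fil L _ hx) (L.lev.Φ.anti (Nat.zero_le _) (L.lev.mono_mem _ _ _)))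
      (L.lev.Φ.anti (Nat.zero_le _) (L.lev.mono_mem _ _ _))) ?_
    intro n j hj
    rw [map_sub, map_sub, lev_coeff_eul, eν_idx, h n j hj, Lev.coeff_mono', Lev.coeff_mono']
    by_cases hj0 : j = j0
    · subst hj0
      by_cases hn : n = μ
      · have hn' : n ≠ μ + mu1 := fun h' => hne (hn.symm.trans h')
        simp [hn, hne]
      · by_cases hn' : n = μ + mu1
        · have a1 : ¬ (n = μ ∧ j = j) := fun h' => hn h'.1
          have a2 : n = μ + mu1 ∧ j = j := ⟨hn', rfl⟩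
          rw [if_pos rfl, if_neg hn, if_pos hn', if_neg a1, if_pos a2]
          simp
        · simp [hn, hn']
    · simp [hj0]
  have h2 := L.lev.Φ.mul_mem (cInv_fil L ν) h1
  rw [zero_add] at h2
  convert h2 using 1
  rw [mul_sub, mul_sub, cInv_mul_mono, add_assoc, cInv_mul_mono]
  rfl

end Euler

/-! ### Directions of derivations -/

section Tint

variable {F K A : Type*} [Field F] [Field K] [DivisionRing A] [Algebra F K] [Algebra K A] [Algebra F A]
  [IsScalarTower F K A] {P : Pt F K A (Fin 2)}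

lemma tint_zero : Tint P 0 := by
  refine ⟨fun _ => 0, ⟨fun _ _ => by simp, fun _ _ => by simp, fun _ => rfl⟩,
    fun _ => ⟨0, by simp⟩, rfl⟩

lemma tint_add {t t' : Fin 2 → A} (h : Tint P t) (h' : Tint P t') : Tint P (t + t') := by
  obtain ⟨D, hD, hK, rfl⟩ := h
  obtain ⟨D', hD', hK', rfl⟩ := h'
  refine ⟨fun x => D x + D' x, ⟨fun x y => ?_, fun x y => ?_, fun r => ?_⟩, fun c => ?_, rfl⟩
  · rw [hD.add, hD'.add]
    abel
  · rw [hD.mul, hD'.mul]
    noncomm_ring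
  · rw [hD.alg, hD'.alg, add_zero]
  · obtain ⟨c₁, h₁⟩ := hK c
    obtain ⟨c₂, h₂⟩ := hK' c
    exact ⟨c₁ + c₂, by
      show D _ + D' _ = _
      rw [h₁, h₂, map_add]⟩

lemma tint_smul (c : K) {t : Fin 2 → A} (h : Tint P t) : Tint P (c • t) := by
  obtain ⟨D, hD, hK, rfl⟩ := h
  refine ⟨fun x => algebraMap K A c * D x, ⟨fun x y => ?_, fun x y => ?_, fun r => ?_⟩, fun c' => ?_, ?_⟩
  · rw [hD.add, mul_add]
  · rw [hD.mul, mul_add, ← mul_assoc, ← mul_assoc, Algebra.commutes c x, mul_assoc x]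
  · rw [hD.alg, mul_zero]
  · obtain ⟨c₁, h₁⟩ := hK c'
    exact ⟨c * c₁, by
      show algebraMap K A c * D _ = _
      rw [h₁, map_mul]⟩
  · funext v
    simp [Algebra.smul_def]

lemma tint_mem_T {r : ℕ} (Q : ℕ → Polynomial F) (hQ : ∀ i < r, Polynomial.aeval (P.β i) (Q i) = 0)
    (hQ' : ∀ i < r, IsUnit (Polynomial.aeval (P.β i) (Polynomial.derivative (Q i))))
    {t : Fin 2 → A} (h : Tint P t) : t ∈ P.T r := by
  obtain ⟨D, hD, -, rfl⟩ := h
  exact P.der_mem_T hD Q hQ hQ'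

end Tint

/-! ### The abstract form of `exists_fresh` -/

section Abs

variable {K A K' R : Type*} [Field K] [DivisionRing A] [Algebra K A] [Field K'] [DivisionRing R]
  [Algebra K R] [Algebra K' R] [Algebra K K'] [IsScalarTower K K' R] {τ : A →ₗ[K] K}
  (L : Lv K A K' R τ)

variable {F : Type*} [Field F] [Algebra F K] [Algebra F A] [IsScalarTower F K A] [Algebra F R]
  [IsScalarTower F K R] [Algebra F K'] [IsScalarTower F K' R]
  [FiniteDimensional K A] [CharZero K]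

/-- The monomials of fixed exponent, as a linear map. -/
noncomputable def monoL (n : CE) (j : ℕ) : A →ₗ[K] R where
  toFun x := L.lev.mono x n j
  map_add' x y := L.lev.mono_add x y n j
  map_smul' c x := L.lev.mono_smul c x n j

/-- A solution `g_i ≠ 0`. -/
lemma PSol_g_ne {P : Pt F K A (Fin 2)} {k J : ℕ} {t1 t2 : Fin 2 → A} {X : Fin 2 → R} {g : ℕ → R}
    (h : L.lev.PSol P k J t1 t2 X g) {i : ℕ} (hi : i < k) : g i ≠ 0 := by
  intro h0
  have a1 := L.lev.Φ.anti (Nat.le_succ 1) (h.leadg i hi)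
  have a2 := L.lev.mono_mem (P.w i t1) 0 1
  have a3 := L.lev.mono_mem (P.w i t2) L.lev.μ₁ 1
  have h1 : g i - 1 ∈ L.lev.Φ.fil 1 := by
    have := add_mem (add_mem a1 a2) a3
    convert this using 1
    abel
  have h2 := L.lev.coeff_fil (n := 0) (j := 0) h1 (by omega)
  have h3 := L.lev.coeff_mono 0 0 1 0 0
  rw [map_one, one_mul, L.lev.mon_zero, if_pos ⟨rfl, rfl⟩] at h3
  rw [h0, zero_sub, map_neg, h3] at h2
  exact one_ne_zero (neg_eq_zero.mp h2)

/-- **`exists_fresh`, abstract form.** -/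
theorem fresh_abs (P : Pt F K A (Fin 2)) {k J : ℕ} {t1 t2 : Fin 2 → A} {X0 : Fin 2 → R} {g0 : ℕ → R}
    (Q : ℕ → Polynomial F)
    (hQ : ∀ u < k, Polynomial.aeval (P.β u) (Q u) = 0 ∧
      IsUnit (Polynomial.aeval (P.β u) (Polynomial.derivative (Q u))))
    (hJ : 2 ≤ J) (h0 : L.lev.PSol P k (J + 1) t1 t2 X0 g0) (I : Submodule K (ℕ → A))
    (hS : ∀ c ∈ P.KK k, ∀ τ' ∈ P.T k, P.SS k c t1 τ' = 0 ∧ P.SS k c t2 τ' = 0)
    (hH2 : ∀ φ₁ φ₂ : (ℕ → A) →ₗ[K] K, (∀ c ∈ I, φ₁ c = 0) → (∀ c ∈ I, φ₂ c = 0) →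
      ∃ τ' ∈ P.T k, ∀ c ∈ P.KK k, P.PP k c t1 τ' = φ₁ c ∧ P.PP k c t2 τ' = φ₂ c)
    (hIt2 : ∀ c ∈ I, ∀ τ' ∈ P.T k, P.PP k c t2 τ' = 0)
    (hVan : ∀ J', J ≤ J' → ∀ (X : Fin 2 → R) (g : ℕ → R), L.lev.PSol P k (J' + 1) t1 t2 X g →
      (∀ m : CE, ∀ c ∈ I, L.lev.Obs P k m (J' + 1) X g c = 0) ∧
      (∀ m : CE, L.lev.ζ ^ L.lev.κ m = 1 → L.lev.ζ ^ ((J' : ℤ) + 1) = 1 → ∀ c ∈ P.KK k,
        L.lev.Obs P k m (J' + 1) X g c = 0))
    (TT0 : Submodule K (Fin 2 → A)) :
    ∃ (X : Fin 2 → R) (g : ℕ → R) (TTX : Submodule K' (Fin 2 → R)),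
      (∀ J', L.lev.PSol P k J' t1 t2 X g) ∧
      (∀ v, X v - X0 v ∈ L.lev.Φ.fil J) ∧ (∀ i, g i - g0 i ∈ L.lev.Φ.fil J) ∧
      (∀ P' : Pt F K' R (Fin 2), P'.ρ = X → P'.a = P.a →
        TTX ≤ P'.T k ∧ ∀ t ∈ TTX, Tint P' t) ∧
      ∀ (K₀ j : ℤ) (τ₀ : Fin 2 → A), τ₀ ∈ TT0 →
        τ₀ ∈ allowed P k t1 t2 ((L.m : ℤ) ∣ K₀) ((L.m : ℤ) ∣ K₀ + 1 ∧ ¬ (L.m : ℤ) ∣ j + 1) →
        ∃ t' ∈ TTX, ∃ (n0 : CE) (j0 : ℕ) (τ' : Fin 2 → A),
          (L.m : ℤ) ∣ κ n0 - K₀ ∧ (L.m : ℤ) ∣ (j0 : ℤ) - j ∧ 2 ≤ j0 ∧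
          τ' ∈ P.T k ∧ ((∀ c ∈ P.KK k, P.PP k c t2 τ₀ = 0) → τ' = 0) ∧
          ∀ v, t' v - L.lev.mono (τ₀ v) n0 j0 - L.lev.mono (τ' v) (n0 + mu1) j0
            ∈ L.lev.Φ.fil (j0 + 1) := by
  classical
  have hmp := L.m_prime
  have hm2 : 2 ≤ L.m := hmp.two_le
  have hmZ : (L.m : ℤ) ≠ 0 := by
    have := hmp.pos
    omega
  have : NeZero L.m := ⟨hmp.ne_zero⟩
  have hprim := L.ζ_prim
  have hζ : L.lev.ζ = L.ζ := L.lev_ζ
  have hζ0 : L.lev.ζ ≠ 0 := L.lev.ζ_ne
  have hzp : ∀ x : ℤ, L.lev.ζ ^ x = 1 ↔ (L.m : ℤ) ∣ x := fun x => by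
    rw [hζ]
    exact hprim.zpow_eq_one_iff_dvd x
  let a : Fin L.m × Fin L.m → ℤ := fun p => ((p.1 : ℕ) : ℤ)
  let b : Fin L.m × Fin L.m → ℕ := fun p => p.2
  let W : Fin L.m × Fin L.m → Submodule K (Fin 2 → A) := fun p =>
    TT0 ⊓ allowed P k t1 t2 ((L.m : ℤ) ∣ a p) ((L.m : ℤ) ∣ a p + 1 ∧ ¬ (L.m : ℤ) ∣ (b p : ℤ) + 1)
  have hWT : ∀ p, ∀ τ' ∈ W p, τ' ∈ P.T k := fun p τ' h => h.2.1
  have hTh := fun p => exists_Theta (P := P) (k := k) (t1 := t1) (t2 := t2) I hH2 (W p)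
    (fun τ' hτ' c hc => hIt2 c hc τ' (hWT p τ' hτ'))
  choose Θ hΘT hΘ1 hΘ0 using hTh
  let J₀ := L.m * (J + 1)
  have hJ₀ : J < J₀ := by
    have : 2 * (J + 1) ≤ L.m * (J + 1) := Nat.mul_le_mul_right _ hm2
    simp only [J₀]
    omega
  let jp : Fin L.m × Fin L.m → ℕ := fun p => J₀ + b p
  let θ : Fin L.m × Fin L.m → K := fun p =>
    if L.lev.ζ ^ (a p + 1) = 1 then 0 else
      -(L.lev.ζ ^ (a p) - L.lev.ζ ^ ((jp p : ℕ) : ℤ)) / (L.lev.ζ ^ (a p + 1) - 1)
  let C := Σ p : Fin L.m × Fin L.m, Fin (finrank K (W p))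
  let bs : ∀ p, Basis (Fin (finrank K (W p))) K (W p) := fun p => Module.finBasis K (W p)
  let τc : C → Fin 2 → A := fun i => (bs i.1 i.2 : Fin 2 → A)
  let τd : C → Fin 2 → A := fun i => θ i.1 • Θ i.1 (bs i.1 i.2)
  have hT1 : ∀ i, τc i ∈ P.T k := fun i => hWT i.1 _ (bs i.1 i.2).2
  have hT2 : ∀ i, τd i ∈ P.T k := fun i => (P.T k).smul_mem _ (hΘT i.1 _)
  have hfree : ∀ i, ∀ c ∈ P.KK k, (L.lev.ζ ^ (a i.1) - 1) * P.PP k c t1 (τc i) = 0 ∧
      (L.lev.ζ ^ (a i.1 + 1) - 1) * P.PP k c t1 (τd i)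
        + (L.lev.ζ ^ (a i.1) - L.lev.ζ ^ ((J₀ + (b i.1) : ℕ) : ℤ)) * P.PP k c t2 (τc i) = 0 ∧
      P.PP k c t2 (τd i) = 0 := by
    intro i c hc
    have hall : τc i ∈ allowed P k t1 t2 ((L.m : ℤ) ∣ a i.1)
        ((L.m : ℤ) ∣ a i.1 + 1 ∧ ¬ (L.m : ℤ) ∣ (b i.1 : ℤ) + 1) := (bs i.1 i.2).2.2
    have h1 : P.PP k c t1 (τd i) = θ i.1 * P.PP k c t2 (τc i) := by
      show P.PP k c t1 (θ i.1 • Θ i.1 (bs i.1 i.2)) = _
      rw [P.PP_smul_right, (hΘ1 i.1 _ c hc).1]
    refine ⟨?_, ?_, ?_⟩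
    · by_cases hd : (L.m : ℤ) ∣ a i.1
      · rw [(hzp _).mpr hd, sub_self, zero_mul]
      · rw [hall.2.1 hd c hc, mul_zero]
    · rw [h1]
      by_cases hz : L.lev.ζ ^ (a i.1 + 1) = 1
      · rw [hz, sub_self, zero_mul, zero_add]
        by_cases hd : (L.m : ℤ) ∣ (b i.1 : ℤ) + 1
        · have h5 : L.lev.ζ ^ (((J₀ + b i.1 : ℕ) : ℤ) + 1) = 1 := by
            rw [hzp]
            have e : ((J₀ + b i.1 : ℕ) : ℤ) + 1 = (L.m : ℤ) * ((J : ℤ) + 1) + ((b i.1 : ℤ) + 1) := by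
              simp only [J₀]
              push_cast
              ring
            rw [e]
            exact dvd_add (dvd_mul_right _ _) hd
          rw [zpow_add₀ hζ0] at h5 hz
          rw [zpow_one] at h5 hz
          have h6 : L.lev.ζ ^ (a i.1) = L.lev.ζ ^ ((J₀ + b i.1 : ℕ) : ℤ) :=
            mul_right_cancel₀ hζ0 (hz.trans h5.symm)
          rw [h6, sub_self, zero_mul]
        · rw [hall.2.2 ⟨(hzp _).mp hz, hd⟩ c hc, mul_zero]
      · have hθ : θ i.1 = -(L.lev.ζ ^ (a i.1) - L.lev.ζ ^ ((J₀ + b i.1 : ℕ) : ℤ))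
            / (L.lev.ζ ^ (a i.1 + 1) - 1) := if_neg hz
        have hne : L.lev.ζ ^ (a i.1 + 1) - 1 ≠ 0 := sub_ne_zero.mpr hz
        rw [hθ]
        field_simp
        ring
    · show P.PP k c t2 (θ i.1 • Θ i.1 (bs i.1 i.2)) = 0
      rw [P.PP_smul_right, (hΘ1 i.1 _ c hc).2, mul_zero]
  obtain ⟨ν, X, g, hex, hXc, hgc, hco⟩ := exists_chain_solution (L := L.lev) (P := P) L.lev_κ L.lev_μ₁
    hJ h0 I hS hH2 hVan (fun i : C => b i.1) L.m (fun i => i.1.2.2) J₀ hJ₀
    (fun i => a i.1) τc τd hT1 hT2 hfree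
  let tg : C → Fin 2 → R := fun i v => Dν L (ν i) (X v)
  have hlead : ∀ i v, tg i v - L.lev.mono (τc i v) (sPow (a i.1)) (J₀ + b i.1)
      - L.lev.mono (τd i v) (sPow (a i.1) + mu1) (J₀ + b i.1) ∈ L.lev.Φ.fil (J₀ + b i.1 + 1) :=
    fun i v => chain_lead L (((L.lev.FS_iff _).mp ((hex 0).fsX v)).1) (hco i v)
  refine ⟨X, g, Submodule.span K' (Set.range tg), hex, hXc, hgc, ?_, ?_⟩
  · -- derivations
    intro P' hρ ha
    have hgen : ∀ i, Tint P' (tg i) := fun i =>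
      ⟨Dν L (ν i), Dν_isDer L (ν i), Dν_K' L (ν i), by
        rw [hρ]⟩
    have hint : ∀ t ∈ Submodule.span K' (Set.range tg), Tint P' t := by
      intro t ht
      induction ht using Submodule.span_induction with
      | mem x hx =>
        obtain ⟨i, rfl⟩ := hx
        exact hgen i
      | zero => exact tint_zero
      | add x y _ _ hx hy => exact tint_add hx hy
      | smul c x _ hx => exact tint_smul c hx
    have hinc : ∀ r : F, L.lev.inc (algebraMap F A r) = algebraMap F R r := fun r => by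
      rw [IsScalarTower.algebraMap_apply F K A, AlgHom.commutes,
        ← IsScalarTower.algebraMap_apply F K R]
    have hβ : ∀ u < k, P'.β u * g u = g u * L.lev.inc (P.β u) := by
      intro u hu
      have := Lev.exact_of_PSol hex hu
      show State.ev P'.ρ (P'.a u) * g u = _
      rw [ha, hρ]
      exact this
    have hfroz1 : ∀ i < k, Polynomial.aeval (P'.β i) (Q i) = 0 := by
      intro i hi
      have h5 := aeval_conj (F := F) L.lev.inc.toRingHom hinc (hβ i hi) (Q i)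
      have h6 : L.lev.inc.toRingHom (Polynomial.aeval (P.β i) (Q i)) = 0 := by
        rw [(hQ i hi).1, map_zero]
      rw [h6, mul_zero] at h5
      exact (mul_eq_zero.mp h5).resolve_right (PSol_g_ne L (hex 0) hi)
    have hfroz2 : ∀ i < k, IsUnit (Polynomial.aeval (P'.β i) (Polynomial.derivative (Q i))) := by
      intro i hi
      have h5 := aeval_conj (F := F) L.lev.inc.toRingHom hinc (hβ i hi) (Polynomial.derivative (Q i))
      have h6 : Polynomial.aeval (P.β i) (Polynomial.derivative (Q i)) ≠ 0 := (hQ i hi).2.ne_zero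
      have h7 : L.lev.inc.toRingHom (Polynomial.aeval (P.β i) (Polynomial.derivative (Q i))) ≠ 0 :=
        (map_ne_zero_iff _ (RingHom.injective _)).mpr h6
      have h8 : g i * L.lev.inc.toRingHom (Polynomial.aeval (P.β i) (Polynomial.derivative (Q i))) ≠ 0 :=
        mul_ne_zero (PSol_g_ne L (hex 0) hi) h7
      rw [← h5] at h8
      exact (isUnit_iff_ne_zero).mpr (left_ne_zero_of_mul h8)
    exact ⟨fun t ht => tint_mem_T Q hfroz1 hfroz2 (hint t ht), hint⟩
  · -- leads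
    intro K₀ j τ₀ hτ₀ hall
    have hKa : ∃ a₀ : Fin L.m, (L.m : ℤ) ∣ K₀ - ((a₀ : ℕ) : ℤ) := by
      refine ⟨⟨(K₀ % L.m).toNat, ?_⟩, ?_⟩
      · have h1 := Int.emod_nonneg K₀ hmZ
        have h2 := Int.emod_lt_of_pos K₀ (by have := hmp.pos; omega : (0 : ℤ) < L.m)
        omega
      · have h1 := Int.emod_nonneg K₀ hmZ
        rw [Int.toNat_of_nonneg h1]
        exact Int.dvd_self_sub_emod
    have hjb : ∃ b₀ : Fin L.m, (L.m : ℤ) ∣ j - ((b₀ : ℕ) : ℤ) := by
      refine ⟨⟨(j % L.m).toNat, ?_⟩, ?_⟩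
      · have h1 := Int.emod_nonneg j hmZ
        have h2 := Int.emod_lt_of_pos j (by have := hmp.pos; omega : (0 : ℤ) < L.m)
        omega
      · have h1 := Int.emod_nonneg j hmZ
        rw [Int.toNat_of_nonneg h1]
        exact Int.dvd_self_sub_emod
    obtain ⟨a₀, ha₀⟩ := hKa
    obtain ⟨b₀, hb₀⟩ := hjb
    let p : Fin L.m × Fin L.m := (a₀, b₀)
    have hd1 : (L.m : ℤ) ∣ K₀ ↔ (L.m : ℤ) ∣ a p := Int.dvd_iff_dvd_of_dvd_sub ha₀
    have hd2 : (L.m : ℤ) ∣ K₀ + 1 ↔ (L.m : ℤ) ∣ a p + 1 :=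
      Int.dvd_iff_dvd_of_dvd_sub (by
        have : K₀ + 1 - (a p + 1) = K₀ - ((a₀ : ℕ) : ℤ) := by
          simp only [a, p]
          ring
        rwa [this])
    have hd3 : (L.m : ℤ) ∣ j + 1 ↔ (L.m : ℤ) ∣ (b p : ℤ) + 1 :=
      Int.dvd_iff_dvd_of_dvd_sub (by
        have : j + 1 - ((b p : ℤ) + 1) = j - ((b₀ : ℕ) : ℤ) := by
          simp only [b, p]
          ring
        rwa [this])
    have hmem : τ₀ ∈ W p := by
      refine ⟨hτ₀, hall.1, fun h c hc => hall.2.1 (fun h' => h (hd1.mp h')) c hc, fun h c hc => ?_⟩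
      exact hall.2.2 ⟨hd2.mpr h.1, fun h' => h.2 (hd3.mp h')⟩ c hc
    let w₀ : W p := ⟨τ₀, hmem⟩
    let lam : Fin (finrank K (W p)) → K := fun i => (bs p).repr w₀ i
    have hsum : w₀ = ∑ i, lam i • bs p i := ((bs p).sum_repr w₀).symm
    have hsum0 : τ₀ = ∑ i, lam i • (bs p i : Fin 2 → A) := by
      have := congrArg (Subtype.val) hsum
      simpa using this
    let j0 := J₀ + b p
    refine ⟨∑ i, (algebraMap K K' (lam i)) • tg ⟨p, i⟩, ?_, sPow (a p), j0, θ p • Θ p w₀, ?_, ?_, ?_, ?_, ?_, ?_⟩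
    · exact sum_mem fun i _ => Submodule.smul_mem _ _ (Submodule.subset_span ⟨_, rfl⟩)
    · rw [κ_sPow]
      have e : a p - K₀ = -(K₀ - ((a₀ : ℕ) : ℤ)) := by
        show ((a₀ : ℕ) : ℤ) - K₀ = _
        ring
      rw [e]
      exact (dvd_neg (a := (L.m : ℤ))).mpr ha₀
    · have e : ((j0 : ℕ) : ℤ) - j = (L.m : ℤ) * ((J : ℤ) + 1) - (j - ((b₀ : ℕ) : ℤ)) := by
        simp only [j0, J₀, b, p]
        push_cast
        ring
      rw [e]
      exact dvd_sub (dvd_mul_right _ _) hb₀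
    · simp only [j0]
      omega
    · exact (P.T k).smul_mem _ (hΘT p _)
    · intro hP
      rw [hΘ0 p w₀ (fun c hc => hP c hc), smul_zero]
    · intro v
      have e1 : τ₀ v = ∑ i, lam i • τc ⟨p, i⟩ v := by
        rw [hsum0, Finset.sum_apply]
        rfl
      have e2 : (θ p • Θ p w₀) v = ∑ i, lam i • τd ⟨p, i⟩ v := by
        have e3 : θ p • Θ p w₀ = ∑ i, lam i • τd ⟨p, i⟩ := by
          conv_lhs => rw [hsum, map_sum, Finset.smul_sum]
          refine Finset.sum_congr rfl fun i _ => ?_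
          rw [map_smul, smul_comm]
        rw [e3, Finset.sum_apply]
        rfl
      have e4 : (∑ i, (algebraMap K K' (lam i)) • tg ⟨p, i⟩) v = ∑ i, lam i • tg ⟨p, i⟩ v := by
        rw [Finset.sum_apply]
        refine Finset.sum_congr rfl fun i _ => ?_
        rw [Pi.smul_apply, algebraMap_smul]
      have e5 : ∀ (n : CE) (f : Fin (finrank K (W p)) → A),
          L.lev.mono (∑ i, lam i • f i) n j0 = ∑ i, lam i • L.lev.mono (f i) n j0 := by
        intro n f
        have := map_sum (monoL L n j0) (fun i => lam i • f i) Finset.univ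
        simp only [map_smul] at this
        exact this
      rw [e1, e2, e4, e5, e5, ← Finset.sum_sub_distrib, ← Finset.sum_sub_distrib]
      refine sum_mem fun i _ => ?_
      have := L.lev.smul_mem (lam i) (hlead ⟨p, i⟩ v)
      convert this using 1
      rw [smul_sub, smul_sub]

end Abs

/-! ### `exists_fresh` -/

section Top

open LU.Tw0 LU.Tw Plan

variable [Tw0] [Tw] {F : Subfield U} [CentF F]

/-- Existence of the fresh exact level-up from any partial solution (F + Euler). -/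
theorem exists_fresh (Ls : Lst F) (n : ℕ) [Fact (F ≤ Kn n)] (ρ : Stt n) (r' r : ℕ)
    (S : ℕ → Set (An n)) (TT TT0 : Submodule (Kn n) (Fin 2 → An n))
    (h : Ctx F Ls n ρ r' r S TT) (t1 t2 : Fin 2 → An n) (hA : Adm (pt F n ρ Ls.a) r' TT t1 t2)
    (hT : TT ≤ TT0) (hT0 : TT0 ≤ (pt F n ρ Ls.a).T r')
    (hO : Orc F r') (J : ℕ) (hJ : 2 ≤ J) (X0 : Stt (n + 1)) (g0 : ℕ → An (n + 1))
    (h0 : (lv n).lev.PSol (pt F n ρ Ls.a) r' (J + 1) t1 t2 X0 g0) :
    ∃ (X : Stt (n + 1)) (g : ℕ → An (n + 1)) (TTX : Submodule (Kn (n + 1)) (Fin 2 → An (n + 1))),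
      (∀ J', (lv n).lev.PSol (pt F n ρ Ls.a) r' J' t1 t2 X g) ∧
      (∀ v, X v - X0 v ∈ (lv n).lev.Φ.fil J) ∧
      (∀ i, g i - g0 i ∈ (lv n).lev.Φ.fil J) ∧
      Fresh F Ls n ρ r' t1 t2 TT0 X TTX := by
  have hV := h.valid
  have hr : r' ≤ r := hV.le
  have hTT : TT ≤ (pt F n ρ Ls.a).T r' := hT.trans hT0
  obtain ⟨X, g, TTX, hex, hXc, hgc, hder, hlead⟩ := fresh_abs (lv n) (pt F n ρ Ls.a) Ls.Q
    (fun u hu => hV.frozen u (by omega)) hJ h0 (IIT (pt F n ρ Ls.a) r' TT)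
    (fun c hc τ' hτ' => ⟨hA.S1 c hc τ' hτ', hA.S2 c hc τ' hτ'⟩)
    (fun φ₁ φ₂ hφ₁ hφ₂ => by
      obtain ⟨t', ht', hk⟩ := hA.H2 φ₁ φ₂ hφ₁ hφ₂
      exact ⟨t', hTT ht', hk⟩)
    (fun c hc τ' hτ' => hc.2 t2 hA.mem2 τ' hτ')
    (fun J' hJ' X' g' hs => hO Ls n ρ r S TT h t1 t2 hA J' (by omega) X' g' hs) TT0
  refine ⟨X, g, TTX, hex, hXc, hgc, ?_⟩
  obtain ⟨hle, hint⟩ := hder (pt F (n + 1) X Ls.a) rfl rfl
  exact ⟨hle, hint, fun K j τ₀ h1 h2 => hlead K j τ₀ h1 h2⟩

end Top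

end Crest.Agent.Kurosh.FreshEx
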