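/-
S0270 (helper89): Euler derivations on a level-up and the end of the test core of the Key Lemma.

* `eulR L φ`: the Euler derivation of `R` for an additive map `φ : GLv →+ K`; `isDer_eulR`;
* `euler_pair`: an element `x` of the centraliser of `H` with monomial lead, orthogonal to `D H`, is
  orthogonal at value `0` to the lead of `D (g⁻¹ E)`;
* `eulerPhi w j`: the additive map `g ↦ j(g) + j · c_w(g)`;
* `hasL_of_err`: leads of errors.
-/
import Crest.Agent.Kurosh.KeyTest2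
import Crest.Agent.Kurosh.THahnEuler

set_option autoImplicit false
set_option linter.unusedSectionVars false

namespace Crest.Agent.Kurosh.LeadVN.LvData

open THS THSLead Hensel LU Module Polynomial
open _root_.Crest.Agent.Kurosh.Inv
open _root_.Crest.Agent.Kurosh.Inv.St
open State (Pt)

variable {K A K' R : Type*} [Field K] [DivisionRing A] [Algebra K A] [Field K'] [DivisionRing R]
  [Algebra K R] [Algebra K' R] [Algebra K K'] [IsScalarTower K K' R] {τ : A →ₗ[K] K}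
  (L : Lv K A K' R τ) {w : ℕ}

/-- The Euler derivation on the level-up. -/
noncomputable def eulR (φ : GLv →+ K) (x : R) : R := L.φ.symm (THS.euler φ (L.φ x))

lemma phi_eulR (φ : GLv →+ K) (x : R) : L.φ (eulR L φ x) = THS.euler φ (L.φ x) :=
  RingEquiv.apply_symm_apply _ _

lemma coeff_eulR (φ : GLv →+ K) (x : R) (g : GLv) :
    (L.φ (eulR L φ x)).coeff g = φ g • (L.φ x).coeff g := by
  rw [phi_eulR]
  rfl

lemma eulR_add (φ : GLv →+ K) (x y : R) : eulR L φ (x + y) = eulR L φ x + eulR L φ y := by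
  unfold eulR
  rw [map_add, map_add, map_add]

lemma eulR_mul (φ : GLv →+ K) (x y : R) :
    eulR L φ (x * y) = eulR L φ x * y + x * eulR L φ y := by
  apply L.φ.injective
  rw [map_add, map_mul, map_mul, phi_eulR, phi_eulR, phi_eulR, map_mul, THS.euler_mul]

lemma eulR_inc (φ : GLv →+ K) (a : A) : eulR L φ (L.lev.inc a) = 0 := by
  apply L.φ.injective
  rw [phi_eulR, VLead.phi_inc, THS.euler_mono, map_zero, map_zero, zero_smul, THS.mono_zero']

lemma eulR_algK (φ : GLv →+ K) (c : K) : eulR L φ (algebraMap K R c) = 0 := by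
  apply L.φ.injective
  rw [phi_eulR, L.φ_alg, THS.euler_mono, map_zero, map_zero, zero_smul, THS.mono_zero']

variable {F : Type*} [Field F] [Algebra F K] [Algebra F R] [IsScalarTower F K R]

/-- The Euler derivation is a derivation. -/
lemma isDer_eulR (φ : GLv →+ K) : State.IsDer (F := F) (eulR L φ) where
  add := eulR_add L φ
  mul := eulR_mul L φ
  alg r := by
    rw [IsScalarTower.algebraMap_apply F K R]
    exact eulR_algK L φ _

variable {L}
variable [FiniteDimensional K A]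

/-- **The Euler pairing.** -/
theorem euler_pair (D : TD L w) {x : R} (hxH : D.H * x = x * D.H) (φ : GLv →+ K)
    (hc' : ∀ a b : R, L.τ' (a * b) = L.τ' (b * a)) (h0 : L.τ' (x * eulR L φ D.H) = 0) {γ' δ : GV}
    {t' : (piN w).ker} {p : A} (hx : HasL L w x γ' t' p) (hδ : γ' + δ = 0)
    (hval : (δ : WithTop GV) ≤ (gr L w).val (eulR L φ D.v)) :
    τ (p * ((gr L w).c δ (eulR L φ D.v)).1.coeff (-t'.1)) = 0 := by
  have hg0 := D.g_ne
  set d := eulR L φ with hd
  have hHg : D.H * D.g = D.g * (L.lev.inc D.β + D.v) := by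
    conv_lhs => rw [D.H_eq]
    rw [mul_assoc, inv_mul_cancel₀ hg0, mul_one]
  have h1 : d (D.H * D.g) = d (D.g * (L.lev.inc D.β + D.v)) := congrArg d hHg
  rw [hd, eulR_mul, eulR_mul, eulR_add, eulR_inc, zero_add, ← hd] at h1
  -- `d H`
  have h2 : d D.H = (d D.g * D.g⁻¹) * D.H - D.H * (d D.g * D.g⁻¹) + D.g * d D.v * D.g⁻¹ := by
    have h3 : d D.H = (d D.g * (L.lev.inc D.β + D.v) + D.g * d D.v - D.H * d D.g) * D.g⁻¹ := by
      rw [← h1, add_sub_cancel_right, mul_inv_cancel_right₀ hg0]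
    have h4 : (L.lev.inc D.β + D.v) = D.g⁻¹ * D.H * D.g := by
      rw [mul_assoc, hHg, inv_mul_cancel_left₀ hg0]
    rw [h3, h4, sub_mul, add_mul]
    have h5 : d D.g * (D.g⁻¹ * D.H * D.g) * D.g⁻¹ = d D.g * D.g⁻¹ * D.H := by
      rw [mul_assoc, mul_assoc (D.g⁻¹ * D.H), mul_inv_cancel₀ hg0, mul_one, mul_assoc]
    rw [h5, mul_assoc D.H]
    abel
  have h3 : L.τ' (x * ((d D.g * D.g⁻¹) * D.H - D.H * (d D.g * D.g⁻¹))) = 0 := by
    generalize d D.g * D.g⁻¹ = V
    have h6 : L.τ' (x * (V * D.H)) = L.τ' (x * (D.H * V)) := by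
      calc L.τ' (x * (V * D.H)) = L.τ' ((x * V) * D.H) := by rw [mul_assoc]
        _ = L.τ' (D.H * (x * V)) := hc' _ _
        _ = L.τ' ((D.H * x) * V) := by rw [mul_assoc]
        _ = L.τ' (x * (D.H * V)) := by rw [hxH, mul_assoc]
    rw [mul_sub, map_sub, h6, sub_self]
  have h4 : L.τ' ((D.g⁻¹ * x * D.g) * d D.v) = 0 := by
    rw [h2, mul_add, map_add, h3, zero_add] at h0
    rw [← h0]
    calc L.τ' ((D.g⁻¹ * x * D.g) * d D.v) = L.τ' (D.g⁻¹ * (x * D.g * d D.v)) := by noncomm_ring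
      _ = L.τ' ((x * D.g * d D.v) * D.g⁻¹) := hc' _ _
      _ = L.τ' (x * (D.g * d D.v * D.g⁻¹)) := by noncomm_ring
  have h5 : HasL L w (D.g⁻¹ * x * D.g) γ' t' p := by
    have h6 := hx.conj (HasL.inv D.hg one_ne_zero |>.of_eq inv_one)
    rwa [inv_inv] at h6
  exact pair_coeff' hδ h5 hval h4

variable [Algebra F A] [IsScalarTower F K A] [Algebra F K'] [IsScalarTower F K' R]

/-- **The abstract Key**. -/
theorem key_core {P : Pt F K A (Fin 2)} {P' : Pt F K' R (Fin 2)} {l : ℕ} {D : TD L w}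
    (T : TP L P P' l D) [CharZero K]
    (hC : ∀ a : A, (∀ x, a * x = x * a) → ∃ c : K, a = algebraMap K A c)
    (hC' : ∀ a : R, (∀ x, a * x = x * a) → ∃ c : K', a = algebraMap K' R c)
    (heq : finrank K' D.F' = L.m * finrank K D.E)
    (hSm : P'.Mov l ≤ Subalgebra.toSubmodule D.F') {u₀ : R} (hu₀l : HasL L w u₀ 0 0 D.y)
    (hu₀ : u₀ ≠ 0) (hdim : finrank K' (Ly P' l u₀) ≤ L.m * finrank K (Ly P l D.y))
    (φ : GLv →+ K) (hfr : (fun v => eulR L φ (P'.ρ v)) ∈ P'.T l)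
    {p : A} (hp : p ∈ PPy P l D.y) {δ : GV} {t₁ : (piN w).ker} (hl : D.lineP δ t₁)
    (hval : (δ : WithTop GV) ≤ (gr L w).val (eulR L φ D.v)) :
    τ (p * (L.φ (eulR L φ D.v)).coeff (t₁.1 + secN w δ)) = 0 := by
  obtain ⟨x, hx, hxM, hxl⟩ := T.W_lift hC hC' heq hSm hu₀l hu₀ hdim hp (D.lineP_neg hl)
  have hxH : D.H * x = x * D.H := DoubleCent.mem_centDiv.1 hx _ D.H_mem
  have hc' : ∀ a b : R, L.τ' (a * b) = L.τ' (b * a) := fun a b => by
    rw [← T.hτ', ← T.hτ', P'.τ_comm]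
  have h0 : L.τ' (x * eulR L φ D.H) = 0 := by
    have hu : P'.e l (P'.dL l (fun v => eulR L φ (P'.ρ v))) ∈ P'.Mov l :=
      P'.mem_Mov.2 ⟨_, hfr, rfl⟩
    have h1 := hxM _ hu
    rw [← T.hτ', P'.τ_cent_e (by rw [← T.hH]; exact hxH)] at h1
    have h2 : P'.dL l (fun v => eulR L φ (P'.ρ v)) = eulR L φ D.H := by
      rw [T.hH]
      exact (State.der_ev (isDer_eulR (F := F) L φ) P'.ρ (P'.a l)).symm
    rw [h2, T.hτ'] at h1
    exact h1
  have h1 := euler_pair D hxH φ hc' h0 hxl (neg_add_cancel δ) hval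
  have h2 : -((-t₁ : (piN w).ker) : GLv) = t₁.1 := neg_neg _
  rw [h2, coeff_gr_c] at h1
  exact h1

/-! ### The map `g ↦ j(g) + j c_w(g)` -/

/-- The exponent of `c_w`. -/
noncomputable def cw (w : ℕ) : GLv →+ ℤ where
  toFun g := (ofLex (ofLex (ofLex g).2).1) (OrderDual.toDual w)
  map_zero' := rfl
  map_add' _ _ := rfl

/-- The `s'`-order. -/
def jH : GLv →+ ℤ where
  toFun g := (ofLex g).1
  map_zero' := rfl
  map_add' _ _ := rfl

/-- The Euler map. -/
noncomputable def eulerPhi (K : Type*) [Field K] (w j : ℕ) : GLv →+ K :=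
  (Int.castAddHom K).comp (jH + (j : ℤ) • cw w)

lemma eulerPhi_apply (w j : ℕ) (g : GLv) :
    eulerPhi K w j g = (((ofLex g).1 + (j : ℤ) * cw w g : ℤ) : K) := by
  show (((ofLex g).1 + (j : ℤ) • cw w g : ℤ) : K) = _
  rw [smul_eq_mul]

/-- The central monomial `c_w⁻¹ s^r`. -/
noncomputable def nStar (w : ℕ) (r : ℤ) : CE := -cExp w + r • sExp

lemma κ_nStar (w : ℕ) (r : ℤ) : κ (nStar w r) = r := by
  rw [nStar, map_add, map_neg, κ_cExp, map_zsmul, κ_sExp]
  simp

lemma cw_idx_nStar (w j' : ℕ) (r : ℤ) : cw w (idx (nStar w r) j') = -1 := by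
  show (ofLex (ofLex (nStar w r)).1) (OrderDual.toDual w) = -1
  have h1 : (ofLex (nStar w r)).1 = -(ofLex (cExp w)).1 + r • (ofLex sExp).1 := rfl
  have h2 : (ofLex sExp).1 = 0 := rfl
  rw [h1, h2, zsmul_zero, add_zero]
  show -((ofLex (ofLex (cExp w)).1) (OrderDual.toDual w)) = -1
  congr 1
  show (Finsupp.single w (1 : ℤ)) w = 1
  simp

lemma eulerPhi_nStar (w j : ℕ) (r : ℤ) : eulerPhi K w j (idx (nStar w r) j) = 0 := by
  rw [eulerPhi_apply, cw_idx_nStar]
  simp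

/-! ### Values of monomials -/

lemma piN_idx (w : ℕ) (n : CE) (j : ℤ) : piN w (idx n j) = toLex (j, dropL w (ofLex n).1) := rfl

/-- The `c_{≥ w}`-part of `c_w⁻¹ s^r`. -/
lemma dropL_nStar (w : ℕ) (r : ℤ) (i : ℕ) :
    ofLex (dropL w (ofLex (nStar w r)).1) (OrderDual.toDual i) = if i = 0 then -1 else 0 := by
  rw [dropL_apply]
  have h1 : (ofLex (nStar w r)).1 = -(ofLex (cExp w)).1 + r • (ofLex sExp).1 := rfl
  have h2 : (ofLex sExp).1 = 0 := rfl
  rw [h1, h2, zsmul_zero, add_zero]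
  show -((ofLex (ofLex (cExp w)).1) (OrderDual.toDual (i + w))) = _
  have h3 : (ofLex (ofLex (cExp w)).1) (OrderDual.toDual (i + w)) =
      (Finsupp.single w (1 : ℤ)) (i + w) := rfl
  rw [h3, Finsupp.single_apply]
  by_cases hi : i = 0
  · subst hi
    simp
  · rw [if_neg hi, if_neg (by omega)]
    simp

lemma dropL_nStar_lt (w : ℕ) (r : ℤ) : dropL w (ofLex (nStar w r)).1 < 0 := by
  refine Finsupp.Lex.lt_iff.2 ⟨OrderDual.toDual 0, ?_, ?_⟩
  · intro k hk
    obtain ⟨k, rfl⟩ := OrderDual.toDual.surjective k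
    have hk' : 0 < k := hk
    have h := dropL_nStar w r k
    rw [if_neg (by omega)] at h
    exact h
  · have h := dropL_nStar w r 0
    rw [if_pos rfl] at h
    show ofLex (dropL w (ofLex (nStar w r)).1) (OrderDual.toDual 0) < _
    rw [h]
    show (-1 : ℤ) < 0
    norm_num

lemma piN_lt_of_order {γ : GV} {g : GLv} (h : (ofLex γ).1 < (ofLex g).1) : γ < piN w g :=
  Prod.Lex.lt_iff.2 (Or.inl h)

variable (L) in
lemma fil_zero_of_val {x : R} (h : ((0 : GV) : WithTop GV) ≤ (gr L w).val x) : x ∈ L.lev.Φ.fil 0 := by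
  rw [L.lev_fil]
  intro g hg
  have h1 := (le_val_iff L w).1 h g hg
  have h2 : ((0 : GV)) ≤ piN w g := h1
  rcases Prod.Lex.le_iff.1 h2 with h3 | ⟨h3, -⟩
  · exact le_of_lt h3
  · exact le_of_eq h3

lemma HasL.of_sub_one {u : R} (hu : u - 1 ∈ L.lev.Φ.fil 1) : HasL L w u 0 0 1 := by
  have h1 : L.lev.mono 1 0 0 = 1 := by
    rw [Lev.mono, map_one, one_mul, L.lev.mon_zero]
  have h2 : u - L.lev.mono 1 0 (0 : ℕ) ∈ L.lev.Φ.fil (0 + 1) := by
    rw [h1]
    exact hu
  have h3 := HasL.of_sub_fil (w := w) h2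
  have h4 : idx (0 : CE) (((0 : ℕ) : ℤ)) = 0 := rfl
  rw [h4, map_zero, kerOf_zero] at h3
  exact h3

lemma inv_sub_one_mem {u : R} (hu : u - 1 ∈ L.lev.Φ.fil 1) : u⁻¹ - 1 ∈ L.lev.Φ.fil 1 := by
  have h1 := HasL.of_sub_one (w := 0) hu
  have h2 := (HasL.inv h1 one_ne_zero)
  have hu0 : u ≠ 0 := by
    rintro rfl
    have h3 := h1.coeff_self
    rw [map_zero] at h3
    exact one_ne_zero h3.symm
  have h3 : u⁻¹ ∈ L.lev.Φ.fil 0 := fil_zero_of_val L h2.1
  have h4 : u⁻¹ - 1 = u⁻¹ * (-(u - 1)) := by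
    rw [mul_neg, mul_sub, inv_mul_cancel₀ hu0, mul_one]
    abel
  rw [h4]
  have h5 := L.lev.Φ.mul_mem h3 (neg_mem hu)
  rwa [zero_add] at h5

/-- The error and `g⁻¹` times the error, at their first order. -/
lemma coeff_inv_mul {u E : R} {j : ℕ} (hu : u - 1 ∈ L.lev.Φ.fil 1) (hE : E ∈ L.lev.Φ.fil j) (n : CE) :
    (L.φ (u⁻¹ * E)).coeff (idx n (j : ℤ)) = L.lev.coeff n j E := by
  have h1 : u⁻¹ * E - E ∈ L.lev.Φ.fil (j + 1) := by
    have h2 := L.lev.Φ.mul_mem (inv_sub_one_mem hu) hE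
    rw [add_comm] at h2
    convert h2 using 1
    noncomm_ring
  have h3 := L.lev.coeff_fil (n := n) (j := j) h1 (by omega)
  rw [map_sub, sub_eq_zero] at h3
  rw [← h3, L.lev_coeff]

lemma inv_mul_mem {u E : R} {j : ℕ} (hu : u - 1 ∈ L.lev.Φ.fil 1) (hE : E ∈ L.lev.Φ.fil j) :
    u⁻¹ * E ∈ L.lev.Φ.fil j := by
  have h1 := L.lev.Φ.mul_mem (inv_sub_one_mem hu) hE
  have h2 : u⁻¹ * E = (u⁻¹ - 1) * E + E := by noncomm_ring
  rw [h2]
  exact add_mem (L.lev.Φ.anti (by omega) h1) hE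

/-- **The lead of the error.** -/
theorem hasL_of_err {E : R} {j : ℕ} {r : ℤ} {y : A} {old : CE → A} (hE : E ∈ L.lev.Φ.fil j)
    (hc : ∀ n, L.lev.coeff n j E = old n + if n = nStar w r then y else 0)
    (hold : ∀ n, old n ≠ 0 → dropL w (ofLex n).1 = 0) :
    HasL L w E (piN w (idx (nStar w r) (j : ℤ))) (kerOf w (idx (nStar w r) (j : ℤ))) y := by
  classical
  set nS := nStar w r with hnS
  have hdS := dropL_nStar_lt w r
  rw [← hnS] at hdS
  set γ₀ := piN w (idx nS (j : ℤ)) with hγ₀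
  have hold0 : ∀ n, dropL w (ofLex n).1 = dropL w (ofLex nS).1 → old n = 0 := by
    intro n hn
    by_contra h0
    rw [hold n h0] at hn
    exact absurd hn (ne_of_lt hdS).symm
  refine hasL_of_coeff L w (fun g hg => ?_) (fun u => ?_)
  · have hord : (j : ℤ) ≤ (ofLex g).1 := by
      have := (L.lev_fil j E).1 hE g hg
      exact this
    rcases hord.lt_or_eq with hlt | heq
    · exact le_of_lt (piN_lt_of_order hlt)
    · have hg' : g = idx (ofLex g).2 (j : ℤ) := by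
        rw [heq]
        rfl
      rw [hg', ← L.lev_coeff, hc] at hg
      rw [hg']
      by_cases hn : (ofLex g).2 = nS
      · rw [hn]
      · rw [if_neg hn, add_zero] at hg
        rw [hγ₀, piN_idx, piN_idx, hold _ hg]
        exact Prod.Lex.toLex_le_toLex.2 (Or.inr ⟨rfl, le_of_lt hdS⟩)
  · have hu0 : (ofLex u.1).1 = 0 := jG_ker w u
    set g := u.1 + secN w γ₀ with hg
    have hg1 : (ofLex g).1 = (j : ℤ) := by
      show (ofLex u.1).1 + (ofLex (secN w γ₀)).1 = _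
      rw [hu0, secN_fst, zero_add]
      rfl
    have hg2 : piN w g = γ₀ := by
      rw [hg, map_add, piN_secN, AddMonoidHom.mem_ker.1 u.2, zero_add]
    have hg3 : dropL w (ofLex (ofLex g).2).1 = dropL w (ofLex nS).1 :=
      congrArg (fun z : GV => (ofLex z).2) hg2
    have hg' : g = idx (ofLex g).2 (j : ℤ) := by
      rw [← hg1]
      rfl
    rw [hg', ← L.lev_coeff, hc, hold0 _ hg3, zero_add, mh_coe, coeff_mono, kerOf_coe]
    by_cases hn : (ofLex g).2 = nS
    · rw [if_pos hn, if_pos]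
      have : g = idx nS (j : ℤ) := by rw [hg', hn]
      rw [eq_sub_iff_add_eq]
      exact this
    · rw [if_neg hn, if_neg]
      intro h
      apply hn
      have h2 : g = idx nS (j : ℤ) := by
        rw [hg, h, sub_add_cancel]
      rw [h2]
      rfl

/-- The value of `D v`. -/
theorem val_eulR_v {E u : R} {j : ℕ} {r : ℤ} {y : A} {old : CE → A} (hE : E ∈ L.lev.Φ.fil j)
    (hu : u - 1 ∈ L.lev.Φ.fil 1)
    (hc : ∀ n, L.lev.coeff n j E = old n + if n = nStar w r then y else 0)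
    (hold : ∀ n, old n ≠ 0 → dropL w (ofLex n).1 = 0) :
    ((toLex ((j : ℤ), (0 : CX)) : GV) : WithTop GV) ≤
      (gr L w).val (eulR L (eulerPhi K w j) (u⁻¹ * E)) := by
  rw [le_val_iff]
  intro g hg
  rw [coeff_eulR] at hg
  have hg1 := right_ne_zero_of_smul hg
  have hg2 := left_ne_zero_of_smul hg
  have hord : (j : ℤ) ≤ (ofLex g).1 := (L.lev_fil j _).1 (inv_mul_mem hu hE) g hg1
  rcases hord.lt_or_eq with hlt | heq
  · exact le_of_lt (piN_lt_of_order hlt)
  · have hg' : g = idx (ofLex g).2 (j : ℤ) := by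
      rw [heq]
      rfl
    rw [hg', coeff_inv_mul hu hE, hc] at hg1
    by_cases hn : (ofLex g).2 = nStar w r
    · exfalso
      apply hg2
      rw [hg', hn]
      exact eulerPhi_nStar w j r
    · rw [if_neg hn, add_zero] at hg1
      rw [hg', piN_idx, hold _ hg1]

end Crest.Agent.Kurosh.LeadVN.LvData
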