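/-
S0270 (Kurosh), blueprint v3.3 §I, PROP I (helper8): first errors at orders 2 and 3.

For a pair `(t1,t2)`, `ti ∈ T(l+1)`, the recursion for the prefix `l` gives an exact solution whose first
error in the entry `l`, at order `2` (resp. `3`, with a prescribed move at a fresh monomial), has an
explicit pairing with the kernel vectors `c ∈ 𝕂(l+1)`.
-/
import Crest.Agent.Kurosh.OrcGlue

set_option autoImplicit false
set_option linter.unusedSectionVars false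

namespace Crest.Agent.Kurosh.PropI

open Hensel Module Calculus
open State (Pt)
open Crest.Agent.Kurosh.OrcGlue

section Hens

variable {M K A R : Type*} [AddCommGroup M] [DecidableEq M] [Field K] [Ring A] [Algebra K A] [Ring R]
  [Algebra K R] {L : Lev M K A R} {F : Type*} [Field F] [Algebra F K] [Algebra F A]
  [IsScalarTower F K A] [Algebra F R] [IsScalarTower F K R] {ι : Type*} {P : Pt F K A ι}
  {l J k : ℕ} {t1 t2 : ι → A} {X : ι → R} {g : ℕ → R}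

/-- The start `ρ + (t₁ + t₂ μ₁) s'`. -/
noncomputable def X0 (L : Lev M K A R) (P : Pt F K A ι) (t1 t2 : ι → A) : ι → R :=
  fun v => L.inc (P.ρ v) + L.mono (t1 v) 0 1 + L.mono (t2 v) L.μ₁ 1

/-- The start of the frames. -/
noncomputable def g0 (L : Lev M K A R) (P : Pt F K A ι) (t1 t2 : ι → A) : ℕ → R :=
  fun i => 1 + L.mono (P.w i t1) 0 1 + L.mono (P.w i t2) L.μ₁ 1

/-- The expansion of the start at order `2`. -/
theorem start_exp (ht1 : t1 ∈ P.T k) (ht2 : t2 ∈ P.T k) {i : ℕ} (hi : i < k) :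
    L.E P (X0 L P t1 t2) (g0 L P t1 t2) i
      - L.mono (State.d2 P.ρ t1 t1 (P.a i) + P.dL i t1 * P.w i t1) 0 2
      - L.mono (L.ζ • (State.d2 P.ρ t1 t2 (P.a i) + P.dL i t1 * P.w i t2)
          + (State.d2 P.ρ t2 t1 (P.a i) + P.dL i t2 * P.w i t1)) L.μ₁ 2
      - L.mono (L.ζ • (State.d2 P.ρ t2 t2 (P.a i) + P.dL i t2 * P.w i t2)) (L.μ₁ + L.μ₁) 2
      ∈ L.Φ.fil 3 := by
  set V1 : ι → R := fun v => L.mono (t1 v) 0 1 with hV1
  set V2 : ι → R := fun v => L.mono (t2 v) L.μ₁ 1 with hV2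
  set ρR : ι → R := fun v => L.inc (P.ρ v) with hρR
  have hρ0 : ∀ v, ρR v ∈ L.Φ.fil 0 := fun v => L.inc_mem _
  set a := P.a i with ha
  set h1 : R := L.mono (P.w i t1) 0 1 with hh1
  set h2 : R := L.mono (P.w i t2) L.μ₁ 1 with hh2
  have hδm : ∀ v, (V1 + V2) v ∈ L.Φ.fil 1 := fun v =>
    add_mem (L.mono_mem _ _ _) (L.mono_mem _ _ _)
  have hηm : h1 + h2 ∈ L.Φ.fil 1 := add_mem (L.mono_mem _ _ _) (L.mono_mem _ _ _)
  have hmain := delta_E (F := F) L.Φ L.coef_mem (ρ := ρR) (V := 0) (δ := V1 + V2)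
    (h := 0) (η := h1 + h2) (J := 2) le_rfl hρ0 (fun _ => zero_mem _)
    (by simpa using hδm) (zero_mem _) (by simpa using hηm) L.one_mem a
  have e1 : ρR + 0 + (V1 + V2) = X0 L P t1 t2 := by
    funext v
    simp only [Pi.add_apply, add_zero, hρR, hV1, hV2, X0]
    abel
  have e2 : (1 : R) + 0 + (h1 + h2) = g0 L P t1 t2 i := by
    simp only [add_zero, hh1, hh2, g0]
    abel
  have hβ : ev ρR a = L.inc (P.β i) := L.ev_inc P.ρ a
  have e3 : ev (ρR + 0) a = L.inc (P.β i) := by rw [add_zero, hβ]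
  rw [e1, e2, e3, hβ, add_zero] at hmain
  have hp1 : pd ρR V1 a = L.mono (P.dL i t1) 0 1 := L.pd_mono P.ρ t1 0 1 a
  have hp2 : pd ρR V2 a = L.mono (P.dL i t2) L.μ₁ 1 := L.pd_mono P.ρ t2 L.μ₁ 1 a
  have hfirst1 : P.dL i t1 + (P.β i * P.w i t1 - P.w i t1 * P.β i) = 0 := by
    rw [P.dL_eq_of_mem hi ht1]; abel
  have hfirst2 : P.dL i t2 + (P.β i * P.w i t2 - P.w i t2 * P.β i) = 0 := by
    rw [P.dL_eq_of_mem hi ht2]; abel
  have hfirst : pd ρR (V1 + V2) a + (L.inc (P.β i) * (h1 + h2) - (h1 + h2) * L.inc (P.β i)) = 0 := by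
    rw [pd_dir_add, hp1, hp2, mul_add, add_mul, hh1, hh2, L.inc_mul_mono, L.inc_mul_mono,
      L.mono_mul_inc, L.mono_mul_inc]
    have e4 := congrArg (fun x => L.mono x 0 1) hfirst1
    have e5 := congrArg (fun x => L.mono x L.μ₁ 1) hfirst2
    simp only [Lev.mono_add, Lev.mono_sub, Lev.mono_zero] at e4 e5
    calc _ = (L.mono (P.dL i t1) 0 1 + (L.mono (P.β i * P.w i t1) 0 1 - L.mono (P.w i t1 * P.β i) 0 1))
          + (L.mono (P.dL i t2) L.μ₁ 1 + (L.mono (P.β i * P.w i t2) L.μ₁ 1 - L.mono (P.w i t2 * P.β i) L.μ₁ 1)) := by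
            abel
      _ = 0 := by rw [e4, e5, add_zero]
  have hzero : B ρR 0 (V1 + V2) a + B ρR (V1 + V2) 0 a + pd ρR (V1 + V2) a * 0 + pd ρR 0 a * (h1 + h2) = 0 := by
    rw [B_left_zero, B_right_zero, pd_dir_zero, mul_zero, zero_mul]
    simp
  rw [hfirst, hzero, zero_add, zero_add] at hmain
  have hB11 : B ρR V1 V1 a = L.mono (State.d2 P.ρ t1 t1 a) 0 2 := by
    have := L.B_mono P.ρ t1 t1 0 1 0 1 a
    simpa using this
  have hB12 : B ρR V1 V2 a = L.ζ • L.mono (State.d2 P.ρ t1 t2 a) L.μ₁ 2 := by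
    have := L.B_mono P.ρ t1 t2 0 1 L.μ₁ 1 a
    simpa [L.κ_μ₁] using this
  have hB21 : B ρR V2 V1 a = L.mono (State.d2 P.ρ t2 t1 a) L.μ₁ 2 := by
    have := L.B_mono P.ρ t2 t1 L.μ₁ 1 0 1 a
    simpa using this
  have hB22 : B ρR V2 V2 a = L.ζ • L.mono (State.d2 P.ρ t2 t2 a) (L.μ₁ + L.μ₁) 2 := by
    have := L.B_mono P.ρ t2 t2 L.μ₁ 1 L.μ₁ 1 a
    simpa [L.κ_μ₁] using this
  have hq11 : pd ρR V1 a * h1 = L.mono (P.dL i t1 * P.w i t1) 0 2 := by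
    rw [hp1, hh1, L.mono_mul]; simp
  have hq12 : pd ρR V1 a * h2 = L.ζ • L.mono (P.dL i t1 * P.w i t2) L.μ₁ 2 := by
    rw [hp1, hh2, L.mono_mul]; simp [L.κ_μ₁]
  have hq21 : pd ρR V2 a * h1 = L.mono (P.dL i t2 * P.w i t1) L.μ₁ 2 := by
    rw [hp2, hh1, L.mono_mul]; simp
  have hq22 : pd ρR V2 a * h2 = L.ζ • L.mono (P.dL i t2 * P.w i t2) (L.μ₁ + L.μ₁) 2 := by
    rw [hp2, hh2, L.mono_mul]
    simp [L.κ_μ₁]
  have hsec : B ρR (V1 + V2) (V1 + V2) a + pd ρR (V1 + V2) a * (h1 + h2)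
      = L.mono (State.d2 P.ρ t1 t1 a + P.dL i t1 * P.w i t1) 0 2
        + L.mono (L.ζ • (State.d2 P.ρ t1 t2 a + P.dL i t1 * P.w i t2)
            + (State.d2 P.ρ t2 t1 a + P.dL i t2 * P.w i t1)) L.μ₁ 2
        + L.mono (L.ζ • (State.d2 P.ρ t2 t2 a + P.dL i t2 * P.w i t2)) (L.μ₁ + L.μ₁) 2 := by
    rw [B_left_add, B_right_add, B_right_add, pd_dir_add, add_mul, mul_add, mul_add, hB11, hB12,
      hB21, hB22, hq11, hq12, hq21, hq22]
    simp only [Lev.mono_add, Lev.mono_smul, smul_add]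
    abel
  rw [hsec] at hmain
  rw [mul_one, one_mul, sub_self, sub_zero] at hmain
  convert hmain using 1
  simp only [Lev.E, ← ha]
  abel

/-- The start is a partial solution of order `2`. -/
theorem start_PSol (ht1 : t1 ∈ P.T k) (ht2 : t2 ∈ P.T k) :
    L.PSol P k 2 t1 t2 (X0 L P t1 t2) (g0 L P t1 t2) := by
  refine ⟨fun v => add_mem (add_mem (L.inc_mem_FS _) (L.mono_mem_FS _ _ _)) (L.mono_mem_FS _ _ _),
    fun i => add_mem (add_mem L.FS.one_mem (L.mono_mem_FS _ _ _)) (L.mono_mem_FS _ _ _),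
    fun v => by simp [X0], fun i _ => by simp [g0], fun i hi => ?_⟩
  have h3 := add_mem (add_mem (add_mem (L.Φ.anti (by omega : 2 ≤ 3)
    (start_exp (L := L) (P := P) ht1 ht2 hi))
    (L.mono_mem (State.d2 P.ρ t1 t1 (P.a i) + P.dL i t1 * P.w i t1) 0 2))
    (L.mono_mem (L.ζ • (State.d2 P.ρ t1 t2 (P.a i) + P.dL i t1 * P.w i t2)
        + (State.d2 P.ρ t2 t1 (P.a i) + P.dL i t2 * P.w i t1)) L.μ₁ 2))
    (L.mono_mem (L.ζ • (State.d2 P.ρ t2 t2 (P.a i) + P.dL i t2 * P.w i t2)) (L.μ₁ + L.μ₁) 2)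
  convert h3 using 1
  abel

lemma μ₁_ne_zero (L : Lev M K A R) : L.μ₁ ≠ 0 := by
  intro h0
  have := L.κ_μ₁
  rw [h0, map_zero] at this
  exact absurd this (by norm_num)

lemma μ₁_add_ne_zero (L : Lev M K A R) : L.μ₁ + L.μ₁ ≠ 0 := by
  intro h0
  have := congrArg L.κ h0
  rw [map_add, map_zero, L.κ_μ₁] at this
  exact absurd this (by norm_num)

variable [FiniteDimensional K A] [CharZero K]

/-- The obstruction of the start at `μ₁`. -/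
theorem start_Obs (ht1 : t1 ∈ P.T k) (ht2 : t2 ∈ P.T k) (c : ℕ → A) :
    L.Obs P k L.μ₁ 2 (X0 L P t1 t2) (g0 L P t1 t2) c =
      2⁻¹ * ((L.ζ + 1) * P.SS k c t1 t2 + (L.ζ - 1) * P.PP k c t1 t2) := by
  have hμ₁ := μ₁_ne_zero L
  have hμ₂ := μ₁_add_ne_zero L
  have hμ₃ : (L.μ₁ + L.μ₁ : M) ≠ L.μ₁ := by
    intro h0
    exact hμ₁ (by simpa using h0)
  have hcoef : ∀ i ∈ Finset.range k, L.coeff L.μ₁ 2 (L.E P (X0 L P t1 t2) (g0 L P t1 t2) i)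
      = L.ζ • (State.d2 P.ρ t1 t2 (P.a i) + P.dL i t1 * P.w i t2)
        + (1 : K) • (State.d2 P.ρ t2 t1 (P.a i) + P.dL i t2 * P.w i t1) := by
    intro i hi
    have h3 := L.coeff_fil (n := L.μ₁) (j := 2)
      (start_exp (L := L) (P := P) ht1 ht2 (Finset.mem_range.mp hi)) (by omega)
    simp only [map_sub, Lev.coeff_mono', and_true, if_true, if_neg hμ₁, if_neg hμ₃.symm, sub_zero] at h3
    rw [one_smul]
    rw [sub_eq_zero] at h3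
    exact h3
  rw [Lev.Obs_apply]
  have h4 : ∀ i ∈ Finset.range k, P.τ (c i * L.coeff L.μ₁ 2 (L.E P (X0 L P t1 t2) (g0 L P t1 t2) i))
      = P.τ (c i * (L.ζ • (State.d2 P.ρ t1 t2 (P.a i) + P.dL i t1 * P.w i t2)
        + (1 : K) • (State.d2 P.ρ t2 t1 (P.a i) + P.dL i t2 * P.w i t1))) := by
    intro i hi
    rw [hcoef i hi]
  rw [Finset.sum_congr rfl h4, Lev.sum_pair, P.eps_combo]

/-- Replacing the frame of the entry `l`. -/
lemma E_update (X : ι → R) (g : ℕ → R) (y : R) : L.E P X (Function.update g l y) l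
    = ev X (P.a l) * y - y * L.inc (P.β l) := by
  simp [Lev.E]

lemma E_update_ne (X : ι → R) (g : ℕ → R) (y : R) {i : ℕ} (hi : i ≠ l) :
    L.E P X (Function.update g l y) i = L.E P X g i := by
  simp [Lev.E, Function.update_of_ne hi]

/-- **First error at order `2`.** -/
theorem first_error_two
    (ht1 : t1 ∈ P.T (l + 1)) (ht2 : t2 ∈ P.T (l + 1))
    (hSl : ∀ c ∈ P.KK l, ∀ τ' ∈ P.T l, P.SS l c t1 τ' = 0 ∧ P.SS l c t2 τ' = 0)
    (hH1 : ∀ c ∈ P.KK l, P.PP l c t1 t2 = 0)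
    (I : Submodule K (ℕ → A))
    (hH2l : ∀ φ₁ φ₂ : (ℕ → A) →ₗ[K] K, (∀ c ∈ I, φ₁ c = 0) → (∀ c ∈ I, φ₂ c = 0) →
      ∃ τ' ∈ P.T l, ∀ c ∈ P.KK l, P.PP l c t1 τ' = φ₁ c ∧ P.PP l c t2 τ' = φ₂ c)
    (hO : ∀ J, 2 ≤ J → ∀ (X : ι → R) (g : ℕ → R), L.PSol P l (J + 1) t1 t2 X g →
      (∀ m : M, ∀ c ∈ I, L.Obs P l m (J + 1) X g c = 0) ∧
      (∀ m : M, L.ζ ^ L.κ m = 1 → L.ζ ^ ((J : ℤ) + 1) = 1 → ∀ c ∈ P.KK l,
        L.Obs P l m (J + 1) X g c = 0)) :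
    ∃ (X' : ι → R) (g' : ℕ → R), (∀ J', L.PSol P l J' t1 t2 X' g') ∧
      g0 L P t1 t2 l ∈ L.FS ∧
      ev X' (P.a l) * g0 L P t1 t2 l - g0 L P t1 t2 l * L.inc (P.β l) ∈ L.Φ.fil 2 ∧
      ∀ c ∈ P.KK (l + 1), P.τ (c l * L.coeff L.μ₁ 2
        (ev X' (P.a l) * g0 L P t1 t2 l - g0 L P t1 t2 l * L.inc (P.β l))) =
          2⁻¹ * ((L.ζ + 1) * P.SS (l + 1) c t1 t2 + (L.ζ - 1) * P.PP (l + 1) c t1 t2) := by
  have ht1' := P.T_anti (Nat.le_succ l) ht1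
  have ht2' := P.T_anti (Nat.le_succ l) ht2
  obtain ⟨Sa, tt, ww, -, h0⟩ := Lev.exists_start (L := L) (P := P) ht1' ht2' hSl hH1
  obtain ⟨X', g', hex, hX', hg'⟩ := Lev.exists_limit (L := L) (P := P) (J1 := 2) le_rfl h0 I hSl
    hH2l (fun J' hJ' X₂ g₂ hs _ _ => hO J' hJ' X₂ g₂ hs)
  have hs := start_PSol (L := L) (P := P) ht1 ht2
  have hXc : ∀ v, X' v - X0 L P t1 t2 v ∈ L.Φ.fil 2 := by
    intro v
    have h2 : L.addX (fun v => L.inc (P.ρ v) + L.mono (t1 v) 0 1 + L.mono (t2 v) L.μ₁ 1) Sa tt 2 v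
        - X0 L P t1 t2 v ∈ L.Φ.fil 2 := by
      simp only [Lev.addX, X0, add_sub_cancel_left]
      exact L.sum_mono_mem _ _ _
    have := add_mem (hX' v) h2
    simpa using this
  have hgc : ∀ i, g' i - g0 L P t1 t2 i ∈ L.Φ.fil 2 := by
    intro i
    have h2 : L.addg (fun i => 1 + L.mono (P.w i t1) 0 1 + L.mono (P.w i t2) L.μ₁ 1) Sa ww 2 i
        - g0 L P t1 t2 i ∈ L.Φ.fil 2 := by
      simp only [Lev.addg, g0, add_sub_cancel_left]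
      exact L.sum_mono_mem _ _ _
    have := add_mem (hg' i) h2
    simpa using this
  have hX1 : ∀ v, X0 L P t1 t2 v - L.inc (P.ρ v) ∈ L.Φ.fil 1 := by
    intro v
    have := add_mem (L.mono_mem (t1 v) 0 1) (L.mono_mem (t2 v) L.μ₁ 1)
    convert this using 1
    simp only [X0]
    abel
  have hg1 : ∀ i, g0 L P t1 t2 i - 1 ∈ L.Φ.fil 1 := by
    intro i
    have := add_mem (L.mono_mem (P.w i t1) 0 1) (L.mono_mem (P.w i t2) L.μ₁ 1)
    convert this using 1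
    simp only [g0]
    abel
  refine ⟨X', g', hex, ((start_PSol (L := L) (P := P) ht1 ht2).fsg l), ?_, fun c hc => ?_⟩
  · exact E_mem_of_close (L := L) (by omega) hX1 (hg1 l) hXc (by simp) (hs.E_mem l (by omega))
  · -- F5
    set g'' := Function.update g' l (g0 L P t1 t2 l) with hg''
    have hexE : ∀ i < l, L.E P X' g'' i = 0 := fun i hi => by
      rw [hg'', E_update_ne (L := L) (P := P) X' g' _ (by omega)]
      exact sub_eq_zero.mpr (Lev.exact_of_PSol hex hi)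
    have hg''c : ∀ i < l + 1, g'' i - g0 L P t1 t2 i ∈ L.Φ.fil 2 := by
      intro i _
      by_cases hil : i = l
      · subst hil
        simp [hg'']
      · rw [hg'', Function.update_of_ne hil]
        exact hgc i
    have h5 := Lev.Obs_eq_first_error (L := L) (P := P) (l := l) (j := 2) (by omega) hc hX1
      (fun i _ => hg1 i) hXc hg''c hexE L.μ₁
    rw [start_Obs ht1 ht2 c] at h5
    rw [hg'', E_update] at h5
    exact h5.symm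

/-- **First error at order `3`, with a prescribed move at a fresh monomial.** The pair has `H1` at the
prefix `l+1`; `τ₀ ∈ T(l+1)` has no effect on `𝕂(l)`. -/
theorem first_error_three
    (ht1 : t1 ∈ P.T (l + 1)) (ht2 : t2 ∈ P.T (l + 1))
    (hS1 : ∀ c ∈ P.KK (l + 1), ∀ τ' ∈ P.T (l + 1),
      P.SS (l + 1) c t1 τ' = 0 ∧ P.SS (l + 1) c t2 τ' = 0)
    (hSl : ∀ c ∈ P.KK l, ∀ τ' ∈ P.T l, P.SS l c t1 τ' = 0 ∧ P.SS l c t2 τ' = 0)
    (hH1 : ∀ c ∈ P.KK (l + 1), P.PP (l + 1) c t1 t2 = 0)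
    (I : Submodule K (ℕ → A)) (hIl : I ≤ P.KK l)
    (hH2l : ∀ φ₁ φ₂ : (ℕ → A) →ₗ[K] K, (∀ c ∈ I, φ₁ c = 0) → (∀ c ∈ I, φ₂ c = 0) →
      ∃ τ' ∈ P.T l, ∀ c ∈ P.KK l, P.PP l c t1 τ' = φ₁ c ∧ P.PP l c t2 τ' = φ₂ c)
    (hH2' : ∀ φ₁ φ₂ : (ℕ → A) →ₗ[K] K, (∀ c ∈ I, φ₁ c = 0) → (∀ c ∈ I, φ₂ c = 0) →
      ∃ τ' ∈ P.T (l + 1), ∀ c ∈ P.KK l,
        P.PP (l + 1) c t1 τ' = φ₁ c ∧ P.PP (l + 1) c t2 τ' = φ₂ c)
    (hO : ∀ J, 2 ≤ J → ∀ (X : ι → R) (g : ℕ → R), L.PSol P l (J + 1) t1 t2 X g →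
      (∀ m : M, ∀ c ∈ I, L.Obs P l m (J + 1) X g c = 0) ∧
      (∀ m : M, L.ζ ^ L.κ m = 1 → L.ζ ^ ((J : ℤ) + 1) = 1 → ∀ c ∈ P.KK l,
        L.Obs P l m (J + 1) X g c = 0))
    (hinf : {μ : M | L.ζ ^ L.κ μ ≠ 1}.Infinite)
    {τ₀ : ι → A} (hτ₀ : τ₀ ∈ P.T (l + 1))
    (hτ₀0 : ∀ c ∈ P.KK l, P.PP l c t1 τ₀ = 0 ∧ P.PP l c t2 τ₀ = 0) :
    ∃ (μ : M) (X' : ι → R) (g' : ℕ → R) (gl : R), L.ζ ^ L.κ μ ≠ 1 ∧
      (∀ J', L.PSol P l J' t1 t2 X' g') ∧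
      gl ∈ L.FS ∧ gl - (1 + L.mono (P.w l t1) 0 1 + L.mono (P.w l t2) L.μ₁ 1) ∈ L.Φ.fil 2 ∧
      ev X' (P.a l) * gl - gl * L.inc (P.β l) ∈ L.Φ.fil 3 ∧
      ∀ c ∈ P.KK (l + 1), P.τ (c l * L.coeff μ 3 (ev X' (P.a l) * gl - gl * L.inc (P.β l))) =
          2⁻¹ * (L.ζ ^ L.κ μ - 1) * P.PP (l + 1) c t1 τ₀ := by
  classical
  have hlast : ∀ c ∈ P.KK l, c l = 0 := fun c hc => hc.1 l le_rfl
  have hKl := P.KK_mono (Nat.le_succ l)
  -- the start at the prefix `l+1`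
  obtain ⟨Sa, tt, ww, -, h₀⟩ := Lev.exists_start (L := L) (P := P) ht1 ht2 hS1 hH1
  set X₀ := L.addX (fun v => L.inc (P.ρ v) + L.mono (t1 v) 0 1 + L.mono (t2 v) L.μ₁ 1) Sa tt 2 with hX₀
  set g₀ := L.addg (fun i => 1 + L.mono (P.w i t1) 0 1 + L.mono (P.w i t2) L.μ₁ 1) Sa ww 2 with hg₀
  -- the fresh monomial
  have hfin := Lev.finite_coeff_E (P := P) h₀.fsX h₀.fsg (l + 1) 3
  set Fs : Set M := {m : M | ∃ i < l + 1, L.coeff m 3 (L.E P X₀ g₀ i) ≠ 0} with hFs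
  have hfin2 : (Fs ∪ ((fun m => m - L.μ₁) '' Fs) ∪ ((fun m => m + L.μ₁) '' Fs)).Finite :=
    (hfin.union (hfin.image _)).union (hfin.image _)
  obtain ⟨μ, hμ, hμF⟩ := (hinf.diff hfin2).nonempty
  simp only [Set.mem_union, Set.mem_image, not_or, not_exists, not_and] at hμF
  obtain ⟨⟨hμ0, hμ1⟩, hμ2⟩ := hμF
  have hμp : μ + L.μ₁ ∉ Fs := fun h => hμ1 _ h (by abel)
  have hμm : μ - L.μ₁ ∉ Fs := fun h => hμ2 _ h (by abel)
  have hzero : ∀ n, n ∉ Fs → ∀ c, L.Obs P (l + 1) n 3 X₀ g₀ c = 0 := by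
    intro n hn c
    refine Lev.Obs_eq_zero_of_coeff (fun i hi => ?_) c
    by_contra hne
    exact hn ⟨i, hi, hne⟩
  -- the prescribed move
  have h₁ : L.PSol P (l + 1) 3 t1 t2 (L.mvX X₀ τ₀ μ 2) (L.mvg g₀ (fun i => P.w i τ₀) μ 2) :=
    h₀.mv_T le_rfl hτ₀ μ
  set X₁ := L.mvX X₀ τ₀ μ 2 with hX₁
  set g₁ := L.mvg g₀ (fun i => P.w i τ₀) μ 2 with hg₁
  have hobs₁ : ∀ c ∈ P.KK (l + 1), ∀ m, L.Obs P (l + 1) m 3 X₁ g₁ c
      = L.Obs P (l + 1) m 3 X₀ g₀ c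
        + (if m = μ then 2⁻¹ * (L.ζ ^ L.κ μ - 1) * P.PP (l + 1) c t1 τ₀ else 0)
        + (if m = μ + L.μ₁ then 2⁻¹ * (L.ζ ^ L.κ μ - L.ζ ^ ((2 : ℕ) : ℤ)) * P.PP (l + 1) c t2 τ₀ else 0) :=
    fun c hc m => h₀.Obs_move_T le_rfl μ m τ₀ (hS1 c hc τ₀ hτ₀).1 (hS1 c hc τ₀ hτ₀).2
  have hobs₁l : ∀ c ∈ P.KK l, ∀ m, L.Obs P (l + 1) m 3 X₁ g₁ c = L.Obs P (l + 1) m 3 X₀ g₀ c := by
    intro c hc m
    rw [hobs₁ c (hKl hc) m, P.PP_of_le (Nat.le_succ l) hc, P.PP_of_le (Nat.le_succ l) hc,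
      (hτ₀0 c hc).1, (hτ₀0 c hc).2]
    simp
  -- the corrections in `T(l+1)`
  have h₁' := PSol_of_succ h₁
  obtain ⟨hI1, hC1⟩ := hO 2 le_rfl X₁ g₁ h₁'
  obtain ⟨u, τ, hτT, hu, hZ⟩ := h₁.moves_solving le_rfl I (P.KK l) hKl hS1 hH2'
    (fun m c hc => by rw [Obs_succ_of_last m _ X₁ g₁ (hlast c (hIl hc))]; exact hI1 m c hc)
    (fun m hm hJ1 c hc => by rw [Obs_succ_of_last m _ X₁ g₁ (hlast c hc)]; exact hC1 m hm hJ1 c hc)
  have hμu : μ ∉ u := by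
    intro hm
    rcases hu μ hm with ⟨c, hc, hne⟩ | ⟨c, hc, hne⟩
    · exact hne (by rw [hobs₁l c hc, hzero μ hμ0 c])
    · exact hne (by rw [hobs₁l c hc, hzero _ hμp c])
  have hμu' : μ - L.μ₁ ∉ u := by
    intro hm
    rcases hu _ hm with ⟨c, hc, hne⟩ | ⟨c, hc, hne⟩
    · exact hne (by rw [hobs₁l c hc, hzero _ hμm c])
    · have e : μ - L.μ₁ + L.μ₁ = μ := by abel
      rw [e] at hne
      exact hne (by rw [hobs₁l c hc, hzero μ hμ0 c])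
  set X₂ := L.addX X₁ u τ 2 with hX₂
  set g₂ := L.addg g₁ u (fun m i => P.w i (τ m)) 2 with hg₂
  have h₂ : L.PSol P (l + 1) 3 t1 t2 X₂ g₂ := h₁.addT le_rfl τ hτT u
  have hobs₂ : ∀ c ∈ P.KK (l + 1), L.Obs P (l + 1) μ 3 X₂ g₂ c
      = 2⁻¹ * (L.ζ ^ L.κ μ - 1) * P.PP (l + 1) c t1 τ₀ := by
    intro c hc
    have hne : μ ≠ μ + L.μ₁ := fun h => μ₁_ne_zero L (by simpa using h)
    rw [h₁.Obs_addT le_rfl τ hτT hS1 u hc μ, if_neg hμu, if_neg hμu', hobs₁ c hc μ, hzero μ hμ0 c,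
      if_pos rfl, if_neg hne]
    ring
  -- order `4` for the prefix `l`, then exact
  have h₂' := PSol_of_succ h₂
  obtain ⟨Sb, tt', ww', h₃, -⟩ := h₂'.solve_all (by omega) (fun m c hc => by
    rw [← Obs_succ_of_last m _ X₂ g₂ (hlast c hc)]
    exact hZ m c hc)
  obtain ⟨X', g', hex, hX', hg'⟩ := Lev.exists_limit (L := L) (P := P) (J1 := 3) (by omega) h₃ I hSl
    hH2l (fun J' hJ' X₃ g₃ hs _ _ => hO J' (by omega) X₃ g₃ hs)
  have hXc : ∀ v, X' v - X₂ v ∈ L.Φ.fil 3 := by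
    intro v
    have h2 : L.addX X₂ Sb tt' 3 v - X₂ v ∈ L.Φ.fil 3 := by
      simp only [Lev.addX, add_sub_cancel_left]
      exact L.sum_mono_mem _ _ _
    have := add_mem (hX' v) h2
    simpa using this
  have hgc : ∀ i, g' i - g₂ i ∈ L.Φ.fil 3 := by
    intro i
    have h2 : L.addg g₂ Sb ww' 3 i - g₂ i ∈ L.Φ.fil 3 := by
      simp only [Lev.addg, add_sub_cancel_left]
      exact L.sum_mono_mem _ _ _
    have := add_mem (hg' i) h2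
    simpa using this
  have hX1f : ∀ v, X₂ v - L.inc (P.ρ v) ∈ L.Φ.fil 1 := by
    intro v
    have a1 := L.Φ.anti (Nat.le_succ 1) (h₂.leadX v)
    have a2 := L.mono_mem (t1 v) 0 1
    have a3 := L.mono_mem (t2 v) L.μ₁ 1
    have := add_mem (add_mem a1 a2) a3
    convert this using 1
    abel
  have hg1f : ∀ i < l + 1, g₂ i - 1 ∈ L.Φ.fil 1 := by
    intro i hi
    have a1 := L.Φ.anti (Nat.le_succ 1) (h₂.leadg i hi)
    have a2 := L.mono_mem (P.w i t1) 0 1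
    have a3 := L.mono_mem (P.w i t2) L.μ₁ 1
    have := add_mem (add_mem a1 a2) a3
    convert this using 1
    abel
  refine ⟨μ, X', g', g₂ l, hμ, hex, h₂.fsg l, h₂.leadg l (by omega), ?_, fun c hc => ?_⟩
  · exact E_mem_of_close (L := L) (by omega) hX1f (hg1f l (by omega)) hXc (by simp)
      (h₂.E_mem l (by omega))
  · set g'' := Function.update g' l (g₂ l) with hg''
    have hexE : ∀ i < l, L.E P X' g'' i = 0 := fun i hi => by
      rw [hg'', E_update_ne (L := L) (P := P) X' g' _ (by omega)]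
      exact sub_eq_zero.mpr (Lev.exact_of_PSol hex hi)
    have hg''c : ∀ i < l + 1, g'' i - g₂ i ∈ L.Φ.fil 3 := by
      intro i _
      by_cases hil : i = l
      · subst hil
        simp [hg'']
      · rw [hg'', Function.update_of_ne hil]
        exact hgc i
    have h5 := Lev.Obs_eq_first_error (L := L) (P := P) (l := l) (j := 3) (by omega) hc hX1f
      hg1f hXc hg''c hexE μ
    rw [hobs₂ c hc] at h5
    rw [hg'', E_update] at h5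
    exact h5.symm

end Hens

end Crest.Agent.Kurosh.PropI
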