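/-
S0270, module M1c (helper62): the double centraliser count for a subalgebra of a central division
algebra: `dim C(B) * dim B = dim A`.  Only Mathlib.
-/
import Mathlib

set_option autoImplicit false

namespace Crest.Agent.Kurosh.DoubleCent

open TensorProduct

variable {K A : Type*} [Field K] [DivisionRing A] [Algebra K A]

/-- The centraliser of a subalgebra of a division algebra as a division ring. -/
noncomputable def centDiv (B : Subalgebra K A) : Subalgebra K A :=
  Subalgebra.centralizer K (B : Set A)

lemma mem_centDiv {B : Subalgebra K A} {x : A} :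
    x ∈ centDiv B ↔ ∀ b ∈ B, b * x = x * b := by
  simp [centDiv, Subalgebra.mem_centralizer_iff]

lemma inv_mem_centDiv {B : Subalgebra K A} {x : A} (hx : x ∈ centDiv B) : x⁻¹ ∈ centDiv B := by
  rw [mem_centDiv] at hx ⊢
  intro b hb
  by_cases h0 : x = 0
  · subst h0; simp
  · have h := hx b hb
    calc b * x⁻¹ = x⁻¹ * (x * b) * x⁻¹ := by
          rw [← mul_assoc, inv_mul_cancel₀ h0, one_mul]
      _ = x⁻¹ * (b * x) * x⁻¹ := by rw [h]
      _ = x⁻¹ * b := by rw [mul_assoc, mul_assoc, mul_inv_cancel₀ h0, mul_one]

noncomputable instance (B : Subalgebra K A) : DivisionRing (centDiv B) :=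
  { (inferInstance : Ring (centDiv B)) with
    inv := fun x => ⟨(x : A)⁻¹, inv_mem_centDiv x.2⟩
    exists_pair_ne := ⟨0, 1, by
      intro h
      have := congrArg Subtype.val h
      simp at this⟩
    mul_inv_cancel := fun x hx => by
      apply Subtype.ext
      have : (x : A) ≠ 0 := fun h => hx (Subtype.ext h)
      exact mul_inv_cancel₀ this
    inv_zero := by
      apply Subtype.ext
      exact inv_zero
    nnqsmul := _
    nnqsmul_def := fun _ _ => rfl
    qsmul := _
    qsmul_def := fun _ _ => rfl }

variable [FiniteDimensional K A]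

/-- Artin's independence: `∑ b_i x a_i = 0` for all `x`, with `(b_i)` independent over the centre,
forces all `a_i = 0`. -/
theorem artin_indep (hC : ∀ a : A, (∀ x, a * x = x * a) → ∃ c : K, a = algebraMap K A c)
    {n : ℕ} (b : Fin n → A) (hb : LinearIndependent K b) (a : Fin n → A)
    (h : ∀ x, ∑ i, b i * x * a i = 0) : a = 0 := by
  classical
  -- strong induction on the size of the support
  suffices H : ∀ (m : ℕ) (a : Fin n → A), (Finset.univ.filter fun i => a i ≠ 0).card ≤ m →
      (∀ x, ∑ i, b i * x * a i = 0) → a = 0 from H _ a le_rfl h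
  intro m
  induction m with
  | zero =>
    intro a ha _
    funext i
    by_contra hi
    have : i ∈ Finset.univ.filter fun i => a i ≠ 0 := by simpa using hi
    have h0 := Finset.card_pos.mpr ⟨i, this⟩
    omega
  | succ m ih =>
    intro a ha h
    by_contra hne
    obtain ⟨i0, hi0⟩ : ∃ i, a i ≠ 0 := by
      by_contra hall
      exact hne (funext fun i => by
        by_contra hi
        exact hall ⟨i, hi⟩)
    -- normalise
    let a' : Fin n → A := fun i => a i * (a i0)⁻¹
    have ha'0 : a' i0 = 1 := mul_inv_cancel₀ hi0
    have ha'supp : ∀ i, a' i = 0 ↔ a i = 0 := by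
      intro i
      simp [a', hi0]
    have h' : ∀ x, ∑ i, b i * x * a' i = 0 := by
      intro x
      have := congrArg (· * (a i0)⁻¹) (h x)
      simp only [Finset.sum_mul, zero_mul] at this
      simpa [a', mul_assoc] using this
    -- commutators are relations with smaller support
    have hcomm : ∀ (y : A) (i : Fin n), y * a' i = a' i * y := by
      intro y
      let a'' : Fin n → A := fun i => y * a' i - a' i * y
      have h'' : ∀ x, ∑ i, b i * x * a'' i = 0 := by
        intro x
        have h1 := h' (x * y)
        have h2 := congrArg (· * y) (h' x)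
        simp only [Finset.sum_mul, zero_mul] at h2
        have : ∑ i, b i * x * a'' i = ∑ i, b i * (x * y) * a' i - ∑ i, b i * x * a' i * y := by
          rw [← Finset.sum_sub_distrib]
          refine Finset.sum_congr rfl fun i _ => ?_
          simp only [a'', mul_sub, mul_assoc]
        rw [this, h1, h2, sub_zero]
      have hsupp : (Finset.univ.filter fun i => a'' i ≠ 0).card ≤ m := by
        have hsub : (Finset.univ.filter fun i => a'' i ≠ 0) ⊆
            (Finset.univ.filter fun i => a i ≠ 0).erase i0 := by
          intro i hi
          simp only [Finset.mem_filter, Finset.mem_univ, true_and] at hi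
          simp only [Finset.mem_erase, Finset.mem_filter, Finset.mem_univ, true_and]
          constructor
          · rintro rfl
            apply hi
            simp [a'', ha'0]
          · intro hai
            apply hi
            have : a' i = 0 := (ha'supp i).mpr hai
            simp [a'', this]
        have h3 := Finset.card_le_card hsub
        rw [Finset.card_erase_of_mem (by simp [hi0])] at h3
        omega
      have := ih a'' hsupp h''
      intro i
      have h4 := congrFun this i
      simpa [a'', sub_eq_zero] using h4
    -- so all `a' i` are central scalars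
    have hscal : ∀ i, ∃ c : K, a' i = algebraMap K A c := fun i =>
      hC _ fun x => (hcomm x i).symm
    choose c hc using hscal
    have hrel := h' 1
    have : ∑ i, c i • b i = 0 := by
      rw [← hrel]
      refine Finset.sum_congr rfl fun i _ => ?_
      rw [hc i, Algebra.smul_def, mul_one, Algebra.commutes]
    have hc0 := Fintype.linearIndependent_iff.mp hb c this i0
    have : a' i0 = 0 := by rw [hc i0, hc0, map_zero]
    rw [ha'0] at this
    exact one_ne_zero this

/-- **Double centraliser count.** -/
theorem finrank_centralizer_mul (hC : ∀ a : A, (∀ x, a * x = x * a) → ∃ c : K, a = algebraMap K A c)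
    (B : Subalgebra K A) :
    Module.finrank K (centDiv B) * Module.finrank K B = Module.finrank K A := by
  classical
  -- left multiplication by `B`, right multiplication by `A`
  let L : B →ₐ[K] Module.End K A := (Algebra.lmul K A).comp B.val
  let R : Aᵐᵒᵖ →ₐ[K] Module.End K A := AlgHom.ofLinearMap
    { toFun := fun a => LinearMap.mulRight K (MulOpposite.unop a)
      map_add' := fun a b => by ext x; simp [mul_add]
      map_smul' := fun c a => by ext x; simp }
    (by ext x; simp)
    (fun a b => by ext x; simp [mul_assoc])
  have hLR : ∀ (b : B) (a : Aᵐᵒᵖ), Commute (L b) (R a) := by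
    intro b a
    ext x
    simp [L, R, mul_assoc]
  let φ : B ⊗[K] Aᵐᵒᵖ →ₐ[K] Module.End K A :=
    Algebra.TensorProduct.lift L R (fun b a => hLR b a)
  let T : Subalgebra K (Module.End K A) := φ.range
  have hLT : ∀ b : B, L b ∈ T := fun b => ⟨b ⊗ₜ 1, by simp [φ]⟩
  have hRT : ∀ a : Aᵐᵒᵖ, R a ∈ T := fun a => ⟨1 ⊗ₜ a, by simp [φ]⟩
  have hTsmul : ∀ (t : T) (x : A), t • x = (t : Module.End K A) x := fun t x => rfl
  -- `φ` is injective
  have hφinj : Function.Injective φ := by
    rw [injective_iff_map_eq_zero]
    intro r hr
    let bB := Module.finBasis K B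
    -- expand `r` along the basis of `B`
    let eqv := TensorProduct.equivFinsuppOfBasisLeft (M := B) (N := Aᵐᵒᵖ) (R := K) bB
    have hexp : r = ∑ i, bB i ⊗ₜ[K] (eqv r i) := by
      have := (TensorProduct.equivFinsuppOfBasisLeft_symm_apply (R := K) (M := B) (N := Aᵐᵒᵖ)
        bB (eqv r))
      rw [LinearEquiv.symm_apply_apply] at this
      exact this.trans (Finsupp.sum_fintype _ _ (by simp))
    have hval : ∀ x : A, ∑ i, (bB i : A) * x * MulOpposite.unop (eqv r i) = 0 := by
      intro x
      have h1 : φ r x = 0 := by rw [hr]; rfl
      rw [hexp, map_sum, LinearMap.sum_apply] at h1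
      rw [← h1]
      refine Finset.sum_congr rfl fun i _ => ?_
      simp [φ, L, R, mul_assoc]
    have hli : LinearIndependent K fun i => (bB i : A) :=
      (bB.linearIndependent.map' B.val.toLinearMap (LinearMap.ker_eq_bot.mpr Subtype.val_injective))
    have h0 := artin_indep hC _ hli (fun i => MulOpposite.unop (eqv r i)) hval
    rw [hexp]
    refine Finset.sum_eq_zero fun i _ => ?_
    have h1 : eqv r i = 0 := by
      have := congrFun h0 i
      simpa using this
    rw [h1, TensorProduct.tmul_zero]
  have hfinT : Module.finrank K T = Module.finrank K B * Module.finrank K A := by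
    have e : (B ⊗[K] Aᵐᵒᵖ) ≃ₗ[K] T := LinearEquiv.ofInjective φ.toLinearMap hφinj
    rw [← e.finrank_eq, Module.finrank_tensorProduct,
      (MulOpposite.opLinearEquiv K : A ≃ₗ[K] Aᵐᵒᵖ).finrank_eq]
  -- `A` is a simple `T`-module
  have hsimple : IsSimpleModule T A := by
    rw [isSimpleModule_iff]
    refine ⟨fun N => ?_⟩
    by_cases h : N = ⊥
    · exact Or.inl h
    · right
      obtain ⟨x, hx, hx0⟩ := (Submodule.ne_bot_iff N).mp h
      rw [eq_top_iff]
      intro y _
      have hy : y = (⟨R (MulOpposite.op (x⁻¹ * y)), hRT _⟩ : T) • x := by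
        rw [hTsmul]
        simp [R, mul_inv_cancel₀ hx0]
      rw [hy]
      exact N.smul_mem _ hx
  -- `C = centDiv B`: left multiplications are the `T`-endomorphisms
  let C := centDiv B
  have hend : ∀ ψ : Module.End T A, ∃ y : C, ∀ x, ψ x = (y : A) * x := by
    intro ψ
    have h1 : ∀ x, ψ x = ψ 1 * x := by
      intro x
      have h2 := ψ.map_smul (⟨R (MulOpposite.op x), hRT _⟩ : T) 1
      rw [hTsmul, hTsmul] at h2
      simpa [R] using h2
    have h3 : ψ 1 ∈ C := by
      refine mem_centDiv.mpr fun b hb => ?_
      have h2 := ψ.map_smul (⟨L ⟨b, hb⟩, hLT _⟩ : T) 1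
      rw [hTsmul, hTsmul] at h2
      have h4 : ψ b = b * ψ 1 := by simpa [L] using h2
      rw [← h4, h1]
    exact ⟨⟨ψ 1, h3⟩, h1⟩
  -- `T` commutes with left multiplication by `C`
  have hTC : ∀ (t : T) (y : C) (x : A), (t : Module.End K A) ((y : A) * x) =
      (y : A) * (t : Module.End K A) x := by
    rintro ⟨t, r, rfl⟩ y x
    show φ r ((y : A) * x) = (y : A) * φ r x
    induction r using TensorProduct.induction_on with
    | zero => simp
    | tmul b a =>
      have : (b : A) * y = y * b := mem_centDiv.mp y.2 b b.2
      simp [φ, L, R, mul_assoc, ← mul_assoc (b : A) (y : A), this]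
    | add p q hp hq =>
      rw [map_add, LinearMap.add_apply, LinearMap.add_apply, hp, hq, mul_add]
  -- the basis of `A` over `C`
  have : Module.Free C A := Module.Free.of_divisionRing C A
  have hfinC : Module.Finite C A := Module.Finite.of_restrictScalars_finite K C A
  let bA := Module.finBasis C A
  let v := Module.finrank C A
  -- evaluation at the basis
  let Ψ : T →ₗ[K] (Fin v → A) :=
    { toFun := fun t i => (t : Module.End K A) (bA i)
      map_add' := fun s t => by ext i; rfl
      map_smul' := fun c t => by ext i; rfl }
  have hΨinj : Function.Injective Ψ := by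
    rw [injective_iff_map_eq_zero]
    intro t ht
    apply Subtype.ext
    apply LinearMap.ext
    intro x
    have hx : x = ∑ i, (bA.repr x i : A) * bA i := by
      conv_lhs => rw [← bA.sum_repr x]
      rfl
    rw [hx, map_sum]
    simp only [LinearMap.zero_apply, ZeroMemClass.coe_zero]
    refine Finset.sum_eq_zero fun i _ => ?_
    rw [hTC]
    have := congrFun ht i
    have h2 : (t : Module.End K A) (bA i) = 0 := this
    rw [h2, mul_zero]
  have hΨsurj : Function.Surjective Ψ := by
    intro y
    -- the `C`-linear map with prescribed values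
    let f : A →ₗ[C] A := bA.constr ℕ y
    obtain ⟨r, hr⟩ := jacobson_density (R := T) (M := A)
      { toFun := f
        map_add' := f.map_add
        map_smul' := by
          intro ψ x
          obtain ⟨c, hc⟩ := hend ψ
          simp only [Module.End.smul_def, RingHom.id_apply, hc]
          exact f.map_smul c x }
      (Finset.univ.image bA)
    refine ⟨r, funext fun i => ?_⟩
    have h1 := hr (bA i) (Finset.mem_image_of_mem _ (Finset.mem_univ _))
    have h2 : f (bA i) = y i := bA.constr_basis ℕ y i
    show (r : Module.End K A) (bA i) = y i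
    rw [← h2]
    exact h1.symm
  have hfin2 : Module.finrank K T = v * Module.finrank K A := by
    have e : T ≃ₗ[K] (Fin v → A) := LinearEquiv.ofBijective Ψ ⟨hΨinj, hΨsurj⟩
    rw [e.finrank_eq, Module.finrank_pi_fintype]
    simp
  have hpos : 0 < Module.finrank K A := Module.finrank_pos
  have hvB : v = Module.finrank K B := by
    have := hfinT.symm.trans hfin2
    exact (Nat.eq_of_mul_eq_mul_right hpos this).symm
  have htower : Module.finrank K C * Module.finrank C A = Module.finrank K A :=
    Module.finrank_mul_finrank K C A
  rw [← htower]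
  show Module.finrank K C * Module.finrank K B = _
  rw [← hvB]

/-- The double centraliser theorem. -/
theorem centDiv_centDiv (hC : ∀ a : A, (∀ x, a * x = x * a) → ∃ c : K, a = algebraMap K A c)
    (B : Subalgebra K A) : centDiv (centDiv B) = B := by
  have hle : B ≤ centDiv (centDiv B) := fun b hb =>
    mem_centDiv.mpr fun c hc => (mem_centDiv.mp hc b hb).symm
  have h1 := finrank_centralizer_mul hC B
  have h2 := finrank_centralizer_mul hC (centDiv B)
  have hpos : 0 < Module.finrank K (centDiv B) := by
    by_contra h
    have h0 : Module.finrank K (centDiv B) = 0 := by omega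
    rw [h0, zero_mul] at h1
    have := Module.finrank_pos (R := K) (M := A)
    omega
  have h3 : Module.finrank K (centDiv (centDiv B)) = Module.finrank K B := by
    have h5 : Module.finrank K (centDiv (centDiv B)) * Module.finrank K (centDiv B)
        = Module.finrank K B * Module.finrank K (centDiv B) := by
      rw [h2, mul_comm, h1]
    exact Nat.eq_of_mul_eq_mul_right hpos h5
  have h4 : Subalgebra.toSubmodule B = Subalgebra.toSubmodule (centDiv (centDiv B)) :=
    Submodule.eq_of_le_of_finrank_eq hle h3.symm
  exact (Subalgebra.toSubmodule_injective h4).symm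

/-- A finite dimensional subalgebra of a division algebra is closed under inversion. -/
lemma inv_mem_subalgebra (B : Subalgebra K A) {x : A} (hx : x ∈ B) : x⁻¹ ∈ B := by
  by_cases h0 : x = 0
  · subst h0; simp
  have hint : IsIntegral K x := IsIntegral.of_finite K x
  set p := minpoly K x with hp
  have hc : p.coeff 0 ≠ 0 := minpoly.coeff_zero_ne_zero hint h0
  have hq : Polynomial.aeval x p.divX ∈ B := by
    have : Polynomial.aeval x p.divX = B.val (Polynomial.aeval (⟨x, hx⟩ : B) p.divX) := by
      rw [← Polynomial.aeval_algHom_apply]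
      rfl
    rw [this]
    exact Subtype.property _
  have h1 : x * Polynomial.aeval x p.divX + algebraMap K A (p.coeff 0) = 0 := by
    have h2 : Polynomial.aeval x p = 0 := minpoly.aeval K x
    have h3 := congrArg (Polynomial.aeval x) (Polynomial.X_mul_divX_add p)
    rw [h2, map_add, map_mul, Polynomial.aeval_X, Polynomial.aeval_C] at h3
    exact h3
  have h3 : x⁻¹ = algebraMap K A (-(p.coeff 0)⁻¹) * Polynomial.aeval x p.divX := by
    have hcA : algebraMap K A (p.coeff 0) ≠ 0 := by
      simpa using hc
    have h4 : x * Polynomial.aeval x p.divX = - algebraMap K A (p.coeff 0) :=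
      eq_neg_of_add_eq_zero_left h1
    have h5 : Polynomial.aeval x p.divX = x⁻¹ * (- algebraMap K A (p.coeff 0)) := by
      rw [← h4, ← mul_assoc, inv_mul_cancel₀ h0, one_mul]
    have h6 : x⁻¹ * algebraMap K A (p.coeff 0) = algebraMap K A (p.coeff 0) * x⁻¹ :=
      (Algebra.commutes _ _).symm
    rw [h5, mul_neg, h6, map_neg, map_inv₀, mul_neg, neg_mul, neg_neg, ← mul_assoc,
      inv_mul_cancel₀ hcA, one_mul]
  rw [h3]
  exact B.mul_mem (B.algebraMap_mem _) hq

/-- A subalgebra of a finite dimensional division algebra is a division ring. -/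
@[reducible] noncomputable def divisionRingOfSubalgebra (B : Subalgebra K A) : DivisionRing B :=
  { (inferInstance : Ring B) with
    inv := fun x => ⟨(x : A)⁻¹, inv_mem_subalgebra B x.2⟩
    exists_pair_ne := ⟨0, 1, by
      intro h
      have := congrArg Subtype.val h
      simp at this⟩
    mul_inv_cancel := fun x hx => by
      apply Subtype.ext
      have : (x : A) ≠ 0 := fun h => hx (Subtype.ext h)
      exact mul_inv_cancel₀ this
    inv_zero := by
      apply Subtype.ext
      exact inv_zero
    nnqsmul := _
    nnqsmul_def := fun _ _ => rfl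
    qsmul := _
    qsmul_def := fun _ _ => rfl }

/-- `B ⊆ E` subalgebras: `dim B` divides `dim E`. -/
theorem finrank_dvd_of_le {B E : Subalgebra K A} (h : B ≤ E) :
    Module.finrank K B ∣ Module.finrank K E := by
  classical
  letI := divisionRingOfSubalgebra B
  -- `E` as a left `B`-module
  letI : Module B E :=
    { smul := fun b x => ⟨(b : A) * x, E.mul_mem (h b.2) x.2⟩
      one_smul := fun x => Subtype.ext (one_mul _)
      mul_smul := fun a b x => Subtype.ext (mul_assoc _ _ _)
      smul_zero := fun a => Subtype.ext (mul_zero _)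
      smul_add := fun a x y => Subtype.ext (mul_add _ _ _)
      add_smul := fun a b x => Subtype.ext (add_mul _ _ _)
      zero_smul := fun x => Subtype.ext (zero_mul _) }
  haveI : IsScalarTower K B E :=
    ⟨fun c b x => Subtype.ext (by
      show ((c • b : B) : A) * x = c • ((b : A) * x)
      simp [smul_mul_assoc])⟩
  haveI : Module.Free B E := Module.Free.of_divisionRing B E
  exact Dvd.intro _ (Module.finrank_mul_finrank K B E)

/-- A commutative subalgebra `F`: `(dim F)² ∣ dim A`, i.e. `deg F ∣ N` when `dim A = N²`. -/
theorem sq_finrank_dvd (hC : ∀ a : A, (∀ x, a * x = x * a) → ∃ c : K, a = algebraMap K A c)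
    (F : Subalgebra K A) (hF : ∀ x ∈ F, ∀ y ∈ F, x * y = y * x) :
    Module.finrank K F ^ 2 ∣ Module.finrank K A := by
  have hle : F ≤ centDiv F := fun x hx => mem_centDiv.mpr fun y hy => hF y hy x hx
  obtain ⟨k, hk⟩ := finrank_dvd_of_le hle
  refine ⟨k, ?_⟩
  rw [← finrank_centralizer_mul hC F, hk]
  ring

/-- A commutative subalgebra `F` of a central division algebra of dimension `N²`: `deg F ∣ N`. -/
theorem finrank_dvd_of_sq (hC : ∀ a : A, (∀ x, a * x = x * a) → ∃ c : K, a = algebraMap K A c)
    (F : Subalgebra K A) (hF : ∀ x ∈ F, ∀ y ∈ F, x * y = y * x) {N : ℕ}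
    (hN : Module.finrank K A = N ^ 2) : Module.finrank K F ∣ N := by
  have := sq_finrank_dvd hC F hF
  rw [hN] at this
  exact (Nat.pow_dvd_pow_iff (by norm_num)).mp this

end Crest.Agent.Kurosh.DoubleCent
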