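/-
S0270, blueprint v3 §B (helper94): trace forms on a finite dimensional division algebra.

`K` field, `A` division `K`-algebra, finite dimensional, `τ` a trace form (`IsTraceForm`, from
`Valued.lean`).  No box of units is needed: the regular trace is a multiple of `τ` by uniqueness.
* `eProj hτ F` the `τ`-orthogonal projection onto a subalgebra `F`; `F`-bilinear.
* `trace_mulLeft`: `tr_K(L_a) = dim A · τ a` (B1), `trace_eq_of_mem`: `τ|_F = Tr_{F/K}/[F:K]`.
* `eq_top_of_centralizer_le_bot` (B2).
* `aeval_eq_zero_of_trace_pow`, `minpoly_eq_of_trace_pow` (B4), no roots.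
* `eProj_der`, `eProj_der_eq`, `eProj_der_mem` (B5), derivation formula.
-/
import Crest.Agent.Kurosh.DoubleCent
import Crest.Agent.Kurosh.Valued

set_option autoImplicit false

namespace Crest.Agent.Kurosh.CentFacts

open Crest.Agent.Kurosh.Valued Crest.Agent.Kurosh.DoubleCent Polynomial Module

variable {K A : Type*} [Field K] [DivisionRing A] [Algebra K A] {τ : A →ₗ[K] K}

/-- In a division algebra a cyclic normalised linear form is a trace form. -/
theorem isTraceForm_of (hc : ∀ x y, τ (x * y) = τ (y * x)) (h1 : τ 1 = 1) : IsTraceForm τ :=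
  ⟨hc, h1, fun x hx => ⟨x⁻¹, by rw [mul_inv_cancel₀ hx, h1]; exact one_ne_zero⟩⟩

/-- The bilinear form `(x, y) ↦ τ (x y)`. -/
noncomputable def traceBilin (τ : A →ₗ[K] K) : LinearMap.BilinForm K A :=
  (LinearMap.mul K A).compr₂ τ

@[simp] theorem traceBilin_apply (x y : A) : traceBilin τ x y = τ (x * y) := rfl

theorem traceBilin_isRefl (hτ : IsTraceForm τ) : (traceBilin τ).IsRefl := by
  intro x y h
  rw [traceBilin_apply] at h ⊢
  rw [hτ.comm, h]

variable [FiniteDimensional K A]

/-- `F ⊕ F^⊥ = A` for every subalgebra `F`. -/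
theorem isCompl_subalgebra (hτ : IsTraceForm τ) (F : Subalgebra K A) :
    IsCompl (Subalgebra.toSubmodule F) ((traceBilin τ).orthogonal (Subalgebra.toSubmodule F)) := by
  apply LinearMap.BilinForm.isCompl_orthogonal_of_restrict_nondegenerate (traceBilin_isRefl hτ)
  refine ⟨?_, ?_⟩
  · rintro ⟨x, hx⟩ h
    by_contra h0
    have hx0 : x ≠ 0 := fun h' => h0 (Subtype.ext h')
    have h1 : τ (x * x⁻¹) = 0 := h ⟨x⁻¹, inv_mem_subalgebra F hx⟩
    rw [mul_inv_cancel₀ hx0, hτ.one] at h1
    exact one_ne_zero h1
  · rintro ⟨x, hx⟩ h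
    by_contra h0
    have hx0 : x ≠ 0 := fun h' => h0 (Subtype.ext h')
    have h1 : τ (x⁻¹ * x) = 0 := h ⟨x⁻¹, inv_mem_subalgebra F hx⟩
    rw [inv_mul_cancel₀ hx0, hτ.one] at h1
    exact one_ne_zero h1

/-- The `τ`-orthogonal projection of `A` onto the subalgebra `F`. -/
noncomputable def eProj (hτ : IsTraceForm τ) (F : Subalgebra K A) : A →ₗ[K] A :=
  (Subalgebra.toSubmodule F).subtype ∘ₗ Submodule.projectionOnto _ _ (isCompl_subalgebra hτ F)

variable (hτ : IsTraceForm τ) (F : Subalgebra K A)

theorem eProj_mem (x : A) : eProj hτ F x ∈ F :=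
  (Submodule.projectionOnto (Subalgebra.toSubmodule F) _ (isCompl_subalgebra hτ F) x).2

theorem eProj_of_mem {x : A} (hx : x ∈ F) : eProj hτ F x = x := by
  have := Submodule.projectionOnto_apply_left (isCompl_subalgebra hτ F) ⟨x, hx⟩
  exact congrArg Subtype.val this

theorem eProj_of_perp {x : A} (hx : ∀ f ∈ F, τ (f * x) = 0) : eProj hτ F x = 0 := by
  have hm : x ∈ (traceBilin τ).orthogonal (Subalgebra.toSubmodule F) :=
    fun f hf => hx f hf
  have := Submodule.projectionOnto_apply_of_mem_right (isCompl_subalgebra hτ F) hm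
  simp [eProj, this]

/-- `x - e(x)` is orthogonal to `F`. -/
theorem trace_mul_sub_eProj {f : A} (hf : f ∈ F) (x : A) : τ (f * (x - eProj hτ F x)) = 0 := by
  have h := isCompl_subalgebra hτ F
  have hx : x ∈ Subalgebra.toSubmodule F ⊔ (traceBilin τ).orthogonal (Subalgebra.toSubmodule F) := by
    rw [h.sup_eq_top]; trivial
  obtain ⟨c, hc, r, hr, rfl⟩ := Submodule.mem_sup.1 hx
  have h1 : eProj hτ F (c + r) = c := by
    rw [map_add, eProj_of_mem hτ F hc, eProj_of_perp hτ F (x := r) (fun f hf => hr f hf), add_zero]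
  rw [h1, add_sub_cancel_left]
  exact hr f hf

/-- `e` is the `τ`-orthogonal projection: `τ (f e(x)) = τ (f x)`. -/
theorem trace_mul_eProj {f : A} (hf : f ∈ F) (x : A) : τ (f * eProj hτ F x) = τ (f * x) := by
  have := trace_mul_sub_eProj hτ F hf x
  rw [mul_sub, map_sub, sub_eq_zero] at this
  exact this.symm

theorem trace_eProj_mul {f : A} (hf : f ∈ F) (x : A) : τ (eProj hτ F x * f) = τ (x * f) := by
  rw [hτ.comm, trace_mul_eProj hτ F hf, hτ.comm]

/-- Characterisation of the projection. -/
theorem eProj_unique {u x : A} (hu : u ∈ F) (h : ∀ f ∈ F, τ (f * u) = τ (f * x)) :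
    eProj hτ F x = u := by
  have h1 : eProj hτ F x - u ∈ F := F.sub_mem (eProj_mem hτ F x) hu
  by_contra hne
  have h0 : eProj hτ F x - u ≠ 0 := sub_ne_zero.2 hne
  have h2 : τ ((eProj hτ F x - u)⁻¹ * (eProj hτ F x - u)) = 0 := by
    rw [mul_sub, map_sub, trace_mul_eProj hτ F (inv_mem_subalgebra F h1),
      h _ (inv_mem_subalgebra F h1), sub_self]
  rw [inv_mul_cancel₀ h0, hτ.one] at h2
  exact one_ne_zero h2

theorem eProj_idem (x : A) : eProj hτ F (eProj hτ F x) = eProj hτ F x :=
  eProj_of_mem hτ F (eProj_mem hτ F x)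

/-- `e` is left `F`-linear. -/
theorem eProj_mul_left {f : A} (hf : f ∈ F) (x : A) : eProj hτ F (f * x) = f * eProj hτ F x := by
  apply eProj_unique hτ F (F.mul_mem hf (eProj_mem hτ F x))
  intro g hg
  rw [← mul_assoc, ← mul_assoc, trace_mul_eProj hτ F (F.mul_mem hg hf)]

/-- `e` is right `F`-linear. -/
theorem eProj_mul_right {f : A} (hf : f ∈ F) (x : A) : eProj hτ F (x * f) = eProj hτ F x * f := by
  apply eProj_unique hτ F (F.mul_mem (eProj_mem hτ F x) hf)
  intro g hg
  have h1 : ∀ y : A, τ (g * (y * f)) = τ (f * g * y) := by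
    intro y
    rw [← mul_assoc, hτ.comm, ← mul_assoc]
  rw [h1, h1, trace_mul_eProj hτ F (F.mul_mem hf hg)]

/-- Projections along a tower. -/
theorem eProj_eProj_of_le {F E : Subalgebra K A} (h : F ≤ E) (x : A) :
    eProj hτ F (eProj hτ E x) = eProj hτ F x := by
  apply eProj_unique hτ F (eProj_mem hτ F x)
  intro f hf
  rw [trace_mul_eProj hτ F hf, trace_mul_eProj hτ E (h hf)]

/-- The projection onto a centraliser kills commutators with `F`. -/
theorem eProj_centDiv_commutator {f : A} (hf : f ∈ F) (x : A) :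
    eProj hτ (centDiv F) (f * x - x * f) = 0 := by
  apply eProj_of_perp
  intro c hc
  have h1 : c * f = f * c := (mem_centDiv.1 hc f hf).symm
  rw [mul_sub, map_sub, ← mul_assoc, h1, mul_assoc, hτ.comm f, mul_assoc, sub_self]

/-- The projection on a subalgebra agrees with `Valued.proj` for `F = C(β)`. -/
theorem eProj_centralizer_eq_proj (β x : A) :
    eProj hτ (Subalgebra.centralizer K ({β} : Set A)) x = (proj hτ β x : A) := by
  have hmem : ∀ {c : A}, c ∈ Subalgebra.centralizer K ({β} : Set A) ↔ c ∈ cent K β := by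
    intro c
    rw [Subalgebra.mem_centralizer_iff, mem_cent]
    simp only [Set.mem_singleton_iff, forall_eq]
    exact eq_comm
  apply eProj_unique hτ _ (hmem.2 (proj hτ β x).2)
  intro f hf
  exact trace_mul_proj hτ β (hmem.1 hf) x

/-! ### Regular trace (B1) -/

section Regular

include hτ in
/-- Every linear form is `x ↦ τ (z x)`. -/
theorem exists_rep (f : A →ₗ[K] K) : ∃ z : A, ∀ x, f x = τ (z * x) := by
  have hinj : Function.Injective (traceBilin τ) := by
    intro x y h
    by_contra hne
    have h0 : x - y ≠ 0 := sub_ne_zero.2 hne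
    have h1 : τ ((x - y) * (x - y)⁻¹) = 0 := by
      rw [sub_mul, map_sub]
      have := LinearMap.congr_fun h ((x - y)⁻¹)
      simp only [traceBilin_apply] at this
      rw [this, sub_self]
    rw [mul_inv_cancel₀ h0, hτ.one] at h1
    exact one_ne_zero h1
  have hsurj : Function.Surjective (traceBilin τ : A →ₗ[K] (Module.Dual K A)) :=
    (LinearMap.injective_iff_surjective_of_finrank_eq_finrank
      (Subspace.dual_finrank_eq).symm).1 hinj
  obtain ⟨z, hz⟩ := hsurj f
  exact ⟨z, fun x => by rw [← hz]; rfl⟩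

include hτ in
/-- Uniqueness of the trace form on a central division algebra. -/
theorem eq_smul_of_cyclic (hC : ∀ a : A, (∀ x, a * x = x * a) → ∃ c : K, a = algebraMap K A c)
    (f : A →ₗ[K] K) (hf : ∀ x y, f (x * y) = f (y * x)) (x : A) : f x = f 1 * τ x := by
  obtain ⟨z, hz⟩ := exists_rep hτ f
  have hcomm : ∀ a, z * a = a * z := by
    intro a
    by_contra hne
    have h0 : z * a - a * z ≠ 0 := sub_ne_zero.2 hne
    have h1 : τ ((z * a - a * z) * (z * a - a * z)⁻¹) = 0 := by
      set y := (z * a - a * z)⁻¹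
      rw [sub_mul, map_sub, sub_eq_zero]
      have h2 := hf a y
      rw [hz, hz] at h2
      rw [mul_assoc, h2, ← mul_assoc, mul_assoc a, hτ.comm a]
    rw [mul_inv_cancel₀ h0, hτ.one] at h1
    exact one_ne_zero h1
  obtain ⟨c, rfl⟩ := hC z hcomm
  have hsmul : ∀ y, τ (algebraMap K A c * y) = c * τ y := by
    intro y
    rw [← Algebra.smul_def, map_smul, smul_eq_mul]
  have h1 : τ (algebraMap K A c) = c := by
    have := hsmul 1
    rwa [mul_one, hτ.one, mul_one] at this
  rw [hz, hz, mul_one, hsmul, h1]

include hτ in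
/-- (B1) `tr_K (L_a) = dim A · τ a`. -/
theorem trace_mulLeft (hC : ∀ a : A, (∀ x, a * x = x * a) → ∃ c : K, a = algebraMap K A c) (a : A) :
    LinearMap.trace K A (LinearMap.mulLeft K a) = (finrank K A : K) * τ a := by
  let f : A →ₗ[K] K := (LinearMap.trace K A) ∘ₗ (LinearMap.mul K A)
  have hf : ∀ x y, f (x * y) = f (y * x) := by
    intro x y
    change LinearMap.trace K A (LinearMap.mulLeft K (x * y))
      = LinearMap.trace K A (LinearMap.mulLeft K (y * x))
    rw [LinearMap.mulLeft_mul, LinearMap.mulLeft_mul]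
    exact LinearMap.trace_mul_comm K _ _
  have h1 : f 1 = (finrank K A : K) := by
    change LinearMap.trace K A (LinearMap.mulLeft K (1 : A)) = _
    rw [LinearMap.mulLeft_one, LinearMap.trace_id]
  have := eq_smul_of_cyclic hτ hC f hf a
  rw [h1] at this
  exact this

/-- The left regular trace of a subalgebra. -/
noncomputable def regTrace (F : Subalgebra K A) (f : F) : K :=
  LinearMap.trace K F (LinearMap.mulLeft K f)

/-- `tr_{A/K} (L_f) = [A:F] · tr_{F/K} (L_f)` for `f` in a subalgebra `F`. -/
theorem trace_mulLeft_subalgebra (F : Subalgebra K A) (f : F) :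
    LinearMap.trace K A (LinearMap.mulLeft K (f : A)) =
      (by
        letI := divisionRingOfSubalgebra F
        exact (finrank F A : K)) * regTrace F f := by
  classical
  letI := divisionRingOfSubalgebra F
  haveI : Module.Free F A := Module.Free.of_divisionRing F A
  haveI : Module.Finite F A := Module.Finite.of_restrictScalars_finite K F A
  let b := Module.Free.chooseBasis K F
  let c := Module.Free.chooseBasis F A
  haveI : IsScalarTower K F A := inferInstance
  let bc := b.smulTower c
  rw [LinearMap.trace_eq_matrix_trace K bc, regTrace, LinearMap.trace_eq_matrix_trace K b]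
  rw [Matrix.trace, Matrix.trace]
  simp only [Matrix.diag_apply, LinearMap.toMatrix_apply]
  have key : ∀ (i) (j), bc.repr ((LinearMap.mulLeft K (f : A)) (bc (i, j))) (i, j)
      = b.repr ((LinearMap.mulLeft K f) (b i)) i := by
    intro i j
    have h1 : (LinearMap.mulLeft K (f : A)) (bc (i, j))
        = ((LinearMap.mulLeft K f) (b i)) • c j := by
      simp only [bc, Module.Basis.smulTower_apply, LinearMap.mulLeft_apply]
      change (f : A) * (b i • c j) = (f * b i) • c j
      rw [mul_smul]
      rfl
    rw [h1]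
    have h2 : ((LinearMap.mulLeft K f) (b i)) • c j
        = ∑ k, (b.repr ((LinearMap.mulLeft K f) (b i)) k) • bc (k, j) := by
      conv_lhs => rw [← b.sum_repr ((LinearMap.mulLeft K f) (b i))]
      rw [Finset.sum_smul]
      refine Finset.sum_congr rfl fun k _ => ?_
      rw [smul_assoc]
      simp [bc, Module.Basis.smulTower_apply]
    rw [h2, map_sum]
    simp only [map_smul, Module.Basis.repr_self, Finsupp.coe_finsetSum, Finset.sum_apply,
      Finsupp.coe_smul, Pi.smul_apply, smul_eq_mul]
    rw [Finset.sum_eq_single i]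
    · rw [Finsupp.single_apply]; simp
    · intro k _ hk
      rw [Finsupp.single_apply]
      have : ¬ ((k, j) = (i, j)) := fun h => hk (congrArg Prod.fst h)
      simp [this]
    · simp
  rw [Fintype.sum_prod_type]
  simp only [key, Finset.sum_const, Finset.card_univ]
  rw [Finset.mul_sum]
  refine Finset.sum_congr rfl fun i _ => ?_
  rw [nsmul_eq_mul]
  congr 1
  rw [Module.finrank_eq_card_chooseBasisIndex]

include hτ in
/-- (B1) `τ|_F = Tr_{F/K} / [F:K]`, in the form `[F:K] τ f = Tr_{F/K} f`, for `K` of characteristic 0. -/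
theorem finrank_mul_trace_of_mem [CharZero K]
    (hC : ∀ a : A, (∀ x, a * x = x * a) → ∃ c : K, a = algebraMap K A c)
    (F : Subalgebra K A) (f : F) :
    (finrank K F : K) * τ (f : A) = regTrace F f := by
  classical
  letI := divisionRingOfSubalgebra F
  haveI : Module.Free F A := Module.Free.of_divisionRing F A
  haveI : Module.Finite F A := Module.Finite.of_restrictScalars_finite K F A
  have h1 := trace_mulLeft_subalgebra F f
  rw [trace_mulLeft hτ hC] at h1
  have h2 : finrank K A = finrank K F * finrank F A := (Module.finrank_mul_finrank K F A).symm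
  have h3 : (finrank F A : K) ≠ 0 := by
    have : 0 < finrank F A := Module.finrank_pos
    exact_mod_cast this.ne'
  have h4 : (finrank K A : K) = (finrank K F : K) * (finrank F A : K) := by
    rw [h2]; push_cast; rfl
  rw [h4] at h1
  have h5 : (finrank F A : K) * ((finrank K F : K) * τ (f : A))
      = (finrank F A : K) * regTrace F f := by
    have h6 := h1
    calc (finrank F A : K) * ((finrank K F : K) * τ (f : A))
        = (finrank K F : K) * (finrank F A : K) * τ (f : A) := by ring
      _ = _ := h6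
  exact mul_left_cancel₀ h3 h5

end Regular

/-! ### (B2) -/

/-- (B2) a subalgebra with centraliser `K` is everything. -/
theorem eq_top_of_centralizer_le_bot
    (hC : ∀ a : A, (∀ x, a * x = x * a) → ∃ c : K, a = algebraMap K A c)
    (S : Subalgebra K A) (hS : centDiv S ≤ ⊥) : S = ⊤ := by
  have h1 : centDiv S = ⊥ := le_bot_iff.1 hS
  have h2 := centDiv_centDiv hC S
  rw [h1] at h2
  rw [← h2, eq_top_iff]
  intro x _
  rw [mem_centDiv]
  intro b hb
  obtain ⟨c, rfl⟩ := Algebra.mem_bot.1 hb
  exact Algebra.commutes c x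

/-! ### (B4) power sums determine minimal polynomials -/

section Power

include hτ in
/-- (B4) General form.  Let `τ₀` be any linear form on a `K₀`-algebra `A₀`, `K₀ → K`.  If `τ (θ^k)` is
the image of `τ₀ (θ₀^k)` for all `k`, then every polynomial over `K₀` killing `θ₀` kills `θ`. -/
theorem aeval_eq_zero_of_trace_pow {K₀ A₀ : Type*} [Field K₀] [Ring A₀] [Algebra K₀ A₀]
    (τ₀ : A₀ →ₗ[K₀] K₀) [Algebra K₀ K] [Algebra K₀ A] [IsScalarTower K₀ K A]
    (θ₀ : A₀) (θ : A) (h : ∀ k : ℕ, τ (θ ^ k) = algebraMap K₀ K (τ₀ (θ₀ ^ k)))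
    (P : K₀[X]) (hP : aeval θ₀ P = 0) : aeval θ P = 0 := by
  have step1 : ∀ Q : K₀[X], τ (aeval θ Q) = algebraMap K₀ K (τ₀ (aeval θ₀ Q)) := by
    intro Q
    induction Q using Polynomial.induction_on' with
    | add p q hp hq => simp only [map_add, hp, hq]
    | monomial n c =>
      rw [aeval_monomial, aeval_monomial, ← Algebra.smul_def, ← Algebra.smul_def,
        ← algebraMap_smul K c (θ ^ n), map_smul, map_smul, h, smul_eq_mul, smul_eq_mul, map_mul]
  have step2 : ∀ k : ℕ, τ (aeval θ P * θ ^ k) = 0 := by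
    intro k
    have h1 := step1 (P * X ^ k)
    have e1 : aeval θ (P * X ^ k) = aeval θ P * θ ^ k := by simp
    have e0 : aeval θ₀ (P * X ^ k) = 0 := by simp [hP]
    rw [e1, e0, map_zero, map_zero] at h1
    exact h1
  have step3 : ∀ R : K[X], τ (aeval θ P * aeval θ R) = 0 := by
    intro R
    induction R using Polynomial.induction_on' with
    | add p q hp hq => rw [map_add, mul_add, map_add, hp, hq, add_zero]
    | monomial n c =>
      rw [aeval_monomial, ← Algebra.smul_def, mul_smul_comm, map_smul, step2, smul_zero]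
  by_contra hne
  have hmem : aeval θ P ∈ Algebra.adjoin K ({θ} : Set A) := by
    rw [← aeval_map_algebraMap K θ P, Algebra.adjoin_singleton_eq_range_aeval]
    exact ⟨_, rfl⟩
  have hinv := inv_mem_subalgebra _ hmem
  rw [Algebra.adjoin_singleton_eq_range_aeval] at hinv
  obtain ⟨R, hR⟩ := hinv
  have h3 := step3 R
  rw [show aeval θ R = (aeval θ P)⁻¹ from hR, mul_inv_cancel₀ hne, hτ.one] at h3
  exact one_ne_zero h3

include hτ in
/-- (B4) same normalised power sums, same minimal polynomial. -/
theorem minpoly_eq_of_trace_pow (θ θ' : A) (h : ∀ k : ℕ, τ (θ ^ k) = τ (θ' ^ k)) :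
    minpoly K θ = minpoly K θ' := by
  have hi : IsIntegral K θ := IsIntegral.of_finite K θ
  have hi' : IsIntegral K θ' := IsIntegral.of_finite K θ'
  have h1 : minpoly K θ ∣ minpoly K θ' := by
    apply minpoly.dvd
    exact aeval_eq_zero_of_trace_pow hτ τ θ' θ (by simpa using h) _ (minpoly.aeval K θ')
  have h2 : minpoly K θ' ∣ minpoly K θ := by
    apply minpoly.dvd
    exact aeval_eq_zero_of_trace_pow hτ τ θ θ' (by simpa using fun k => (h k).symm) _
      (minpoly.aeval K θ)
  exact Polynomial.eq_of_monic_of_associated (minpoly.monic hi) (minpoly.monic hi')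
    (associated_of_dvd_dvd h1 h2)

end Power

/-! ### (B5) the derivation formula -/

section Derivation

variable (D : A →+ A) (hD : ∀ x y, D (x * y) = D x * y + x * D y)
  (d : K →+ K) (hd : ∀ c, D (algebraMap K A c) = algebraMap K A (d c))

/-- The polynomial obtained by applying `d` to the coefficients. -/
noncomputable def coefDer (d : K →+ K) (P : K[X]) : K[X] :=
  P.sum fun i c => monomial i (d c)

theorem coefDer_add (P Q : K[X]) : coefDer d (P + Q) = coefDer d P + coefDer d Q := by
  unfold coefDer
  rw [Polynomial.sum_add_index]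
  · intro i
    simp
  · intro i a b
    simp

theorem coefDer_monomial (n : ℕ) (c : K) : coefDer d (monomial n c) = monomial n (d c) := by
  unfold coefDer
  rw [Polynomial.sum_monomial_index]
  simp

/-- The commutant of `H`. -/
abbrev cH (H : A) : Subalgebra K A := Subalgebra.centralizer K ({H} : Set A)

theorem self_mem_cH (H : A) : H ∈ cH (K := K) H := by
  rw [Subalgebra.mem_centralizer_iff]
  simp

theorem comm_of_mem_cH {H x : A} (hx : x ∈ cH (K := K) H) : H * x = x * H := by
  rw [Subalgebra.mem_centralizer_iff] at hx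
  exact hx H (by simp)

include hD in
/-- `e (D (H^n)) = n H^(n-1) e (D H)`. -/
theorem eProj_der_pow (H : A) (n : ℕ) :
    eProj hτ (cH H) (D (H ^ (n + 1))) =
      ((n + 1 : ℕ) : A) * H ^ n * eProj hτ (cH H) (D H) := by
  have hH := self_mem_cH (K := K) H
  induction n with
  | zero => simp
  | succ n ih =>
    have hc := comm_of_mem_cH (eProj_mem hτ (cH H) (D H))
    rw [pow_succ H (n + 1), hD, map_add, eProj_mul_right hτ _ hH, ih,
      eProj_mul_left hτ _ (pow_mem hH _)]
    have h1 : H ^ n * eProj hτ (cH H) (D H) * H = H ^ (n + 1) * eProj hτ (cH H) (D H) := by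
      rw [mul_assoc, ← hc, ← mul_assoc, pow_succ]
    rw [mul_assoc ((n + 1 : ℕ) : A) (H ^ n), mul_assoc ((n + 1 : ℕ) : A), h1,
      mul_assoc ((n + 1 + 1 : ℕ) : A)]
    push_cast
    simp only [add_mul, one_mul]

include hD hd in
/-- (B5) `e (D (P(H))) = (D_c P)(H) + P'(H) e (D H)`, any polynomial `P`. -/
theorem eProj_der (H : A) (P : K[X]) :
    eProj hτ (cH H) (D (aeval H P)) =
      aeval H (coefDer d P) + aeval H (derivative P) * eProj hτ (cH H) (D H) := by
  have hH := self_mem_cH (K := K) H
  induction P using Polynomial.induction_on' with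
  | add p q hp hq =>
    rw [map_add, map_add, map_add, hp, hq, coefDer_add, map_add, derivative_add, map_add, add_mul]
    abel
  | monomial n c =>
    rw [aeval_monomial, hD, hd, map_add, coefDer_monomial, aeval_monomial,
      eProj_mul_left hτ _ ((cH H).algebraMap_mem c), eProj_of_mem hτ _
        ((cH H).mul_mem ((cH H).algebraMap_mem _) (pow_mem hH _))]
    congr 1
    rw [derivative_monomial]
    cases n with
    | zero =>
      have h0 : D (1 : A) = 0 := by
        have := hD 1 1
        simpa using this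
      simp [h0]
    | succ n =>
      rw [eProj_der_pow hτ D hD H n, aeval_monomial]
      simp only [Nat.add_sub_cancel, map_mul, map_natCast]
      simp only [mul_assoc]

include hD hd in
/-- (B5) `P(H) = 0` ⇒ `(D_c P)(H) + P'(H) e (D H) = 0`. -/
theorem eProj_der_of_root (H : A) (P : K[X]) (hP : aeval H P = 0) :
    aeval H (coefDer d P) + aeval H (derivative P) * eProj hτ (cH H) (D H) = 0 := by
  have := eProj_der hτ D hD d hd H P
  rw [hP, map_zero, map_zero] at this
  exact this.symm

/-- `P'(H) ≠ 0` for the minimal polynomial in characteristic 0. -/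
theorem aeval_derivative_minpoly_ne_zero [CharZero K] (H : A) :
    aeval H (derivative (minpoly K H)) ≠ 0 := by
  intro h0
  have hi : IsIntegral K H := IsIntegral.of_finite K H
  have hdvd := minpoly.dvd K H h0
  have hne : minpoly K H ≠ 0 := minpoly.ne_zero hi
  have hlt := Polynomial.degree_derivative_lt hne
  have h1 : derivative (minpoly K H) = 0 := Polynomial.eq_zero_of_dvd_of_degree_lt hdvd hlt
  have h2 := Polynomial.derivative_eq_zero.1 h1
  have h3 := minpoly.natDegree_pos hi
  omega

include hD hd in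
/-- (B5) the formula `e (D H) = - P'(H)⁻¹ (D_c P)(H)`. -/
theorem eProj_der_eq [CharZero K] (H : A) :
    eProj hτ (cH H) (D H) =
      -((aeval H (derivative (minpoly K H)))⁻¹ * aeval H (coefDer d (minpoly K H))) := by
  have h1 := eProj_der_of_root hτ D hD d hd H (minpoly K H) (minpoly.aeval K H)
  have h2 := aeval_derivative_minpoly_ne_zero (K := K) H
  have h3 : aeval H (derivative (minpoly K H)) * eProj hτ (cH H) (D H)
      = - aeval H (coefDer d (minpoly K H)) := by
    exact eq_neg_of_add_eq_zero_right h1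
  rw [← mul_neg, ← h3, inv_mul_cancel_left₀ h2]

include hD hd in
/-- (B5) `e (D H) ∈ K[H]`. -/
theorem eProj_der_mem [CharZero K] (H : A) :
    eProj hτ (cH H) (D H) ∈ Algebra.adjoin K ({H} : Set A) := by
  rw [eProj_der_eq hτ D hD d hd H]
  apply neg_mem
  apply Subalgebra.mul_mem
  · apply inv_mem_subalgebra
    rw [Algebra.adjoin_singleton_eq_range_aeval]
    exact ⟨_, rfl⟩
  · rw [Algebra.adjoin_singleton_eq_range_aeval]
    exact ⟨_, rfl⟩

include hD hd in
/-- (B5) a derivation killing the coefficients of the minimal polynomial: `e (D H) = 0`. -/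
theorem eProj_der_eq_zero [CharZero K] (H : A)
    (hk : ∀ i, d ((minpoly K H).coeff i) = 0) : eProj hτ (cH H) (D H) = 0 := by
  have h0 : coefDer d (minpoly K H) = 0 := by
    unfold coefDer Polynomial.sum
    apply Finset.sum_eq_zero
    intro i _
    change monomial i (d _) = 0
    rw [hk i, map_zero]
  rw [eProj_der_eq hτ D hD d hd H, h0]
  simp

end Derivation

end Crest.Agent.Kurosh.CentFacts
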