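/-
S0270, blueprint v3 §G, §B5 (helper94): facts on the invariants of `Inv.lean`, using `CentFacts.lean`.

`P : State.Pt F K A (Fin 2)` with `A` a f.d. division algebra and `τ 1 = 1`.
* `e_eq_eProj`: the splitting projection of `P` is the `τ`-orthogonal projection onto `C(β_l)`.
* `eIm_eq_map`: `eIm` is the image under the orthogonal projection.
* `derCoef`: a derivation with `D K ⊂ K` induces an additive map on `K`.
* `e_der_mem_adjoin` (B5): for `t = Dρ`, `Π_l t ∈ K[β_l]`; `Mov_le_adjoin`: `Smooth(l) ⇒ Mov_l ⊂ K[β_l]`.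
* `e_der_eq_zero_iff`: for `t = Dρ`, `Π_l t = 0` iff `D` kills the coefficients of the minimal polynomial.
-/
import Crest.Agent.Kurosh.Inv
import Crest.Agent.Kurosh.CentFacts

set_option autoImplicit false

namespace Crest.Agent.Kurosh.Inv

open State Module Polynomial CentFacts

variable {F K A : Type*} [Field F] [Field K] [DivisionRing A] [Algebra F K] [Algebra K A]
  [Algebra F A] [IsScalarTower F K A]

namespace St

variable (P : Pt F K A (Fin 2))

/-- The trace form of a point in `Valued` form. -/
theorem isTraceForm (h1 : P.τ 1 = 1) : Valued.IsTraceForm P.τ :=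
  isTraceForm_of P.τ_comm h1

variable [FiniteDimensional K A]

/-- The splitting projection is the orthogonal projection. -/
theorem e_eq_eProj (h1 : P.τ 1 = 1) (l : ℕ) (x : A) :
    P.e l x = eProj (isTraceForm P h1) (cH (K := K) (P.β l)) x := by
  symm
  apply eProj_unique
  · rw [Subalgebra.mem_centralizer_iff]
    intro g hg
    rw [Set.mem_singleton_iff] at hg
    subst hg
    exact P.e_mem l x
  · intro f hf
    have hf' : P.β l * f = f * P.β l := comm_of_mem_cH hf
    exact P.τ_cent_e hf' x

/-- `eIm` (no choice) is the image under the orthogonal projection. -/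
theorem eIm_eq_map (h1 : P.τ 1 = 1) (E : Subalgebra K A) (W : Submodule K A) :
    eIm P (Subalgebra.toSubmodule E) W =
      W.map (eProj (isTraceForm P h1) E) := by
  ext f
  constructor
  · rintro ⟨hf, z, hz, h⟩
    refine ⟨z, hz, ?_⟩
    apply eProj_unique _ _ hf
    intro g hg
    rw [P.τ_comm g, P.τ_comm g]
    exact h g hg
  · rintro ⟨z, hz, rfl⟩
    refine ⟨eProj_mem _ _ _, z, hz, fun g hg => ?_⟩
    exact trace_eProj_mul (isTraceForm P h1) E hg z

omit [FiniteDimensional K A] in
/-- A derivation with `D K ⊂ K` induces an additive map on `K`. -/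
theorem exists_derCoef {D : A → A} (hadd : ∀ x y, D (x + y) = D x + D y)
    (hK : ∀ c : K, ∃ c' : K, D (algebraMap K A c) = algebraMap K A c') :
    ∃ d : K →+ K, ∀ c, D (algebraMap K A c) = algebraMap K A (d c) := by
  choose d hd using hK
  refine ⟨⟨⟨d, ?_⟩, ?_⟩, hd⟩
  · apply (algebraMap K A).injective
    have h0 : D (algebraMap K A 0) = D (algebraMap K A 0) + D (algebraMap K A 0) := by
      rw [← hadd, map_zero, add_zero]
    have h2 : D (algebraMap K A 0) = 0 := by simpa using h0
    rw [← hd, h2, map_zero]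
  · intro x y
    apply (algebraMap K A).injective
    rw [← hd, map_add, map_add, hadd, hd, hd]

variable [CharZero K]

/-- (B5) for `t = Dρ`: `Π_l t ∈ K[β_l]`. -/
theorem e_der_mem_adjoin (h1 : P.τ 1 = 1) {D : A → A} (hD : IsDer (F := F) D)
    (hK : ∀ c : K, ∃ c' : K, D (algebraMap K A c) = algebraMap K A c') (l : ℕ) :
    P.e l (P.dL l (fun v => D (P.ρ v))) ∈ Algebra.adjoin K ({P.β l} : Set A) := by
  obtain ⟨d, hd⟩ := exists_derCoef hD.add hK
  have hdβ : P.dL l (fun v => D (P.ρ v)) = D (P.β l) := (der_ev hD P.ρ (P.a l)).symm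
  rw [hdβ, e_eq_eProj P h1]
  let DD : A →+ A :=
    { toFun := D
      map_zero' := hD.zero
      map_add' := hD.add }
  exact eProj_der_mem (isTraceForm P h1) DD hD.mul d hd (P.β l)

/-- (B5) for `t = Dρ`: `Π_l t = 0` iff `D` kills the coefficients of the minimal polynomial of `β_l`
over `K` (for the coefficient map `d` of `D`). -/
theorem e_der_eq_zero_iff (h1 : P.τ 1 = 1) {D : A → A} (hD : IsDer (F := F) D) {d : K →+ K}
    (hd : ∀ c, D (algebraMap K A c) = algebraMap K A (d c)) (l : ℕ) :
    P.e l (P.dL l (fun v => D (P.ρ v))) = 0 ↔ ∀ i, d ((minpoly K (P.β l)).coeff i) = 0 := by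
  have hdβ : P.dL l (fun v => D (P.ρ v)) = D (P.β l) := (der_ev hD P.ρ (P.a l)).symm
  let DD : A →+ A :=
    { toFun := D
      map_zero' := hD.zero
      map_add' := hD.add }
  have hmul : ∀ x y, DD (x * y) = DD x * y + x * DD y := hD.mul
  have hd' : ∀ c, DD (algebraMap K A c) = algebraMap K A (d c) := hd
  rw [hdβ, e_eq_eProj P h1]
  constructor
  · intro h0 i
    set M := minpoly K (P.β l) with hM
    have hi : IsIntegral K (P.β l) := IsIntegral.of_finite K _
    have hmon : M.Monic := minpoly.monic hi
    have h2 := eProj_der_of_root (isTraceForm P h1) DD hmul d hd' (P.β l) M (minpoly.aeval K _)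
    have h3 : eProj (isTraceForm P h1) (cH (K := K) (P.β l)) (DD (P.β l)) = 0 := h0
    rw [h3, mul_zero, add_zero] at h2
    -- `coefDer d M` has smaller degree, so it vanishes
    have hcoeff : ∀ j, (coefDer d M).coeff j = d (M.coeff j) := by
      intro j
      unfold coefDer Polynomial.sum
      rw [Polynomial.finsetSum_coeff]
      simp only [Polynomial.coeff_monomial]
      rw [Finset.sum_ite_eq' M.support j]
      split_ifs with hj
      · rfl
      · have : M.coeff j = 0 := by simpa using hj
        rw [this, map_zero]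
    have hD1 : D 1 = 0 := by
      have := hD.mul 1 1
      simpa using this
    have hd1 : d 1 = 0 := by
      apply (algebraMap K A).injective
      rw [← hd, map_one, map_zero, hD1]
    have hdeg : (coefDer d M).degree < M.degree := by
      rw [Polynomial.degree_eq_natDegree hmon.ne_zero, Polynomial.degree_lt_iff_coeff_zero]
      intro j hj
      rw [hcoeff]
      rcases hj.lt_or_eq with hlt | heq
      · rw [Polynomial.coeff_eq_zero_of_natDegree_lt hlt, map_zero]
      · rw [← heq, Polynomial.Monic.coeff_natDegree hmon, hd1]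
    have hz : coefDer d M = 0 := Polynomial.eq_zero_of_dvd_of_degree_lt (minpoly.dvd K _ h2) hdeg
    rw [← hcoeff, hz, Polynomial.coeff_zero]
  · intro hk
    exact eProj_der_eq_zero (isTraceForm P h1) DD hmul d hd' (P.β l) hk

/-- `Smooth(l)`: `Mov_l ⊂ K[β_l]`. -/
theorem Mov_le_adjoin (h1 : P.τ 1 = 1) {l : ℕ} (hS : Smooth P l) :
    P.Mov l ≤ Subalgebra.toSubmodule (Algebra.adjoin K ({P.β l} : Set A)) := by
  intro x hx
  obtain ⟨t, ht, rfl⟩ := P.mem_Mov.1 hx
  obtain ⟨D, hD, hK, rfl⟩ := hS t ht
  exact e_der_mem_adjoin P h1 hD hK l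

end St

end Crest.Agent.Kurosh.Inv
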