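/-
S0270 (Kurosh), blueprint v3 (helper62): the test level-up, in one statement.

* `obs_eq_zero_of_exact`, `moves_T0`: effect-free moves (in `T0`) at the order of a solution;
* `test_run`: from a partial solution for the prefix `l`, an exact level-up `X` with all the
  consequences of `Val l l`: `Fresh`, `Valid`, `Smooth`, `CB`, `Above`, `Mov_l(X) ⊂ K'[β_l(X)]`.
-/
import Crest.Agent.Kurosh.FreshEx
import Crest.Agent.Kurosh.InvFacts

set_option autoImplicit false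
set_option linter.unusedSectionVars false

namespace Crest.Agent.Kurosh.TestRun

open Hensel State Module LU
open _root_.Crest.Agent.Kurosh.Inv
open _root_.Crest.Agent.Kurosh.Inv.St

section Moves

variable {M K A R : Type*} [AddCommGroup M] [DecidableEq M] [Field K] [Ring A] [Algebra K A] [Ring R]
  [Algebra K R] {L : Lev M K A R} {F : Type*} [Field F] [Algebra F K] [Algebra F A]
  [IsScalarTower F K A] [Algebra F R] [IsScalarTower F K R] {ι : Type*} {P : Pt F K A ι}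
  {k : ℕ} {t1 t2 : ι → A} {X : ι → R} {g : ℕ → R} [FiniteDimensional K A]

/-- The obstructions of a solution vanish. -/
lemma obs_eq_zero_of_exact (hex : ∀ J, L.PSol P k J t1 t2 X g) (m : M) (j : ℕ) (c : ℕ → A) :
    L.Obs P k m j X g c = 0 := by
  rw [Lev.Obs_apply]
  refine Finset.sum_eq_zero fun i hi => ?_
  have h : L.E P X g i = 0 := sub_eq_zero.mpr (Lev.exact_of_PSol hex (Finset.mem_range.mp hi))
  rw [h, map_zero, mul_zero, map_zero]

variable [CharZero K]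

/-- **Effect-free moves.** Finitely many moves at order `j`, in `T0` (no effect on the obstruction):
if the obstructions of order `j + 1` vanish on `𝕂` before, they vanish after, and the point is a
partial solution of order `j + 2` after adding terms of order `j + 1`. -/
theorem moves_T0 {j : ℕ} (hj : 2 ≤ j) (h : L.PSol P k (j + 1) t1 t2 X g)
    (hO : ∀ m : M, ∀ c ∈ P.KK k, L.Obs P k m (j + 1) X g c = 0)
    (hS : ∀ c ∈ P.KK k, ∀ τ' ∈ P.T k, P.SS k c t1 τ' = 0 ∧ P.SS k c t2 τ' = 0)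
    (s : Finset M) (τ : M → ι → A) (hτ : ∀ m, τ m ∈ P.T k)
    (h0 : ∀ m, ∀ c ∈ P.KK k, P.PP k c t1 (τ m) = 0 ∧ P.PP k c t2 (τ m) = 0) :
    ∃ (Sa : Finset M) (tt : M → ι → A) (ww : M → ℕ → A),
      L.PSol P k (j + 2) t1 t2 (L.addX (L.addX X s τ j) Sa tt (j + 1))
        (L.addg (L.addg g s (fun m i => P.w i (τ m)) j) Sa ww (j + 1)) := by
  have h₁ := h.addT hj τ hτ s
  obtain ⟨Sa, tt, ww, h₂, -⟩ := h₁.solve_all (by omega) (fun m c hc => by
    rw [h.Obs_addT hj τ hτ hS s hc m, hO m c hc, (h0 m c hc).1, (h0 (m - L.μ₁) c hc).2]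
    simp)
  exact ⟨Sa, tt, ww, h₂⟩

end Moves

section Top

open LU.Tw0 LU.Tw Plan

variable [Tw0] [Tw] {F : Subfield U} [CentF F]

/-- **The test level-up.** -/
theorem test_run {l : ℕ} (h1 : Orc F l) (h2 : Val F l l) (Ls : Lst F) (n : ℕ) [Fact (F ≤ Kn n)]
    (ρ : Stt n) (r : ℕ) (S : ℕ → Set (An n)) (TT : Submodule (Kn n) (Fin 2 → An n))
    (hlr : l < r) (hC : Ctx F Ls n ρ l r S TT) (t1 t2 : Fin 2 → An n)
    (hA : Adm (pt F n ρ Ls.a) l TT t1 t2) (J : ℕ) (hJ : 2 ≤ J) (X0 : Stt (n + 1))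
    (g0 : ℕ → An (n + 1)) (h0 : (lv n).lev.PSol (pt F n ρ Ls.a) l (J + 1) t1 t2 X0 g0) :
    ∃ (X : Stt (n + 1)) (g : ℕ → An (n + 1)) (S' : ℕ → Set (An (n + 1))),
      (∀ J', (lv n).lev.PSol (pt F n ρ Ls.a) l J' t1 t2 X g) ∧
      (∀ v, X v - X0 v ∈ (lv n).lev.Φ.fil J) ∧
      (∀ i, g i - g0 i ∈ (lv n).lev.Φ.fil J) ∧
      Fresh F Ls n ρ l t1 t2 ((pt F n ρ Ls.a).T l) X ((pt F (n + 1) X Ls.a).T l) ∧
      Valid (pt F (n + 1) X Ls.a) (N (n + 1)) Ls.R Ls.Q l l S' ((pt F (n + 1) X Ls.a).T l) ∧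
      Smooth (pt F (n + 1) X Ls.a) l ∧
      (∀ u < l, (lv n).m ^ 2 * finrank (Kn n) (PPl (pt F n ρ Ls.a) S u) ≤
        finrank (Kn (n + 1)) (PPl (pt F (n + 1) X Ls.a) S' u)) ∧
      (∀ u < l, ∀ c ∈ (pt F (n + 1) X Ls.a).KK (u + 1), c u ∉ PPl (pt F (n + 1) X Ls.a) S' u →
        (lv n).m ^ 2 * qS Ls.R l ≤ rkOn (pt F (n + 1) X Ls.a) l c ((pt F (n + 1) X Ls.a).T l)) ∧
      (∀ u < l, finrank (Kn (n + 1)) (RR (pt F (n + 1) X Ls.a) S' u) =
        finrank (Kn (n + 1)) ((pt F (n + 1) X Ls.a).Mov u) + (Ls.R u).q) ∧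
      UpStep ⟨n, ρ⟩ ⟨n + 1, X⟩ ∧
      (∀ u < r, Above (Ls.Z0 u) ⟨n + 1, X⟩) ∧
      CB (pt F (n + 1) X Ls.a) (N (n + 1)) Ls.R l ∧
      (pt F (n + 1) X Ls.a).Mov l ≤
        Subalgebra.toSubmodule (Algebra.adjoin (Kn (n + 1)) ({(pt F (n + 1) X Ls.a).β l} : Set _)) := by
  have hV := hC.valid
  have hTT : TT ≤ (pt F n ρ Ls.a).T l := hV.TT_le.trans ((pt F n ρ Ls.a).T_anti hV.le)
  obtain ⟨X, g, TTX, hex, hXc, hgc, hFr⟩ := FreshEx.exists_fresh Ls n ρ l r S TT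
    ((pt F n ρ Ls.a).T l) hC t1 t2 hA hTT le_rfl h1 J hJ X0 g0 h0
  obtain ⟨S', hV', hP, hR, hT, hS⟩ := h2 Ls n ρ r S TT ((pt F n ρ Ls.a).T l) hC t1 t2 hA hTT le_rfl
    X g TTX hex hFr
  obtain ⟨hSm, rfl⟩ := hS rfl rfl
  have hup : UpStep ⟨n, ρ⟩ ⟨n + 1, X⟩ := by
    refine UpStep.mk n ρ X fun v => ?_
    have a1 := (lv n).lev.Φ.anti (Nat.le_succ 1) ((hex 0).leadX v)
    have a2 := (lv n).lev.mono_mem (t1 v) 0 1
    have a3 := (lv n).lev.mono_mem (t2 v) (lv n).lev.μ₁ 1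
    have := add_mem (add_mem a1 a2) a3
    convert this using 1
    abel
  have hAb : ∀ u < r, Above (Ls.Z0 u) ⟨n + 1, X⟩ := fun u hu =>
    Relation.ReflTransGen.tail (hC.above u hu) hup
  have hCB := hC.opt l hlr (n + 1) X S' (hAb l hlr) hV' hSm
  refine ⟨X, g, S', hex, hXc, hgc, hFr, hV', hSm, hP, hR, hT, hup, hAb, hCB, ?_⟩
  exact Mov_le_adjoin (pt F (n + 1) X Ls.a) hV'.one hSm

end Top

end Crest.Agent.Kurosh.TestRun
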