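/-
S0270 (helper89): the Key Lemma (blueprint §I): `ub_of`, `key_of` of `Plan.lean`.
-/
import Crest.Agent.Kurosh.KeyTest3
import Crest.Agent.Kurosh.TestRun
import Crest.Agent.Kurosh.AdmExist
import Crest.Agent.Kurosh.PropIHens

set_option autoImplicit false
set_option linter.unusedSectionVars false

namespace Crest.Agent.Kurosh.KeyV3

open Hensel State Module LU LU.Tw0 LU.Tw Plan LeadVN LeadVN.LvData
open _root_.Crest.Agent.Kurosh.Inv
open _root_.Crest.Agent.Kurosh.Inv.St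

section AbstractLev

variable {M K A R : Type*} [AddCommGroup M] [DecidableEq M] [Field K] [Ring A] [Algebra K A] [Ring R]
  [Algebra K R] (L : Lev M K A R)
variable {F ι : Type*} [Field F] [Algebra F K] [Algebra F A] [IsScalarTower F K A] [Algebra F R]
  [IsScalarTower F K R]

lemma d1_sub_mono {ρ : ι → A} {X t : ι → R} {τ₀ : ι → A} {n : M} {j : ℕ}
    (hX : ∀ v, X v - L.inc (ρ v) ∈ L.Φ.fil 1) (ht : ∀ v, t v - L.mono (τ₀ v) n j ∈ L.Φ.fil (j + 1))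
    (a : FreeAlgebra F ι) :
    State.d1 X t a - L.mono (State.d1 ρ τ₀ a) n j ∈ L.Φ.fil (j + 1) := by
  set ρR : ι → R := fun v => L.inc (ρ v) with hρR
  have h0 : ∀ v, ρR v ∈ L.Φ.fil 0 := fun v => L.inc_mem _
  set V : ι → R := fun v => X v - ρR v with hV
  have hVm : ∀ v, V v ∈ L.Φ.fil 1 := hX
  have htj : ∀ v, t v ∈ L.Φ.fil j := fun v => by
    have := add_mem (L.Φ.anti (Nat.le_succ j) (ht v)) (L.mono_mem (τ₀ v) n j)
    rwa [sub_add_cancel] at this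
  have hXe : X = ρR + V := by
    funext v
    simp [hV]
  have h1 := Calculus.pd_taylor0 (F := F) L.Φ L.coef_mem h0 hVm htj a
  rw [← hXe, add_comm 1 j] at h1
  have h2 := Calculus.pd_mem (F := F) L.Φ L.coef_mem h0 (t := fun v => t v - L.mono (τ₀ v) n j) ht a
  have h3 : Calculus.pd ρR (fun v => t v - L.mono (τ₀ v) n j) a =
      Calculus.pd ρR t a - L.mono (State.d1 ρ τ₀ a) n j := by
    rw [← L.pd_mono ρ τ₀ n j a, ← Calculus.pd_dir_sub]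
    rfl
  rw [h3] at h2
  have h4 := add_mem h1 h2
  rw [← pd_eq_d1]
  convert h4 using 1
  abel

/-- The move of the frame. -/
lemma E_move {P : State.Pt F K A ι} {X X' : ι → R} {gl : R} {τ₀ : ι → A} {n1 : M} {j i : ℕ}
    (hj : 1 ≤ j) (hX : ∀ v, X v - L.inc (P.ρ v) ∈ L.Φ.fil 1) (hgl : gl - 1 ∈ L.Φ.fil 1)
    (hX' : ∀ v, X' v - (X v + L.mono (τ₀ v) n1 j) ∈ L.Φ.fil (j + 1)) :
    (ev X' (P.a i) * (gl + L.mono (P.w i τ₀) n1 j) - (gl + L.mono (P.w i τ₀) n1 j) * L.inc (P.β i))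
      - (ev X (P.a i) * gl - gl * L.inc (P.β i))
      - L.mono (P.e i (P.dL i τ₀)) n1 j ∈ L.Φ.fil (j + 1) := by
  have hmτ : ∀ v, X' v - X v ∈ L.Φ.fil j := fun v => by
    have := add_mem (L.Φ.anti (Nat.le_succ j) (hX' v)) (L.mono_mem (τ₀ v) n1 j)
    convert this using 1
    abel
  have hmw : (gl + L.mono (P.w i τ₀) n1 j) - gl ∈ L.Φ.fil j := by
    rw [add_sub_cancel_left]
    exact L.mono_mem _ _ _
  have h1 : (ev X' (P.a i) * (gl + L.mono (P.w i τ₀) n1 j) -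
        (gl + L.mono (P.w i τ₀) n1 j) * L.inc (P.β i))
      - (ev X (P.a i) * gl - gl * L.inc (P.β i))
      - (Calculus.pd (fun v => L.inc (P.ρ v)) (X' - X) (P.a i)
          + (L.inc (P.β i) * ((gl + L.mono (P.w i τ₀) n1 j) - gl)
            - ((gl + L.mono (P.w i τ₀) n1 j) - gl) * L.inc (P.β i))) ∈ L.Φ.fil (j + 1) :=
    L.E_first_order (F := F) (ρ := P.ρ) (a := P.a i) hj hX hgl hmτ hmw
  have h2 := d1_sub_mono (F := F) L (ρ := P.ρ) (X := fun v => L.inc (P.ρ v))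
    (t := X' - X) (τ₀ := τ₀) (n := n1) (j := j)
    (fun v => by simp)
    (fun v => by
      have := hX' v
      convert this using 1
      simp only [Pi.sub_apply]
      abel)
    (P.a i)
  have h3 : L.inc (P.β i) * ((gl + L.mono (P.w i τ₀) n1 j) - gl) -
      ((gl + L.mono (P.w i τ₀) n1 j) - gl) * L.inc (P.β i) =
      L.mono (P.β i * P.w i τ₀ - P.w i τ₀ * P.β i) n1 j := by
    rw [add_sub_cancel_left, L.inc_mul_mono, L.mono_mul_inc, L.mono_sub]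
  rw [h3] at h1
  rw [← pd_eq_d1] at h2
  have h4 := add_mem h1 h2
  have h5 : L.mono (P.e i (P.dL i τ₀)) n1 j =
      L.mono (State.d1 P.ρ τ₀ (P.a i)) n1 j +
        L.mono (P.β i * P.w i τ₀ - P.w i τ₀ * P.β i) n1 j := by
    rw [← L.mono_add, ← P.dL_add_comm_w]
    rfl
  rw [h5]
  convert h4 using 1
  abel

variable {L}
variable {k : ℕ} {t1 t2 : ι → A} {X : ι → R} {g : ℕ → R} {P : State.Pt F K A ι}

/-- Moving an exact solution by `τ₀ ∈ T`, effect-free, at `(n1,j)` and correcting at order `j+1`. -/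
theorem moved_solve [FiniteDimensional K A] [CharZero K] {j : ℕ} (hX : ∀ J, L.PSol P k J t1 t2 X g)
    (hj : 2 ≤ j) {τ₀ : ι → A} (hτ₀ : τ₀ ∈ P.T k)
    (hS : ∀ c ∈ P.KK k, ∀ τ' ∈ P.T k, P.SS k c t1 τ' = 0 ∧ P.SS k c t2 τ' = 0)
    (hP : ∀ c ∈ P.KK k, P.PP k c t1 τ₀ = 0 ∧ P.PP k c t2 τ₀ = 0) (n1 : M) :
    ∃ (S : Finset M) (tt : M → ι → A) (ww : M → ℕ → A),
      L.PSol P k (j + 2) t1 t2 (L.addX (L.mvX X τ₀ n1 j) S tt (j + 1))
        (L.addg (L.mvg g (fun i => P.w i τ₀) n1 j) S ww (j + 1)) := by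
  have h1 := (hX (j + 1)).mv_T hj hτ₀ n1
  have hO : ∀ m : M, ∀ c ∈ P.KK k, L.Obs P k m (j + 1) (L.mvX X τ₀ n1 j)
      (L.mvg g (fun i => P.w i τ₀) n1 j) c = 0 := by
    intro m c hc
    rw [(hX (j + 1)).Obs_move_T hj n1 m τ₀ (hS c hc τ₀ hτ₀).1 (hS c hc τ₀ hτ₀).2,
      Lev.Obs_eq_zero_of_coeff (fun i hi => L.coeff_fil ((hX (j + 2)).E_mem i hi) (by omega)),
      (hP c hc).1, (hP c hc).2]
    simp
  obtain ⟨S, tt, ww, h2, -⟩ := h1.solve_all (by omega) hO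
  exact ⟨S, tt, ww, h2⟩

end AbstractLev

section Tower

variable [Tw0] [Tw] {F : Subfield U} [CentF F]

lemma X_sub_inc {m : ℕ} [Fact (F ≤ Kn m)] {P : Pt F (Kn m) (An m) (Fin 2)} {k : ℕ}
    {t1 t2 : Fin 2 → An m} {X : Stt (m + 1)} {g : ℕ → An (m + 1)}
    (hP : ∀ J, (lv m).lev.PSol P k J t1 t2 X g) (v : Fin 2) :
    X v - (lv m).lev.inc (P.ρ v) ∈ (lv m).lev.Φ.fil 1 := by
  have h := (hP 2).leadX v
  have h1 : (lv m).lev.Φ.fil 2 ≤ (lv m).lev.Φ.fil 1 := (lv m).lev.Φ.anti (by norm_num)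
  have h2 : (lv m).lev.mono (t1 v) 0 1 ∈ (lv m).lev.Φ.fil 1 := (lv m).lev.mono_mem _ _ _
  have h3 : (lv m).lev.mono (t2 v) (lv m).lev.μ₁ 1 ∈ (lv m).lev.Φ.fil 1 := (lv m).lev.mono_mem _ _ _
  have := (lv m).lev.Φ.fil 1 |>.add_mem (h1 h) ((lv m).lev.Φ.fil 1 |>.add_mem h2 h3)
  convert this using 1
  abel

lemma Frame.sub_one {Ls : Lst F} {n : ℕ} [Fact (F ≤ Kn n)] {ρ : Stt n} {l : ℕ}
    {t1 t2 : Fin 2 → An n} {j : ℕ} {X : Stt (n + 1)} {gl : An (n + 1)}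
    (h : Frame F Ls n ρ l t1 t2 j X gl) : gl - 1 ∈ (lv n).lev.Φ.fil 1 := by
  have h1 : (lv n).lev.Φ.fil 2 ≤ (lv n).lev.Φ.fil 1 := (lv n).lev.Φ.anti (by norm_num)
  have h2 := (lv n).lev.Φ.fil 1 |>.add_mem (h1 h.lead)
    ((lv n).lev.Φ.fil 1 |>.add_mem ((lv n).lev.mono_mem ((pt F n ρ Ls.a).w l t1) 0 1)
      ((lv n).lev.mono_mem ((pt F n ρ Ls.a).w l t2) (lv n).lev.μ₁ 1))
  convert h2 using 1
  abel

/-- **The moved state.** -/
theorem exists_moved {l : ℕ} (hO : Orc F l) (hV : Val F l l) (Ls : Lst F) (n : ℕ) [Fact (F ≤ Kn n)]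
    (ρ : Stt n) (r : ℕ) (S : ℕ → Set (An n)) (TT : Submodule (Kn n) (Fin 2 → An n)) (hlr : l < r)
    (h : Ctx F Ls n ρ l r S TT) (t1 t2 : Fin 2 → An n) (hA : Adm (pt F n ρ Ls.a) l TT t1 t2)
    {j : ℕ} (hj : 2 ≤ j) {X : Stt (n + 1)} {g : ℕ → An (n + 1)}
    {gl : An (n + 1)} (hX : ∀ J, (lv n).lev.PSol (pt F n ρ Ls.a) l J t1 t2 X g)
    (hF : Frame F Ls n ρ l t1 t2 j X gl) {τ₀ : Fin 2 → An n} (hτ₀ : τ₀ ∈ (pt F n ρ Ls.a).T l)
    (hP : ∀ c ∈ (pt F n ρ Ls.a).KK l, (pt F n ρ Ls.a).PP l c t1 τ₀ = 0 ∧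
      (pt F n ρ Ls.a).PP l c t2 τ₀ = 0) (n1 : CE) :
    ∃ (X' : Stt (n + 1)) (g' : ℕ → An (n + 1)) (S' : ℕ → Set (An (n + 1))),
      (∀ J, (lv n).lev.PSol (pt F n ρ Ls.a) l J t1 t2 X' g') ∧
      Fresh F Ls n ρ l t1 t2 ((pt F n ρ Ls.a).T l) X' ((pt F (n + 1) X' Ls.a).T l) ∧
      Valid (pt F (n + 1) X' Ls.a) (N (n + 1)) Ls.R Ls.Q l l S' ((pt F (n + 1) X' Ls.a).T l) ∧
      CB (pt F (n + 1) X' Ls.a) (N (n + 1)) Ls.R l ∧
      (pt F (n + 1) X' Ls.a).Mov l ≤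
        Subalgebra.toSubmodule (Algebra.adjoin (Kn (n + 1)) ({(pt F (n + 1) X' Ls.a).β l} : Set _)) ∧
      Frame F Ls n ρ l t1 t2 j X' (gl + (lv n).lev.mono ((pt F n ρ Ls.a).w l τ₀) n1 j) ∧
      (ev X' (Ls.a l) * (gl + (lv n).lev.mono ((pt F n ρ Ls.a).w l τ₀) n1 j)
          - (gl + (lv n).lev.mono ((pt F n ρ Ls.a).w l τ₀) n1 j) * (lv n).lev.inc ((pt F n ρ Ls.a).β l))
        - (ev X (Ls.a l) * gl - gl * (lv n).lev.inc ((pt F n ρ Ls.a).β l))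
        - (lv n).lev.mono ((pt F n ρ Ls.a).e l ((pt F n ρ Ls.a).dL l τ₀)) n1 j
        ∈ (lv n).lev.Φ.fil (j + 1) := by
  set P := pt F n ρ Ls.a with hPd
  have hSS : ∀ c ∈ P.KK l, ∀ τ' ∈ P.T l, P.SS l c t1 τ' = 0 ∧ P.SS l c t2 τ' = 0 :=
    fun c hc τ' hτ' => ⟨hA.S1 c hc τ' hτ', hA.S2 c hc τ' hτ'⟩
  obtain ⟨S0, tt, ww, h0⟩ := moved_solve hX hj hτ₀ hSS hP n1
  obtain ⟨X', g', S', hex, hXc, -, hFr, hV', -, -, -, -, -, -, hCB, hSm⟩ :=
    TestRun.test_run hO hV Ls n ρ r S TT hlr h t1 t2 hA (j + 1) (by omega) _ _ h0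
  have hXρ := X_sub_inc hX
  have hXm : ∀ v, X' v - (X v + (lv n).lev.mono (τ₀ v) n1 j) ∈ (lv n).lev.Φ.fil (j + 1) := by
    intro v
    have h1 := hXc v
    have h2 := (lv n).lev.sum_mono_mem S0 (fun m => tt m v) (j + 1)
    have h3 := add_mem h1 h2
    convert h3 using 1
    simp only [Lev.addX, Lev.mvX]
    abel
  have hE := E_move (F := F) (lv n).lev (P := P) (i := l) (by omega : 1 ≤ j) hXρ (Frame.sub_one hF) hXm
  refine ⟨X', g', S', hex, hFr, hV', hCB, hSm, ⟨add_mem hF.fs ((lv n).lev.mono_mem_FS _ _ _), ?_, ?_⟩, hE⟩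
  · have h1 := add_mem hF.lead ((lv n).lev.Φ.anti hj ((lv n).lev.mono_mem (P.w l τ₀) n1 j))
    convert h1 using 1
    abel
  · have hEr : ev X (P.a l) * gl - gl * (lv n).lev.inc (P.β l) ∈ (lv n).lev.Φ.fil j := hF.err
    have h1 := add_mem (add_mem ((lv n).lev.Φ.anti (Nat.le_succ j) hE) hEr)
      ((lv n).lev.mono_mem (P.e l (P.dL l τ₀)) n1 j)
    show ev X' (P.a l) * (gl + (lv n).lev.mono (P.w l τ₀) n1 j) -
      (gl + (lv n).lev.mono (P.w l τ₀) n1 j) * (lv n).lev.inc (P.β l) ∈ (lv n).lev.Φ.fil j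
    convert h1 using 1
    abel

/-- The start: an exact solution for the prefix `l` with a frame at order `2`. -/
theorem exists_start_frame {l : ℕ} (hO : Orc F l) (Ls : Lst F) (n : ℕ) [Fact (F ≤ Kn n)]
    (ρ : Stt n) (r : ℕ) (S : ℕ → Set (An n)) (TT : Submodule (Kn n) (Fin 2 → An n)) (hlr : l < r)
    (h : Ctx F Ls n ρ l r S TT) (t1 t2 : Fin 2 → An n) (hA : Adm (pt F n ρ Ls.a) l TT t1 t2) :
    ∃ (X : Stt (n + 1)) (g : ℕ → An (n + 1)) (gl : An (n + 1)),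
      (∀ J, (lv n).lev.PSol (pt F n ρ Ls.a) l J t1 t2 X g) ∧ Frame F Ls n ρ l t1 t2 2 X gl := by
  have hTT : TT ≤ (pt F n ρ Ls.a).T (l + 1) := h.valid.TT_le.trans ((pt F n ρ Ls.a).T_anti hlr)
  obtain ⟨X', g', hex, hfs, herr, -⟩ := PropI.first_error_two (L := (lv n).lev)
    (P := pt F n ρ Ls.a) (hTT hA.mem1) (hTT hA.mem2)
    (fun c hc τ hτ => ⟨hA.S1 c hc τ hτ, hA.S2 c hc τ hτ⟩) hA.H1
    (IIT (pt F n ρ Ls.a) l TT)
    (fun φ₁ φ₂ hφ₁ hφ₂ => by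
      obtain ⟨t', ht', hk⟩ := hA.H2 φ₁ φ₂ hφ₁ hφ₂
      exact ⟨t', (pt F n ρ Ls.a).T_anti (Nat.le_succ l) (hTT ht'), hk⟩)
    (hO Ls n ρ r S TT h t1 t2 hA)
  exact ⟨X', g', _, hex, ⟨hfs, by simp [PropI.g0], herr⟩⟩

/-! ### The test -/

lemma exists_w (s : Finset CE) : ∃ w : ℕ, ∀ n ∈ s, dropL w (ofLex n).1 = 0 := by
  obtain ⟨N, hN⟩ := FreshEx.exists_HN_finset s
  refine ⟨N, fun a ha => ?_⟩
  have h := hN a ha
  apply ofLex.injective
  ext i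
  obtain ⟨i, rfl⟩ := OrderDual.toDual.surjective i
  rw [dropL_apply]
  exact h (i + N) (by omega)

lemma kG_kerOf (w : ℕ) (g : GLv) : kG (kerOf w g).1 = kG g := by
  show κ ((ofLex g).2 - (ofLex (secN w (piN w g))).2) = κ (ofLex g).2
  rw [map_sub, secN_κ, sub_zero]

lemma kerOf_add_secN (w : ℕ) (g : GLv) : (kerOf w g).1 + secN w (piN w g) = g := by
  rw [kerOf_coe, sub_add_cancel]

lemma not_m_dvd_N (n : ℕ) : ¬ (lv n).m ∣ N n := fun h => by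
  have h1 := Nat.le_of_dvd (N_pos n) h
  have h2 := m_big n
  nlinarith [N_pos n]

lemma comm_of_mem_Mov {K A : Type*} [Field K] [Ring A] [Algebra K A] {F : Type*} [Field F]
    [Algebra F K] [Algebra F A] [IsScalarTower F K A] {ι : Type*} (P : State.Pt F K A ι) {l : ℕ} {y : A}
    (hy : y ∈ P.Mov l) : P.β l * y = y * P.β l := by
  obtain ⟨t, -, rfl⟩ := P.mem_Mov.1 hy
  exact P.e_mem l _

lemma coeff_of_rel {n : ℕ} {E' E : An (n + 1)} {y : An n} {n1 : CE} {j : ℕ}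
    (h : E' - E - (lv n).lev.mono y n1 j ∈ (lv n).lev.Φ.fil (j + 1)) (n' : CE) :
    (lv n).lev.coeff n' j E' = (lv n).lev.coeff n' j E + if n' = n1 then y else 0 := by
  have h1 := (lv n).lev.coeff_fil (n := n') (j := j) h (by omega)
  rw [map_sub, map_sub, Lev.coeff_mono'] at h1
  simp only [and_true] at h1
  rw [sub_eq_zero, sub_eq_iff_eq_add'] at h1
  rw [h1]

variable {Ls : Lst F} {n : ℕ} [Fact (F ≤ Kn n)] {ρ : Stt n} {l r : ℕ} {S : ℕ → Set (An n)}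
  {TT : Submodule (Kn n) (Fin 2 → An n)} {t1 t2 : Fin 2 → An n}

/-- The data of the test at a moved state. -/
noncomputable def mkTD {j : ℕ} {X' : Stt (n + 1)} {gl' : An (n + 1)} (w : ℕ) (rr : ℤ) {y : An n}
    {old : CE → An n} (hF : Frame F Ls n ρ l t1 t2 j X' gl') (hj : 2 ≤ j) (hy : y ≠ 0)
    (hyβ : (pt F n ρ Ls.a).β l * y = y * (pt F n ρ Ls.a).β l)
    (hc : ∀ n', (lv n).lev.coeff n' j
        (ev X' (Ls.a l) * gl' - gl' * (lv n).lev.inc ((pt F n ρ Ls.a).β l)) =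
      old n' + if n' = nStar w rr then y else 0)
    (hold : ∀ n', old n' ≠ 0 → dropL w (ofLex n').1 = 0)
    (hcl : ¬ (((lv n).m : ℤ) ∣ (j : ℤ) ∧ ((lv n).m : ℤ) ∣ rr)) : TD (lv n) w where
  β := (pt F n ρ Ls.a).β l
  H := (pt F (n + 1) X' Ls.a).β l
  g := gl'
  y := y
  γ₀ := piN w (idx (nStar w rr) (j : ℤ))
  t₀ := kerOf w (idx (nStar w rr) (j : ℤ))
  hg := HasL.of_sub_one (Frame.sub_one hF)
  hE := hasL_of_err hF.err hc hold
  hγ₀ := by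
    apply piN_lt_of_order
    show (0 : ℤ) < (j : ℤ)
    omega
  hy := hy
  hyβ := hyβ
  hcl := by
    intro h
    apply hcl
    refine ⟨h.1, ?_⟩
    have h2 := h.2
    rw [kG_kerOf] at h2
    show _ ∣ rr
    have h3 : kG (idx (nStar w rr) (j : ℤ)) = rr := κ_nStar w rr
    rwa [h3] at h2

/-- The test at a moved state is a `TP`. -/
theorem mkTP {j : ℕ} {X' : Stt (n + 1)} {g' : ℕ → An (n + 1)} {gl' : An (n + 1)} {S' : ℕ → Set (An (n + 1))}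
    {w : ℕ} {rr : ℤ} {y : An n} {old : CE → An n}
    (hC : Ctx F Ls n ρ l r S TT) (hlr : l < r) (hA : Adm (pt F n ρ Ls.a) l TT t1 t2)
    (hex : ∀ J, (lv n).lev.PSol (pt F n ρ Ls.a) l J t1 t2 X' g')
    (hFr : Fresh F Ls n ρ l t1 t2 ((pt F n ρ Ls.a).T l) X' ((pt F (n + 1) X' Ls.a).T l))
    (hV' : Valid (pt F (n + 1) X' Ls.a) (N (n + 1)) Ls.R Ls.Q l l S' ((pt F (n + 1) X' Ls.a).T l))
    (hF : Frame F Ls n ρ l t1 t2 j X' gl') (hj : 2 ≤ j) (hym : y ∈ (pt F n ρ Ls.a).Mov l) (hy : y ≠ 0)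
    (hc : ∀ n', (lv n).lev.coeff n' j
        (ev X' (Ls.a l) * gl' - gl' * (lv n).lev.inc ((pt F n ρ Ls.a).β l)) =
      old n' + if n' = nStar w rr then y else 0)
    (hold : ∀ n', old n' ≠ 0 → dropL w (ofLex n').1 = 0)
    (hcl : ¬ (((lv n).m : ℤ) ∣ (j : ℤ) ∧ ((lv n).m : ℤ) ∣ rr)) :
    TP (lv n) (pt F n ρ Ls.a) (pt F (n + 1) X' Ls.a) l
      (mkTD w rr hF hj hy (comm_of_mem_Mov _ hym) hc hold hcl) where
  hβ := rfl
  hH := rfl
  hτ _ := rfl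
  hτ' x := (LinearMap.congr_fun (τ_succ n) x).symm
  hτ1 := hC.valid.one
  hτ'1 := by
    rw [τ_succ n]
    exact hV'.one
  hQ := TD.E_le_Q0 _ (fun a ha => hC.valid.comm a fun v => ha _) (finrank_eq n) (not_m_dvd_N n)
  hym := hym
  hFr := by
    intro z hz a k
    have hTT : TT ≤ (pt F n ρ Ls.a).T (l + 1) := hC.valid.TT_le.trans ((pt F n ρ Ls.a).T_anti hlr)
    obtain ⟨τz, hτz, hez, hPz⟩ := AdmExist.exists_T0_of_mem_Mov _ hA hTT hz
    obtain ⟨t', ht', n0, j0, τ', hκ, hjj, hj0, hτ', h0, hlead⟩ :=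
      hFr.lead ((k.val : ℕ) : ℤ) ((a.val : ℕ) : ℤ) τz hτz
        ⟨hτz, fun _ c hc => (hPz c hc).1, fun _ c hc => (hPz c hc).2⟩
    have hτ0 : τ' = 0 := h0 (fun c hc => (hPz c hc).2)
    subst hτ0
    have hl : ∀ v, t' v - (lv n).lev.mono (τz v) n0 j0 ∈ (lv n).lev.Φ.fil (j0 + 1) := by
      intro v
      have h1 := hlead v
      have h2 : (lv n).lev.mono ((0 : Fin 2 → An n) v) (n0 + mu1) j0 = 0 := by
        simp [Lev.mono]
      rwa [h2, sub_zero] at h1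
    have h3 := d1_sub_mono (F := F) (lv n).lev (ρ := (pt F n ρ Ls.a).ρ) (X := X') (t := t')
      (τ₀ := τz) (n := n0) (j := j0) (X_sub_inc hex) hl (Ls.a l)
    refine ⟨t', ht', (pt F n ρ Ls.a).dL l τz, piN w (idx n0 (j0 : ℤ)), kerOf w (idx n0 (j0 : ℤ)), hez,
      ?_, ?_, HasL.of_sub_fil h3⟩
    · show (((j0 : ℕ) : ℤ) : ZMod (lv n).m) = a
      have h4 := (ZMod.intCast_zmod_eq_zero_iff_dvd _ _).2 hjj
      rw [Int.cast_sub, intCast_val, sub_eq_zero] at h4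
      exact h4
    · rw [kG_kerOf]
      show ((κ n0 : ℤ) : ZMod (lv n).m) = k
      have h4 := (ZMod.intCast_zmod_eq_zero_iff_dvd _ _).2 hκ
      rw [Int.cast_sub, intCast_val, sub_eq_zero] at h4
      exact h4

/-- **The first half of §I**: the class bounds at a valid state. -/
theorem ub_of (l : ℕ) (h1 : Orc F l) (h2 : Val F l l) : UBS F l := by
  intro Ls n _ ρ r S TT hlr hC t1 t2 hA y hy hy0
  obtain ⟨X, g, gl, hex, hF⟩ := exists_start_frame h1 Ls n ρ r S TT hlr hC t1 t2 hA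
  have hTT : TT ≤ (pt F n ρ Ls.a).T (l + 1) := hC.valid.TT_le.trans ((pt F n ρ Ls.a).T_anti hlr)
  obtain ⟨τy, hτy, hey, hPy⟩ := AdmExist.exists_T0_of_mem_Mov _ hA hTT hy
  have hEFS : ev X (Ls.a l) * gl - gl * (lv n).lev.inc ((pt F n ρ Ls.a).β l) ∈ (lv n).lev.FS :=
    sub_mem (mul_mem ((lv n).lev.ev_mem_FS (hex 0).fsX _) hF.fs)
      (mul_mem hF.fs ((lv n).lev.inc_mem_FS _))
  have hfin := (((lv n).lev.FS_iff _).mp hEFS).2 2
  obtain ⟨w, hw⟩ := exists_w hfin.toFinset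
  obtain ⟨X', g', S', hex', hFr, hV', hCB, hSm, hF', hrel⟩ := exists_moved h1 h2 Ls n ρ r S TT hlr hC
    t1 t2 hA le_rfl hex hF hτy hPy (nStar w 1)
  rw [hey] at hrel
  have hcl : ¬ (((lv n).m : ℤ) ∣ ((2 : ℕ) : ℤ) ∧ ((lv n).m : ℤ) ∣ (1 : ℤ)) := fun h => by
    have h3 : (lv n).m ∣ 1 := by exact_mod_cast h.2
    exact (lv n).m_prime.one_lt.ne' (Nat.dvd_one.1 h3)
  have T := mkTP (old := fun n' => (lv n).lev.coeff n' 2
      (ev X (Ls.a l) * gl - gl * (lv n).lev.inc ((pt F n ρ Ls.a).β l))) hC hlr hA hex' hFr hV' hF' le_rfl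
    hy hy0 (coeff_of_rel hrel) (fun n' hn' => hw n' (hfin.mem_toFinset.2 hn')) hcl
  exact T.ub_core (N_pos n) hSm (fun u hu hu0 => by
    have h3 := hCB u hu hu0
    rw [N_succ] at h3
    exact ⟨h3.1, fun h4 => (h3.2 h4).1⟩)

/-- **The Key Lemma, second half.** -/
theorem key_second {l : ℕ} (h1 : Orc F l) (h2 : Val F l l) (Ls : Lst F) (n : ℕ) [Fact (F ≤ Kn n)]
    (ρ : Stt n) (r : ℕ) (S : ℕ → Set (An n)) (TT : Submodule (Kn n) (Fin 2 → An n)) (hlr : l < r)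
    (hC : Ctx F Ls n ρ l r S TT) (t1 t2 : Fin 2 → An n) (hA : Adm (pt F n ρ Ls.a) l TT t1 t2)
    {y : An n} (hG : Good (pt F n ρ Ls.a) (N n) (Ls.R l) l y) {j : ℕ} (hj : 2 ≤ j) {X : Stt (n + 1)}
    {g : ℕ → An (n + 1)} {gl : An (n + 1)} (hex : ∀ J, (lv n).lev.PSol (pt F n ρ Ls.a) l J t1 t2 X g)
    (hF : Frame F Ls n ρ l t1 t2 j X gl) (n0 : CE) {p : An n} (hp : p ∈ PPy (pt F n ρ Ls.a) l y) :
    (τ n) (p * (lv n).lev.coeff n0 j
      (ev X (Ls.a l) * gl - gl * (lv n).lev.inc ((pt F n ρ Ls.a).β l))) = 0 := by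
  classical
  -- the projection to the centraliser
  obtain ⟨g2, hfs2, hdiff, herr2, hcoef⟩ := (lv n).lev.exists_frame (P := pt F n ρ Ls.a) (i := l)
    (j := j) (by omega) hF.fs (hex 0).fsX (X_sub_inc hex) (Frame.sub_one hF) hF.err
  have hF2 : Frame F Ls n ρ l t1 t2 j X g2 := by
    refine ⟨hfs2, ?_, herr2⟩
    have h3 := add_mem ((lv n).lev.Φ.anti hj hdiff) hF.lead
    convert h3 using 1
    abel
  have hrew : (τ n) (p * (lv n).lev.coeff n0 j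
      (ev X (Ls.a l) * gl - gl * (lv n).lev.inc ((pt F n ρ Ls.a).β l))) =
      (τ n) (p * (lv n).lev.coeff n0 j
      (ev X (Ls.a l) * g2 - g2 * (lv n).lev.inc ((pt F n ρ Ls.a).β l))) := by
    rw [show (lv n).lev.coeff n0 j
      (ev X (Ls.a l) * g2 - g2 * (lv n).lev.inc ((pt F n ρ Ls.a).β l)) = _ from hcoef n0]
    exact ((pt F n ρ Ls.a).τ_cent_e hp.1.symm _).symm
  rw [hrew]
  set E2 := ev X (Ls.a l) * g2 - g2 * (lv n).lev.inc ((pt F n ρ Ls.a).β l) with hE2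
  have hEFS : E2 ∈ (lv n).lev.FS :=
    sub_mem (mul_mem ((lv n).lev.ev_mem_FS (hex 0).fsX _) hfs2)
      (mul_mem hfs2 ((lv n).lev.inc_mem_FS _))
  have hfin := (((lv n).lev.FS_iff _).mp hEFS).2 j
  obtain ⟨w, hw⟩ := exists_w (insert n0 hfin.toFinset)
  have hw0 : dropL w (ofLex n0).1 = 0 := hw n0 (Finset.mem_insert_self _ _)
  have hold : ∀ n', (lv n).lev.coeff n' j E2 ≠ 0 → dropL w (ofLex n').1 = 0 := fun n' hn' =>
    hw n' (Finset.mem_insert_of_mem (hfin.mem_toFinset.2 hn'))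
  set m := (lv n).m with hm
  set rr : ℤ := if (m : ℤ) ∣ (j : ℤ) then 1 else κ n0 with hrr
  have hcl : ¬ ((m : ℤ) ∣ (j : ℤ) ∧ (m : ℤ) ∣ rr) := by
    rintro ⟨h3, h4⟩
    rw [hrr, if_pos h3] at h4
    have h5 : m ∣ 1 := by exact_mod_cast h4
    exact (lv n).m_prime.one_lt.ne' (Nat.dvd_one.1 h5)
  have hTT : TT ≤ (pt F n ρ Ls.a).T (l + 1) := hC.valid.TT_le.trans ((pt F n ρ Ls.a).T_anti hlr)
  obtain ⟨τy, hτy, hey, hPy⟩ := AdmExist.exists_T0_of_mem_Mov _ hA hTT hG.mem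
  obtain ⟨X', g', S', hex', hFr, hV', hCB, hSm, hF', hrel⟩ := exists_moved h1 h2 Ls n ρ r S TT hlr hC
    t1 t2 hA hj hex hF2 hτy hPy (nStar w rr)
  rw [hey] at hrel
  have hc := coeff_of_rel hrel
  have T := mkTP (old := fun n' => (lv n).lev.coeff n' j E2) hC hlr hA hex' hFr hV' hF' hj hG.mem hG.ne
    hc hold hcl
  set D := mkTD (old := fun n' => (lv n).lev.coeff n' j E2) w rr hF' hj hG.ne
    (comm_of_mem_Mov _ hG.mem) hc hold hcl with hD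
  -- the numbers
  have hN := N_pos n
  have hdvd := hC.valid.dvd l hlr
  have hdF : (Ls.R l).n * finrank (Kn n) D.E = N n := by
    have h3 : finrank (Kn n) D.E = N n / (Ls.R l).n := hG.dimF
    rw [h3, Nat.mul_div_cancel' hdvd.1]
  have hdL : (Ls.R l).σ * finrank (Kn n) (Ly (pt F n ρ Ls.a) l y) = N n := by
    rw [hG.dimL, Nat.mul_div_cancel' hdvd.2]
  have hnpos : 0 < (Ls.R l).n := Nat.pos_of_ne_zero fun h0 => by
    rw [h0, zero_mul] at hdF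
    omega
  have hσpos : 0 < (Ls.R l).σ := Nat.pos_of_ne_zero fun h0 => by
    rw [h0, zero_mul] at hdL
    omega
  obtain ⟨u, hu, hne⟩ := T.exists_Mov_ne
  have hle1 : m * finrank (Kn n) D.E ≤ finrank (Kn (n + 1)) D.F' :=
    D.finrank_le_of_lift (V := Subalgebra.toSubmodule D.E) (W := Subalgebra.toSubmodule D.F')
      (fun _ _ hl _ hb => D.lift_line T.hQ hl hb)
  have hCBu := hCB u hu hne
  rw [N_succ] at hCB hCBu
  have hle2 : finrank (Kn (n + 1)) D.F' ≤ m * finrank (Kn n) D.E := by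
    have h3 : (Ls.R l).n * finrank (Kn (n + 1)) D.F' ≤ N n * m := hCBu.1
    have h4 : (Ls.R l).n * finrank (Kn (n + 1)) D.F' ≤ (Ls.R l).n * (m * finrank (Kn n) D.E) := by
      calc _ ≤ N n * m := h3
        _ = _ := by rw [← hdF]; ring
    exact Nat.le_of_mul_le_mul_left h4 hnpos
  have heq : finrank (Kn (n + 1)) D.F' = m * finrank (Kn n) D.E := le_antisymm hle2 hle1
  obtain ⟨u₀, hu₀, hu₀l, hu₀n⟩ := T.exists_u0 heq.le hSm
  have hdim : finrank (Kn (n + 1)) (Ly (pt F (n + 1) X' Ls.a) l u₀) ≤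
      m * finrank (Kn n) (Ly (pt F n ρ Ls.a) l y) := by
    have h3 : (Ls.R l).n * finrank (Kn (n + 1)) D.F' = N n * m := by
      rw [heq, ← hdF]
      ring
    have h4 : (Ls.R l).σ * finrank (Kn (n + 1)) (Ly (pt F (n + 1) X' Ls.a) l u₀) ≤ N n * m :=
      ((hCB u₀ hu₀ hu₀n).2 h3).1
    have h5 : (Ls.R l).σ * finrank (Kn (n + 1)) (Ly (pt F (n + 1) X' Ls.a) l u₀) ≤
        (Ls.R l).σ * (m * finrank (Kn n) (Ly (pt F n ρ Ls.a) l y)) := by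
      calc _ ≤ N n * m := h4
        _ = _ := by rw [← hdL]; ring
    exact Nat.le_of_mul_le_mul_left h5 hσpos
  -- the Euler derivation
  set φ := eulerPhi (Kn n) w j with hφ
  have hfr : (fun v => eulR (lv n) φ ((pt F (n + 1) X' Ls.a).ρ v)) ∈ (pt F (n + 1) X' Ls.a).T l :=
    (pt F (n + 1) X' Ls.a).der_mem_T (isDer_eulR (F := F) (lv n) φ) Ls.Q
      (fun i hi => (hV'.frozen i hi).1) (fun i hi => (hV'.frozen i hi).2)
  -- the point of the line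
  have hδ : piN w (idx n0 (j : ℤ)) = toLex ((j : ℤ), (0 : CX)) := by
    rw [piN_idx, hw0]
  have hl : D.lineP (piN w (idx n0 (j : ℤ))) (kerOf w (idx n0 (j : ℤ))) := by
    have hj₀ : D.j₀ = ((j : ℤ) : ZMod m) := rfl
    have hk₀ : D.k₀ = ((rr : ℤ) : ZMod m) := by
      show ((kG (kerOf w (idx (nStar w rr) (j : ℤ))).1 : ℤ) : ZMod m) = _
      rw [kG_kerOf]
      exact congrArg (fun z : ℤ => (z : ZMod m)) (κ_nStar w rr)
    have h3 : (((ofLex (piN w (idx n0 (j : ℤ)))).1 : ℤ) : ZMod m) = ((j : ℤ) : ZMod m) := rfl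
    have h4 : ((kG (kerOf w (idx n0 (j : ℤ))).1 : ℤ) : ZMod m) = ((κ n0 : ℤ) : ZMod m) := by
      rw [kG_kerOf]
      rfl
    by_cases hmj : (m : ℤ) ∣ (j : ℤ)
    · refine ⟨((κ n0 : ℤ) : ZMod m), ?_, ?_⟩
      · rw [h3, hj₀, (ZMod.intCast_zmod_eq_zero_iff_dvd _ _).2 hmj, mul_zero]
      · rw [h4, hk₀, hrr, if_pos hmj, Int.cast_one, mul_one]
    · refine ⟨1, ?_, ?_⟩
      · rw [h3, hj₀, one_mul]
      · rw [h4, hk₀, hrr, if_neg hmj, one_mul]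
  have hu1 : D.g - 1 ∈ (lv n).lev.Φ.fil 1 := Frame.sub_one hF'
  have hval := val_eulR_v (L := lv n) hF'.err hu1 hc hold
  rw [← hδ] at hval
  have key := key_core T (fun a ha => hC.valid.comm a fun v => ha _)
    (fun a ha => hV'.comm a fun v => ha _) heq hSm hu₀l hu₀n hdim φ hfr hp hl hval
  rw [kerOf_add_secN, coeff_eulR] at key
  have hcv : ((lv n).φ D.v).coeff (idx n0 (j : ℤ)) = (lv n).lev.coeff n0 j
      (ev X' (Ls.a l) * D.g - D.g * (lv n).lev.inc ((pt F n ρ Ls.a).β l)) :=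
    coeff_inv_mul hu1 hF'.err n0
  have hne0 : n0 ≠ nStar w rr := by
    intro h3
    have h4 := dropL_nStar_lt w rr
    rw [← h3, hw0] at h4
    exact lt_irrefl _ h4
  rw [hcv, show (lv n).lev.coeff n0 j
      (ev X' (Ls.a l) * D.g - D.g * (lv n).lev.inc ((pt F n ρ Ls.a).β l)) = _ from hc n0,
    if_neg hne0, add_zero] at key
  have hcw : cw w (idx n0 (j : ℤ)) = 0 := by
    have h3 := dropL_apply w (ofLex n0).1 0
    rw [hw0, zero_add] at h3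
    exact h3.symm
  have hφv : φ (idx n0 (j : ℤ)) = (j : Kn n) := by
    rw [hφ, eulerPhi_apply, hcw, mul_zero, add_zero]
    show (((j : ℕ) : ℤ) : Kn n) = _
    rw [Int.cast_natCast]
  rw [hφv, mul_smul_comm, map_smul, smul_eq_mul] at key
  have hj0 : (j : Kn n) ≠ 0 := Nat.cast_ne_zero.2 (by omega)
  exact (mul_eq_zero.1 key).resolve_left hj0

/-- **The Key Lemma** (blueprint §I). -/
theorem key_of (l : ℕ) (h1 : Orc F l) (h2 : Val F l l) : KeyS F l := by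
  intro Ls n _ ρ r S TT hlr hC t1 t2 hA y hG
  refine ⟨fun p hp z hz => ?_, fun j hj X g gl hex hF n0 p hp =>
    key_second h1 h2 Ls n ρ r S TT hlr hC t1 t2 hA hG hj hex hF n0 hp⟩
  obtain ⟨X, g, gl, hex, hF⟩ := exists_start_frame h1 Ls n ρ r S TT hlr hC t1 t2 hA
  have hTT : TT ≤ (pt F n ρ Ls.a).T (l + 1) := hC.valid.TT_le.trans ((pt F n ρ Ls.a).T_anti hlr)
  obtain ⟨τz, hτz, hez, hPz⟩ := AdmExist.exists_T0_of_mem_Mov _ hA hTT hz
  obtain ⟨X', g', S', hex', -, -, -, -, hF', hrel⟩ := exists_moved h1 h2 Ls n ρ r S TT hlr hC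
    t1 t2 hA le_rfl hex hF hτz hPz 0
  rw [hez] at hrel
  have hc := coeff_of_rel hrel 0
  rw [if_pos rfl] at hc
  have a1 := key_second h1 h2 Ls n ρ r S TT hlr hC t1 t2 hA hG le_rfl hex' hF' 0 hp
  have a2 := key_second h1 h2 Ls n ρ r S TT hlr hC t1 t2 hA hG le_rfl hex hF 0 hp
  rw [hc, mul_add, map_add, a2, zero_add] at a1
  exact a1

end Tower

end Crest.Agent.Kurosh.KeyV3
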