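/-
S0270 (Kurosh), blueprint v3.3 §I, PROP I (helper8): the linear algebra of the generic pairs.
-/
import Crest.Agent.Kurosh.Rank

set_option autoImplicit false
set_option linter.unusedSectionVars false

namespace Crest.Agent.Kurosh.PropI

open Module Rank

section Lin

variable {K : Type*} [Field K] [Infinite K]
  {T : Type*} [AddCommGroup T] [Module K T] [Module.Finite K T]
  {V : Type*} [AddCommGroup V] [Module K V] [Module.Finite K V]

/-- A linear functional vanishing on a nonempty line-open set is zero. -/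
lemma eq_zero_of_lineOpen {T' : Type*} [AddCommGroup T'] [Module K T'] {W : Type*} [AddCommGroup W]
    [Module K W] (f : T' →ₗ[K] W) {S : Set T'}
    (hS : LineOpen K S) (hne : S.Nonempty) (h : ∀ t ∈ S, f t = 0) : f = 0 := by
  obtain ⟨t0, ht0⟩ := hne
  ext t
  obtain ⟨l, hl, hl2⟩ := hS.exists_add_smul ht0 t {0} (Set.finite_singleton _)
  have h1 := h _ hl2
  rw [map_add, map_smul, h t0 ht0, zero_add] at h1
  have hl0 : l ≠ 0 := by simpa using hl
  simpa [hl0] using h1

/-- The family restricted to `T1 × T0(t1)`. -/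
noncomputable def resF (Pf : V →ₗ[K] T →ₗ[K] T →ₗ[K] K) (t1 : T) (T1 : Submodule K T) :
    V →ₗ[K] T1 →ₗ[K] Dual K (T0 Pf t1) where
  toFun v := (T0 Pf t1).subtype.dualMap ∘ₗ (Pf v) ∘ₗ T1.subtype
  map_add' a b := by ext x y; simp
  map_smul' c a := by ext x y; simp

@[simp] lemma resF_apply (Pf : V →ₗ[K] T →ₗ[K] T →ₗ[K] K) (t1 : T) (T1 : Submodule K T) (v : V)
    (x : T1) (y : T0 Pf t1) : resF Pf t1 T1 v x y = Pf v x y := rfl

/-- Codimensions: the rank of a restricted form. -/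
lemma rk_resF (Pf : V →ₗ[K] T →ₗ[K] T →ₗ[K] K) (t1 : T) (T1 : Submodule K T) (v : V) :
    finrank K (LinearMap.range (Pf v)) ≤ finrank K (LinearMap.range (resF Pf t1 T1 v))
      + (finrank K T - finrank K T1) + finrank K V := by
  have h3 := rk_le_domRestrict (Pf v) T1
  have h4 := rk_le_dualRestrict ((Pf v).domRestrict T1) (T0 Pf t1)
  have h5 : (T0 Pf t1).subtype.dualMap ∘ₗ (Pf v).domRestrict T1 = resF Pf t1 T1 v := rfl
  rw [h5] at h4
  have h6 := finrank_T0_ge Pf t1
  have h7 : finrank K (T0 Pf t1) ≤ finrank K T := Submodule.finrank_le _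
  have h8 : finrank K T1 ≤ finrank K T := Submodule.finrank_le _
  omega

/-- **Surjectivity from two injectivities.** -/
lemma pair_surj (Pf : V →ₗ[K] T →ₗ[K] T →ₗ[K] K) {t1 t2 : T}
    (hinj1 : Function.Injective (Pf.flip t1))
    (hinj2 : ∀ v, (∀ τ ∈ T0 Pf t1, Pf v t2 τ = 0) → v = 0) :
    ∀ f g : Dual K V, ∃ τ, Pt Pf t1 τ = f ∧ Pt Pf t2 τ = g := by
  have hsurj1 : Function.Surjective (Pt Pf t1) := by
    apply surjective_of_separating
    intro v hv
    apply hinj1
    simp only [map_zero]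
    ext x
    exact hv x
  let L : T0 Pf t1 →ₗ[K] Dual K V := (Pt Pf t2).domRestrict (T0 Pf t1)
  have hL : Function.Surjective L := by
    apply surjective_of_separating
    intro v hv
    exact hinj2 v fun τ hτ => hv ⟨τ, hτ⟩
  intro f g
  obtain ⟨τ1, h1⟩ := hsurj1 f
  obtain ⟨τ2, h2⟩ := hL (g - Pt Pf t2 τ1)
  refine ⟨τ1 + τ2.1, ?_, ?_⟩
  · have h3 : Pt Pf t1 τ2.1 = 0 := τ2.2
    rw [map_add, h1, h3, add_zero]
  · have h3 : Pt Pf t2 τ2.1 = g - Pt Pf t2 τ1 := h2
    rw [map_add, h3]; abel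

/-- The finrank of `U ⊔ K t`. -/
lemma finrank_sup_span_le (U : Submodule K T) (t : T) :
    finrank K (U ⊔ Submodule.span K {t} : Submodule K T) ≤ finrank K U + 1 := by
  have h4 := Submodule.finrank_add_le_finrank_add_finrank U (Submodule.span K {t})
  have h5 : finrank K (Submodule.span K {t}) ≤ 1 := by
    by_cases h0 : t = 0
    · have h6 : Submodule.span K {t} = ⊥ := by
        rw [Submodule.span_singleton_eq_bot]; exact h0
      rw [h6, finrank_bot]; omega
    · rw [finrank_span_singleton h0]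
  omega

/-- **The partner in a subspace.** For `t1` and a subspace `T1`: if `T1` is not contained in `U'` and
the forms keep enough rank, a partner `t2 ∈ T1 \ U'` exists with `v ↦ P_v(t2,·)|T0(t1)` injective. -/
lemma exists_partner (Pf : V →ₗ[K] T →ₗ[K] T →ₗ[K] K) (t1 : T) (T1 U' : Submodule K T)
    (hT1 : ¬ T1 ≤ U')
    (hr : ∀ v, v ≠ 0 → 2 * finrank K V + (finrank K T - finrank K T1)
      ≤ finrank K (LinearMap.range (Pf v))) :
    ∃ t2 : T1, t2 ∈ ((U'.comap T1.subtype : Submodule K T1) : Set T1)ᶜ ∩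
      {x | Function.Injective ((resF Pf t1 T1).flip x)} := by
  have hS : LineOpen K (((U'.comap T1.subtype : Submodule K T1) : Set T1)ᶜ) :=
    lineOpen_compl_submodule _
  have hne : (((U'.comap T1.subtype : Submodule K T1) : Set T1)ᶜ).Nonempty := by
    obtain ⟨x, hx, hx'⟩ := SetLike.not_le_iff_exists.mp hT1
    exact ⟨⟨x, hx⟩, hx'⟩
  have hrk : ∀ v, v ≠ 0 → finrank K V ≤ finrank K (LinearMap.range (resF Pf t1 T1 v)) := by
    intro v hv
    have h1 := rk_resF Pf t1 T1 v
    have h2 := hr v hv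
    omega
  obtain ⟨t2, ht2, hinj⟩ := exists_injective (resF Pf t1 T1) hrk hS hne
  exact ⟨t2, ht2, hinj⟩

/-- Injectivity of the restricted family means what it should. -/
lemma partner_spec (Pf : V →ₗ[K] T →ₗ[K] T →ₗ[K] K) (t1 : T) (T1 : Submodule K T) (t2 : T1)
    (hinj : Function.Injective ((resF Pf t1 T1).flip t2)) (v : V)
    (h : ∀ τ ∈ T0 Pf t1, Pf v t2 τ = 0) : v = 0 := by
  apply hinj
  rw [map_zero]
  ext y
  exact h y y.2

/-- The generic first vectors. -/
def S1 (Pf : V →ₗ[K] T →ₗ[K] T →ₗ[K] K) (U : Submodule K T) : Set T :=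
  ((U : Set T)ᶜ) ∩ {t | Function.Injective (Pf.flip t)}

lemma S1_open (Pf : V →ₗ[K] T →ₗ[K] T →ₗ[K] K) (U : Submodule K T) : LineOpen K (S1 Pf U) :=
  (lineOpen_compl_submodule U).inter (lineOpen_injective Pf.flip)

lemma S1_nonempty (Pf : V →ₗ[K] T →ₗ[K] T →ₗ[K] K) (U : Submodule K T) (hU : U ≠ ⊤)
    (hr : ∀ v, v ≠ 0 → finrank K V ≤ finrank K (LinearMap.range (Pf v))) : (S1 Pf U).Nonempty := by
  have hne : ((U : Set T)ᶜ).Nonempty := by
    obtain ⟨x, hx⟩ := SetLike.exists_not_mem_of_ne_top U hU rfl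
    exact ⟨x, hx⟩
  obtain ⟨t, ht, hinj⟩ := exists_injective Pf hr (lineOpen_compl_submodule U) hne
  exact ⟨t, ht, hinj⟩

/-- A functional vanishing on `T0(t)` is in the span of the forms. -/
lemma exists_rep_of_T0 (Pf : V →ₗ[K] T →ₗ[K] T →ₗ[K] K) (t : T) (f : Dual K T)
    (hf : ∀ τ ∈ T0 Pf t, f τ = 0) : ∃ v, ∀ τ, f τ = Pf v t τ := by
  have h1 : f ∈ LinearMap.range (Pt Pf t).dualMap := by
    rw [LinearMap.range_dualMap_eq_dualAnnihilator_ker, Submodule.mem_dualAnnihilator]
    exact hf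
  obtain ⟨g, hg⟩ := h1
  refine ⟨(Module.evalEquiv K V).symm g, fun τ => ?_⟩
  rw [← hg, LinearMap.dualMap_apply]
  have h2 : g = Module.Dual.eval K V ((Module.evalEquiv K V).symm g) := by
    have := (Module.evalEquiv K V).apply_symm_apply g
    exact this.symm
  conv_lhs => rw [h2]
  rfl

/-- **Step (2) of Prop I (linear algebra).** `Pf` a family of alternating forms with large rank, `Q` a
bilinear form vanishing on all pairs `(t1,t2)` which are "admissible": independent modulo `U`,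
`P_v(t1,t2)=0`, jointly surjective. Then `Q` is a member of the family. -/
theorem exists_eq_of_admissible_zero (Pf : V →ₗ[K] T →ₗ[K] T →ₗ[K] K) (Q : T →ₗ[K] T →ₗ[K] K)
    (U : Submodule K T) (hU : finrank K U + finrank K V + 1 < finrank K T)
    (hr : ∀ v, v ≠ 0 → 3 * finrank K V ≤ finrank K (LinearMap.range (Pf v)))
    (hQ : ∀ t1 t2, t1 ∉ U → t2 ∉ U ⊔ Submodule.span K {t1} → (∀ v, Pf v t1 t2 = 0) →
      (∀ f g : Dual K V, ∃ τ, Pt Pf t1 τ = f ∧ Pt Pf t2 τ = g) → Q t1 t2 = 0) :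
    ∃ v0, Q = Pf v0 := by
  classical
  have hUne : U ≠ ⊤ := by
    intro h
    rw [h, finrank_top] at hU
    omega
  have hr1 : ∀ v, v ≠ 0 → finrank K V ≤ finrank K (LinearMap.range (Pf v)) := fun v hv => by
    have := hr v hv
    omega
  have hr2 : ∀ v, v ≠ 0 → 2 * finrank K V ≤ finrank K (LinearMap.range (Pf v)) := fun v hv => by
    have := hr v hv
    omega
  refine lld Pf Q hr2 (S1_open Pf U) (S1_nonempty Pf U hUne hr1) ?_
  rintro t1 ⟨ht1, hinj1⟩
  -- `Q t1` vanishes on `T0(t1)`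
  set T1 := T0 Pf t1 with hT1
  set U' := U ⊔ Submodule.span K {t1} with hU'
  have hT1U : ¬ T1 ≤ U' := by
    intro hle
    have h1 := Submodule.finrank_mono hle
    have h2 := finrank_T0_ge Pf t1
    have h3 : finrank K U' ≤ finrank K U + 1 := finrank_sup_span_le U t1
    have h4 : finrank K T1 = finrank K (T0 Pf t1) := rfl
    omega
  have hr3 : ∀ v, v ≠ 0 → 2 * finrank K V + (finrank K T - finrank K T1)
      ≤ finrank K (LinearMap.range (Pf v)) := by
    intro v hv
    have h2 := finrank_T0_ge Pf t1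
    have h4 : finrank K T1 = finrank K (T0 Pf t1) := rfl
    have := hr v hv
    omega
  obtain ⟨t2, ht2⟩ := exists_partner Pf t1 T1 U' hT1U hr3
  have hopen : LineOpen K (((U'.comap T1.subtype : Submodule K T1) : Set T1)ᶜ ∩
      {x | Function.Injective ((resF Pf t1 T1).flip x)}) :=
    (lineOpen_compl_submodule _).inter (lineOpen_injective (resF Pf t1 T1).flip)
  have hzero : (Q t1) ∘ₗ T1.subtype = 0 := by
    refine eq_zero_of_lineOpen _ hopen ⟨t2, ht2⟩ ?_
    rintro x ⟨hx, hxinj⟩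
    refine hQ t1 x ht1 hx (fun v => ?_) (pair_surj Pf hinj1 (partner_spec Pf t1 T1 x hxinj))
    exact mem_T0.mp x.2 v
  obtain ⟨v, hv⟩ := exists_rep_of_T0 Pf t1 (Q t1) (fun τ hτ => by
    have := LinearMap.congr_fun hzero ⟨τ, hτ⟩
    simpa using this)
  refine ⟨v, ?_⟩
  rw [LinearMap.flip_apply]
  ext τ
  exact (hv τ).symm

/-- **Partners inside a subspace of `T0(t1)`** (the pairs of step (3)). -/
theorem exists_pair_in (Pf : V →ₗ[K] T →ₗ[K] T →ₗ[K] K) {t1 : T}
    (hinj1 : Function.Injective (Pf.flip t1)) (T1 U' : Submodule K T) (hT1 : ¬ T1 ≤ U')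
    (hr : ∀ v, v ≠ 0 → 2 * finrank K V + (finrank K T - finrank K T1)
      ≤ finrank K (LinearMap.range (Pf v))) :
    ∃ t2 ∈ T1, t2 ∉ U' ∧ ∀ f g : Dual K V, ∃ τ, Pt Pf t1 τ = f ∧ Pt Pf t2 τ = g := by
  obtain ⟨t2, ht2, hinj⟩ := exists_partner Pf t1 T1 U' hT1 hr
  exact ⟨t2, t2.2, ht2, pair_surj Pf hinj1 (partner_spec Pf t1 T1 t2 hinj)⟩

end Lin

/-- Counting: a map `φ` which sends `ker π` and lifts of `Pp` into `Y₀`. -/
lemma finrank_range_add_le {K X Y B : Type*} [Field K] [AddCommGroup X] [Module K X]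
    [Module.Finite K X] [AddCommGroup Y] [Module K Y] [AddCommGroup B]
    [Module K B] [Module.Finite K B] (φ : X →ₗ[K] Y) (π : X →ₗ[K] B) (Y₀ : Submodule K Y)
    [Module.Finite K Y₀] (Pp : Submodule K B) (h0 : ∀ x, π x = 0 → φ x ∈ Y₀)
    (hlift : ∀ p ∈ Pp, ∃ x, π x = p ∧ φ x ∈ Y₀) :
    finrank K (LinearMap.range φ) + finrank K Pp
      ≤ finrank K Y₀ + finrank K (LinearMap.range π) := by
  let X₁ : Submodule K X := Y₀.comap φ
  let f : X₁ →ₗ[K] Y₀ := φ.restrict (fun x hx => hx)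
  let g : X₁ →ₗ[K] B := π ∘ₗ X₁.subtype
  have h1 := LinearMap.finrank_range_add_finrank_ker f
  have h2 := LinearMap.finrank_range_add_finrank_ker g
  have h3 := LinearMap.finrank_range_add_finrank_ker π
  have h4 := LinearMap.finrank_range_add_finrank_ker φ
  have h5 : finrank K (LinearMap.range f) ≤ finrank K Y₀ := Submodule.finrank_le _
  have h6 : Pp ≤ LinearMap.range g := by
    intro p hp
    obtain ⟨x, hx, hx'⟩ := hlift p hp
    exact ⟨⟨x, hx'⟩, hx⟩
  have h7 := Submodule.finrank_mono h6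
  have hkf : LinearMap.ker φ ≤ X₁ := by
    intro x hx
    have : φ x = 0 := hx
    show φ x ∈ Y₀
    rw [this]
    exact zero_mem _
  have hkg : LinearMap.ker π ≤ X₁ := fun x hx => h0 x hx
  have h8 : finrank K (LinearMap.ker f) = finrank K (LinearMap.ker φ) := by
    have e : LinearMap.ker f = (LinearMap.ker φ).comap X₁.subtype := by
      ext x
      simp only [LinearMap.mem_ker, Submodule.mem_comap, Submodule.subtype_apply]
      constructor
      · intro h
        exact congrArg Subtype.val h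
      · intro h
        exact Subtype.ext h
    rw [e]
    exact (Submodule.comapSubtypeEquivOfLe hkf).finrank_eq
  have h9 : finrank K (LinearMap.ker g) = finrank K (LinearMap.ker π) := by
    have e : LinearMap.ker g = (LinearMap.ker π).comap X₁.subtype := by
      ext x
      simp [g]
    rw [e]
    exact (Submodule.comapSubtypeEquivOfLe hkg).finrank_eq
  omega


end Crest.Agent.Kurosh.PropI
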