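/-
S0270 (Kurosh), blueprint v3.3 §I, PROP I (helper8): the elements of `𝒫(y)`, `y` good, lift into
`𝕀(l+1)` (relative to `𝕋`), i.e. `∃ c ∈ IIT (l+1) TT, c l = p`.

Steps (1), (2), (3) of the blueprint:
* `key_pair`: `P_c(t1,t2) = 0` for every pair admissible for the prefix `l` (first error at order `2`);
* `lift_mod`: `c = c₀` on `𝕋×𝕋` for some `c₀ ∈ 𝕂(l)` (LLD);
* `finrank_VV_succ_le`: `dim 𝕂(l+1)/(forms on 𝕋) ≤ q#(l+1)`, so pairs with `H1` at the prefix `l+1` exist;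
* `key_three`: first error at order `3`, with a prescribed move at a fresh monomial.
-/
import Crest.Agent.Kurosh.PropILin
import Crest.Agent.Kurosh.PropIHens
import Crest.Agent.Kurosh.AdmExist

set_option autoImplicit false
set_option linter.unusedSectionVars false

namespace Crest.Agent.Kurosh.PropI

open Module Rank Hensel
open State (Pt)
open _root_.Crest.Agent.Kurosh.Inv
open _root_.Crest.Agent.Kurosh.Inv.St

section Abstract

variable {F K A : Type*} [Field F] [Field K] [DivisionRing A] [Algebra F K] [Algebra K A]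
  [Algebra F A] [IsScalarTower F K A] (P : Pt F K A (Fin 2))

/-- The vectors with vanishing form on `𝕋 × 𝕋`. -/
noncomputable def NN (k : ℕ) (TT : Submodule K (Fin 2 → A)) : Submodule K (P.KK k) where
  carrier := {c | ∀ t ∈ TT, ∀ t' ∈ TT, P.PP k c t t' = 0}
  add_mem' := by
    intro c c' h h' t ht t' ht'
    rw [Submodule.coe_add, P.PP_add_c, h t ht t' ht', h' t ht t' ht', add_zero]
  zero_mem' := by
    intro t _ t' _
    have := P.PP_smul_c k 0 0 t t'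
    simpa using this
  smul_mem' := by
    intro s c h t ht t' ht'
    rw [Submodule.coe_smul, P.PP_smul_c, h t ht t' ht', mul_zero]

lemma mem_NN {k : ℕ} {TT : Submodule K (Fin 2 → A)} {c : P.KK k} :
    c ∈ NN P k TT ↔ ∀ t ∈ TT, ∀ t' ∈ TT, P.PP k c t t' = 0 := Iff.rfl

/-- `𝕂(k)` modulo the vectors with vanishing form on `𝕋 × 𝕋`. -/
abbrev VV (k : ℕ) (TT : Submodule K (Fin 2 → A)) : Type _ := (P.KK k) ⧸ NN P k TT

/-- The forms on `𝕋`, on the quotient. -/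
noncomputable def PfV (k : ℕ) (TT : Submodule K (Fin 2 → A)) :
    VV P k TT →ₗ[K] TT →ₗ[K] TT →ₗ[K] K :=
  Submodule.liftQ (M₂ := TT →ₗ[K] TT →ₗ[K] K) (τ₁₂ := RingHom.id K)
    (NN P k TT) (P.PFormK k TT) (by
      intro c hc
      refine LinearMap.mem_ker.2 (LinearMap.ext fun t => LinearMap.ext fun t' => ?_)
      exact hc t t.2 t' t'.2)

@[simp] lemma PfV_mk (k : ℕ) (TT : Submodule K (Fin 2 → A)) (c : P.KK k) (t t' : TT) :
    PfV P k TT (Submodule.Quotient.mk c) t t' = P.PP k c t t' := rfl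

lemma mk_ne_zero_iff {k : ℕ} {TT : Submodule K (Fin 2 → A)} {c : P.KK k} :
    (Submodule.Quotient.mk c : VV P k TT) = 0 ↔ ∀ t ∈ TT, ∀ t' ∈ TT, P.PP k c t t' = 0 := by
  rw [Submodule.Quotient.mk_eq_zero]
  rfl

variable [FiniteDimensional K A]

instance VV_finite (k : ℕ) (TT : Submodule K (Fin 2 → A)) : Module.Finite K (VV P k TT) :=
  Module.Finite.quotient K _

variable {N : ℕ} {R : ℕ → Rec} {Q : ℕ → Polynomial F} {l r : ℕ} {S : ℕ → Set A}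
  {TT : Submodule K (Fin 2 → A)}

/-- The inner directions in `𝕋`. -/
noncomputable abbrev UU (TT : Submodule K (Fin 2 → A)) : Submodule K TT := (Inn P).comap TT.subtype

lemma finrank_UU (TT : Submodule K (Fin 2 → A)) :
    finrank K (UU P TT) = finrank K ↥(TT ⊓ Inn P) := by
  have e : UU P TT = (TT ⊓ Inn P).comap TT.subtype := by
    ext x
    simp [UU]
  rw [e]
  exact (Submodule.comapSubtypeEquivOfLe (inf_le_left)).finrank_eq

variable [Infinite K]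

/-- An admissible pair from the generic data. -/
lemma mkAdm (hV : Valid P N R Q l r S TT) (hker : ∀ c ∈ P.KK l,
      (∀ t ∈ TT, ∀ t' ∈ TT, P.PP l c t t' = 0) → c ∈ IIT P l TT) {t1 t2 : TT}
    (ht1 : t1 ∉ UU P TT) (ht2 : t2 ∉ UU P TT ⊔ Submodule.span K {t1})
    (hH1 : ∀ v, PfV P l TT v t1 t2 = 0)
    (hs : ∀ f g : Dual K (VV P l TT), ∃ τ, Rank.Pt (PfV P l TT) t1 τ = f ∧
      Rank.Pt (PfV P l TT) t2 τ = g) : Adm P l TT (t1 : Fin 2 → A) t2 := by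
  have hS := hV.TT_S l hV.le
  refine ⟨t1.2, t2.2, hS _ t1.2, hS _ t2.2, fun c hc => hH1 (Submodule.Quotient.mk ⟨c, hc⟩), ?_, ?_⟩
  · intro φ₁ φ₂ h1 h2
    have hk : ∀ φ : (ℕ → A) →ₗ[K] K, (∀ c ∈ IIT P l TT, φ c = 0) →
        NN P l TT ≤ LinearMap.ker (φ ∘ₗ (P.KK l).subtype) := by
      intro φ hφ c hc
      exact LinearMap.mem_ker.2 (hφ _ (hker _ c.2 hc))
    let f₁ : Dual K (VV P l TT) := Submodule.liftQ _ (φ₁ ∘ₗ (P.KK l).subtype) (hk φ₁ h1)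
    let f₂ : Dual K (VV P l TT) := Submodule.liftQ _ (φ₂ ∘ₗ (P.KK l).subtype) (hk φ₂ h2)
    obtain ⟨τ, h3, h4⟩ := hs f₁ f₂
    refine ⟨τ, τ.2, fun c hc => ⟨?_, ?_⟩⟩
    · exact LinearMap.congr_fun h3 (Submodule.Quotient.mk ⟨c, hc⟩)
    · exact LinearMap.congr_fun h4 (Submodule.Quotient.mk ⟨c, hc⟩)
  · intro x y hxy
    by_cases hy : y = 0
    · subst hy
      refine ⟨?_, rfl⟩
      by_contra hx
      apply ht1
      have e : (t1 : Fin 2 → A) = x⁻¹ • (x • (t1 : Fin 2 → A) + (0 : K) • (t2 : Fin 2 → A)) := by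
        rw [zero_smul, add_zero, smul_smul, inv_mul_cancel₀ hx, one_smul]
      show (t1 : Fin 2 → A) ∈ Inn P
      rw [e]
      exact Submodule.smul_mem _ _ hxy
    · exfalso
      apply ht2
      have h1 : y⁻¹ • (x • t1 + y • t2) ∈ UU P TT := by
        apply Submodule.smul_mem
        show ((x • t1 + y • t2 : TT) : Fin 2 → A) ∈ Inn P
        simpa using hxy
      have e : t2 = y⁻¹ • (x • t1 + y • t2) - (y⁻¹ * x) • t1 := by
        rw [smul_add, smul_smul, smul_smul, inv_mul_cancel₀ hy, one_smul]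
        abel
      rw [e]
      exact Submodule.sub_mem _ (Submodule.mem_sup_left h1)
        (Submodule.mem_sup_right (Submodule.smul_mem _ _ (Submodule.mem_span_singleton_self t1)))

/-! ### Rank and dimension on `VV` -/

omit [Infinite K] in
/-- Rank of a nonzero class. -/
lemma rank_VV (hV : Valid P N R Q l r S TT) (v : VV P l TT) (hv : v ≠ 0) :
    5 * qS R r ≤ finrank K (LinearMap.range (PfV P l TT v)) := by
  have hlr := hV.le
  have hTT : TT ≤ P.T l := (hV.TT_le).trans (P.T_anti hlr)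
  obtain ⟨⟨c, hc⟩, rfl⟩ := Submodule.Quotient.mk_surjective _ v
  have hc0 : c ∉ IIT P l TT := fun h => hv ((mk_ne_zero_iff P).2
    fun t ht t' ht' => h.2 t ht t' (hTT ht'))
  obtain ⟨u, hu, c', hc1, hc2, hc3⟩ := AdmExist.exists_top P hV le_rfl c hc hc0
  have h5 := hV.rank u hu c' hc1 hc3
  have hc'l : c' ∈ P.KK l := P.KK_mono (by omega) hc1
  have e : (PPb P r c').domRestrict₁₂ TT TT = PfV P l TT (Submodule.Quotient.mk ⟨c, hc⟩) := by
    ext t t'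
    simp only [LinearMap.domRestrict₁₂_apply, PPb_apply, PfV_mk]
    rw [P.PP_of_le hlr hc'l]
    have h6 := hc2.2 t t.2 t' (hTT t'.2)
    have h7 := P.PP_add_c l (c - c') c' t t'
    rw [sub_add_cancel] at h7
    rw [h7, h6, zero_add]
  unfold rkOn at h5
  rw [e] at h5
  exact h5

omit [Infinite K] in
/-- `dim VV(l) ≤ q#(l)`. -/
lemma finrank_VV_le (hV : Valid P N R Q l r S TT) : finrank K (VV P l TT) ≤ qS R l := by
  have h0 := AdmExist.finrank_MMT_le P hV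
  have h1 := (NN P l TT).finrank_quotient_add_finrank
  have h2 : finrank K (AdmExist.MMT P l TT) + finrank K (IIT P l TT) = finrank K (P.KK l) :=
    P.finrank_MMN_add (AdmExist.IIT_le_KK P l TT)
  have hTT : TT ≤ P.T l := (hV.TT_le).trans (P.T_anti hV.le)
  have h3 : (IIT P l TT).comap (P.KK l).subtype ≤ NN P l TT := by
    intro c hc t ht t' ht'
    exact hc.2 t ht t' (hTT ht')
  have h4 := Submodule.finrank_mono h3
  have h5 : finrank K ((IIT P l TT).comap (P.KK l).subtype) = finrank K (IIT P l TT) :=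
    (Submodule.comapSubtypeEquivOfLe (AdmExist.IIT_le_KK P l TT)).finrank_eq
  have h6 : finrank K (VV P l TT) = finrank K ((P.KK l) ⧸ NN P l TT) := rfl
  omega

omit [Infinite K] in
/-- The forms as functions on `𝕋 × 𝕋`. -/
noncomputable def fmap (k : ℕ) (TT : Submodule K (Fin 2 → A)) : P.KK k →ₗ[K] (TT × TT → K) where
  toFun c p := P.PP k c p.1 p.2
  map_add' c c' := by
    funext p
    simp [P.PP_add_c]
  map_smul' s c := by
    funext p
    simp [P.PP_smul_c]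

omit [Infinite K] in
@[simp] lemma fmap_apply (k : ℕ) (TT : Submodule K (Fin 2 → A)) (c : P.KK k) (p : TT × TT) :
    fmap P k TT c p = P.PP k c p.1 p.2 := rfl

omit [Infinite K] in
lemma finrank_VV_eq (k : ℕ) (TT : Submodule K (Fin 2 → A)) :
    finrank K (VV P k TT) = finrank K (LinearMap.range (fmap P k TT)) := by
  have h1 := (NN P k TT).finrank_quotient_add_finrank
  have h2 := LinearMap.finrank_range_add_finrank_ker (fmap P k TT)
  have h3 : LinearMap.ker (fmap P k TT) = NN P k TT := by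
    ext c
    rw [LinearMap.mem_ker, mem_NN]
    constructor
    · intro h t ht t' ht'
      exact congrFun h (⟨t, ht⟩, ⟨t', ht'⟩)
    · intro h
      funext p
      exact h p.1 p.1.2 p.2 p.2.2
  rw [h3] at h2
  have h5 : finrank K (VV P k TT) = finrank K ((P.KK k) ⧸ NN P k TT) := rfl
  omega

/-! ### The forms of the prefix `l+1` -/

omit [Infinite K] in
/-- **Counting** (V4 at the index `l`): `dim VV(l+1) ≤ q#(l+1)`. -/
lemma finrank_VV_succ_le (hV : Valid P N R Q l r S TT)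
    (h4' : finrank K (RR P S l) ≤ finrank K (P.Mov l) + (R l).q)
    (hlift : ∀ p ∈ PPl P S l, ∃ c ∈ P.KK (l + 1), c l = p ∧ ∃ c0 ∈ P.KK l,
      ∀ t ∈ TT, ∀ t' ∈ TT, P.PP (l + 1) c t t' = P.PP l c0 t t') :
    finrank K (VV P (l + 1) TT) ≤ qS R (l + 1) := by
  classical
  have hdimφ := finrank_VV_eq P (l + 1) TT
  have hdimψ := finrank_VV_eq P l TT
  have hl0 := finrank_VV_le P hV
  let π : P.KK (l + 1) →ₗ[K] A := LinearMap.proj l ∘ₗ (P.KK (l + 1)).subtype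
  have hrange : finrank K (LinearMap.range π) = finrank K (P.Ann l) := by
    have : LinearMap.range π = P.Ann l := by
      ext x
      rw [P.mem_Ann_iff_lift]
      constructor
      · rintro ⟨c, rfl⟩
        exact ⟨c, c.2, rfl⟩
      · rintro ⟨c, hc, rfl⟩
        exact ⟨⟨c, hc⟩, rfl⟩
    rw [this]
  have hmain := finrank_range_add_le (fmap P (l + 1) TT) π (LinearMap.range (fmap P l TT))
    (PPl P S l) (by
      intro x hx
      have hxl : (x : ℕ → A) ∈ P.KK l := P.mem_KK_of_last x.2 hx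
      refine ⟨⟨x, hxl⟩, ?_⟩
      funext p
      exact (P.PP_of_le (Nat.le_succ l) hxl p.1 p.2).symm) (by
      intro p hp
      obtain ⟨c, hc, hcl, c0, hc0, hform⟩ := hlift p hp
      refine ⟨⟨c, hc⟩, hcl, ⟨c0, hc0⟩, ?_⟩
      funext q
      exact (hform q.1 q.1.2 q.2 q.2.2).symm)
  have h1 := P.finrank_Ann_add l
  have h2 := AdmExist.finrank_RR_add P S l
  have h3 : qS R (l + 1) = qS R l + (R l).q := by
    simp only [qS, Finset.sum_range_succ]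
  omega

omit [Infinite K] in
/-- The implied vectors form a subspace. -/
lemma lift_of_good_set (hlift : ∀ y ∈ S l, ∀ p ∈ PPy P l y, ∃ c ∈ P.KK (l + 1), c l = p ∧
      ∃ c0 ∈ P.KK l, ∀ t ∈ TT, ∀ t' ∈ TT, P.PP (l + 1) c t t' = P.PP l c0 t t') :
    ∀ p ∈ PPl P S l, ∃ c ∈ P.KK (l + 1), c l = p ∧ ∃ c0 ∈ P.KK l,
      ∀ t ∈ TT, ∀ t' ∈ TT, P.PP (l + 1) c t t' = P.PP l c0 t t' := by
  let π : P.KK (l + 1) →ₗ[K] A := LinearMap.proj l ∘ₗ (P.KK (l + 1)).subtype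
  have hle : PPl P S l ≤ ((LinearMap.range (fmap P l TT)).comap (fmap P (l + 1) TT)).map π := by
    refine iSup₂_le fun y hy p hp => ?_
    obtain ⟨c, hc, hcl, c0, hc0, hform⟩ := hlift y hy p hp
    refine ⟨⟨c, hc⟩, ⟨⟨c0, hc0⟩, ?_⟩, hcl⟩
    funext q
    exact (hform q.1 q.1.2 q.2 q.2.2).symm
  intro p hp
  obtain ⟨c, ⟨c0, hc0⟩, rfl⟩ := hle hp
  refine ⟨c, c.2, rfl, c0, c0.2, fun t ht t' ht' => ?_⟩
  exact (congrFun hc0 (⟨t, ht⟩, ⟨t', ht'⟩)).symm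

/-- **Step (3)**: partners with `H1` at the prefix `l+1`, for generic `t1`. -/
lemma exists_pair_succ (hV : Valid P N R Q l r S TT) (hlr : l < r)
    (hq : finrank K (VV P (l + 1) TT) ≤ qS R (l + 1)) {t1 : TT}
    (ht1 : t1 ∈ S1 (PfV P l TT) (UU P TT)) :
    ∃ t2 : TT, Adm P l TT (t1 : Fin 2 → A) t2 ∧ ∀ c ∈ P.KK (l + 1), P.PP (l + 1) c t1 t2 = 0 := by
  classical
  have hVV := finrank_VV_le P hV
  have hq1 := AdmExist.qS_mono R hV.le
  have hq2 := AdmExist.qS_mono R (show l + 1 ≤ r from hlr)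
  have hbig := hV.TT_big
  have hUU := finrank_UU P TT
  have h2 := finrank_T0_ge (PfV P (l + 1) TT) t1
  have h3 : finrank K ↥(UU P TT ⊔ Submodule.span K {t1}) ≤ finrank K (UU P TT) + 1 :=
    finrank_sup_span_le _ t1
  have hT1 : ¬ T0 (PfV P (l + 1) TT) t1 ≤ UU P TT ⊔ Submodule.span K {t1} := fun h => by
    have := Submodule.finrank_mono h
    omega
  obtain ⟨t2, h2T1, h2U, hs⟩ := exists_pair_in (PfV P l TT) ht1.2 (T0 (PfV P (l + 1) TT) t1)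
    (UU P TT ⊔ Submodule.span K {t1}) hT1 (fun v hv => by
      have := rank_VV P hV v hv
      omega)
  refine ⟨t2, mkAdm P hV (fun c hc h0 => AdmExist.mem_IIT_of_rank_zero P hV le_rfl hc h0) ht1.1 h2U
    ?_ hs, ?_⟩
  · intro v
    obtain ⟨c, rfl⟩ := Submodule.Quotient.mk_surjective _ v
    rw [PfV_mk, ← P.PP_of_le (Nat.le_succ l) c.2]
    exact (mem_T0.1 h2T1) (Submodule.Quotient.mk ⟨c, P.KK_mono (Nat.le_succ l) c.2⟩)
  · intro c hc
    exact (mem_T0.1 h2T1) (Submodule.Quotient.mk ⟨c, hc⟩)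

/-- The vanishing for generic `t1` gives the vanishing on `𝕋`. -/
lemma mem_IIT_of_S1 (hV : Valid P N R Q l r S TT) {c : ℕ → A} (hc : c ∈ P.KK (l + 1))
    (h : ∀ t1 ∈ S1 (PfV P l TT) (UU P TT), ∀ τ' ∈ P.T (l + 1), P.PP (l + 1) c t1 τ' = 0) :
    c ∈ IIT P (l + 1) TT := by
  classical
  refine ⟨hc, fun t ht τ' hτ' => ?_⟩
  have hVV := finrank_VV_le P hV
  have hq1 := AdmExist.qS_mono R hV.le
  have hbig := hV.TT_big
  have hUU := finrank_UU P TT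
  have hne : UU P TT ≠ ⊤ := by
    intro h0
    rw [h0, finrank_top] at hUU
    have h1 : finrank K ↥(TT ⊓ Inn P) ≤ finrank K TT :=
      Submodule.finrank_mono (inf_le_left)
    omega
  have hS := S1_nonempty (PfV P l TT) (UU P TT) hne (fun v hv => by
    have := rank_VV P hV v hv
    omega)
  let f : TT →ₗ[K] K := ((PPb P (l + 1) c).flip τ') ∘ₗ TT.subtype
  have h0 := eq_zero_of_lineOpen f (S1_open (PfV P l TT) (UU P TT)) hS (fun t1 ht1 => h t1 ht1 τ' hτ')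
  exact LinearMap.congr_fun h0 ⟨t, ht⟩

end Abstract

/-! ### The tower -/

section Tower

open LU LU.Tw0 LU.Tw Plan

variable [Tw0] [Tw] {F : Subfield U} [CentF F] {Ls : Lst F} {n : ℕ} [Fact (F ≤ Kn n)] {ρ : Stt n}
  {l r : ℕ} {S : ℕ → Set (An n)} {TT : Submodule (Kn n) (Fin 2 → An n)}

lemma zeta_ne_one (n : ℕ) : (lv n).lev.ζ ≠ 1 := by
  rw [(lv n).lev_ζ]
  exact (lv n).ζ_prim.ne_one (lv n).m_prime.one_lt

lemma inf_mu (n : ℕ) : {μ : CE | (lv n).lev.ζ ^ (lv n).lev.κ μ ≠ 1}.Infinite := by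
  have hζ := (lv n).ζ_prim
  have hm : 0 < (lv n).m := (lv n).m_prime.pos
  have hm1 := (lv n).m_prime.one_lt
  refine Set.infinite_of_injective_forall_mem
    (f := fun a : ℕ => (((lv n).m * a + 1 : ℕ) : ℤ) • sExp) ?_ ?_
  · intro a b hab
    have h1 := congrArg κ hab
    simp only [map_zsmul, κ_sExp, smul_eq_mul, mul_one] at h1
    have h2 : (lv n).m * a + 1 = (lv n).m * b + 1 := by exact_mod_cast h1
    have h3 : (lv n).m * a = (lv n).m * b := by omega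
    exact Nat.eq_of_mul_eq_mul_left hm h3
  · intro a
    show (lv n).lev.ζ ^ (lv n).lev.κ _ ≠ 1
    rw [(lv n).lev_ζ, (lv n).lev_κ]
    simp only [map_zsmul, κ_sExp, smul_eq_mul, mul_one]
    rw [Ne, hζ.zpow_eq_one_iff_dvd]
    intro h
    have h2 : (lv n).m ∣ (lv n).m * a + 1 := by exact_mod_cast h
    have h3 : (lv n).m ∣ 1 := (Nat.dvd_add_right (Dvd.intro a rfl)).1 h2
    exact absurd (Nat.le_of_dvd one_pos h3) (by omega)

/-- **Step (1)**: the form of a lift vanishes on the pairs admissible for the prefix `l`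
(first error at order `2`). -/
theorem key_pair (hO : Orc F l) (hK : KeyS F l) (hC : Ctx F Ls n ρ l r S TT) (hlr : l < r)
    {t1 t2 : Fin 2 → An n} (hA : Adm (pt F n ρ Ls.a) l TT t1 t2) {y : An n}
    (hy : Good (pt F n ρ Ls.a) (N n) (Ls.R l) l y) {p : An n} (hp : p ∈ PPy (pt F n ρ Ls.a) l y)
    {c : ℕ → An n} (hc : c ∈ (pt F n ρ Ls.a).KK (l + 1)) (hcl : c l = p) :
    (pt F n ρ Ls.a).PP (l + 1) c t1 t2 = 0 := by
  have hV := hC.valid
  have hTT : TT ≤ (pt F n ρ Ls.a).T (l + 1) := hV.TT_le.trans ((pt F n ρ Ls.a).T_anti hlr)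
  obtain ⟨X', g', hex, hfs, herr, hform⟩ := first_error_two (L := (lv n).lev)
    (P := pt F n ρ Ls.a) (hTT hA.mem1) (hTT hA.mem2)
    (fun c hc τ hτ => ⟨hA.S1 c hc τ hτ, hA.S2 c hc τ hτ⟩) hA.H1
    (IIT (pt F n ρ Ls.a) l TT)
    (fun φ₁ φ₂ hφ₁ hφ₂ => by
      obtain ⟨t', ht', hk⟩ := hA.H2 φ₁ φ₂ hφ₁ hφ₂
      exact ⟨t', (pt F n ρ Ls.a).T_anti (Nat.le_succ l) (hTT ht'), hk⟩)
    (hO Ls n ρ r S TT hC t1 t2 hA)
  have hFrame : Frame F Ls n ρ l t1 t2 2 X' (g0 (lv n).lev (pt F n ρ Ls.a) t1 t2 l) :=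
    ⟨hfs, by simp [g0], herr⟩
  have key := (hK Ls n ρ r S TT hlr hC t1 t2 hA y hy).2 2 le_rfl X' g' _ hex hFrame (lv n).lev.μ₁ p hp
  have h := hform c hc
  rw [hcl] at h
  have hS : (pt F n ρ Ls.a).SS (l + 1) c t1 t2 = 0 :=
    hV.TT_S (l + 1) hlr t1 hA.mem1 c hc t2 (hTT hA.mem2)
  rw [hS, mul_zero, zero_add] at h
  have h1 := h.symm.trans key
  have h2 : (lv n).lev.ζ - 1 ≠ 0 := sub_ne_zero.2 (zeta_ne_one n)
  have h3 : (2 : Kn n)⁻¹ ≠ 0 := inv_ne_zero two_ne_zero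
  simpa [h2, h3] using h1

/-- **Step (2)**: a lift of `p ∈ 𝒫(y)`, `y` good, has the form of an element of `𝕂(l)` on `𝕋` (LLD). -/
theorem lift_mod (hO : Orc F l) (hK : KeyS F l) (hC : Ctx F Ls n ρ l r S TT) (hlr : l < r) {y : An n}
    (hy : Good (pt F n ρ Ls.a) (N n) (Ls.R l) l y) {p : An n} (hp : p ∈ PPy (pt F n ρ Ls.a) l y) :
    ∃ c ∈ (pt F n ρ Ls.a).KK (l + 1), c l = p ∧ ∃ c0 ∈ (pt F n ρ Ls.a).KK l,
      ∀ t ∈ TT, ∀ t' ∈ TT, (pt F n ρ Ls.a).PP (l + 1) c t t' = (pt F n ρ Ls.a).PP l c0 t t' := by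
  classical
  have hV := hC.valid
  obtain ⟨t1, t2, hA⟩ := AdmExist.exists_adm_abs (pt F n ρ Ls.a) hV
  have hfirst := (hK Ls n ρ r S TT hlr hC t1 t2 hA y hy).1 p hp
  obtain ⟨c, hc, hcl⟩ := ((pt F n ρ Ls.a).exists_lift_iff l hp.1.symm).2 hfirst
  refine ⟨c, hc, hcl, ?_⟩
  have hVV := finrank_VV_le (pt F n ρ Ls.a) hV
  have hq1 := AdmExist.qS_mono Ls.R hV.le
  have hbig := hV.TT_big
  have hUU := finrank_UU (pt F n ρ Ls.a) TT
  obtain ⟨v0, hv0⟩ := exists_eq_of_admissible_zero (PfV (pt F n ρ Ls.a) l TT)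
    ((PPb (pt F n ρ Ls.a) (l + 1) c).domRestrict₁₂ TT TT) (UU (pt F n ρ Ls.a) TT) (by omega)
    (fun v hv => by
      have := rank_VV (pt F n ρ Ls.a) hV v hv
      omega)
    (fun t1 t2 h1 h2 hH1 hs => key_pair hO hK hC hlr
      (mkAdm (pt F n ρ Ls.a) hV
        (fun c hc h0 => AdmExist.mem_IIT_of_rank_zero (pt F n ρ Ls.a) hV le_rfl hc h0) h1 h2 hH1 hs)
      hy hp hc hcl)
  obtain ⟨⟨c0, hc0⟩, rfl⟩ := Submodule.Quotient.mk_surjective _ v0
  refine ⟨c0, hc0, fun t ht t' ht' => ?_⟩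
  have := LinearMap.congr_fun (LinearMap.congr_fun hv0 ⟨t, ht⟩) ⟨t', ht'⟩
  exact this

/-- **Step (3)**: first error at order `3`: the form of a lift vanishes on `t1 × T(l+1)` for a pair
with `H1` at the prefix `l+1`. -/
theorem key_three (hO : Orc F l) (hK : KeyS F l) (hC : Ctx F Ls n ρ l r S TT) (hlr : l < r)
    {t1 t2 : Fin 2 → An n} (hA : Adm (pt F n ρ Ls.a) l TT t1 t2)
    (hH1 : ∀ c ∈ (pt F n ρ Ls.a).KK (l + 1), (pt F n ρ Ls.a).PP (l + 1) c t1 t2 = 0) {y : An n}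
    (hy : Good (pt F n ρ Ls.a) (N n) (Ls.R l) l y) {p : An n} (hp : p ∈ PPy (pt F n ρ Ls.a) l y)
    {c : ℕ → An n} (hc : c ∈ (pt F n ρ Ls.a).KK (l + 1)) (hcl : c l = p)
    (h0 : ∀ t ∈ TT, ∀ t' ∈ TT, (pt F n ρ Ls.a).PP (l + 1) c t t' = 0)
    {τ' : Fin 2 → An n} (hτ' : τ' ∈ (pt F n ρ Ls.a).T (l + 1)) :
    (pt F n ρ Ls.a).PP (l + 1) c t1 τ' = 0 := by
  classical
  have hV := hC.valid
  have hTT : TT ≤ (pt F n ρ Ls.a).T (l + 1) := hV.TT_le.trans ((pt F n ρ Ls.a).T_anti hlr)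
  have hle := Nat.le_succ l
  let φ : (Fin 2 → An n) → ((ℕ → An n) →ₗ[Kn n] Kn n) := fun t =>
    (((pt F n ρ Ls.a).PPtri (l + 1)).flip t).flip τ'
  have hφ : ∀ t c, φ t c = (pt F n ρ Ls.a).PP (l + 1) c t τ' := fun _ _ => rfl
  have hφ0 : ∀ t ∈ TT, ∀ c ∈ IIT (pt F n ρ Ls.a) l TT, φ t c = 0 := by
    intro t ht c hc
    rw [hφ, (pt F n ρ Ls.a).PP_of_le hle hc.1]
    exact hc.2 t ht τ' ((pt F n ρ Ls.a).T_anti hle hτ')
  obtain ⟨τ'', hτ'', hk⟩ := hA.H2 (φ t1) (φ t2) (hφ0 t1 hA.mem1) (hφ0 t2 hA.mem2)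
  have hτ₀ : τ' - τ'' ∈ (pt F n ρ Ls.a).T (l + 1) := sub_mem hτ' (hTT hτ'')
  have e : ∀ (k : ℕ) (c : ℕ → An n) (t a b : Fin 2 → An n),
      (pt F n ρ Ls.a).PP k c t (a - b) = (pt F n ρ Ls.a).PP k c t a - (pt F n ρ Ls.a).PP k c t b := by
    intro k c t a b
    have := ((pt F n ρ Ls.a).PPtri k c t).map_sub a b
    simpa using this
  have hτ₀0 : ∀ c ∈ (pt F n ρ Ls.a).KK l, (pt F n ρ Ls.a).PP l c t1 (τ' - τ'') = 0 ∧
      (pt F n ρ Ls.a).PP l c t2 (τ' - τ'') = 0 := by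
    intro c hc
    obtain ⟨h1, h2⟩ := hk c hc
    rw [e, e, h1, h2, hφ, hφ, (pt F n ρ Ls.a).PP_of_le hle hc, (pt F n ρ Ls.a).PP_of_le hle hc]
    simp
  obtain ⟨μ, X', g', gl, hμ, hex, hfs, hlead, herr, hform⟩ := first_error_three (L := (lv n).lev)
    (P := pt F n ρ Ls.a) (hTT hA.mem1) (hTT hA.mem2)
    (fun c hc τ hτ => ⟨hV.TT_S (l + 1) hlr t1 hA.mem1 c hc τ hτ,
      hV.TT_S (l + 1) hlr t2 hA.mem2 c hc τ hτ⟩)
    (fun c hc τ hτ => ⟨hA.S1 c hc τ hτ, hA.S2 c hc τ hτ⟩) hH1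
    (IIT (pt F n ρ Ls.a) l TT) (AdmExist.IIT_le_KK (pt F n ρ Ls.a) l TT)
    (fun φ₁ φ₂ hφ₁ hφ₂ => by
      obtain ⟨t', ht', hk⟩ := hA.H2 φ₁ φ₂ hφ₁ hφ₂
      exact ⟨t', (pt F n ρ Ls.a).T_anti hle (hTT ht'), hk⟩)
    (fun φ₁ φ₂ hφ₁ hφ₂ => by
      obtain ⟨t', ht', hk⟩ := hA.H2 φ₁ φ₂ hφ₁ hφ₂
      refine ⟨t', hTT ht', fun c hc => ?_⟩
      rw [(pt F n ρ Ls.a).PP_of_le hle hc, (pt F n ρ Ls.a).PP_of_le hle hc]
      exact hk c hc)
    (hO Ls n ρ r S TT hC t1 t2 hA) (inf_mu n) hτ₀ hτ₀0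
  have hFrame : Frame F Ls n ρ l t1 t2 3 X' gl := ⟨hfs, hlead, herr⟩
  have key := (hK Ls n ρ r S TT hlr hC t1 t2 hA y hy).2 3 (by norm_num) X' g' gl hex hFrame μ p hp
  have h := hform c hc
  rw [hcl] at h
  have h1 := h.symm.trans key
  have h2 : (lv n).lev.ζ ^ (lv n).lev.κ μ - 1 ≠ 0 := sub_ne_zero.2 hμ
  have h3 : (2 : Kn n)⁻¹ ≠ 0 := inv_ne_zero two_ne_zero
  have h4 : (pt F n ρ Ls.a).PP (l + 1) c t1 (τ' - τ'') = 0 := by
    simpa [h2, h3] using h1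
  rw [e, h0 t1 hA.mem1 τ'' hτ'', sub_zero] at h4
  exact h4

/-- **PROP I.** The elements of `𝒫(y)`, `y` good, lift into `IIT(l+1,𝕋)`. -/
theorem lift_good (hO : Orc F l) (hK : KeyS F l) (hC : Ctx F Ls n ρ l r S TT) (hlr : l < r)
    (hg : ∀ y ∈ S l, Good (pt F n ρ Ls.a) (N n) (Ls.R l) l y)
    (h4' : finrank (Kn n) (RR (pt F n ρ Ls.a) S l) ≤
      finrank (Kn n) ((pt F n ρ Ls.a).Mov l) + (Ls.R l).q) {y : An n}
    (hy : Good (pt F n ρ Ls.a) (N n) (Ls.R l) l y) {p : An n} (hp : p ∈ PPy (pt F n ρ Ls.a) l y) :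
    ∃ c ∈ IIT (pt F n ρ Ls.a) (l + 1) TT, c l = p := by
  classical
  have hV := hC.valid
  have hle := Nat.le_succ l
  have hq := finrank_VV_succ_le (pt F n ρ Ls.a) hV h4' (lift_of_good_set (pt F n ρ Ls.a)
    (fun y hyS p hp => lift_mod hO hK hC hlr (hg y hyS) hp))
  obtain ⟨c₁, hc₁, hcl, c0, hc0, hform⟩ := lift_mod hO hK hC hlr hy hp
  have hc : c₁ - c0 ∈ (pt F n ρ Ls.a).KK (l + 1) :=
    sub_mem hc₁ ((pt F n ρ Ls.a).KK_mono hle hc0)
  have hcl' : (c₁ - c0) l = p := by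
    have : c0 l = 0 := hc0.1 l le_rfl
    simp [this, hcl]
  have h0 : ∀ t ∈ TT, ∀ t' ∈ TT, (pt F n ρ Ls.a).PP (l + 1) (c₁ - c0) t t' = 0 := by
    intro t ht t' ht'
    have h7 := (pt F n ρ Ls.a).PP_add_c (l + 1) (c₁ - c0) c0 t t'
    rw [sub_add_cancel, hform t ht t' ht', (pt F n ρ Ls.a).PP_of_le hle hc0] at h7
    exact (add_eq_right.1 h7.symm)
  refine ⟨c₁ - c0, mem_IIT_of_S1 (pt F n ρ Ls.a) hV hc ?_, hcl'⟩
  intro t1 ht1 τ' hτ'
  obtain ⟨t2, hA, hH1⟩ := exists_pair_succ (pt F n ρ Ls.a) hV hlr hq ht1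
  exact key_three hO hK hC hlr hA hH1 hy hp hc hcl' h0 hτ'

/-- **PROP I**, the clause `lift` of `Valid` at the index `l`. -/
theorem lift_PPl (hO : Orc F l) (hK : KeyS F l) (hC : Ctx F Ls n ρ l r S TT) (hlr : l < r)
    (hg : ∀ y ∈ S l, Good (pt F n ρ Ls.a) (N n) (Ls.R l) l y)
    (h4' : finrank (Kn n) (RR (pt F n ρ Ls.a) S l) ≤
      finrank (Kn n) ((pt F n ρ Ls.a).Mov l) + (Ls.R l).q) :
    ∀ p ∈ PPl (pt F n ρ Ls.a) S l, ∃ c ∈ IIT (pt F n ρ Ls.a) (l + 1) TT, c l = p := by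
  have hle : PPl (pt F n ρ Ls.a) S l ≤
      (IIT (pt F n ρ Ls.a) (l + 1) TT).map (LinearMap.proj l) := by
    refine iSup₂_le fun y hy p hp => ?_
    obtain ⟨c, hc, hcl⟩ := lift_good hO hK hC hlr hg h4' (hg y hy) hp
    exact ⟨c, hc, hcl⟩
  intro p hp
  obtain ⟨c, hc, hcl⟩ := hle hp
  exact ⟨c, hc, hcl⟩

end Tower

end Crest.Agent.Kurosh.PropI
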