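/-
S0270, blueprint §J(a),(b) (helper55): first order calculus at a fresh level-up and the leading
vectors of `𝕂(k)(X)` and `T(k)(X)`.

Setting: `L : Lv K A K' R τ`, `P : Pt F K A (Fin 2)` the state `ρ`, `X : Fin 2 → R`,
`g : ℕ → R` an exact solution for the prefix `k`, with leading terms `ρ + (t₁ + t₂ μ₁) s'`.
-/
import Crest.Agent.Kurosh.PlanDefs
import Crest.Agent.Kurosh.AdmExist

set_option autoImplicit false
set_option linter.unusedSectionVars false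

namespace Crest.Agent.Kurosh.ValA

open Hensel Module LU Calculus
open _root_.Crest.Agent.Kurosh.Inv
open _root_.Crest.Agent.Kurosh.Inv.St

variable {F K A K' R : Type*} [Field F] [Field K] [DivisionRing A] [Algebra K A] [Field K']
  [DivisionRing R] [Algebra K R] [Algebra K' R] [Algebra K K'] [IsScalarTower K K' R]
  {τ : A →ₗ[K] K} [Algebra F K] [Algebra F A] [IsScalarTower F K A] [Algebra F R]
  [IsScalarTower F K R]
  (L : Lv K A K' R τ)

/-! ### Monomials and coefficients -/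

lemma coeff_mono_mul (x : A) (n : CE) (j : ℕ) (y : R) (m : CE) (j' : ℕ) :
    L.lev.coeff m (j + j') (L.lev.mono x n j * y)
      = L.lev.ζ ^ ((j : ℤ) * L.lev.κ (m - n)) • (x * L.lev.coeff (m - n) j' y) := by
  rw [L.lev_coeff, L.lev_coeff, map_mul, L.lev_mono, L.lev_ζ, L.lev_κ]
  have h := THS.coeff_mono_mul (ε := twist κ L.ζ L.ζ_ne) (idx n (j : ℤ)) x (L.φ y)
    (idx (m - n) (j' : ℤ))
  rw [idx_add] at h
  have e1 : n + (m - n) = m := by abel
  rw [e1] at h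
  push_cast
  rw [h]
  rfl

lemma coeff_mul_mono (x : A) (n : CE) (j : ℕ) (y : R) (m : CE) (j' : ℕ) :
    L.lev.coeff m (j' + j) (y * L.lev.mono x n j)
      = L.lev.ζ ^ ((j' : ℤ) * L.lev.κ n) • (L.lev.coeff (m - n) j' y * x) := by
  rw [L.lev_coeff, L.lev_coeff, map_mul, L.lev_mono, L.lev_ζ, L.lev_κ]
  have h := THS.coeff_mul_mono (ε := twist κ L.ζ L.ζ_ne) (idx n (j : ℤ)) x (L.φ y)
    (idx (m - n) (j' : ℤ))
  rw [idx_add] at h
  have e1 : m - n + n = m := by abel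
  rw [e1] at h
  push_cast
  rw [h]
  rfl


variable {ι : Type*}

/-- The coefficient of the mixed second derivative with a monomial on the left. -/
lemma coeff_B_mono_left (ρ t : ι → A) (n1 : CE) (δ : ι → R) (m : CE) (J : ℕ)
    (a : FreeAlgebra F ι) :
    L.lev.coeff m (1 + J) (B (fun v => L.lev.inc (ρ v)) (fun v => L.lev.mono (t v) n1 1) δ a)
      = L.lev.ζ ^ (L.lev.κ (m - n1))
        • State.d2 ρ t (fun v => L.lev.coeff (m - n1) J (δ v)) a := by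
  induction a using fa_induction with
  | hc c => simp
  | hι i => simp
  | hadd a b ha hb => simp only [B_add, map_add, State.d2_add, ha, hb, smul_add]
  | hmul a b ha hb =>
    rw [B_mul, State.d2_mul, map_add, map_add, L.lev.ev_inc, L.lev.ev_inc, L.lev.coeff_mul_inc,
      L.lev.coeff_inc_mul, ha, hb, L.lev.pd_mono, coeff_mono_mul, L.lev.coeff_pd]
    simp only [Nat.cast_one, one_mul, smul_add, smul_mul_assoc, mul_smul_comm]
    rfl

/-- The coefficient of the mixed second derivative with a monomial on the right. -/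
lemma coeff_B_mono_right (ρ t : ι → A) (n1 : CE) (δ : ι → R) (m : CE) (J : ℕ)
    (a : FreeAlgebra F ι) :
    L.lev.coeff m (J + 1) (B (fun v => L.lev.inc (ρ v)) δ (fun v => L.lev.mono (t v) n1 1) a)
      = L.lev.ζ ^ ((J : ℤ) * L.lev.κ n1)
        • State.d2 ρ (fun v => L.lev.coeff (m - n1) J (δ v)) t a := by
  induction a using fa_induction with
  | hc c => simp
  | hι i => simp
  | hadd a b ha hb => simp only [B_add, map_add, State.d2_add, ha, hb, smul_add]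
  | hmul a b ha hb =>
    rw [B_mul, State.d2_mul, map_add, map_add, L.lev.ev_inc, L.lev.ev_inc, L.lev.coeff_mul_inc,
      L.lev.coeff_inc_mul, ha, hb, L.lev.pd_mono, coeff_mul_mono, L.lev.coeff_pd]
    simp only [smul_add, smul_mul_assoc, mul_smul_comm]
    rfl

/-- Zeroth order: the coefficient of `∂a[X; δ]` at the lowest order of `δ`. -/
theorem coeff_pd_zero {ρ : ι → A} {X δ : ι → R} {J : ℕ}
    (hX : ∀ v, X v - L.lev.inc (ρ v) ∈ L.lev.Φ.fil 1) (hδ : ∀ v, δ v ∈ L.lev.Φ.fil J) (m : CE)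
    (a : FreeAlgebra F ι) :
    L.lev.coeff m J (pd X δ a) = State.d1 ρ (fun v => L.lev.coeff m J (δ v)) a := by
  have hρ : ∀ v, L.lev.inc (ρ v) ∈ L.lev.Φ.fil 0 := fun v => L.lev.inc_mem _
  have hXe : X = (fun v => L.lev.inc (ρ v)) + (fun v => X v - L.lev.inc (ρ v)) := by
    funext v; simp
  have h := pd_taylor0 L.lev.Φ (L.lev.coef_mem (F := F)) hρ hX hδ a
  rw [← hXe] at h
  have h0 := L.lev.coeff_fil (n := m) (j := J) h (by omega)
  rw [map_sub, sub_eq_zero, L.lev.coeff_pd] at h0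
  exact h0

/-- First order: the coefficient of `∂a[X; δ]` one order above the lowest order of `δ`. -/
theorem coeff_pd_one {ρ t1 t2 : ι → A} {X δ : ι → R} {J : ℕ}
    (hX : ∀ v, X v - (L.lev.inc (ρ v) + L.lev.mono (t1 v) 0 1 + L.lev.mono (t2 v) L.lev.μ₁ 1)
      ∈ L.lev.Φ.fil 2) (hδ : ∀ v, δ v ∈ L.lev.Φ.fil J) (m : CE) (a : FreeAlgebra F ι) :
    L.lev.coeff m (J + 1) (pd X δ a) =
      State.d1 ρ (fun v => L.lev.coeff m (J + 1) (δ v)) a
      + L.lev.ζ ^ L.lev.κ m • State.d2 ρ t1 (fun v => L.lev.coeff m J (δ v)) a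
      + State.d2 ρ (fun v => L.lev.coeff m J (δ v)) t1 a
      + L.lev.ζ ^ L.lev.κ (m - L.lev.μ₁) •
          State.d2 ρ t2 (fun v => L.lev.coeff (m - L.lev.μ₁) J (δ v)) a
      + L.lev.ζ ^ (J : ℤ) • State.d2 ρ (fun v => L.lev.coeff (m - L.lev.μ₁) J (δ v)) t2 a := by
  classical
  have hρ : ∀ v, L.lev.inc (ρ v) ∈ L.lev.Φ.fil 0 := fun v => L.lev.inc_mem _
  set V1 : ι → R := fun v => L.lev.mono (t1 v) 0 1 with hV1
  set V2 : ι → R := fun v => L.lev.mono (t2 v) L.lev.μ₁ 1 with hV2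
  set Vr : ι → R := fun v => X v - (L.lev.inc (ρ v) + L.lev.mono (t1 v) 0 1 + L.lev.mono (t2 v) L.lev.μ₁ 1)
    with hVr
  have hV : ∀ v, (V1 + V2 + Vr) v ∈ L.lev.Φ.fil 1 := fun v =>
    add_mem (add_mem (L.lev.mono_mem _ _ _) (L.lev.mono_mem _ _ _)) (L.lev.Φ.anti (by omega) (hX v))
  have hXe : X = (fun v => L.lev.inc (ρ v)) + (V1 + V2 + Vr) := by
    funext v
    simp only [Pi.add_apply, hV1, hV2, hVr]
    abel
  have h := pd_taylor1 L.lev.Φ (L.lev.coef_mem (F := F)) hρ hV hδ a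
  rw [← hXe] at h
  have h0 := L.lev.coeff_fil (n := m) (j := J + 1) h (by omega)
  rw [B_left_add, B_left_add, B_right_add, B_right_add] at h0
  have hr1 : L.lev.coeff m (J + 1) (B (fun v => L.lev.inc (ρ v)) Vr δ a) = 0 :=
    L.lev.coeff_fil (B_mem L.lev.Φ (L.lev.coef_mem (F := F)) hρ hX hδ a) (by omega)
  have hr2 : L.lev.coeff m (J + 1) (B (fun v => L.lev.inc (ρ v)) δ Vr a) = 0 :=
    L.lev.coeff_fil (B_mem L.lev.Φ (L.lev.coef_mem (F := F)) hρ hδ hX a) (by omega)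
  have h1 := coeff_B_mono_left (F := F) L ρ t1 0 δ m J a
  have h2 := coeff_B_mono_left (F := F) L ρ t2 L.lev.μ₁ δ m J a
  have h3 := coeff_B_mono_right (F := F) L ρ t1 0 δ m J a
  have h4 := coeff_B_mono_right (F := F) L ρ t2 L.lev.μ₁ δ m J a
  rw [Nat.add_comm 1 J] at h1 h2
  simp only [sub_zero, map_zero, mul_zero, zpow_zero, one_smul, L.lev.κ_μ₁, mul_one] at h1 h3 h4
  simp only [map_sub, map_add] at h0
  rw [hr1, hr2, L.lev.coeff_pd, h1, h2, h3, h4] at h0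
  rw [sub_eq_zero] at h0
  simp only [sub_eq_iff_eq_add] at h0
  rw [h0]
  abel


/-! ### Products with elements of order `0` -/

section Products

variable {J : ℕ}

lemma coeff_left_zero {h : R} {b : A} {y : R} (hh : h - L.lev.inc b ∈ L.lev.Φ.fil 1)
    (hy : y ∈ L.lev.Φ.fil J) (m : CE) : L.lev.coeff m J (h * y) = b * L.lev.coeff m J y := by
  have h1 : h * y = (h - L.lev.inc b) * y + L.lev.inc b * y := by noncomm_ring
  rw [h1, map_add, L.lev.coeff_inc_mul,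
    L.lev.coeff_fil (L.lev.Φ.mul_mem hh hy) (by omega : J < 1 + J), zero_add]

lemma coeff_right_zero {h : R} {b : A} {y : R} (hh : h - L.lev.inc b ∈ L.lev.Φ.fil 1)
    (hy : y ∈ L.lev.Φ.fil J) (m : CE) : L.lev.coeff m J (y * h) = L.lev.coeff m J y * b := by
  have h1 : y * h = y * (h - L.lev.inc b) + y * L.lev.inc b := by noncomm_ring
  rw [h1, map_add, L.lev.coeff_mul_inc,
    L.lev.coeff_fil (L.lev.Φ.mul_mem hy hh) (by omega : J < J + 1), zero_add]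

lemma coeff_left_one {h : R} {b w1 w2 : A} {y : R}
    (hh : h - (L.lev.inc b + L.lev.mono w1 0 1 + L.lev.mono w2 L.lev.μ₁ 1) ∈ L.lev.Φ.fil 2)
    (hy : y ∈ L.lev.Φ.fil J) (m : CE) :
    L.lev.coeff m (J + 1) (h * y) = b * L.lev.coeff m (J + 1) y
      + L.lev.ζ ^ L.lev.κ m • (w1 * L.lev.coeff m J y)
      + L.lev.ζ ^ L.lev.κ (m - L.lev.μ₁) • (w2 * L.lev.coeff (m - L.lev.μ₁) J y) := by
  have h1 : h * y = (h - (L.lev.inc b + L.lev.mono w1 0 1 + L.lev.mono w2 L.lev.μ₁ 1)) * y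
      + L.lev.inc b * y + L.lev.mono w1 0 1 * y + L.lev.mono w2 L.lev.μ₁ 1 * y := by noncomm_ring
  rw [h1, map_add, map_add, map_add, L.lev.coeff_inc_mul,
    L.lev.coeff_fil (L.lev.Φ.mul_mem hh hy) (by omega : J + 1 < 2 + J), zero_add,
    Nat.add_comm J 1, coeff_mono_mul, coeff_mono_mul]
  simp only [sub_zero, Nat.cast_one, one_mul]

lemma coeff_right_one {h : R} {b w1 w2 : A} {y : R}
    (hh : h - (L.lev.inc b + L.lev.mono w1 0 1 + L.lev.mono w2 L.lev.μ₁ 1) ∈ L.lev.Φ.fil 2)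
    (hy : y ∈ L.lev.Φ.fil J) (m : CE) :
    L.lev.coeff m (J + 1) (y * h) = L.lev.coeff m (J + 1) y * b
      + L.lev.coeff m J y * w1
      + L.lev.ζ ^ (J : ℤ) • (L.lev.coeff (m - L.lev.μ₁) J y * w2) := by
  have h1 : y * h = y * (h - (L.lev.inc b + L.lev.mono w1 0 1 + L.lev.mono w2 L.lev.μ₁ 1))
      + y * L.lev.inc b + y * L.lev.mono w1 0 1 + y * L.lev.mono w2 L.lev.μ₁ 1 := by noncomm_ring
  rw [h1, map_add, map_add, map_add, L.lev.coeff_mul_inc,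
    L.lev.coeff_fil (L.lev.Φ.mul_mem hy hh) (by omega : J + 1 < J + 2), zero_add,
    coeff_mul_mono, coeff_mul_mono]
  simp only [sub_zero, map_zero, mul_zero, zpow_zero, one_smul, L.lev.κ_μ₁, mul_one]

/-- The value of a word at `X`, to the first order. -/
theorem ev_lead {ρ t1 t2 : ι → A} {X : ι → R}
    (hX : ∀ v, X v - (L.lev.inc (ρ v) + L.lev.mono (t1 v) 0 1 + L.lev.mono (t2 v) L.lev.μ₁ 1)
      ∈ L.lev.Φ.fil 2) (a : FreeAlgebra F ι) :
    ev X a - (L.lev.inc (State.ev ρ a) + L.lev.mono (State.d1 ρ t1 a) 0 1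
      + L.lev.mono (State.d1 ρ t2 a) L.lev.μ₁ 1) ∈ L.lev.Φ.fil 2 := by
  have hρ : ∀ v, L.lev.inc (ρ v) ∈ L.lev.Φ.fil 0 := fun v => L.lev.inc_mem _
  set V1 : ι → R := fun v => L.lev.mono (t1 v) 0 1 with hV1
  set V2 : ι → R := fun v => L.lev.mono (t2 v) L.lev.μ₁ 1 with hV2
  set Vr : ι → R := fun v => X v - (L.lev.inc (ρ v) + L.lev.mono (t1 v) 0 1 + L.lev.mono (t2 v) L.lev.μ₁ 1)
    with hVr
  have hV : ∀ v, (V1 + V2 + Vr) v ∈ L.lev.Φ.fil 1 := fun v =>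
    add_mem (add_mem (L.lev.mono_mem _ _ _) (L.lev.mono_mem _ _ _)) (L.lev.Φ.anti (by omega) (hX v))
  have hXe : X = (fun v => L.lev.inc (ρ v)) + (V1 + V2 + Vr) := by
    funext v
    simp only [Pi.add_apply, hV1, hV2, hVr]
    abel
  have h := taylor1 L.lev.Φ (L.lev.coef_mem (F := F)) hρ hV a
  rw [← hXe, pd_dir_add, pd_dir_add, L.lev.ev_inc, L.lev.pd_mono, L.lev.pd_mono] at h
  have hr := pd_mem L.lev.Φ (L.lev.coef_mem (F := F)) hρ hX a
  have e : ev X a - (L.lev.inc (State.ev ρ a) + L.lev.mono (State.d1 ρ t1 a) 0 1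
      + L.lev.mono (State.d1 ρ t2 a) L.lev.μ₁ 1)
      = (ev X a - L.lev.inc (ev ρ a) - (L.lev.mono (State.d1 ρ t1 a) 0 1
        + L.lev.mono (State.d1 ρ t2 a) L.lev.μ₁ 1 + pd (fun i => L.lev.inc (ρ i)) Vr a))
        + pd (fun i => L.lev.inc (ρ i)) Vr a := by
    have : State.ev ρ a = ev ρ a := rfl
    rw [this]
    abel
  rw [e]
  exact add_mem h hr

/-- A unit of order `0`: the inverse has order `0`. -/
lemma inv_mem_fil {g : R} (hg : g - 1 ∈ L.lev.Φ.fil 1) : g ≠ 0 ∧ g⁻¹ ∈ L.lev.Φ.fil 0 := by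
  classical
  have hc0 : ∀ h : GLv, (ofLex h).1 < 1 → (L.φ (g - 1)).coeff h = 0 := by
    intro h hh
    by_contra hne
    have := (L.lev_fil 1 (g - 1)).1 hg h hne
    have h' : ((1 : ℕ) : ℤ) ≤ (ofLex h).1 := this
    simp only [Nat.cast_one] at h'
    omega
  have hG : (L.φ g) = 1 + L.φ (g - 1) := by
    rw [map_sub, map_one]; abel
  have h00 : (L.φ g).coeff 0 = 1 := by
    rw [hG, THS.coeff_add, hc0 0 (by simp), add_zero, THS.coeff_one, if_pos rfl]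
  have hne : L.φ g ≠ 0 := by
    intro h0
    rw [h0, THS.coeff_zero] at h00
    exact zero_ne_one h00
  have hg0 : g ≠ 0 := by
    rintro rfl
    exact hne (map_zero _)
  refine ⟨hg0, ?_⟩
  have hord1 : (L.φ g).ord ≤ 0 := THS.ord_le (by rw [h00]; exact one_ne_zero)
  have hord2 : 0 ≤ (ofLex (L.φ g).ord).1 := by
    by_contra hlt
    have hmem := THS.ord_mem hne
    apply hmem
    set o := (L.φ g).ord with ho
    show (L.φ g).coeff o = 0
    rw [hG, THS.coeff_add, hc0 _ (by omega), add_zero, THS.coeff_one, if_neg]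
    intro h0
    rw [h0] at hlt
    exact hlt (by simp)
  have hord3 : (ofLex (L.φ g).ord).1 = 0 := by
    have := fst_mono hord1
    have h' : (ofLex (L.φ g).ord).1 ≤ 0 := this
    omega
  rw [L.lev_fil]
  intro h hh
  have hinv : L.φ g⁻¹ = (L.φ g)⁻¹ := map_inv₀ _ _
  have hne' : (L.φ g)⁻¹ ≠ 0 := inv_ne_zero hne
  have h1 : (L.φ g * (L.φ g)⁻¹).ord = (L.φ g).ord + ((L.φ g)⁻¹).ord := THS.ord_mul hne hne'
  rw [mul_inv_cancel₀ hne] at h1
  have h2 : (1 : THS A (twist κ L.ζ L.ζ_ne)).ord = 0 := by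
    have h3 := THS.ord_mul (x := (1 : THS A (twist κ L.ζ L.ζ_ne))) one_ne_zero one_ne_zero
    rw [one_mul] at h3
    simpa using h3
  rw [h2] at h1
  have h4 : (ofLex ((L.φ g)⁻¹).ord).1 = 0 := by
    have := congrArg (fun x => (ofLex x).1) h1
    simp only [ofLex_add, Prod.fst_add, hord3, zero_add] at this
    exact this.symm
  rw [hinv] at hh
  have h5 := fst_mono (THS.ord_le (x := (L.φ g)⁻¹) (h := h) hh)
  rw [h4] at h5
  simpa using h5

/-- The inverse of `g = 1 + w₁ s' + w₂ μ₁ s' + …`. -/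
lemma inv_lead {g : R} {w1 w2 : A}
    (hg : g - (1 + L.lev.mono w1 0 1 + L.lev.mono w2 L.lev.μ₁ 1) ∈ L.lev.Φ.fil 2) :
    g⁻¹ - (L.lev.inc 1 + L.lev.mono (-w1) 0 1 + L.lev.mono (-w2) L.lev.μ₁ 1) ∈ L.lev.Φ.fil 2 := by
  set u := L.lev.mono w1 0 1 + L.lev.mono w2 L.lev.μ₁ 1 with hu
  set r := g - (1 + L.lev.mono w1 0 1 + L.lev.mono w2 L.lev.μ₁ 1) with hr
  have hu1 : u ∈ L.lev.Φ.fil 1 := add_mem (L.lev.mono_mem _ _ _) (L.lev.mono_mem _ _ _)
  have hge : g = 1 + u + r := by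
    rw [hr, hu]; abel
  have hg1 : g - 1 ∈ L.lev.Φ.fil 1 := by
    have : g - 1 = u + r := by rw [hge]; abel
    rw [this]
    exact add_mem hu1 (L.lev.Φ.anti (by omega) hg)
  obtain ⟨hg0, hinv⟩ := inv_mem_fil L hg1
  have e1 : L.lev.mono (-w1) 0 1 + L.lev.mono (-w2) L.lev.μ₁ 1 = -u := by
    rw [L.lev.mono_neg, L.lev.mono_neg, hu]; abel
  have e2 : g⁻¹ - (L.lev.inc 1 + L.lev.mono (-w1) 0 1 + L.lev.mono (-w2) L.lev.μ₁ 1)
      = g⁻¹ * (u * u - r + r * u) := by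
    have e3 : g⁻¹ * (u * u - r + r * u) = g⁻¹ * (1 - g * (1 - u)) := by
      rw [hge]; noncomm_ring
    rw [e3, mul_sub, ← mul_assoc, inv_mul_cancel₀ hg0, add_assoc, e1, map_one]
    noncomm_ring
  rw [e2]
  have h3 : u * u - r + r * u ∈ L.lev.Φ.fil 2 := by
    refine add_mem (sub_mem (L.lev.Φ.mul_mem hu1 hu1) hg) ?_
    exact L.lev.Φ.anti (by omega) (L.lev.Φ.mul_mem hg hu1)
  simpa using L.lev.Φ.mul_mem hinv h3

end Products


/-! ### The linearised equation -/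

section Linearised

variable {ρ t1 t2 : ι → A} {X t' : ι → R} {g η : R} {w1 w2 : A} {J : ℕ}

lemma hX_one (hX : ∀ v, X v - (L.lev.inc (ρ v) + L.lev.mono (t1 v) 0 1 + L.lev.mono (t2 v) L.lev.μ₁ 1)
      ∈ L.lev.Φ.fil 2) (v : ι) : X v - L.lev.inc (ρ v) ∈ L.lev.Φ.fil 1 := by
  have e : X v - L.lev.inc (ρ v) = (X v - (L.lev.inc (ρ v) + L.lev.mono (t1 v) 0 1
      + L.lev.mono (t2 v) L.lev.μ₁ 1)) + L.lev.mono (t1 v) 0 1 + L.lev.mono (t2 v) L.lev.μ₁ 1 := by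
    abel
  rw [e]
  exact add_mem (add_mem (L.lev.Φ.anti (by omega) (hX v)) (L.lev.mono_mem _ _ _))
    (L.lev.mono_mem _ _ _)

lemma hX_zero (hX : ∀ v, X v - (L.lev.inc (ρ v) + L.lev.mono (t1 v) 0 1 + L.lev.mono (t2 v) L.lev.μ₁ 1)
      ∈ L.lev.Φ.fil 2) (v : ι) : X v ∈ L.lev.Φ.fil 0 := by
  have e : X v = (X v - L.lev.inc (ρ v)) + L.lev.inc (ρ v) := by abel
  rw [e]
  exact add_mem (L.lev.Φ.anti (by omega) (hX_one L hX v)) (L.lev.inc_mem _)

lemma hg_one (hg : g - (1 + L.lev.mono w1 0 1 + L.lev.mono w2 L.lev.μ₁ 1) ∈ L.lev.Φ.fil 2) :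
    g - L.lev.inc 1 ∈ L.lev.Φ.fil 1 := by
  have e : g - L.lev.inc 1 = (g - (1 + L.lev.mono w1 0 1 + L.lev.mono w2 L.lev.μ₁ 1))
      + L.lev.mono w1 0 1 + L.lev.mono w2 L.lev.μ₁ 1 := by
    rw [map_one]; abel
  rw [e]
  exact add_mem (add_mem (L.lev.Φ.anti (by omega) hg) (L.lev.mono_mem _ _ _)) (L.lev.mono_mem _ _ _)

lemma hg_two (hg : g - (1 + L.lev.mono w1 0 1 + L.lev.mono w2 L.lev.μ₁ 1) ∈ L.lev.Φ.fil 2) :
    g - (L.lev.inc 1 + L.lev.mono w1 0 1 + L.lev.mono w2 L.lev.μ₁ 1) ∈ L.lev.Φ.fil 2 := by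
  rwa [map_one]

lemma hg_zero (hg : g - (1 + L.lev.mono w1 0 1 + L.lev.mono w2 L.lev.μ₁ 1) ∈ L.lev.Φ.fil 2) :
    g ∈ L.lev.Φ.fil 0 := by
  have e : g = (g - L.lev.inc 1) + L.lev.inc 1 := by abel
  rw [e]
  exact add_mem (L.lev.Φ.anti (by omega) (hg_one L hg)) (L.lev.inc_mem _)

/-- `∂a[X;t'] g + a(X) η - η a(ρ)` has order `J`. -/
theorem D_mem (hX : ∀ v, X v - (L.lev.inc (ρ v) + L.lev.mono (t1 v) 0 1
      + L.lev.mono (t2 v) L.lev.μ₁ 1) ∈ L.lev.Φ.fil 2)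
    (hg : g - (1 + L.lev.mono w1 0 1 + L.lev.mono w2 L.lev.μ₁ 1) ∈ L.lev.Φ.fil 2)
    (ht' : ∀ v, t' v ∈ L.lev.Φ.fil J) (hη : η ∈ L.lev.Φ.fil J) (a : FreeAlgebra F ι) :
    pd X t' a * g + ev X a * η - η * L.lev.inc (State.ev ρ a) ∈ L.lev.Φ.fil J := by
  refine sub_mem (add_mem ?_ ?_) ?_
  · simpa using L.lev.Φ.mul_mem (pd_mem L.lev.Φ (L.lev.coef_mem (F := F)) (hX_zero L hX) ht' a)
      (hg_zero L hg)
  · simpa using L.lev.Φ.mul_mem (ev_mem L.lev.Φ (L.lev.coef_mem (F := F)) (hX_zero L hX) a) hη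
  · simpa using L.lev.Φ.mul_mem hη (L.lev.inc_mem _)

/-- The coefficient of the linearised equation at the lowest order. -/
theorem coeff_D_zero (hX : ∀ v, X v - (L.lev.inc (ρ v) + L.lev.mono (t1 v) 0 1
      + L.lev.mono (t2 v) L.lev.μ₁ 1) ∈ L.lev.Φ.fil 2)
    (hg : g - (1 + L.lev.mono w1 0 1 + L.lev.mono w2 L.lev.μ₁ 1) ∈ L.lev.Φ.fil 2)
    (ht' : ∀ v, t' v ∈ L.lev.Φ.fil J) (hη : η ∈ L.lev.Φ.fil J) (m : CE) (a : FreeAlgebra F ι) :
    L.lev.coeff m J (pd X t' a * g + ev X a * η - η * L.lev.inc (State.ev ρ a)) =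
      State.d1 ρ (fun v => L.lev.coeff m J (t' v)) a
        + (State.ev ρ a * L.lev.coeff m J η - L.lev.coeff m J η * State.ev ρ a) := by
  have hp := pd_mem L.lev.Φ (L.lev.coef_mem (F := F)) (hX_zero L hX) ht' a
  have hH : ev X a - L.lev.inc (State.ev ρ a) ∈ L.lev.Φ.fil 1 := by
    have h := ev_lead (F := F) L hX a
    have e : ev X a - L.lev.inc (State.ev ρ a) = (ev X a - (L.lev.inc (State.ev ρ a)
        + L.lev.mono (State.d1 ρ t1 a) 0 1 + L.lev.mono (State.d1 ρ t2 a) L.lev.μ₁ 1))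
        + L.lev.mono (State.d1 ρ t1 a) 0 1 + L.lev.mono (State.d1 ρ t2 a) L.lev.μ₁ 1 := by
      abel
    rw [e]
    exact add_mem (add_mem (L.lev.Φ.anti (by omega) h) (L.lev.mono_mem _ _ _))
      (L.lev.mono_mem _ _ _)
  rw [map_sub, map_add, coeff_right_zero L (hg_one L hg) hp, coeff_left_zero L hH hη,
    L.lev.coeff_mul_inc, coeff_pd_zero (F := F) L (hX_one L hX) ht', mul_one, add_sub_assoc]

/-- The coefficient of the linearised equation one order above the lowest. -/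
theorem coeff_D_one (hX : ∀ v, X v - (L.lev.inc (ρ v) + L.lev.mono (t1 v) 0 1
      + L.lev.mono (t2 v) L.lev.μ₁ 1) ∈ L.lev.Φ.fil 2)
    (hg : g - (1 + L.lev.mono w1 0 1 + L.lev.mono w2 L.lev.μ₁ 1) ∈ L.lev.Φ.fil 2)
    (ht' : ∀ v, t' v ∈ L.lev.Φ.fil J) (hη : η ∈ L.lev.Φ.fil J) (m : CE) (a : FreeAlgebra F ι) :
    L.lev.coeff m (J + 1) (pd X t' a * g + ev X a * η - η * L.lev.inc (State.ev ρ a)) =
      State.d1 ρ (fun v => L.lev.coeff m (J + 1) (t' v)) a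
      + (State.ev ρ a * L.lev.coeff m (J + 1) η - L.lev.coeff m (J + 1) η * State.ev ρ a)
      + L.lev.ζ ^ L.lev.κ m • (State.d2 ρ t1 (fun v => L.lev.coeff m J (t' v)) a
          + State.d1 ρ t1 a * L.lev.coeff m J η)
      + (State.d2 ρ (fun v => L.lev.coeff m J (t' v)) t1 a
          + State.d1 ρ (fun v => L.lev.coeff m J (t' v)) a * w1)
      + L.lev.ζ ^ L.lev.κ (m - L.lev.μ₁) •
          (State.d2 ρ t2 (fun v => L.lev.coeff (m - L.lev.μ₁) J (t' v)) a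
            + State.d1 ρ t2 a * L.lev.coeff (m - L.lev.μ₁) J η)
      + L.lev.ζ ^ (J : ℤ) • (State.d2 ρ (fun v => L.lev.coeff (m - L.lev.μ₁) J (t' v)) t2 a
          + State.d1 ρ (fun v => L.lev.coeff (m - L.lev.μ₁) J (t' v)) a * w2) := by
  have hp := pd_mem L.lev.Φ (L.lev.coef_mem (F := F)) (hX_zero L hX) ht' a
  rw [map_sub, map_add, coeff_right_one L (hg_two L hg) hp, coeff_left_one L (ev_lead (F := F) L hX a) hη,
    L.lev.coeff_mul_inc, coeff_pd_one (F := F) L hX ht', coeff_pd_zero (F := F) L (hX_one L hX) ht',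
    coeff_pd_zero (F := F) L (hX_one L hX) ht', mul_one]
  simp only [smul_add]
  abel

/-- The effect of `g⁻¹` on the coefficients. -/
theorem coeff_inv_mul_zero (hg : g - (1 + L.lev.mono w1 0 1 + L.lev.mono w2 L.lev.μ₁ 1)
      ∈ L.lev.Φ.fil 2) {y : R} (hy : y ∈ L.lev.Φ.fil J) (m : CE) :
    L.lev.coeff m J (g⁻¹ * y) = L.lev.coeff m J y := by
  have h := inv_lead L hg
  have h1 : g⁻¹ - L.lev.inc 1 ∈ L.lev.Φ.fil 1 := by
    have e : g⁻¹ - L.lev.inc 1 = (g⁻¹ - (L.lev.inc 1 + L.lev.mono (-w1) 0 1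
        + L.lev.mono (-w2) L.lev.μ₁ 1)) + L.lev.mono (-w1) 0 1 + L.lev.mono (-w2) L.lev.μ₁ 1 := by
      abel
    rw [e]
    exact add_mem (add_mem (L.lev.Φ.anti (by omega) h) (L.lev.mono_mem _ _ _))
      (L.lev.mono_mem _ _ _)
  rw [coeff_left_zero L h1 hy, one_mul]

theorem coeff_inv_mul_one (hg : g - (1 + L.lev.mono w1 0 1 + L.lev.mono w2 L.lev.μ₁ 1)
      ∈ L.lev.Φ.fil 2) {y : R} (hy : y ∈ L.lev.Φ.fil J) (m : CE) :
    L.lev.coeff m (J + 1) (g⁻¹ * y) = L.lev.coeff m (J + 1) y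
      - L.lev.ζ ^ L.lev.κ m • (w1 * L.lev.coeff m J y)
      - L.lev.ζ ^ L.lev.κ (m - L.lev.μ₁) • (w2 * L.lev.coeff (m - L.lev.μ₁) J y) := by
  rw [coeff_left_one L (inv_lead L hg) hy, one_mul, neg_mul, neg_mul, smul_neg, smul_neg]
  abel

end Linearised


/-! ### The frame at an exact solution -/

lemma mu1_pos : (0 : CE) < mu1 := by
  rw [Prod.Lex.lt_iff]
  left
  show (ofLex (0:CE)).1 < (ofLex (cExp 0 + sExp)).1
  have h : (ofLex (cExp 0 + sExp)).1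
      = (toLex (Finsupp.single (OrderDual.toDual 0) (1:ℤ)) : Levels.CExp) :=
    add_zero _
  rw [h, Finsupp.Lex.lt_iff]
  refine ⟨OrderDual.toDual 0, ?_, ?_⟩
  · intro j hj
    have hne : OrderDual.toDual 0 ≠ j := (ne_of_lt hj).symm
    show (0:ℤ) = Finsupp.single (OrderDual.toDual 0) (1:ℤ) j
    rw [Finsupp.single_apply, if_neg hne]
  · show (0:ℤ) < Finsupp.single (OrderDual.toDual 0) (1:ℤ) (OrderDual.toDual 0)
    rw [Finsupp.single_apply, if_pos rfl]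
    exact one_pos

variable [Algebra F K'] [IsScalarTower F K' R]

/-- `X`, `g`: an exact solution for the prefix `k`, over the state `P`, with `P'` the state `X`. -/
structure Frm (P : State.Pt F K A (Fin 2)) (P' : State.Pt F K' R (Fin 2)) (k : ℕ)
    (t1 t2 : Fin 2 → A) (g : ℕ → R) : Prop where
  a_eq : P'.a = P.a
  τ_eq : P'.τ = L.τ'
  Pτ_eq : P.τ = τ
  leadX : ∀ v, P'.ρ v - (L.lev.inc (P.ρ v) + L.lev.mono (t1 v) 0 1
    + L.lev.mono (t2 v) L.lev.μ₁ 1) ∈ L.lev.Φ.fil 2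
  leadg : ∀ i < k, g i - (1 + L.lev.mono (P.w i t1) 0 1 + L.lev.mono (P.w i t2) L.lev.μ₁ 1)
    ∈ L.lev.Φ.fil 2
  exact : ∀ i < k, L.lev.E P P'.ρ g i = 0

namespace Frm

variable {L}
variable {P : State.Pt F K A (Fin 2)} {P' : State.Pt F K' R (Fin 2)} {k : ℕ}
  {t1 t2 : Fin 2 → A} {g : ℕ → R}

/-- The frame of an exact solution. -/
theorem of_PSol [FiniteDimensional K A] (ha : P'.a = P.a) (hτ' : P'.τ = L.τ') (hτ : P.τ = τ)
    (hS : ∀ J, L.lev.PSol P k J t1 t2 P'.ρ g) : Frm L P P' k t1 t2 g where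
  a_eq := ha
  τ_eq := hτ'
  Pτ_eq := hτ
  leadX := (hS 0).leadX
  leadg := (hS 0).leadg
  exact := fun _ hi => sub_eq_zero.mpr (L.lev.exact_of_PSol hS hi)

lemma g_ne (h : Frm L P P' k t1 t2 g) {i : ℕ} (hi : i < k) : g i ≠ 0 :=
  (inv_mem_fil L (by simpa using hg_one L (h.leadg i hi))).1

/-- `a_i(X) g_i = g_i β_i`. -/
lemma H_mul (h : Frm L P P' k t1 t2 g) {i : ℕ} (hi : i < k) :
    ev P'.ρ (P.a i) * g i = g i * L.lev.inc (P.β i) :=
  sub_eq_zero.mp (h.exact i hi)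

/-- `g_i⁻¹ a_i(X) = β_i g_i⁻¹`. -/
lemma inv_mul_H (h : Frm L P P' k t1 t2 g) {i : ℕ} (hi : i < k) :
    (g i)⁻¹ * ev P'.ρ (P.a i) = L.lev.inc (P.β i) * (g i)⁻¹ := by
  have h0 := h.g_ne hi
  have h1 := h.H_mul hi
  calc (g i)⁻¹ * ev P'.ρ (P.a i) = (g i)⁻¹ * (ev P'.ρ (P.a i) * g i) * (g i)⁻¹ := by
        rw [mul_assoc, mul_assoc, mul_inv_cancel₀ h0, mul_one]
    _ = L.lev.inc (P.β i) * (g i)⁻¹ := by
        rw [h1, ← mul_assoc, inv_mul_cancel₀ h0, one_mul]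

lemma β'_eq (h : Frm L P P' k t1 t2 g) (i : ℕ) : P'.β i = ev P'.ρ (P.a i) := by
  show State.ev P'.ρ (P'.a i) = _
  rw [h.a_eq]
  rfl

lemma dL'_eq (h : Frm L P P' k t1 t2 g) (i : ℕ) (t' : Fin 2 → R) :
    P'.dL i t' = pd P'.ρ t' (P.a i) := by
  rw [P'.dL_apply, h.a_eq, pd_eq_d1]

/-- **The frame**: at `t' ∈ T(l)(X)`, the linearised equation in the frame of `g_i` is a commutator
with `β_i`, for every `η`. -/
lemma Y_comm (h : Frm L P P' k t1 t2 g) {l i : ℕ} (hl : l ≤ k) (hi : i < l) {t' : Fin 2 → R}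
    (ht : t' ∈ P'.T l) (η : R) :
    ∃ v : R, (g i)⁻¹ * (pd P'.ρ t' (P.a i) * g i + ev P'.ρ (P.a i) * η
        - η * L.lev.inc (P.β i)) = L.lev.inc (P.β i) * v - v * L.lev.inc (P.β i) := by
  have hik := lt_of_lt_of_le hi hl
  have h0 := h.g_ne hik
  have h1 := h.H_mul hik
  have h2 := h.inv_mul_H hik
  have h3 := P'.dL_eq_of_mem hi ht
  rw [h.dL'_eq, h.β'_eq] at h3
  set w' := P'.w i t'
  set H := ev P'.ρ (P.a i)
  set b := L.lev.inc (P.β i)
  refine ⟨(g i)⁻¹ * η - (g i)⁻¹ * w' * g i, ?_⟩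
  rw [h3]
  have e1 : (g i)⁻¹ * (-(H * w' - w' * H) * g i + H * η - η * b)
      = -(((g i)⁻¹ * H) * (w' * g i)) + (g i)⁻¹ * w' * (H * g i) + ((g i)⁻¹ * H) * η
        - (g i)⁻¹ * η * b := by
    noncomm_ring
  rw [e1, h1, h2]
  noncomm_ring

/-- All the coefficients of the linearised equation at `t' ∈ T(l)(X)` are commutators with `β_i`. -/
lemma coeff_Y_comm (h : Frm L P P' k t1 t2 g) {l i : ℕ} (hl : l ≤ k) (hi : i < l) {t' : Fin 2 → R}
    (ht : t' ∈ P'.T l) (η : R) (m : CE) (j : ℕ) :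
    ∃ u : A, L.lev.coeff m j ((g i)⁻¹ * (pd P'.ρ t' (P.a i) * g i + ev P'.ρ (P.a i) * η
        - η * L.lev.inc (P.β i))) = P.β i * u - u * P.β i := by
  obtain ⟨v, hv⟩ := h.Y_comm hl hi ht η
  refine ⟨L.lev.coeff m j v, ?_⟩
  rw [hv, map_sub, L.lev.coeff_inc_mul, L.lev.coeff_mul_inc]

/-- `T`-lead, first half: the coefficients of `t'` at its lowest `s'`-order lie in `T(l)(ρ)`. -/
theorem coeff_mem_T (h : Frm L P P' k t1 t2 g) {l : ℕ} (hl : l ≤ k) {t' : Fin 2 → R}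
    (ht : t' ∈ P'.T l) {J : ℕ} (hJ : ∀ v, t' v ∈ L.lev.Φ.fil J) (m : CE) :
    (fun v => L.lev.coeff m J (t' v)) ∈ P.T l := by
  intro i hi
  have hik := lt_of_lt_of_le hi hl
  obtain ⟨u, hu⟩ := h.coeff_Y_comm hl hi ht 0 m J
  have hX := h.leadX
  have hg := h.leadg i hik
  have hD := D_mem (F := F) L hX hg hJ (zero_mem _) (P.a i)
  have e : (P.β i) = State.ev P.ρ (P.a i) := rfl
  rw [coeff_inv_mul_zero L hg (by rw [e] at *; exact hD), e, coeff_D_zero (F := F) L hX hg hJ (zero_mem _) m] at hu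
  simp only [map_zero, mul_zero, zero_mul, sub_zero, add_zero] at hu
  apply P.e_of_mem_imAd
  rw [State.mem_imAd]
  exact ⟨u, hu.symm⟩

/-- **The `T` relation.** -/
theorem T_relation [CharZero K] (h : Frm L P P' k t1 t2 g) {l : ℕ} (hl : l ≤ k) {t' : Fin 2 → R}
    (ht : t' ∈ P'.T l) {J : ℕ} (hJ : ∀ v, t' v ∈ L.lev.Φ.fil J) (m : CE) {c : ℕ → A}
    (hc : c ∈ P.KK l)
    (hS1 : ∀ τ₀ ∈ P.T l, P.SS l c t1 τ₀ = 0) (hS2 : ∀ τ₀ ∈ P.T l, P.SS l c t2 τ₀ = 0) :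
    (L.lev.ζ ^ L.lev.κ m - 1) * P.PP l c t1 (fun v => L.lev.coeff m J (t' v))
      + (L.lev.ζ ^ L.lev.κ (m - L.lev.μ₁) - L.lev.ζ ^ (J : ℤ))
        * P.PP l c t2 (fun v => L.lev.coeff (m - L.lev.μ₁) J (t' v)) = 0 := by
  classical
  set τm : Fin 2 → A := fun v => L.lev.coeff m J (t' v) with hτm
  set τ' : Fin 2 → A := fun v => L.lev.coeff (m - L.lev.μ₁) J (t' v) with hτ'
  set τ1 : Fin 2 → A := fun v => L.lev.coeff m (J + 1) (t' v) with hτ1
  have hTm : τm ∈ P.T l := h.coeff_mem_T hl ht hJ m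
  have hT' : τ' ∈ P.T l := h.coeff_mem_T hl ht hJ (m - L.lev.μ₁)
  have hμ : L.lev.μ₁ ≠ 0 := by
    intro h0
    have := L.lev.κ_μ₁
    rw [h0, map_zero] at this
    exact zero_ne_one this
  have hmm : m ≠ m - L.lev.μ₁ := by
    intro h0
    apply hμ
    have : m - L.lev.μ₁ - m = 0 := by rw [← h0]; abel
    have h1 : m - L.lev.μ₁ - m = - L.lev.μ₁ := by abel
    rw [h1] at this
    exact neg_eq_zero.mp this
  -- the equation at each index
  have key : ∀ i ∈ Finset.range l,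
      P.τ (c i * P.dL i τ1)
        + (L.lev.ζ ^ L.lev.κ m) * P.τ (c i * (State.d2 P.ρ t1 τm (P.a i) + P.dL i t1 * P.w i τm))
        + P.τ (c i * (State.d2 P.ρ τm t1 (P.a i) + P.dL i τm * P.w i t1))
        + (L.lev.ζ ^ L.lev.κ (m - L.lev.μ₁))
            * P.τ (c i * (State.d2 P.ρ t2 τ' (P.a i) + P.dL i t2 * P.w i τ'))
        + (L.lev.ζ ^ (J : ℤ)) * P.τ (c i * (State.d2 P.ρ τ' t2 (P.a i) + P.dL i τ' * P.w i t2))
        = 0 := by
    intro i hi
    have hil := Finset.mem_range.mp hi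
    have hik := lt_of_lt_of_le hil hl
    have hX := h.leadX
    have hg := h.leadg i hik
    set η : R := L.lev.mono (P.w i τm) m J + L.lev.mono (P.w i τ') (m - L.lev.μ₁) J with hη
    have hηJ : η ∈ L.lev.Φ.fil J := add_mem (L.lev.mono_mem _ _ _) (L.lev.mono_mem _ _ _)
    have hη1 : L.lev.coeff m J η = P.w i τm := by
      rw [hη, map_add, L.lev.coeff_mono_same, L.lev.coeff_mono_of_ne_n _ _ _ hmm, add_zero]
    have hη2 : L.lev.coeff (m - L.lev.μ₁) J η = P.w i τ' := by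
      rw [hη, map_add, L.lev.coeff_mono_same, L.lev.coeff_mono_of_ne_n _ _ _ hmm.symm, zero_add]
    have hη3 : L.lev.coeff m (J + 1) η = 0 := by
      rw [hη, map_add, L.lev.coeff_mono_of_ne_j _ _ _ (by omega),
        L.lev.coeff_mono_of_ne_j _ _ _ (by omega), add_zero]
    have hD := D_mem (F := F) L hX hg hJ hηJ (P.a i)
    have hD0 : ∀ (m' : CE) (τ₀ : Fin 2 → A), τ₀ ∈ P.T l →
        L.lev.coeff m' J η = P.w i τ₀ → (fun v => L.lev.coeff m' J (t' v)) = τ₀ →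
        L.lev.coeff m' J (pd P'.ρ t' (P.a i) * g i + ev P'.ρ (P.a i) * η
          - η * L.lev.inc (P.β i)) = 0 := by
      intro m' τ₀ hτ₀ h1 h2
      have h3 := coeff_D_zero (F := F) L hX hg hJ hηJ m' (P.a i)
      have e : (P.β i) = State.ev P.ρ (P.a i) := rfl
      rw [e, h3, h1, h2]
      have h4 := P.dL_add_comm_w i τ₀
      rw [hτ₀ i hil] at h4
      exact h4
    have hC1 := hD0 m τm hTm hη1 rfl
    have hC2 := hD0 (m - L.lev.μ₁) τ' hT' hη2 rfl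
    obtain ⟨u, hu⟩ := h.coeff_Y_comm hl hil ht η m (J + 1)
    have e : (P.β i) = State.ev P.ρ (P.a i) := rfl
    have hD' : pd P'.ρ t' (P.a i) * g i + ev P'.ρ (P.a i) * η
        - η * L.lev.inc (P.β i) ∈ L.lev.Φ.fil J := hD
    rw [coeff_inv_mul_one L hg hD', hC1, hC2, mul_zero, mul_zero, smul_zero, smul_zero, sub_zero,
      sub_zero] at hu
    have h3 := coeff_D_one (F := F) L hX hg hJ hηJ m (P.a i)
    have hu' : P.dL i τ1 + (L.lev.ζ ^ L.lev.κ m) • (State.d2 P.ρ t1 τm (P.a i) + P.dL i t1 * P.w i τm)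
        + (State.d2 P.ρ τm t1 (P.a i) + P.dL i τm * P.w i t1)
        + (L.lev.ζ ^ L.lev.κ (m - L.lev.μ₁)) •
            (State.d2 P.ρ t2 τ' (P.a i) + P.dL i t2 * P.w i τ')
        + (L.lev.ζ ^ (J : ℤ)) • (State.d2 P.ρ τ' t2 (P.a i) + P.dL i τ' * P.w i t2)
        = P.β i * u - u * P.β i := by
      rw [← hu]
      refine Eq.trans ?_ h3.symm
      rw [hη1, hη2, hη3]
      simp only [mul_zero, zero_mul, sub_zero, add_zero]
      rfl
    have h0 := P.τ_cent_comm (hc.2.1 i) u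
    rw [← hu'] at h0
    simp only [mul_add, mul_smul_comm, map_add, map_smul, smul_eq_mul] at h0 ⊢
    linear_combination h0
  have hsum := Finset.sum_eq_zero key
  simp only [Finset.sum_add_distrib, ← Finset.mul_sum] at hsum
  rw [hc.2.2 τ1, zero_add] at hsum
  have e1 := P.eps_combo l c t1 τm (L.lev.ζ ^ L.lev.κ m) 1
  have e2 := P.eps_combo l c t2 τ' (L.lev.ζ ^ L.lev.κ (m - L.lev.μ₁)) (L.lev.ζ ^ (J : ℤ))
  rw [hS1 τm hTm, mul_zero, zero_add] at e1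
  rw [hS2 τ' hT', mul_zero, zero_add] at e2
  simp only [State.Pt.Gam] at e1 e2
  have h2 : (2 : K) ≠ 0 := two_ne_zero
  have : (2 : K)⁻¹ * ((L.lev.ζ ^ L.lev.κ m - 1) * P.PP l c t1 τm
      + (L.lev.ζ ^ L.lev.κ (m - L.lev.μ₁) - L.lev.ζ ^ (J : ℤ)) * P.PP l c t2 τ') = 0 := by
    linear_combination hsum - e1 - e2
  exact (mul_eq_zero.mp this).resolve_left (inv_ne_zero h2)

end Frm


/-! ### Scaling by central monomials -/

section Scale

lemma zeta_pow_m_mul (a : ℤ) : L.ζ ^ ((L.m : ℤ) * a) = 1 := by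
  rw [zpow_mul, zpow_natCast, L.ζ_prim.pow_eq_one, one_zpow]

/-- Multiplication by the central monomial of exponent `(m N, 0)`. -/
lemma exists_scale (N : ℕ) : ∃ lam : K', ∀ (x : R) (h : GLv),
    L.c (idx 0 ((L.m : ℤ) * N) + h) (lam • x) = L.c h x := by
  classical
  set s : GLv := idx (0 : CE) ((L.m : ℤ) * N) with hs
  set x0 : R := L.φ.symm (THS.mono s 1) with hx0
  have hφ : L.φ x0 = THS.mono s 1 := by simp [hx0]
  have hmem : x0 ∈ (algebraMap K' R).range := by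
    rw [L.mem_K']
    intro g hg
    rw [hφ] at hg ⊢
    have hgs : g = s := by
      by_contra hne
      apply hg
      rw [THS.coeff_mono, if_neg hne]
    subst hgs
    refine ⟨⟨?_, ?_⟩, ?_⟩
    · exact ⟨(N : ℤ), rfl⟩
    · show (L.m : ℤ) ∣ κ (0 : CE)
      simp
    · rw [THS.coeff_mono, if_pos rfl]
      exact ⟨1, map_one _⟩
  obtain ⟨lam, hlam⟩ := hmem
  refine ⟨lam, fun x h => ?_⟩
  show (L.φ (lam • x)).coeff (s + h) = (L.φ x).coeff h
  rw [Algebra.smul_def, hlam, map_mul, hφ, THS.coeff_mono_mul, one_mul]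
  have : (twist κ L.ζ L.ζ_ne) s h = 1 := by
    show L.ζ ^ ((ofLex s).1 * κ (ofLex h).2) = 1
    have e : (ofLex s).1 = (L.m : ℤ) * N := rfl
    rw [e, mul_assoc, zeta_pow_m_mul]
  rw [this, one_smul]

end Scale

namespace Frm

variable {L}
variable {P : State.Pt F K A (Fin 2)} {P' : State.Pt F K' R (Fin 2)} {k : ℕ}
  {t1 t2 : Fin 2 → A} {g : ℕ → R}

/-- Vanishing of the coefficients below `idx n0 J` gives the order `J`. -/
lemma mem_fil_of_lead {x : R} {n0 : CE} {J : ℕ}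
    (he : ∀ h, h < idx n0 (J : ℤ) → L.c h x = 0) : x ∈ L.lev.Φ.fil J := by
  rw [L.lev_fil]
  intro h hh
  by_contra hlt
  push Not at hlt
  exact hh (he h (lt_of_fst_lt hlt))

/-- **`T`-lead** (blueprint §J(b), first half). -/
theorem T_lead [CharZero K] (h : Frm L P P' k t1 t2 g) {l : ℕ} (hl : l ≤ k) {t' : Fin 2 → R}
    (ht : t' ∈ P'.T l) (e : GLv) (he : ∀ v, ∀ h, h < e → L.c h (t' v) = 0)
    (hS1 : ∀ c ∈ P.KK l, ∀ τ₀ ∈ P.T l, P.SS l c t1 τ₀ = 0)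
    (hS2 : ∀ c ∈ P.KK l, ∀ τ₀ ∈ P.T l, P.SS l c t2 τ₀ = 0) :
    (fun v => L.c e (t' v)) ∈ allowed P l t1 t2 ((L.m : ℤ) ∣ κ (ofLex e).2)
      ((L.m : ℤ) ∣ κ (ofLex e).2 + 1 ∧ ¬ (L.m : ℤ) ∣ (ofLex e).1 + 1) := by
  set j0 := (ofLex e).1 with hj0
  set n0 := (ofLex e).2 with hn0
  have hm : 0 < L.m := L.m_prime.pos
  set N : ℕ := j0.natAbs with hN
  obtain ⟨lam, hlam⟩ := exists_scale L N
  set s : GLv := idx (0 : CE) ((L.m : ℤ) * N) with hs
  have hJ0 : 0 ≤ j0 + (L.m : ℤ) * N := by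
    have h1 : (1 : ℤ) ≤ L.m := by exact_mod_cast hm
    have h2 : -(N : ℤ) ≤ j0 := by rw [hN, Int.natCast_natAbs]; exact neg_abs_le j0
    have h3 : (N : ℤ) ≤ (L.m : ℤ) * N := le_mul_of_one_le_left (by positivity) h1
    linarith
  set J : ℕ := (j0 + (L.m : ℤ) * N).toNat with hJ
  have hJe : (J : ℤ) = j0 + (L.m : ℤ) * N := Int.toNat_of_nonneg hJ0
  have hes : s + e = idx n0 (J : ℤ) := by
    have : e = idx n0 j0 := rfl
    rw [this, hs, idx_add, zero_add, hJe, add_comm]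
  set t'' : Fin 2 → R := lam • t' with ht''
  have hT'' : t'' ∈ P'.T l := Submodule.smul_mem _ lam ht
  have hlead : ∀ v, ∀ h, h < idx n0 (J : ℤ) → L.c h (t'' v) = 0 := by
    intro v h hh
    have h1 := hlam (t' v) (h - s)
    rw [add_sub_cancel] at h1
    have h2 : h - s < e := by
      rw [sub_lt_iff_lt_add, add_comm, hes]
      exact hh
    exact h1.trans (he v _ h2)
  have hfil : ∀ v, t'' v ∈ L.lev.Φ.fil J := fun v => mem_fil_of_lead (hlead v)
  have hcoef : ∀ v, L.lev.coeff n0 J (t'' v) = L.c e (t' v) := by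
    intro v
    rw [L.lev_coeff]
    have h1 := hlam (t' v) e
    rw [hes] at h1
    exact h1
  have hτ0 : (fun v => L.lev.coeff n0 J (t'' v)) = fun v => L.c e (t' v) := funext hcoef
  have hT0 := h.coeff_mem_T hl hT'' hfil n0
  rw [hτ0] at hT0
  have hlow : ∀ v, L.lev.coeff (n0 - L.lev.μ₁) J (t'' v) = 0 := by
    intro v
    rw [L.lev_coeff]
    apply hlead v
    rw [Prod.Lex.lt_iff]
    right
    refine ⟨rfl, ?_⟩
    show n0 - L.lev.μ₁ < n0
    rw [L.lev_μ₁]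
    exact sub_lt_self _ mu1_pos
  have hζ : L.lev.ζ = L.ζ := L.lev_ζ
  have hκ : ∀ x, L.lev.κ x = κ x := fun x => by rw [L.lev_κ]
  have hμκ : L.lev.κ L.lev.μ₁ = 1 := L.lev.κ_μ₁
  refine ⟨hT0, fun hK0 c hc => ?_, fun hK1 c hc => ?_⟩
  · have hrel := h.T_relation hl hT'' hfil n0 hc (hS1 c hc) (hS2 c hc)
    have h0 : (fun v => L.lev.coeff (n0 - L.lev.μ₁) J (t'' v)) = 0 := funext hlow
    rw [h0, hτ0] at hrel
    have h00 : P.PP l c t2 0 = 0 := (PPb P l c t2).map_zero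
    rw [h00, mul_zero, add_zero] at hrel
    refine (mul_eq_zero.mp hrel).resolve_left ?_
    intro h1
    apply hK0
    rw [sub_eq_zero, hζ, hκ] at h1
    exact (L.ζ_prim.zpow_eq_one_iff_dvd _).mp h1
  · have hrel := h.T_relation hl hT'' hfil (n0 + L.lev.μ₁) hc (hS1 c hc) (hS2 c hc)
    rw [add_sub_cancel_right, hτ0] at hrel
    have h1 : L.lev.ζ ^ L.lev.κ (n0 + L.lev.μ₁) - 1 = 0 := by
      rw [map_add, hμκ, hζ, hκ, sub_eq_zero]
      exact (L.ζ_prim.zpow_eq_one_iff_dvd _).mpr hK1.1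
    rw [h1, zero_mul, zero_add] at hrel
    refine (mul_eq_zero.mp hrel).resolve_left ?_
    intro h2
    apply hK1.2
    rw [sub_eq_zero, hζ, hκ] at h2
    have h3 : L.ζ ^ (κ n0 - (J : ℤ)) = 1 := by
      rw [zpow_sub₀ L.ζ_ne, h2, div_self (zpow_ne_zero _ L.ζ_ne)]
    have h4 := (L.ζ_prim.zpow_eq_one_iff_dvd _).mp h3
    have h5 : j0 + 1 = (κ n0 + 1) - (κ n0 - (J : ℤ)) - (L.m : ℤ) * N := by
      rw [hJe]; ring
    rw [h5]
    exact dvd_sub (dvd_sub hK1.1 h4) (dvd_mul_right _ _)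

end Frm


/-! ### The `𝕂`-lead -/

namespace Frm

variable {L}
variable {P : State.Pt F K A (Fin 2)} {P' : State.Pt F K' R (Fin 2)} {k : ℕ}
  {t1 t2 : Fin 2 → A} {g : ℕ → R}

/-- The pairing in the frame of `g`: `τ'(c' d) = τ'(c'' g⁻¹ (d g + H η - η β))`. -/
lemma frame_pairing (h : Frm L P P' k t1 t2 g) {i : ℕ} (hi : i < k) {c' : R}
    (hc : ev P'.ρ (P.a i) * c' = c' * ev P'.ρ (P.a i)) (d η : R) :
    P'.τ (c' * d) = P'.τ (((g i)⁻¹ * c' * g i) * ((g i)⁻¹ * (d * g i + ev P'.ρ (P.a i) * η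
      - η * L.lev.inc (P.β i)))) := by
  have h0 := h.g_ne hi
  have h2 := h.inv_mul_H hi
  set H := ev P'.ρ (P.a i)
  set b := L.lev.inc (P.β i)
  set G := g i
  have e1 : G * G⁻¹ = 1 := mul_inv_cancel₀ h0
  have e2 : G⁻¹ * G = 1 := inv_mul_cancel₀ h0
  -- `c'' = G⁻¹ c' G` commutes with `b`
  have hcb : b * (G⁻¹ * c' * G) = (G⁻¹ * c' * G) * b := by
    have h1 := h.H_mul hi
    calc b * (G⁻¹ * c' * G) = (G⁻¹ * H) * c' * G := by rw [h2]; noncomm_ring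
      _ = G⁻¹ * (H * c') * G := by noncomm_ring
      _ = G⁻¹ * c' * (H * G) := by rw [hc]; noncomm_ring
      _ = (G⁻¹ * c' * G) * b := by rw [h1]; noncomm_ring
  set c'' := G⁻¹ * c' * G with hc''
  have e3 : c'' * (G⁻¹ * (d * G + H * η - η * b)) = c'' * (G⁻¹ * (d * G))
      + c'' * (b * (G⁻¹ * η)) - c'' * ((G⁻¹ * η) * b) := by
    have : G⁻¹ * (d * G + H * η - η * b) = G⁻¹ * (d * G) + (G⁻¹ * H) * η - (G⁻¹ * η) * b := by
      noncomm_ring
    rw [this, h2]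
    noncomm_ring
  rw [e3, map_sub, map_add]
  have e4 : P'.τ (c'' * (b * (G⁻¹ * η))) = P'.τ (c'' * ((G⁻¹ * η) * b)) := by
    have h5 : c'' * (b * (G⁻¹ * η)) = b * (c'' * (G⁻¹ * η)) := by
      rw [← mul_assoc, ← hcb, mul_assoc]
    have h6 : c'' * ((G⁻¹ * η) * b) = (c'' * (G⁻¹ * η)) * b := by noncomm_ring
    rw [h5, h6, P'.τ_comm]
  rw [e4, add_sub_cancel_right]
  have e5 : c'' * (G⁻¹ * (d * G)) = G⁻¹ * (c' * d * G) := by
    rw [hc'']
    have : G⁻¹ * c' * G * (G⁻¹ * (d * G)) = G⁻¹ * c' * (G * G⁻¹) * (d * G) := by noncomm_ring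
    rw [this, e1]
    noncomm_ring
  rw [e5, P'.τ_comm G⁻¹, mul_assoc, e1, mul_one]

/-- The linearised equation in the frame of `g`. -/
noncomputable def YY (L : Lv K A K' R τ) (P : State.Pt F K A (Fin 2)) (X : Fin 2 → R) (g : ℕ → R)
    (t' : Fin 2 → R) (η : ℕ → R) (i : ℕ) : R :=
  (g i)⁻¹ * (pd X t' (P.a i) * g i + ev X (P.a i) * η i - η i * L.lev.inc (P.β i))

/-- The kernel relation of `c' ∈ 𝕂(l)(X)` at a central monomial, in the frame. -/
lemma K_pair (h : Frm L P P' k t1 t2 g) {l : ℕ} (hl : l ≤ k) {c' : ℕ → R} (hc : c' ∈ P'.KK l)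
    (t' : Fin 2 → R) (η : ℕ → R) (ns : CE) (js : ℕ) (hj : (L.m : ℤ) ∣ (js : ℤ))
    (hn : (L.m : ℤ) ∣ κ ns) :
    ∑ i ∈ Finset.range l, P.τ (L.lev.coeff ns js
      (((g i)⁻¹ * c' i * g i) * YY L P P'.ρ g t' η i)) = 0 := by
  classical
  have h1 : ∀ i ∈ Finset.range l, P'.τ (c' i * P'.dL i t')
      = P'.τ (((g i)⁻¹ * c' i * g i) * YY L P P'.ρ g t' η i) := by
    intro i hi
    have hil := Finset.mem_range.mp hi
    have hc1 := hc.2.1 i
    rw [h.β'_eq] at hc1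
    rw [h.dL'_eq]
    exact h.frame_pairing (lt_of_lt_of_le hil hl) hc1 _ _
  have h2 : P'.τ (∑ i ∈ Finset.range l, ((g i)⁻¹ * c' i * g i) * YY L P P'.ρ g t' η i) = 0 := by
    rw [map_sum, ← Finset.sum_congr rfl h1]
    exact hc.2.2 t'
  set x := ∑ i ∈ Finset.range l, ((g i)⁻¹ * c' i * g i) * YY L P P'.ρ g t' η i with hx
  rw [h.τ_eq] at h2
  have h3 := L.τ'_coeff x (idx ns (js : ℤ))
  have hmem : idx ns (js : ℤ) ∈ centLat L.m := ⟨hj, hn⟩
  rw [if_pos hmem, h2, map_zero, map_zero, THS.coeff_zero] at h3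
  have h4 : τ ((L.φ x).coeff (idx ns (js : ℤ))) = 0 := by
    have h5 := h3.symm
    rwa [map_eq_zero_iff _ (algebraMap K A).injective] at h5
  rw [← L.lev_coeff, hx, map_sum, map_sum] at h4
  have hP : ∀ y, P.τ y = τ y := fun y => by rw [h.Pτ_eq]
  simp only [hP]
  exact h4

end Frm

/-- Product of a series of order `J0` with an element with a known leading monomial. -/
lemma coeff_mul_lead1 {c Y : R} {Y1 : A} {n : CE} {J0 J : ℕ} (hc : c ∈ L.lev.Φ.fil J0)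
    (hY : Y - L.lev.mono Y1 n J ∈ L.lev.Φ.fil (J + 1)) (m : CE) :
    L.lev.coeff m (J0 + J) (c * Y)
      = L.lev.ζ ^ ((J0 : ℤ) * L.lev.κ n) • (L.lev.coeff (m - n) J0 c * Y1) := by
  have e : c * Y = c * (Y - L.lev.mono Y1 n J) + c * L.lev.mono Y1 n J := by noncomm_ring
  rw [e, map_add, L.lev.coeff_fil (L.lev.Φ.mul_mem hc hY) (by omega), zero_add, coeff_mul_mono]

lemma coeff_mul_lead2 {c Y : R} {Y1 Y2 : A} {n n' : CE} {J0 J : ℕ} (hc : c ∈ L.lev.Φ.fil J0)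
    (hY : Y - L.lev.mono Y1 n J - L.lev.mono Y2 n' J ∈ L.lev.Φ.fil (J + 1)) (m : CE) :
    L.lev.coeff m (J0 + J) (c * Y)
      = L.lev.ζ ^ ((J0 : ℤ) * L.lev.κ n) • (L.lev.coeff (m - n) J0 c * Y1)
        + L.lev.ζ ^ ((J0 : ℤ) * L.lev.κ n') • (L.lev.coeff (m - n') J0 c * Y2) := by
  have e : c * Y = c * (Y - L.lev.mono Y1 n J - L.lev.mono Y2 n' J) + c * L.lev.mono Y1 n J
      + c * L.lev.mono Y2 n' J := by noncomm_ring
  rw [e, map_add, map_add, L.lev.coeff_fil (L.lev.Φ.mul_mem hc hY) (by omega), zero_add,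
    coeff_mul_mono, coeff_mul_mono]

namespace Frm

variable {L}
variable {P : State.Pt F K A (Fin 2)} {P' : State.Pt F K' R (Fin 2)} {k : ℕ}
  {t1 t2 : Fin 2 → A} {g : ℕ → R}

lemma cc_mem (h : Frm L P P' k t1 t2 g) {i : ℕ} (hi : i < k) {x : R} {J0 : ℕ}
    (hx : x ∈ L.lev.Φ.fil J0) : (g i)⁻¹ * x * g i ∈ L.lev.Φ.fil J0 := by
  have hg := h.leadg i hi
  have h1 := (inv_mem_fil L (by simpa using hg_one L hg)).2
  have h2 := hg_zero L hg
  simpa using L.lev.Φ.mul_mem (L.lev.Φ.mul_mem h1 hx) h2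

lemma inv_sub_one_mem (h : Frm L P P' k t1 t2 g) {i : ℕ} (hi : i < k) :
    (g i)⁻¹ - L.lev.inc 1 ∈ L.lev.Φ.fil 1 := by
  have hg := h.leadg i hi
  have h1 := inv_lead L hg
  have e : (g i)⁻¹ - L.lev.inc 1 = ((g i)⁻¹ - (L.lev.inc 1 + L.lev.mono (-P.w i t1) 0 1
      + L.lev.mono (-P.w i t2) L.lev.μ₁ 1)) + L.lev.mono (-P.w i t1) 0 1
      + L.lev.mono (-P.w i t2) L.lev.μ₁ 1 := by
    abel
  rw [e]
  exact add_mem (add_mem (L.lev.Φ.anti (by omega) h1) (L.lev.mono_mem _ _ _)) (L.lev.mono_mem _ _ _)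

lemma coeff_cc (h : Frm L P P' k t1 t2 g) {i : ℕ} (hi : i < k) {x : R} {J0 : ℕ}
    (hx : x ∈ L.lev.Φ.fil J0) (n : CE) :
    L.lev.coeff n J0 ((g i)⁻¹ * x * g i) = L.lev.coeff n J0 x := by
  have hg := h.leadg i hi
  have h1 : (g i)⁻¹ * x ∈ L.lev.Φ.fil J0 := by
    simpa using L.lev.Φ.mul_mem (inv_mem_fil L (by simpa using hg_one L hg)).2 hx
  rw [coeff_right_zero L (hg_one L hg) h1, mul_one, coeff_left_zero L (h.inv_sub_one_mem hi) hx,
    one_mul]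

/-- **`𝕂`-lead, first half**: the coefficients of `c' ∈ 𝕂(l)(X)` at its lowest `s'`-order are in
`𝕂(l)(ρ)`. -/
theorem coeff_mem_KK (h : Frm L P P' k t1 t2 g) {l : ℕ} (hl : l ≤ k) {c' : ℕ → R}
    (hc : c' ∈ P'.KK l) {J0 : ℕ} (hJ0 : ∀ i, c' i ∈ L.lev.Φ.fil J0) (n : CE) :
    (fun i => L.lev.coeff n J0 (c' i)) ∈ P.KK l := by
  classical
  refine ⟨fun i hi => ?_, fun i => ?_, fun t => ?_⟩
  · show L.lev.coeff n J0 (c' i) = 0
    rw [hc.1 i hi, map_zero]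
  · -- commutation
    have hc1 := hc.2.1 i
    rw [h.β'_eq] at hc1
    have hH : ev P'.ρ (P.a i) - L.lev.inc (State.ev P.ρ (P.a i)) ∈ L.lev.Φ.fil 1 := by
      have h2 := ev_lead (F := F) L h.leadX (P.a i)
      have e : ev P'.ρ (P.a i) - L.lev.inc (State.ev P.ρ (P.a i))
          = (ev P'.ρ (P.a i) - (L.lev.inc (State.ev P.ρ (P.a i))
            + L.lev.mono (State.d1 P.ρ t1 (P.a i)) 0 1
            + L.lev.mono (State.d1 P.ρ t2 (P.a i)) L.lev.μ₁ 1))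
          + L.lev.mono (State.d1 P.ρ t1 (P.a i)) 0 1
          + L.lev.mono (State.d1 P.ρ t2 (P.a i)) L.lev.μ₁ 1 := by
        abel
      rw [e]
      exact add_mem (add_mem (L.lev.Φ.anti (by omega) h2) (L.lev.mono_mem _ _ _))
        (L.lev.mono_mem _ _ _)
    have h2 := congrArg (L.lev.coeff n J0) hc1
    rw [coeff_left_zero L hH (hJ0 i), coeff_right_zero L hH (hJ0 i)] at h2
    exact h2
  · -- the kernel relation
    have hm : 1 ≤ L.m := L.m_prime.pos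
    set J : ℕ := (L.m - 1) * J0 with hJ
    have hJJ : J0 + J = L.m * J0 := by
      calc J0 + J = (L.m - 1 + 1) * J0 := by rw [hJ]; ring
        _ = L.m * J0 := by rw [Nat.sub_add_cancel hm]
    set t' : Fin 2 → R := fun v => L.lev.mono (t v) (-n) J with ht'
    have ht'J : ∀ v, t' v ∈ L.lev.Φ.fil J := fun v => L.lev.mono_mem _ _ _
    have hpair := h.K_pair hl hc t' 0 0 (J0 + J)
      (by rw [hJJ]; push_cast; exact dvd_mul_right _ _) (by simp)
    have hterm : ∀ i ∈ Finset.range l, P.τ (L.lev.coeff 0 (J0 + J)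
        (((g i)⁻¹ * c' i * g i) * YY L P P'.ρ g t' 0 i))
        = L.lev.ζ ^ ((J0 : ℤ) * L.lev.κ (-n)) * P.τ (L.lev.coeff n J0 (c' i) * P.dL i t) := by
      intro i hi
      have hil := Finset.mem_range.mp hi
      have hik := lt_of_lt_of_le hil hl
      have hg := h.leadg i hik
      have hD := D_mem (F := F) L h.leadX hg ht'J (zero_mem _) (P.a i)
      have hD' : pd P'.ρ t' (P.a i) * g i + ev P'.ρ (P.a i) * (0 : R)
          - (0 : R) * L.lev.inc (P.β i) ∈ L.lev.Φ.fil J := hD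
      have hY : YY L P P'.ρ g t' 0 i - L.lev.mono (P.dL i t) (-n) J ∈ L.lev.Φ.fil (J + 1) := by
        have h2 : YY L P P'.ρ g t' 0 i ∈ L.lev.Φ.fil J := by
          have h5 := L.lev.Φ.mul_mem (inv_mem_fil L (by simpa using hg_one L hg)).2 hD'
          rwa [Nat.zero_add] at h5
        apply L.lev.mem_fil_succ (sub_mem h2 (L.lev.mono_mem _ _ _))
        intro m'
        rw [map_sub, YY]
        simp only [Pi.zero_apply]
        rw [coeff_inv_mul_zero L hg hD']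
        have h3 := coeff_D_zero (F := F) L h.leadX hg ht'J (zero_mem _) m' (P.a i)
        have e : P.β i = State.ev P.ρ (P.a i) := rfl
        rw [e, h3]
        simp only [map_zero, mul_zero, zero_mul, sub_zero, add_zero]
        by_cases hm' : m' = -n
        · subst hm'
          simp only [ht', L.lev.coeff_mono_same]
          rw [P.dL_apply]
          exact sub_self _
        · have h4 : (fun v => L.lev.coeff m' J (t' v)) = 0 := by
            funext v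
            exact L.lev.coeff_mono_of_ne_n _ _ _ hm'
          rw [h4, L.lev.coeff_mono_of_ne_n _ _ _ hm']
          simp
      rw [coeff_mul_lead1 L (h.cc_mem hik (hJ0 i)) hY, h.coeff_cc hik (hJ0 i), zero_sub, neg_neg,
        map_smul, smul_eq_mul]
    rw [Finset.sum_congr rfl hterm, ← Finset.mul_sum] at hpair
    exact (mul_eq_zero.mp hpair).resolve_left (zpow_ne_zero _ L.lev.ζ_ne)

end Frm


namespace Frm

variable {L}
variable {P : State.Pt F K A (Fin 2)} {P' : State.Pt F K' R (Fin 2)} {k : ℕ}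
  {t1 t2 : Fin 2 → A} {g : ℕ → R}

/-- **The `𝕂` relation** between the coefficients of `c' ∈ 𝕂(l)(X)` at its lowest `s'`-order. -/
theorem K_relation [CharZero K] (h : Frm L P P' k t1 t2 g) {l : ℕ} (hl : l ≤ k) {c' : ℕ → R}
    (hc : c' ∈ P'.KK l) {J0 : ℕ} (hJ0 : ∀ i, c' i ∈ L.lev.Φ.fil J0)
    (hS1 : ∀ c ∈ P.KK l, ∀ τ₀ ∈ P.T l, P.SS l c t1 τ₀ = 0)
    (hS2 : ∀ c ∈ P.KK l, ∀ τ₀ ∈ P.T l, P.SS l c t2 τ₀ = 0)
    {τ0 : Fin 2 → A} (hτ0 : τ0 ∈ P.T l) (e : CE) :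
    (L.lev.ζ ^ (-L.lev.κ e) - 1) * P.PP l (fun i => L.lev.coeff e J0 (c' i)) t1 τ0
      + L.lev.ζ ^ (J0 : ℤ) * (L.lev.ζ ^ (-L.lev.κ e) - L.lev.ζ ^ (-(J0 : ℤ) - 1))
        * P.PP l (fun i => L.lev.coeff (e - L.lev.μ₁) J0 (c' i)) t2 τ0 = 0 := by
  classical
  have hm : 1 ≤ L.m := L.m_prime.pos
  set J : ℕ := (L.m - 1) * (J0 + 1) with hJ
  have hJJ : J0 + (J + 1) = L.m * (J0 + 1) := by
    calc J0 + (J + 1) = (L.m - 1 + 1) * (J0 + 1) := by rw [hJ]; ring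
      _ = L.m * (J0 + 1) := by rw [Nat.sub_add_cancel hm]
  have hζJ : L.lev.ζ ^ (J : ℤ) = L.lev.ζ ^ (-(J0 : ℤ) - 1) := by
    have h1 : (J : ℤ) = (L.m : ℤ) * ((J0 : ℤ) + 1) + (-(J0 : ℤ) - 1) := by
      have := congrArg (fun n : ℕ => (n : ℤ)) hJJ
      push_cast at this
      linarith
    rw [h1, zpow_add₀ L.lev.ζ_ne, L.lev_ζ, zeta_pow_m_mul, one_mul]
  set n1 : CE := -e with hn1
  set n2 : CE := -e + L.lev.μ₁ with hn2
  have hn12 : n1 ≠ n2 := by
    intro h0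
    have h1 : L.lev.μ₁ = 0 := by
      have : -e + L.lev.μ₁ = -e := h0.symm
      exact add_left_cancel (this.trans (add_zero _).symm)
    have := L.lev.κ_μ₁
    rw [h1, map_zero] at this
    exact zero_ne_one this
  set t' : Fin 2 → R := fun v => L.lev.mono (τ0 v) n1 J with ht'
  have ht'J : ∀ v, t' v ∈ L.lev.Φ.fil J := fun v => L.lev.mono_mem _ _ _
  set η : ℕ → R := fun i => L.lev.mono (P.w i τ0) n1 J with hη
  have hηJ : ∀ i, η i ∈ L.lev.Φ.fil J := fun i => L.lev.mono_mem _ _ _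
  set ce : ℕ → A := fun i => L.lev.coeff e J0 (c' i) with hce
  set ce' : ℕ → A := fun i => L.lev.coeff (e - L.lev.μ₁) J0 (c' i) with hce'
  have hce_mem : ce ∈ P.KK l := h.coeff_mem_KK hl hc hJ0 e
  have hce'_mem : ce' ∈ P.KK l := h.coeff_mem_KK hl hc hJ0 _
  have hpair := h.K_pair hl hc t' η 0 (J0 + (J + 1))
    (by rw [hJJ]; push_cast; exact dvd_mul_right _ _) (by simp)
  set B : ℤ := L.lev.κ n1 with hB
  -- the terms
  have hterm : ∀ i ∈ Finset.range l, P.τ (L.lev.coeff 0 (J0 + (J + 1))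
      (((g i)⁻¹ * c' i * g i) * YY L P P'.ρ g t' η i))
      = L.lev.ζ ^ ((J0 : ℤ) * L.lev.κ n1) *
          (L.lev.ζ ^ B * P.τ (ce i * (State.d2 P.ρ t1 τ0 (P.a i) + P.dL i t1 * P.w i τ0))
            + P.τ (ce i * (State.d2 P.ρ τ0 t1 (P.a i) + P.dL i τ0 * P.w i t1)))
        + L.lev.ζ ^ ((J0 : ℤ) * L.lev.κ n2) *
          (L.lev.ζ ^ B * P.τ (ce' i * (State.d2 P.ρ t2 τ0 (P.a i) + P.dL i t2 * P.w i τ0))
            + L.lev.ζ ^ (J : ℤ) * P.τ (ce' i * (State.d2 P.ρ τ0 t2 (P.a i) + P.dL i τ0 * P.w i t2))) := by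
    intro i hi
    have hil := Finset.mem_range.mp hi
    have hik := lt_of_lt_of_le hil hl
    have hg := h.leadg i hik
    have hD := D_mem (F := F) L h.leadX hg ht'J (hηJ i) (P.a i)
    have hD' : pd P'.ρ t' (P.a i) * g i + ev P'.ρ (P.a i) * η i
        - η i * L.lev.inc (P.β i) ∈ L.lev.Φ.fil J := hD
    have e0 : P.β i = State.ev P.ρ (P.a i) := rfl
    set D := pd P'.ρ t' (P.a i) * g i + ev P'.ρ (P.a i) * η i - η i * L.lev.inc (P.β i) with hDdef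
    -- order `J + 1`
    have hD1 : D ∈ L.lev.Φ.fil (J + 1) := by
      apply L.lev.mem_fil_succ hD'
      intro m'
      have h3 := coeff_D_zero (F := F) L h.leadX hg ht'J (hηJ i) m' (P.a i)
      rw [← e0] at h3
      rw [hDdef, h3]
      by_cases hm' : m' = n1
      · subst hm'
        have h4 : (fun v => L.lev.coeff n1 J (t' v)) = τ0 := by
          funext v
          exact L.lev.coeff_mono_same _ _ _
        have h5 : L.lev.coeff n1 J (η i) = P.w i τ0 := L.lev.coeff_mono_same _ _ _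
        rw [h4, h5]
        have h6 := P.dL_add_comm_w i τ0
        rw [hτ0 i hil] at h6
        exact h6
      · have h4 : (fun v => L.lev.coeff m' J (t' v)) = 0 := by
          funext v
          exact L.lev.coeff_mono_of_ne_n _ _ _ hm'
        have h5 : L.lev.coeff m' J (η i) = 0 := L.lev.coeff_mono_of_ne_n _ _ _ hm'
        rw [h4, h5]
        simp
    set Y1 : A := L.lev.ζ ^ B • (State.d2 P.ρ t1 τ0 (P.a i) + P.dL i t1 * P.w i τ0)
      + (State.d2 P.ρ τ0 t1 (P.a i) + P.dL i τ0 * P.w i t1) with hY1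
    set Y2 : A := L.lev.ζ ^ B • (State.d2 P.ρ t2 τ0 (P.a i) + P.dL i t2 * P.w i τ0)
      + L.lev.ζ ^ (J : ℤ) • (State.d2 P.ρ τ0 t2 (P.a i) + P.dL i τ0 * P.w i t2) with hY2
    -- the level `J + 1`
    have hD2 : D - L.lev.mono Y1 n1 (J + 1) - L.lev.mono Y2 n2 (J + 1) ∈ L.lev.Φ.fil (J + 2) := by
      apply L.lev.mem_fil_succ (sub_mem (sub_mem hD1 (L.lev.mono_mem _ _ _)) (L.lev.mono_mem _ _ _))
      intro m'
      have h3 := coeff_D_one (F := F) L h.leadX hg ht'J (hηJ i) m' (P.a i)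
      rw [← e0] at h3
      have h30 : (fun v => L.lev.coeff m' (J + 1) (t' v)) = 0 := by
        funext v
        exact L.lev.coeff_mono_of_ne_j _ _ _ (by omega)
      have h31 : L.lev.coeff m' (J + 1) (η i) = 0 := L.lev.coeff_mono_of_ne_j _ _ _ (by omega)
      have hτm : ∀ m'', (fun v => L.lev.coeff m'' J (t' v)) = if m'' = n1 then τ0 else 0 := by
        intro m''
        funext v
        by_cases h0 : m'' = n1
        · subst h0
          rw [if_pos rfl]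
          exact L.lev.coeff_mono_same _ _ _
        · rw [if_neg h0]
          exact L.lev.coeff_mono_of_ne_n _ _ _ h0
      have hηm : ∀ m'', L.lev.coeff m'' J (η i) = if m'' = n1 then P.w i τ0 else 0 := by
        intro m''
        by_cases h0 : m'' = n1
        · subst h0
          rw [if_pos rfl]
          exact L.lev.coeff_mono_same _ _ _
        · rw [if_neg h0]
          exact L.lev.coeff_mono_of_ne_n _ _ _ h0
      rw [h30, h31, hτm m', hτm (m' - L.lev.μ₁), hηm m', hηm (m' - L.lev.μ₁)] at h3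
      have hmo1 : L.lev.coeff m' (J + 1) (L.lev.mono Y1 n1 (J + 1)) = if m' = n1 then Y1 else 0 := by
        rw [L.lev.coeff_mono']; simp
      have hmo2 : L.lev.coeff m' (J + 1) (L.lev.mono Y2 n2 (J + 1)) = if m' = n2 then Y2 else 0 := by
        rw [L.lev.coeff_mono']; simp
      simp only [map_sub]
      rw [hDdef, h3, hmo1, hmo2]
      have hμ0 : L.lev.μ₁ ≠ 0 := by
        intro h0
        have := L.lev.κ_μ₁
        rw [h0, map_zero] at this
        exact zero_ne_one this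
      have hd0 : ∀ a : FreeAlgebra F (Fin 2), State.d1 P.ρ (0 : Fin 2 → A) a = 0 :=
        fun a => State.d1_zero_t _ _
      have hd2r : ∀ (t : Fin 2 → A) (a : FreeAlgebra F (Fin 2)),
          State.d2 P.ρ t (0 : Fin 2 → A) a = 0 := fun t a => by
        rw [← B_eq_d2, B_right_zero]
      have hd2l : ∀ (t : Fin 2 → A) (a : FreeAlgebra F (Fin 2)),
          State.d2 P.ρ (0 : Fin 2 → A) t a = 0 := fun t a => by
        rw [← B_eq_d2, B_left_zero]
      by_cases hm1 : m' = n1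
      · have hm2 : m' - L.lev.μ₁ ≠ n1 := by
          intro h0
          apply hμ0
          have h1 : m' - L.lev.μ₁ = m' := h0.trans hm1.symm
          have h2 : m' - L.lev.μ₁ - m' = 0 := sub_eq_zero.mpr h1
          have h5 : m' - L.lev.μ₁ - m' = - L.lev.μ₁ := by abel
          rw [h5] at h2
          exact neg_eq_zero.mp h2
        have hm3 : ¬ (m' = n2) := fun h0 => hn12 (hm1.symm.trans h0)
        simp only [if_pos hm1, if_neg hm2, if_neg hm3, hd0, hd2r, hd2l, mul_zero, zero_mul,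
          sub_zero, add_zero, smul_zero, zero_add]
        rw [hY1, hm1, ← hB, sub_eq_zero]
        rfl
      · by_cases hm2 : m' = n2
        · have hn2' : n2 = n1 + L.lev.μ₁ := rfl
          have hm3 : m' - L.lev.μ₁ = n1 := by rw [hm2, hn2', add_sub_cancel_right]
          simp only [if_neg hm1, if_pos hm3, if_pos hm2, hd0, hd2r, hd2l, mul_zero, zero_mul,
            sub_zero, add_zero, smul_zero, zero_add]
          rw [hY2, hm3, ← hB, sub_eq_zero]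
          rfl
        · have hm3 : m' - L.lev.μ₁ ≠ n1 := by
            intro h0
            apply hm2
            have hn2' : n2 = n1 + L.lev.μ₁ := rfl
            rw [hn2', ← h0, sub_add_cancel]
          simp only [if_neg hm1, if_neg hm3, if_neg hm2, hd0, hd2r, hd2l, mul_zero, zero_mul,
            sub_zero, add_zero, smul_zero]
    -- the frame
    have hY : YY L P P'.ρ g t' η i - L.lev.mono Y1 n1 (J + 1) - L.lev.mono Y2 n2 (J + 1)
        ∈ L.lev.Φ.fil (J + 1 + 1) := by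
      have h5 : YY L P P'.ρ g t' η i - D = ((g i)⁻¹ - L.lev.inc 1) * D := by
        rw [map_one, sub_mul, one_mul]
        rfl
      have h6 : YY L P P'.ρ g t' η i - D ∈ L.lev.Φ.fil (J + 1 + 1) := by
        rw [h5]
        have := L.lev.Φ.mul_mem (h.inv_sub_one_mem hik) hD1
        rwa [Nat.add_comm 1 (J + 1)] at this
      have e6 : YY L P P'.ρ g t' η i - L.lev.mono Y1 n1 (J + 1) - L.lev.mono Y2 n2 (J + 1)
          = (YY L P P'.ρ g t' η i - D)
            + (D - L.lev.mono Y1 n1 (J + 1) - L.lev.mono Y2 n2 (J + 1)) := by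
        abel
      rw [e6]
      exact add_mem h6 hD2
    rw [coeff_mul_lead2 L (h.cc_mem hik (hJ0 i)) hY, h.coeff_cc hik (hJ0 i), h.coeff_cc hik (hJ0 i)]
    have e7 : (0 : CE) - n1 = e := by rw [hn1]; abel
    have e8 : (0 : CE) - n2 = e - L.lev.μ₁ := by rw [hn2]; abel
    rw [e7, e8, hY1, hY2]
    simp only [map_add, map_smul, smul_eq_mul, mul_add, mul_smul_comm]
    rfl
  rw [Finset.sum_congr rfl hterm] at hpair
  simp only [Finset.sum_add_distrib, ← Finset.mul_sum] at hpair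
  have e1 := P.eps_combo l ce t1 τ0 (L.lev.ζ ^ B) 1
  have e2 := P.eps_combo l ce' t2 τ0 (L.lev.ζ ^ B) (L.lev.ζ ^ (J : ℤ))
  rw [hS1 ce hce_mem τ0 hτ0, mul_zero, zero_add] at e1
  rw [hS2 ce' hce'_mem τ0 hτ0, mul_zero, zero_add] at e2
  simp only [State.Pt.Gam, one_mul] at e1 e2
  rw [e1, e2] at hpair
  have hBe : B = -L.lev.κ e := by rw [hB, hn1, map_neg]
  have hA : (J0 : ℤ) * L.lev.κ n2 = (J0 : ℤ) * L.lev.κ n1 + (J0 : ℤ) := by
    rw [hn2, map_add, L.lev.κ_μ₁]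
    ring
  rw [hA, zpow_add₀ L.lev.ζ_ne] at hpair
  have hu := zpow_ne_zero ((J0 : ℤ) * L.lev.κ n1) L.lev.ζ_ne
  have h2 : (2 : K) ≠ 0 := two_ne_zero
  rw [← hζJ, ← hBe]
  have h8 : L.lev.ζ ^ ((J0 : ℤ) * L.lev.κ n1) * (2⁻¹ * ((L.lev.ζ ^ B - 1) * P.PP l ce t1 τ0
      + L.lev.ζ ^ (J0 : ℤ) * (L.lev.ζ ^ B - L.lev.ζ ^ (J : ℤ)) * P.PP l ce' t2 τ0)) = 0 := by
    linear_combination hpair
  exact (mul_eq_zero.mp ((mul_eq_zero.mp h8).resolve_left hu)).resolve_left (inv_ne_zero h2)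

/-- The central monomial scaling an element to nonnegative `s'`-order. -/
lemma exists_scaling (L : Lv K A K' R τ) (e : GLv) : ∃ (lam : K') (J : ℕ),
    (L.m : ℤ) ∣ (J : ℤ) - (ofLex e).1 ∧ ∀ x : R, (∀ h, h < e → L.c h x = 0) →
      (∀ h, h < idx (ofLex e).2 (J : ℤ) → L.c h (lam • x) = 0) ∧ lam • x ∈ L.lev.Φ.fil J ∧
      ∀ n, L.lev.coeff n J (lam • x) = L.c (idx n (ofLex e).1) x := by
  set j0 := (ofLex e).1 with hj0
  set n0 := (ofLex e).2 with hn0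
  have hm : 0 < L.m := L.m_prime.pos
  set N : ℕ := j0.natAbs with hN
  obtain ⟨lam, hlam⟩ := exists_scale L N
  set s : GLv := idx (0 : CE) ((L.m : ℤ) * N) with hs
  have hJ0 : 0 ≤ j0 + (L.m : ℤ) * N := by
    have h1 : (1 : ℤ) ≤ L.m := by exact_mod_cast hm
    have h2 : -(N : ℤ) ≤ j0 := by rw [hN, Int.natCast_natAbs]; exact neg_abs_le j0
    have h3 : (N : ℤ) ≤ (L.m : ℤ) * N := le_mul_of_one_le_left (by positivity) h1
    linarith
  set J : ℕ := (j0 + (L.m : ℤ) * N).toNat with hJ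
  have hJe : (J : ℤ) = j0 + (L.m : ℤ) * N := Int.toNat_of_nonneg hJ0
  have hes : s + e = idx n0 (J : ℤ) := by
    have : e = idx n0 j0 := rfl
    rw [this, hs, idx_add, zero_add, hJe, add_comm]
  refine ⟨lam, J, ?_, fun x hx => ?_⟩
  · rw [hJe, add_sub_cancel_left]
    exact dvd_mul_right _ _
  have hlead : ∀ h, h < idx n0 (J : ℤ) → L.c h (lam • x) = 0 := by
    intro h hh
    have h1 := hlam x (h - s)
    rw [add_sub_cancel] at h1
    have h2 : h - s < e := by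
      rw [sub_lt_iff_lt_add, add_comm, hes]
      exact hh
    exact h1.trans (hx _ h2)
  refine ⟨hlead, mem_fil_of_lead hlead, fun n => ?_⟩
  rw [L.lev_coeff]
  have h1 := hlam x (idx n j0)
  have h2 : s + idx n j0 = idx n (J : ℤ) := by
    rw [hs, idx_add, zero_add, hJe, add_comm]
  rw [h2] at h1
  exact h1

/-- **`𝕂`-lead** (blueprint §J(a), first half): the lead vector of `c' ∈ 𝕂(l)(X)` lies in
`𝕂(l)(ρ)`. -/
theorem KK_lead (h : Frm L P P' k t1 t2 g) {l : ℕ} (hl : l ≤ k) {c' : ℕ → R}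
    (hc : c' ∈ P'.KK l) (e : GLv) (he : ∀ i, ∀ h, h < e → L.c h (c' i) = 0) :
    (fun i => L.c e (c' i)) ∈ P.KK l := by
  obtain ⟨lam, J, -, hs⟩ := exists_scaling L e
  have h1 := h.coeff_mem_KK hl (Submodule.smul_mem _ lam hc) (fun i => (hs _ (he i)).2.1)
    (ofLex e).2
  have h2 : (fun i => L.lev.coeff (ofLex e).2 J ((lam • c') i)) = fun i => L.c e (c' i) := by
    funext i
    exact (hs _ (he i)).2.2 _
  rwa [h2] at h1

/-- **`𝕂`-lead** (blueprint §J(a), second half): at a non-central monomial the lead vector of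
`c' ∈ 𝕂(l)(X)` lies in `𝕀(l,𝕋)(ρ)`. -/
theorem KK_lead_IIT [CharZero K] [FiniteDimensional K A] (h : Frm L P P' k t1 t2 g) {l : ℕ}
    (hl : l ≤ k) {c' : ℕ → R} (hc : c' ∈ P'.KK l) (e : GLv)
    (he : ∀ i, ∀ h, h < e → L.c h (c' i) = 0) (hne : e ∉ centLat L.m)
    {N r : ℕ} {Rc : ℕ → Rec} {Q : ℕ → Polynomial F} {S : ℕ → Set A} {TT : Submodule K (Fin 2 → A)}
    (hV : Valid P N Rc Q k r S TT) (hA : Adm P k TT t1 t2) :
    (fun i => L.c e (c' i)) ∈ IIT P l TT := by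
  classical
  have hc0 := h.KK_lead hl hc e he
  have hc0k : (fun i => L.c e (c' i)) ∈ P.KK k := P.KK_mono hl hc0
  have hlr : l ≤ r := hl.trans hV.le
  have hTTk : TT ≤ P.T k := hV.TT_le.trans (P.T_anti hV.le)
  have hTTl : TT ≤ P.T l := hTTk.trans (P.T_anti hl)
  obtain ⟨lam, J, hJd, hs⟩ := exists_scaling L e
  set j0 := (ofLex e).1 with hj0
  set n0 := (ofLex e).2 with hn0
  set c'' : ℕ → R := lam • c' with hc''
  have hc''m : c'' ∈ P'.KK l := Submodule.smul_mem _ lam hc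
  have hfil : ∀ i, c'' i ∈ L.lev.Φ.fil J := fun i => (hs _ (he i)).2.1
  have hS1 : ∀ c ∈ P.KK l, ∀ τ₀ ∈ P.T l, P.SS l c t1 τ₀ = 0 := fun c hc τ₀ hτ₀ =>
    hV.TT_S l hlr t1 hA.mem1 c hc τ₀ hτ₀
  have hS2 : ∀ c ∈ P.KK l, ∀ τ₀ ∈ P.T l, P.SS l c t2 τ₀ = 0 := fun c hc τ₀ hτ₀ =>
    hV.TT_S l hlr t2 hA.mem2 c hc τ₀ hτ₀
  have hc0e : (fun i => L.lev.coeff n0 J (c'' i)) = fun i => L.c e (c' i) := by
    funext i
    exact (hs _ (he i)).2.2 _
  have hlow : (fun i => L.lev.coeff (n0 - L.lev.μ₁) J (c'' i)) = 0 := by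
    funext i
    rw [L.lev_coeff]
    apply (hs _ (he i)).1
    rw [Prod.Lex.lt_iff]
    right
    refine ⟨rfl, ?_⟩
    show n0 - L.lev.μ₁ < n0
    rw [L.lev_μ₁]
    exact sub_lt_self _ mu1_pos
  have hζ : L.lev.ζ = L.ζ := L.lev_ζ
  have hκ : ∀ x, L.lev.κ x = κ x := fun x => by rw [L.lev_κ]
  have hμκ : L.lev.κ L.lev.μ₁ = 1 := L.lev.κ_μ₁
  -- the class of `c⁰` vanishes in `𝕄(k)`
  have hIIk : (fun i => L.c e (c' i)) ∈ IIT P k TT := by
    by_contra hcon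
    obtain ⟨φ, hφ, hφI⟩ := Submodule.exists_le_ker_of_notMem hcon
    have hφ0 : ∀ c ∈ IIT P k TT, φ c = 0 := fun c hc => hφI hc
    by_cases hκ0 : (L.m : ℤ) ∣ κ n0
    · -- `j0` is not divisible by `m`
      have hj : ¬ (L.m : ℤ) ∣ (J : ℤ) := by
        intro h1
        apply hne
        refine ⟨?_, hκ0⟩
        have h2 : (ofLex e).1 = (J : ℤ) - ((J : ℤ) - (ofLex e).1) := by ring
        rw [h2]
        exact dvd_sub h1 hJd
      obtain ⟨t', ht', ht'2⟩ := hA.H2 0 φ (fun _ _ => rfl) hφ0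
      have hrel := h.K_relation hl hc''m hfil hS1 hS2 (hTTl ht') (n0 + L.lev.μ₁)
      rw [add_sub_cancel_right, hc0e] at hrel
      have h1 := (ht'2 _ (P.KK_mono hl (h.coeff_mem_KK hl hc''m hfil (n0 + L.lev.μ₁)))).1
      rw [P.PP_of_le hl (h.coeff_mem_KK hl hc''m hfil (n0 + L.lev.μ₁))] at h1
      have h2 := (ht'2 _ hc0k).2
      rw [P.PP_of_le hl hc0] at h2
      rw [h1, h2] at hrel
      simp only [LinearMap.zero_apply, mul_zero, zero_add] at hrel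
      refine absurd hrel (mul_ne_zero (mul_ne_zero (zpow_ne_zero _ L.lev.ζ_ne) ?_) hφ)
      intro h3
      apply hj
      rw [sub_eq_zero, map_add, hμκ, hζ, hκ] at h3
      have h4 : L.ζ ^ ((J : ℤ) - κ n0) = 1 := by
        have h5 : (J : ℤ) - κ n0 = -(κ n0 + 1) - (-(J : ℤ) - 1) := by ring
        rw [h5, zpow_sub₀ L.ζ_ne, h3, div_self (zpow_ne_zero _ L.ζ_ne)]
      have h5 := (L.ζ_prim.zpow_eq_one_iff_dvd _).mp h4
      have h6 : (J : ℤ) = ((J : ℤ) - κ n0) + κ n0 := by ring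
      rw [h6]
      exact dvd_add h5 hκ0
    · obtain ⟨t', ht', ht'2⟩ := hA.H2 φ 0 hφ0 (fun _ _ => rfl)
      have hrel := h.K_relation hl hc''m hfil hS1 hS2 (hTTl ht') n0
      rw [hlow, hc0e] at hrel
      have h00 : P.PP l 0 t2 t' = 0 := by
        have : (0 : ℕ → A) ∈ II P l := zero_mem _
        exact this.2 t2 (hTTl hA.mem2) t' (hTTl ht')
      have h2 := (ht'2 _ hc0k).1
      rw [P.PP_of_le hl hc0] at h2
      rw [h00, h2, mul_zero, add_zero] at hrel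
      refine absurd hrel (mul_ne_zero ?_ hφ)
      intro h3
      apply hκ0
      rw [sub_eq_zero, hζ, hκ] at h3
      have h4 := (L.ζ_prim.zpow_eq_one_iff_dvd _).mp h3
      simpa using h4
  refine AdmExist.mem_IIT_of_rank_zero P hV hl hc0 fun t ht t' ht' => ?_
  rw [← P.PP_of_le hl hc0]
  exact hIIk.2 t ht t' (hTTk ht')

end Frm

end Crest.Agent.Kurosh.ValA
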