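/-
S0270, module M1c-B (helper49): centraliser facts for a central division algebra with a trace form.

Setting: `K` a field, `A` a finite dimensional division `K`-algebra, `τ : A →ₗ[K] K` with `τ 1 = 1`,
`τ (x y) = τ (y x)`.

* `orth τ S`, `IsCompl S (orth τ S)` for a subalgebra `S`, the orthogonal projection `proj τ S`, its
  `S`-bilinearity and transitivity;
* (B3) `A = C(β) ⊕ [β,A]`, `imAd β = orth τ (C β)`, a `State.Split`;
* (B1) `tr_K (L_a) = (dim A) τ a`, `τ f = Tr_{F/K} f / [F:K]` is in `CentFacts2` style below;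
* (B2) `C(S) = K ⇒ S = A`;
* (B4) if `τ' (P g)(θ') = 0` for all `g`, then `P(θ') = 0`;
* (B5) `e_{C(H)} (D H) = - (D_c P)(H) / P'(H)`;
* (B6) Kummer.
-/
import Crest.Agent.Kurosh.DoubleCent
import Crest.Agent.Kurosh.State

set_option autoImplicit false

namespace Crest.Agent.Kurosh.CentFactsB

open Polynomial Crest.Agent.Kurosh.DoubleCent

variable {K A : Type*} [Field K] [DivisionRing A] [Algebra K A]

section Orth

variable (τ : A →ₗ[K] K)

/-- The bilinear form `(x,y) ↦ τ (x y)`. -/
noncomputable def form : LinearMap.BilinForm K A := (LinearMap.mul K A).compr₂ τ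

@[simp] lemma form_apply (x y : A) : form τ x y = τ (x * y) := by
  simp [form]

/-- The orthogonal of a subspace: `{x | ∀ s ∈ S, τ (s x) = 0}`. -/
noncomputable def orth (S : Submodule K A) : Submodule K A := (form τ).orthogonal S

lemma mem_orth {S : Submodule K A} {x : A} : x ∈ orth τ S ↔ ∀ s ∈ S, τ (s * x) = 0 := by
  simp [orth, LinearMap.BilinForm.mem_orthogonal_iff]

lemma orth_anti {S T : Submodule K A} (h : S ≤ T) : orth τ T ≤ orth τ S :=
  fun _ hx => (mem_orth τ).mpr fun s hs => (mem_orth τ).mp hx s (h hs)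

variable {τ}
variable (h1 : τ 1 = 1) (hc : ∀ x y, τ (x * y) = τ (y * x))

include hc in
lemma form_isRefl : (form τ).IsRefl := by
  intro x y h
  rw [form_apply] at h ⊢
  rw [hc]; exact h

include h1 in
/-- Nondegeneracy on a division subalgebra. -/
lemma eq_zero_of_orth [FiniteDimensional K A] (S : Subalgebra K A) {x : A} (hx : x ∈ S)
    (h : ∀ y ∈ S, τ (y * x) = 0) : x = 0 := by
  by_contra h0
  have hinv := inv_mem_subalgebra S hx
  have := h _ hinv
  rw [inv_mul_cancel₀ h0, h1] at this
  exact one_ne_zero this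

include h1 hc in
/-- `A = S ⊕ S^⊥` for a subalgebra `S`. -/
theorem isCompl_orth [FiniteDimensional K A] (S : Subalgebra K A) :
    IsCompl (Subalgebra.toSubmodule S) (orth τ (Subalgebra.toSubmodule S)) := by
  apply LinearMap.BilinForm.isCompl_orthogonal_of_restrict_nondegenerate (form_isRefl hc)
  constructor
  · rintro ⟨x, hx⟩ h
    apply Subtype.ext
    refine eq_zero_of_orth h1 S hx fun y hy => ?_
    have := h ⟨y, hy⟩
    simp only [LinearMap.BilinForm.restrict_apply, LinearMap.domRestrict_apply, form_apply] at this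
    rw [hc]
    exact this
  · rintro ⟨x, hx⟩ h
    apply Subtype.ext
    refine eq_zero_of_orth h1 S hx fun y hy => ?_
    have := h ⟨y, hy⟩
    simp only [LinearMap.BilinForm.restrict_apply, LinearMap.domRestrict_apply, form_apply] at this
    exact this

/-- The orthogonal projection onto a subalgebra. -/
noncomputable def proj [FiniteDimensional K A] (S : Subalgebra K A) : A →ₗ[K] A :=
  (Subalgebra.toSubmodule S).projection (orth τ (Subalgebra.toSubmodule S)) (isCompl_orth h1 hc S)

variable [FiniteDimensional K A] (S T : Subalgebra K A)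

lemma proj_mem (x : A) : proj h1 hc S x ∈ S :=
  Submodule.projection_apply_mem (isCompl_orth h1 hc S) x

lemma proj_of_mem {x : A} (hx : x ∈ S) : proj h1 hc S x = x :=
  Submodule.projection_apply_of_mem_left _ hx

lemma proj_of_orth {x : A} (hx : x ∈ orth τ (Subalgebra.toSubmodule S)) : proj h1 hc S x = 0 :=
  (Submodule.projection_apply_eq_zero_iff _).mpr hx

lemma sub_proj_mem_orth (x : A) : x - proj h1 hc S x ∈ orth τ (Subalgebra.toSubmodule S) := by
  have h := Submodule.projection_add_projection_eq_self (isCompl_orth h1 hc S) x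
  have h2 : x - proj h1 hc S x =
      (Submodule.projection (orth τ (Subalgebra.toSubmodule S)) (Subalgebra.toSubmodule S)
        (isCompl_orth h1 hc S).symm) x := by
    rw [eq_sub_of_add_eq' h]; rfl
  rw [h2]
  exact Submodule.projection_apply_mem _ _

/-- The defining property of the orthogonal projection. -/
lemma tau_mul_proj {s : A} (hs : s ∈ S) (x : A) : τ (s * proj h1 hc S x) = τ (s * x) := by
  have h := (mem_orth τ).mp (sub_proj_mem_orth h1 hc S x) s hs
  rw [mul_sub, map_sub, sub_eq_zero] at h
  exact h.symm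

lemma tau_proj_mul {s : A} (hs : s ∈ S) (x : A) : τ (proj h1 hc S x * s) = τ (x * s) := by
  rw [hc, tau_mul_proj h1 hc S hs, hc]

/-- Uniqueness of the orthogonal projection. -/
lemma proj_eq_of {x y : A} (hy : y ∈ S) (h : ∀ s ∈ S, τ (s * y) = τ (s * x)) :
    proj h1 hc S x = y := by
  have : proj h1 hc S x - y = 0 := by
    refine eq_zero_of_orth h1 S (S.sub_mem (proj_mem h1 hc S x) hy) fun s hs => ?_
    rw [mul_sub, map_sub, tau_mul_proj h1 hc S hs, h s hs, sub_self]
  exact sub_eq_zero.mp this

/-- `S`-bilinearity. -/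
lemma proj_mul_left {s : A} (hs : s ∈ S) (x : A) :
    proj h1 hc S (s * x) = s * proj h1 hc S x := by
  refine proj_eq_of h1 hc S (S.mul_mem hs (proj_mem h1 hc S x)) fun r hr => ?_
  rw [← mul_assoc, tau_mul_proj h1 hc S (S.mul_mem hr hs), mul_assoc]

lemma proj_mul_right {s : A} (hs : s ∈ S) (x : A) :
    proj h1 hc S (x * s) = proj h1 hc S x * s := by
  refine proj_eq_of h1 hc S (S.mul_mem (proj_mem h1 hc S x) hs) fun r hr => ?_
  have h := tau_mul_proj h1 hc S (S.mul_mem hs hr) x
  calc τ (r * (proj h1 hc S x * s)) = τ ((s * r) * proj h1 hc S x) := by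
        rw [hc, mul_assoc, hc]
    _ = τ ((s * r) * x) := h
    _ = τ (r * (x * s)) := by rw [hc, ← mul_assoc, hc]

/-- Transitivity: `S ≤ T` gives `e_S ∘ e_T = e_S`. -/
lemma proj_proj {S T : Subalgebra K A} (h : S ≤ T) (x : A) :
    proj h1 hc S (proj h1 hc T x) = proj h1 hc S x := by
  refine proj_eq_of h1 hc S (proj_mem h1 hc S x) fun s hs => ?_
  rw [tau_mul_proj h1 hc S hs, tau_mul_proj h1 hc T (h hs)]

/-- `e_S x = 0` iff `x ⊥ S`. -/
lemma proj_eq_zero_iff {x : A} : proj h1 hc S x = 0 ↔ ∀ s ∈ S, τ (s * x) = 0 := by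
  constructor
  · intro h s hs
    rw [← tau_mul_proj h1 hc S hs, h, mul_zero, map_zero]
  · intro h
    exact proj_of_orth h1 hc S ((mem_orth τ).mpr h)

include h1 hc in
/-- `dim S + dim S^⊥ = dim A`. -/
lemma finrank_add_finrank_orth :
    Module.finrank K S + Module.finrank K (orth τ (Subalgebra.toSubmodule S)) =
      Module.finrank K A :=
  Submodule.finrank_add_eq_of_isCompl (isCompl_orth h1 hc S)

/-- The commutators `[c,x]`, `c` in the centraliser of `S`... : `e_{C(F)}` kills `[f,x]`, `f ∈ F`. -/
lemma proj_centDiv_comm (F : Subalgebra K A) {f : A} (hf : f ∈ F) (x : A) :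
    proj h1 hc (centDiv F) (f * x - x * f) = 0 := by
  refine proj_of_orth h1 hc _ ((mem_orth τ).mpr fun s hs => ?_)
  have hs' := mem_centDiv.mp hs f hf
  rw [mul_sub, map_sub, sub_eq_zero, ← mul_assoc, ← hs', mul_assoc, hc]
  rw [mul_assoc]

include h1 hc in
/-- A subspace of a division subalgebra and its orthogonal inside the subalgebra: dimension. -/
lemma finrank_perp_in (C : Subalgebra K A) (V : Submodule K A) (hV : V ≤ Subalgebra.toSubmodule C) :
    Module.finrank K ((orth τ V ⊓ Subalgebra.toSubmodule C : Submodule K A)) + Module.finrank K V =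
      Module.finrank K (Subalgebra.toSubmodule C) := by
  classical
  set C' := Subalgebra.toSubmodule C with hC'
  let B' : LinearMap.BilinForm K C' := (form τ).restrict C'
  have hB' : B'.Nondegenerate := by
    constructor
    · rintro ⟨x, hx⟩ h
      apply Subtype.ext
      refine eq_zero_of_orth h1 C hx fun y hy => ?_
      have := h ⟨y, hy⟩
      simp only [B', LinearMap.BilinForm.restrict_apply, LinearMap.domRestrict_apply,
        form_apply] at this
      rw [hc]
      exact this
    · rintro ⟨x, hx⟩ h
      apply Subtype.ext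
      refine eq_zero_of_orth h1 C hx fun y hy => ?_
      have := h ⟨y, hy⟩
      simp only [B', LinearMap.BilinForm.restrict_apply, LinearMap.domRestrict_apply,
        form_apply] at this
      exact this
  let W : Submodule K C' := V.comap C'.subtype
  have hW : Module.finrank K W = Module.finrank K V :=
    (Submodule.comapSubtypeEquivOfLe hV).finrank_eq
  have hO : B'.orthogonal W =
      (orth τ V ⊓ Subalgebra.toSubmodule C : Submodule K A).comap C'.subtype := by
    ext ⟨x, hx⟩
    simp only [LinearMap.BilinForm.mem_orthogonal_iff, Submodule.mem_comap, Submodule.mem_inf,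
      Submodule.subtype_apply, mem_orth]
    constructor
    · intro h
      refine ⟨fun v hv => ?_, hx⟩
      have := h ⟨v, hV hv⟩ (by simpa [W] using hv)
      simpa [B'] using this
    · rintro ⟨h, -⟩ ⟨v, hv'⟩ hv
      have := h v (by simpa [W] using hv)
      simpa [B'] using this
  have h3 : Module.finrank K (B'.orthogonal W) =
      Module.finrank K (orth τ V ⊓ Subalgebra.toSubmodule C : Submodule K A) := by
    rw [hO]
    exact (Submodule.comapSubtypeEquivOfLe inf_le_right).finrank_eq
  have h4 := LinearMap.BilinForm.finrank_orthogonal hB' W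
  have h5 : Module.finrank K W ≤ Module.finrank K C' := Submodule.finrank_le W
  rw [← h3, h4, ← hW]
  exact Nat.sub_add_cancel h5

include h1 hc in
/-- Double orthogonal inside a division subalgebra. -/
lemma perp_in_perp_in (C : Subalgebra K A) (V : Submodule K A)
    (hV : V ≤ Subalgebra.toSubmodule C) :
    orth τ (orth τ V ⊓ Subalgebra.toSubmodule C) ⊓ Subalgebra.toSubmodule C = V := by
  symm
  apply Submodule.eq_of_le_of_finrank_eq
  · refine le_inf (fun v hv => (mem_orth τ).mpr fun x hx => ?_) hV
    have := (mem_orth τ).mp hx.1 v hv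
    rw [hc]; exact this
  · have h1' := finrank_perp_in h1 hc C V hV
    have h2' := finrank_perp_in h1 hc C (orth τ V ⊓ Subalgebra.toSubmodule C) inf_le_right
    omega

end Orth

/-! ### (B3) `A = C(β) ⊕ [β,A]` -/

section Split

variable {τ : A →ₗ[K] K} (h1 : τ 1 = 1) (hc : ∀ x y, τ (x * y) = τ (y * x))

/-- The centraliser of `β` as a subalgebra. -/
noncomputable def Cen (β : A) : Subalgebra K A := Subalgebra.centralizer K ({β} : Set A)

lemma mem_Cen {β x : A} : x ∈ Cen (K := K) β ↔ β * x = x * β := by
  simp [Cen, Subalgebra.mem_centralizer_iff]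

lemma toSubmodule_Cen (β : A) :
    Subalgebra.toSubmodule (Cen (K := K) β) = State.cent (K := K) β := by
  ext x
  simp [State.mem_cent, mem_Cen]

variable [FiniteDimensional K A]

include h1 hc in
/-- `[β,A] = C(β)^⊥`. -/
theorem imAd_eq_orth (β : A) :
    State.imAd (K := K) β = orth τ (Subalgebra.toSubmodule (Cen (K := K) β)) := by
  apply Submodule.eq_of_le_of_finrank_eq
  · intro x hx
    obtain ⟨y, rfl⟩ := State.mem_imAd.mp hx
    refine (mem_orth τ).mpr fun s hs => ?_
    have hs' : β * s = s * β := (mem_Cen (K := K)).mp hs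
    rw [mul_sub, map_sub, sub_eq_zero, ← mul_assoc, ← hs', mul_assoc, hc, mul_assoc]
  · have h2 := LinearMap.finrank_range_add_finrank_ker (State.adL (K := K) β)
    have h3 := finrank_add_finrank_orth h1 hc (Cen (K := K) β)
    have h4 : Module.finrank K (Cen (K := K) β) =
        Module.finrank K (State.cent (K := K) β) := by
      rw [← toSubmodule_Cen]; rfl
    have h5 : Module.finrank K (State.imAd (K := K) β) =
        Module.finrank K (LinearMap.range (State.adL (K := K) β)) := rfl
    have h6 : Module.finrank K (State.cent (K := K) β) =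
        Module.finrank K (LinearMap.ker (State.adL (K := K) β)) := rfl
    omega

include h1 hc in
/-- (B3) `A = C(β) ⊕ [β,A]`. -/
theorem isCompl_cent_imAd (β : A) :
    IsCompl (State.cent (K := K) β) (State.imAd (K := K) β) := by
  rw [imAd_eq_orth h1 hc, ← toSubmodule_Cen]
  exact isCompl_orth h1 hc _

include h1 hc in
/-- The `State.Split` at any `β`. -/
theorem nonempty_split (β : A) : Nonempty (State.Split (K := K) β) :=
  State.exists_split (isCompl_cent_imAd h1 hc β)

include h1 hc in
/-- Every `State.Split` is the orthogonal projection on the centraliser. -/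
theorem split_e_eq {β : A} (S : State.Split (K := K) β) (x : A) :
    S.e x = proj h1 hc (Cen (K := K) β) x := by
  have hd : x - S.e x ∈ State.imAd (K := K) β := State.mem_imAd.mpr ⟨S.inv x, S.ad_inv x⟩
  rw [imAd_eq_orth h1 hc] at hd
  have hm : S.e x ∈ Cen (K := K) β := by
    rw [mem_Cen]; exact State.mem_cent.mp (S.e_mem x)
  refine (proj_eq_of h1 hc _ hm fun s hs => ?_).symm
  have := (mem_orth τ).mp hd s hs
  rw [mul_sub, map_sub, sub_eq_zero] at this
  exact this.symm

end Split

/-! ### (B2) -/

section B2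

variable [FiniteDimensional K A]

/-- (B2) A subalgebra with trivial centraliser is everything. -/
theorem eq_top_of_centDiv_eq_bot (hC : ∀ a : A, (∀ x, a * x = x * a) → ∃ c : K, a = algebraMap K A c)
    (S : Subalgebra K A) (hS : ∀ x, x ∈ centDiv S → ∃ c : K, x = algebraMap K A c) : S = ⊤ := by
  rw [← centDiv_centDiv hC S]
  refine eq_top_iff.mpr fun x _ => mem_centDiv.mpr fun b hb => ?_
  obtain ⟨c, rfl⟩ := hS b hb
  exact (Algebra.commutes c x)

end B2

/-! ### (B4) -/

section B4

/-- (B4) In a finite dimensional division algebra with `τ 1 = 1`, `x ∈ K[θ]` orthogonal to `K[θ]`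
vanishes. Used as: a polynomial `P` with `τ (P g)(θ) = 0` for all `g` kills `θ`. -/
theorem aeval_eq_zero_of_tau [FiniteDimensional K A] {τ : A →ₗ[K] K} (h1 : τ 1 = 1) (θ : A)
    (P : K[X]) (h : ∀ g : K[X], τ (aeval θ (g * P)) = 0) : aeval θ P = 0 := by
  classical
  set S : Subalgebra K A := Algebra.adjoin K ({θ} : Set A) with hS
  have hS' : S = (aeval θ : K[X] →ₐ[K] A).range := Algebra.adjoin_singleton_eq_range_aeval K θ
  have hall : aeval θ P ∈ S := by
    rw [hS']; exact ⟨P, rfl⟩
  refine eq_zero_of_orth h1 S hall fun y hy => ?_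
  rw [hS'] at hy
  obtain ⟨g, rfl⟩ := hy
  have := h g
  rwa [map_mul] at this

/-- (B4), the form used in Case A: the normalized power sums of `θ'` over `K'` are those of a root of
`P` over `K`. -/
theorem aeval_eq_zero_of_powerSums {K' A' B : Type*} [Field K'] [DivisionRing A'] [Algebra K' A']
    [FiniteDimensional K' A'] [Algebra K K'] [DivisionRing B] [Algebra K B] [Algebra K A']
    [IsScalarTower K K' A'] {τ' : A' →ₗ[K'] K'} (h1 : τ' 1 = 1) {τ : B →ₗ[K] K}
    (θ' : A') (θ : B) (hpow : ∀ n : ℕ, τ' (θ' ^ n) = algebraMap K K' (τ (θ ^ n)))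
    (P : K[X]) (hP : aeval θ P = 0) : aeval θ' P = 0 := by
  classical
  -- first the identity for all polynomials over `K`
  have key : ∀ f : K[X], τ' (aeval θ' f) = algebraMap K K' (τ (aeval θ f)) := by
    intro f
    induction f using Polynomial.induction_on' with
    | add p q hp hq => simp [map_add, hp, hq]
    | monomial n c =>
      simp only [aeval_monomial, map_mul]
      have : (algebraMap K A') c * θ' ^ n = (algebraMap K K' c) • θ' ^ n := by
        rw [Algebra.smul_def, IsScalarTower.algebraMap_apply K K' A']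
      rw [this, map_smul, hpow, smul_eq_mul]
      have h2 : (algebraMap K B) c * θ ^ n = c • θ ^ n := by rw [Algebra.smul_def]
      rw [h2, map_smul, smul_eq_mul, map_mul]
  -- now the polynomial `P` mapped to `K'`
  have hmap : ∀ Q : K[X], aeval θ' Q = aeval θ' (Q.map (algebraMap K K')) := by
    intro Q
    rw [aeval_map_algebraMap]
  rw [hmap]
  refine aeval_eq_zero_of_tau h1 θ' _ fun g => ?_
  -- `K'`-linearity in `g`
  induction g using Polynomial.induction_on' with
  | add p q hp hq =>
    rw [add_mul, map_add, map_add, hp, hq, add_zero]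
  | monomial n c =>
    have h3 : monomial n c * P.map (algebraMap K K') =
        c • ((X ^ n : K'[X]) * P.map (algebraMap K K')) := by
      rw [← C_mul_X_pow_eq_monomial, smul_eq_C_mul, mul_assoc]
    rw [h3, map_smul, map_smul, smul_eq_mul]
    have h4 : (X ^ n : K'[X]) * P.map (algebraMap K K') = (X ^ n * P).map (algebraMap K K') := by
      simp
    rw [h4, aeval_map_algebraMap, key, map_mul, hP, mul_zero, map_zero, map_zero, mul_zero]

end B4

/-! ### (B5) the derivation formula -/

section B5

/-- The Leibniz polynomial `∂P[H;t] = Σ_i p_i Σ_{a+b=i-1} H^a t H^b`. -/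
noncomputable def dPoly (H t : A) (P : K[X]) : A :=
  P.sum fun i c => c • ∑ a ∈ Finset.range i, H ^ a * t * H ^ (i - 1 - a)

/-- Apply a map of the scalars to the coefficients. -/
noncomputable def mapCoeff (δ : K → K) (P : K[X]) : K[X] :=
  P.sum fun i c => monomial i (δ c)

lemma dPoly_add (H t : A) (P Q : K[X]) : dPoly H t (P + Q) = dPoly H t P + dPoly H t Q := by
  classical
  unfold dPoly
  rw [Polynomial.sum_add_index]
  · intro i; simp
  · intro i c d; rw [add_smul]

lemma dPoly_monomial (H t : A) (n : ℕ) (c : K) :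
    dPoly H t (monomial n c) = c • ∑ a ∈ Finset.range n, H ^ a * t * H ^ (n - 1 - a) := by
  classical
  unfold dPoly
  rw [Polynomial.sum_monomial_index]
  simp

/-- A derivation that preserves the scalars: the basic formula
`D (P(H)) = (D_c P)(H) + ∂P[H; D H]`. -/
theorem der_aeval (D : A → A) (δ : K → K) (hadd : ∀ x y, D (x + y) = D x + D y)
    (hmul : ∀ x y, D (x * y) = D x * y + x * D y)
    (hδ : ∀ c, D (algebraMap K A c) = algebraMap K A (δ c))
    (hδadd : ∀ c d, δ (c + d) = δ c + δ d)
    (H : A) (P : K[X]) :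
    D (aeval H P) = aeval H (mapCoeff δ P) + dPoly H (D H) P := by
  classical
  have h0 : D 0 = 0 := by simpa using hadd 0 0
  have hδ0 : δ 0 = 0 := by simpa using hδadd 0 0
  have hone : D 1 = 0 := by
    have := hmul 1 1
    simp only [mul_one, one_mul] at this
    simpa using this
  have hpow : ∀ n : ℕ, D (H ^ n) = ∑ a ∈ Finset.range n, H ^ a * D H * H ^ (n - 1 - a) := by
    intro n
    induction n with
    | zero => simp [hone]
    | succ n ih =>
      rw [pow_succ, hmul, ih, Finset.sum_range_succ, Finset.sum_mul]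
      congr 1
      · refine Finset.sum_congr rfl fun a ha => ?_
        have ha' := Finset.mem_range.mp ha
        have : n + 1 - 1 - a = (n - 1 - a) + 1 := by omega
        simp only [this, pow_succ, mul_assoc]
      · simp
  have hmapadd : ∀ P Q : K[X], mapCoeff δ (P + Q) = mapCoeff δ P + mapCoeff δ Q := by
    intro P Q
    unfold mapCoeff
    rw [Polynomial.sum_add_index]
    · intro i; simp [hδ0]
    · intro i c d; rw [hδadd, map_add]
  have hmapmon : ∀ n c, mapCoeff δ (monomial n c) = monomial n (δ c) := by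
    intro n c
    unfold mapCoeff
    rw [Polynomial.sum_monomial_index]
    simp [hδ0]
  induction P using Polynomial.induction_on' with
  | add p q hp hq =>
    rw [map_add, hadd, hp, hq, hmapadd, map_add, dPoly_add]
    abel
  | monomial n c =>
    rw [aeval_monomial, hmul, hδ, hpow, hmapmon, aeval_monomial, dPoly_monomial, Algebra.smul_def]

variable {H : A}

omit [DivisionRing A] [Algebra K A] in
lemma aeval_comm {B : Type*} [Ring B] [Algebra K B] (H : B) (Q : K[X]) :
    H * aeval H Q = aeval H Q * H := by
  have h : aeval H (X * Q) = aeval H (Q * X) := by rw [mul_comm]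
  simpa only [map_mul, aeval_X] using h

/-- Rules of the projection: everything in the algebra generated by `H` moves out. -/
lemma split_e_pow_mul_pow (S : State.Split (K := K) H) (t : A) (a b : ℕ) :
    S.e (H ^ a * t * H ^ b) = H ^ (a + b) * S.e t := by
  classical
  have hcomm : ∀ x, H * S.e x = S.e x * H := fun x => State.mem_cent.mp (S.e_mem x)
  -- `e (H x) = H e x` and `e (x H) = H e x`
  have hL : ∀ x, S.e (H * x) = H * S.e x := by
    intro x
    have h1 : x = S.e x + (H * S.inv x - S.inv x * H) := by rw [S.ad_inv]; abel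
    have h2 : H * x = H * S.e x + (H * (H * S.inv x) - (H * S.inv x) * H) := by
      conv_lhs => rw [h1]
      noncomm_ring
    rw [h2, map_add]
    have h3 : S.e (H * (H * S.inv x) - (H * S.inv x) * H) = 0 :=
      S.e_imAd _ (State.mem_imAd.mpr ⟨_, rfl⟩)
    rw [h3, add_zero]
    exact S.e_cent _ (State.mem_cent.mpr (by rw [mul_assoc, ← hcomm x]))
  have hR : ∀ x, S.e (x * H) = H * S.e x := by
    intro x
    have h3 : S.e (H * x - x * H) = 0 := S.e_imAd _ (State.mem_imAd.mpr ⟨_, rfl⟩)
    rw [map_sub, sub_eq_zero] at h3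
    rw [← h3, hL]
  have hLp : ∀ (a : ℕ) x, S.e (H ^ a * x) = H ^ a * S.e x := by
    intro a
    induction a with
    | zero => simp
    | succ a ih =>
      intro x
      rw [pow_succ, mul_assoc, ih, hL, mul_assoc]
  have hRp : ∀ (b : ℕ) x, S.e (x * H ^ b) = H ^ b * S.e x := by
    intro b
    induction b with
    | zero => simp
    | succ b ih =>
      intro x
      calc S.e (x * H ^ (b + 1)) = S.e ((x * H ^ b) * H) := by rw [pow_succ, mul_assoc]
        _ = H * S.e (x * H ^ b) := hR _
        _ = H * (H ^ b * S.e x) := by rw [ih]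
        _ = H ^ (b + 1) * S.e x := by rw [← mul_assoc, ← pow_succ']
  rw [hRp, hLp, ← mul_assoc, pow_add, (Commute.pow_pow (Commute.refl H) b a).eq]

/-- `e (∂P[H;t]) = P'(H) e t`. -/
theorem split_e_dPoly (S : State.Split (K := K) H) (t : A) (P : K[X]) :
    S.e (dPoly H t P) = aeval H (derivative P) * S.e t := by
  classical
  induction P using Polynomial.induction_on' with
  | add p q hp hq => rw [dPoly_add, map_add, hp, hq, map_add, map_add, add_mul]
  | monomial n c =>
    rw [dPoly_monomial, map_smul, map_sum, derivative_monomial, aeval_monomial]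
    have : ∀ a ∈ Finset.range n, S.e (H ^ a * t * H ^ (n - 1 - a)) = H ^ (n - 1) * S.e t := by
      intro a ha
      have ha' := Finset.mem_range.mp ha
      rw [split_e_pow_mul_pow]
      congr 2
      omega
    rw [Finset.sum_congr rfl this, Finset.sum_const, Finset.card_range, nsmul_eq_mul]
    simp only [map_mul, map_natCast, Algebra.smul_def, mul_assoc, Nat.cast_id]

/-- (B5) If `P(H) = 0`, `D` a derivation preserving the scalars, then
`P'(H) e(DH) = - (D_c P)(H)`. -/
theorem split_e_der (S : State.Split (K := K) H) (D : A → A) (δ : K → K)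
    (hadd : ∀ x y, D (x + y) = D x + D y)
    (hmul : ∀ x y, D (x * y) = D x * y + x * D y)
    (hδ : ∀ c, D (algebraMap K A c) = algebraMap K A (δ c))
    (hδadd : ∀ c d, δ (c + d) = δ c + δ d)
    (P : K[X]) (hP : aeval H P = 0) :
    aeval H (derivative P) * S.e (D H) = - aeval H (mapCoeff δ P) := by
  have h := der_aeval D δ hadd hmul hδ hδadd H P
  have h0 : D 0 = 0 := by simpa using hadd 0 0
  rw [hP, h0] at h
  have h2 : dPoly H (D H) P = - aeval H (mapCoeff δ P) := by
    rw [eq_neg_iff_add_eq_zero, add_comm]; exact h.symm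
  have h3 : S.e (aeval H (mapCoeff δ P)) = aeval H (mapCoeff δ P) := by
    exact S.e_cent _ (State.mem_cent.mpr (aeval_comm H _))
  rw [← split_e_dPoly, h2, map_neg, h3]

/-- (B5) The corollary: with `P` the minimal polynomial of `H`, `e (D H) ∈ K[H]`; when `D` kills the
coefficients of `P`, `e (D H) = 0`. -/
theorem split_e_der_zero (S : State.Split (K := K) H) (D : A → A) (δ : K → K)
    (hadd : ∀ x y, D (x + y) = D x + D y)
    (hmul : ∀ x y, D (x * y) = D x * y + x * D y)
    (hδ : ∀ c, D (algebraMap K A c) = algebraMap K A (δ c))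
    (hδadd : ∀ c d, δ (c + d) = δ c + δ d)
    (P : K[X]) (hP : aeval H P = 0) (hP' : aeval H (derivative P) ≠ 0)
    (hkill : aeval H (mapCoeff δ P) = 0) : S.e (D H) = 0 := by
  have h := split_e_der S D δ hadd hmul hδ hδadd P hP
  rw [hkill, neg_zero] at h
  exact (mul_eq_zero.mp h).resolve_left hP'

/-- In characteristic zero the derivative of the minimal polynomial does not vanish at `H`. -/
theorem aeval_derivative_minpoly_ne_zero [FiniteDimensional K A] [CharZero K] (H : A) :
    aeval H (derivative (minpoly K H)) ≠ 0 := by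
  have hint : IsIntegral K H := IsIntegral.of_finite K H
  intro h0
  have hpos : 0 < (minpoly K H).natDegree := minpoly.natDegree_pos hint
  have hne : derivative (minpoly K H) ≠ 0 := by
    intro hd
    have := Polynomial.derivative_eq_zero.mp hd
    omega
  have h1 := minpoly.degree_le_of_ne_zero K H hne h0
  have h2 := Polynomial.degree_derivative_lt (minpoly.ne_zero hint)
  exact absurd (lt_of_le_of_lt h1 h2) (lt_irrefl _)

/-- (B5) `e (D H) ∈ K[H]`. -/
theorem split_e_der_mem [FiniteDimensional K A] [CharZero K] (S : State.Split (K := K) H)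
    (D : A → A) (δ : K → K)
    (hadd : ∀ x y, D (x + y) = D x + D y)
    (hmul : ∀ x y, D (x * y) = D x * y + x * D y)
    (hδ : ∀ c, D (algebraMap K A c) = algebraMap K A (δ c))
    (hδadd : ∀ c d, δ (c + d) = δ c + δ d) :
    S.e (D H) ∈ Algebra.adjoin K ({H} : Set A) := by
  have h := split_e_der S D δ hadd hmul hδ hδadd (minpoly K H) (minpoly.aeval K H)
  have hne := aeval_derivative_minpoly_ne_zero (K := K) H
  have hS : Algebra.adjoin K ({H} : Set A) = (aeval H : K[X] →ₐ[K] A).range :=
    Algebra.adjoin_singleton_eq_range_aeval K H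
  have hmem : ∀ Q : K[X], aeval H Q ∈ Algebra.adjoin K ({H} : Set A) := fun Q => by
    rw [hS]; exact ⟨Q, rfl⟩
  have : S.e (D H) = (aeval H (derivative (minpoly K H)))⁻¹ * - aeval H (mapCoeff δ (minpoly K H)) := by
    rw [← h, ← mul_assoc, inv_mul_cancel₀ hne, one_mul]
  rw [this]
  exact Subalgebra.mul_mem _ (inv_mem_subalgebra _ (hmem _)) (Subalgebra.neg_mem _ (hmem _))

end B5

/-! ### Uniqueness of the trace, `tr (L_a) = (dim A) τ a` -/

section Unique

variable [FiniteDimensional K A]
variable {τ : A →ₗ[K] K} (h1 : τ 1 = 1) (hc : ∀ x y, τ (x * y) = τ (y * x))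

include h1 hc in
/-- Any linear functional vanishing on commutators of a central division algebra is a multiple of
the normalized trace. -/
theorem functional_eq_smul (hC : ∀ a : A, (∀ x, a * x = x * a) → ∃ c : K, a = algebraMap K A c)
    (φ : A →ₗ[K] K) (hφ : ∀ x y, φ (x * y) = φ (y * x)) (a : A) : φ a = φ 1 * τ a := by
  classical
  have hnd : (form τ).Nondegenerate := by
    constructor
    · intro x h
      refine eq_zero_of_orth h1 (⊤ : Subalgebra K A) Algebra.mem_top fun y _ => ?_
      rw [hc]; simpa using h y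
    · intro x h
      refine eq_zero_of_orth h1 (⊤ : Subalgebra K A) Algebra.mem_top fun y _ => ?_
      simpa using h y
  obtain ⟨c, hcφ⟩ : ∃ c : A, ∀ y, τ (c * y) = φ y := by
    refine ⟨(form τ).toDual hnd |>.symm φ, fun y => ?_⟩
    have := LinearMap.BilinForm.apply_toDual_symm_apply (hB := hnd) φ y
    simpa only [form_apply] using this
  have hcen : ∀ x, c * x = x * c := by
    intro x
    have : c * x - x * c = 0 := by
      refine eq_zero_of_orth h1 (⊤ : Subalgebra K A) Algebra.mem_top fun y _ => ?_
      rw [hc, sub_mul, map_sub, sub_eq_zero]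
      have e1 : τ (c * x * y) = φ (x * y) := by rw [mul_assoc, hcφ]
      have e2 : τ (x * c * y) = φ (y * x) := by rw [mul_assoc, hc, mul_assoc, hcφ]
      rw [e1, e2, hφ]
    exact sub_eq_zero.mp this
  obtain ⟨l, rfl⟩ := hC c hcen
  have e3 : φ 1 = l := by
    rw [← hcφ, mul_one, ← mul_one (algebraMap K A l), ← Algebra.smul_def, map_smul, h1]
    simp
  rw [← hcφ, e3, ← Algebra.smul_def, map_smul, smul_eq_mul]

include h1 hc in
/-- Two normalized traces of a central division algebra coincide. -/
theorem tau_unique (hC : ∀ a : A, (∀ x, a * x = x * a) → ∃ c : K, a = algebraMap K A c)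
    (τ' : A →ₗ[K] K) (h1' : τ' 1 = 1) (hc' : ∀ x y, τ' (x * y) = τ' (y * x)) (a : A) :
    τ' a = τ a := by
  rw [functional_eq_smul h1 hc hC τ' hc' a, h1', one_mul]

include h1 hc in
/-- `tr_K (L_a) = (dim A) τ a`. -/
theorem trace_mulLeft (hC : ∀ a : A, (∀ x, a * x = x * a) → ∃ c : K, a = algebraMap K A c) (a : A) :
    LinearMap.trace K A (LinearMap.mulLeft K a) = (Module.finrank K A : K) * τ a := by
  let φ : A →ₗ[K] K := LinearMap.trace K A ∘ₗ LinearMap.mul K A
  have hφ : ∀ x y, φ (x * y) = φ (y * x) := by
    intro x y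
    show LinearMap.trace K A (LinearMap.mulLeft K (x * y)) =
      LinearMap.trace K A (LinearMap.mulLeft K (y * x))
    rw [LinearMap.mulLeft_mul, LinearMap.mulLeft_mul]
    exact LinearMap.trace_mul_comm K _ _
  have h := functional_eq_smul h1 hc hC φ hφ a
  have h2 : φ 1 = (Module.finrank K A : K) := by
    show LinearMap.trace K A (LinearMap.mulLeft K 1) = _
    rw [LinearMap.mulLeft_one]
    exact LinearMap.trace_id K A
  rw [h2] at h
  exact h

end Unique

/-! ### (B6) Kummer -/

section KummerField

/-- The field statement: `w^m ∈ E`, `ζ_m ∈ E`, `w ∉ E` force `m ∣ [L:E]`. -/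
theorem kummer_field {E L : Type*} [Field E] [Field L] [Algebra E L] [FiniteDimensional E L]
    {m : ℕ} (hm : m.Prime) {ζ : E} (hζ : IsPrimitiveRoot ζ m) (w : L)
    (e : E) (hwm : algebraMap E L e = w ^ m) (hw : w ∉ (algebraMap E L).range) :
    m ∣ Module.finrank E L := by
  classical
  haveI : NeZero m := ⟨hm.ne_zero⟩
  by_cases hb : ∃ b : E, b ^ m = e
  · exfalso
    obtain ⟨b, rfl⟩ := hb
    have hw0 : w ≠ 0 := by
      rintro rfl
      exact hw ⟨0, by simp⟩
    have hb0 : b ≠ 0 := by
      rintro rfl
      rw [zero_pow hm.ne_zero, map_zero] at hwm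
      exact hw0 (pow_eq_zero_iff hm.ne_zero |>.mp hwm.symm)
    have hb0' : algebraMap E L b ≠ 0 := by
      simpa using hb0
    have h1 : (w / algebraMap E L b) ^ m = 1 := by
      rw [div_pow, ← hwm, map_pow]
      exact div_self (pow_ne_zero _ hb0')
    have hζ' : IsPrimitiveRoot (algebraMap E L ζ) m :=
      hζ.map_of_injective (algebraMap E L).injective
    obtain ⟨i, -, hi⟩ := hζ'.eq_pow_of_pow_eq_one h1
    apply hw
    refine ⟨ζ ^ i * b, ?_⟩
    rw [map_mul, map_pow, hi]
    field_simp
  · have hirr : Irreducible (X ^ m - C e : E[X]) :=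
      X_pow_sub_C_irreducible_of_prime hm (fun b h => hb ⟨b, h⟩)
    have hmon : (X ^ m - C e : E[X]).Monic := monic_X_pow_sub_C e hm.ne_zero
    have haev : aeval w (X ^ m - C e : E[X]) = 0 := by
      simp [← hwm]
    have hmin : (X ^ m - C e : E[X]) = minpoly E w :=
      minpoly.eq_of_irreducible_of_monic hirr haev hmon
    have hint : IsIntegral E w := IsIntegral.of_finite E w
    have hdeg : Module.finrank E (IntermediateField.adjoin E ({w} : Set L)) = m := by
      rw [IntermediateField.adjoin.finrank hint, ← hmin, natDegree_X_pow_sub_C]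
    rw [← Module.finrank_mul_finrank E (IntermediateField.adjoin E ({w} : Set L)) L, hdeg]
    exact dvd_mul_right _ _

end KummerField

section Kummer

variable [FiniteDimensional K A]

/-- A commutative subalgebra as a field. -/
@[reducible] noncomputable def fieldOfSubalgebra (B : Subalgebra K A)
    (hB : ∀ x ∈ B, ∀ y ∈ B, x * y = y * x) : Field B :=
  { divisionRingOfSubalgebra B with
    mul_comm := fun x y => Subtype.ext (hB _ x.2 _ y.2) }

/-- (B6) Kummer: `E` a commutative subalgebra, `w` commuting with `E`, `w^m ∈ E`, `m` prime with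
`m ∤ N`, `dim A = N²`, `K ∋ ζ_m`. Then `w ∈ E`. -/
theorem mem_of_pow_mem (hC : ∀ a : A, (∀ x, a * x = x * a) → ∃ c : K, a = algebraMap K A c)
    {N : ℕ} (hN : Module.finrank K A = N ^ 2)
    (E : Subalgebra K A) (hE : ∀ x ∈ E, ∀ y ∈ E, x * y = y * x)
    {m : ℕ} (hm : m.Prime) (hmN : ¬ m ∣ N) {ζ : K} (hζ : IsPrimitiveRoot ζ m)
    {w : A} (hw : ∀ e ∈ E, e * w = w * e) (hwm : w ^ m ∈ E) : w ∈ E := by
  classical
  by_contra hwE
  set S : Subalgebra K A := Algebra.adjoin K ((E : Set A) ∪ {w}) with hSdef
  have hgen : ∀ a ∈ (E : Set A) ∪ {w}, ∀ b ∈ (E : Set A) ∪ {w}, a * b = b * a := by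
    rintro a (ha | rfl) b (hb | rfl)
    · exact hE a ha b hb
    · exact hw a ha
    · exact (hw b hb).symm
    · rfl
  have hS : ∀ x ∈ S, ∀ y ∈ S, x * y = y * x := by
    letI := Algebra.adjoinCommRingOfComm K hgen
    intro x hx y hy
    exact congrArg Subtype.val (mul_comm (⟨x, hx⟩ : S) ⟨y, hy⟩)
  have hES : E ≤ S := fun x hx => Algebra.subset_adjoin (Or.inl hx)
  have hwS : w ∈ S := Algebra.subset_adjoin (Or.inr rfl)
  letI F1 : Field E := fieldOfSubalgebra E hE
  letI F2 : Field S := fieldOfSubalgebra S hS
  letI alg : Algebra E S := (Subalgebra.inclusion hES).toRingHom.toAlgebra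
  have halg : ∀ x : E, ((algebraMap E S x : S) : A) = x := fun _ => rfl
  haveI twr : IsScalarTower K E S := ⟨fun c x y => Subtype.ext (by
    show ((c • x : E) : A) * y = c • ((x : A) * y)
    simp [smul_mul_assoc])⟩
  haveI : FiniteDimensional E S := FiniteDimensional.right K E S
  have hζ' : IsPrimitiveRoot (algebraMap K E ζ) m := by
    constructor
    · apply Subtype.ext
      have := hζ.pow_eq_one
      show ((algebraMap K E ζ) : A) ^ m = 1
      show (algebraMap K A ζ) ^ m = 1
      rw [← map_pow, this, map_one]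
    · intro l hl
      apply hζ.dvd_of_pow_eq_one
      have h2 : (algebraMap K A ζ) ^ l = 1 := congrArg Subtype.val hl
      rw [← map_pow] at h2
      exact (algebraMap K A).injective (by rw [h2, map_one])
  have hdvd : m ∣ Module.finrank E S := by
    refine kummer_field hm hζ' (⟨w, hwS⟩ : S) ⟨w ^ m, hwm⟩ (Subtype.ext (by
      show w ^ m = ((⟨w, hwS⟩ : S) ^ m : S).1
      rfl)) ?_
    rintro ⟨x, hx⟩
    apply hwE
    have : (x : A) = w := congrArg Subtype.val hx
    rw [← this]
    exact x.2
  have hmul : Module.finrank K E * Module.finrank E S = Module.finrank K S :=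
    Module.finrank_mul_finrank K E S
  have hdiv : Module.finrank K S ∣ N := finrank_dvd_of_sq hC S hS hN
  exact hmN (hdvd.trans ((Dvd.intro_left _ hmul).trans hdiv))

end Kummer

end Crest.Agent.Kurosh.CentFactsB
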