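import Mathlib

/-!
# S0270: leading spaces and dimension (Gauss-pivot lemma, abstract)

`K'` is a field with a valuation with residue field `K`; `V` is a `K'`-space with a finite basis whose
coordinates are contractive; `c e : V → A` reads the coefficient of a vector at the monomial `e`.
For a `K'`-subspace `W`, `lead e W` is the set of coefficients at `e` of the vectors of `W` of value
`≥ e`, a `K`-subspace of `A`.

`finrank_eq_sum_lead`: `dim_{K'} W = ∑_r dim_K lead (e r) W` where `e r` runs over representatives of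
the monomials modulo the value group of `K'`.  No transfinite reductions: the proof is an induction
on `dim W` cutting by one coordinate hyperplane.
-/

set_option autoImplicit false

namespace Crest.Agent.Kurosh.Lead

open Finset

/-- The data of values and coefficients. -/
structure LeadData (K' K V A Γ : Type*) [Field K'] [Field K] [AddCommGroup V] [Module K' V]
    [AddCommGroup A] [Module K A] [AddCommGroup Γ] [LinearOrder Γ] [IsOrderedAddMonoid Γ] where
  /-- value of a vector -/
  val : V → WithTop Γ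
  val_zero : val 0 = ⊤
  eq_zero_of_val : ∀ x, val x = ⊤ → x = 0
  val_neg : ∀ x, val (-x) = val x
  val_add : ∀ x y, min (val x) (val y) ≤ val (x + y)
  /-- coefficient at a monomial -/
  c : Γ → V →+ A
  c_eq_zero_iff : ∀ (e : Γ) (x : V), (e : WithTop Γ) ≤ val x → (c e x = 0 ↔ (e : WithTop Γ) < val x)
  /-- constants -/
  j : K →+* K'
  /-- value and leading coefficient of a scalar -/
  lam : K' → Γ
  lc : K' → K
  lc_ne : ∀ l, l ≠ 0 → lc l ≠ 0
  lam_j : ∀ k, k ≠ 0 → lam (j k) = 0 ∧ lc (j k) = k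
  smul_spec : ∀ l, l ≠ 0 → ∀ (e : Γ) (x : V), (e : WithTop Γ) ≤ val x →
    ((e + lam l : Γ) : WithTop Γ) ≤ val (l • x) ∧ c (e + lam l) (l • x) = lc l • c e x

variable {K' K V A Γ : Type*} [Field K'] [Field K] [AddCommGroup V] [Module K' V]
  [AddCommGroup A] [Module K A] [AddCommGroup Γ] [LinearOrder Γ] [IsOrderedAddMonoid Γ]

namespace LeadData

variable (D : LeadData K' K V A Γ)

/-- The leading space of `W` at the monomial `e`. -/
def lead (e : Γ) (W : Submodule K' V) : Submodule K A where
  carrier := {a | ∃ x ∈ W, (e : WithTop Γ) ≤ D.val x ∧ D.c e x = a}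
  zero_mem' := ⟨0, W.zero_mem, by rw [D.val_zero]; exact le_top, map_zero _⟩
  add_mem' := by
    rintro a b ⟨x, hx, hxe, rfl⟩ ⟨y, hy, hye, rfl⟩
    exact ⟨x + y, W.add_mem hx hy, le_trans (le_min hxe hye) (D.val_add x y), map_add _ _ _⟩
  smul_mem' := by
    rintro k a ⟨x, hx, hxe, rfl⟩
    by_cases hk : k = 0
    · subst hk
      exact ⟨0, W.zero_mem, by rw [D.val_zero]; exact le_top, by simp⟩
    · have hjk : D.j k ≠ 0 := (map_ne_zero _).2 hk
      obtain ⟨h1, h2⟩ := D.lam_j k hk
      obtain ⟨h3, h4⟩ := D.smul_spec (D.j k) hjk e x hxe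
      rw [h1, add_zero] at h3 h4
      rw [h2] at h4
      exact ⟨D.j k • x, W.smul_mem _ hx, h3, h4⟩

theorem mem_lead {e : Γ} {W : Submodule K' V} {a : A} :
    a ∈ D.lead e W ↔ ∃ x ∈ W, (e : WithTop Γ) ≤ D.val x ∧ D.c e x = a := Iff.rfl

theorem lead_mono (e : Γ) {W W' : Submodule K' V} (h : W ≤ W') : D.lead e W ≤ D.lead e W' := by
  rintro a ⟨x, hx, hxe, rfl⟩
  exact ⟨x, h hx, hxe, rfl⟩

/-- The value of `l • x` for a nonzero vector. -/
theorem val_smul {l : K'} (hl : l ≠ 0) {x : V} {g : Γ} (hx : D.val x = (g : WithTop Γ)) :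
    D.val (l • x) = ((g + D.lam l : Γ) : WithTop Γ) ∧ D.c (g + D.lam l) (l • x) ≠ 0 := by
  obtain ⟨h1, h2⟩ := D.smul_spec l hl g x (le_of_eq hx.symm)
  have h3 : D.c g x ≠ 0 := by
    intro h0
    have := (D.c_eq_zero_iff g x (le_of_eq hx.symm)).1 h0
    rw [hx] at this
    exact lt_irrefl _ this
  have h4 : D.c (g + D.lam l) (l • x) ≠ 0 := by
    rw [h2]
    exact smul_ne_zero (D.lc_ne l hl) h3
  refine ⟨?_, h4⟩
  apply le_antisymm _ h1
  by_contra hlt
  exact h4 ((D.c_eq_zero_iff _ _ h1).2 (not_le.1 hlt))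

theorem val_sum_ge {ι : Type*} (s : Finset ι) (f : ι → V) (t : WithTop Γ)
    (h : ∀ i ∈ s, t ≤ D.val (f i)) : t ≤ D.val (∑ i ∈ s, f i) := by
  classical
  induction s using Finset.induction_on with
  | empty => simp [D.val_zero]
  | insert a s ha ih =>
    rw [Finset.sum_insert ha]
    exact le_trans (le_min (h a (mem_insert_self _ _)) (ih fun i hi => h i (mem_insert_of_mem hi)))
      (D.val_add _ _)

variable {ι : Type*} [Fintype ι] (b : Module.Basis ι K' V)
  {ρ : Type*} [Fintype ρ] (e : ρ → Γ) [FiniteDimensional K A]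

omit [FiniteDimensional K A] in
/-- A nonzero vector has a coordinate of the same value. -/
theorem exists_coord (hO : ∀ (y : V) (i : ι), D.val y ≤ D.val (b.repr y i • b i)) {w : V}
    (hw : w ≠ 0) : ∃ i, D.val (b.repr w i • b i) = D.val w := by
  by_contra hcon
  push Not at hcon
  have h1 : ∀ i, D.val w < D.val (b.repr w i • b i) := fun i =>
    lt_of_le_of_ne (hO w i) (Ne.symm (hcon i))
  have hw' : D.val w ≠ ⊤ := fun h => hw (D.eq_zero_of_val w h)
  obtain ⟨g, hg⟩ := WithTop.ne_top_iff_exists.1 hw'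
  -- all terms have value `> g`, hence so does `w`
  have h2 : D.c g w = 0 := by
    have h3 : ∀ i ∈ (Finset.univ : Finset ι), (g : WithTop Γ) ≤ D.val (b.repr w i • b i) := by
      intro i _
      rw [hg]
      exact (h1 i).le
    have h4 : D.c g (∑ i, b.repr w i • b i) = ∑ i, D.c g (b.repr w i • b i) := map_sum _ _ _
    rw [b.sum_repr] at h4
    rw [h4]
    refine Finset.sum_eq_zero fun i _ => ?_
    refine (D.c_eq_zero_iff g _ (h3 i (mem_univ _))).2 ?_
    rw [hg]
    exact h1 i
  have h5 := (D.c_eq_zero_iff g w (le_of_eq hg)).1 h2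
  rw [← hg] at h5
  exact lt_irrefl _ h5

/-- **`≤`**: the dimension of `W` is at most the sum of the dimensions of the leading spaces. -/
theorem finrank_le_sum_lead (hO : ∀ (y : V) (i : ι), D.val y ≤ D.val (b.repr y i • b i))
    (hcl : ∀ g : Γ, ∃ r, ∃ l : K', l ≠ 0 ∧ g + D.lam l = e r)
    (W : Submodule K' V) :
    Module.finrank K' W ≤ ∑ r, Module.finrank K (D.lead (e r) W) := by
  classical
  haveI : FiniteDimensional K' V := Module.Finite.of_basis b
  induction hn : Module.finrank K' W using Nat.strong_induction_on generalizing W with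
  | _ n ih =>
    rcases Nat.eq_zero_or_pos n with hn0 | hn0
    · omega
    -- pick a nonzero vector
    have hWne : W ≠ ⊥ := by
      intro h
      rw [h] at hn
      simp at hn
      omega
    obtain ⟨w, hwW, hw0⟩ := W.ne_bot_iff.1 hWne
    obtain ⟨i, hi⟩ := exists_coord D b hO hw0
    have hgne : D.val w ≠ ⊤ := fun h => hw0 (D.eq_zero_of_val w h)
    obtain ⟨g, hg⟩ := WithTop.ne_top_iff_exists.1 hgne
    obtain ⟨r, l, hl, hlr⟩ := hcl g
    -- the hyperplane
    let φ : V →ₗ[K'] K' := b.coord i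
    let W' : Submodule K' V := W ⊓ LinearMap.ker φ
    have hrepr0 : b.repr w i ≠ 0 := by
      intro h0
      rw [h0, zero_smul, D.val_zero] at hi
      exact hgne hi.symm
    have hlt : W' < W := by
      refine lt_of_le_of_ne inf_le_left ?_
      intro h
      have : w ∈ W' := by rw [h]; exact hwW
      exact hrepr0 this.2
    have hfin : Module.finrank K' W' < n := by
      rw [← hn]
      exact Submodule.finrank_lt_finrank_of_lt hlt
    have hrank : n ≤ Module.finrank K' W' + 1 := by
      -- rank-nullity for `φ` restricted to `W`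
      let ψ : W →ₗ[K'] K' := φ.comp W.subtype
      have h1 := LinearMap.finrank_range_add_finrank_ker ψ
      have h2 : Module.finrank K' (LinearMap.range ψ) ≤ 1 := by
        have := Submodule.finrank_le (LinearMap.range ψ)
        simpa using this
      have h3 : Module.finrank K' (LinearMap.ker ψ) ≤ Module.finrank K' W' := by
        let f : LinearMap.ker ψ →ₗ[K'] W' :=
          { toFun := fun x => ⟨x.1.1, x.1.2, x.2⟩
            map_add' := fun _ _ => rfl
            map_smul' := fun _ _ => rfl }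
        refine LinearMap.finrank_le_finrank_of_injective (f := f) ?_
        intro x y hxy
        exact Subtype.ext (Subtype.ext (congrArg (fun z : W' => z.1) hxy))
      omega
    have hIH := ih _ hfin W' rfl
    -- the new leading vector
    have hs := D.val_smul hl hg.symm
    rw [hlr] at hs
    obtain ⟨hs1, hs2⟩ := hs
    have hstrict : D.lead (e r) W' < D.lead (e r) W := by
      refine lt_of_le_of_ne (D.lead_mono _ inf_le_left) ?_
      intro heq
      have hmem : D.c (e r) (l • w) ∈ D.lead (e r) W :=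
        ⟨l • w, W.smul_mem _ hwW, le_of_eq hs1.symm, rfl⟩
      rw [← heq] at hmem
      obtain ⟨x', hx', hx'e, hx'c⟩ := hmem
      -- `y = l w - x'` has larger value but its `i`-th coordinate has value `e r`
      set y := l • w - x' with hy
      have hye : (e r : WithTop Γ) ≤ D.val y := by
        rw [hy, sub_eq_add_neg]
        refine le_trans (le_min (le_of_eq hs1.symm) ?_) (D.val_add _ _)
        rwa [D.val_neg]
      have hyc : D.c (e r) y = 0 := by
        rw [hy, map_sub, hx'c, sub_self]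
      have hylt := (D.c_eq_zero_iff _ _ hye).1 hyc
      have hcoord : b.repr y i = l * b.repr w i := by
        have h0 : b.repr x' i = 0 := hx'.2
        rw [hy, map_sub, map_smul]
        simp [h0]
      have hterm : b.repr y i • b i = l • (b.repr w i • b i) := by
        rw [hcoord, mul_smul]
      have hv := D.val_smul hl (hi.trans hg.symm)
      rw [hlr] at hv
      have hle := hO y i
      rw [hterm, hv.1] at hle
      exact absurd hylt (not_lt.2 hle)
    -- count
    have hsum : ∑ r, Module.finrank K (D.lead (e r) W') + 1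
        ≤ ∑ r, Module.finrank K (D.lead (e r) W) := by
      have hlt' : ∑ r, Module.finrank K (D.lead (e r) W') < ∑ r, Module.finrank K (D.lead (e r) W) := by
        refine Finset.sum_lt_sum ?_ ⟨r, mem_univ _, Submodule.finrank_lt_finrank_of_lt hstrict⟩
        intro r' _
        exact Submodule.finrank_mono (D.lead_mono _ inf_le_left)
      omega
    omega

include D in
/-- **`≥`**: lifts of independent leading coefficients are independent over `K'`. -/
theorem sum_lead_le_finrank (hdisj : ∀ r r' (l l' : K'), l ≠ 0 → l' ≠ 0 →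
      e r + D.lam l = e r' + D.lam l' → r = r')
    (W : Submodule K' V) [FiniteDimensional K' W] :
    ∑ r, Module.finrank K (D.lead (e r) W) ≤ Module.finrank K' W := by
  classical
  -- bases of the leading spaces
  let d : ρ → ℕ := fun r => Module.finrank K (D.lead (e r) W)
  let B : ∀ r, Module.Basis (Fin (d r)) K (D.lead (e r) W) := fun r => Module.finBasis K _
  have hlift : ∀ r (i : Fin (d r)), ∃ x ∈ W, (e r : WithTop Γ) ≤ D.val x ∧
      D.c (e r) x = (B r i : A) := fun r i => (B r i).2
  choose x hxW hxe hxc using hlift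
  let F : (Σ r, Fin (d r)) → W := fun p => ⟨x p.1 p.2, hxW p.1 p.2⟩
  have hli : LinearIndependent K' F := by
    rw [linearIndependent_iff']
    intro s lm hsum
    by_contra hcon
    push Not at hcon
    obtain ⟨p₁, hp₁, hp₁0⟩ := hcon
    have hsumV : ∑ p ∈ s, lm p • x p.1 p.2 = 0 := by
      have := congrArg Subtype.val hsum
      simpa [F] using this
    let s' := s.filter (fun p => lm p ≠ 0)
    have hs'ne : s'.Nonempty := ⟨p₁, mem_filter.2 ⟨hp₁, hp₁0⟩⟩
    let t : (Σ r, Fin (d r)) → Γ := fun p => e p.1 + D.lam (lm p)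
    obtain ⟨p₀, hp₀, hmin⟩ := s'.exists_min_image t hs'ne
    have hp₀0 : lm p₀ ≠ 0 := (mem_filter.1 hp₀).2
    obtain ⟨r₀, i₀⟩ := p₀
    let S := s'.filter (fun p => t p = t ⟨r₀, i₀⟩)
    -- read the coefficient at `t p₀`
    have hread : D.c (t ⟨r₀, i₀⟩) (∑ p ∈ s, lm p • x p.1 p.2) = 0 := by rw [hsumV, map_zero]
    rw [map_sum] at hread
    have hspec : ∀ p, lm p ≠ 0 → ((t p : Γ) : WithTop Γ) ≤ D.val (lm p • x p.1 p.2) ∧
        D.c (t p) (lm p • x p.1 p.2) = D.lc (lm p) • (B p.1 p.2 : A) := by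
      intro p hp
      obtain ⟨h1, h2⟩ := D.smul_spec (lm p) hp (e p.1) (x p.1 p.2) (hxe p.1 p.2)
      rw [hxc] at h2
      exact ⟨h1, h2⟩
    -- terms outside `S` vanish
    have hsub : S ⊆ s := fun p hp => (mem_filter.1 (mem_filter.1 hp).1).1
    have hvanish : ∀ p ∈ s, p ∉ S → D.c (t ⟨r₀, i₀⟩) (lm p • x p.1 p.2) = 0 := by
      intro p hp hpS
      by_cases hp0 : lm p = 0
      · rw [hp0, zero_smul, map_zero]
      have hps' : p ∈ s' := mem_filter.2 ⟨hp, hp0⟩
      have hne : t p ≠ t ⟨r₀, i₀⟩ := fun h => hpS (mem_filter.2 ⟨hps', h⟩)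
      have hlt : t ⟨r₀, i₀⟩ < t p := lt_of_le_of_ne (hmin p hps') (Ne.symm hne)
      obtain ⟨h1, -⟩ := hspec p hp0
      have hlt' : ((t ⟨r₀, i₀⟩ : Γ) : WithTop Γ) < ((t p : Γ) : WithTop Γ) := WithTop.coe_lt_coe.2 hlt
      exact (D.c_eq_zero_iff _ _ (le_trans hlt'.le h1)).2 (lt_of_lt_of_le hlt' h1)
    have hread2 : ∑ p ∈ S, D.c (t ⟨r₀, i₀⟩) (lm p • x p.1 p.2) = 0 := by
      rw [Finset.sum_subset hsub hvanish]
      exact hread
    -- every element of `S` is of class `r₀`
    have hclass : ∀ p ∈ S, p.1 = r₀ := by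
      intro p hp
      obtain ⟨hp1, hp2⟩ := mem_filter.1 hp
      exact hdisj _ _ _ _ (mem_filter.1 hp1).2 hp₀0 hp2
    -- reindex by `Fin (d r₀)`
    let I : Finset (Fin (d r₀)) := Finset.univ.filter (fun i => (⟨r₀, i⟩ : Σ r, Fin (d r)) ∈ S)
    have hSI : S = I.image (fun i => (⟨r₀, i⟩ : Σ r, Fin (d r))) := by
      ext p
      constructor
      · intro hp
        obtain ⟨r, i⟩ := p
        have hr : r = r₀ := hclass _ hp
        subst hr
        exact mem_image.2 ⟨i, mem_filter.2 ⟨mem_univ _, hp⟩, rfl⟩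
      · intro hp
        obtain ⟨i, hi, rfl⟩ := mem_image.1 hp
        exact (mem_filter.1 hi).2
    have hinj : Set.InjOn (fun i => (⟨r₀, i⟩ : Σ r, Fin (d r))) I := by
      intro a _ b' _ h
      exact eq_of_heq (Sigma.mk.inj h).2
    rw [hSI, Finset.sum_image hinj] at hread2
    have hterm : ∀ i ∈ I, D.c (t ⟨r₀, i₀⟩) (lm ⟨r₀, i⟩ • x r₀ i)
        = D.lc (lm ⟨r₀, i⟩) • (B r₀ i : A) := by
      intro i hi
      have h1 := (mem_filter.1 hi).2
      obtain ⟨h2, h3⟩ := mem_filter.1 h1
      have h0 := (mem_filter.1 h2).2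
      rw [← h3]
      exact (hspec _ h0).2
    rw [Finset.sum_congr rfl hterm] at hread2
    have hBli : LinearIndependent K (fun i => (B r₀ i : A)) :=
      (B r₀).linearIndependent.map' (Submodule.subtype _) (Submodule.ker_subtype _)
    have hzero := (linearIndependent_iff'.1 hBli) I (fun i => D.lc (lm ⟨r₀, i⟩)) hread2 i₀
      (mem_filter.2 ⟨mem_univ _, mem_filter.2 ⟨hp₀, rfl⟩⟩)
    exact D.lc_ne _ hp₀0 hzero
  have hcard := hli.fintype_card_le_finrank
  simp only [Fintype.card_sigma, Fintype.card_fin] at hcard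
  exact hcard

/-- **Gauss-pivot lemma.** `dim_{K'} W = ∑_r dim_K lead (e r) W`. -/
theorem finrank_eq_sum_lead (hO : ∀ (y : V) (i : ι), D.val y ≤ D.val (b.repr y i • b i))
    (hcl : ∀ g : Γ, ∃ r, ∃ l : K', l ≠ 0 ∧ g + D.lam l = e r)
    (hdisj : ∀ r r' (l l' : K'), l ≠ 0 → l' ≠ 0 → e r + D.lam l = e r' + D.lam l' → r = r')
    (W : Submodule K' V) :
    Module.finrank K' W = ∑ r, Module.finrank K (D.lead (e r) W) := by
  haveI : FiniteDimensional K' V := Module.Finite.of_basis b
  have h1 : Module.finrank K' W ≤ ∑ r, Module.finrank K (D.lead (e r) W) :=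
    finrank_le_sum_lead D b e hO hcl W
  have h2 : ∑ r, Module.finrank K (D.lead (e r) W) ≤ Module.finrank K' W :=
    sum_lead_le_finrank D e hdisj W
  exact le_antisymm h1 h2

/-- Two nested subspaces with the same leading spaces coincide. -/
theorem eq_of_lead_eq (hO : ∀ (y : V) (i : ι), D.val y ≤ D.val (b.repr y i • b i))
    (hcl : ∀ g : Γ, ∃ r, ∃ l : K', l ≠ 0 ∧ g + D.lam l = e r)
    (hdisj : ∀ r r' (l l' : K'), l ≠ 0 → l' ≠ 0 → e r + D.lam l = e r' + D.lam l' → r = r')
    {W W' : Submodule K' V} (hle : W ≤ W') (h : ∀ r, D.lead (e r) W' ≤ D.lead (e r) W) : W = W' := by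
  haveI : FiniteDimensional K' V := Module.Finite.of_basis b
  refine Submodule.eq_of_le_of_finrank_le hle ?_
  rw [finrank_eq_sum_lead D b e hO hcl hdisj W, finrank_eq_sum_lead D b e hO hcl hdisj W']
  exact Finset.sum_le_sum fun r _ => Submodule.finrank_mono (h r)

end LeadData

end Crest.Agent.Kurosh.Lead
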