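import Crest.Agent.Kurosh.TestCore

/-!
# S0270: leads of vectors

`D.pi ι : LeadData K' K (ι → V) (ι → A) Γ`: the value of a vector is the minimum of the values of its
coordinates; the coefficients are taken coordinatewise.  `pi_hO`: the product basis is contractive,
so `finrank_eq_sum_lead` applies to subspaces of `ι → V`.
-/

set_option autoImplicit false
set_option linter.unusedSectionVars false

namespace Crest.Agent.Kurosh.Lead

open Module

namespace LeadData

variable {K' K V A Γ : Type*} [Field K'] [Field K] [AddCommGroup V] [Module K' V]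
  [AddCommGroup A] [Module K A] [AddCommGroup Γ] [LinearOrder Γ] [IsOrderedAddMonoid Γ]
  (D : LeadData K' K V A Γ) (ι : Type*) [Fintype ι]

/-- The lead data of vectors. -/
noncomputable def pi : LeadData K' K (ι → V) (ι → A) Γ where
  val t := Finset.univ.inf fun i => D.val (t i)
  val_zero := by
    simp only [Pi.zero_apply, D.val_zero]
    exact Finset.inf_top _
  eq_zero_of_val t h := by
    funext i
    rw [Finset.inf_eq_top_iff] at h
    exact D.eq_zero_of_val _ (h i (Finset.mem_univ i))
  val_neg t := by simp only [Pi.neg_apply, D.val_neg]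
  val_add t u := by
    refine Finset.le_inf fun i _ => ?_
    refine le_trans ?_ (D.val_add _ _)
    exact min_le_min (Finset.inf_le (Finset.mem_univ i)) (Finset.inf_le (Finset.mem_univ i))
  c g :=
    { toFun := fun t i => D.c g (t i)
      map_zero' := by funext i; exact map_zero _
      map_add' := fun t u => by funext i; exact map_add _ _ _ }
  c_eq_zero_iff e t he := by
    have he' : ∀ i, (e : WithTop Γ) ≤ D.val (t i) := fun i =>
      le_trans he (Finset.inf_le (Finset.mem_univ i))
    constructor
    · intro h0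
      rw [Finset.lt_inf_iff (WithTop.coe_lt_top e)]
      intro i _
      exact (D.c_eq_zero_iff e (t i) (he' i)).1 (congrFun h0 i)
    · intro h0
      funext i
      refine (D.c_eq_zero_iff e (t i) (he' i)).2 ?_
      exact lt_of_lt_of_le h0 (Finset.inf_le (Finset.mem_univ i))
  j := D.j
  lam := D.lam
  lc := D.lc
  lc_ne := D.lc_ne
  lam_j := D.lam_j
  smul_spec l hl e t he := by
    have he' : ∀ i, (e : WithTop Γ) ≤ D.val (t i) := fun i =>
      le_trans he (Finset.inf_le (Finset.mem_univ i))
    refine ⟨Finset.le_inf fun i _ => (D.smul_spec l hl e (t i) (he' i)).1, ?_⟩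
    funext i
    exact (D.smul_spec l hl e (t i) (he' i)).2

variable {D ι}

theorem pi_val_le (t : ι → V) (i : ι) : (D.pi ι).val t ≤ D.val (t i) :=
  Finset.inf_le (Finset.mem_univ i)

theorem le_pi_val_iff {t : ι → V} {g : WithTop Γ} : g ≤ (D.pi ι).val t ↔ ∀ i, g ≤ D.val (t i) :=
  ⟨fun h i => le_trans h (pi_val_le t i), fun h => Finset.le_inf fun i _ => h i⟩

theorem pi_c_apply (g : Γ) (t : ι → V) (i : ι) : (D.pi ι).c g t i = D.c g (t i) := rfl

@[simp] theorem pi_lam (l : K') : (D.pi ι).lam l = D.lam l := rfl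

variable {κ : Type*} [Fintype κ] (b : Module.Basis κ K' V)

/-- The product basis is contractive. -/
theorem pi_hO [DecidableEq ι] (hO : ∀ (y : V) (i : κ), D.val y ≤ D.val (b.repr y i • b i))
    (y : ι → V) (i : Σ _ : ι, κ) :
    (D.pi ι).val y ≤ (D.pi ι).val
      ((Pi.basis fun _ : ι => b).repr y i • (Pi.basis fun _ : ι => b) i) := by
  classical
  obtain ⟨i, k⟩ := i
  rw [le_pi_val_iff]
  intro j
  by_cases hj : j = i
  · subst hj
    refine le_trans (pi_val_le y j) ?_
    have h1 := hO (y j) k
    simpa [Pi.basis_repr, Pi.basis_apply] using h1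
  · have h2 : ((Pi.basis fun _ : ι => b).repr y ⟨i, k⟩ • (Pi.basis fun _ : ι => b) ⟨i, k⟩) j = 0 := by
      simp [Pi.basis_apply, Pi.single_eq_of_ne hj]
    rw [h2, D.val_zero]
    exact le_top

variable {ρ : Type*} [Fintype ρ] (e : ρ → Γ) [FiniteDimensional K A]

/-- **Gauss for vectors.** -/
theorem finrank_eq_sum_lead_pi [DecidableEq ι]
    (hO : ∀ (y : V) (i : κ), D.val y ≤ D.val (b.repr y i • b i))
    (hcl : ∀ g : Γ, ∃ r, ∃ l : K', l ≠ 0 ∧ g + D.lam l = e r)
    (hdisj : ∀ r r' (l l' : K'), l ≠ 0 → l' ≠ 0 → e r + D.lam l = e r' + D.lam l' → r = r')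
    (W : Submodule K' (ι → V)) :
    finrank K' W = ∑ r, finrank K ((D.pi ι).lead (e r) W) :=
  finrank_eq_sum_lead (D.pi ι) (Pi.basis fun _ : ι => b) e (pi_hO b hO) hcl hdisj W

end LeadData

end Crest.Agent.Kurosh.Lead
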