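import Crest.Agent.Kurosh.Lead
import Crest.Agent.Kurosh.DoubleCent

/-!
# S0270, blueprint v3 §H: the test core (abstract part)

`GrData K' Kh U R Γ`: a `K'`-algebra `U` with a multiplicative value function `val : U → WithTop Γ`,
coefficients `c g : U →+ R` at the monomials `g ∈ Γ`, twist `θ g : R →+* R`
(`lead(xy) = lead(x) θ_{val x}(lead y)`) and traces `τ' : U → K'`, `τR : R → Kh` compatible at value
`0`.  Everything needed to run the lead counting of the Test Core:

* `lead_comm` (H2): commuting elements have twisted-commuting leads;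
* `pair_eq`, `pair_zero` (H3 general pairing);
* `not_val_lt_of_pair`: `u ∈ F'` with `τ'(uf) = τ'(xf)` has `val x ≤ val u`;
* `lead_eq_of_le_of_sum` (H1), `lead_eq_of_sum_le` (H4): equality by counting;
* `perp C S`, `finrank_le_perp_add` : rank-nullity for `C ∩ S^⊥`;
* `lead_add_lam`: leading spaces depend only on the class modulo values of scalars;
* `finrank_inf_perpR`: exact dimension of an orthogonal inside a division subalgebra.
-/

set_option autoImplicit false

namespace Crest.Agent.Kurosh.TestCore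

open Lead Module

/-- Multiplicative lead data with trace compatibility. -/
structure GrData (K' Kh U R Γ : Type*) [Field K'] [Field Kh] [Ring U] [Algebra K' U] [Ring R]
    [Algebra Kh R] [AddCommGroup Γ] [LinearOrder Γ] [IsOrderedAddMonoid Γ]
    extends LeadData K' Kh U R Γ where
  val_one : val 1 = 0
  val_mul : ∀ x y, val (x * y) = val x + val y
  /-- twist by a monomial -/
  θ : Γ → R →+* R
  /-- scalar phase of the product of two monomials (`1` for a multiplicative section) -/
  ω : Γ → Γ → Kh := fun _ _ => 1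
  ω_ne : ∀ g h, ω g h ≠ 0 := by intro g h; exact one_ne_zero
  c_mul : ∀ (g h : Γ) (x y : U), (g : WithTop Γ) ≤ val x → (h : WithTop Γ) ≤ val y →
    c (g + h) (x * y) = ω g h • (c g x * θ g (c h y))
  /-- trace of `U` -/
  τ' : U →ₗ[K'] K'
  /-- trace of the residue ring -/
  τR : R →ₗ[Kh] Kh
  trace_res : ∀ y, 0 ≤ val y → 0 ≤ val (algebraMap K' U (τ' y)) ∧
    c 0 (algebraMap K' U (τ' y)) = algebraMap Kh R (τR (c 0 y))

variable {K' Kh U R Γ : Type*} [Field K'] [Field Kh] [Ring U] [Algebra K' U] [Ring R]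
  [Algebra Kh R] [AddCommGroup Γ] [LinearOrder Γ] [IsOrderedAddMonoid Γ]

namespace GrData

variable (D : GrData K' Kh U R Γ)

theorem le_val_mul {g h : Γ} {x y : U} (hx : (g : WithTop Γ) ≤ D.val x)
    (hy : (h : WithTop Γ) ≤ D.val y) : ((g + h : Γ) : WithTop Γ) ≤ D.val (x * y) := by
  rw [D.val_mul, WithTop.coe_add]
  exact add_le_add hx hy

/-- The product of two elements at the sum of two values: no lower-order terms. -/
theorem c_mul' {g h k : Γ} (hk : g + h = k) {x y : U} (hx : (g : WithTop Γ) ≤ D.val x)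
    (hy : (h : WithTop Γ) ≤ D.val y) : D.c k (x * y) = D.ω g h • (D.c g x * D.θ g (D.c h y)) := by
  subst hk
  exact D.c_mul g h x y hx hy

/-- **H2**: commuting elements have twisted-commuting leads. -/
theorem lead_comm {g h : Γ} {x w : U} (hx : (g : WithTop Γ) ≤ D.val x)
    (hw : (h : WithTop Γ) ≤ D.val w) (hc : x * w = w * x) :
    D.ω g h • (D.c g x * D.θ g (D.c h w)) = D.ω h g • (D.c h w * D.θ h (D.c g x)) := by
  rw [← D.c_mul g h x w hx hw, hc, add_comm, D.c_mul h g w x hw hx]

variable [Nontrivial R]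

/-- A trace-zero element of value `≥ 0` has a trace-zero residue. -/
theorem trace_c_zero_of_trace {y : U} (hy : 0 ≤ D.val y) (h0 : D.τ' y = 0) :
    D.τR (D.c 0 y) = 0 := by
  have h1 := (D.trace_res y hy).2
  rw [h0, map_zero, map_zero] at h1
  exact (algebraMap Kh R).injective (by rw [← h1, map_zero])

/-- **H3**: pairing at value `0`. -/
theorem pair_eq {g h : Γ} (hgh : g + h = 0) {x y f : U} (hx : (g : WithTop Γ) ≤ D.val x)
    (hy : (g : WithTop Γ) ≤ D.val y) (hf : (h : WithTop Γ) ≤ D.val f)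
    (hτ : D.τ' (x * f) = D.τ' (y * f)) :
    D.τR (D.c g x * D.θ g (D.c h f)) = D.τR (D.c g y * D.θ g (D.c h f)) := by
  have h1 : (0 : WithTop Γ) ≤ D.val (x * f) := by
    have := D.le_val_mul hx hf
    rwa [hgh, WithTop.coe_zero] at this
  have h2 : (0 : WithTop Γ) ≤ D.val (y * f) := by
    have := D.le_val_mul hy hf
    rwa [hgh, WithTop.coe_zero] at this
  have h3 := (D.trace_res _ h1).2
  have h4 := (D.trace_res _ h2).2
  rw [hτ] at h3
  have h5 : D.τR (D.c 0 (x * f)) = D.τR (D.c 0 (y * f)) :=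
    (algebraMap Kh R).injective (by rw [← h3, ← h4])
  rw [D.c_mul' hgh hx hf, D.c_mul' hgh hy hf, map_smul, map_smul] at h5
  exact mul_left_cancel₀ (D.ω_ne g h) h5

/-- **H3'**: pairing with an orthogonal element. -/
theorem pair_zero {g h : Γ} (hgh : g + h = 0) {x f : U} (hx : (g : WithTop Γ) ≤ D.val x)
    (hf : (h : WithTop Γ) ≤ D.val f) (hτ : D.τ' (x * f) = 0) :
    D.τR (D.c g x * D.θ g (D.c h f)) = 0 := by
  have h1 : (0 : WithTop Γ) ≤ D.val (x * f) := by
    have := D.le_val_mul hx hf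
    rwa [hgh, WithTop.coe_zero] at this
  have h2 := D.trace_c_zero_of_trace h1 hτ
  rw [D.c_mul' hgh hx hf, map_smul, smul_eq_mul] at h2
  exact (mul_eq_zero.1 h2).resolve_left (D.ω_ne g h)

omit [Nontrivial R] in
/-- The trace of an element of positive value has positive value. -/
theorem val_trace_pos (hc1 : D.c 0 (1 : U) = 1) [Nontrivial R] {y : U} (hy : 0 < D.val y)
    (h1 : D.τ' y = 1) : False := by
  have h0 : D.c 0 y = 0 := (D.c_eq_zero_iff 0 y (by exact_mod_cast hy.le)).2 (by exact_mod_cast hy)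
  have h2 := (D.trace_res y hy.le).2
  rw [h1, map_one, hc1, h0, map_zero, map_zero] at h2
  exact one_ne_zero h2

/-- **H3 (values)**: if `u` has an inverse `u'`, `τ' 1 = 1` and `τ'(u u') = τ'(x u')`, then
`val x ≤ val u`. -/
theorem not_val_lt_of_pair (hc1 : D.c 0 (1 : U) = 1) (hτ1 : D.τ' 1 = 1) {u u' x : U}
    (huu' : u * u' = 1) (hτ : D.τ' (u * u') = D.τ' (x * u')) : ¬ D.val u < D.val x := by
  intro hlt
  have hne : D.val u ≠ ⊤ := ne_top_of_lt hlt
  obtain ⟨g, hg⟩ := WithTop.ne_top_iff_exists.1 hne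
  have h1 : D.val u + D.val u' = 0 := by rw [← D.val_mul, huu', D.val_one]
  have hne' : D.val u' ≠ ⊤ := by
    intro h
    rw [h, WithTop.add_top] at h1
    exact WithTop.top_ne_zero h1
  obtain ⟨h, hh⟩ := WithTop.ne_top_iff_exists.1 hne'
  have hgh : g + h = 0 := by
    rw [← hg, ← hh, ← WithTop.coe_add] at h1
    exact_mod_cast h1
  have hpos : 0 < D.val (x * u') := by
    rw [D.val_mul, ← hh]
    by_cases h2' : D.val x = ⊤
    · rw [h2', WithTop.top_add]
      exact WithTop.coe_lt_top 0
    · obtain ⟨a, h2⟩ := WithTop.ne_top_iff_exists.1 h2'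
      rw [← h2, ← WithTop.coe_add]
      rw [← hg, ← h2] at hlt
      have : g < a := by exact_mod_cast hlt
      have h3 : 0 < a + h := by
        rw [← hgh]
        exact add_lt_add_left this h
      exact_mod_cast h3
  have h4 : D.τ' (x * u') = 1 := by rw [← hτ, huu', hτ1]
  exact D.val_trace_pos hc1 hpos h4

omit [Nontrivial R] in
/-- Scalars have opposite values on inverses. -/
theorem lam_inv [Nontrivial U] {l : K'} (hl : l ≠ 0) : D.lam l⁻¹ = - D.lam l := by
  have hone : D.val (1 : U) = ((0 : Γ) : WithTop Γ) := by rw [D.val_one]; rfl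
  obtain ⟨h2, _⟩ := D.toLeadData.val_smul hl hone
  rw [zero_add] at h2
  obtain ⟨h3, _⟩ := D.toLeadData.val_smul (inv_ne_zero hl) h2
  rw [smul_smul, inv_mul_cancel₀ hl, one_smul, hone] at h3
  have : D.lam l + D.lam l⁻¹ = 0 := by exact_mod_cast h3.symm
  exact eq_neg_of_add_eq_zero_right this

omit [Nontrivial R] in
/-- Leading spaces depend only on the class of the monomial modulo the values of scalars. -/
theorem lead_add_lam [Nontrivial U] (g : Γ) {l : K'} (hl : l ≠ 0) (W : Submodule K' U) :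
    D.toLeadData.lead (g + D.lam l) W = D.toLeadData.lead g W := by
  have key : ∀ (g : Γ) (l : K'), l ≠ 0 →
      D.toLeadData.lead g W ≤ D.toLeadData.lead (g + D.lam l) W := by
    intro g l hl a ha
    have hlc : D.lc l ≠ 0 := D.lc_ne l hl
    have h0 : (D.lc l)⁻¹ • a ∈ D.toLeadData.lead g W := Submodule.smul_mem _ _ ha
    obtain ⟨x, hx, hxg, hxa⟩ := h0
    obtain ⟨h1, h2⟩ := D.smul_spec l hl g x hxg
    refine ⟨l • x, W.smul_mem _ hx, h1, ?_⟩
    rw [h2, hxa, smul_smul, mul_inv_cancel₀ hlc, one_smul]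
  apply le_antisymm _ (key g l hl)
  have h := key (g + D.lam l) l⁻¹ (inv_ne_zero hl)
  rwa [D.lam_inv hl, add_neg_cancel_right] at h

/-- The orthogonal of `S` inside `C`. -/
def perp (C S : Submodule K' U) : Submodule K' U where
  carrier := {x | x ∈ C ∧ ∀ s ∈ S, D.τ' (x * s) = 0}
  zero_mem' := ⟨C.zero_mem, fun s _ => by simp⟩
  add_mem' := by
    rintro x y ⟨hx, hx'⟩ ⟨hy, hy'⟩
    exact ⟨C.add_mem hx hy, fun s hs => by rw [add_mul, map_add, hx' s hs, hy' s hs, add_zero]⟩
  smul_mem' := by
    rintro k x ⟨hx, hx'⟩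
    exact ⟨C.smul_mem k hx, fun s hs => by rw [smul_mul_assoc, map_smul, hx' s hs, smul_zero]⟩

omit [Nontrivial R] in
/-- Rank-nullity: `dim C ≤ dim (C ∩ S^⊥) + dim S`. -/
theorem finrank_le_perp_add [FiniteDimensional K' U] (C S : Submodule K' U) :
    finrank K' C ≤ finrank K' (D.perp C S) + finrank K' S := by
  let φ : C →ₗ[K'] Module.Dual K' S :=
    ((LinearMap.mul K' U).compr₂ D.τ').domRestrict₁₂ C S
  have h1 := LinearMap.finrank_range_add_finrank_ker φ
  have h2 : finrank K' (LinearMap.range φ) ≤ finrank K' S := by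
    calc finrank K' (LinearMap.range φ) ≤ finrank K' (Module.Dual K' S) :=
          Submodule.finrank_le _
      _ = finrank K' S := Subspace.dual_finrank_eq
  have h3 : finrank K' (LinearMap.ker φ) ≤ finrank K' (D.perp C S) := by
    let ι : LinearMap.ker φ →ₗ[K'] D.perp C S :=
      { toFun := fun x => ⟨x.1.1, x.1.2, fun s hs => by
          have := LinearMap.congr_fun (LinearMap.mem_ker.1 x.2) ⟨s, hs⟩
          exact this⟩
        map_add' := fun _ _ => rfl
        map_smul' := fun _ _ => rfl }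
    apply LinearMap.finrank_le_finrank_of_injective (f := ι)
    intro x y h
    have : x.1.1 = y.1.1 := congrArg (fun z : D.perp C S => (z : U)) h
    exact Subtype.ext (Subtype.ext this)
  omega

omit [Nontrivial R] in
/-- Monotonicity in the orthogonal. -/
theorem perp_mono {C S S' : Submodule K' U} (h : S' ≤ S) : D.perp C S ≤ D.perp C S' :=
  fun _ hx => ⟨hx.1, fun s hs => hx.2 s (h hs)⟩

end GrData

section Count

variable {ρ : Type*} [Fintype ρ]

/-- If `T r ≤ L r` and `∑ dim L ≤ ∑ dim T` then `T = L`. -/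
theorem eq_of_le_of_sum_le {k A : Type*} [Field k] [AddCommGroup A] [Module k A]
    [FiniteDimensional k A] {T L : ρ → Submodule k A} (hle : ∀ r, T r ≤ L r)
    (hsum : ∑ r, finrank k (L r) ≤ ∑ r, finrank k (T r)) (r : ρ) : T r = L r := by
  have h1 : ∀ r, finrank k (T r) ≤ finrank k (L r) := fun r => Submodule.finrank_mono (hle r)
  have h2 : ∑ r, finrank k (T r) = ∑ r, finrank k (L r) :=
    le_antisymm (Finset.sum_le_sum fun r _ => h1 r) hsum
  have h3 := (Finset.sum_eq_sum_iff_of_le (fun r _ => h1 r)).1 h2 r (Finset.mem_univ r)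
  exact Submodule.eq_of_le_of_finrank_le (hle r) h3.ge

variable [FiniteDimensional Kh R] (D : GrData K' Kh U R Γ) (e : ρ → Γ)

/-- **H1**: subspaces of the leading spaces of total dimension `≥ dim W` are the leading spaces. -/
theorem lead_eq_of_le_of_sum {W : Submodule K' U}
    (hG : finrank K' W = ∑ r, finrank Kh (D.toLeadData.lead (e r) W))
    {T : ρ → Submodule Kh R} (hT : ∀ r, T r ≤ D.toLeadData.lead (e r) W)
    (hdim : finrank K' W ≤ ∑ r, finrank Kh (T r)) (r : ρ) :
    T r = D.toLeadData.lead (e r) W :=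
  eq_of_le_of_sum_le hT (by rw [← hG]; exact hdim) r

/-- **H4** (count): if the leading spaces are bounded by `B r` and `∑ dim B ≤ dim W` then equality. -/
theorem lead_eq_of_sum_le {W : Submodule K' U}
    (hG : finrank K' W = ∑ r, finrank Kh (D.toLeadData.lead (e r) W))
    {B : ρ → Submodule Kh R} (hB : ∀ r, D.toLeadData.lead (e r) W ≤ B r)
    (hdim : ∑ r, finrank Kh (B r) ≤ finrank K' W) (r : ρ) :
    D.toLeadData.lead (e r) W = B r :=
  eq_of_le_of_sum_le hB (by rw [← hG]; exact hdim) r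

/-- **H4**: the orthogonal `C ∩ S^⊥` has prescribed leading spaces as soon as they are bounded by
`B r` and `∑ dim B + dim S ≤ dim C`. -/
theorem lead_perp_eq [FiniteDimensional K' U] {C S : Submodule K' U}
    (hG : finrank K' (D.perp C S) = ∑ r, finrank Kh (D.toLeadData.lead (e r) (D.perp C S)))
    {B : ρ → Submodule Kh R} (hB : ∀ r, D.toLeadData.lead (e r) (D.perp C S) ≤ B r)
    (hdim : ∑ r, finrank Kh (B r) + finrank K' S ≤ finrank K' C) (r : ρ) :
    D.toLeadData.lead (e r) (D.perp C S) = B r := by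
  refine lead_eq_of_sum_le D e hG hB ?_ r
  have := D.finrank_le_perp_add C S
  omega

/-- **Valued duality**: `lead_{-e}(C ∩ W^⊥) = (lead_e W)^⊥` inside `lead_{-e} C`, given that the
residue pairing is nondegenerate on `lead_e W` (in the form of a dimension bound). -/
theorem lead_perp_eq_residue_perp [Nontrivial R] [FiniteDimensional K' U] {e' : ρ → Γ}
    (hee' : ∀ r, e' r + e r = 0) {C W : Submodule K' U}
    (hGW : finrank K' W = ∑ r, finrank Kh (D.toLeadData.lead (e r) W))
    (hGC : finrank K' C = ∑ r, finrank Kh (D.toLeadData.lead (e' r) C))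
    (hGP : finrank K' (D.perp C W) = ∑ r, finrank Kh (D.toLeadData.lead (e' r) (D.perp C W)))
    (PR : ρ → Submodule Kh R)
    (hPR : ∀ r, ∀ P ∈ D.toLeadData.lead (e' r) C,
      (∀ Q ∈ D.toLeadData.lead (e r) W, D.τR (P * D.θ (e' r) Q) = 0) → P ∈ PR r)
    (hdim : ∀ r, finrank Kh (PR r) + finrank Kh (D.toLeadData.lead (e r) W)
      ≤ finrank Kh (D.toLeadData.lead (e' r) C)) (r : ρ) :
    D.toLeadData.lead (e' r) (D.perp C W) = PR r := by
  refine lead_eq_of_sum_le D e' hGP (fun r => ?_) ?_ r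
  · rintro P ⟨x, hx, hxg, rfl⟩
    refine hPR r _ ⟨x, hx.1, hxg, rfl⟩ ?_
    rintro Q ⟨s, hs, hsg, rfl⟩
    exact D.pair_zero (hee' r) hxg hsg (hx.2 s hs)
  · have h1 := D.finrank_le_perp_add C W
    have h2 : ∑ r, (finrank Kh (PR r) + finrank Kh (D.toLeadData.lead (e r) W))
        ≤ ∑ r, finrank Kh (D.toLeadData.lead (e' r) C) :=
      Finset.sum_le_sum fun r _ => hdim r
    rw [Finset.sum_add_distrib, ← hGW, ← hGC] at h2
    omega

end Count

section Residue

variable {K A : Type*} [Field K] [DivisionRing A] [Algebra K A] [FiniteDimensional K A]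
  {τ : A →ₗ[K] K}

/-- The `τ`-orthogonal of a subspace in a division algebra, as a subspace. -/
def perpR (τ : A →ₗ[K] K) (C : Submodule K A) (S : Submodule K A) : Submodule K A where
  carrier := {x | x ∈ C ∧ ∀ s ∈ S, τ (x * s) = 0}
  zero_mem' := ⟨C.zero_mem, fun s _ => by simp⟩
  add_mem' := by
    rintro x y ⟨hx, hx'⟩ ⟨hy, hy'⟩
    exact ⟨C.add_mem hx hy, fun s hs => by rw [add_mul, map_add, hx' s hs, hy' s hs, add_zero]⟩
  smul_mem' := by
    rintro k x ⟨hx, hx'⟩
    exact ⟨C.smul_mem k hx, fun s hs => by rw [smul_mul_assoc, map_smul, hx' s hs, smul_zero]⟩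

/-- Exact dimension of an orthogonal in a division subalgebra: the trace form is nondegenerate. -/
theorem finrank_perpR (hc : ∀ x y, τ (x * y) = τ (y * x)) (h1 : τ 1 = 1) (C : Subalgebra K A)
    {S : Submodule K A} (hS : S ≤ Subalgebra.toSubmodule C) :
    finrank K (perpR τ (Subalgebra.toSubmodule C) S) + finrank K S = finrank K C := by
  classical
  set C' := Subalgebra.toSubmodule C with hC'
  let B : LinearMap.BilinForm K C' := LinearMap.BilinForm.restrict
    ((LinearMap.mul K A).compr₂ τ) C'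
  have hB : B.Nondegenerate := by
    refine ⟨?_, ?_⟩
    · rintro ⟨x, hx⟩ h
      by_contra h0
      have hx0 : x ≠ 0 := fun h' => h0 (Subtype.ext h')
      have h2 : τ (x * x⁻¹) = 0 := h ⟨x⁻¹, DoubleCent.inv_mem_subalgebra C hx⟩
      rw [mul_inv_cancel₀ hx0, h1] at h2
      exact one_ne_zero h2
    · rintro ⟨x, hx⟩ h
      by_contra h0
      have hx0 : x ≠ 0 := fun h' => h0 (Subtype.ext h')
      have h2 : τ (x⁻¹ * x) = 0 := h ⟨x⁻¹, DoubleCent.inv_mem_subalgebra C hx⟩
      rw [inv_mul_cancel₀ hx0, h1] at h2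
      exact one_ne_zero h2
  let S' : Submodule K C' := S.comap C'.subtype
  have h3 := LinearMap.BilinForm.finrank_orthogonal hB S'
  have hS' : finrank K S' = finrank K S :=
    LinearEquiv.finrank_eq (Submodule.comapSubtypeEquivOfLe hS)
  have hle : finrank K S' ≤ finrank K C' := Submodule.finrank_le _
  -- the orthogonal is the comap
  have hP : perpR τ C' S ≤ C' := fun x hx => hx.1
  have h4 : finrank K ((perpR τ C' S).comap C'.subtype) = finrank K (perpR τ C' S) :=
    LinearEquiv.finrank_eq (Submodule.comapSubtypeEquivOfLe hP)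
  have h5 : (perpR τ C' S).comap C'.subtype = B.orthogonal S' := by
    ext ⟨x, hx⟩
    constructor
    · rintro ⟨_, h⟩ ⟨s, hs⟩ hs'
      show τ (s * x) = 0
      rw [hc]
      exact h s hs'
    · intro h
      refine ⟨hx, fun s hs => ?_⟩
      have h6 := h ⟨s, hS hs⟩ hs
      have h7 : τ (s * x) = 0 := h6
      rw [hc]
      exact h7
  rw [← h4, h5, h3, ← hS']
  show finrank K C' - finrank K S' + finrank K S' = finrank K C'
  omega

end Residue

end Crest.Agent.Kurosh.TestCore
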