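/-
S0270 (helper89): values and leading coefficients on twisted Hahn series for a monotone additive map
`π : G →+ Γ` into any ordered group (e.g. `v_n = (j, c_{≥ n})`).

* `vΓ π x` : `π (ord x)`, additive and ultrametric; `le_vΓ_iff`.
* `layer γ x = restrict (π ⁻¹ {γ}) x`; `layer_mul`: `layer (e + f) (x y) = layer e x * layer f y`
  when `e ≤ vΓ x`, `f ≤ vΓ y`.
* for an additive section `σ` of `π`: `coef σ γ x = layer γ x * (mono (σ γ) 1)⁻¹ ∈ subS π.ker`,
  `coef_mul`: `coef (γ+δ) (x y) = ε (σ γ) (σ δ) • coef γ x * θ γ (coef δ y)`, `θ γ` the conjugation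
  by `mono (σ γ) 1`.
* `leadData`: the `Lead.LeadData` instance over a central field of series.
-/
import Crest.Agent.Kurosh.HahnSub
import Crest.Agent.Kurosh.KeyHahn
import Crest.Agent.Kurosh.Lead
import Crest.Agent.Kurosh.TestCore

set_option autoImplicit false
set_option linter.unusedSectionVars false

namespace Crest.Agent.Kurosh.THSLead

open Finset THS

variable {G k : Type*} [AddCommGroup G] [LinearOrder G] [IsOrderedAddMonoid G] [Field k]
variable {R : Type*} [DivisionRing R] [Algebra k R] {ε : Bichar G k}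
variable {Γ : Type*} [AddCommGroup Γ] [LinearOrder Γ] [IsOrderedAddMonoid Γ]

section Val

variable (π : G →+ Γ)

open Classical in
/-- The value `π (ord x)`. -/
noncomputable def vΓ (x : THS R ε) : WithTop Γ := if x = 0 then ⊤ else ((π x.ord : Γ) : WithTop Γ)

lemma vΓ_zero : vΓ π (0 : THS R ε) = ⊤ := by
  classical
  unfold vΓ
  rw [if_pos rfl]

lemma vΓ_of_ne {x : THS R ε} (hx : x ≠ 0) : vΓ π x = ((π x.ord : Γ) : WithTop Γ) := by
  classical
  unfold vΓ
  rw [if_neg hx]

lemma eq_zero_of_vΓ {x : THS R ε} (h : vΓ π x = ⊤) : x = 0 := by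
  by_contra hx
  rw [vΓ_of_ne π hx] at h
  exact WithTop.coe_ne_top h

variable {π}
variable (hπ : Monotone π)
include hπ

lemma le_vΓ_iff {x : THS R ε} {e : WithTop Γ} :
    e ≤ vΓ π x ↔ ∀ g, x.coeff g ≠ 0 → e ≤ ((π g : Γ) : WithTop Γ) := by
  constructor
  · intro h g hg
    have hx : x ≠ 0 := by
      rintro rfl
      exact hg rfl
    rw [vΓ_of_ne π hx] at h
    exact le_trans h (WithTop.coe_le_coe.2 (hπ (ord_le hg)))
  · intro h
    by_cases hx : x = 0
    · rw [hx, vΓ_zero]
      exact le_top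
    rw [vΓ_of_ne π hx]
    exact h _ (ord_mem hx)

lemma vΓ_neg (x : THS R ε) : vΓ π (-x) = vΓ π x := by
  apply le_antisymm
  · rw [le_vΓ_iff hπ]
    intro g hg
    refine (le_vΓ_iff hπ).1 le_rfl g ?_
    rwa [coeff_neg, neg_ne_zero]
  · rw [le_vΓ_iff hπ]
    intro g hg
    refine (le_vΓ_iff hπ).1 le_rfl g ?_
    rw [coeff_neg] at hg
    exact neg_ne_zero.1 hg

lemma vΓ_add (x y : THS R ε) : min (vΓ π x) (vΓ π y) ≤ vΓ π (x + y) := by
  rw [le_vΓ_iff hπ]
  intro g hg
  rw [coeff_add] at hg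
  by_cases hx : x.coeff g = 0
  · have hy : y.coeff g ≠ 0 := by
      intro h
      exact hg (by rw [hx, h, add_zero])
    exact le_trans (min_le_right _ _) ((le_vΓ_iff hπ).1 le_rfl g hy)
  · exact le_trans (min_le_left _ _) ((le_vΓ_iff hπ).1 le_rfl g hx)

lemma vΓ_sub (x y : THS R ε) : min (vΓ π x) (vΓ π y) ≤ vΓ π (x - y) := by
  rw [sub_eq_add_neg]
  refine le_trans ?_ (vΓ_add hπ _ _)
  rw [vΓ_neg hπ]

lemma vΓ_mul (x y : THS R ε) : vΓ π (x * y) = vΓ π x + vΓ π y := by
  by_cases hx : x = 0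
  · rw [hx, zero_mul, vΓ_zero, WithTop.top_add]
  by_cases hy : y = 0
  · rw [hy, mul_zero, vΓ_zero, WithTop.add_top]
  rw [vΓ_of_ne π hx, vΓ_of_ne π hy, vΓ_of_ne π (mul_ne_zero hx hy), ord_mul hx hy, map_add]
  rfl

lemma vΓ_mono (g : G) {c : R} (hc : c ≠ 0) : vΓ π (mono g c : THS R ε) = ((π g : Γ) : WithTop Γ) := by
  classical
  have h0 : (mono g c : THS R ε) ≠ 0 := by
    intro h
    have h1 := congrArg (fun y => THS.coeff y g) h
    simp only [coeff_mono, if_true, coeff_zero] at h1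
    exact hc h1
  rw [vΓ_of_ne π h0]
  have h1 := ord_mem h0
  have h2 := supp_mono_subset (ε := ε) g c h1
  rw [Set.mem_singleton_iff] at h2
  rw [h2]

lemma vΓ_one : vΓ π (1 : THS R ε) = 0 := by
  rw [one_eq_mono, vΓ_mono hπ 0 one_ne_zero, map_zero]
  rfl

/-- Support below the value vanishes. -/
lemma coeff_eq_zero_of_lt_vΓ {x : THS R ε} {g : G} (h : ((π g : Γ) : WithTop Γ) < vΓ π x) :
    x.coeff g = 0 := by
  by_contra hg
  exact absurd ((le_vΓ_iff hπ).1 le_rfl g hg) (not_le.2 h)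

end Val

section Layer

variable (π : G →+ Γ)

/-- The layer of `x` at the value `γ`. -/
noncomputable def layer (γ : Γ) (x : THS R ε) : THS R ε := restrict (π ⁻¹' {γ}) x

lemma coeff_layer_of_eq {γ : Γ} (x : THS R ε) {g : G} (h : π g = γ) :
    (layer π γ x).coeff g = x.coeff g :=
  coeff_restrict_of_mem x (by simpa using h)

lemma coeff_layer_of_ne {γ : Γ} (x : THS R ε) {g : G} (h : π g ≠ γ) :
    (layer π γ x).coeff g = 0 :=
  coeff_restrict_of_not_mem x (by simpa using h)

lemma layer_add (γ : Γ) (x y : THS R ε) : layer π γ (x + y) = layer π γ x + layer π γ y :=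
  restrict_add _ _ _

lemma layer_sub (γ : Γ) (x y : THS R ε) : layer π γ (x - y) = layer π γ x - layer π γ y :=
  restrict_sub _ _ _

lemma layer_neg (γ : Γ) (x : THS R ε) : layer π γ (-x) = - layer π γ x :=
  restrict_neg _ _

lemma layer_zero (γ : Γ) : layer π γ (0 : THS R ε) = 0 := restrict_zero _

lemma layer_smul (γ : Γ) (c : k) (x : THS R ε) : layer π γ (c • x) = c • layer π γ x :=
  restrict_smul _ _ _

/-- Homogeneous series. -/
lemma layer_eq_self {γ : Γ} {x : THS R ε} (h : ∀ g, x.coeff g ≠ 0 → π g = γ) : layer π γ x = x :=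
  restrict_eq_self (fun g hg => by simpa using h g hg)

lemma supp_layer {γ : Γ} (x : THS R ε) {g : G} (h : (layer π γ x).coeff g ≠ 0) : π g = γ := by
  by_contra hne
  exact h (coeff_layer_of_ne π x hne)

variable {π}
variable (hπ : Monotone π)
include hπ

lemma layer_eq_zero_of_lt {γ : Γ} {x : THS R ε} (h : (γ : WithTop Γ) < vΓ π x) :
    layer π γ x = 0 := by
  ext g
  rw [coeff_zero]
  by_cases hg : π g = γ
  · rw [coeff_layer_of_eq π x hg]
    exact coeff_eq_zero_of_lt_vΓ hπ (by rwa [hg])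
  · exact coeff_layer_of_ne π x hg

/-- Vanishing criterion for the layer at the value. -/
lemma layer_eq_zero_iff {γ : Γ} {x : THS R ε} (h : (γ : WithTop Γ) ≤ vΓ π x) :
    layer π γ x = 0 ↔ (γ : WithTop Γ) < vΓ π x := by
  refine ⟨fun h0 => ?_, layer_eq_zero_of_lt hπ⟩
  refine lt_of_le_of_ne h ?_
  intro heq
  have hx : x ≠ 0 := by
    rintro rfl
    rw [vΓ_zero] at heq
    exact WithTop.coe_ne_top heq
  rw [vΓ_of_ne π hx] at heq
  have hord : π x.ord = γ := (WithTop.coe_injective heq).symm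
  have h1 : (layer π γ x).coeff x.ord = x.coeff x.ord := coeff_layer_of_eq π x hord
  rw [h0, coeff_zero] at h1
  exact ord_mem hx h1.symm

/-- The layer at `γ` of a series of value `≥ γ` has value `≥ γ`, and the difference has value `> γ`. -/
lemma lt_vΓ_sub_layer {γ : Γ} {x : THS R ε} (h : (γ : WithTop Γ) ≤ vΓ π x) :
    (γ : WithTop Γ) < vΓ π (x - layer π γ x) := by
  have h1 : (γ : WithTop Γ) ≤ vΓ π (x - layer π γ x) := by
    rw [le_vΓ_iff hπ]
    intro g hg
    by_cases hgγ : π g = γ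
    · rw [hgγ]
    · rw [coeff_sub, coeff_layer_of_ne π x hgγ, sub_zero] at hg
      exact (le_vΓ_iff hπ).1 h g hg
  refine (layer_eq_zero_iff hπ h1).1 ?_
  rw [layer_sub]
  ext g
  rw [coeff_sub, coeff_zero]
  by_cases hgγ : π g = γ
  · simp only [coeff_layer_of_eq π _ hgγ, sub_self]
  · simp only [coeff_layer_of_ne π _ hgγ, sub_zero]

/-- Multiplicativity of layers. -/
lemma layer_mul {e f : Γ} {x y : THS R ε} (hx : (e : WithTop Γ) ≤ vΓ π x)
    (hy : (f : WithTop Γ) ≤ vΓ π y) :
    layer π (e + f) (x * y) = layer π e x * layer π f y := by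
  classical
  ext g
  have hsx : (layer π e x).supp ⊆ x.supp := fun h hh => (supp_restrict_subset _ x hh).1
  have hsy : (layer π f y).supp ⊆ y.supp := fun h hh => (supp_restrict_subset _ y hh).1
  rw [coeff_mul_both x.isPWO_supp y.isPWO_supp hsx hsy]
  by_cases hg : π g = e + f
  · rw [coeff_layer_of_eq π _ hg, coeff_mul]
    refine Finset.sum_congr rfl fun ij hij => ?_
    obtain ⟨hi, hj, hsum⟩ := Finset.mem_antidiagonal.1 hij
    have h1 : e ≤ π ij.1 := WithTop.coe_le_coe.1 ((le_vΓ_iff hπ).1 hx _ hi)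
    have h2 : f ≤ π ij.2 := WithTop.coe_le_coe.1 ((le_vΓ_iff hπ).1 hy _ hj)
    have h3 : π ij.1 + π ij.2 = e + f := by rw [← map_add, hsum, hg]
    have h4 : π ij.1 = e := by
      apply le_antisymm _ h1
      by_contra hlt
      rw [not_le] at hlt
      have := add_lt_add_of_lt_of_le hlt h2
      rw [h3] at this
      exact lt_irrefl _ this
    have h5 : π ij.2 = f := by
      rw [h4] at h3
      exact add_left_cancel h3
    rw [coeff_layer_of_eq π x h4, coeff_layer_of_eq π y h5]
  · rw [coeff_layer_of_ne π _ hg]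
    symm
    refine Finset.sum_eq_zero fun ij hij => ?_
    obtain ⟨hi, hj, hsum⟩ := Finset.mem_antidiagonal.1 hij
    by_cases h1 : π ij.1 = e
    · by_cases h2 : π ij.2 = f
      · exfalso
        apply hg
        rw [← hsum, map_add, h1, h2]
      · rw [coeff_layer_of_ne π y h2, mul_zero, smul_zero]
    · rw [coeff_layer_of_ne π x h1, zero_mul, smul_zero]

end Layer

section Section

variable {π : G →+ Γ} (hπ : Monotone π) (σ : Γ →+ G) (hσ : ∀ γ, π (σ γ) = γ)

/-- The monomial chosen for the value `γ`. -/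
noncomputable def eM (γ : Γ) : THS R ε := mono (σ γ) 1

lemma eM_ne_zero (γ : Γ) : (eM σ γ : THS R ε) ≠ 0 := by
  classical
  intro h
  have h1 := congrArg (fun y => THS.coeff y (σ γ)) h
  simp only [eM, coeff_mono, if_true, coeff_zero] at h1
  exact one_ne_zero h1

lemma eM_mul (γ δ : Γ) : (eM σ γ : THS R ε) * eM σ δ = ε (σ γ) (σ δ) • eM σ (γ + δ) := by
  classical
  ext g
  rw [eM, eM, mono_mul_mono, eM, map_add, coeff_smul, coeff_mono, coeff_mono]
  split_ifs
  · rw [one_mul]
  · rw [smul_zero]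

lemma eM_inv (γ : Γ) : (eM σ γ : THS R ε)⁻¹ = mono (σ (-γ)) ((ε (σ γ) (σ (-γ)))⁻¹ • (1 : R)) := by
  apply inv_eq_of_mul_eq_one_right
  rw [eM, mono_mul_mono, one_mul, smul_smul, mul_inv_cancel₀ (ε.ne_zero _ _), one_smul,
    ← map_add, add_neg_cancel, map_zero]
  rfl

/-- The coefficient of `x` at the value `γ`, a series supported in `ker π`. -/
noncomputable def coef (π : G →+ Γ) (γ : Γ) (x : THS R ε) : THS R ε := layer π γ x * (eM σ γ)⁻¹

/-- Conjugation by the chosen monomial. -/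
noncomputable def thetaM (γ : Γ) (y : THS R ε) : THS R ε := eM σ γ * y * (eM σ γ)⁻¹

lemma thetaM_mul (γ : Γ) (x y : THS R ε) : thetaM σ γ (x * y) = thetaM σ γ x * thetaM σ γ y := by
  have h := eM_ne_zero (R := R) (ε := ε) σ γ
  unfold thetaM
  simp only [mul_assoc, inv_mul_cancel_left₀ h]

lemma thetaM_add (γ : Γ) (x y : THS R ε) : thetaM σ γ (x + y) = thetaM σ γ x + thetaM σ γ y := by
  unfold thetaM
  rw [mul_add, add_mul]

lemma coef_add (γ : Γ) (x y : THS R ε) : coef σ π γ (x + y) = coef σ π γ x + coef σ π γ y := by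
  unfold coef
  rw [layer_add, add_mul]

lemma coef_zero (γ : Γ) : coef σ π γ (0 : THS R ε) = 0 := by
  unfold coef
  rw [layer_zero, zero_mul]

/-- The coefficient as an additive map. -/
noncomputable def coefHom (γ : Γ) : THS R ε →+ THS R ε where
  toFun := coef σ π γ
  map_zero' := coef_zero σ γ
  map_add' := coef_add σ γ

lemma coef_mul_eM (γ : Γ) (x : THS R ε) : coef σ π γ x * eM σ γ = layer π γ x := by
  unfold coef
  rw [mul_assoc, inv_mul_cancel₀ (eM_ne_zero σ γ), mul_one]

include hσ in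
/-- The coefficient is supported in the kernel of `π`. -/
lemma coef_mem (γ : Γ) (x : THS R ε) :
    coef σ π γ x ∈ THS.subS (R := R) (ε := ε) π.ker := by
  classical
  rw [mem_subS]
  intro g hg
  unfold coef at hg
  rw [eM_inv] at hg
  obtain ⟨a, ha, b, hb, rfl⟩ := supp_mul_subset _ _ hg
  have hb' := supp_mono_subset (ε := ε) _ _ hb
  rw [Set.mem_singleton_iff] at hb'
  subst hb'
  have h1 : π a = γ := supp_layer π x ha
  show _ ∈ π.ker
  rw [AddMonoidHom.mem_ker, map_add, h1, hσ]
  exact add_neg_cancel γ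

lemma coef_eq_zero_iff {γ : Γ} {x : THS R ε} : coef σ π γ x = 0 ↔ layer π γ x = 0 := by
  unfold coef
  rw [mul_eq_zero, or_iff_left (inv_ne_zero (eM_ne_zero σ γ))]

include hπ in
/-- The field `c_eq_zero_iff` of `Lead.LeadData`. -/
lemma coef_eq_zero_iff_lt {γ : Γ} {x : THS R ε} (h : (γ : WithTop Γ) ≤ vΓ π x) :
    coef σ π γ x = 0 ↔ (γ : WithTop Γ) < vΓ π x := by
  rw [coef_eq_zero_iff, layer_eq_zero_iff hπ h]

include hπ in
/-- Multiplicativity of the coefficient. -/
lemma coef_mul {γ δ : Γ} {x y : THS R ε} (hx : (γ : WithTop Γ) ≤ vΓ π x)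
    (hy : (δ : WithTop Γ) ≤ vΓ π y) :
    coef σ π (γ + δ) (x * y)
      = ε (σ γ) (σ δ) • (coef σ π γ x * thetaM σ γ (coef σ π δ y)) := by
  have h1 : coef σ π (γ + δ) (x * y) * eM σ (γ + δ)
      = ε (σ γ) (σ δ) • (coef σ π γ x * thetaM σ γ (coef σ π δ y)) * eM σ (γ + δ) := by
    have h := eM_ne_zero (R := R) (ε := ε) σ γ
    rw [coef_mul_eM, layer_mul hπ hx hy, ← coef_mul_eM σ (π := π) γ x, ← coef_mul_eM σ (π := π) δ y,
      smul_mul_assoc, ← mul_smul_comm, ← eM_mul]
    unfold thetaM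
    simp only [mul_assoc, inv_mul_cancel_left₀ h]
  exact mul_right_cancel₀ (eM_ne_zero σ _) h1

/-- Coefficients of the conjugation. -/
lemma coeff_thetaM (γ : Γ) (y : THS R ε) (g : G) :
    (thetaM σ γ y).coeff g = (ε (σ γ) g * (ε g (σ γ))⁻¹) • y.coeff g := by
  classical
  have h0 : eM σ γ * y = thetaM σ γ y * eM σ γ := by
    unfold thetaM
    rw [mul_assoc, inv_mul_cancel₀ (eM_ne_zero σ γ), mul_one]
  have h1 := coeff_mono_mul (σ γ) (1 : R) y g
  have h2 := coeff_mul_mono (σ γ) (1 : R) (thetaM σ γ y) g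
  rw [one_mul] at h1
  rw [mul_one] at h2
  have h3 : (mono (σ γ) 1 * y : THS R ε).coeff (σ γ + g)
      = (thetaM σ γ y * mono (σ γ) 1 : THS R ε).coeff (g + σ γ) := by
    have := congrArg (fun z : THS R ε => z.coeff (σ γ + g)) h0
    simp only [eM] at this
    rw [add_comm g]
    exact this
  rw [h1, h2] at h3
  have hne := ε.ne_zero g (σ γ)
  rw [mul_comm, mul_smul, h3, smul_smul, inv_mul_cancel₀ hne, one_smul]

end Section

section LeadInst

variable {K : Type*} [Field K] {A : Type*} [DivisionRing A] [Algebra K A] {e : Bichar G K}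
variable (S : SymSub e) (π : G →+ Γ)

/-- The scalars with value `0`. -/
def S0 : SymSub e := ⟨S.Γ ⊓ π.ker, fun γ hγ g => S.symm γ hγ.1 g⟩

lemma S0_Γ_le : (S0 S π).Γ ≤ π.ker := fun _ h => h.2

/-- Residue field to residue ring. -/
noncomputable def K0toR0 : Scal A (S0 S π) →+* ↥(subS (R := A) (ε := e) π.ker) where
  toFun c := ⟨c.1, fun g hg => S0_Γ_le S π (c.2.1 g hg)⟩
  map_one' := rfl
  map_mul' _ _ := rfl
  map_zero' := rfl
  map_add' _ _ := rfl

noncomputable instance algK0R0 : Algebra (Scal A (S0 S π)) ↥(subS (R := A) (ε := e) π.ker) :=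
  RingHom.toAlgebra' (K0toR0 S π) (fun c x => Subtype.ext (mul_comm_of_isIn (S0 S π) c.2 x.1))

lemma K0_smul_coe (c : Scal A (S0 S π)) (x : ↥(subS (R := A) (ε := e) π.ker)) :
    (c • x).1 = c.1 * x.1 := rfl

/-- Residue field to the scalars. -/
noncomputable def K0toK' : Scal A (S0 S π) →+* Scal A S where
  toFun c := ⟨c.1, ⟨fun g hg => (c.2.1 g hg).1, c.2.2⟩⟩
  map_one' := rfl
  map_mul' _ _ := rfl
  map_zero' := rfl
  map_add' _ _ := rfl

variable {π}
variable (hπ : Monotone π) (σ : Γ →+ G) (hσ : ∀ γ, π (σ γ) = γ)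
  (hσS : ∀ g ∈ S.Γ, σ (π g) ∈ S.Γ) (hσ1 : ∀ γ δ, e (σ γ) (σ δ) = 1)

include hσS in
lemma sec_neg_mem {g : G} (hg : g ∈ S.Γ) : σ (-π g) ∈ S.Γ := by
  rw [map_neg]
  exact S.Γ.neg_mem (hσS g hg)

include hσ hσS in
/-- The leading coefficient of a scalar is a residue scalar. -/
lemma coef_mem_K0 {l : THS A e} (hl : l ∈ scalSub A S) {g : G} (hg : g ∈ S.Γ) :
    coef σ π (π g) l ∈ scalSub A (S0 S π) := by
  classical
  have h1 : IsIn S.Γ (⊥ : Subalgebra K A) (layer π (π g) l) := by
    constructor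
    · intro a ha
      refine hl.1 a ?_
      intro h0
      apply ha
      by_cases hab : π a = π g
      · rw [coeff_layer_of_eq π l hab, h0]
      · exact coeff_layer_of_ne π l hab
    · intro a
      by_cases hab : π a = π g
      · rw [coeff_layer_of_eq π l hab]
        exact hl.2 a
      · rw [coeff_layer_of_ne π l hab]
        exact Subalgebra.zero_mem _
  have h2 : IsIn S.Γ (⊥ : Subalgebra K A) ((eM σ (π g) : THS A e)⁻¹) := by
    rw [eM_inv]
    constructor
    · intro a ha
      rw [coeff_mono] at ha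
      by_cases hab : a = σ (-π g)
      · rw [hab]
        exact sec_neg_mem S σ hσS hg
      · rw [if_neg hab] at ha
        exact absurd rfl ha
    · intro a
      rw [coeff_mono]
      split_ifs
      · exact Subalgebra.smul_mem _ (Subalgebra.one_mem _) _
      · exact Subalgebra.zero_mem _
  have h3 := h1.mul h2
  refine ⟨fun a ha => ⟨h3.1 a ha, ?_⟩, h3.2⟩
  exact coef_mem σ hσ (π g) l ha

lemma eM_isIn {γ : Γ} (h : σ γ ∈ S.Γ) : IsIn S.Γ (⊥ : Subalgebra K A) (eM σ γ : THS A e) := by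
  classical
  constructor
  · intro a ha
    unfold eM at ha
    rw [coeff_mono] at ha
    by_cases hab : a = σ γ
    · rw [hab]
      exact h
    · rw [if_neg hab] at ha
      exact absurd rfl ha
  · intro a
    unfold eM
    rw [coeff_mono]
    split_ifs
    · exact Subalgebra.one_mem _
    · exact Subalgebra.zero_mem _

/-- Conjugation by a central monomial is trivial. -/
lemma thetaM_of_mem {γ : Γ} (h : σ γ ∈ S.Γ) (y : THS A e) : thetaM σ γ y = y := by
  unfold thetaM
  rw [mul_comm_of_isIn S (eM_isIn S σ h) y, mul_assoc, mul_inv_cancel₀ (eM_ne_zero σ γ), mul_one]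

lemma eM_zero : (eM σ 0 : THS A e) = 1 := by
  unfold eM
  rw [map_zero]
  rfl

lemma Scal_coe_ne {l : Scal A S} (hl : l ≠ 0) : l.1 ≠ 0 := fun h0 => hl (Subtype.ext h0)

include hπ σ in
lemma coef_ord_ne {x : THS A e} (hx : x ≠ 0) : coef σ π (π x.ord) x ≠ 0 := by
  intro h0
  have hv : vΓ π x = ((π x.ord : Γ) : WithTop Γ) := vΓ_of_ne π hx
  have h1 := (coef_eq_zero_iff_lt hπ σ (x := x) (γ := π x.ord) (le_of_eq hv.symm)).1 h0
  rw [hv] at h1
  exact lt_irrefl _ h1

include hσ hσS in
lemma coef_ord_mem (l : Scal A S) : coef σ π (π l.1.ord) l.1 ∈ scalSub A (S0 S π) := by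
  by_cases h : l.1 = 0
  · rw [h, coef_zero]
    exact Subfield.zero_mem _
  · exact coef_mem_K0 S σ hσ hσS l.2 (l.2.1 _ (ord_mem h))

/-- The lead data. -/
noncomputable def leadData : Lead.LeadData (Scal A S) (Scal A (S0 S π)) (THS A e)
    ↥(subS (R := A) (ε := e) π.ker) Γ where
  val := vΓ π
  val_zero := vΓ_zero π
  eq_zero_of_val := fun _ => eq_zero_of_vΓ π
  val_neg := vΓ_neg hπ
  val_add := vΓ_add hπ
  c γ :=
    { toFun := fun x => ⟨coef σ π γ x, coef_mem σ hσ γ x⟩
      map_zero' := Subtype.ext (coef_zero σ γ)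
      map_add' := fun x y => Subtype.ext (coef_add σ γ x y) }
  c_eq_zero_iff e x h := by
    have := coef_eq_zero_iff_lt hπ σ (x := x) h
    constructor
    · intro h0
      exact this.1 (congrArg Subtype.val h0)
    · intro h0
      exact Subtype.ext (this.2 h0)
  j := K0toK' S π
  lam l := π l.1.ord
  lc l := ⟨coef σ π (π l.1.ord) l.1, coef_ord_mem S σ hσ hσS l⟩
  lc_ne l hl := by
    intro h0
    exact coef_ord_ne hπ σ (Scal_coe_ne S hl) (congrArg Subtype.val h0)
  lam_j k hk := by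
    have hk' : k.1 ≠ 0 := fun h0 => hk (Subtype.ext h0)
    have h1 : π k.1.ord = 0 := (k.2.1 _ (ord_mem hk')).2
    have hcoe : (K0toK' S π k).1 = k.1 := rfl
    refine ⟨h1, ?_⟩
    apply Subtype.ext
    show coef σ π (π (K0toK' S π k).1.ord) (K0toK' S π k).1 = k.1
    rw [hcoe, h1]
    unfold coef
    rw [eM_zero, inv_one, mul_one]
    exact layer_eq_self π (fun g hg => (k.2.1 g hg).2)
  smul_spec l hl e₀ x hx := by
    have hl' : l.1 ≠ 0 := Scal_coe_ne S hl
    have hval : vΓ π l.1 = ((π l.1.ord : Γ) : WithTop Γ) := vΓ_of_ne π hl'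
    have hle : ((e₀ + π l.1.ord : Γ) : WithTop Γ) ≤ vΓ π (l • x) := by
      rw [Scal.smul_def, vΓ_mul hπ, hval, add_comm, WithTop.coe_add]
      exact add_le_add le_rfl hx
    refine ⟨hle, ?_⟩
    apply Subtype.ext
    show coef σ π (e₀ + π l.1.ord) (l • x) = coef σ π (π l.1.ord) l.1 * coef σ π e₀ x
    rw [Scal.smul_def, add_comm, coef_mul hπ σ (le_of_eq hval.symm) hx, hσ1, one_smul,
      thetaM_of_mem S σ (hσS _ (l.2.1 _ (ord_mem hl')))]

variable {S hπ σ hσ hσS hσ1}

/-- Values of the lead data. -/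
theorem leadData_val (x : THS A e) : (leadData S hπ σ hσ hσS hσ1).val x = vΓ π x := rfl

theorem leadData_c_coe (γ : Γ) (x : THS A e) :
    ((leadData S hπ σ hσ hσS hσ1).c γ x).1 = coef σ π γ x := rfl

theorem leadData_lam (l : Scal A S) : (leadData S hπ σ hσ hσS hσ1).lam l = π l.1.ord := rfl

theorem leadData_j_coe (c : Scal A (S0 S π)) :
    ((leadData S hπ σ hσ hσS hσ1).j c).1 = c.1 := rfl

end LeadInst

section Basis

open Classical Module

variable {K : Type*} [Field K] {A : Type*} [DivisionRing A] [Algebra K A] {e : Bichar G K}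
variable (S : SymSub e) [FiniteDimensional K A]

/-- The coordinate series of `x` at the monomial `mono t (b i)`. -/
noncomputable def coordSer (t : G) (i : Fin (finrank K A)) (x : THS A e) : THS A e := ofH
  { coeff := fun γ => if γ ∈ S.Γ then
      (e γ t)⁻¹ • algebraMap K A ((finBasis K A).repr (x.coeff (γ + t)) i) else 0
    isPWO_support' := by
      have hmono : Monotone (fun g : G => g - t) := fun a c h => sub_le_sub_right h t
      refine (x.isPWO_supp.image_of_monotone hmono).mono ?_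
      intro γ hγ
      refine ⟨γ + t, ?_, by simp⟩
      intro h0
      apply hγ
      show (if γ ∈ S.Γ then (e γ t)⁻¹ • algebraMap K A ((finBasis K A).repr (x.coeff (γ + t)) i)
        else 0) = 0
      have h0' : x.coeff (γ + t) = 0 := h0
      rw [h0']
      simp }

lemma coeff_coordSer (t : G) (i : Fin (finrank K A)) (x : THS A e) (γ : G) :
    (coordSer S t i x).coeff γ = if γ ∈ S.Γ then
      (e γ t)⁻¹ • algebraMap K A ((finBasis K A).repr (x.coeff (γ + t)) i) else 0 := rfl

lemma coordSer_mem (t : G) (i : Fin (finrank K A)) (x : THS A e) :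
    coordSer S t i x ∈ scalSub A S := by
  constructor
  · intro g hg
    by_contra h
    apply hg
    rw [coeff_coordSer, if_neg h]
  · intro g
    rw [coeff_coordSer]
    split_ifs
    · exact Subalgebra.smul_mem _ (Subalgebra.algebraMap_mem _ _) _
    · exact Subalgebra.zero_mem _

/-- The coordinate of `x` at the monomial `mono t (b i)`. -/
noncomputable def coord (t : G) (i : Fin (finrank K A)) (x : THS A e) : Scal A S :=
  ⟨coordSer S t i x, coordSer_mem S t i x⟩

/-- The basis vector. -/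
noncomputable def bv (t : G) (i : Fin (finrank K A)) : THS A e := mono t (finBasis K A i)

/-- Coefficients of a term of the decomposition. -/
lemma coeff_coord_smul (t : G) (i : Fin (finrank K A)) (x : THS A e) (g : G) :
    (coord S t i x • bv t i : THS A e).coeff g =
      if g - t ∈ S.Γ then (finBasis K A).repr (x.coeff g) i • finBasis K A i else 0 := by
  rw [Scal.smul_def]
  have h1 := coeff_mul_mono t (finBasis K A i) (coord S t i x).1 (g - t)
  rw [sub_add_cancel] at h1
  unfold bv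
  rw [h1]
  show e (g - t) t • ((coordSer S t i x).coeff (g - t) * _) = _
  rw [coeff_coordSer]
  split_ifs with h
  · rw [sub_add_cancel, smul_mul_assoc, smul_smul, mul_inv_cancel₀ (e.ne_zero _ _), one_smul,
      Algebra.smul_def]
  · rw [zero_mul, smul_zero]

lemma coeff_sum {ι : Type*} (s : Finset ι) (F : ι → THS A e) (g : G) :
    (∑ t ∈ s, F t).coeff g = ∑ t ∈ s, (F t).coeff g := by
  induction s using Finset.induction_on with
  | empty => rfl
  | insert a s ha ih => rw [Finset.sum_insert ha, Finset.sum_insert ha, THS.coeff_add, ih]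

/-- Decomposition of a series supported in a union of finitely many cosets. -/
lemma sum_coord (T : Finset G) (hT' : ∀ t ∈ T, ∀ t' ∈ T, t - t' ∈ S.Γ → t = t') (x : THS A e)
    (hx : ∀ g, x.coeff g ≠ 0 → ∃ t ∈ T, g - t ∈ S.Γ) :
    x = ∑ t ∈ T, ∑ i, coord S t i x • bv t i := by
  ext g
  rw [coeff_sum]
  by_cases hg : ∃ t ∈ T, g - t ∈ S.Γ
  · obtain ⟨t₀, ht₀, hg₀⟩ := hg
    rw [Finset.sum_eq_single t₀]
    · rw [coeff_sum]
      simp only [coeff_coord_smul, if_pos hg₀]
      exact ((finBasis K A).sum_repr _).symm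
    · intro t ht hne
      rw [coeff_sum]
      simp only [coeff_coord_smul]
      rw [Finset.sum_eq_zero]
      intro i _
      rw [if_neg]
      intro h
      apply hne
      apply hT' t ht t₀ ht₀
      have := S.Γ.sub_mem hg₀ h
      have e2 : g - t₀ - (g - t) = t - t₀ := by abel
      rwa [e2] at this
    · intro h
      exact absurd ht₀ h
  · have hx0 : x.coeff g = 0 := by
      by_contra h
      exact hg (hx g h)
    rw [hx0]
    symm
    refine Finset.sum_eq_zero fun t ht => ?_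
    rw [coeff_sum]
    refine Finset.sum_eq_zero fun i _ => ?_
    rw [coeff_coord_smul, hx0, if_neg (fun h => hg ⟨t, ht, h⟩)]

/-- Independence: the coefficient of `∑ c • bv` in a coset. -/
lemma coord_of_sum (T : Finset G) (hT' : ∀ t ∈ T, ∀ t' ∈ T, t - t' ∈ S.Γ → t = t')
    (c : G → Fin (finrank K A) → Scal A S) (t₀ : G) (ht₀ : t₀ ∈ T) (i₀ : Fin (finrank K A)) :
    coord S t₀ i₀ (∑ t ∈ T, ∑ i, c t i • bv t i) = c t₀ i₀ := by
  have hcoef : ∀ (t : G) (i : Fin (finrank K A)) (γ : G),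
      (c t i • bv t i : THS A e).coeff (γ + t) = e γ t • ((c t i).1.coeff γ * finBasis K A i) := by
    intro t i γ
    rw [Scal.smul_def]
    exact coeff_mul_mono t _ _ γ
  apply Subtype.ext
  ext γ
  show (coordSer S t₀ i₀ _).coeff γ = _
  rw [coeff_coordSer]
  by_cases hγ : γ ∈ S.Γ
  · rw [if_pos hγ, coeff_sum, Finset.sum_eq_single t₀]
    · rw [coeff_sum]
      simp only [hcoef]
      rw [← Finset.smul_sum]
      -- the coefficients are scalars
      have hscal : ∀ i, ∃ κ : K, algebraMap K A κ = (c t₀ i).1.coeff γ := fun i =>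
        Algebra.mem_bot.1 ((c t₀ i).2.2 γ)
      choose κ hκ using hscal
      have h1 : ∑ i, (c t₀ i).1.coeff γ * finBasis K A i = ∑ i, κ i • finBasis K A i := by
        refine Finset.sum_congr rfl fun i _ => ?_
        rw [← hκ, Algebra.smul_def]
      rw [h1, map_smul, map_sum]
      simp only [map_smul, Module.Basis.repr_self]
      simp only [Finsupp.smul_single, smul_eq_mul, mul_one, Finsupp.coe_finsetSum, Finsupp.coe_smul,
        Finset.sum_apply, Pi.smul_apply]
      rw [Finset.sum_eq_single i₀]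
      · rw [Finsupp.single_eq_same]
        have h2 : (e γ t₀)⁻¹ • algebraMap K A (e γ t₀ * κ i₀) = algebraMap K A (κ i₀) := by
          rw [map_mul, ← Algebra.smul_def, smul_smul, inv_mul_cancel₀ (e.ne_zero _ _), one_smul]
        exact h2.trans (hκ i₀)
      · intro i _ hi
        rw [Finsupp.single_eq_of_ne]
        exact hi.symm
      · intro h
        exact absurd (Finset.mem_univ _) h
    · intro t ht hne
      rw [coeff_sum]
      refine Finset.sum_eq_zero fun i _ => ?_
      have h3 := hcoef t i (γ + t₀ - t)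
      rw [sub_add_cancel] at h3
      rw [h3]
      have h4 : (c t i).1.coeff (γ + t₀ - t) = 0 := by
        by_contra h5
        have h6 := (c t i).2.1 _ h5
        have h7 := S.Γ.sub_mem h6 hγ
        have h8 : γ + t₀ - t - γ = t₀ - t := by abel
        rw [h8] at h7
        exact hne (hT' t₀ ht₀ t ht h7).symm
      rw [h4, zero_mul, smul_zero]
    · intro h
      exact absurd ht₀ h
  · rw [if_neg hγ]
    symm
    by_contra h
    exact hγ ((c t₀ i₀).2.1 γ h)

/-- The monomial basis of `THS A e` over the central field. -/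
noncomputable def monoBasis (T : Finset G) (hT : ∀ g, ∃ t ∈ T, g - t ∈ S.Γ)
    (hT' : ∀ t ∈ T, ∀ t' ∈ T, t - t' ∈ S.Γ → t = t') :
    Basis (T × Fin (finrank K A)) (Scal A S) (THS A e) :=
  Basis.mk (v := fun p => (bv p.1.1 p.2 : THS A e))
    (by
      rw [Fintype.linearIndependent_iff]
      intro c hc p
      obtain ⟨⟨t₀, ht₀⟩, i₀⟩ := p
      let c' : G → Fin (finrank K A) → Scal A S := fun t i =>
        if h : t ∈ T then c (⟨t, h⟩, i) else 0
      have h1 := coord_of_sum S T hT' c' t₀ ht₀ i₀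
      have h2 : (∑ t ∈ T, ∑ i, c' t i • bv t i : THS A e) = 0 := by
        rw [← hc, Fintype.sum_prod_type, ← Finset.sum_coe_sort T]
        refine Finset.sum_congr rfl fun t _ => Finset.sum_congr rfl fun i _ => ?_
        simp only [c', dif_pos t.2]
      rw [h2] at h1
      have h3 : coord S t₀ i₀ (0 : THS A e) = 0 := by
        apply Subtype.ext
        ext γ
        show (coordSer S t₀ i₀ 0).coeff γ = 0
        rw [coeff_coordSer]
        simp
      rw [h3] at h1
      have h4 : c' t₀ i₀ = c (⟨t₀, ht₀⟩, i₀) := by simp only [c', dif_pos ht₀]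
      rw [← h4, ← h1])
    (by
      intro x _
      rw [sum_coord S T hT' x (fun g _ => hT g)]
      refine Submodule.sum_mem _ fun t ht => Submodule.sum_mem _ fun i _ =>
        Submodule.smul_mem _ _ (Submodule.subset_span ⟨(⟨t, ht⟩, i), rfl⟩))

theorem monoBasis_apply (T : Finset G) (hT : ∀ g, ∃ t ∈ T, g - t ∈ S.Γ)
    (hT' : ∀ t ∈ T, ∀ t' ∈ T, t - t' ∈ S.Γ → t = t') (p : T × Fin (finrank K A)) :
    monoBasis S T hT hT' p = bv p.1.1 p.2 := by
  simp [monoBasis]

/-- The coordinates of the monomial basis. -/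
theorem monoBasis_repr (T : Finset G) (hT : ∀ g, ∃ t ∈ T, g - t ∈ S.Γ)
    (hT' : ∀ t ∈ T, ∀ t' ∈ T, t - t' ∈ S.Γ → t = t') (x : THS A e) (p : T × Fin (finrank K A)) :
    (monoBasis S T hT hT').repr x p = coord S p.1.1 p.2 x := by
  set b := monoBasis (A := A) S T hT hT'
  have h1 : x = ∑ q : T × Fin (finrank K A), coord S q.1.1 q.2 x • b q := by
    conv_lhs => rw [sum_coord S T hT' x (fun g _ => hT g)]
    rw [Fintype.sum_prod_type, ← Finset.sum_coe_sort T]
    refine Finset.sum_congr rfl fun t _ => Finset.sum_congr rfl fun i _ => ?_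
    rw [monoBasis_apply]
  conv_lhs => rw [h1]
  rw [b.repr_sum_self]

/-- The coordinates are contractive. -/
theorem vΓ_le_coord {π : G →+ Γ} (hπ : Monotone π) (T : Finset G) (hT : ∀ g, ∃ t ∈ T, g - t ∈ S.Γ)
    (hT' : ∀ t ∈ T, ∀ t' ∈ T, t - t' ∈ S.Γ → t = t') (y : THS A e) (p : T × Fin (finrank K A)) :
    vΓ π y ≤ vΓ π ((monoBasis S T hT hT').repr y p • monoBasis S T hT hT' p) := by
  rw [monoBasis_repr, monoBasis_apply, le_vΓ_iff hπ]
  intro g hg
  rw [coeff_coord_smul] at hg
  refine (le_vΓ_iff hπ).1 le_rfl g ?_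
  intro h0
  apply hg
  rw [h0]
  simp

end Basis

section Gr

open Module

variable {K : Type*} [Field K] {A : Type*} [DivisionRing A] [Algebra K A] {e : Bichar G K}
variable (S : SymSub e) {π : G →+ Γ} (hπ : Monotone π) (σ : Γ →+ G) (hσ : ∀ γ, π (σ γ) = γ)
  (hσS : ∀ g ∈ S.Γ, σ (π g) ∈ S.Γ) (hσ1 : ∀ γ δ, e (σ γ) (σ δ) = 1)

include hσ in
/-- Conjugation by a chosen monomial preserves the residue ring. -/
lemma thetaM_mem (γ : Γ) {y : THS A e} (hy : y ∈ subS (R := A) (ε := e) π.ker) :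
    thetaM σ γ y ∈ subS (R := A) (ε := e) π.ker := by
  intro g hg
  refine hy ?_
  intro h0
  apply hg
  show (thetaM σ γ y).coeff g = 0
  rw [coeff_thetaM]
  have h0' : y.coeff g = 0 := h0
  rw [h0', smul_zero]

/-- Conjugation by a chosen monomial, as a ring endomorphism of the residue ring. -/
noncomputable def thetaR (γ : Γ) :
    ↥(subS (R := A) (ε := e) π.ker) →+* ↥(subS (R := A) (ε := e) π.ker) where
  toFun y := ⟨thetaM σ γ y.1, thetaM_mem σ hσ γ y.2⟩
  map_one' := by
    apply Subtype.ext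
    show eM σ γ * 1 * (eM σ γ)⁻¹ = 1
    rw [mul_one, mul_inv_cancel₀ (eM_ne_zero σ γ)]
  map_mul' x y := Subtype.ext (thetaM_mul σ γ x.1 y.1)
  map_zero' := by
    apply Subtype.ext
    show eM σ γ * 0 * (eM σ γ)⁻¹ = 0
    rw [mul_zero, zero_mul]
  map_add' x y := Subtype.ext (thetaM_add σ γ x.1 y.1)

variable (τ : A →ₗ[K] K)

/-- The trace of the residue ring. -/
noncomputable def traceR : ↥(subS (R := A) (ε := e) π.ker) →ₗ[Scal A (S0 S π)] Scal A (S0 S π) where
  toFun x := traceL (S0 S π) τ x.1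
  map_add' x y := map_add (traceL (S0 S π) τ) x.1 y.1
  map_smul' c x := map_smul (traceL (S0 S π) τ) c x.1

lemma coef_zero_eq (x : THS A e) : coef σ π 0 x = layer π 0 x := by
  unfold coef
  rw [eM_zero, inv_one, mul_one]

/-- Layer `0` of the trace series. -/
lemma layer_traceSeries (y : THS A e) :
    layer π 0 (traceSeries S τ y) = traceSeries (S0 S π) τ (layer π 0 y) := by
  classical
  ext g
  rw [coeff_traceSeries]
  by_cases hg : π g = 0
  · rw [coeff_layer_of_eq π _ hg, coeff_layer_of_eq π _ hg, coeff_traceSeries]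
    by_cases hgS : g ∈ S.Γ
    · rw [if_pos hgS, if_pos (show g ∈ (S0 S π).Γ from ⟨hgS, hg⟩)]
    · rw [if_neg hgS, if_neg (show g ∉ (S0 S π).Γ from fun h => hgS h.1)]
  · rw [coeff_layer_of_ne π _ hg, if_neg (show g ∉ (S0 S π).Γ from fun h => hg h.2)]

include hπ in
/-- The trace does not decrease the value. -/
lemma vΓ_le_trace (y : THS A e) : vΓ π y ≤ vΓ π (traceSeries S τ y) := by
  rw [le_vΓ_iff hπ]
  intro g hg
  exact (le_vΓ_iff hπ).1 le_rfl g (traceSeries_supp S τ y hg)

/-- The multiplicative lead data with traces (helper31's `TestCore.GrData`). -/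
noncomputable def grData : TestCore.GrData (Scal A S) (Scal A (S0 S π)) (THS A e)
    ↥(subS (R := A) (ε := e) π.ker) Γ where
  toLeadData := leadData S hπ σ hσ hσS hσ1
  val_one := vΓ_one hπ
  val_mul := vΓ_mul hπ
  θ := thetaR σ hσ
  c_mul g h x y hx hy := by
    apply Subtype.ext
    show coef σ π (g + h) (x * y) = ((1 : Scal A (S0 S π)) • (coef σ π g x * thetaM σ g (coef σ π h y)) : THS A e)
    rw [coef_mul hπ σ hx hy, hσ1, one_smul, one_smul]
  τ' := traceL S τ
  τR := traceR S τ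
  trace_res y hy := by
    refine ⟨le_trans hy (vΓ_le_trace S hπ τ y), ?_⟩
    apply Subtype.ext
    show coef σ π 0 (traceSeries S τ y) = traceSeries (S0 S π) τ (coef σ π 0 y)
    rw [coef_zero_eq, coef_zero_eq, layer_traceSeries]

end Gr

section ResFinite

open Classical Module

variable {K : Type*} [Field K] {A : Type*} [DivisionRing A] [Algebra K A] {e : Bichar G K}
variable (S : SymSub e) {π : G →+ Γ} [FiniteDimensional K A]

lemma bv_mem {t : G} (ht : t ∈ π.ker) (i : Fin (finrank K A)) :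
    (bv t i : THS A e) ∈ subS (R := A) (ε := e) π.ker :=
  mono_mem_subS ht _

variable (π) in
/-- The monomial basis of the residue ring over the residue field. -/
noncomputable def resBasis (T0 : Finset G) (hT0 : ∀ t ∈ T0, t ∈ π.ker)
    (hT : ∀ g ∈ π.ker, ∃ t ∈ T0, g - t ∈ S.Γ)
    (hT' : ∀ t ∈ T0, ∀ t' ∈ T0, t - t' ∈ S.Γ → t = t') :
    Basis (T0 × Fin (finrank K A)) (Scal A (S0 S π)) ↥(subS (R := A) (ε := e) π.ker) :=
  have hT'' : ∀ t ∈ T0, ∀ t' ∈ T0, t - t' ∈ (S0 S π).Γ → t = t' :=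
    fun t ht t' ht' h => hT' t ht t' ht' h.1
  Basis.mk (v := fun p => ⟨(bv p.1.1 p.2 : THS A e), bv_mem (hT0 _ p.1.2) p.2⟩)
    (by
      rw [Fintype.linearIndependent_iff]
      intro c hc p
      obtain ⟨⟨t₀, ht₀⟩, i₀⟩ := p
      let c' : G → Fin (finrank K A) → Scal A (S0 S π) := fun t i =>
        if h : t ∈ T0 then c (⟨t, h⟩, i) else 0
      have h1 := coord_of_sum (S0 S π) T0 hT'' c' t₀ ht₀ i₀
      have h2 : (∑ t ∈ T0, ∑ i, c' t i • bv t i : THS A e) = 0 := by
        have h3 := congrArg Subtype.val hc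
        rw [← Finset.sum_coe_sort T0]
        rw [Fintype.sum_prod_type] at h3
        have h4 : ((∑ x : T0, ∑ y : Fin (finrank K A), c (x, y) •
            (⟨(bv x.1 y : THS A e), bv_mem (hT0 _ x.2) y⟩ :
              ↥(subS (R := A) (ε := e) π.ker))).1 : THS A e)
            = ∑ x : T0, ∑ y : Fin (finrank K A), (c (x, y)).1 * (bv x.1 y : THS A e) := by
          rw [AddSubmonoidClass.coe_finsetSum]
          refine Finset.sum_congr rfl fun t _ => ?_
          rw [AddSubmonoidClass.coe_finsetSum]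
          rfl
        rw [h4] at h3
        refine Eq.trans ?_ h3
        refine Finset.sum_congr rfl fun t _ => Finset.sum_congr rfl fun i _ => ?_
        simp only [c', dif_pos t.2]
        rfl
      rw [h2] at h1
      have h3 : coord (S0 S π) t₀ i₀ (0 : THS A e) = 0 := by
        apply Subtype.ext
        ext γ
        show (coordSer (S0 S π) t₀ i₀ 0).coeff γ = 0
        rw [coeff_coordSer]
        simp
      rw [h3] at h1
      have h4 : c' t₀ i₀ = c (⟨t₀, ht₀⟩, i₀) := by simp only [c', dif_pos ht₀]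
      rw [← h4, ← h1])
    (by
      intro x _
      have h1 := sum_coord (S0 S π) T0 hT'' x.1 (fun g hg => by
        have hg' : g ∈ π.ker := x.2 hg
        obtain ⟨t, ht, h⟩ := hT g hg'
        exact ⟨t, ht, h, π.ker.sub_mem hg' (hT0 t ht)⟩)
      have h2 : x = ∑ t : T0, ∑ i, coord (S0 S π) t.1 i x.1 •
          (⟨(bv t.1 i : THS A e), bv_mem (hT0 _ t.2) i⟩ : ↥(subS (R := A) (ε := e) π.ker)) := by
        apply Subtype.ext
        rw [AddSubmonoidClass.coe_finsetSum]
        refine h1.trans ?_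
        rw [← Finset.sum_coe_sort T0]
        refine Finset.sum_congr rfl fun t _ => ?_
        rw [AddSubmonoidClass.coe_finsetSum]
        rfl
      rw [h2]
      refine Submodule.sum_mem _ fun t _ => Submodule.sum_mem _ fun i _ =>
        Submodule.smul_mem _ _ (Submodule.subset_span ⟨(t, i), rfl⟩))

variable (π) in
/-- The residue ring is finite over the residue field. -/
theorem res_finite (T0 : Finset G) (hT0 : ∀ t ∈ T0, t ∈ π.ker)
    (hT : ∀ g ∈ π.ker, ∃ t ∈ T0, g - t ∈ S.Γ)
    (hT' : ∀ t ∈ T0, ∀ t' ∈ T0, t - t' ∈ S.Γ → t = t') :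
    Module.Finite (Scal A (S0 S π)) ↥(subS (R := A) (ε := e) π.ker) :=
  Module.Finite.of_basis (resBasis S π T0 hT0 hT hT')

variable (π) in
/-- The dimension of the residue ring. -/
theorem finrank_res (T0 : Finset G) (hT0 : ∀ t ∈ T0, t ∈ π.ker)
    (hT : ∀ g ∈ π.ker, ∃ t ∈ T0, g - t ∈ S.Γ)
    (hT' : ∀ t ∈ T0, ∀ t' ∈ T0, t - t' ∈ S.Γ → t = t') :
    finrank (Scal A (S0 S π)) ↥(subS (R := A) (ε := e) π.ker) = T0.card * finrank K A := by
  rw [finrank_eq_card_basis (resBasis S π T0 hT0 hT hT')]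
  simp

/-- The dimension of the level-up ring over its central field. -/
theorem finrank_scal (T : Finset G) (hT : ∀ g, ∃ t ∈ T, g - t ∈ S.Γ)
    (hT' : ∀ t ∈ T, ∀ t' ∈ T, t - t' ∈ S.Γ → t = t') :
    finrank (Scal A S) (THS A e) = T.card * finrank K A := by
  rw [finrank_eq_card_basis (monoBasis (A := A) S T hT hT')]
  simp

theorem scal_finite (T : Finset G) (hT : ∀ g, ∃ t ∈ T, g - t ∈ S.Γ)
    (hT' : ∀ t ∈ T, ∀ t' ∈ T, t - t' ∈ S.Γ → t = t') :
    Module.Finite (Scal A S) (THS A e) :=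
  Module.Finite.of_basis (monoBasis (A := A) S T hT hT')

end ResFinite

section Transport

open Module

variable {K : Type*} [Field K] {A : Type*} [DivisionRing A] [Algebra K A] {e : Bichar G K}
variable (S : SymSub e) {π : G →+ Γ} (hπ : Monotone π) (σ : Γ →+ G) (hσ : ∀ γ, π (σ γ) = γ)
  (hσS : ∀ g ∈ S.Γ, σ (π g) ∈ S.Γ) (hσ1 : ∀ γ δ, e (σ γ) (σ δ) = 1)
  (τ : A →ₗ[K] K)
variable {K' R : Type*} [Field K'] [DivisionRing R] [Algebra K' R]
  (φ : R ≃+* THS A e) (ψ : K' ≃+* Scal A S)
  (hψ : ∀ l : K', (ψ l).1 = φ (algebraMap K' R l))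
  (τ' : R →ₗ[K'] K')
  (hτ' : ∀ y : R, φ (algebraMap K' R (τ' y)) = traceSeries S τ (φ y))

include hψ in
lemma phi_smul (l : K') (x : R) : φ (l • x) = ψ l • φ x := by
  rw [Algebra.smul_def, map_mul, ← hψ, Scal.smul_def]

/-- The multiplicative lead data transported along `φ`. -/
noncomputable def grTrans : TestCore.GrData K' (Scal A (S0 S π)) R
    ↥(subS (R := A) (ε := e) π.ker) Γ where
  val x := vΓ π (φ x)
  val_zero := by rw [map_zero, vΓ_zero]
  eq_zero_of_val x h := by
    have := eq_zero_of_vΓ π h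
    exact (map_eq_zero_iff φ φ.injective).1 this
  val_neg x := by rw [map_neg, vΓ_neg hπ]
  val_add x y := by rw [map_add]; exact vΓ_add hπ _ _
  c γ := ((leadData S hπ σ hσ hσS hσ1).c γ).comp φ.toAddMonoidHom
  c_eq_zero_iff γ x h := (leadData S hπ σ hσ hσS hσ1).c_eq_zero_iff γ (φ x) h
  j := (ψ.symm : Scal A S →+* K').comp (K0toK' S π)
  lam l := (leadData S hπ σ hσ hσS hσ1).lam (ψ l)
  lc l := (leadData S hπ σ hσ hσS hσ1).lc (ψ l)
  lc_ne l hl := (leadData S hπ σ hσ hσS hσ1).lc_ne _ ((map_ne_zero _).2 hl)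
  lam_j k hk := by
    have h1 : ψ (((ψ.symm : Scal A S →+* K').comp (K0toK' S π)) k) = K0toK' S π k := by
      simp
    rw [h1]
    exact (leadData S hπ σ hσ hσS hσ1).lam_j k hk
  smul_spec l hl γ x hx := by
    have h := (leadData S hπ σ hσ hσS hσ1).smul_spec (ψ l) ((map_ne_zero _).2 hl) γ (φ x) hx
    have h2 : φ (l • x) = ψ l • φ x := phi_smul S φ ψ hψ l x
    constructor
    · show _ ≤ vΓ π (φ (l • x))
      rw [h2]
      exact h.1
    · show (leadData S hπ σ hσ hσS hσ1).c _ (φ (l • x)) = _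
      rw [h2]
      exact h.2
  val_one := by
    show vΓ π (φ 1) = 0
    rw [map_one]
    exact vΓ_one hπ
  val_mul x y := by
    show vΓ π (φ (x * y)) = _
    rw [map_mul]
    exact vΓ_mul hπ _ _
  θ := thetaR σ hσ
  c_mul g h x y hx hy := by
    show ((leadData S hπ σ hσ hσS hσ1).c _ (φ (x * y))) = _
    rw [map_mul]
    exact (grData S hπ σ hσ hσS hσ1 τ).c_mul g h (φ x) (φ y) hx hy
  τ' := τ'
  τR := traceR S τ
  trace_res y hy := by
    have h := (grData S hπ σ hσ hσS hσ1 τ).trace_res (φ y) hy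
    constructor
    · show 0 ≤ vΓ π (φ _)
      rw [hτ']
      exact h.1
    · show ((leadData S hπ σ hσ hσS hσ1).c 0 (φ _)) = _
      rw [hτ']
      exact h.2

variable {ι : Type*} [Fintype ι] (b₀ : Basis ι (Scal A S) (THS A e))

/-- A basis of `THS A e` over `Scal A S` gives a basis of `R` over `K'`. -/
noncomputable def basisTrans : Basis ι K' R :=
  Basis.mk (v := fun i => φ.symm (b₀ i))
    (by
      rw [Fintype.linearIndependent_iff]
      intro c hc i
      have h1 : ∑ i, ψ (c i) • b₀ i = 0 := by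
        have := congrArg φ hc
        rw [map_sum, map_zero] at this
        rw [← this]
        refine Finset.sum_congr rfl fun i _ => ?_
        rw [phi_smul S φ ψ hψ, RingEquiv.apply_symm_apply]
      have h2 := Fintype.linearIndependent_iff.1 b₀.linearIndependent _ h1 i
      exact (map_eq_zero_iff ψ ψ.injective).1 h2)
    (by
      intro x _
      have h1 : x = ∑ i, ψ.symm (b₀.repr (φ x) i) • φ.symm (b₀ i) := by
        apply φ.injective
        rw [map_sum]
        conv_lhs => rw [← b₀.sum_repr (φ x)]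
        refine Finset.sum_congr rfl fun i _ => ?_
        rw [phi_smul S φ ψ hψ, RingEquiv.apply_symm_apply, RingEquiv.apply_symm_apply]
      rw [h1]
      exact Submodule.sum_mem _ fun i _ =>
        Submodule.smul_mem _ _ (Submodule.subset_span ⟨i, rfl⟩))

theorem basisTrans_apply (i : ι) : basisTrans S φ ψ hψ b₀ i = φ.symm (b₀ i) := by
  simp [basisTrans]

theorem basisTrans_repr (x : R) (i : ι) :
    (basisTrans S φ ψ hψ b₀).repr x i = ψ.symm (b₀.repr (φ x) i) := by
  set b := basisTrans S φ ψ hψ b₀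
  have h1 : x = ∑ i, ψ.symm (b₀.repr (φ x) i) • b i := by
    apply φ.injective
    rw [map_sum]
    conv_lhs => rw [← b₀.sum_repr (φ x)]
    refine Finset.sum_congr rfl fun i _ => ?_
    rw [phi_smul S φ ψ hψ, basisTrans_apply, RingEquiv.apply_symm_apply, RingEquiv.apply_symm_apply]
  conv_lhs => rw [h1]
  rw [b.repr_sum_self]

end Transport

end Crest.Agent.Kurosh.THSLead
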