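import Crest.Agent.Kurosh.LevelUp
import Crest.Agent.Kurosh.THSLead
import Crest.Agent.Kurosh.LeadVec

/-!
# S0270: the `K`-level lead layer of a level-up `L : Lv K A K' R τ`

The value of `x : R` is its order in `GLv`, the coefficient at `g` is the raw coefficient
`L.c g x = (L.φ x).coeff g ∈ A`:

* `L.vK`, `le_vK_iff`, `vK_mul`, `L.c_mul` (product rule with the phase `ε`);
* `L.leadK : LeadData K' K R A GLv`;
* `L.eK : Fin m × Fin m → GLv` the representatives of `GLv / centLat`;
* `L.gaussK W` (`W ≤ R`), `L.gaussK_pi W` (`W ≤ ι → R`): `dim_{K'} W = ∑_e dim_K lead_e W`;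
* `L.grK : TestCore.GrData K' K R A GLv` (`θ = id`, `ω = ε`, `τ' = L.τ'`, `τR = τ`);
* `L.scal g hg : K'`, the central monomial `g ∈ centLat`.
-/

set_option autoImplicit false
set_option linter.unusedSectionVars false

namespace Crest.Agent.Kurosh.LU

open Hensel THS Module THSLead

section Coeff

variable {G k : Type*} [AddCommGroup G] [LinearOrder G] [IsOrderedAddMonoid G] [Field k]
variable {A : Type*} [DivisionRing A] [Algebra k A] {ε : Bichar G k}

/-- The coefficient of a product at the sum of two lower bounds of the supports. -/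
theorem coeff_mul_of_le {x y : THS A ε} {g h : G} (hx : ∀ a, x.coeff a ≠ 0 → g ≤ a)
    (hy : ∀ b, y.coeff b ≠ 0 → h ≤ b) : (x * y).coeff (g + h) = ε g h • (x.coeff g * y.coeff h) := by
  classical
  have hx' : (g : WithTop G) ≤ vΓ (AddMonoidHom.id G) x :=
    (le_vΓ_iff monotone_id).2 fun a ha => WithTop.coe_le_coe.2 (hx a ha)
  have hy' : (h : WithTop G) ≤ vΓ (AddMonoidHom.id G) y :=
    (le_vΓ_iff monotone_id).2 fun a ha => WithTop.coe_le_coe.2 (hy a ha)
  have h1 := layer_mul monotone_id hx' hy'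
  have hl : ∀ (z : THS A ε) (a : G), layer (AddMonoidHom.id G) a z = mono a (z.coeff a) := by
    intro z a
    ext b
    rw [coeff_mono]
    by_cases hb : b = a
    · subst hb
      rw [if_pos rfl]
      exact coeff_layer_of_eq _ z rfl
    · rw [if_neg hb]
      exact coeff_layer_of_ne _ z hb
  have h2 := congrArg (fun z : THS A ε => z.coeff (g + h)) h1
  simp only [hl, mono_mul_mono, coeff_mono, if_true] at h2
  exact h2

end Coeff

namespace Lv

variable {K A K' R : Type*} [Field K] [DivisionRing A] [Algebra K A] [Field K'] [DivisionRing R]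
  [Algebra K R] [Algebra K' R] [Algebra K K'] [IsScalarTower K K' R] {τ : A →ₗ[K] K}
  (L : Lv K A K' R τ)

/-- The twist of the level-up. -/
noncomputable abbrev ε : Bichar GLv K := twist κ L.ζ L.ζ_ne

/-- The value of `x`: its order (`⊤` for `0`). -/
noncomputable def vK (x : R) : WithTop GLv := vΓ (AddMonoidHom.id GLv) (L.φ x)

theorem vK_zero : L.vK 0 = ⊤ := by
  unfold vK
  rw [map_zero, vΓ_zero]

theorem eq_zero_of_vK {x : R} (h : L.vK x = ⊤) : x = 0 :=
  (map_eq_zero_iff L.φ L.φ.injective).1 (eq_zero_of_vΓ _ h)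

theorem vK_neg (x : R) : L.vK (-x) = L.vK x := by
  unfold vK
  rw [map_neg, vΓ_neg monotone_id]

theorem vK_add (x y : R) : min (L.vK x) (L.vK y) ≤ L.vK (x + y) := by
  unfold vK
  rw [map_add]
  exact vΓ_add monotone_id _ _

theorem vK_sub (x y : R) : min (L.vK x) (L.vK y) ≤ L.vK (x - y) := by
  unfold vK
  rw [map_sub]
  exact vΓ_sub monotone_id _ _

theorem vK_mul (x y : R) : L.vK (x * y) = L.vK x + L.vK y := by
  unfold vK
  rw [map_mul, vΓ_mul monotone_id]

theorem vK_one : L.vK 1 = 0 := by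
  unfold vK
  rw [map_one, vΓ_one monotone_id]

/-- `x` has value `≥ g` iff its coefficients vanish below `g`. -/
theorem le_vK_iff {g : GLv} {x : R} : (g : WithTop GLv) ≤ L.vK x ↔ ∀ h, h < g → L.c h x = 0 := by
  unfold vK
  rw [le_vΓ_iff monotone_id]
  constructor
  · intro h1 h hh
    by_contra hne
    have := h1 h hne
    exact absurd (WithTop.coe_le_coe.1 this) (not_le.2 hh)
  · intro h1 h hne
    refine WithTop.coe_le_coe.2 ?_
    by_contra hlt
    exact hne (h1 h (not_le.1 hlt))

theorem c_eq_zero_of_lt {g : GLv} {x : R} (h : (g : WithTop GLv) < L.vK x) : L.c g x = 0 :=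
  coeff_eq_zero_of_lt_vΓ monotone_id h

/-- Lower bound of the support. -/
theorem le_of_c_ne {g h : GLv} {x : R} (hg : (g : WithTop GLv) ≤ L.vK x) (hh : L.c h x ≠ 0) :
    g ≤ h := by
  by_contra hlt
  exact hh ((L.le_vK_iff.1 hg) h (not_le.1 hlt))

theorem c_add (g : GLv) (x y : R) : L.c g (x + y) = L.c g x + L.c g y := by
  unfold c
  rw [map_add]
  rfl

theorem c_sub (g : GLv) (x y : R) : L.c g (x - y) = L.c g x - L.c g y := by
  unfold c
  rw [map_sub]
  rfl

theorem c_neg (g : GLv) (x : R) : L.c g (-x) = - L.c g x := by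
  unfold c
  rw [map_neg]
  rfl

theorem c_zero (g : GLv) : L.c g (0 : R) = 0 := by
  unfold c
  rw [map_zero]
  rfl

/-- The coefficient at the value is nonzero. -/
theorem c_eq_zero_iff {g : GLv} {x : R} (h : (g : WithTop GLv) ≤ L.vK x) :
    L.c g x = 0 ↔ (g : WithTop GLv) < L.vK x := by
  refine ⟨fun h0 => ?_, L.c_eq_zero_of_lt⟩
  refine lt_of_le_of_ne h ?_
  intro heq
  have hx : L.φ x ≠ 0 := by
    intro hx0
    have : L.vK x = ⊤ := by
      unfold vK
      rw [hx0, vΓ_zero]
    rw [this] at heq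
    exact WithTop.coe_ne_top heq
  have h1 : L.vK x = (((L.φ x).ord : GLv) : WithTop GLv) := vΓ_of_ne _ hx
  rw [h1] at heq
  have h2 : g = (L.φ x).ord := WithTop.coe_injective heq
  rw [h2] at h0
  exact ord_mem hx h0

/-- **Product rule.** -/
theorem c_mul {g h : GLv} {x y : R} (hx : (g : WithTop GLv) ≤ L.vK x)
    (hy : (h : WithTop GLv) ≤ L.vK y) :
    L.c (g + h) (x * y) = L.ε g h • (L.c g x * L.c h y) := by
  unfold c
  rw [map_mul]
  exact coeff_mul_of_le (fun a ha => L.le_of_c_ne hx ha) (fun b hb => L.le_of_c_ne hy hb)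

theorem le_vK_mul {g h : GLv} {x y : R} (hx : (g : WithTop GLv) ≤ L.vK x)
    (hy : (h : WithTop GLv) ≤ L.vK y) : ((g + h : GLv) : WithTop GLv) ≤ L.vK (x * y) := by
  rw [vK_mul, WithTop.coe_add]
  exact add_le_add hx hy

/-- The twist is trivial on the central lattice. -/
theorem ε_central_left {a : GLv} (ha : a ∈ centLat L.m) (b : GLv) : L.ε a b = 1 := by
  show L.ζ ^ ((ofLex a).1 * κ (ofLex b).2) = 1
  exact (L.ζ_prim.zpow_eq_one_iff_dvd _).2 (Dvd.dvd.mul_right ha.1 _)

theorem ε_central_right {a : GLv} (ha : a ∈ centLat L.m) (b : GLv) : L.ε b a = 1 := by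
  show L.ζ ^ ((ofLex b).1 * κ (ofLex a).2) = 1
  exact (L.ζ_prim.zpow_eq_one_iff_dvd _).2 (Dvd.dvd.mul_left ha.2 _)

/-- Coefficients of a scalar. -/
theorem scal_coeff (l : K') (g : GLv) (hg : L.c g (algebraMap K' R l) ≠ 0) :
    g ∈ centLat L.m ∧ L.c g (algebraMap K' R l) ∈ (algebraMap K A).range :=
  (L.mem_K' _).1 ⟨l, rfl⟩ g hg

/-- The value of a scalar. -/
noncomputable def lamK (l : K') : GLv := (L.φ (algebraMap K' R l)).ord

theorem φ_scal_ne {l : K'} (hl : l ≠ 0) : L.φ (algebraMap K' R l) ≠ 0 :=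
  (map_ne_zero_iff L.φ L.φ.injective).2 ((map_ne_zero_iff _ (algebraMap K' R).injective).2 hl)

theorem vK_scal {l : K'} (hl : l ≠ 0) :
    L.vK (algebraMap K' R l) = ((L.lamK l : GLv) : WithTop GLv) :=
  vΓ_of_ne _ (L.φ_scal_ne hl)

theorem lamK_mem {l : K'} (hl : l ≠ 0) : L.lamK l ∈ centLat L.m :=
  (L.scal_coeff l _ (ord_mem (L.φ_scal_ne hl))).1

theorem exists_lcK (l : K') : ∃ c : K, algebraMap K A c = L.c (L.lamK l) (algebraMap K' R l) := by
  by_cases h : L.c (L.lamK l) (algebraMap K' R l) = 0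
  · exact ⟨0, by rw [h, map_zero]⟩
  · exact (L.scal_coeff l _ h).2

/-- The leading coefficient of a scalar. -/
noncomputable def lcK (l : K') : K := (L.exists_lcK l).choose

theorem lcK_spec (l : K') : algebraMap K A (L.lcK l) = L.c (L.lamK l) (algebraMap K' R l) :=
  (L.exists_lcK l).choose_spec

theorem lcK_ne {l : K'} (hl : l ≠ 0) : L.lcK l ≠ 0 := by
  intro h0
  have h1 := L.lcK_spec l
  rw [h0, map_zero] at h1
  exact ord_mem (L.φ_scal_ne hl) h1.symm

theorem φ_algK (k : K) : L.φ (algebraMap K' R (algebraMap K K' k)) = mono 0 (algebraMap K A k) := by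
  rw [← IsScalarTower.algebraMap_apply, L.φ_alg]

theorem c_algK_zero (k : K) : L.c 0 (algebraMap K' R (algebraMap K K' k)) = algebraMap K A k := by
  unfold c
  rw [L.φ_algK]
  classical
  rw [coeff_mono, if_pos rfl]

theorem lamK_algK {k : K} (hk : k ≠ 0) : L.lamK (algebraMap K K' k) = 0 := by
  classical
  unfold lamK
  rw [L.φ_algK]
  have h0 : algebraMap K A k ≠ 0 := (map_ne_zero_iff _ (algebraMap K A).injective).2 hk
  have h1 : (mono 0 (algebraMap K A k) : THS A L.ε) ≠ 0 := by
    intro h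
    have h2 := congrArg (fun y => THS.coeff y 0) h
    simp only [coeff_mono, if_true, coeff_zero] at h2
    exact h0 h2
  have h2 := ord_mem h1
  have h3 := supp_mono_subset (ε := L.ε) 0 _ h2
  exact h3

/-- The scalar multiplication on leads. -/
theorem c_smul {l : K'} (hl : l ≠ 0) {e : GLv} {x : R} (hx : (e : WithTop GLv) ≤ L.vK x) :
    L.c (e + L.lamK l) (l • x) = L.lcK l • L.c e x := by
  rw [Algebra.smul_def, add_comm, L.c_mul (le_of_eq (L.vK_scal hl).symm) hx,
    L.ε_central_left (L.lamK_mem hl), one_smul, ← L.lcK_spec, Algebra.smul_def]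

/-- The lead data at the level of `K`. -/
noncomputable def leadK : Lead.LeadData K' K R A GLv where
  val := L.vK
  val_zero := L.vK_zero
  eq_zero_of_val _ h := L.eq_zero_of_vK h
  val_neg := L.vK_neg
  val_add := L.vK_add
  c g :=
    { toFun := L.c g
      map_zero' := L.c_zero g
      map_add' := L.c_add g }
  c_eq_zero_iff _ _ h := L.c_eq_zero_iff h
  j := algebraMap K K'
  lam := L.lamK
  lc := L.lcK
  lc_ne _ hl := L.lcK_ne hl
  lam_j k hk := by
    have h1 := L.lamK_algK hk
    refine ⟨h1, ?_⟩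
    apply (algebraMap K A).injective
    rw [L.lcK_spec, h1, L.c_algK_zero]
  smul_spec l hl e x hx := by
    refine ⟨?_, L.c_smul hl hx⟩
    rw [Algebra.smul_def, vK_mul, L.vK_scal hl, add_comm, WithTop.coe_add]
    exact add_le_add le_rfl hx

@[simp] theorem leadK_val (x : R) : L.leadK.val x = L.vK x := rfl
@[simp] theorem leadK_c (g : GLv) (x : R) : L.leadK.c g x = L.c g x := rfl
@[simp] theorem leadK_lam (l : K') : L.leadK.lam l = L.lamK l := rfl

/-- Membership in the leading space. -/
theorem mem_leadK {g : GLv} {W : Submodule K' R} {a : A} :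
    a ∈ L.leadK.lead g W ↔ ∃ x ∈ W, (g : WithTop GLv) ≤ L.vK x ∧ L.c g x = a := Iff.rfl

/-- Membership in the leading space of vectors. -/
theorem mem_leadK_pi {ι : Type*} [Fintype ι] {g : GLv} {W : Submodule K' (ι → R)} {a : ι → A} :
    a ∈ (L.leadK.pi ι).lead g W ↔
      ∃ t ∈ W, (∀ i, (g : WithTop GLv) ≤ L.vK (t i)) ∧ ∀ i, L.c g (t i) = a i := by
  constructor
  · rintro ⟨t, ht, h1, rfl⟩
    exact ⟨t, ht, Lead.LeadData.le_pi_val_iff.1 h1, fun i => rfl⟩
  · rintro ⟨t, ht, h1, h2⟩
    exact ⟨t, ht, Lead.LeadData.le_pi_val_iff.2 h1, funext h2⟩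

/-! ### Central monomials as scalars -/

theorem mono_mem_K {g : GLv} (hg : g ∈ centLat L.m) (c : K) :
    L.φ.symm (mono g (algebraMap K A c)) ∈ (algebraMap K' R).range := by
  classical
  rw [L.mem_K']
  intro h hh
  rw [RingEquiv.apply_symm_apply] at hh ⊢
  rw [coeff_mono] at hh ⊢
  by_cases he : h = g
  · subst he
    exact ⟨hg, by rw [if_pos rfl]; exact ⟨c, rfl⟩⟩
  · rw [if_neg he] at hh
    exact absurd rfl hh

/-- The central monomial `g` as a scalar. -/
noncomputable def scal (g : GLv) (hg : g ∈ centLat L.m) : K' :=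
  (L.mono_mem_K hg 1).choose

theorem φ_scal (g : GLv) (hg : g ∈ centLat L.m) :
    L.φ (algebraMap K' R (L.scal g hg)) = mono g 1 := by
  have h := (L.mono_mem_K hg 1).choose_spec
  unfold scal
  rw [h, RingEquiv.apply_symm_apply, map_one]

theorem scal_ne (g : GLv) (hg : g ∈ centLat L.m) : L.scal g hg ≠ 0 := by
  classical
  intro h0
  have h1 := L.φ_scal g hg
  rw [h0, map_zero, map_zero] at h1
  have h2 := congrArg (fun y => THS.coeff y g) h1
  simp only [coeff_mono, if_true, coeff_zero] at h2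
  exact zero_ne_one h2

theorem lamK_scal (g : GLv) (hg : g ∈ centLat L.m) : L.lamK (L.scal g hg) = g := by
  classical
  unfold lamK
  rw [L.φ_scal]
  have h0 : (mono g 1 : THS A L.ε) ≠ 0 := by
    intro h
    have h2 := congrArg (fun y => THS.coeff y g) h
    simp only [coeff_mono, if_true, coeff_zero] at h2
    exact one_ne_zero h2
  exact supp_mono_subset (ε := L.ε) g 1 (ord_mem h0)

/-- Multiplication by a central monomial shifts the coefficients, with no phase. -/
theorem c_scal_mul (g : GLv) (hg : g ∈ centLat L.m) (h : GLv) (x : R) :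
    L.c (g + h) (algebraMap K' R (L.scal g hg) * x) = L.c h x := by
  unfold c
  rw [map_mul, L.φ_scal, coeff_mono_mul, one_mul, L.ε_central_left hg, one_smul]

/-- Multiplication by a central monomial shifts the coefficients, with no phase. -/
theorem c_scal_mul' (g : GLv) (hg : g ∈ centLat L.m) (h : GLv) (x : R) :
    L.c (h + g) (algebraMap K' R (L.scal g hg) * x) = L.c h x := by
  rw [add_comm, c_scal_mul]

theorem vK_scal_mul (g : GLv) (hg : g ∈ centLat L.m) (x : R) :
    L.vK (algebraMap K' R (L.scal g hg) * x) = (g : WithTop GLv) + L.vK x := by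
  rw [vK_mul, L.vK_scal (L.scal_ne g hg), L.lamK_scal]

/-- Transport of a lead within a class: `x` with lead `a` at `h` gives `λ x` with lead `a` at `g + h`. -/
theorem exists_shift (g : GLv) (hg : g ∈ centLat L.m) :
    ∃ l : K', l ≠ 0 ∧ ∀ x h, L.c (g + h) (algebraMap K' R l * x) = L.c h x ∧
      L.vK (algebraMap K' R l * x) = (g : WithTop GLv) + L.vK x :=
  ⟨L.scal g hg, L.scal_ne g hg, fun x h => ⟨L.c_scal_mul g hg h x, L.vK_scal_mul g hg x⟩⟩

/-! ### Classes -/

/-- The representatives of the classes. -/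
def eK (r : Fin L.m × Fin L.m) : GLv :=
  idx (toLex ((0 : Levels.CExp), ((r.1 : ℕ) : ℤ))) ((r.2 : ℕ) : ℤ)

theorem eK_fst (r : Fin L.m × Fin L.m) : (ofLex (L.eK r)).1 = ((r.2 : ℕ) : ℤ) := rfl
theorem eK_κ (r : Fin L.m × Fin L.m) : κ (ofLex (L.eK r)).2 = ((r.1 : ℕ) : ℤ) := rfl

theorem m_pos : 0 < L.m := L.m_prime.pos

/-- The class of a monomial. -/
noncomputable def classK (g : GLv) : Fin L.m × Fin L.m :=
  (⟨(κ (ofLex g).2 % (L.m : ℤ)).toNat, by
      have hp : (0 : ℤ) < L.m := by exact_mod_cast L.m_pos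
      have h1 := Int.emod_nonneg (κ (ofLex g).2) hp.ne'
      have h2 := Int.emod_lt_of_pos (κ (ofLex g).2) hp
      omega⟩,
   ⟨((ofLex g).1 % (L.m : ℤ)).toNat, by
      have hp : (0 : ℤ) < L.m := by exact_mod_cast L.m_pos
      have h1 := Int.emod_nonneg (ofLex g).1 hp.ne'
      have h2 := Int.emod_lt_of_pos (ofLex g).1 hp
      omega⟩)

theorem sub_eK_classK_mem (g : GLv) : g - L.eK (L.classK g) ∈ centLat L.m := by
  have hp : (0 : ℤ) < L.m := by exact_mod_cast L.m_pos
  constructor
  · have e1 : (ofLex (g - L.eK (L.classK g))).1 = (ofLex g).1 - ((ofLex g).1 % (L.m : ℤ)) := by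
      show (ofLex g).1 - (ofLex (L.eK (L.classK g))).1 = _
      rw [L.eK_fst]
      show _ - (((((ofLex g).1 % (L.m : ℤ)).toNat : ℕ) : ℤ)) = _
      rw [Int.toNat_of_nonneg (Int.emod_nonneg _ hp.ne')]
    rw [e1]
    exact Int.dvd_self_sub_emod
  · have e1 : κ (ofLex (g - L.eK (L.classK g))).2
        = κ (ofLex g).2 - (κ (ofLex g).2 % (L.m : ℤ)) := by
      show κ ((ofLex g).2 - (ofLex (L.eK (L.classK g))).2) = _
      rw [map_sub, L.eK_κ]
      show _ - (((κ (ofLex g).2 % (L.m : ℤ)).toNat : ℕ) : ℤ) = _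
      rw [Int.toNat_of_nonneg (Int.emod_nonneg _ hp.ne')]
    rw [e1]
    exact Int.dvd_self_sub_emod

theorem eK_inj {r r' : Fin L.m × Fin L.m} (h : L.eK r - L.eK r' ∈ centLat L.m) : r = r' := by
  have h1 : (L.m : ℤ) ∣ ((r.2 : ℕ) : ℤ) - ((r'.2 : ℕ) : ℤ) := h.1
  have h2 : (L.m : ℤ) ∣ ((r.1 : ℕ) : ℤ) - ((r'.1 : ℕ) : ℤ) := by
    have := h.2
    have e : κ (ofLex (L.eK r - L.eK r')).2 = ((r.1 : ℕ) : ℤ) - ((r'.1 : ℕ) : ℤ) := by
      show κ ((ofLex (L.eK r)).2 - (ofLex (L.eK r')).2) = _
      rw [map_sub, L.eK_κ, L.eK_κ]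
    rwa [e] at this
  have hlt1 := r.1.isLt
  have hlt2 := r.2.isLt
  have hlt3 := r'.1.isLt
  have hlt4 := r'.2.isLt
  have e1 : ((r.1 : ℕ) : ℤ) = (r'.1 : ℕ) := by
    apply Int.eq_of_sub_eq_zero
    apply Int.eq_zero_of_abs_lt_dvd h2
    rw [abs_lt]
    constructor <;> omega
  have e2 : ((r.2 : ℕ) : ℤ) = (r'.2 : ℕ) := by
    apply Int.eq_of_sub_eq_zero
    apply Int.eq_zero_of_abs_lt_dvd h1
    rw [abs_lt]
    constructor <;> omega
  exact Prod.ext (Fin.ext (by exact_mod_cast e1)) (Fin.ext (by exact_mod_cast e2))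

theorem hclK (g : GLv) : ∃ r, ∃ l : K', l ≠ 0 ∧ g + L.leadK.lam l = L.eK r := by
  refine ⟨L.classK g, L.scal _ ((centLat L.m).neg_mem (L.sub_eK_classK_mem g)),
    L.scal_ne _ _, ?_⟩
  rw [leadK_lam, lamK_scal]
  abel

theorem hdisjK (r r' : Fin L.m × Fin L.m) (l l' : K') (hl : l ≠ 0) (hl' : l' ≠ 0)
    (h : L.eK r + L.leadK.lam l = L.eK r' + L.leadK.lam l') : r = r' := by
  apply L.eK_inj
  have : L.eK r - L.eK r' = L.lamK l' - L.lamK l := by
    rw [leadK_lam, leadK_lam] at h
    rw [sub_eq_sub_iff_add_eq_add, add_comm (L.lamK l')]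
    exact h
  rw [this]
  exact (centLat L.m).sub_mem (L.lamK_mem hl') (L.lamK_mem hl)

/-! ### The monomial basis over `K'` -/

/-- The central lattice as a symmetric subgroup. -/
noncomputable def symS : SymSub L.ε :=
  ⟨centLat L.m, fun γ hγ g => by rw [L.ε_central_left hγ, L.ε_central_right hγ]⟩

theorem φ_scal_isIn (l : K') :
    IsIn L.symS.Γ (⊥ : Subalgebra K A) (L.φ (algebraMap K' R l)) := by
  constructor
  · intro g hg
    exact (L.scal_coeff l g hg).1
  · intro g
    by_cases hg : (L.φ (algebraMap K' R l)).coeff g = 0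
    · rw [hg]
      exact Subalgebra.zero_mem _
    · obtain ⟨c, hc⟩ := (L.scal_coeff l g hg).2
      exact Algebra.mem_bot.2 ⟨c, hc⟩

/-- `K'` is the field of central series. -/
noncomputable def toScalHom : K' →+* Scal A L.symS where
  toFun l := ⟨L.φ (algebraMap K' R l), L.φ_scal_isIn l⟩
  map_one' := Subtype.ext (by
    show L.φ (algebraMap K' R 1) = 1
    rw [map_one, map_one])
  map_mul' x y := Subtype.ext (by
    show L.φ (algebraMap K' R (x * y)) = L.φ (algebraMap K' R x) * L.φ (algebraMap K' R y)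
    rw [map_mul, map_mul])
  map_zero' := Subtype.ext (by
    show L.φ (algebraMap K' R 0) = 0
    rw [map_zero, map_zero])
  map_add' x y := Subtype.ext (by
    show L.φ (algebraMap K' R (x + y)) = L.φ (algebraMap K' R x) + L.φ (algebraMap K' R y)
    rw [map_add, map_add])

theorem toScal_bij : Function.Bijective L.toScalHom := by
  constructor
  · exact L.toScalHom.injective
  · intro c
    have h1 : L.φ.symm c.1 ∈ (algebraMap K' R).range := by
      rw [L.mem_K']
      intro g hg
      rw [RingEquiv.apply_symm_apply] at hg ⊢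
      refine ⟨c.2.1 g hg, ?_⟩
      obtain ⟨k, hk⟩ := Algebra.mem_bot.1 (c.2.2 g)
      exact ⟨k, hk⟩
    obtain ⟨l, hl⟩ := h1
    refine ⟨l, Subtype.ext ?_⟩
    show L.φ (algebraMap K' R l) = c.1
    rw [hl, RingEquiv.apply_symm_apply]

/-- `K'` is the field of central series. -/
noncomputable def toScal : K' ≃+* Scal A L.symS := RingEquiv.ofBijective L.toScalHom L.toScal_bij

theorem coe_toScal (l : K') : (L.toScal l).1 = L.φ (algebraMap K' R l) := rfl

theorem φ_smul (l : K') (x : R) : L.φ (l • x) = L.toScal l • L.φ x := by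
  rw [Algebra.smul_def, map_mul, Scal.smul_def]
  rfl

variable [FiniteDimensional K A]

/-- The finite set of representatives. -/
noncomputable def TK : Finset GLv := by
  classical
  exact Finset.univ.image L.eK

theorem TK_cover (g : GLv) : ∃ t ∈ L.TK, g - t ∈ L.symS.Γ := by
  classical
  exact ⟨L.eK (L.classK g), Finset.mem_image_of_mem _ (Finset.mem_univ _), L.sub_eK_classK_mem g⟩

theorem TK_dis : ∀ t ∈ L.TK, ∀ t' ∈ L.TK, t - t' ∈ L.symS.Γ → t = t' := by
  classical
  intro t ht t' ht' h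
  obtain ⟨r, -, rfl⟩ := Finset.mem_image.1 ht
  obtain ⟨r', -, rfl⟩ := Finset.mem_image.1 ht'
  rw [L.eK_inj h]

/-- The monomial basis of `THS A ε` over the central series. -/
noncomputable abbrev monoB := monoBasis (A := A) L.symS L.TK L.TK_cover L.TK_dis

/-- The coordinates over `K'`. -/
noncomputable def reprK : R ≃ₗ[K'] (↥L.TK × Fin (finrank K A) →₀ K') where
  toFun x := (L.monoB.repr (L.φ x)).mapRange L.toScal.symm (map_zero _)
  invFun f := L.φ.symm (L.monoB.repr.symm (f.mapRange L.toScal (map_zero _)))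
  map_add' x y := by
    ext p
    simp only [map_add, Finsupp.mapRange_apply, Finsupp.add_apply]
  map_smul' l x := by
    ext p
    simp only [L.φ_smul, map_smul, Finsupp.mapRange_apply, Finsupp.smul_apply, RingHom.id_apply,
      smul_eq_mul, map_mul, RingEquiv.symm_apply_apply]
  left_inv x := by
    have : Finsupp.mapRange L.toScal (map_zero _)
        (Finsupp.mapRange L.toScal.symm (map_zero _) (L.monoB.repr (L.φ x)))
        = L.monoB.repr (L.φ x) := by
      ext p
      simp only [Finsupp.mapRange_apply, RingEquiv.apply_symm_apply]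
    show L.φ.symm (L.monoB.repr.symm (Finsupp.mapRange L.toScal (map_zero _)
        (Finsupp.mapRange L.toScal.symm (map_zero _) (L.monoB.repr (L.φ x))))) = x
    rw [this, LinearEquiv.symm_apply_apply, RingEquiv.symm_apply_apply]
  right_inv f := by
    show Finsupp.mapRange L.toScal.symm (map_zero _) (L.monoB.repr (L.φ (L.φ.symm
      (L.monoB.repr.symm (f.mapRange L.toScal (map_zero _)))))) = f
    rw [RingEquiv.apply_symm_apply, LinearEquiv.apply_symm_apply]
    ext p
    simp only [Finsupp.mapRange_apply, RingEquiv.symm_apply_apply]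

/-- The monomial basis over `K'`. -/
noncomputable def basisK : Module.Basis (↥L.TK × Fin (finrank K A)) K' R :=
  Module.Basis.ofRepr L.reprK

theorem basisK_repr (x : R) (p : ↥L.TK × Fin (finrank K A)) :
    L.toScal (L.basisK.repr x p) = L.monoB.repr (L.φ x) p := by
  show L.toScal (L.toScal.symm (L.monoB.repr (L.φ x) p)) = _
  rw [RingEquiv.apply_symm_apply]

theorem φ_basisK (p : ↥L.TK × Fin (finrank K A)) : L.φ (L.basisK p) = L.monoB p := by
  classical
  have h1 : L.basisK p = L.reprK.symm (Finsupp.single p 1) := rfl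
  have h2 : L.φ (L.reprK.symm (Finsupp.single p 1))
      = L.monoB.repr.symm ((Finsupp.single p (1 : K')).mapRange L.toScal (map_zero _)) :=
    RingEquiv.apply_symm_apply _ _
  rw [h1, h2, Finsupp.mapRange_single, map_one]
  exact L.monoB.repr_symm_single_one p

include L in
theorem finiteK : FiniteDimensional K' R := Module.Finite.of_basis L.basisK

/-- The basis is contractive. -/
theorem hOK (y : R) (p : ↥L.TK × Fin (finrank K A)) :
    L.leadK.val y ≤ L.leadK.val (L.basisK.repr y p • L.basisK p) := by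
  show vΓ (AddMonoidHom.id GLv) (L.φ y) ≤ vΓ (AddMonoidHom.id GLv) (L.φ (L.basisK.repr y p • L.basisK p))
  rw [L.φ_smul, L.basisK_repr, L.φ_basisK]
  exact vΓ_le_coord L.symS monotone_id L.TK L.TK_cover L.TK_dis (L.φ y) p

/-- **Gauss at the level of `K`.** -/
theorem gaussK (W : Submodule K' R) :
    finrank K' W = ∑ r, finrank K (L.leadK.lead (L.eK r) W) :=
  Lead.LeadData.finrank_eq_sum_lead L.leadK L.basisK L.eK L.hOK L.hclK L.hdisjK W

/-- **Gauss for vectors at the level of `K`.** -/
theorem gaussK_pi {ι : Type*} [Fintype ι] [DecidableEq ι] (W : Submodule K' (ι → R)) :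
    finrank K' W = ∑ r, finrank K ((L.leadK.pi ι).lead (L.eK r) W) :=
  Lead.LeadData.finrank_eq_sum_lead_pi L.basisK L.eK L.hOK L.hclK L.hdisjK W

/-- The dimension of `R` over `K'`. -/
theorem finrank_R : finrank K' R = L.m ^ 2 * finrank K A := by
  classical
  rw [finrank_eq_card_basis L.basisK]
  have h1 : L.TK.card = L.m ^ 2 := by
    unfold TK
    rw [Finset.card_image_of_injective]
    · simp [sq]
    · intro r r' h
      apply L.eK_inj
      rw [h, sub_self]
      exact (centLat L.m).zero_mem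
  simp [h1]

omit [FiniteDimensional K A] in
/-- The trace does not decrease the value. -/
theorem vK_le_τ' (x : R) : L.vK x ≤ L.vK (algebraMap K' R (L.τ' x)) := by
  classical
  unfold vK
  rw [le_vΓ_iff monotone_id]
  intro g hg
  rw [L.τ'_coeff] at hg
  refine (le_vΓ_iff monotone_id).1 le_rfl g ?_
  intro h0
  apply hg
  rw [h0, map_zero, map_zero, ite_self]

omit [FiniteDimensional K A] in
/-- The coefficients of the trace. -/
theorem c_τ' (x : R) {g : GLv} (hg : g ∈ centLat L.m) :
    L.c g (algebraMap K' R (L.τ' x)) = algebraMap K A (τ (L.c g x)) := by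
  classical
  unfold c
  rw [L.τ'_coeff, if_pos hg]

omit [FiniteDimensional K A] in
/-- The multiplicative package at the level of `K`. -/
noncomputable def grK : TestCore.GrData K' K R A GLv where
  toLeadData := L.leadK
  val_one := L.vK_one
  val_mul := L.vK_mul
  θ := fun _ => RingHom.id A
  ω := fun g h => L.ε g h
  ω_ne := fun g h => L.ε.ne_zero g h
  c_mul := fun _ _ _ _ hx hy => L.c_mul hx hy
  τ' := L.τ'
  τR := τ
  trace_res := fun y hy =>
    ⟨le_trans hy (L.vK_le_τ' y), L.c_τ' y (centLat L.m).zero_mem⟩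

omit [FiniteDimensional K A] in
@[simp] theorem grK_toLeadData : L.grK.toLeadData = L.leadK := rfl

omit [FiniteDimensional K A] in
/-- Pairing at value `0`, at the level of `K`. -/
theorem pair_zeroK {g h : GLv} (hgh : g + h = 0) {x f : R} (hx : (g : WithTop GLv) ≤ L.vK x)
    (hf : (h : WithTop GLv) ≤ L.vK f) (hτ : L.τ' (x * f) = 0) : τ (L.c g x * L.c h f) = 0 :=
  L.grK.pair_zero hgh hx hf hτ

omit [FiniteDimensional K A] in
/-- Pairing at value `0`, at the level of `K`. -/
theorem pair_eqK {g h : GLv} (hgh : g + h = 0) {x y f : R} (hx : (g : WithTop GLv) ≤ L.vK x)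
    (hy : (g : WithTop GLv) ≤ L.vK y) (hf : (h : WithTop GLv) ≤ L.vK f)
    (hτ : L.τ' (x * f) = L.τ' (y * f)) : τ (L.c g x * L.c h f) = τ (L.c g y * L.c h f) :=
  L.grK.pair_eq hgh hx hy hf hτ

omit [FiniteDimensional K A] in
/-- Leading spaces depend only on the class modulo the central lattice. -/
theorem leadK_eq_of_sub_mem {g g' : GLv} (h : g - g' ∈ centLat L.m) (W : Submodule K' R) :
    L.leadK.lead g W = L.leadK.lead g' W := by
  have h1 := L.grK.lead_add_lam g' (L.scal_ne _ h) W
  have h2 : L.grK.lam (L.scal _ h) = g - g' := L.lamK_scal _ h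
  rw [h2, add_sub_cancel] at h1
  exact h1

omit [FiniteDimensional K A] in
/-- The same for vectors. -/
theorem leadK_pi_eq_of_sub_mem {ι : Type*} [Fintype ι] {g g' : GLv} (h : g - g' ∈ centLat L.m)
    (W : Submodule K' (ι → R)) :
    (L.leadK.pi ι).lead g W = (L.leadK.pi ι).lead g' W := by
  have key : ∀ (g : GLv) (l : K'), l ≠ 0 →
      (L.leadK.pi ι).lead g W ≤ (L.leadK.pi ι).lead (g + L.lamK l) W := by
    intro g l hl a ha
    have hlc : L.lcK l ≠ 0 := L.lcK_ne hl
    have h0 : (L.lcK l)⁻¹ • a ∈ (L.leadK.pi ι).lead g W := Submodule.smul_mem _ _ ha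
    obtain ⟨x, hx, hxg, hxa⟩ := h0
    obtain ⟨h1, h2⟩ := (L.leadK.pi ι).smul_spec l hl g x hxg
    refine ⟨l • x, W.smul_mem _ hx, h1, h2.trans ?_⟩
    rw [hxa]
    show L.lcK l • (L.lcK l)⁻¹ • a = a
    rw [smul_smul, mul_inv_cancel₀ hlc, one_smul]
  have e1 : g = g' + L.lamK (L.scal _ h) := by rw [L.lamK_scal]; abel
  have e2 : g' = g + L.lamK (L.scal _ ((centLat L.m).neg_mem h)) := by rw [L.lamK_scal]; abel
  apply le_antisymm
  · have := key g _ (L.scal_ne _ ((centLat L.m).neg_mem h))
    rwa [← e2] at this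
  · have := key g' _ (L.scal_ne _ h)
    rwa [← e1] at this

/-- The class of `g` as a representative. -/
theorem leadK_eq_class (g : GLv) (W : Submodule K' R) :
    L.leadK.lead g W = L.leadK.lead (L.eK (L.classK g)) W :=
  L.leadK_eq_of_sub_mem (L.sub_eK_classK_mem g) W

theorem classK_eK (r : Fin L.m × Fin L.m) : L.classK (L.eK r) = r := by
  apply L.eK_inj
  have := L.sub_eK_classK_mem (L.eK r)
  exact (by
    have h2 := (centLat L.m).neg_mem this
    rwa [neg_sub] at h2)

theorem classK_eq_iff {g g' : GLv} : L.classK g = L.classK g' ↔ g - g' ∈ centLat L.m := by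
  constructor
  · intro h
    have h1 := L.sub_eK_classK_mem g
    have h2 := L.sub_eK_classK_mem g'
    rw [← h] at h2
    have := (centLat L.m).sub_mem h1 h2
    rwa [sub_sub_sub_cancel_right] at this
  · intro h
    apply L.eK_inj
    have h1 := L.sub_eK_classK_mem g
    have h2 := L.sub_eK_classK_mem g'
    have e : L.eK (L.classK g) - L.eK (L.classK g') = (g - g') - (g - L.eK (L.classK g))
        + (g' - L.eK (L.classK g')) := by abel
    rw [e]
    exact (centLat L.m).add_mem ((centLat L.m).sub_mem h h1) h2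

/-- **Gauss** for any system of representatives. -/
theorem gaussK_of {ρ : Type*} [Fintype ρ] (f : ρ → GLv)
    (hf : Function.Bijective fun r => L.classK (f r)) (W : Submodule K' R) :
    finrank K' W = ∑ r, finrank K (L.leadK.lead (f r) W) := by
  classical
  rw [L.gaussK W]
  rw [← (Equiv.ofBijective _ hf).sum_comp]
  refine Finset.sum_congr rfl fun r _ => ?_
  rw [L.leadK_eq_class (f r) W]
  rfl

/-- **Gauss for vectors** for any system of representatives. -/
theorem gaussK_pi_of {ι : Type*} [Fintype ι] [DecidableEq ι] {ρ : Type*} [Fintype ρ] (f : ρ → GLv)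
    (hf : Function.Bijective fun r => L.classK (f r)) (W : Submodule K' (ι → R)) :
    finrank K' W = ∑ r, finrank K ((L.leadK.pi ι).lead (f r) W) := by
  classical
  rw [L.gaussK_pi W]
  rw [← (Equiv.ofBijective _ hf).sum_comp]
  refine Finset.sum_congr rfl fun r _ => ?_
  rw [L.leadK_pi_eq_of_sub_mem (L.sub_eK_classK_mem (f r)) W]
  rfl

/-- The classes of opposite monomials. -/
theorem neg_eK_bij : Function.Bijective fun r => L.classK (- L.eK r) := by
  classical
  apply Function.Injective.bijective_of_finite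
  intro r r' h
  have h1 := L.classK_eq_iff.1 h
  apply L.eK_inj
  have h2 := (centLat L.m).neg_mem h1
  rwa [neg_sub, sub_neg_eq_add, neg_add_eq_sub] at h2

theorem eK_bij : Function.Bijective fun r => L.classK (L.eK r) := by
  classical
  apply Function.Injective.bijective_of_finite
  intro r r' h
  have h' : L.classK (L.eK r) = L.classK (L.eK r') := h
  rwa [L.classK_eK, L.classK_eK] at h'

/-- **Gauss** for the opposite representatives. -/
theorem gaussK_neg (W : Submodule K' R) :
    finrank K' W = ∑ r, finrank K (L.leadK.lead (- L.eK r) W) :=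
  L.gaussK_of _ L.neg_eK_bij W

/-- **Valued duality at the level of `K`**: `lead_{-e}(C ∩ W^⊥) = (lead_e W)^⊥` in `lead_{-e} C`, when the
pairing is nondegenerate on `lead_e W` (dimension bound `hdim`). -/
theorem dualK {C W : Submodule K' R} (PR : Fin L.m × Fin L.m → Submodule K A)
    (hPR : ∀ r, ∀ P ∈ L.leadK.lead (- L.eK r) C,
      (∀ Q ∈ L.leadK.lead (L.eK r) W, τ (P * Q) = 0) → P ∈ PR r)
    (hdim : ∀ r, finrank K (PR r) + finrank K (L.leadK.lead (L.eK r) W)
      ≤ finrank K (L.leadK.lead (- L.eK r) C)) [FiniteDimensional K' R] (r : Fin L.m × Fin L.m) :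
    L.leadK.lead (- L.eK r) (L.grK.perp C W) = PR r :=
  TestCore.lead_perp_eq_residue_perp L.grK L.eK (e' := fun r => - L.eK r)
    (fun _ => neg_add_cancel _) (L.gaussK W) (L.gaussK_neg C) (L.gaussK_neg _) PR hPR hdim r

end Lv

end Crest.Agent.Kurosh.LU
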