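/-
S0270 (Kurosh), blueprint v3.1 §J(d),(e), helper24.

K-level leads at a level-up, abstractly (`KD`): value group `Γ`, residue ring `A`, residue field `K`,
coefficient `c g x`, phase `ε`, product rule `c (g+h) (xy) = ε g h • c g x * c h y`, classes
`cl : Γ → (ZMod m)²` modulo the values of `K'`.  Given `y' ∈ C(H)` with lead `y` at a non-central `g`:
* `F' = K'[H,y']` has `lead (k g) F' = F⁰ = K[β,y]`;
* `A_{y'}`, `𝔏_{y'}`, `𝒫(y')` have the leads of blueprint §J(d),(e).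
-/
import Crest.Agent.Kurosh.Inv
import Crest.Agent.Kurosh.Lead
import Crest.Agent.Kurosh.CentFacts
import Crest.Agent.Kurosh.CentFactsB
import Crest.Agent.Kurosh.TestCore
import Crest.Agent.Kurosh.DoubleCent
import Crest.Agent.Kurosh.StateII
import Crest.Agent.Kurosh.LeadK

set_option autoImplicit false
set_option linter.unusedSectionVars false
set_option linter.unusedSimpArgs false
set_option linter.deprecated false
set_option linter.unusedVariables false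

namespace Crest.Agent.Kurosh.ValD

open Module State
open _root_.Crest.Agent.Kurosh.Inv
open _root_.Crest.Agent.Kurosh.Inv.St

/-- The K-level lead structure of a level-up. -/
structure KD (K A K' R Γ : Type*) [Field K] [DivisionRing A] [Algebra K A] [Field K'] [DivisionRing R]
    [Algebra K' R] [AddCommGroup Γ] [LinearOrder Γ] [IsOrderedAddMonoid Γ]
    (τ : A →ₗ[K] K) (τ' : R →ₗ[K'] K') (m : ℕ)
    extends Lead.LeadData K' K R A Γ where
  val_one : val 1 = 0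
  val_mul : ∀ x y, val (x * y) = val x + val y
  c_one : c 0 1 = 1
  ε : Γ → Γ → K
  ε_ne : ∀ g h, ε g h ≠ 0
  ε_zero_left : ∀ g, ε 0 g = 1
  ε_zero_right : ∀ g, ε g 0 = 1
  c_mul : ∀ (g h : Γ) (x y : R), (g : WithTop Γ) ≤ val x → (h : WithTop Γ) ≤ val y →
    c (g + h) (x * y) = ε g h • (c g x * c h y)
  trace_res : ∀ y, 0 ≤ val y → c 0 (algebraMap K' R (τ' y)) = algebraMap K A (τ (c 0 y))
  cl : Γ →+ ZMod m × ZMod m
  cl_lam : ∀ l, l ≠ 0 → cl (lam l) = 0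
  exists_lam : ∀ g, cl g = 0 → ∃ l, l ≠ 0 ∧ lam l = g
  cl_surj : Function.Surjective cl
  ε_comm : ∀ g h, ε g h = ε h g → (cl g).1 * (cl h).2 = (cl h).1 * (cl g).2
  gauss_le : ∀ {ρ : Type} [Fintype ρ] (e : ρ → Γ), (∀ g, ∃ r, ∃ l, l ≠ 0 ∧ g + lam l = e r) →
    ∀ W : Submodule K' R, finrank K' W ≤ ∑ r, finrank K (toLeadData.lead (e r) W)

variable {K A K' R Γ : Type*} [Field K] [DivisionRing A] [Algebra K A] [Field K'] [DivisionRing R]
  [Algebra K' R] [AddCommGroup Γ] [LinearOrder Γ] [IsOrderedAddMonoid Γ]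
  {τ : A →ₗ[K] K} {τ' : R →ₗ[K'] K'} {m : ℕ}

namespace KD

variable (D : KD K A K' R Γ τ τ' m)

/-- The leading space. -/
abbrev ld (g : Γ) (W : Submodule K' R) : Submodule K A := D.toLeadData.lead g W

lemma mem_ld {g : Γ} {W : Submodule K' R} {a : A} :
    a ∈ D.ld g W ↔ ∃ x ∈ W, (g : WithTop Γ) ≤ D.val x ∧ D.c g x = a := Iff.rfl

lemma ld_mono (g : Γ) {W W' : Submodule K' R} (h : W ≤ W') : D.ld g W ≤ D.ld g W' :=
  D.toLeadData.lead_mono g h

lemma le_val_mul {g h : Γ} {x y : R} (hx : (g : WithTop Γ) ≤ D.val x)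
    (hy : (h : WithTop Γ) ≤ D.val y) : ((g + h : Γ) : WithTop Γ) ≤ D.val (x * y) := by
  rw [D.val_mul, WithTop.coe_add]
  exact add_le_add hx hy

/-- The product rule at a given sum. -/
lemma c_mul' {g h k : Γ} (hk : g + h = k) {x y : R} (hx : (g : WithTop Γ) ≤ D.val x)
    (hy : (h : WithTop Γ) ≤ D.val y) : D.c k (x * y) = D.ε g h • (D.c g x * D.c h y) := by
  subst hk
  exact D.c_mul g h x y hx hy

/-- Leads multiply in a subalgebra. -/
lemma mul_mem_ld (S : Subalgebra K' R) {g h : Γ} {a b : A}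
    (ha : a ∈ D.ld g (Subalgebra.toSubmodule S)) (hb : b ∈ D.ld h (Subalgebra.toSubmodule S)) :
    a * b ∈ D.ld (g + h) (Subalgebra.toSubmodule S) := by
  obtain ⟨x, hx, hxg, rfl⟩ := ha
  obtain ⟨y, hy, hyh, rfl⟩ := hb
  have h1 : D.ε g h • (D.c g x * D.c h y) ∈ D.ld (g + h) (Subalgebra.toSubmodule S) :=
    ⟨x * y, S.mul_mem hx hy, D.le_val_mul hxg hyh, D.c_mul g h x y hxg hyh⟩
  have h2 := Submodule.smul_mem _ (D.ε g h)⁻¹ h1
  rwa [smul_smul, inv_mul_cancel₀ (D.ε_ne g h), one_smul] at h2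

lemma one_mem_ld (S : Subalgebra K' R) : (1 : A) ∈ D.ld 0 (Subalgebra.toSubmodule S) :=
  ⟨1, S.one_mem, by rw [D.val_one]; exact le_of_eq rfl, D.c_one⟩

/-- The lead at `0` of a subalgebra, as a subalgebra. -/
def ld0 (S : Subalgebra K' R) : Subalgebra K A where
  carrier := D.ld 0 (Subalgebra.toSubmodule S)
  mul_mem' := by
    intro a b ha hb
    have := D.mul_mem_ld S ha hb
    rwa [add_zero] at this
  add_mem' := fun ha hb => Submodule.add_mem _ ha hb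
  algebraMap_mem' := fun k => by
    have h := Submodule.smul_mem _ k (D.one_mem_ld S)
    rwa [Algebra.smul_def, mul_one] at h

lemma mem_ld0 {S : Subalgebra K' R} {a : A} :
    a ∈ D.ld0 S ↔ a ∈ D.ld 0 (Subalgebra.toSubmodule S) := Iff.rfl

/-- The leading space depends only on the class. -/
lemma ld_le_of_cl {g g' : Γ} (h : D.cl g = D.cl g') (W : Submodule K' R) :
    D.ld g W ≤ D.ld g' W := by
  have h0 : D.cl (g' - g) = 0 := by rw [map_sub, h, sub_self]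
  obtain ⟨l, hl, hlg⟩ := D.exists_lam _ h0
  intro a ha
  have hlc : D.lc l ≠ 0 := D.lc_ne l hl
  have h1 : (D.lc l)⁻¹ • a ∈ D.ld g W := Submodule.smul_mem _ _ ha
  obtain ⟨x, hx, hxg, hxa⟩ := h1
  obtain ⟨h2, h3⟩ := D.smul_spec l hl g x hxg
  have h4 : g + D.lam l = g' := by rw [hlg]; abel
  rw [h4] at h2 h3
  refine ⟨l • x, W.smul_mem _ hx, h2, ?_⟩
  rw [h3, hxa, smul_smul, mul_inv_cancel₀ hlc, one_smul]

lemma ld_eq_of_cl {g g' : Γ} (h : D.cl g = D.cl g') (W : Submodule K' R) :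
    D.ld g W = D.ld g' W :=
  le_antisymm (D.ld_le_of_cl h W) (D.ld_le_of_cl h.symm W)

lemma val_ne_top_of_ne {x : R} (hx : x ≠ 0) : D.val x ≠ ⊤ := fun h => hx (D.eq_zero_of_val x h)

lemma exists_val_eq {x : R} (hx : x ≠ 0) : ∃ g : Γ, D.val x = (g : WithTop Γ) := by
  obtain ⟨g, hg⟩ := WithTop.ne_top_iff_exists.1 (D.val_ne_top_of_ne hx)
  exact ⟨g, hg.symm⟩

/-- The value of an inverse. -/
lemma val_inv {x : R} {g : Γ} (hx : D.val x = (g : WithTop Γ)) :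
    D.val x⁻¹ = ((-g : Γ) : WithTop Γ) := by
  have hx0 : x ≠ 0 := by
    rintro rfl
    rw [D.val_zero] at hx
    exact WithTop.top_ne_coe hx
  obtain ⟨h, hh⟩ := D.exists_val_eq (inv_ne_zero hx0)
  have h1 : D.val (x * x⁻¹) = 0 := by rw [mul_inv_cancel₀ hx0, D.val_one]
  rw [D.val_mul, hx, hh, ← WithTop.coe_add] at h1
  have h2 : g + h = 0 := by exact_mod_cast h1
  rw [hh, eq_neg_of_add_eq_zero_right h2]

/-- The lead of an inverse. -/
lemma c_inv {x : R} {g : Γ} (hx : D.val x = (g : WithTop Γ)) :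
    D.ε g (-g) • (D.c g x * D.c (-g) x⁻¹) = 1 := by
  have hx0 : x ≠ 0 := by
    rintro rfl
    rw [D.val_zero] at hx
    exact WithTop.top_ne_coe hx
  have h1 := D.c_mul' (add_neg_cancel g) (le_of_eq hx.symm) (le_of_eq (D.val_inv hx).symm)
  rw [mul_inv_cancel₀ hx0, D.c_one] at h1
  exact h1.symm

lemma c_ne_zero {x : R} {g : Γ} (hx : D.val x = (g : WithTop Γ)) : D.c g x ≠ 0 := by
  intro h0
  have := (D.c_eq_zero_iff g x (le_of_eq hx.symm)).1 h0
  rw [hx] at this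
  exact lt_irrefl _ this

lemma c_inv' {x : R} {g : Γ} (hx : D.val x = (g : WithTop Γ)) :
    D.c (-g) x⁻¹ = (D.ε g (-g))⁻¹ • (D.c g x)⁻¹ := by
  have h1 := D.c_inv hx
  have h2 : D.c g x ≠ 0 := D.c_ne_zero hx
  have h3 : D.c g x * D.c (-g) x⁻¹ = (D.ε g (-g))⁻¹ • 1 := by
    rw [← h1, smul_smul, inv_mul_cancel₀ (D.ε_ne _ _), one_smul]
  calc D.c (-g) x⁻¹ = (D.c g x)⁻¹ * (D.c g x * D.c (-g) x⁻¹) := by
        rw [inv_mul_cancel_left₀ h2]
    _ = (D.ε g (-g))⁻¹ • (D.c g x)⁻¹ := by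
        rw [h3, mul_smul_comm, mul_one]

/-- Powers. -/
lemma c_pow {x : R} {g : Γ} (hx : (g : WithTop Γ) ≤ D.val x) (k : ℕ) :
    ((k • g : Γ) : WithTop Γ) ≤ D.val (x ^ k) ∧
      ∃ p : K, p ≠ 0 ∧ D.c (k • g) (x ^ k) = p • (D.c g x) ^ k := by
  induction k with
  | zero =>
    refine ⟨?_, 1, one_ne_zero, ?_⟩
    · rw [zero_smul, pow_zero, D.val_one]; exact le_of_eq rfl
    · rw [zero_smul, pow_zero, pow_zero, D.c_one, one_smul]
  | succ k ih =>
    obtain ⟨h1, p, hp, h2⟩ := ih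
    have h3 : (k + 1) • g = k • g + g := succ_nsmul g k
    refine ⟨?_, D.ε (k • g) g * p, mul_ne_zero (D.ε_ne _ _) hp, ?_⟩
    · rw [h3, pow_succ]
      exact D.le_val_mul h1 hx
    · rw [h3, pow_succ, D.c_mul _ _ _ _ h1 hx, h2, pow_succ, smul_mul_assoc, smul_smul]


/-! ### Classes on a line -/

section Line

variable [hm : Fact m.Prime]

lemma nsmul_m_zero (x : ZMod m × ZMod m) : m • x = 0 := by
  ext <;> simp

lemma cl_nsmul_m (g : Γ) : D.cl (m • g) = 0 := by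
  rw [map_nsmul, nsmul_m_zero]

/-- Distinct multiples below `m` of a nonzero vector are distinct. -/
lemma nsmul_inj_of_ne_zero {x : ZMod m × ZMod m} (hx : x ≠ 0) {r r' : ℕ} (hr : r < m) (hr' : r' < m)
    (h : r • x = r' • x) : r = r' := by
  by_contra hne
  wlog hlt : r < r' generalizing r r'
  · exact this hr' hr h.symm (Ne.symm hne) (lt_of_le_of_ne (not_lt.1 hlt) (Ne.symm hne))
  have hk : (r' - r) • x = 0 := by
    rw [sub_nsmul _ hlt.le, ← h]
    simp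
  have hk0 : ((r' - r : ℕ) : ZMod m) ≠ 0 := by
    intro h0
    have := (ZMod.natCast_eq_zero_iff (r' - r) m).1 h0
    have := Nat.le_of_dvd (by omega) this
    omega
  apply hx
  ext
  · have := congrArg Prod.fst hk
    simp only [Prod.smul_fst, Prod.fst_zero, nsmul_eq_mul] at this
    simpa [hk0] using this
  · have := congrArg Prod.snd hk
    simp only [Prod.smul_snd, Prod.snd_zero, nsmul_eq_mul] at this
    simpa [hk0] using this

variable {D}

/-- `g₁` lies on the line of `g`. -/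
def OnLine (D : KD K A K' R Γ τ τ' m) (g g₁ : Γ) : Prop := ∃ k : ℕ, D.cl g₁ = k • D.cl g

lemma OnLine.self (g : Γ) : OnLine D g g := ⟨1, by simp⟩

lemma OnLine.zero (g : Γ) : OnLine D g 0 := ⟨0, by simp⟩

lemma OnLine.nsmul (g : Γ) (k : ℕ) : OnLine D g (k • g) := ⟨k, by simp⟩

lemma OnLine.add {g a b : Γ} (ha : OnLine D g a) (hb : OnLine D g b) : OnLine D g (a + b) := by
  obtain ⟨k, hk⟩ := ha
  obtain ⟨k', hk'⟩ := hb
  exact ⟨k + k', by rw [map_add, hk, hk', add_nsmul]⟩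

lemma OnLine.neg {g a : Γ} (ha : OnLine D g a) : OnLine D g (-a) := by
  obtain ⟨k, hk⟩ := ha
  refine ⟨(m - 1) * k, ?_⟩
  have hm1 : 1 ≤ m := hm.out.one_lt.le
  have h1 : (m - 1) • D.cl g + D.cl g = 0 := by
    rw [← succ_nsmul, Nat.sub_add_cancel hm1, nsmul_m_zero]
  rw [map_neg, hk, mul_comm, mul_nsmul]
  rw [neg_eq_iff_add_eq_zero, nsmul_left_comm, ← nsmul_add, add_comm, h1, nsmul_zero]

lemma OnLine.sub {g a b : Γ} (ha : OnLine D g a) (hb : OnLine D g b) : OnLine D g (a - b) := by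
  rw [sub_eq_add_neg]
  exact ha.add hb.neg

/-- A point of the line is congruent to a multiple below `m`. -/
lemma OnLine.exists_lt {g a : Γ} (ha : OnLine D g a) :
    ∃ r : Fin m, D.cl a = (r : ℕ) • D.cl g := by
  obtain ⟨k, hk⟩ := ha
  have hpos : 0 < m := hm.out.pos
  refine ⟨⟨k % m, Nat.mod_lt _ hpos⟩, ?_⟩
  rw [hk]
  show k • D.cl g = (k % m) • D.cl g
  conv_lhs => rw [← Nat.mod_add_div k m]
  rw [add_nsmul, mul_nsmul, nsmul_m_zero]
  simp

/-- Multiples of a non-central value have disjoint classes. -/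
lemma hdisj_line {g : Γ} (hg : D.cl g ≠ 0) (r r' : Fin m) (l l' : K') (hl : l ≠ 0) (hl' : l' ≠ 0)
    (h : (r : ℕ) • g + D.lam l = (r' : ℕ) • g + D.lam l') : r = r' := by
  have h1 := congrArg D.cl h
  rw [map_add, map_add, D.cl_lam l hl, D.cl_lam l' hl', add_zero, add_zero, map_nsmul, map_nsmul] at h1
  exact Fin.ext (nsmul_inj_of_ne_zero hg r.2 r'.2 h1)

end Line

/-! ### The main setting -/

section Main

variable [Fact m.Prime] [FiniteDimensional K A] [FiniteDimensional K' R]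

variable {D}

/-- Leading spaces along a line: the count. -/
lemma sum_ld_line_le {g : Γ} (hg : D.cl g ≠ 0) (W : Submodule K' R) :
    ∑ r : Fin m, finrank K (D.ld ((r : ℕ) • g) W) ≤ finrank K' W :=
  Lead.LeadData.sum_lead_le_finrank D.toLeadData (fun r : Fin m => (r : ℕ) • g)
    (fun r r' l l' hl hl' h => hdisj_line hg r r' l l' hl hl' h) W

/-- If the leading spaces along the line contain `T` and `dim W ≤ m dim T`, they are equal to `T`. -/
lemma ld_line_eq {g : Γ} (hg : D.cl g ≠ 0) {W : Submodule K' R} {T : Submodule K A}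
    (hT : ∀ r : Fin m, T ≤ D.ld ((r : ℕ) • g) W) (hdim : finrank K' W ≤ m * finrank K T)
    (r : Fin m) : D.ld ((r : ℕ) • g) W = T := by
  symm
  refine TestCore.eq_of_le_of_sum_le (T := fun _ : Fin m => T)
    (L := fun r : Fin m => D.ld ((r : ℕ) • g) W) hT ?_ r
  refine (sum_ld_line_le hg W).trans (hdim.trans ?_)
  simp

/-- Leads of an on-line value. -/
lemma ld_online_eq {g g₁ : Γ} (hg : D.cl g ≠ 0) {W : Submodule K' R} {T : Submodule K A}
    (hT : ∀ r : Fin m, T ≤ D.ld ((r : ℕ) • g) W) (hdim : finrank K' W ≤ m * finrank K T)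
    (h₁ : OnLine D g g₁) : D.ld g₁ W = T := by
  obtain ⟨r, hr⟩ := h₁.exists_lt
  rw [D.ld_eq_of_cl (g' := (r : ℕ) • g) (by rw [hr, map_nsmul]) W]
  exact ld_line_eq hg hT hdim r

end Main

end KD

/-! ### Commuting generators -/

lemma comm_adjoin_pair {K A : Type*} [Field K] [Ring A] [Algebra K A] {a b : A} (h : a * b = b * a) :
    ∀ x ∈ Algebra.adjoin K ({a, b} : Set A), ∀ z ∈ Algebra.adjoin K ({a, b} : Set A), x * z = z * x := by
  have hgen : ∀ u ∈ ({a, b} : Set A), ∀ v ∈ ({a, b} : Set A), u * v = v * u := by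
    rintro u (rfl | rfl) v (rfl | rfl)
    · rfl
    · exact h
    · exact h.symm
    · rfl
  letI := Algebra.adjoinCommRingOfComm K hgen
  intro x hx z hz
  exact congrArg Subtype.val (mul_comm (⟨x, hx⟩ : Algebra.adjoin K ({a, b} : Set A)) ⟨z, hz⟩)

/-- An element commuting with two generators commutes with the algebra they generate. -/
lemma comm_of_adjoin_pair {K A : Type*} [Field K] [Ring A] [Algebra K A] {a b p : A} (h1 : p * a = a * p)
    (h2 : p * b = b * p) : ∀ x ∈ Algebra.adjoin K ({a, b} : Set A), p * x = x * p := by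
  intro x hx
  induction hx using Algebra.adjoin_induction with
  | mem x hx =>
    rcases hx with rfl | rfl
    · exact h1
    · exact h2
  | algebraMap r => exact (Algebra.commutes r p).symm
  | add x y _ _ hx hy => rw [mul_add, add_mul, hx, hy]
  | mul x y _ _ hx hy => rw [← mul_assoc, hx, mul_assoc, hy, mul_assoc]

section Sit

variable {F : Type*} [Field F] [Algebra F K] [Algebra F A] [IsScalarTower F K A] [Algebra F K']
  [Algebra F R] [IsScalarTower F K' R]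

/-- The situation of §J(d): `y' ∈ C(H)` with lead `y` at a non-central value `g`. -/
structure Sit (P : Pt F K A (Fin 2)) (Q : Pt F K' R (Fin 2)) (D : KD K A K' R Γ P.τ Q.τ m) (l : ℕ)
    (y : A) (y' : R) (g : Γ) (N : ℕ) : Prop where
  m3 : 3 ≤ m
  mN : ¬ m ∣ N
  zeta : ∃ ζ : K, IsPrimitiveRoot ζ m
  hN : finrank K A = N ^ 2
  hN' : finrank K' R = (N * m) ^ 2
  hC : ∀ a : A, (∀ x, a * x = x * a) → ∃ c : K, a = algebraMap K A c
  hC' : ∀ a : R, (∀ x, a * x = x * a) → ∃ c : K', a = algebraMap K' R c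
  h1 : P.τ 1 = 1
  h1' : Q.τ 1 = 1
  H0 : ((0 : Γ) : WithTop Γ) ≤ D.val (Q.β l)
  Hc : D.c 0 (Q.β l) = P.β l
  βy : P.β l * y = y * P.β l
  Hy' : Q.β l * y' = y' * Q.β l
  hval : D.val y' = (g : WithTop Γ)
  hc : D.c g y' = y
  hg : D.cl g ≠ 0

namespace Sit

variable [hmp : Fact m.Prime] [FiniteDimensional K A] [FiniteDimensional K' R]
variable {P : Pt F K A (Fin 2)} {Q : Pt F K' R (Fin 2)} {D : KD K A K' R Γ P.τ Q.τ m} {l : ℕ}
  {y : A} {y' : R} {g : Γ} {N : ℕ} (S : Sit P Q D l y y' g N)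

include S

lemma y_ne : y ≠ 0 := by
  rw [← S.hc]
  exact D.c_ne_zero S.hval

lemma y'_ne : y' ≠ 0 := by
  rintro rfl
  have := S.hval
  rw [D.val_zero] at this
  exact WithTop.top_ne_coe this

lemma le_val : (g : WithTop Γ) ≤ D.val y' := le_of_eq S.hval.symm

lemma H_mem : Q.β l ∈ Fy Q l y' := Algebra.subset_adjoin (Set.mem_insert _ _)

lemma y'_mem : y' ∈ Fy Q l y' := Algebra.subset_adjoin (Set.mem_insert_of_mem _ rfl)

lemma y_mem : y ∈ Fy P l y := Algebra.subset_adjoin (Set.mem_insert_of_mem _ rfl)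

lemma β_mem : P.β l ∈ Fy P l y := Algebra.subset_adjoin (Set.mem_insert _ _)

/-- `y^k` is a lead of `y'^k`. -/
lemma pow_mem_ld (k : ℕ) : y ^ k ∈ D.ld (k • g) (Subalgebra.toSubmodule (Fy Q l y')) := by
  obtain ⟨h1, p, hp, h2⟩ := D.c_pow S.le_val k
  rw [S.hc] at h2
  have h3 : p • y ^ k ∈ D.ld (k • g) (Subalgebra.toSubmodule (Fy Q l y')) :=
    ⟨y' ^ k, Subalgebra.pow_mem _ S.y'_mem k, h1, h2⟩
  have h4 := Submodule.smul_mem _ p⁻¹ h3
  rwa [smul_smul, inv_mul_cancel₀ hp, one_smul] at h4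

/-- `F⁰ ≤ lead 0 F'`, using Kummer. -/
theorem F0_le_ld0 : Fy P l y ≤ D.ld0 (Fy Q l y') := by
  classical
  have hβ : P.β l ∈ D.ld0 (Fy Q l y') := by
    refine ⟨Q.β l, S.H_mem, S.H0, S.Hc⟩
  have hym : y ^ m ∈ D.ld0 (Fy Q l y') := by
    have h0 : D.cl (- (m • g)) = 0 := by rw [map_neg, D.cl_nsmul_m, neg_zero]
    obtain ⟨c, hc, hlam⟩ := D.exists_lam _ h0
    have h1 := S.pow_mem_ld m
    obtain ⟨x, hx, hxg, hxc⟩ := h1
    obtain ⟨h2, h3⟩ := D.smul_spec c hc (m • g) x hxg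
    rw [hlam, add_neg_cancel] at h2 h3
    have h4 : D.lc c • y ^ m ∈ D.ld0 (Fy Q l y') := by
      refine ⟨c • x, (Subalgebra.toSubmodule (Fy Q l y')).smul_mem c hx, h2, ?_⟩
      rw [h3, hxc]
    have hne := D.lc_ne c hc
    have h5 := (D.ld0 (Fy Q l y')).smul_mem h4 (D.lc c)⁻¹
    rwa [smul_smul, inv_mul_cancel₀ hne, one_smul] at h5
  -- Kummer
  set E : Subalgebra K A := Algebra.adjoin K ({P.β l, y ^ m} : Set A) with hE
  have hβym : P.β l * y ^ m = y ^ m * P.β l := (Commute.pow_right S.βy m)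
  have hEcomm := comm_adjoin_pair (K := K) hβym
  have hw : ∀ e ∈ E, e * y = y * e := by
    intro e he
    have := comm_of_adjoin_pair (K := K) (a := P.β l) (b := y ^ m) (p := y) S.βy.symm
      (by rw [← pow_succ', pow_succ]) e he
    exact this.symm
  have hwm : y ^ m ∈ E := Algebra.subset_adjoin (Set.mem_insert_of_mem _ rfl)
  obtain ⟨ζ, hζ⟩ := S.zeta
  have hyE : y ∈ E := CentFactsB.mem_of_pow_mem S.hC S.hN E hEcomm hmp.out S.mN hζ hw hwm
  have hle : Fy P l y ≤ E := by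
    refine Algebra.adjoin_le ?_
    rintro x (rfl | rfl)
    · exact Algebra.subset_adjoin (Set.mem_insert _ _)
    · exact hyE
  have hle2 : E ≤ D.ld0 (Fy Q l y') := by
    refine Algebra.adjoin_le ?_
    rintro x (rfl | rfl)
    · exact hβ
    · exact hym
  exact hle.trans hle2

/-- `F⁰ ≤ lead (k g) F'`. -/
theorem F0_le_ld (k : ℕ) :
    Subalgebra.toSubmodule (Fy P l y) ≤ D.ld (k • g) (Subalgebra.toSubmodule (Fy Q l y')) := by
  intro f hf
  have hyk : y ^ k ∈ Fy P l y := Subalgebra.pow_mem _ S.y_mem k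
  have hyk0 : y ^ k ≠ 0 := pow_ne_zero k S.y_ne
  have hinv : (y ^ k)⁻¹ ∈ Fy P l y := DoubleCent.inv_mem_subalgebra _ hyk
  have h1 : f * (y ^ k)⁻¹ ∈ D.ld 0 (Subalgebra.toSubmodule (Fy Q l y')) :=
    S.F0_le_ld0 (Subalgebra.mul_mem _ hf hinv)
  have h2 := D.mul_mem_ld _ h1 (S.pow_mem_ld k)
  rwa [zero_add, inv_mul_cancel_right₀ hyk0] at h2

/-- `m [F⁰:K] ≤ [F':K']`. -/
theorem count_F : m * finrank K (Fy P l y) ≤ finrank K' (Fy Q l y') := by
  have h1 := KD.sum_ld_line_le S.hg (Subalgebra.toSubmodule (Fy Q l y'))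
  have h2 : ∑ _r : Fin m, finrank K (Fy P l y) ≤
      ∑ r : Fin m, finrank K (D.ld ((r : ℕ) • g) (Subalgebra.toSubmodule (Fy Q l y'))) :=
    Finset.sum_le_sum fun r _ => Submodule.finrank_mono (S.F0_le_ld r)
  simp only [Finset.sum_const, Finset.card_univ, Fintype.card_fin, smul_eq_mul] at h2
  exact h2.trans h1

/-- Leads of `F'` on the line, given the upper bound. -/
theorem ld_F (hUB : finrank K' (Fy Q l y') ≤ m * finrank K (Fy P l y)) {g₁ : Γ}
    (h₁ : KD.OnLine D g g₁) :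
    D.ld g₁ (Subalgebra.toSubmodule (Fy Q l y')) = Subalgebra.toSubmodule (Fy P l y) :=
  KD.ld_online_eq S.hg (fun r => S.F0_le_ld r) hUB h₁

/-- The commutant property of `F'`. -/
lemma comm_F' : ∀ x ∈ Fy Q l y', ∀ z ∈ Fy Q l y', x * z = z * x := comm_adjoin_pair S.Hy'

lemma comm_F0 : ∀ x ∈ Fy P l y, ∀ z ∈ Fy P l y, x * z = z * x := comm_adjoin_pair S.βy

/-- **H3**: the value of the projection. -/
theorem le_val_proj {g₁ : Γ} {z u : R} (hz : (g₁ : WithTop Γ) ≤ D.val z) (hu : u ∈ Fy Q l y')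
    (hτ : ∀ f' ∈ Fy Q l y', Q.τ (u * f') = Q.τ (z * f')) : (g₁ : WithTop Γ) ≤ D.val u := by
  by_cases hu0 : u = 0
  · rw [hu0, D.val_zero]; exact le_top
  by_contra hlt
  obtain ⟨g0, hg0⟩ := D.exists_val_eq hu0
  rw [hg0] at hlt
  have hlt' : g0 < g₁ := by
    have : (g0 : WithTop Γ) < g₁ := not_le.1 hlt
    exact_mod_cast this
  have hinv : u⁻¹ ∈ Fy Q l y' := DoubleCent.inv_mem_subalgebra _ hu
  have h1 : Q.τ (z * u⁻¹) = 1 := by
    rw [← hτ _ hinv, mul_inv_cancel₀ hu0, S.h1']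
  have h2 : ((g₁ + -g0 : Γ) : WithTop Γ) ≤ D.val (z * u⁻¹) :=
    D.le_val_mul hz (le_of_eq (D.val_inv hg0).symm)
  have hpos : (0 : Γ) < g₁ + -g0 := by
    rw [← sub_eq_add_neg]; exact sub_pos.2 hlt'
  have hpos' : ((0 : Γ) : WithTop Γ) < D.val (z * u⁻¹) :=
    lt_of_lt_of_le (WithTop.coe_lt_coe.2 hpos) h2
  have h3 : D.c 0 (z * u⁻¹) = 0 := (D.c_eq_zero_iff 0 _ hpos'.le).2 hpos'
  have h4 := D.trace_res (z * u⁻¹) (by simpa using hpos'.le)
  rw [h1, map_one, D.c_one, h3, map_zero, map_zero] at h4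
  exact one_ne_zero h4

/-- Pairing at value `0` in a trace identity. -/
theorem pair_of_trace_eq {g₁ : Γ} {z u f' : R} (hz : (g₁ : WithTop Γ) ≤ D.val z)
    (hu : (g₁ : WithTop Γ) ≤ D.val u) (hf : ((-g₁ : Γ) : WithTop Γ) ≤ D.val f')
    (hτ : Q.τ (u * f') = Q.τ (z * f')) :
    P.τ (D.c g₁ u * D.c (-g₁) f') = P.τ (D.c g₁ z * D.c (-g₁) f') := by
  have h1 : ((0 : Γ) : WithTop Γ) ≤ D.val (u * f') := by
    have := D.le_val_mul hu hf
    rwa [add_neg_cancel] at this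
  have h2 : ((0 : Γ) : WithTop Γ) ≤ D.val (z * f') := by
    have := D.le_val_mul hz hf
    rwa [add_neg_cancel] at this
  have h3 := D.trace_res (u * f') (by simpa using h1)
  have h4 := D.trace_res (z * f') (by simpa using h2)
  rw [hτ] at h3
  rw [h4] at h3
  have h5 := (algebraMap K A).injective h3
  rw [D.c_mul' (add_neg_cancel g₁) hz hf, D.c_mul' (add_neg_cancel g₁) hu hf, map_smul, map_smul,
    smul_eq_mul, smul_eq_mul] at h5
  exact (mul_left_cancel₀ (D.ε_ne _ _) h5).symm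

/-- **H3**: the lead of the projection. -/
theorem proj_lead (hUB : finrank K' (Fy Q l y') ≤ m * finrank K (Fy P l y)) {g₁ : Γ}
    (h₁ : KD.OnLine D g g₁) {z u : R} (hz : (g₁ : WithTop Γ) ≤ D.val z) (hu : u ∈ Fy Q l y')
    (hτ : ∀ f' ∈ Fy Q l y', Q.τ (u * f') = Q.τ (z * f')) :
    (g₁ : WithTop Γ) ≤ D.val u ∧ D.c g₁ u ∈ Fy P l y ∧
      ∀ f ∈ Fy P l y, P.τ (D.c g₁ u * f) = P.τ (D.c g₁ z * f) := by
  have hv := S.le_val_proj hz hu hτ
  refine ⟨hv, ?_, ?_⟩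
  · have h2 : D.c g₁ u ∈ D.ld g₁ (Subalgebra.toSubmodule (Fy Q l y')) := ⟨u, hu, hv, rfl⟩
    rw [S.ld_F hUB h₁] at h2
    exact h2
  · intro f hf
    have h2 : f ∈ D.ld (-g₁) (Subalgebra.toSubmodule (Fy Q l y')) := by
      rw [S.ld_F hUB h₁.neg]
      exact hf
    obtain ⟨f', hf', hf'g, rfl⟩ := h2
    exact S.pair_of_trace_eq hz hv hf'g (hτ f' hf')

/-- A nondegeneracy on `F⁰`. -/
lemma eq_of_forall_trace {a b : A} (ha : a ∈ Fy P l y) (hb : b ∈ Fy P l y)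
    (h : ∀ f ∈ Fy P l y, P.τ (a * f) = P.τ (b * f)) : a = b := by
  by_contra hne
  have hsub : a - b ≠ 0 := sub_ne_zero.2 hne
  have hmem : a - b ∈ Fy P l y := Subalgebra.sub_mem _ ha hb
  have hinv := DoubleCent.inv_mem_subalgebra _ hmem
  have h1 := h _ hinv
  have h2 : P.τ ((a - b) * (a - b)⁻¹) = 0 := by
    rw [sub_mul, map_sub, h1, sub_self]
  rw [mul_inv_cancel₀ hsub, S.h1] at h2
  exact one_ne_zero h2

/-- Leads of a projection image. -/
theorem eIm_le_ld (hUB : finrank K' (Fy Q l y') ≤ m * finrank K (Fy P l y)) {g₁ : Γ}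
    (h₁ : KD.OnLine D g g₁) (V : Submodule K' R) (V0 : Submodule K A) (hV : V0 ≤ D.ld g₁ V) :
    eIm P (Subalgebra.toSubmodule (Fy P l y)) V0 ≤
      D.ld g₁ (eIm Q (Subalgebra.toSubmodule (Fy Q l y')) V) := by
  rintro f ⟨hf, z0, hz0, hfz⟩
  obtain ⟨z, hzV, hzg, rfl⟩ := hV hz0
  set u := CentFactsB.proj S.h1' Q.τ_comm (Fy Q l y') z with hu
  have hu1 : u ∈ Fy Q l y' := CentFactsB.proj_mem S.h1' Q.τ_comm _ z
  have hu2 : ∀ f' ∈ Fy Q l y', Q.τ (u * f') = Q.τ (z * f') := fun f' hf' =>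
    CentFactsB.tau_proj_mul S.h1' Q.τ_comm _ hf' z
  obtain ⟨h3, h4, h5⟩ := S.proj_lead hUB h₁ hzg hu1 hu2
  refine ⟨u, ⟨hu1, z, hzV, hu2⟩, h3, ?_⟩
  exact S.eq_of_forall_trace h4 hf fun f0 hf0 => by rw [h5 f0 hf0, hfz f0 hf0]

/-! ### `A_{y'}` -/

/-- `k • g` is non-central for `k` prime to `m`. -/
lemma cl_nsmul_ne {k : ℕ} (hk : ¬ m ∣ k) : D.cl (k • g) ≠ 0 := by
  rw [map_nsmul]
  have hpos : 0 < m := hmp.out.pos
  intro h
  have h1 : (k % m) • D.cl g = 0 := by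
    have h2 : k • D.cl g = (k % m) • D.cl g := by
      conv_lhs => rw [← Nat.mod_add_div k m]
      rw [add_nsmul, mul_nsmul, KD.nsmul_m_zero]
      simp
    rw [← h2, h]
  have h3 := KD.nsmul_inj_of_ne_zero S.hg (r := k % m) (r' := 0) (Nat.mod_lt _ hpos) hpos
    (by rw [h1, zero_nsmul])
  exact hk (Nat.dvd_of_mod_eq_zero h3)

/-- The count for `A_{y'}`. -/
theorem count_Ay (hUB : finrank K' (Fy Q l y') ≤ m * finrank K (Fy P l y)) (R0 : Submodule K A)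
    (hLM : ∀ g₁ : Γ, D.cl g₁ ≠ 0 → R0 ≤ D.ld g₁ (Q.Mov l))
    (hLM0 : ∀ g₁ : Γ, D.cl g₁ = 0 → P.Mov l ≤ D.ld g₁ (Q.Mov l)) :
    (m - 1) * finrank K (eIm P (Subalgebra.toSubmodule (Fy P l y)) R0) + finrank K (Ay P l y) ≤
      finrank K' (Ay Q l y') := by
  classical
  have hpos : 0 < m := hmp.out.pos
  have h1 := KD.sum_ld_line_le S.hg (Ay Q l y')
  set i0 : Fin m := ⟨0, hpos⟩ with hi0
  rw [← Finset.add_sum_erase _ _ (Finset.mem_univ i0)] at h1
  have h2 : finrank K (Ay P l y) ≤ finrank K (D.ld ((i0 : ℕ) • g) (Ay Q l y')) := by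
    apply Submodule.finrank_mono
    have h3 := S.eIm_le_ld hUB (KD.OnLine.nsmul g 0) (Q.Mov l) (P.Mov l)
      (hLM0 _ (by simp))
    simp only [hi0, zero_nsmul] at h3 ⊢
    exact h3
  have h4 : (m - 1) * finrank K (eIm P (Subalgebra.toSubmodule (Fy P l y)) R0) ≤
      ∑ r ∈ Finset.univ.erase i0, finrank K (D.ld ((r : ℕ) • g) (Ay Q l y')) := by
    have hcard : (Finset.univ.erase i0).card = m - 1 := by
      rw [Finset.card_erase_of_mem (Finset.mem_univ _), Finset.card_univ, Fintype.card_fin]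
    rw [← hcard, ← smul_eq_mul]
    refine Finset.card_nsmul_le_sum _ _ _ fun r hr => ?_
    apply Submodule.finrank_mono
    have hr0 : (r : ℕ) ≠ 0 := by
      intro h0
      exact (Finset.mem_erase.1 hr).1 (Fin.ext h0)
    have hrm : ¬ m ∣ (r : ℕ) := fun hd => hr0 (Nat.eq_zero_of_dvd_of_lt hd r.2)
    exact S.eIm_le_ld hUB (KD.OnLine.nsmul g r) (Q.Mov l) R0 (hLM _ (S.cl_nsmul_ne hrm))
  omega

/-! ### `𝔏_{y'}` -/

/-- `Ly` is contained in `Fy` when `y` is. -/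
lemma Ly_le_Fy {Q' : Pt F K' R (Fin 2)} {y₁ : R} : Ly Q' l y₁ ≤ Fy Q' l y₁ := by
  refine Algebra.adjoin_le ?_
  rintro x ⟨a, ⟨ha, -⟩, rfl⟩
  have h1 : y₁ ∈ Fy Q' l y₁ := Algebra.subset_adjoin (Set.mem_insert_of_mem _ rfl)
  exact Subalgebra.mul_mem _ (DoubleCent.inv_mem_subalgebra _ h1) ha

/-- Dividing a lead of `A_{y'}` by `y'`. -/
theorem inv_mul_mem_ld {g₁ : Γ} {a : A} (ha : a ∈ D.ld g₁ (Ay Q l y')) :
    y⁻¹ * a ∈ D.ld (-g + g₁) (Subalgebra.toSubmodule (Ly Q l y')) := by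
  obtain ⟨x, hx, hxg, rfl⟩ := ha
  have h1 : y'⁻¹ * x ∈ Ly Q l y' := Algebra.subset_adjoin ⟨x, hx, rfl⟩
  have h2 : ((-g : Γ) : WithTop Γ) ≤ D.val y'⁻¹ := le_of_eq (D.val_inv S.hval).symm
  have h3 := D.c_mul (-g) g₁ y'⁻¹ x h2 hxg
  rw [D.c_inv' S.hval, S.hc] at h3
  have h4 : D.ε (-g) g₁ • ((D.ε g (-g))⁻¹ • y⁻¹ * D.c g₁ x) ∈
      D.ld (-g + g₁) (Subalgebra.toSubmodule (Ly Q l y')) :=
    ⟨_, h1, D.le_val_mul h2 hxg, h3⟩
  have h5 := Submodule.smul_mem _ (D.ε g (-g) * (D.ε (-g) g₁)⁻¹) h4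
  rw [smul_smul, smul_mul_assoc, smul_smul] at h5
  have h6 : D.ε g (-g) * (D.ε (-g) g₁)⁻¹ * D.ε (-g) g₁ * (D.ε g (-g))⁻¹ = 1 := by
    have h7 := D.ε_ne (-g) g₁
    have h8 := D.ε_ne g (-g)
    field_simp
  rwa [h6, one_smul] at h5

/-- `y` is a lead of `A_{y'}` at every non-central on-line value. -/
theorem y_mem_ld_Ay (hUB : finrank K' (Fy Q l y') ≤ m * finrank K (Fy P l y)) (R0 : Submodule K A)
    (hLM : ∀ g₁ : Γ, D.cl g₁ ≠ 0 → R0 ≤ D.ld g₁ (Q.Mov l)) (hyR : y ∈ R0) {g₁ : Γ}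
    (h₁ : KD.OnLine D g g₁) (h₂ : D.cl g₁ ≠ 0) : y ∈ D.ld g₁ (Ay Q l y') :=
  S.eIm_le_ld hUB h₁ (Q.Mov l) R0 (hLM g₁ h₂) ⟨S.y_mem, y, hyR, fun _ _ => rfl⟩

/-- `1` is a lead of `𝔏_{y'}` at `r g`, `r < m`. -/
theorem one_mem_ld_L (hUB : finrank K' (Fy Q l y') ≤ m * finrank K (Fy P l y)) (R0 : Submodule K A)
    (hLM : ∀ g₁ : Γ, D.cl g₁ ≠ 0 → R0 ≤ D.ld g₁ (Q.Mov l)) (hyR : y ∈ R0) (r : ℕ) (hr : r < m) :
    (1 : A) ∈ D.ld (r • g) (Subalgebra.toSubmodule (Ly Q l y')) := by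
  have hy0 := S.y_ne
  have key : ∀ k : ℕ, 1 ≤ k → ¬ m ∣ k →
      (1 : A) ∈ D.ld ((k - 1) • g) (Subalgebra.toSubmodule (Ly Q l y')) := by
    intro k hk hkm
    have h1 := S.y_mem_ld_Ay hUB R0 hLM hyR (KD.OnLine.nsmul g k) (S.cl_nsmul_ne hkm)
    have h2 := S.inv_mul_mem_ld h1
    rw [inv_mul_cancel₀ hy0] at h2
    have h3 : -g + k • g = (k - 1) • g := by
      obtain ⟨k', rfl⟩ : ∃ k', k = k' + 1 := ⟨k - 1, by omega⟩
      rw [succ_nsmul, Nat.add_sub_cancel]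
      abel
    rwa [h3] at h2
  by_cases hm1 : r + 1 = m
  · -- `r = m - 1`
    have h3 : 3 ≤ m := S.m3
    have hkm : ¬ m ∣ (m - 1) := fun hd => by
      have := Nat.le_of_dvd (by omega) hd
      omega
    have h2m : ¬ m ∣ 2 := fun hd => by
      have := Nat.le_of_dvd (by omega) hd
      omega
    have a1 := key (m - 1) (by omega) hkm
    have a2 := key 2 (by omega) h2m
    have a3 := D.mul_mem_ld _ a1 a2
    rw [mul_one, ← add_nsmul] at a3
    have h4 : m - 1 - 1 + (2 - 1) = r := by omega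
    rwa [h4] at a3
  · have h1 : ¬ m ∣ (r + 1) := fun hd => by
      have := Nat.le_of_dvd (by omega) hd
      omega
    simpa using key (r + 1) (by omega) h1

/-- `𝔏_y ≤ lead 0 𝔏_{y'}`. -/
theorem Ly_le_ld0 (hUB : finrank K' (Fy Q l y') ≤ m * finrank K (Fy P l y)) (R0 : Submodule K A)
    (hLM : ∀ g₁ : Γ, D.cl g₁ ≠ 0 → R0 ≤ D.ld g₁ (Q.Mov l)) (hMovR : P.Mov l ≤ R0) :
    Ly P l y ≤ D.ld0 (Ly Q l y') := by
  refine Algebra.adjoin_le ?_
  rintro x ⟨a, ha, rfl⟩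
  have hg1 : D.cl (1 • g) ≠ 0 := by simpa using S.hg
  have h1 : a ∈ D.ld g (Ay Q l y') := by
    have h2 := S.eIm_le_ld hUB (KD.OnLine.self g) (Q.Mov l) (P.Mov l)
      (hMovR.trans (hLM g S.hg)) ha
    exact h2
  have h2 := S.inv_mul_mem_ld h1
  rwa [neg_add_cancel] at h2

/-- `𝔏_y ≤ lead (r g) 𝔏_{y'}`. -/
theorem Ly_le_ld (hUB : finrank K' (Fy Q l y') ≤ m * finrank K (Fy P l y)) (R0 : Submodule K A)
    (hLM : ∀ g₁ : Γ, D.cl g₁ ≠ 0 → R0 ≤ D.ld g₁ (Q.Mov l)) (hMovR : P.Mov l ≤ R0) (hyR : y ∈ R0)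
    (r : Fin m) :
    Subalgebra.toSubmodule (Ly P l y) ≤
      D.ld ((r : ℕ) • g) (Subalgebra.toSubmodule (Ly Q l y')) := by
  intro f hf
  have h1 : f ∈ D.ld 0 (Subalgebra.toSubmodule (Ly Q l y')) := S.Ly_le_ld0 hUB R0 hLM hMovR hf
  have h2 := S.one_mem_ld_L hUB R0 hLM hyR r r.2
  have h3 := D.mul_mem_ld _ h1 h2
  rwa [zero_add, mul_one] at h3

/-- The count for `𝔏`. -/
theorem count_L (hUB : finrank K' (Fy Q l y') ≤ m * finrank K (Fy P l y)) (R0 : Submodule K A)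
    (hLM : ∀ g₁ : Γ, D.cl g₁ ≠ 0 → R0 ≤ D.ld g₁ (Q.Mov l)) (hMovR : P.Mov l ≤ R0) (hyR : y ∈ R0) :
    m * finrank K (Ly P l y) ≤ finrank K' (Ly Q l y') := by
  have h1 := KD.sum_ld_line_le S.hg (Subalgebra.toSubmodule (Ly Q l y'))
  have h2 : ∑ _r : Fin m, finrank K (Ly P l y) ≤
      ∑ r : Fin m, finrank K (D.ld ((r : ℕ) • g) (Subalgebra.toSubmodule (Ly Q l y'))) :=
    Finset.sum_le_sum fun r _ => Submodule.finrank_mono (S.Ly_le_ld hUB R0 hLM hMovR hyR r)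
  simp only [Finset.sum_const, Finset.card_univ, Fintype.card_fin, smul_eq_mul] at h2
  exact h2.trans h1

/-- Leads of `𝔏'` on the line. -/
theorem ld_L (hUB : finrank K' (Fy Q l y') ≤ m * finrank K (Fy P l y)) (R0 : Submodule K A)
    (hLM : ∀ g₁ : Γ, D.cl g₁ ≠ 0 → R0 ≤ D.ld g₁ (Q.Mov l)) (hMovR : P.Mov l ≤ R0) (hyR : y ∈ R0)
    (hUBL : finrank K' (Ly Q l y') ≤ m * finrank K (Ly P l y)) {g₁ : Γ} (h₁ : KD.OnLine D g g₁) :
    D.ld g₁ (Subalgebra.toSubmodule (Ly Q l y')) = Subalgebra.toSubmodule (Ly P l y) :=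
  KD.ld_online_eq S.hg (fun r => S.Ly_le_ld hUB R0 hLM hMovR hyR r) hUBL h₁

end Sit

/-! ### `𝒫(y)` -/

/-- `𝒫(y)` is the orthogonal of `y 𝔏_y` in `C(F_y)`. -/
theorem finrank_PPy_add [FiniteDimensional K A] (P : Pt F K A (Fin 2)) (h1 : P.τ 1 = 1) {l : ℕ} {y : A}
    (hy0 : y ≠ 0) (hβy : P.β l * y = y * P.β l) :
    finrank K (PPy P l y) + finrank K (Ly P l y) = finrank K (DoubleCent.centDiv (Fy P l y)) := by
  classical
  set C := DoubleCent.centDiv (Fy P l y) with hC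
  let f : A →ₗ[K] A := LinearMap.mulLeft K y
  have hf : Function.Injective f := fun a b hab => mul_left_cancel₀ hy0 hab
  set V : Submodule K A := (Subalgebra.toSubmodule (Ly P l y)).map f with hVdef
  have hcomm := comm_adjoin_pair (K := K) hβy
  have hyF : y ∈ Fy P l y := Algebra.subset_adjoin (Set.mem_insert_of_mem _ rfl)
  have hLF : Ly P l y ≤ Fy P l y := by
    refine Algebra.adjoin_le ?_
    rintro x ⟨a, ⟨ha, -⟩, rfl⟩
    exact Subalgebra.mul_mem _ (DoubleCent.inv_mem_subalgebra _ hyF) ha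
  have hV : V ≤ Subalgebra.toSubmodule C := by
    rintro _ ⟨a, ha, rfl⟩
    show y * a ∈ C
    rw [hC, DoubleCent.mem_centDiv]
    intro b hb
    exact hcomm _ hb _ (Subalgebra.mul_mem _ hyF (hLF ha))
  have hperp : CentFactsB.orth P.τ V ⊓ Subalgebra.toSubmodule C = PPy P l y := by
    ext p
    simp only [Submodule.mem_inf, CentFactsB.mem_orth]
    constructor
    · rintro ⟨h2, h3⟩
      have h3' : p ∈ C := h3
      rw [hC, DoubleCent.mem_centDiv] at h3'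
      refine ⟨(h3' _ (Algebra.subset_adjoin (Set.mem_insert _ _))).symm, (h3' _ hyF).symm, ?_⟩
      intro a ha
      have h4 := h2 (y * a) ⟨a, ha, rfl⟩
      rwa [P.τ_comm] at h4
    · rintro ⟨h2, h3, h4⟩
      refine ⟨?_, ?_⟩
      · rintro _ ⟨a, ha, rfl⟩
        show P.τ ((y * a) * p) = 0
        rw [P.τ_comm]
        exact h4 a ha
      · show p ∈ C
        rw [hC, DoubleCent.mem_centDiv]
        intro b hb
        exact (comm_of_adjoin_pair h2 h3 b hb).symm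
  have h5 := CentFactsB.finrank_perp_in h1 P.τ_comm C V hV
  rw [hperp] at h5
  have h6 : finrank K V = finrank K (Ly P l y) :=
    (Submodule.equivMapOfInjective f hf (Subalgebra.toSubmodule (Ly P l y))).finrank_eq.symm
  rw [h6] at h5
  exact h5

namespace KD

variable [hmp : Fact m.Prime] {D}

/-- Gauss along a line. -/
theorem finrank_le_sum_line (D : KD K A K' R Γ τ τ' m) {g : Γ} (hg : D.cl g ≠ 0)
    (W : Submodule K' R)
    (hoff : ∀ e : Γ, (D.cl e).1 * (D.cl g).2 ≠ (D.cl g).1 * (D.cl e).2 →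
      ∀ x ∈ W, (e : WithTop Γ) ≤ D.val x → D.c e x = 0) :
    finrank K' W ≤ ∑ r : Fin m, finrank K (D.ld ((r : ℕ) • g) W) := by
  classical
  haveI : NeZero m := ⟨hmp.out.ne_zero⟩
  have hpos : 0 < m := hmp.out.pos
  set x := D.cl g with hx
  -- a complement
  obtain ⟨w, hw, hcov⟩ : ∃ w : ZMod m × ZMod m, x.1 * w.2 - w.1 * x.2 ≠ 0 ∧
      ∀ v : ZMod m × ZMod m, ∃ a b : ZMod m, v = a.val • x + b.val • w := by
    by_cases ha : x.1 = 0
    · have hb : x.2 ≠ 0 := by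
        intro h2
        apply hg
        exact Prod.ext ha h2
      refine ⟨(1, 0), by simpa [ha] using hb, fun v => ⟨v.2 / x.2, v.1, ?_⟩⟩
      ext
      · simp [ha]
      · simp [div_mul_cancel₀ _ hb]
    · refine ⟨(0, 1), by simpa using ha, fun v => ⟨v.1 / x.1, v.2 - v.1 / x.1 * x.2, ?_⟩⟩
      ext
      · simp [div_mul_cancel₀ _ ha]
      · simp
  obtain ⟨gc, hgc⟩ := D.cl_surj w
  let e : Fin m × Fin m → Γ := fun p => (p.1 : ℕ) • g + (p.2 : ℕ) • gc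
  have hcover : ∀ h : Γ, ∃ r, ∃ l, l ≠ 0 ∧ h + D.lam l = e r := by
    intro h
    obtain ⟨a, b, hab⟩ := hcov (D.cl h)
    refine ⟨(⟨a.val, ZMod.val_lt a⟩, ⟨b.val, ZMod.val_lt b⟩), ?_⟩
    have h0 : D.cl (e (⟨a.val, ZMod.val_lt a⟩, ⟨b.val, ZMod.val_lt b⟩) - h) = 0 := by
      simp only [e, map_sub, map_add, map_nsmul]
      rw [hab, ← hx, hgc, sub_self]
    obtain ⟨l, hl, hlam⟩ := D.exists_lam _ h0
    exact ⟨l, hl, by rw [hlam]; abel⟩
  refine (D.gauss_le e hcover W).trans ?_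
  rw [Fintype.sum_prod_type]
  refine Finset.sum_le_sum fun r _ => ?_
  set i0 : Fin m := ⟨0, hpos⟩ with hi0
  rw [Finset.sum_eq_single i0]
  · have : e (r, i0) = (r : ℕ) • g := by simp [e, hi0]
    rw [this]
  · intro s _ hs
    have hs0 : (s : ℕ) ≠ 0 := fun h0 => hs (Fin.ext h0)
    have hsz : ((s : ℕ) : ZMod m) ≠ 0 := by
      intro h0
      have h1 := (ZMod.natCast_eq_zero_iff (s : ℕ) m).1 h0
      exact hs0 (Nat.eq_zero_of_dvd_of_lt h1 s.2)
    have hbot : D.ld (e (r, s)) W = ⊥ := by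
      rw [eq_bot_iff]
      rintro a ⟨z, hz, hzg, rfl⟩
      rw [Submodule.mem_bot]
      refine hoff _ ?_ z hz hzg
      have hn1 : ∀ (k : ℕ) (u : ZMod m × ZMod m), (k • u).1 = (k : ZMod m) * u.1 := fun k u => by
        rw [Prod.smul_fst, nsmul_eq_mul]
      have hn2 : ∀ (k : ℕ) (u : ZMod m × ZMod m), (k • u).2 = (k : ZMod m) * u.2 := fun k u => by
        rw [Prod.smul_snd, nsmul_eq_mul]
      simp only [e, map_add, map_nsmul, hgc, ← hx, Prod.fst_add, Prod.snd_add, hn1, hn2]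
      intro hdet
      apply hw
      have h3 : ((s : ℕ) : ZMod m) * (x.1 * w.2 - w.1 * x.2) = 0 := by
        linear_combination -hdet
      exact (mul_eq_zero.1 h3).resolve_left hsz
    show finrank K (D.ld (e (r, s)) W) = 0
    rw [hbot, finrank_bot]
  · intro h
    exact absurd (Finset.mem_univ _) h

end KD

namespace Sit

variable [hmp : Fact m.Prime] [FiniteDimensional K A] [FiniteDimensional K' R]
variable {P : Pt F K A (Fin 2)} {Q : Pt F K' R (Fin 2)} {D : KD K A K' R Γ P.τ Q.τ m} {l : ℕ}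
  {y : A} {y' : R} {g : Γ} {N : ℕ} (S : Sit P Q D l y y' g N)

include S

/-- Commuting with `β'` and `y'` passes to the leads. -/
lemma lead_comm_of {g₁ : Γ} {x f : R} (hx : (g₁ : WithTop Γ) ≤ D.val x)
    (hf : ((0 : Γ) : WithTop Γ) ≤ D.val f) (hc : x * f = f * x) :
    D.c g₁ x * D.c 0 f = D.c 0 f * D.c g₁ x := by
  have h1 := D.c_mul g₁ 0 x f hx hf
  have h2 := D.c_mul 0 g₁ f x hf hx
  rw [add_zero] at h1
  rw [zero_add, ← hc, h1, D.ε_zero_left, D.ε_zero_right, one_smul, one_smul] at h2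
  exact h2

/-- The leads of `𝒫(y')`: upper bound. -/
theorem ld_PPy_le (hUB : finrank K' (Fy Q l y') ≤ m * finrank K (Fy P l y)) (R0 : Submodule K A)
    (hLM : ∀ g₁ : Γ, D.cl g₁ ≠ 0 → R0 ≤ D.ld g₁ (Q.Mov l)) (hMovR : P.Mov l ≤ R0) (hyR : y ∈ R0)
    (hUBL : finrank K' (Ly Q l y') ≤ m * finrank K (Ly P l y)) {g₁ : Γ} (h₁ : KD.OnLine D g g₁) :
    D.ld g₁ (PPy Q l y') ≤ PPy P l y := by
  rintro a ⟨x, ⟨hxH, hxy, hxf⟩, hxg, rfl⟩
  have hcF : ∀ f ∈ Fy Q l y', x * f = f * x := comm_of_adjoin_pair hxH hxy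
  refine ⟨?_, ?_, ?_⟩
  · have := S.lead_comm_of hxg S.H0 hxH
    rwa [S.Hc] at this
  · have hy : y ∈ D.ld 0 (Subalgebra.toSubmodule (Fy Q l y')) := S.F0_le_ld0 S.y_mem
    obtain ⟨f, hf, hf0, hfc⟩ := hy
    have := S.lead_comm_of hxg hf0 (hcF f hf)
    rwa [hfc] at this
  · intro f hf
    set h : Γ := -g₁ - g with hh
    have hon : KD.OnLine D g h := h₁.neg.sub (KD.OnLine.self g)
    have h2 : f ∈ D.ld h (Subalgebra.toSubmodule (Ly Q l y')) := by
      rw [S.ld_L hUB R0 hLM hMovR hyR hUBL hon]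
      exact hf
    obtain ⟨ℓ, hℓ, hℓg, rfl⟩ := h2
    have h3 : ((g + h : Γ) : WithTop Γ) ≤ D.val (y' * ℓ) := D.le_val_mul S.le_val hℓg
    have h4 := D.c_mul g h y' ℓ S.le_val hℓg
    rw [S.hc] at h4
    have h5 : g₁ + (g + h) = 0 := by rw [hh]; abel
    have h6 := D.c_mul' h5 hxg h3
    have h8 : ((0 : Γ) : WithTop Γ) ≤ D.val (x * (y' * ℓ)) := by
      have := D.le_val_mul hxg h3
      rwa [h5] at this
    have h9 := D.trace_res (x * (y' * ℓ)) (by simpa using h8)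
    rw [hxf ℓ hℓ, map_zero, map_zero, h6, h4] at h9
    have h10 : P.τ (D.ε g₁ (g + h) • (D.c g₁ x * D.ε g h • (y * D.c h ℓ))) = 0 :=
      (algebraMap K A).injective (by rw [map_zero]; exact h9.symm)
    rw [mul_smul_comm, smul_smul, map_smul, smul_eq_mul] at h10
    exact (mul_eq_zero.1 h10).resolve_left (mul_ne_zero (D.ε_ne _ _) (D.ε_ne _ _))

/-- Off the line the leads of `𝒫(y')` vanish. -/
theorem c_PPy_off {e : Γ} (he : (D.cl e).1 * (D.cl g).2 ≠ (D.cl g).1 * (D.cl e).2) {x : R}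
    (hx : x ∈ PPy Q l y') (hxe : (e : WithTop Γ) ≤ D.val x) : D.c e x = 0 := by
  by_contra ha
  obtain ⟨hxH, hxy, -⟩ := hx
  have hcF : ∀ f ∈ Fy Q l y', x * f = f * x := comm_of_adjoin_pair hxH hxy
  have hy : y ∈ D.ld 0 (Subalgebra.toSubmodule (Fy Q l y')) := S.F0_le_ld0 S.y_mem
  obtain ⟨f, hf, hf0, hfc⟩ := hy
  have hcomm := S.lead_comm_of hxe hf0 (hcF f hf)
  rw [hfc] at hcomm
  have h1 := D.c_mul e g x y' hxe S.le_val
  have h2 := D.c_mul g e y' x S.le_val hxe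
  rw [add_comm g e, ← hxy, h1, S.hc, ← hcomm] at h2
  have h3 : D.c e x * y ≠ 0 := mul_ne_zero ha S.y_ne
  have h4 : D.ε e g = D.ε g e := by
    have h5 : (D.ε e g - D.ε g e) • (D.c e x * y) = 0 := by
      rw [sub_smul, sub_eq_zero]
      exact h2
    have h6 := (smul_eq_zero.1 h5).resolve_right h3
    exact sub_eq_zero.1 h6
  exact he (D.ε_comm e g h4)

/-- The dimension of `C(F')`. -/
lemma finrank_cent (hUB : finrank K' (Fy Q l y') ≤ m * finrank K (Fy P l y)) :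
    finrank K' (DoubleCent.centDiv (Fy Q l y')) = m * finrank K (DoubleCent.centDiv (Fy P l y)) := by
  have h0 : finrank K' (Fy Q l y') = m * finrank K (Fy P l y) := le_antisymm hUB S.count_F
  have h1 := DoubleCent.finrank_centralizer_mul S.hC (Fy P l y)
  have h2 := DoubleCent.finrank_centralizer_mul S.hC' (Fy Q l y')
  rw [S.hN] at h1
  rw [S.hN', h0] at h2
  have hpos : 0 < m := hmp.out.pos
  have hF : 0 < finrank K (Fy P l y) := Module.finrank_pos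
  have h3 : finrank K' (DoubleCent.centDiv (Fy Q l y')) * (m * finrank K (Fy P l y)) =
      (m * finrank K (DoubleCent.centDiv (Fy P l y))) * (m * finrank K (Fy P l y)) := by
    rw [h2, mul_pow, ← h1]
    ring
  exact Nat.eq_of_mul_eq_mul_right (Nat.mul_pos hpos hF) h3

/-- The dimension of `𝒫(y')`. -/
theorem finrank_PPy_eq (hUB : finrank K' (Fy Q l y') ≤ m * finrank K (Fy P l y))
    (hLeq : finrank K' (Ly Q l y') = m * finrank K (Ly P l y)) :
    finrank K' (PPy Q l y') = m * finrank K (PPy P l y) := by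
  have h1 := finrank_PPy_add P S.h1 S.y_ne S.βy
  have h2 := finrank_PPy_add Q S.h1' S.y'_ne S.Hy'
  rw [S.finrank_cent hUB, ← h1, hLeq, mul_add] at h2
  omega

/-- **H4**: the leads of `𝒫(y')`. -/
theorem ld_PPy_line (hUB : finrank K' (Fy Q l y') ≤ m * finrank K (Fy P l y)) (R0 : Submodule K A)
    (hLM : ∀ g₁ : Γ, D.cl g₁ ≠ 0 → R0 ≤ D.ld g₁ (Q.Mov l)) (hMovR : P.Mov l ≤ R0) (hyR : y ∈ R0)
    (hUBL : finrank K' (Ly Q l y') ≤ m * finrank K (Ly P l y)) (r : Fin m) :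
    D.ld ((r : ℕ) • g) (PPy Q l y') = PPy P l y := by
  have hLeq : finrank K' (Ly Q l y') = m * finrank K (Ly P l y) :=
    le_antisymm hUBL (S.count_L hUB R0 hLM hMovR hyR)
  have hdim := S.finrank_PPy_eq hUB hLeq
  refine TestCore.eq_of_le_of_sum_le (T := fun r : Fin m => D.ld ((r : ℕ) • g) (PPy Q l y'))
    (L := fun _ : Fin m => PPy P l y)
    (fun r => S.ld_PPy_le hUB R0 hLM hMovR hyR hUBL (KD.OnLine.nsmul g r)) ?_ r
  have h2 := KD.finrank_le_sum_line D S.hg (PPy Q l y') fun e he x hx hxe => S.c_PPy_off he hx hxe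
  simp only [Finset.sum_const, Finset.card_univ, Fintype.card_fin, smul_eq_mul]
  omega

theorem ld_PPy_eq (hUB : finrank K' (Fy Q l y') ≤ m * finrank K (Fy P l y)) (R0 : Submodule K A)
    (hLM : ∀ g₁ : Γ, D.cl g₁ ≠ 0 → R0 ≤ D.ld g₁ (Q.Mov l)) (hMovR : P.Mov l ≤ R0) (hyR : y ∈ R0)
    (hUBL : finrank K' (Ly Q l y') ≤ m * finrank K (Ly P l y)) {g₁ : Γ} (h₁ : KD.OnLine D g g₁) :
    D.ld g₁ (PPy Q l y') = PPy P l y := by
  obtain ⟨r, hr⟩ := h₁.exists_lt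
  rw [D.ld_eq_of_cl (g' := (r : ℕ) • g) (by rw [hr, map_nsmul]) _]
  exact S.ld_PPy_line hUB R0 hLM hMovR hyR hUBL r

/-- **Good**: `y'` is good. -/
theorem good {r : Rec} (hG : Good P N r l y) (hdvd : r.n ∣ N ∧ r.σ ∣ N) (R0 : Submodule K A)
    (hLM : ∀ g₁ : Γ, D.cl g₁ ≠ 0 → R0 ≤ D.ld g₁ (Q.Mov l))
    (hLM0 : ∀ g₁ : Γ, D.cl g₁ = 0 → P.Mov l ≤ D.ld g₁ (Q.Mov l)) (hMovR : P.Mov l ≤ R0)
    (hbig : N / r.σ ≤ finrank K (eIm P (Subalgebra.toSubmodule (Fy P l y)) R0))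
    (hy'M : y' ∈ Q.Mov l)
    (hU : r.n * finrank K' (Fy Q l y') ≤ N * m ∧
      (r.n * finrank K' (Fy Q l y') = N * m → r.σ * finrank K' (Ly Q l y') ≤ N * m)) :
    Good Q (N * m) r l y' ∧ finrank K' (Fy Q l y') = m * finrank K (Fy P l y) ∧
      finrank K' (Ly Q l y') = m * finrank K (Ly P l y) := by
  have hyR : y ∈ R0 := hMovR hG.mem
  have hFpos : 0 < finrank K (Fy P l y) := Module.finrank_pos
  have hn0 : 0 < r.n := by
    rcases Nat.eq_zero_or_pos r.n with h | h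
    · rw [hG.dimF, h, Nat.div_zero] at hFpos
      omega
    · exact h
  have hLpos : 0 < finrank K (Ly P l y) := Module.finrank_pos
  have hσ0 : 0 < r.σ := by
    rcases Nat.eq_zero_or_pos r.σ with h | h
    · rw [hG.dimL, h, Nat.div_zero] at hLpos
      omega
    · exact h
  obtain ⟨a, ha⟩ := hdvd.1
  obtain ⟨b, hb⟩ := hdvd.2
  have hNa : N / r.n = a := by rw [ha]; exact Nat.mul_div_cancel_left a hn0
  have hNb : N / r.σ = b := by rw [hb]; exact Nat.mul_div_cancel_left b hσ0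
  have hmn : N * m / r.n = m * a := by
    rw [ha, mul_assoc, Nat.mul_div_cancel_left _ hn0, mul_comm]
  have hmσ : N * m / r.σ = m * b := by
    rw [hb, mul_assoc, Nat.mul_div_cancel_left _ hσ0, mul_comm]
  have hF0 : finrank K (Fy P l y) = a := by rw [hG.dimF, hNa]
  have hL0 : finrank K (Ly P l y) = b := by rw [hG.dimL, hNb]
  have hUB : finrank K' (Fy Q l y') ≤ m * finrank K (Fy P l y) := by
    have h1 := hU.1
    rw [hF0]
    have h2 : r.n * finrank K' (Fy Q l y') ≤ r.n * (m * a) := by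
      calc _ ≤ N * m := h1
        _ = r.n * (m * a) := by rw [ha]; ring
    exact Nat.le_of_mul_le_mul_left h2 hn0
  have hFeq : finrank K' (Fy Q l y') = m * finrank K (Fy P l y) := le_antisymm hUB S.count_F
  have hUBL : finrank K' (Ly Q l y') ≤ m * finrank K (Ly P l y) := by
    have h1 := hU.2 (by rw [hFeq, hF0, ha]; ring)
    rw [hL0]
    have h2 : r.σ * finrank K' (Ly Q l y') ≤ r.σ * (m * b) := by
      calc _ ≤ N * m := h1
        _ = r.σ * (m * b) := by rw [hb]; ring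
    exact Nat.le_of_mul_le_mul_left h2 hσ0
  have hLeq : finrank K' (Ly Q l y') = m * finrank K (Ly P l y) :=
    le_antisymm hUBL (S.count_L hUB R0 hLM hMovR hyR)
  refine ⟨⟨hy'M, S.y'_ne, ?_, ?_, ?_⟩, hFeq, hLeq⟩
  · rw [hFeq, hmn, hF0]
  · rw [hmσ]
    have h1 := S.count_Ay hUB R0 hLM hLM0
    have h2 := hG.dimA
    rw [hNb] at h2 hbig
    have h3 : (m - 1) * b ≤ (m - 1) * finrank K (eIm P (Subalgebra.toSubmodule (Fy P l y)) R0) :=
      Nat.mul_le_mul_left _ hbig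
    have hm1 : 1 ≤ m := hmp.out.one_lt.le
    have h4 : m * b = (m - 1) * b + b := by
      obtain ⟨k, rfl⟩ : ∃ k, m = k + 1 := ⟨m - 1, by omega⟩
      simp only [Nat.add_sub_cancel]
      ring
    omega
  · rw [hLeq, hmσ, hL0]

/-- The general count for projection images (`W_r ≤ lead (r g) V`). -/
theorem count_eIm (hUB : finrank K' (Fy Q l y') ≤ m * finrank K (Fy P l y)) (V : Submodule K' R)
    (Wr : Fin m → Submodule K A) (hW : ∀ r : Fin m, Wr r ≤ D.ld ((r : ℕ) • g) V) :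
    ∑ r : Fin m, finrank K (eIm P (Subalgebra.toSubmodule (Fy P l y)) (Wr r)) ≤
      finrank K' (eIm Q (Subalgebra.toSubmodule (Fy Q l y')) V) :=
  (Finset.sum_le_sum fun (r : Fin m) _ => Submodule.finrank_mono
    (S.eIm_le_ld hUB (KD.OnLine.nsmul g (r : ℕ)) V (Wr r) (hW r))).trans (KD.sum_ld_line_le S.hg _)

end Sit

/-! ### The witnesses at `X` -/

/-- The hypotheses of §J(d),(e) for the index `l`, uniformly in the witness. -/
structure DE (P : Pt F K A (Fin 2)) (Q : Pt F K' R (Fin 2)) (D : KD K A K' R Γ P.τ Q.τ m) (l N : ℕ)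
    (r : Rec) (S : Set A) (R0 : Submodule K A) : Prop where
  m3 : 3 ≤ m
  mN : ¬ m ∣ N
  zeta : ∃ ζ : K, IsPrimitiveRoot ζ m
  hN : finrank K A = N ^ 2
  hN' : finrank K' R = (N * m) ^ 2
  hC : ∀ a : A, (∀ x, a * x = x * a) → ∃ c : K, a = algebraMap K A c
  hC' : ∀ a : R, (∀ x, a * x = x * a) → ∃ c : K', a = algebraMap K' R c
  h1 : P.τ 1 = 1
  h1' : Q.τ 1 = 1
  H0 : ((0 : Γ) : WithTop Γ) ≤ D.val (Q.β l)
  Hc : D.c 0 (Q.β l) = P.β l
  dvd : r.n ∣ N ∧ r.σ ∣ N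
  good : ∀ y ∈ S, Good P N r l y
  big : ∀ y ∈ S, N / r.σ ≤ finrank K (eIm P (Subalgebra.toSubmodule (Fy P l y)) R0)
  MovR : P.Mov l ≤ R0
  LM : ∀ g₁ : Γ, D.cl g₁ ≠ 0 → R0 ≤ D.ld g₁ (Q.Mov l)
  LM0 : ∀ g₁ : Γ, D.cl g₁ = 0 → P.Mov l ≤ D.ld g₁ (Q.Mov l)
  UB : ∀ y' ∈ Q.Mov l, y' ≠ 0 →
    r.n * finrank K' (Fy Q l y') ≤ N * m ∧
      (r.n * finrank K' (Fy Q l y') = N * m → r.σ * finrank K' (Ly Q l y') ≤ N * m)

/-- The witnesses at `X`. -/
def newS (P : Pt F K A (Fin 2)) (Q : Pt F K' R (Fin 2)) (D : KD K A K' R Γ P.τ Q.τ m) (l : ℕ)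
    (S : Set A) : Set R :=
  {y' | y' ∈ Q.Mov l ∧ ∃ y ∈ S, ∃ g : Γ, D.cl g ≠ 0 ∧ D.val y' = (g : WithTop Γ) ∧ D.c g y' = y}

namespace DE

variable [hmp : Fact m.Prime] [FiniteDimensional K A] [FiniteDimensional K' R]
variable {P : Pt F K A (Fin 2)} {Q : Pt F K' R (Fin 2)} {D : KD K A K' R Γ P.τ Q.τ m} {l N : ℕ}
  {r : Rec} {S : Set A} {R0 : Submodule K A} (E : DE P Q D l N r S R0)

include E

/-- The situation attached to a new witness. -/
lemma sit {y : A} {y' : R} {g : Γ} (hy : y ∈ S) (hy' : y' ∈ Q.Mov l) (hg : D.cl g ≠ 0)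
    (hv : D.val y' = (g : WithTop Γ)) (hc : D.c g y' = y) : Sit P Q D l y y' g N where
  m3 := E.m3
  mN := E.mN
  zeta := E.zeta
  hN := E.hN
  hN' := E.hN'
  hC := E.hC
  hC' := E.hC'
  h1 := E.h1
  h1' := E.h1'
  H0 := E.H0
  Hc := E.Hc
  βy := mem_cent.1 (P.Mov_le_cent l (E.good y hy).mem)
  Hy' := mem_cent.1 (Q.Mov_le_cent l hy')
  hval := hv
  hc := hc
  hg := hg

/-- Any witness lifts at any non-central value. -/
lemma exists_lift {y : A} (hy : y ∈ S) {g : Γ} (hg : D.cl g ≠ 0) :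
    ∃ y' ∈ newS P Q D l S, D.val y' = (g : WithTop Γ) ∧ D.c g y' = y := by
  have hyR : y ∈ R0 := E.MovR (E.good y hy).mem
  obtain ⟨x, hx, hxg, hxc⟩ := E.LM g hg hyR
  have hne : y ≠ 0 := (E.good y hy).ne
  have hval : D.val x = (g : WithTop Γ) := by
    apply le_antisymm _ hxg
    by_contra hlt
    have h0 := (D.c_eq_zero_iff g x hxg).2 (not_le.1 hlt)
    rw [hxc] at h0
    exact hne h0
  exact ⟨x, ⟨hx, y, hy, g, hg, hval, hxc⟩, hval, hxc⟩

/-- `(d)`: the new witnesses are good. -/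
theorem newS_good {y' : R} (hy' : y' ∈ newS P Q D l S) : Good Q (N * m) r l y' := by
  obtain ⟨hM, y, hy, g, hg, hv, hc⟩ := hy'
  have St := E.sit hy hM hg hv hc
  exact (St.good (E.good y hy) E.dvd R0 E.LM E.LM0 E.MovR (E.big y hy) hM (E.UB y' hM St.y'_ne)).1

/-- `(e)`: for every value, `𝒫(y)` is a lead of the new `𝒫_l`. -/
theorem PPy_le_ld {y : A} (hy : y ∈ S) (g₁ : Γ) :
    PPy P l y ≤ D.ld g₁ (⨆ y' ∈ newS P Q D l S, PPy Q l y') := by
  classical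
  -- a non-central value on a line through `g₁`
  obtain ⟨g, hg, hon⟩ : ∃ g : Γ, D.cl g ≠ 0 ∧ KD.OnLine D g g₁ := by
    by_cases h0 : D.cl g₁ = 0
    · obtain ⟨g, hg⟩ := D.cl_surj (1, 0)
      refine ⟨g, ?_, 0, by rw [h0, zero_nsmul]⟩
      rw [hg]
      intro h
      have := congrArg Prod.fst h
      simp at this
    · exact ⟨g₁, h0, KD.OnLine.self g₁⟩
  obtain ⟨y', hy', hv, hc⟩ := E.exists_lift hy hg
  have St := E.sit hy hy'.1 hg hv hc
  obtain ⟨-, h2, h3⟩ := St.good (E.good y hy) E.dvd R0 E.LM E.LM0 E.MovR (E.big y hy) hy'.1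
    (E.UB y' hy'.1 St.y'_ne)
  have h4 := St.ld_PPy_eq h2.le R0 E.LM E.MovR (E.MovR (E.good y hy).mem) h3.le hon
  rw [← h4]
  exact D.ld_mono g₁ (le_iSup₂_of_le y' hy' le_rfl)

theorem PPl_le_ld (g₁ : Γ) :
    (⨆ y ∈ S, PPy P l y) ≤ D.ld g₁ (⨆ y' ∈ newS P Q D l S, PPy Q l y') :=
  iSup₂_le fun y hy => E.PPy_le_ld hy g₁

/-- `(e)`: `m² dim 𝒫_l(ρ) ≤ dim 𝒫_l(X)`. -/
theorem finrank_PPl_le :
    m ^ 2 * finrank K ↥(⨆ y ∈ S, PPy P l y) ≤ finrank K' ↥(⨆ y' ∈ newS P Q D l S, PPy Q l y') := by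
  classical
  haveI : NeZero m := ⟨hmp.out.ne_zero⟩
  choose e he using D.cl_surj
  set W : Submodule K' R := ⨆ y' ∈ newS P Q D l S, PPy Q l y' with hW
  have h1 := Lead.LeadData.sum_lead_le_finrank D.toLeadData e
    (fun a b l₁ l₂ h₁ h₂ h => by
      have h3 := congrArg D.cl h
      rw [map_add, map_add, D.cl_lam l₁ h₁, D.cl_lam l₂ h₂, add_zero, add_zero, he, he] at h3
      exact h3) W
  have h2 : ∑ _x : ZMod m × ZMod m, finrank K ↥(⨆ y ∈ S, PPy P l y) ≤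
      ∑ x : ZMod m × ZMod m, finrank K (D.ld (e x) W) :=
    Finset.sum_le_sum fun x _ => Submodule.finrank_mono (E.PPl_le_ld (e x))
  simp only [Finset.sum_const, Finset.card_univ, Fintype.card_prod, ZMod.card, smul_eq_mul] at h2
  calc m ^ 2 * finrank K ↥(⨆ y ∈ S, PPy P l y)
      = m * m * finrank K ↥(⨆ y ∈ S, PPy P l y) := by ring
    _ ≤ _ := h2
    _ ≤ _ := h1

end DE

end Sit

/-! ### The instance on a level-up -/

section Inst

open LU

variable {K A K' R : Type*} [Field K] [DivisionRing A] [Algebra K A] [Field K'] [DivisionRing R]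
  [Algebra K R] [Algebra K' R] [Algebra K K'] [IsScalarTower K K' R] {τ : A →ₗ[K] K}
  [FiniteDimensional K A] (L : Lv K A K' R τ)

/-- The classes of monomials. -/
noncomputable def clK : GLv →+ ZMod L.m × ZMod L.m where
  toFun g := (((ofLex g).1 : ℤ), ((κ (ofLex g).2 : ℤ)))
  map_zero' := by simp
  map_add' a b := by
    simp only [ofLex_add, Prod.fst_add, Prod.snd_add, map_add, Int.cast_add, Prod.mk_add_mk]

@[simp] lemma clK_fst (g : GLv) : (clK L g).1 = (((ofLex g).1 : ℤ) : ZMod L.m) := rfl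
@[simp] lemma clK_snd (g : GLv) : (clK L g).2 = ((κ (ofLex g).2 : ℤ) : ZMod L.m) := rfl

lemma clK_eq_zero_iff {g : GLv} : clK L g = 0 ↔ g ∈ centLat L.m := by
  constructor
  · intro h
    have h1 := congrArg Prod.fst h
    have h2 := congrArg Prod.snd h
    exact ⟨(ZMod.intCast_zmod_eq_zero_iff_dvd _ _).1 h1, (ZMod.intCast_zmod_eq_zero_iff_dvd _ _).1 h2⟩
  · rintro ⟨h1, h2⟩
    exact Prod.ext ((ZMod.intCast_zmod_eq_zero_iff_dvd _ _).2 h1)
      ((ZMod.intCast_zmod_eq_zero_iff_dvd _ _).2 h2)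

/-- The K-level lead structure of a level-up. -/
noncomputable def toKD : KD K A K' R GLv τ L.τ' L.m where
  toLeadData := L.leadK
  val_one := L.vK_one
  val_mul := L.vK_mul
  c_one := by
    show (L.φ 1).coeff 0 = 1
    rw [map_one, THS.coeff_one, if_pos rfl]
  ε := fun g h => L.ε g h
  ε_ne := fun g h => L.ε.ne_zero g h
  ε_zero_left g := L.ε_central_left (centLat L.m).zero_mem g
  ε_zero_right g := L.ε_central_right (centLat L.m).zero_mem g
  c_mul := fun g h x y hx hy => L.c_mul hx hy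
  trace_res := fun y _ => L.c_τ' y (centLat L.m).zero_mem
  cl := clK L
  cl_lam := fun l hl => (clK_eq_zero_iff L).2 (L.lamK_mem hl)
  exists_lam := fun g hg =>
    ⟨L.scal g ((clK_eq_zero_iff L).1 hg), L.scal_ne _ _, L.lamK_scal _ _⟩
  cl_surj := by
    haveI : NeZero L.m := ⟨L.m_prime.ne_zero⟩
    intro x
    refine ⟨L.eK (⟨x.2.val, ZMod.val_lt _⟩, ⟨x.1.val, ZMod.val_lt _⟩), ?_⟩
    apply Prod.ext
    · rw [clK_fst, L.eK_fst]
      simp
    · rw [clK_snd, L.eK_κ]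
      simp
  ε_comm := by
    intro g h he
    have h1 : L.ζ ^ ((ofLex g).1 * κ (ofLex h).2 - (ofLex h).1 * κ (ofLex g).2) = 1 := by
      rw [zpow_sub₀ L.ζ_ne]
      have h2 : L.ζ ^ ((ofLex g).1 * κ (ofLex h).2) = L.ζ ^ ((ofLex h).1 * κ (ofLex g).2) := he
      rw [h2, div_self (zpow_ne_zero _ L.ζ_ne)]
    have h3 := (L.ζ_prim.zpow_eq_one_iff_dvd _).1 h1
    have h4 := (ZMod.intCast_zmod_eq_zero_iff_dvd _ L.m).2 h3
    rw [clK_fst, clK_snd, clK_fst, clK_snd]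
    push_cast at h4
    exact sub_eq_zero.1 h4
  gauss_le := fun e hcl W =>
    Lead.LeadData.finrank_le_sum_lead L.leadK L.basisK e L.hOK hcl W

@[simp] lemma toKD_val (x : R) : (toKD L).val x = L.vK x := rfl
@[simp] lemma toKD_c (g : GLv) (x : R) : (toKD L).c g x = L.c g x := rfl
lemma toKD_cl_eq_zero_iff {g : GLv} : (toKD L).cl g = 0 ↔ g ∈ centLat L.m := clK_eq_zero_iff L

end Inst

end Crest.Agent.Kurosh.ValD
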