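/-
S0270 (Kurosh), §J (helper83): leading coefficients along a level-up, no Gauss.

`L : Lv K A K' R τ`.  `VL L x g y`: all coefficients of `x` below the monomial `g` vanish, and the
coefficient at `g` is `y` (so `x` has value `≥ g`; `y = 0` is allowed).

* `VL.mul`: product rule with the phase `ε g g'`;
* `VL.ev`, `VL.d1`, `VL.d2`: `X ≡ ρ` (value `> 0`), then `ev X a`, `∂a[X;t]`, `B_a[X;t,t']` have the
  expected leads;
* `VL.inv`: conjugation by `g ≡ 1`;
* `imAd_lead`: `w ∈ [H,R]`, `H g = g β`, `g ≡ 1`, `[H,w]` of value `≥ γ` ⇒ `w` of value `≥ γ`, with lead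
  in `[β,A]`.
-/
import Crest.Agent.Kurosh.PlanDefs

set_option autoImplicit false

namespace Crest.Agent.Kurosh.VLead

open Hensel State Module LU

section THSLevel

variable {G k : Type*} [AddCommGroup G] [LinearOrder G] [IsOrderedAddMonoid G] [Field k]
variable {R : Type*} [DivisionRing R] [Algebra k R] {ε : Bichar G k}

lemma coeff_mul_of_lt {x y : THS R ε} {g h a : G} (hx : ∀ b < g, x.coeff b = 0)
    (hy : ∀ b < h, y.coeff b = 0) (ha : a < g + h) : (x * y).coeff a = 0 := by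
  rw [THS.coeff_mul]
  apply Finset.sum_eq_zero
  rintro ⟨i, j⟩ hij
  obtain ⟨hi, hj, hsum⟩ := Finset.mem_antidiagonal.1 hij
  simp only at hsum
  have h1 : g ≤ i := by
    by_contra hlt
    exact hi (hx i (not_le.1 hlt))
  have h2 : h ≤ j := by
    by_contra hlt
    exact hj (hy j (not_le.1 hlt))
  have h3 := add_le_add h1 h2
  rw [hsum] at h3
  exact absurd ha (not_lt.2 h3)

lemma coeff_mul_add {x y : THS R ε} {g h : G} (hx : ∀ b < g, x.coeff b = 0)
    (hy : ∀ b < h, y.coeff b = 0) : (x * y).coeff (g + h) = ε g h • (x.coeff g * y.coeff h) := by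
  classical
  rw [THS.coeff_mul]
  by_cases hm : (g, h) ∈ Finset.antidiagonal x.isPWO_supp y.isPWO_supp (g + h)
  · rw [Finset.sum_eq_single_of_mem (g, h) hm]
    rintro ⟨i, j⟩ hij hne
    obtain ⟨hi, hj, hsum⟩ := Finset.mem_antidiagonal.1 hij
    simp only at hsum
    exfalso
    have h1 : g ≤ i := by
      by_contra hlt
      exact hi (hx i (not_le.1 hlt))
    have h2 : h ≤ j := by
      by_contra hlt
      exact hj (hy j (not_le.1 hlt))
    apply hne
    rw [Prod.mk.injEq]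
    constructor
    · by_contra hgi
      have h4 : g < i := lt_of_le_of_ne h1 (Ne.symm hgi)
      have := add_lt_add_of_lt_of_le h4 h2
      rw [hsum] at this
      exact lt_irrefl _ this
    · by_contra hhj
      have h4 : h < j := lt_of_le_of_ne h2 (Ne.symm hhj)
      have := add_lt_add_of_le_of_lt h1 h4
      rw [hsum] at this
      exact lt_irrefl _ this
  · have h0 : x.coeff g * y.coeff h = 0 := by
      by_contra hne
      apply hm
      have h1 : x.coeff g ≠ 0 := left_ne_zero_of_mul hne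
      have h2 : y.coeff h ≠ 0 := right_ne_zero_of_mul hne
      exact Finset.mem_antidiagonal.2 ⟨h1, h2, rfl⟩
    rw [h0, smul_zero]
    apply Finset.sum_eq_zero
    rintro ⟨i, j⟩ hij
    obtain ⟨hi, hj, hsum⟩ := Finset.mem_antidiagonal.1 hij
    simp only at hsum
    exfalso
    have h1 : g ≤ i := by
      by_contra hlt
      exact hi (hx i (not_le.1 hlt))
    have h2 : h ≤ j := by
      by_contra hlt
      exact hj (hy j (not_le.1 hlt))
    have hgi : g = i := by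
      by_contra hgi
      have h4 : g < i := lt_of_le_of_ne h1 hgi
      have := add_lt_add_of_lt_of_le h4 h2
      rw [hsum] at this
      exact lt_irrefl _ this
    have hhj : h = j := by
      by_contra hhj
      have h4 : h < j := lt_of_le_of_ne h2 hhj
      have := add_lt_add_of_le_of_lt h1 h4
      rw [hsum] at this
      exact lt_irrefl _ this
    subst hgi hhj
    apply hm
    exact Finset.mem_antidiagonal.2 ⟨hi, hj, rfl⟩

end THSLevel

variable {K A K' R : Type*} [Field K] [DivisionRing A] [Algebra K A] [Field K'] [DivisionRing R]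
  [Algebra K R] [Algebra K' R] [Algebra K K'] [IsScalarTower K K' R] {τ : A →ₗ[K] K}
  (L : Lv K A K' R τ)

/-- The twist of the level-up. -/
noncomputable abbrev eps : Bichar GLv K := twist κ L.ζ L.ζ_ne

/-- The lead predicate: value `≥ g`, coefficient `y` at `g`. -/
structure VL (x : R) (g : GLv) (y : A) : Prop where
  lt : ∀ h, h < g → L.c h x = 0
  eq : L.c g x = y

variable {L} in
lemma c_def (g : GLv) (x : R) : L.c g x = (L.φ x).coeff g := rfl

namespace VL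

variable {L}

lemma c_add (g : GLv) (x y : R) : L.c g (x + y) = L.c g x + L.c g y := by
  simp only [Lv.c, map_add, THS.coeff_add]

lemma c_neg (g : GLv) (x : R) : L.c g (-x) = - L.c g x := by
  simp only [Lv.c, map_neg, THS.coeff_neg]

lemma c_sub (g : GLv) (x y : R) : L.c g (x - y) = L.c g x - L.c g y := by
  rw [sub_eq_add_neg, c_add, c_neg, sub_eq_add_neg]

lemma c_zero (g : GLv) : L.c g (0 : R) = 0 := by
  simp only [Lv.c, map_zero, THS.coeff_zero]

lemma zero (g : GLv) : VL L (0 : R) g 0 := ⟨fun _ _ => c_zero _, c_zero _⟩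

lemma add {x x' : R} {g : GLv} {y y' : A} (h : VL L x g y) (h' : VL L x' g y') :
    VL L (x + x') g (y + y') :=
  ⟨fun a ha => by rw [c_add, h.lt a ha, h'.lt a ha, add_zero], by rw [c_add, h.eq, h'.eq]⟩

lemma neg {x : R} {g : GLv} {y : A} (h : VL L x g y) : VL L (-x) g (-y) :=
  ⟨fun a ha => by rw [c_neg, h.lt a ha, neg_zero], by rw [c_neg, h.eq]⟩

lemma sub {x x' : R} {g : GLv} {y y' : A} (h : VL L x g y) (h' : VL L x' g y') :
    VL L (x - x') g (y - y') :=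
  ⟨fun a ha => by rw [c_sub, h.lt a ha, h'.lt a ha, sub_zero], by rw [c_sub, h.eq, h'.eq]⟩

lemma of_eq {x : R} {g : GLv} {y y' : A} (h : VL L x g y) (e : y = y') : VL L x g y' := e ▸ h

lemma mul {x x' : R} {g g' : GLv} {y y' : A} (h : VL L x g y) (h' : VL L x' g' y') :
    VL L (x * x') (g + g') (eps L g g' • (y * y')) := by
  refine ⟨fun a ha => ?_, ?_⟩
  · rw [Lv.c, map_mul]
    exact coeff_mul_of_lt h.lt h'.lt ha
  · rw [Lv.c, map_mul, coeff_mul_add h.lt h'.lt]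
    change _ • (L.c g x * L.c g' x') = _
    rw [h.eq, h'.eq]

end VL

lemma eps_zero_left (g : GLv) : eps L 0 g = 1 := by
  show L.ζ ^ (((ofLex (0 : GLv)).1 : ℤ) * κ (ofLex g).2) = 1
  simp

lemma eps_zero_right (g : GLv) : eps L g 0 = 1 := by
  show L.ζ ^ (((ofLex g).1 : ℤ) * κ (ofLex (0 : GLv)).2) = 1
  simp

namespace VL

variable {L}

lemma mul_zero_left {x x' : R} {g : GLv} {y y' : A} (h : VL L x 0 y) (h' : VL L x' g y') :
    VL L (x * x') g (y * y') := by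
  have := h.mul h'
  rwa [zero_add, eps_zero_left, one_smul] at this

lemma mul_zero_right {x x' : R} {g : GLv} {y y' : A} (h : VL L x g y) (h' : VL L x' 0 y') :
    VL L (x * x') g (y * y') := by
  have := h.mul h'
  rwa [add_zero, eps_zero_right, one_smul] at this

lemma of_phi {x : R} {g : GLv} {y : A} (h : L.φ x = THS.mono g y) : VL L x g y := by
  refine ⟨fun a ha => ?_, ?_⟩
  · rw [Lv.c, h, THS.coeff_mono, if_neg (ne_of_lt ha)]
  · rw [Lv.c, h, THS.coeff_mono, if_pos rfl]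

lemma one : VL L (1 : R) 0 1 := of_phi (by rw [map_one]; rfl)

end VL

/-- `inc` in coordinates. -/
lemma phi_inc (x : A) : L.φ (L.lev.inc x) = THS.mono 0 x := by
  have h := L.lev_mono x 0 0
  have h2 : L.lev.mono x 0 0 = L.lev.inc x := by
    rw [Lev.mono, L.lev.mon_zero, mul_one]
  rw [h2] at h
  rw [h]
  rfl

lemma VL_inc (x : A) : VL L (L.lev.inc x) 0 x := VL.of_phi (phi_inc L x)

lemma c_inc_mul (x : A) (y : R) (g : GLv) : L.c g (L.lev.inc x * y) = x * L.c g y := by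
  have h : L.c g (L.lev.inc x * y) = (THS.mono 0 x * L.φ y).coeff g := by
    rw [Lv.c, map_mul, phi_inc]
  have h2 := THS.coeff_mono_mul (ε := eps L) 0 x (L.φ y) g
  rw [zero_add, Bichar.zero_left, one_smul] at h2
  rw [h, h2]
  rfl

lemma c_mul_inc (x : A) (y : R) (g : GLv) : L.c g (y * L.lev.inc x) = L.c g y * x := by
  have h : L.c g (y * L.lev.inc x) = (L.φ y * THS.mono 0 x).coeff g := by
    rw [Lv.c, map_mul, phi_inc]
  have h2 := THS.coeff_mul_mono (ε := eps L) 0 x (L.φ y) g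
  rw [add_zero, Bichar.zero_right, one_smul] at h2
  rw [h, h2]
  rfl

variable {L}

lemma VL.ne_zero {x : R} {g : GLv} {y : A} (h : VL L x g y) (hy : y ≠ 0) : x ≠ 0 := by
  rintro rfl
  exact hy (h.eq ▸ VL.c_zero g)

/-- inverse of a `1`-unit -/
lemma vl_inv {u : R} (h : VL L u 0 1) : VL L u⁻¹ 0 1 := by
  have hu : u ≠ 0 := h.ne_zero one_ne_zero
  have hx : u⁻¹ ≠ 0 := inv_ne_zero hu
  have hφ : L.φ u⁻¹ ≠ 0 := fun h0 => hx ((map_eq_zero_iff L.φ L.φ.injective).1 h0)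
  set o := (L.φ u⁻¹).ord with ho
  have hlt : ∀ a, a < o → L.c a u⁻¹ = 0 := by
    intro a ha
    by_contra hne
    exact absurd (THS.ord_le (x := L.φ u⁻¹) hne) (not_le.2 ha)
  have hne : L.c o u⁻¹ ≠ 0 := THS.ord_mem hφ
  have hV : VL L u⁻¹ o (L.c o u⁻¹) := ⟨hlt, rfl⟩
  have hprod := hV.mul_zero_right h
  rw [inv_mul_cancel₀ hu, mul_one] at hprod
  have ho0 : o = 0 := by
    by_contra hne0
    have h1 : L.c o (1 : R) = 0 := by
      rw [Lv.c, map_one, THS.coeff_one, if_neg hne0]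
    exact hne (by rw [← hprod.eq, h1])
  rw [ho0] at hV hprod
  have h1 : L.c 0 (1 : R) = 1 := VL.one.eq
  have h2 := hprod.eq
  rw [h1] at h2
  exact hV.of_eq h2.symm

section Calc

variable {F ι : Type*} [Field F] [Algebra F K] [Algebra F A] [IsScalarTower F K A] [Algebra F R]
  [IsScalarTower F K R] {X : ι → R} {ρ : ι → A}

lemma vl_algebraMap (c : F) : VL L (algebraMap F R c) 0 (algebraMap F A c) := by
  apply VL.of_phi
  rw [IsScalarTower.algebraMap_apply F K R, L.φ_alg, ← IsScalarTower.algebraMap_apply F K A]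

lemma vl_ev (hX : ∀ v, VL L (X v) 0 (ρ v)) (a : FreeAlgebra F ι) :
    VL L (ev X a) 0 (ev ρ a) := by
  induction a using FreeAlgebra.induction with
  | grade0 r =>
      rw [AlgHom.commutes, AlgHom.commutes]
      exact vl_algebraMap r
  | grade1 i =>
      rw [ev_ι, ev_ι]
      exact hX i
  | mul a b ha hb =>
      rw [map_mul, map_mul]
      exact ha.mul_zero_left hb
  | add a b ha hb =>
      rw [map_add, map_add]
      exact ha.add hb

variable {t t' : ι → R} {τ₀ τ₁ : ι → A} {g g' : GLv}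

lemma vl_d1 (hX : ∀ v, VL L (X v) 0 (ρ v)) (ht : ∀ v, VL L (t v) g (τ₀ v))
    (a : FreeAlgebra F ι) : VL L (d1 X t a) g (d1 ρ τ₀ a) := by
  induction a using FreeAlgebra.induction with
  | grade0 r =>
      rw [d1_algebraMap, d1_algebraMap]
      exact VL.zero g
  | grade1 i =>
      rw [d1_ι, d1_ι]
      exact ht i
  | mul a b ha hb =>
      rw [d1_mul, d1_mul]
      exact (ha.mul_zero_right (vl_ev hX b)).add ((vl_ev hX a).mul_zero_left hb)
  | add a b ha hb =>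
      rw [d1_add, d1_add]
      exact ha.add hb

lemma vl_d2 (hX : ∀ v, VL L (X v) 0 (ρ v)) (ht : ∀ v, VL L (t v) g (τ₀ v))
    (ht' : ∀ v, VL L (t' v) g' (τ₁ v)) (a : FreeAlgebra F ι) :
    VL L (d2 X t t' a) (g + g') (eps L g g' • d2 ρ τ₀ τ₁ a) := by
  induction a using FreeAlgebra.induction with
  | grade0 r =>
      rw [d2_algebraMap, d2_algebraMap, smul_zero]
      exact VL.zero _
  | grade1 i =>
      rw [d2_ι, d2_ι, smul_zero]
      exact VL.zero _
  | mul a b ha hb =>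
      rw [d2_mul, d2_mul]
      have h1 := ((ha.mul_zero_right (vl_ev hX b)).add ((vl_ev hX a).mul_zero_left hb)).add
        ((vl_d1 hX ht a).mul (vl_d1 hX ht' b))
      refine h1.of_eq ?_
      simp only [smul_add, smul_mul_assoc, mul_smul_comm]
  | add a b ha hb =>
      rw [d2_add, d2_add, smul_add]
      exact ha.add hb

end Calc

/-- **Leads of `[H,R]`.** -/
theorem imAd_lead {β : A} {H u : R} (hu : VL L u 0 1) (hH : H * u = u * L.lev.inc β)
    (hsep : ∀ x : A, (∃ v, β * v - v * β = x) → β * x = x * β → x = 0)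
    {w y : R} (hw : ∃ v, H * v - v * H = w) (hy : H * w - w * H = y) {γ : GLv} {y₀ : A}
    (hγ : VL L y γ y₀) :
    ∃ x, VL L w γ x ∧ (∃ v, β * v - v * β = x) ∧ β * x - x * β = y₀ := by
  have hu0 : u ≠ 0 := hu.ne_zero one_ne_zero
  have hinv := vl_inv hu
  obtain ⟨v, hv⟩ := hw
  have hH' : u⁻¹ * H = L.lev.inc β * u⁻¹ := by
    calc u⁻¹ * H = u⁻¹ * H * (u * u⁻¹) := by rw [mul_inv_cancel₀ hu0, mul_one]
      _ = u⁻¹ * (H * u) * u⁻¹ := by noncomm_ring
      _ = u⁻¹ * (u * L.lev.inc β) * u⁻¹ := by rw [hH]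
      _ = (u⁻¹ * u) * L.lev.inc β * u⁻¹ := by noncomm_ring
      _ = L.lev.inc β * u⁻¹ := by rw [inv_mul_cancel₀ hu0, one_mul]
  have key : ∀ z : R, u⁻¹ * (H * z - z * H) * u =
      L.lev.inc β * (u⁻¹ * z * u) - (u⁻¹ * z * u) * L.lev.inc β := by
    intro z
    calc u⁻¹ * (H * z - z * H) * u = (u⁻¹ * H) * z * u - u⁻¹ * z * (H * u) := by noncomm_ring
      _ = (L.lev.inc β * u⁻¹) * z * u - u⁻¹ * z * (u * L.lev.inc β) := by rw [hH', hH]
      _ = _ := by noncomm_ring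
  have h1 := key v
  have h2 := key w
  rw [hv] at h1
  rw [hy] at h2
  have hc : ∀ (z : R) (h : GLv), L.c h (L.lev.inc β * z - z * L.lev.inc β) =
      β * L.c h z - L.c h z * β := by
    intro z h
    rw [VL.c_sub, c_inc_mul, c_mul_inc]
  have hy' : VL L (u⁻¹ * y * u) γ y₀ := by
    have := (hinv.mul_zero_left hγ).mul_zero_right hu
    simpa using this
  set w' := u⁻¹ * w * u with hw'
  have hw'c : ∀ h, ∃ v', β * v' - v' * β = L.c h w' := by
    intro h
    refine ⟨L.c h (u⁻¹ * v * u), ?_⟩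
    rw [← hc, ← h1]
  have hy'c : ∀ h, L.c h (u⁻¹ * y * u) = β * L.c h w' - L.c h w' * β := by
    intro h
    rw [← hc, ← h2]
  have hlt : ∀ h, h < γ → L.c h w' = 0 := by
    intro h hh
    apply hsep _ (hw'c h)
    have h3 := hy'c h
    rw [hy'.lt h hh] at h3
    exact sub_eq_zero.1 h3.symm
  have hV : VL L w' γ (L.c γ w') := ⟨hlt, rfl⟩
  refine ⟨L.c γ w', ?_, hw'c γ, ?_⟩
  · have h3 := (hu.mul_zero_left hV).mul_zero_right hinv
    have h4 : u * w' * u⁻¹ = w := by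
      rw [hw']
      calc u * (u⁻¹ * w * u) * u⁻¹ = (u * u⁻¹) * w * (u * u⁻¹) := by noncomm_ring
        _ = w := by rw [mul_inv_cancel₀ hu0, one_mul, mul_one]
    rw [h4, one_mul, mul_one] at h3
    exact h3
  · rw [← hy'c, hy'.eq]

/-! ### Leads of the calculus at a point -/

section Pt

variable {F ι : Type*} [Field F] [Algebra F K] [Algebra F A] [IsScalarTower F K A] [Algebra F R]
  [IsScalarTower F K R] [Algebra F K'] [IsScalarTower F K' R]
  (P : Pt F K A ι) (P' : Pt F K' R ι)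

/-- `P'` is a state over `P`: same list, `X ≡ ρ`, and a frame for the first `k` entries. -/
structure Over (L : Lv K A K' R τ) (k : ℕ) : Prop where
  a : P'.a = P.a
  ρ : ∀ v, VL L (P'.ρ v) 0 (P.ρ v)
  frame : ∀ i < k, ∃ u : R, VL L u 0 1 ∧ P'.β i * u = u * L.lev.inc (P.β i)

variable {P P'} {k : ℕ}

lemma sep_of_split (i : ℕ) (x : A) (h : ∃ v, P.β i * v - v * P.β i = x)
    (h' : P.β i * x = x * P.β i) : x = 0 := by
  have h1 : P.e i x = 0 := P.e_of_mem_imAd i ((mem_imAd).2 h)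
  have h2 : P.e i x = x := P.e_of_mem_cent i h'
  rw [← h2, h1]

/-- The first derivative at `X`. -/
lemma Over.dL (h : Over P P' L k) {t : ι → R} {τ₀ : ι → A} {g : GLv}
    (ht : ∀ v, VL L (t v) g (τ₀ v)) (i : ℕ) : VL L (P'.dL i t) g (P.dL i τ₀) := by
  rw [Pt.dL_apply, Pt.dL_apply, h.a]
  exact vl_d1 h.ρ ht _

/-- **T-lead and w-lead**: `t ∈ T(k)(X)` with lead `τ₀` at `γ`: `Π_i τ₀ = 0`, and `w_i^X t` has value
`≥ γ` and coefficient `w_i τ₀`. -/
theorem Over.w (h : Over P P' L k) {t : ι → R} {τ₀ : ι → A} {γ : GLv} (htT : t ∈ P'.T k)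
    (ht : ∀ v, VL L (t v) γ (τ₀ v)) {i : ℕ} (hi : i < k) :
    P.e i (P.dL i τ₀) = 0 ∧ VL L (P'.w i t) γ (P.w i τ₀) := by
  obtain ⟨u, hu, hH⟩ := h.frame i hi
  have h1 := P'.dL_add_comm_w i t
  rw [htT i hi] at h1
  have h2 : P'.β i * P'.w i t - P'.w i t * P'.β i = - P'.dL i t := by
    rw [eq_neg_iff_add_eq_zero, add_comm]
    rw [← h1]
  have h3 : VL L (- P'.dL i t) γ (- P.dL i τ₀) := (h.dL ht i).neg
  obtain ⟨x, hx1, hx2, hx3⟩ := imAd_lead hu hH (sep_of_split i)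
    ((mem_imAd).1 (P'.w_mem i t)) h2 h3
  have hd : P.β i * (-x) - (-x) * P.β i = P.dL i τ₀ := by
    have : P.β i * (-x) - (-x) * P.β i = -(P.β i * x - x * P.β i) := by noncomm_ring
    rw [this, hx3, neg_neg]
  have h4 : P.e i (P.dL i τ₀) = 0 := by
    apply P.e_of_mem_imAd
    rw [mem_imAd]
    exact ⟨-x, hd⟩
  refine ⟨h4, ?_⟩
  have h5 := P.dL_add_comm_w i τ₀
  rw [h4] at h5
  have h6 : P.β i * P.w i τ₀ - P.w i τ₀ * P.β i = - P.dL i τ₀ := by
    rw [eq_neg_iff_add_eq_zero, add_comm]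
    exact h5
  have h7 : P.w i τ₀ - x = 0 := by
    apply sep_of_split (P := P) i
    · have h8 := sub_mem (P.w_mem i τ₀) ((mem_imAd (K := K)).2 hx2)
      exact (mem_imAd).1 h8
    · have h9 : P.β i * (P.w i τ₀ - x) - (P.w i τ₀ - x) * P.β i = 0 := by
        have : P.β i * (P.w i τ₀ - x) - (P.w i τ₀ - x) * P.β i =
            (P.β i * P.w i τ₀ - P.w i τ₀ * P.β i) - (P.β i * x - x * P.β i) := by noncomm_ring
        rw [this, h6, hx3]
        abel
      exact sub_eq_zero.1 h9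
  rw [sub_eq_zero.1 h7]
  exact hx1

/-- The summand of `Γ` at `X`. -/
theorem Over.term (h : Over P P' L k) {t t' : ι → R} {τ₀ τ₁ : ι → A} {g g' g₀ : GLv} {c' : R} {c₀ : A}
    (ht : ∀ v, VL L (t v) g (τ₀ v)) (ht' : t' ∈ P'.T k) (ht'' : ∀ v, VL L (t' v) g' (τ₁ v))
    (hc : VL L c' g₀ c₀) {i : ℕ} (hi : i < k) :
    VL L (c' * (d2 P'.ρ t t' (P'.a i) + P'.dL i t * P'.w i t')) (g₀ + (g + g'))
      ((eps L g₀ (g + g') * eps L g g') •
        (c₀ * (d2 P.ρ τ₀ τ₁ (P.a i) + P.dL i τ₀ * P.w i τ₁))) := by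
  have h1 : VL L (d2 P'.ρ t t' (P'.a i)) (g + g') (eps L g g' • d2 P.ρ τ₀ τ₁ (P.a i)) := by
    rw [h.a]
    exact vl_d2 h.ρ ht ht'' _
  have h2 := (h.dL ht i).mul (h.w ht' ht'' hi).2
  have h3 := hc.mul (h1.add h2)
  refine h3.of_eq ?_
  rw [← smul_add, mul_smul_comm, mul_smul]

/-- The coefficient map, as an additive map. -/
noncomputable def cHom (L : Lv K A K' R τ) (g : GLv) : R →+ A where
  toFun := L.c g
  map_zero' := VL.c_zero g
  map_add' := VL.c_add g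

@[simp] lemma cHom_apply (g : GLv) (x : R) : cHom L g x = L.c g x := rfl

lemma c_sum {α : Type*} (s : Finset α) (f : α → R) (g : GLv) :
    L.c g (∑ a ∈ s, f a) = ∑ a ∈ s, L.c g (f a) :=
  map_sum (cHom L g) f s

omit [Algebra F K] [Algebra F A] [IsScalarTower F K A] [Algebra F R] [IsScalarTower F K R]
  [Algebra F K'] [IsScalarTower F K' R] in
lemma c_tau (x : R) {G : GLv} (hG : G ∈ centLat L.m) :
    L.c G (algebraMap K' R (L.τ' x)) = algebraMap K A (τ (L.c G x)) := by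
  rw [Lv.c, L.τ'_coeff, if_pos hG]
  rfl

/-- **The lead of `Γ`.** -/
theorem Over.Gam (h : Over P P' L k) (hτ : ∀ x, P'.τ x = L.τ' x) (hτ₀ : ∀ x, P.τ x = τ x)
    {t t' : ι → R} {τ₀ τ₁ : ι → A} {g g' g₀ : GLv} {c' : ℕ → R} {c₀ : ℕ → A}
    (ht : ∀ v, VL L (t v) g (τ₀ v)) (ht' : t' ∈ P'.T k) (ht'' : ∀ v, VL L (t' v) g' (τ₁ v))
    (hc : ∀ i < k, VL L (c' i) g₀ (c₀ i)) (hG : g₀ + (g + g') ∈ centLat L.m) :
    L.c (g₀ + (g + g')) (algebraMap K' R (P'.Gam k c' t t')) =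
      algebraMap K A ((eps L g₀ (g + g') * eps L g g') * P.Gam k c₀ τ₀ τ₁) := by
  unfold Pt.Gam
  rw [map_sum, c_sum, Finset.mul_sum, map_sum]
  refine Finset.sum_congr rfl fun i hi => ?_
  have hi' := Finset.mem_range.1 hi
  rw [hτ, c_tau _ hG, (h.term ht ht' ht'' (hc i hi') hi').eq, hτ₀, map_smul, smul_eq_mul]

/-- **The lead of `P'`.** -/
theorem Over.PP (h : Over P P' L k) (hτ : ∀ x, P'.τ x = L.τ' x) (hτ₀ : ∀ x, P.τ x = τ x)
    {t t' : ι → R} {τ₀ τ₁ : ι → A} {g g' g₀ : GLv} {c' : ℕ → R} {c₀ : ℕ → A}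
    (htT : t ∈ P'.T k) (ht : ∀ v, VL L (t v) g (τ₀ v)) (ht' : t' ∈ P'.T k)
    (ht'' : ∀ v, VL L (t' v) g' (τ₁ v))
    (hc : ∀ i < k, VL L (c' i) g₀ (c₀ i)) (hG : g₀ + (g + g') ∈ centLat L.m) :
    L.c (g₀ + (g + g')) (algebraMap K' R (P'.PP k c' t t')) =
      algebraMap K A (eps L g₀ (g + g') *
        (eps L g g' * P.Gam k c₀ τ₀ τ₁ - eps L g' g * P.Gam k c₀ τ₁ τ₀)) := by
  have hG' : g₀ + (g' + g) ∈ centLat L.m := by rwa [add_comm g' g]
  have h1 := h.Gam hτ hτ₀ ht ht' ht'' hc hG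
  have h2 := h.Gam hτ hτ₀ ht'' htT ht hc hG'
  rw [add_comm g' g] at h2
  rw [Pt.PP, map_sub, VL.c_sub, h1, h2, ← map_sub]
  congr 1
  ring

lemma eps_add_ne [CharZero K] (hm : L.m ≠ 2) (a b : GLv) : eps L a b + eps L b a ≠ 0 := by
  intro h0
  have hprim := L.ζ_prim
  have hmp := L.m_prime
  set x : ℤ := (ofLex a).1 * κ (ofLex b).2 with hx
  set y : ℤ := (ofLex b).1 * κ (ofLex a).2 with hy
  have e1 : eps L a b = L.ζ ^ x := rfl
  have e2 : eps L b a = L.ζ ^ y := rfl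
  rw [e1, e2] at h0
  have hz := L.ζ_ne
  have h1 : L.ζ ^ (x - y) = -1 := by
    rw [zpow_sub₀ hz]
    have h2 : L.ζ ^ x = - L.ζ ^ y := eq_neg_of_add_eq_zero_left h0
    rw [h2]
    field_simp
  have h2 : L.ζ ^ (2 * (x - y)) = 1 := by
    rw [mul_comm, zpow_mul, h1]
    norm_num
  have h3 : (L.m : ℤ) ∣ 2 * (x - y) := (hprim.zpow_eq_one_iff_dvd _).1 h2
  have hcop : IsCoprime (L.m : ℤ) 2 := by
    have : Nat.Coprime L.m 2 := (Nat.coprime_primes hmp Nat.prime_two).2 hm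
    exact Nat.isCoprime_iff_coprime.2 this
  have h4 : (L.m : ℤ) ∣ x - y := hcop.dvd_of_dvd_mul_left h3
  have h5 : L.ζ ^ (x - y) = 1 := (hprim.zpow_eq_one_iff_dvd _).2 h4
  rw [h1] at h5
  have h6 : (2 : K) = 0 := by linear_combination -h5
  exact two_ne_zero h6

/-- **Vanishing of `P'` at a central value gives vanishing of `P`**, if `S` vanishes at the leads. -/
theorem Over.PP_zero [CharZero K] (hm : L.m ≠ 2) (h : Over P P' L k) (hτ : ∀ x, P'.τ x = L.τ' x)
    (hτ₀ : ∀ x, P.τ x = τ x)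
    {t t' : ι → R} {τ₀ τ₁ : ι → A} {g g' g₀ : GLv} {c' : ℕ → R} {c₀ : ℕ → A}
    (htT : t ∈ P'.T k) (ht : ∀ v, VL L (t v) g (τ₀ v)) (ht' : t' ∈ P'.T k)
    (ht'' : ∀ v, VL L (t' v) g' (τ₁ v))
    (hc : ∀ i < k, VL L (c' i) g₀ (c₀ i)) (hG : g₀ + (g + g') ∈ centLat L.m)
    (h0 : P'.PP k c' t t' = 0) (hS : P.SS k c₀ τ₀ τ₁ = 0) : P.PP k c₀ τ₀ τ₁ = 0 := by
  have h1 := h.PP hτ hτ₀ htT ht ht' ht'' hc hG
  rw [h0, map_zero, VL.c_zero] at h1
  have h2 := (algebraMap K A).injective (h1.symm.trans (map_zero _).symm)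
  have h3 : eps L g₀ (g + g') ≠ 0 := (eps L).ne_zero _ _
  have h4 : eps L g g' * P.Gam k c₀ τ₀ τ₁ - eps L g' g * P.Gam k c₀ τ₁ τ₀ = 0 :=
    (mul_eq_zero.1 h2).resolve_left h3
  rw [Pt.SS] at hS
  have h5 : P.Gam k c₀ τ₁ τ₀ = - P.Gam k c₀ τ₀ τ₁ := eq_neg_of_add_eq_zero_right hS
  rw [h5] at h4
  have h6 : (eps L g g' + eps L g' g) * P.Gam k c₀ τ₀ τ₁ = 0 := by linear_combination h4
  have h7 := (mul_eq_zero.1 h6).resolve_left (eps_add_ne hm g g')
  rw [Pt.PP, h5, h7]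
  ring

end Pt

end Crest.Agent.Kurosh.VLead
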