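/-
S0270 (Kurosh), blueprint v3 §J(c), §J(f) (helper14): leads of `Ann_l(X)` and `Mov_l(X)` by counting.

Everything here is abstract over `D : LeadData K' K R A Γ` (the lead data of the level-up at the level
of the monomials): `P` is the state below, `P'` the state above.

* `lead_map_eq_of_count`: the leads of the image of a subspace under a coordinate projection.
* `KLead`: the output of §J(a), `CLead`: leads of the centraliser.
* `finrank_KK_le`: `dim 𝕂(k)(X) ≤ (|ρ|-1) dim 𝕀(k)(ρ) + dim 𝕂(k)(ρ)`.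
* `exists_KK_lead`: if equality holds, every element of `𝕀(k)(ρ)` (`𝕂(k)(ρ)` at a central monomial)
  is a lead of `𝕂(k)(X)`.
* `Ann_lead`: leads of `𝔸_l(X)` are in `𝒫_l(ρ)` (`𝔸_l(ρ)` at a central monomial).
* `Mov_lead`, `exists_Mov_lead_R`, `exists_Mov_lead_Mov`: (LM), leads of `Mov_l(X)`.
* `finrank_Ann_le_of_leads`, `finrank_RR_le`: §J(f).
* `exact_KK`: the exact count.
-/
import Crest.Agent.Kurosh.AdmExist
import Crest.Agent.Kurosh.LeadVec

set_option autoImplicit false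
set_option linter.unusedSectionVars false

namespace Crest.Agent.Kurosh.ValC

open Module Lead State
open _root_.Crest.Agent.Kurosh.Inv
open _root_.Crest.Agent.Kurosh.Inv.St

section Abstract

variable {K' K V A₁ R A Γ ρ : Type*} [Field K'] [Field K] [AddCommGroup V] [Module K' V]
  [AddCommGroup A₁] [Module K A₁] [AddCommGroup R] [Module K' R] [AddCommGroup A] [Module K A]
  [AddCommGroup Γ] [LinearOrder Γ] [IsOrderedAddMonoid Γ] [Fintype ρ]

/-- **Leads of a projection.** `p : V → R` is compatible with the lead data; if the leads of `W`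
that die under `p₀` are leads of `W ∩ ker p`, then the leads of `p(W)` are the images of the leads
of `W`. -/
theorem lead_map_eq_of_count [FiniteDimensional K A₁] [FiniteDimensional K A]
    [FiniteDimensional K' V]
    (D₁ : LeadData K' K V A₁ Γ) (D : LeadData K' K R A Γ) (e : ρ → Γ)
    (p : V →ₗ[K'] R) (p₀ : A₁ →ₗ[K] A)
    (hp : ∀ (g : Γ) (x : V), (g : WithTop Γ) ≤ D₁.val x →
      (g : WithTop Γ) ≤ D.val (p x) ∧ D.c g (p x) = p₀ (D₁.c g x))
    (G₁ : ∀ W : Submodule K' V, finrank K' W = ∑ r, finrank K (D₁.lead (e r) W))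
    (G : ∀ W : Submodule K' R, finrank K' W = ∑ r, finrank K (D.lead (e r) W))
    (W : Submodule K' V)
    (h : ∀ r, D₁.lead (e r) W ⊓ LinearMap.ker p₀ ≤ D₁.lead (e r) (W ⊓ LinearMap.ker p)) (r : ρ) :
    D.lead (e r) (W.map p) = (D₁.lead (e r) W).map p₀ := by
  classical
  symm
  refine TestCore.eq_of_le_of_sum_le (T := fun r => (D₁.lead (e r) W).map p₀)
    (L := fun r => D.lead (e r) (W.map p)) ?_ ?_ r
  · rintro r a ⟨b, ⟨x, hx, hxe, rfl⟩, rfl⟩
    exact ⟨p x, Submodule.mem_map_of_mem hx, (hp _ _ hxe).1, (hp _ _ hxe).2⟩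
  · -- counting
    rw [← G (W.map p)]
    have h1 : finrank K' (W.map p) + finrank K' ↥(W ⊓ LinearMap.ker p) = finrank K' W := by
      have h2 := LinearMap.finrank_range_add_finrank_ker (p.domRestrict W)
      have h3 : LinearMap.range (p.domRestrict W) = W.map p := by
        ext y
        simp [Submodule.mem_map]
      have h4 : finrank K' (LinearMap.ker (p.domRestrict W)) =
          finrank K' ↥(W ⊓ LinearMap.ker p) := by
        have : LinearMap.ker (p.domRestrict W) =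
            (W ⊓ LinearMap.ker p).comap W.subtype := by
          ext x
          simp
        rw [this]
        exact (Submodule.comapSubtypeEquivOfLe inf_le_left).finrank_eq
      rw [h3, h4] at h2
      exact h2
    have h5 : ∀ r, finrank K (D₁.lead (e r) W) ≤ finrank K ((D₁.lead (e r) W).map p₀) +
        finrank K (D₁.lead (e r) (W ⊓ LinearMap.ker p)) := by
      intro r
      have h6 := LinearMap.finrank_range_add_finrank_ker (p₀.domRestrict (D₁.lead (e r) W))
      have h7 : LinearMap.range (p₀.domRestrict (D₁.lead (e r) W)) = (D₁.lead (e r) W).map p₀ := by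
        ext y
        simp [Submodule.mem_map]
      have h8 : finrank K (LinearMap.ker (p₀.domRestrict (D₁.lead (e r) W))) ≤
          finrank K (D₁.lead (e r) (W ⊓ LinearMap.ker p)) := by
        have : LinearMap.ker (p₀.domRestrict (D₁.lead (e r) W)) =
            (D₁.lead (e r) W ⊓ LinearMap.ker p₀).comap (D₁.lead (e r) W).subtype := by
          ext x
          simp
        rw [this]
        have h9 : finrank K ((D₁.lead (e r) W ⊓ LinearMap.ker p₀).comap
            (D₁.lead (e r) W).subtype) = finrank K ↥(D₁.lead (e r) W ⊓ LinearMap.ker p₀) :=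
          (Submodule.comapSubtypeEquivOfLe inf_le_left).finrank_eq
        rw [h9]
        exact Submodule.finrank_mono (h r)
      rw [h7] at h6
      omega
    have h10 := G₁ W
    have h11 := G₁ (W ⊓ LinearMap.ker p)
    have h12 : ∑ r, finrank K (D₁.lead (e r) W) ≤ ∑ r, finrank K ((D₁.lead (e r) W).map p₀) +
        ∑ r, finrank K (D₁.lead (e r) (W ⊓ LinearMap.ker p)) := by
      rw [← Finset.sum_add_distrib]
      exact Finset.sum_le_sum fun r _ => h5 r
    show finrank K' (W.map p) ≤ ∑ r, finrank K ((D₁.lead (e r) W).map p₀)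
    omega

/-- Values of scalars are additive on inverses. -/
theorem lam_inv_add [Nontrivial V] (D : LeadData K' K V A₁ Γ) {l : K'} (hl : l ≠ 0) :
    D.lam l + D.lam l⁻¹ = 0 := by
  obtain ⟨x, hx⟩ := exists_ne (0 : V)
  have hne : D.val x ≠ ⊤ := fun h => hx (D.eq_zero_of_val x h)
  obtain ⟨g, hg⟩ := WithTop.ne_top_iff_exists.1 hne
  obtain ⟨h1, _⟩ := D.val_smul hl hg.symm
  obtain ⟨h2, _⟩ := D.val_smul (inv_ne_zero hl) h1
  rw [smul_smul, inv_mul_cancel₀ hl, one_smul, ← hg, add_assoc] at h2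
  have h3 : g = g + (D.lam l + D.lam l⁻¹) := by exact_mod_cast h2
  exact left_eq_add.1 h3

/-- Leading coefficients of scalars are multiplicative on inverses. -/
theorem lc_inv_mul [Nontrivial V] (D : LeadData K' K V A₁ Γ) {l : K'} (hl : l ≠ 0) :
    D.lc l⁻¹ * D.lc l = 1 := by
  obtain ⟨x, hx⟩ := exists_ne (0 : V)
  have hne : D.val x ≠ ⊤ := fun h => hx (D.eq_zero_of_val x h)
  obtain ⟨g, hg⟩ := WithTop.ne_top_iff_exists.1 hne
  have hgx : (g : WithTop Γ) ≤ D.val x := le_of_eq hg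
  obtain ⟨h1, h2⟩ := D.smul_spec l hl g x hgx
  obtain ⟨h3, h4⟩ := D.smul_spec l⁻¹ (inv_ne_zero hl) (g + D.lam l) (l • x) h1
  rw [smul_smul, inv_mul_cancel₀ hl, one_smul, add_assoc, lam_inv_add D hl, add_zero, h2,
    smul_smul] at h4
  have h5 : D.c g x ≠ 0 := by
    intro h0
    have := (D.c_eq_zero_iff g x hgx).1 h0
    rw [← hg] at this
    exact lt_irrefl _ this
  have h6 : (D.lc l⁻¹ * D.lc l - 1) • D.c g x = 0 := by
    rw [sub_smul, one_smul, ← h4, sub_self]
  rcases smul_eq_zero.1 h6 with h7 | h7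
  · exact sub_eq_zero.1 h7
  · exact absurd h7 h5

/-- A lead at `g` gives a lead at `g + lam l`. -/
theorem lead_shift (D : LeadData K' K V A₁ Γ) {W : Submodule K' V} {g g' : Γ} {l : K'} (hl : l ≠ 0)
    (hg : g + D.lam l = g') {a : A₁} (ha : a ∈ D.lead g W) : D.lc l • a ∈ D.lead g' W := by
  subst hg
  obtain ⟨x, hx, hxg, rfl⟩ := ha
  obtain ⟨h1, h2⟩ := D.smul_spec l hl g x hxg
  exact ⟨l • x, W.smul_mem l hx, h1, h2⟩

/-- Conversely, a lead at `g + lam l` gives a lead at `g`. -/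
theorem lead_unshift [Nontrivial V] (D : LeadData K' K V A₁ Γ) {W : Submodule K' V} {g g' : Γ} {l : K'}
    (hl : l ≠ 0) (hg : g + D.lam l = g') {a : A₁} (ha : D.lc l • a ∈ D.lead g' W) :
    a ∈ D.lead g W := by
  have h1 : g' + D.lam l⁻¹ = g := by
    rw [← hg, add_assoc, lam_inv_add D hl, add_zero]
  have h2 := lead_shift D (inv_ne_zero hl) h1 ha
  rwa [smul_smul, lc_inv_mul D hl, one_smul] at h2

end Abstract

section Step

variable {F K A K' R Γ ρ : Type*} [Field F] [Field K] [DivisionRing A] [Algebra F K] [Algebra K A]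
  [Algebra F A] [IsScalarTower F K A] [FiniteDimensional K A]
  [Field K'] [DivisionRing R] [Algebra F K'] [Algebra K' R] [Algebra F R] [IsScalarTower F K' R]
  [FiniteDimensional K' R]
  [AddCommGroup Γ] [LinearOrder Γ] [IsOrderedAddMonoid Γ] [Fintype ρ] [DecidableEq ρ]
  (P : Pt F K A (Fin 2)) (P' : Pt F K' R (Fin 2))
  (D : LeadData K' K R A Γ) (Λ : Set Γ) (e : ρ → Γ) (r₀ : ρ)

/-- Restriction of a sequence to the first `k` coordinates. -/
def res (𝕜 B : Type*) [Field 𝕜] [AddCommGroup B] [Module 𝕜 B] (k : ℕ) :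
    (ℕ → B) →ₗ[𝕜] (Fin k → B) :=
  LinearMap.pi fun i => LinearMap.proj (i : ℕ)

omit [Fintype ρ] [DecidableEq ρ] in
@[simp] lemma res_apply (𝕜 B : Type*) [Field 𝕜] [AddCommGroup B] [Module 𝕜 B] (k : ℕ) (c : ℕ → B)
    (i : Fin k) : res 𝕜 B k c i = c i := rfl

/-- `𝕂(k)(X)` as a subspace of `Fin k → R`. -/
noncomputable def WW (k : ℕ) : Submodule K' (Fin k → R) := (P'.KK k).map (res K' R k)

omit [Fintype ρ] [DecidableEq ρ] [FiniteDimensional K A] [FiniteDimensional K' R] in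
lemma finrank_WW [FiniteDimensional K' R] (k : ℕ) : finrank K' (WW P' k) = finrank K' (P'.KK k) := by
  have h : WW P' k = LinearMap.range (P'.KKcoord k) := by
    ext t
    constructor
    · rintro ⟨c, hc, rfl⟩
      exact ⟨⟨c, hc⟩, rfl⟩
    · rintro ⟨c, rfl⟩
      exact ⟨c, c.2, rfl⟩
  rw [h]
  exact LinearMap.finrank_range_of_inj (P'.KKcoord_injective k)

/-- The output of §J(a) for the prefix `k`: leads of kernel vectors at `X`. -/
def KLead (k : ℕ) (TT : Submodule K (Fin 2 → A)) : Prop :=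
  ∀ c' ∈ P'.KK k, ∀ g : Γ, (∀ i, (g : WithTop Γ) ≤ D.val (c' i)) →
    (fun i => D.c g (c' i)) ∈ P.KK k ∧ (g ∉ Λ → (fun i => D.c g (c' i)) ∈ IIT P k TT)

/-- Leads of the centraliser of `β_l(X)`: `C_l(ρ)` at every monomial. -/
structure CLead (l : ℕ) : Prop where
  le : ∀ (g : Γ) (x : R), x ∈ Cl P' l → (g : WithTop Γ) ≤ D.val x → D.c g x ∈ Cl P l
  ex : ∀ (g : Γ) (z : A), z ∈ Cl P l → ∃ x ∈ Cl P' l, (g : WithTop Γ) ≤ D.val x ∧ D.c g x = z

/-- The counting hypotheses: Gauss, the central class, and the pairing at value `0`. -/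
structure Hyp : Prop where
  gauss : ∀ W : Submodule K' R, finrank K' W = ∑ r, finrank K (D.lead (e r) W)
  gaussNeg : ∀ W : Submodule K' R, finrank K' W = ∑ r, finrank K (D.lead (-e r) W)
  gaussPi : ∀ (k : ℕ) (W : Submodule K' (Fin k → R)),
    finrank K' W = ∑ r, finrank K ((D.pi (Fin k)).lead (e r) W)
  central : ∀ r, e r ∈ Λ ↔ r = r₀
  cl : ∀ g : Γ, ∃ r, ∃ l : K', l ≠ 0 ∧ g + D.lam l = e r
  lam_mem : ∀ (l : K'), l ≠ 0 → ∀ g, g + D.lam l ∈ Λ ↔ g ∈ Λ
  neg_mem : ∀ g, -g ∈ Λ ↔ g ∈ Λ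
  pair : ∀ (g : Γ) (x y : R), (g : WithTop Γ) ≤ D.val x → ((-g : Γ) : WithTop Γ) ≤ D.val y →
    P'.τ (x * y) = 0 → P.τ (D.c g x * D.c (-g) y) = 0

omit [FiniteDimensional K A] in
/-- A sum with one large term. -/
lemma sum_le_central {f : ρ → ℕ} {a b : ℕ} (h0 : f r₀ ≤ a) (h1 : ∀ r, r ≠ r₀ → f r ≤ b) :
    ∑ r, f r ≤ a + (Fintype.card ρ - 1) * b := by
  classical
  rw [← Finset.add_sum_erase _ f (Finset.mem_univ r₀)]
  have h2 : ∑ r ∈ Finset.univ.erase r₀, f r ≤ ((Finset.univ.erase r₀).card) • b :=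
    Finset.sum_le_card_nsmul _ _ _ fun r hr => h1 r (Finset.ne_of_mem_erase hr)
  rw [Finset.card_erase_of_mem (Finset.mem_univ r₀), smul_eq_mul] at h2
  exact add_le_add h0 h2

omit [DecidableEq ρ] [FiniteDimensional K A] in
lemma mem_lead_WW {k : ℕ} {g : Γ} {a : Fin k → A} :
    a ∈ (D.pi (Fin k)).lead g (WW P' k) ↔
      ∃ c' ∈ P'.KK k, (∀ i, (g : WithTop Γ) ≤ D.val (c' i)) ∧ ∀ i : Fin k, D.c g (c' i) = a i := by
  constructor
  · rintro ⟨t, ⟨c', hc', rfl⟩, ht, rfl⟩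
    refine ⟨c', hc', fun i => ?_, fun i => rfl⟩
    by_cases hi : i < k
    · exact LeadData.le_pi_val_iff.1 ht ⟨i, hi⟩
    · rw [hc'.1 i (not_lt.1 hi), D.val_zero]
      exact le_top
  · rintro ⟨c', hc', h1, h2⟩
    refine ⟨res K' R k c', ⟨c', hc', rfl⟩, LeadData.le_pi_val_iff.2 fun i => h1 i, ?_⟩
    funext i
    exact h2 i

variable {P P' D Λ e r₀} {TT : Submodule K (Fin 2 → A)}

omit [DecidableEq ρ] [FiniteDimensional K A] [Fintype ρ] in
lemma lead_WW_le_KK {k : ℕ} (hK : KLead P P' D Λ k TT) (g : Γ) :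
    (D.pi (Fin k)).lead g (WW P' k) ≤ (P.KK k).map (res K A k) := by
  intro a ha
  obtain ⟨c', hc', h1, h2⟩ := (mem_lead_WW P' D).1 ha
  refine ⟨_, (hK c' hc' g h1).1, ?_⟩
  funext i
  exact h2 i

omit [DecidableEq ρ] [FiniteDimensional K A] [Fintype ρ] in
lemma lead_WW_le_II {k : ℕ} (hK : KLead P P' D Λ k TT) {g : Γ} (hg : g ∉ Λ) :
    (D.pi (Fin k)).lead g (WW P' k) ≤ (IIT P k TT).map (res K A k) := by
  intro a ha
  obtain ⟨c', hc', h1, h2⟩ := (mem_lead_WW P' D).1 ha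
  refine ⟨_, (hK c' hc' g h1).2 hg, ?_⟩
  funext i
  exact h2 i

/-- §J(a), the upper bound. -/
theorem finrank_KK_le (H : Hyp P P' D Λ e r₀) {k : ℕ} (hK : KLead P P' D Λ k TT) :
    finrank K' (P'.KK k) ≤ finrank K (P.KK k) + (Fintype.card ρ - 1) * finrank K (IIT P k TT) := by
  rw [← finrank_WW, H.gaussPi k (WW P' k)]
  refine sum_le_central r₀ ?_ ?_
  · exact (Submodule.finrank_mono (lead_WW_le_KK hK _)).trans (Submodule.finrank_map_le _ _)
  · intro r hr
    have hg : e r ∉ Λ := fun h => hr ((H.central r).1 h)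
    exact (Submodule.finrank_mono (lead_WW_le_II hK hg)).trans (Submodule.finrank_map_le _ _)

/-- The target of the leads of `𝕂(k)(X)`. -/
noncomputable def BB (P : Pt F K A (Fin 2)) (k : ℕ) (TT : Submodule K (Fin 2 → A)) (r₀ r : ρ) :
    Submodule K (ℕ → A) :=
  if r = r₀ then P.KK k else IIT P k TT

lemma BB_self (k : ℕ) : BB P k TT r₀ r₀ = P.KK k := if_pos rfl

lemma BB_of_ne (k : ℕ) {r : ρ} (h : r ≠ r₀) : BB P k TT r₀ r = IIT P k TT := if_neg h

lemma BB_le_KK (k : ℕ) (r : ρ) : BB P k TT r₀ r ≤ P.KK k := by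
  unfold BB
  split_ifs
  · exact le_rfl
  · exact AdmExist.IIT_le_KK P k TT

/-- §J(b)-type statement: if the bound of `finrank_KK_le` is an equality, all classes are leads. -/
theorem lead_WW_eq (H : Hyp P P' D Λ e r₀) {k : ℕ} (hK : KLead P P' D Λ k TT)
    (hex : finrank K (P.KK k) + (Fintype.card ρ - 1) * finrank K (IIT P k TT) ≤ finrank K' (P'.KK k))
    (r : ρ) : (D.pi (Fin k)).lead (e r) (WW P' k) = (BB P k TT r₀ r).map (res K A k) := by
  refine TestCore.eq_of_le_of_sum_le (T := fun r => (D.pi (Fin k)).lead (e r) (WW P' k))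
    (L := fun r => (BB P k TT r₀ r).map (res K A k)) ?_ ?_ r
  · intro r
    by_cases hr : r = r₀
    · subst hr
      show _ ≤ (BB P k TT r r).map (res K A k)
      rw [BB_self]
      exact lead_WW_le_KK hK (e r)
    · have hg : e r ∉ Λ := fun h => hr ((H.central r).1 h)
      show _ ≤ (BB P k TT r₀ r).map (res K A k)
      rw [BB_of_ne k hr]
      exact lead_WW_le_II hK hg
  · rw [← H.gaussPi k (WW P' k), finrank_WW]
    refine le_trans (sum_le_central r₀ (a := finrank K (P.KK k))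
      (b := finrank K (IIT P k TT)) ?_ ?_) hex
    · show finrank K ((BB P k TT r₀ r₀).map (res K A k)) ≤ _
      rw [BB_self]
      exact Submodule.finrank_map_le (res K A k) (P.KK k)
    · intro r hr
      show finrank K ((BB P k TT r₀ r).map (res K A k)) ≤ _
      rw [BB_of_ne k hr]
      exact Submodule.finrank_map_le (res K A k) (IIT P k TT)

/-- (A3): under the exact count, every element of `BB` is a lead of `𝕂(k)(X)`. -/
theorem exists_KK_lead (H : Hyp P P' D Λ e r₀) {k : ℕ} (hK : KLead P P' D Λ k TT)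
    (hex : finrank K (P.KK k) + (Fintype.card ρ - 1) * finrank K (IIT P k TT) ≤ finrank K' (P'.KK k))
    (r : ρ) {c : ℕ → A} (hc : c ∈ BB P k TT r₀ r) :
    ∃ c' ∈ P'.KK k, (∀ i, (e r : WithTop Γ) ≤ D.val (c' i)) ∧ ∀ i, D.c (e r) (c' i) = c i := by
  have h1 : res K A k c ∈ (D.pi (Fin k)).lead (e r) (WW P' k) := by
    rw [lead_WW_eq H hK hex r]
    exact Submodule.mem_map_of_mem hc
  obtain ⟨c', hc', h2, h3⟩ := (mem_lead_WW P' D).1 h1
  refine ⟨c', hc', h2, fun i => ?_⟩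
  by_cases hi : i < k
  · exact h3 ⟨i, hi⟩
  · rw [hc'.1 i (not_lt.1 hi), (BB_le_KK k r hc).1 i (not_lt.1 hi), map_zero]

section AnnLead

variable {N : ℕ} {Rc : ℕ → Rec} {Q : ℕ → Polynomial F} {l l' r' : ℕ} {S : ℕ → Set A}

/-- The last coordinate. -/
def lastL (𝕜 B : Type*) [Field 𝕜] [AddCommGroup B] [Module 𝕜 B] (l : ℕ) :
    (Fin (l + 1) → B) →ₗ[𝕜] B := LinearMap.proj (Fin.last l)

lemma lastL_res (𝕜 B : Type*) [Field 𝕜] [AddCommGroup B] [Module 𝕜 B] (l : ℕ) (c : ℕ → B) :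
    lastL 𝕜 B l (res 𝕜 B (l + 1) c) = c l := rfl

omit [Fintype ρ] [DecidableEq ρ] [FiniteDimensional K A] in
lemma map_lastL_WW (l : ℕ) : (WW P' (l + 1)).map (lastL K' R l) = P'.Ann l := by
  ext x
  rw [P'.mem_Ann_iff_lift]
  constructor
  · rintro ⟨_, ⟨c, hc, rfl⟩, rfl⟩
    exact ⟨c, hc, rfl⟩
  · rintro ⟨c, hc, rfl⟩
    exact ⟨res K' R (l + 1) c, ⟨c, hc, rfl⟩, rfl⟩

/-- The leads of `𝔸_l(X)` at representatives are the last coordinates of the leads of
`𝕂(l+1)(X)`. -/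
theorem lead_Ann_eq (H : Hyp P P' D Λ e r₀) (hV : Valid P N Rc Q l' r' S TT) (hl : l ≤ l')
    (hlr : l < r') (hK1 : KLead P P' D Λ (l + 1) TT) (hK0 : KLead P P' D Λ l TT)
    (hex : finrank K (P.KK l) + (Fintype.card ρ - 1) * finrank K (IIT P l TT) ≤ finrank K' (P'.KK l))
    (r : ρ) :
    D.lead (e r) (P'.Ann l) =
      ((D.pi (Fin (l + 1))).lead (e r) (WW P' (l + 1))).map (lastL K A l) := by
  rw [← map_lastL_WW]
  refine lead_map_eq_of_count (D.pi (Fin (l + 1))) D e (lastL K' R l) (lastL K A l) ?_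
    (H.gaussPi (l + 1)) H.gauss (WW P' (l + 1)) ?_ r
  · intro g x hx
    exact ⟨LeadData.le_pi_val_iff.1 hx (Fin.last l), rfl⟩
  · rintro r a ⟨ha, ha0⟩
    obtain ⟨c', hc', h1, h2⟩ := (mem_lead_WW P' D).1 ha
    have hal : a (Fin.last l) = 0 := ha0
    set c0 : ℕ → A := fun i => D.c (e r) (c' i) with hc0
    have h3 := hK1 c' hc' (e r) h1
    have h4 : c0 l = 0 := by
      have := h2 (Fin.last l)
      rw [hal] at this
      exact this
    have h5 : c0 ∈ P.KK l := P.mem_KK_of_last h3.1 h4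
    have h6 : c0 ∈ BB P l TT r₀ r := by
      by_cases hr : r = r₀
      · subst hr
        rw [BB_self]
        exact h5
      · have hg : e r ∉ Λ := fun h => hr ((H.central r).1 h)
        have h7 := AdmExist.mem_IIT_of_succ P hV hl hlr h5 (h3.2 hg)
        rw [BB_of_ne l hr]
        exact h7
    obtain ⟨c'', hc'', h8, h9⟩ := exists_KK_lead H hK0 hex r h6
    refine ⟨res K' R (l + 1) c'', ⟨⟨c'', P'.KK_mono (Nat.le_succ l) hc'', rfl⟩, ?_⟩,
      LeadData.le_pi_val_iff.2 fun i => h8 i, ?_⟩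
    · show c'' l = 0
      exact hc''.1 l le_rfl
    · funext i
      show D.c (e r) (c'' i) = a i
      rw [h9, ← h2 i]

/-- The hypotheses on the state below and on the count for the prefix `l`. -/
structure AnnHyp (S : ℕ → Set A) (N : ℕ) (Rc : ℕ → Rec) (Q : ℕ → Polynomial F) (l l' r' : ℕ)
    (TT : Submodule K (Fin 2 → A)) : Prop where
  V : Valid P N Rc Q l' r' S TT
  hl : l < l'
  K1 : KLead P P' D Λ (l + 1) TT
  K0 : KLead P P' D Λ l TT
  ex : finrank K (P.KK l) + (Fintype.card ρ - 1) * finrank K (IIT P l TT) ≤ finrank K' (P'.KK l)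

/-- Leads of `𝔸_l(X)`, at representatives. -/
theorem Ann_lead_rep (H : Hyp P P' D Λ e r₀) (A' : AnnHyp (P := P) (P' := P') (D := D) (Λ := Λ)
      (ρ := ρ) S N Rc Q l l' r' TT) (r : ρ) :
    (D.lead (e r) (P'.Ann l) ≤ P.Ann l) ∧ (r ≠ r₀ → D.lead (e r) (P'.Ann l) ≤ PPl P S l) := by
  have hlr : l < r' := lt_of_lt_of_le A'.hl A'.V.le
  rw [lead_Ann_eq H A'.V A'.hl.le hlr A'.K1 A'.K0 A'.ex r]
  refine ⟨?_, fun hr => ?_⟩
  · rintro a ⟨b, hb, rfl⟩
    obtain ⟨c', hc', h1, h2⟩ := (mem_lead_WW P' D).1 hb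
    have h3 := (A'.K1 c' hc' (e r) h1).1
    show b (Fin.last l) ∈ P.Ann l
    rw [← h2 (Fin.last l)]
    exact P.mem_Ann_iff_lift.2 ⟨_, h3, rfl⟩
  · rintro a ⟨b, hb, rfl⟩
    obtain ⟨c', hc', h1, h2⟩ := (mem_lead_WW P' D).1 hb
    have hg : e r ∉ Λ := fun h => hr ((H.central r).1 h)
    have h3 := (A'.K1 c' hc' (e r) h1).2 hg
    show b (Fin.last l) ∈ PPl P S l
    rw [← h2 (Fin.last l)]
    exact AdmExist.top_mem_PPl P A'.V A'.hl h3

/-- **§J(c), first half.** Leads of `𝔸_l(X)` at any monomial. -/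
theorem Ann_lead (H : Hyp P P' D Λ e r₀) (A' : AnnHyp (P := P) (P' := P') (D := D) (Λ := Λ)
      (ρ := ρ) S N Rc Q l l' r' TT) (g : Γ) {a : A} (ha : a ∈ D.lead g (P'.Ann l)) :
    a ∈ P.Ann l ∧ (g ∉ Λ → a ∈ PPl P S l) := by
  obtain ⟨r, l₀, hl₀, hg⟩ := H.cl g
  have h1 := lead_shift D hl₀ hg ha
  have hlc : D.lc l₀ ≠ 0 := D.lc_ne l₀ hl₀
  have h2 := Ann_lead_rep H A' r
  refine ⟨?_, fun hgΛ => ?_⟩
  · have h3 := h2.1 h1
    have h4 := Submodule.smul_mem _ (D.lc l₀)⁻¹ h3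
    rwa [smul_smul, inv_mul_cancel₀ hlc, one_smul] at h4
  · have hr : r ≠ r₀ := by
      rintro rfl
      apply hgΛ
      have h5 := (H.central r).2 rfl
      rw [← hg] at h5
      exact (H.lam_mem l₀ hl₀ g).1 h5
    have h3 := h2.2 hr h1
    have h4 := Submodule.smul_mem _ (D.lc l₀)⁻¹ h3
    rwa [smul_smul, inv_mul_cancel₀ hlc, one_smul] at h4

/-- **§J(f), the count for `𝔸_l(X)`.** -/
theorem finrank_Ann_le_of_leads (H : Hyp P P' D Λ e r₀) (A' : AnnHyp (P := P) (P' := P') (D := D)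
      (Λ := Λ) (ρ := ρ) S N Rc Q l l' r' TT) :
    finrank K' (P'.Ann l) ≤ finrank K (P.Ann l) + (Fintype.card ρ - 1) * finrank K (PPl P S l) := by
  rw [H.gauss (P'.Ann l)]
  refine sum_le_central r₀ ?_ ?_
  · exact Submodule.finrank_mono (Ann_lead_rep H A' r₀).1
  · intro r hr
    exact Submodule.finrank_mono ((Ann_lead_rep H A' r).2 hr)

omit [DecidableEq ρ] in
lemma card_pos_of (r₀ : ρ) : 0 < Fintype.card ρ := Fintype.card_pos_iff.2 ⟨r₀⟩

/-- **§J(f).** `dim R_l(X) ≤ dim Mov_l(X) + q_l`, given `m² dim 𝒫_l(ρ) ≤ dim 𝒫_l(X)`. -/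
theorem finrank_RR_le (H : Hyp P P' D Λ e r₀) (A' : AnnHyp (P := P) (P' := P') (D := D) (Λ := Λ)
      (ρ := ρ) S N Rc Q l l' r' TT) {S' : ℕ → Set R}
    (hPP : Fintype.card ρ * finrank K (PPl P S l) ≤ finrank K' (PPl P' S' l)) :
    finrank K' (RR P' S' l) ≤ finrank K' (P'.Mov l) + (Rc l).q := by
  have h1 := finrank_Ann_le_of_leads H A'
  have h2 := AdmExist.finrank_Ann_le P A'.V A'.hl
  have h3 := P'.finrank_Ann_add l
  have h4 := AdmExist.finrank_RR_add P' S' l
  have h5 : Fintype.card ρ * finrank K (PPl P S l) =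
      (Fintype.card ρ - 1) * finrank K (PPl P S l) + finrank K (PPl P S l) := by
    have h6 := card_pos_of r₀
    obtain ⟨n, hn⟩ : ∃ n, Fintype.card ρ = n + 1 := ⟨Fintype.card ρ - 1, by omega⟩
    rw [hn]
    simp only [Nat.add_sub_cancel]
    ring
  omega

/-- The orthogonal of `X` inside `C_l`. -/
def orthC (P : Pt F K A (Fin 2)) (l : ℕ) (X : Submodule K A) : Submodule K A where
  carrier := {x | x ∈ Cl P l ∧ ∀ y ∈ X, P.τ (y * x) = 0}
  add_mem' := by
    rintro x x' ⟨h1, h2⟩ ⟨h1', h2'⟩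
    exact ⟨add_mem h1 h1', fun z hz => by rw [mul_add, map_add, h2 z hz, h2' z hz, add_zero]⟩
  zero_mem' := ⟨zero_mem _, fun z _ => by simp⟩
  smul_mem' := by
    rintro s x ⟨h1, h2⟩
    exact ⟨Submodule.smul_mem _ s h1, fun z hz => by
      rw [mul_smul_comm, map_smul, h2 z hz, smul_zero]⟩

/-- The orthogonal of `X ⊂ C_l` in `C_l` has the complementary dimension. -/
lemma finrank_orthC (l : ℕ) {X : Submodule K A} (hW : X ≤ Cl P l) :
    finrank K (orthC P l X) + finrank K X = finrank K (cent (K := K) (P.β l)) := by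
  set C := cent (K := K) (P.β l) with hC
  let M : Submodule K C := X.comap C.subtype
  have hM : finrank K M = finrank K X :=
    (Submodule.comapSubtypeEquivOfLe hW).finrank_eq
  let φ : C →ₗ[K] Dual K M := M.subtype.dualMap ∘ₗ P.pairC l
  have hs : Function.Surjective φ := by
    intro f
    obtain ⟨g, hg⟩ := LinearMap.exists_extend f
    obtain ⟨c, hc⟩ := P.pairC_surjective l g
    refine ⟨c, ?_⟩
    change M.subtype.dualMap (P.pairC l c) = f
    rw [hc, ← hg]
    rfl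
  have hker : LinearMap.ker φ = (orthC P l X).comap C.subtype := by
    ext c
    simp only [LinearMap.mem_ker, Submodule.mem_comap, Submodule.subtype_apply]
    constructor
    · intro h0
      refine ⟨c.2, fun p hp => ?_⟩
      rw [P.τ_comm]
      exact LinearMap.congr_fun h0 ⟨⟨p, hW hp⟩, hp⟩
    · intro h0
      ext y
      have := h0.2 y.1.1 y.2
      rw [P.τ_comm] at this
      exact this
  have hleA : orthC P l X ≤ C := fun x hx => hx.1
  have h2 : finrank K ((orthC P l X).comap C.subtype) = finrank K (orthC P l X) :=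
    (Submodule.comapSubtypeEquivOfLe hleA).finrank_eq
  have h1 := LinearMap.finrank_range_add_finrank_ker φ
  have h3 : finrank K (Dual K M) = finrank K M := @Subspace.dual_finrank_eq K M _ _ _
  rw [LinearMap.range_eq_top.2 hs, finrank_top, h3, hM, hker, h2] at h1
  omega

/-- Leads of `𝔸_l(X)` are in `C_l(ρ)`. -/
lemma lead_Ann_le_cent (CL : CLead P P' D l) (g : Γ) : D.lead g (P'.Ann l) ≤ Cl P l := by
  rintro a ⟨x, hx, hxg, rfl⟩
  exact CL.le g x (mem_cent.2 hx.1) hxg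

/-- Leads of `Mov_l(X)` are orthogonal to the opposite leads of `𝔸_l(X)`. -/
lemma lead_Mov_le (H : Hyp P P' D Λ e r₀) (CL : CLead P P' D l) (g : Γ) :
    D.lead g (P'.Mov l) ≤ orthC P l (D.lead (-g) (P'.Ann l)) := by
  rintro a ⟨x, hx, hxg, rfl⟩
  refine ⟨CL.le g x (P'.Mov_le_cent l hx) hxg, ?_⟩
  rintro _ ⟨y, hy, hyg, rfl⟩
  have h1 : P'.τ (x * y) = 0 := by
    rw [P'.τ_comm]
    exact hy.2 x hx
  rw [P.τ_comm]
  exact H.pair g x y hxg hyg h1

/-- The valued duality for `Mov_l(X)`: `lead_e Mov_l(X) = C_l(ρ) ∩ (lead_{-e} 𝔸_l(X))^⊥`. -/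
theorem lead_Mov_eq (H : Hyp P P' D Λ e r₀) (CL : CLead P P' D l) (r : ρ) :
    D.lead (e r) (P'.Mov l) = orthC P l (D.lead (-e r) (P'.Ann l)) := by
  refine TestCore.eq_of_le_of_sum_le (T := fun r => D.lead (e r) (P'.Mov l))
    (L := fun r => orthC P l (D.lead (-e r) (P'.Ann l))) (fun r => lead_Mov_le H CL (e r)) ?_ r
  rw [← H.gauss (P'.Mov l)]
  have h1 : ∀ r, finrank K (orthC P l (D.lead (-e r) (P'.Ann l))) +
      finrank K (D.lead (-e r) (P'.Ann l)) = finrank K (cent (K := K) (P.β l)) :=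
    fun r => finrank_orthC l (lead_Ann_le_cent CL _)
  have h2 : ∑ r, (finrank K (orthC P l (D.lead (-e r) (P'.Ann l))) +
      finrank K (D.lead (-e r) (P'.Ann l))) = Fintype.card ρ * finrank K (cent (K := K) (P.β l)) := by
    rw [Finset.sum_congr rfl fun r _ => h1 r]
    simp
  rw [Finset.sum_add_distrib, ← H.gaussNeg (P'.Ann l)] at h2
  have h3 := P'.finrank_Ann_add l
  have h4 : finrank K' (cent (K := K') (P'.β l)) =
      Fintype.card ρ * finrank K (cent (K := K) (P.β l)) := by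
    have h5 := H.gauss (cent (K := K') (P'.β l))
    have h6 : ∀ r, D.lead (e r) (cent (K := K') (P'.β l)) = cent (K := K) (P.β l) := by
      intro r
      apply le_antisymm
      · rintro a ⟨x, hx, hxg, rfl⟩
        exact CL.le _ x hx hxg
      · intro z hz
        obtain ⟨x, hx, hxg, rfl⟩ := CL.ex (e r) z hz
        exact ⟨x, hx, hxg, rfl⟩
    rw [h5, Finset.sum_congr rfl fun r _ => by rw [h6 r]]
    simp
  show ∑ r, finrank K (orthC P l (D.lead (-e r) (P'.Ann l))) ≤ finrank K' (P'.Mov l)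
  omega

/-- **(LM), non-central monomials.** Every `z ∈ R_l(ρ)` is a lead of `Mov_l(X)`. -/
theorem exists_Mov_lead_R (H : Hyp P P' D Λ e r₀) (A' : AnnHyp (P := P) (P' := P') (D := D) (Λ := Λ)
      (ρ := ρ) S N Rc Q l l' r' TT) (CL : CLead P P' D l) {g : Γ} (hg : g ∉ Λ) {z : A}
    (hz : z ∈ RR P S l) : z ∈ D.lead g (P'.Mov l) := by
  obtain ⟨r, l₀, hl₀, hgr⟩ := H.cl g
  have hr : e r ∉ Λ := by
    rw [← hgr, H.lam_mem l₀ hl₀]
    exact hg
  have hnr : -e r ∉ Λ := by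
    rw [H.neg_mem]
    exact hr
  refine lead_unshift D hl₀ hgr ?_
  rw [lead_Mov_eq H CL r]
  have hz1 : D.lc l₀ • z ∈ RR P S l := Submodule.smul_mem _ _ hz
  refine ⟨hz1.1, fun y hy => ?_⟩
  exact hz1.2 y ((Ann_lead H A' (-e r) hy).2 hnr)

/-- **(LM), all monomials.** Every `z ∈ Mov_l(ρ)` is a lead of `Mov_l(X)`. -/
theorem exists_Mov_lead_Mov (H : Hyp P P' D Λ e r₀) (A' : AnnHyp (P := P) (P' := P') (D := D)
      (Λ := Λ) (ρ := ρ) S N Rc Q l l' r' TT) (CL : CLead P P' D l) (g : Γ) {z : A}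
    (hz : z ∈ P.Mov l) : z ∈ D.lead g (P'.Mov l) := by
  obtain ⟨r, l₀, hl₀, hgr⟩ := H.cl g
  refine lead_unshift D hl₀ hgr ?_
  rw [lead_Mov_eq H CL r]
  have hz1 : D.lc l₀ • z ∈ P.Mov l := Submodule.smul_mem _ _ hz
  refine ⟨P.Mov_le_cent l hz1, fun y hy => ?_⟩
  exact (Ann_lead H A' (-e r) hy).1.2 _ hz1

/-- **The exact count.** From Valid at `ρ` and at `X`, `m² dim 𝒫_u(ρ) ≤ dim 𝒫_u(X)` and the tight
equalities at `X`. -/
theorem exact_KK (H : Hyp P P' D Λ e r₀) (hV : Valid P N Rc Q l' r' S TT) (hl : l ≤ l')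
    {N' : ℕ} {Q' : ℕ → Polynomial F} {r'' : ℕ} {S' : ℕ → Set R}
    {TT' : Submodule K' (Fin 2 → R)} (_hVX : Valid P' N' Rc Q' l r'' S' TT')
    (hPP : ∀ u < l, Fintype.card ρ * finrank K (PPl P S u) ≤ finrank K' (PPl P' S' u))
    (htight : ∀ u < l, finrank K' (RR P' S' u) = finrank K' (P'.Mov u) + (Rc u).q)
    (hK : KLead P P' D Λ l TT) :
    finrank K (P.KK l) + (Fintype.card ρ - 1) * finrank K (IIT P l TT) ≤ finrank K' (P'.KK l) ∧
    finrank K (AdmExist.MMT P l TT) = qS Rc l ∧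
    ∀ u < l, finrank K' (PPl P' S' u) = Fintype.card ρ * finrank K (PPl P S u) := by
  classical
  have hV0 := AdmExist.Valid.mono P hV hl
  have hc := card_pos_of r₀
  have hA : finrank K' (P'.KK l) =
      ∑ u ∈ Finset.range l, finrank K' (PPl P' S' u) + qS Rc l := by
    rw [P'.finrank_KK_eq_sum l]
    unfold qS
    rw [← Finset.sum_add_distrib]
    refine Finset.sum_congr rfl fun u hu => ?_
    have h1 := P'.finrank_Ann_add u
    have h2 := AdmExist.finrank_RR_add P' S' u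
    have h3 := htight u (Finset.mem_range.1 hu)
    omega
  have hI := AdmExist.finrank_IIT_eq P hV hl
  have hU := finrank_KK_le H hK
  have hM : finrank K (AdmExist.MMT P l TT) + finrank K (IIT P l TT) = finrank K (P.KK l) :=
    P.finrank_MMN_add (AdmExist.IIT_le_KK P l TT)
  have hq := AdmExist.finrank_MMT_le P hV0
  have hL : Fintype.card ρ * ∑ u ∈ Finset.range l, finrank K (PPl P S u) ≤
      ∑ u ∈ Finset.range l, finrank K' (PPl P' S' u) := by
    rw [Finset.mul_sum]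
    exact Finset.sum_le_sum fun u hu => hPP u (Finset.mem_range.1 hu)
  have hexp : Fintype.card ρ * ∑ u ∈ Finset.range l, finrank K (PPl P S u) =
      (Fintype.card ρ - 1) * finrank K (IIT P l TT) + finrank K (IIT P l TT) := by
    rw [← hI]
    obtain ⟨n, hn⟩ : ∃ n, Fintype.card ρ = n + 1 := ⟨Fintype.card ρ - 1, by omega⟩
    rw [hn]
    simp only [Nat.add_sub_cancel]
    ring
  refine ⟨by omega, by omega, fun u hu => ?_⟩
  have h5 : ∑ u ∈ Finset.range l, Fintype.card ρ * finrank K (PPl P S u) =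
      ∑ u ∈ Finset.range l, finrank K' (PPl P' S' u) := by
    rw [← Finset.mul_sum]
    omega
  have h6 := (Finset.sum_eq_sum_iff_of_le (fun u hu => hPP u (Finset.mem_range.1 hu))).1 h5
  exact (h6 u (Finset.mem_range.2 hu)).symm

end AnnLead

end Step

end Crest.Agent.Kurosh.ValC
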