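/-
S0270 (Kurosh), blueprint v3 §J(c), §J(f) on a level-up `L : Lv K A K' R τ` (helper14).
-/
import Crest.Agent.Kurosh.ValC
import Crest.Agent.Kurosh.LeadK
import Crest.Agent.Kurosh.VLead

set_option autoImplicit false
set_option linter.unusedSectionVars false

namespace Crest.Agent.Kurosh.ValC

open Module Lead State LU VLead
open _root_.Crest.Agent.Kurosh.Inv
open _root_.Crest.Agent.Kurosh.Inv.St

variable {F K A K' R : Type*} [Field F] [Field K] [DivisionRing A] [Algebra F K] [Algebra K A]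
  [Algebra F A] [IsScalarTower F K A] [FiniteDimensional K A]
  [Field K'] [DivisionRing R] [Algebra F K'] [Algebra K' R] [Algebra F R] [IsScalarTower F K' R]
  [FiniteDimensional K' R]
  [Algebra K R] [Algebra K K'] [IsScalarTower K K' R] {τ : A →ₗ[K] K}
  (L : Lv K A K' R τ) (P : Pt F K A (Fin 2)) (P' : Pt F K' R (Fin 2))

/-- The central class. -/
def r00 : Fin L.m × Fin L.m := (⟨0, L.m_pos⟩, ⟨0, L.m_pos⟩)

lemma eK_r00_mem : L.eK (r00 L) ∈ centLat L.m := by
  refine ⟨?_, ?_⟩
  · rw [L.eK_fst]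
    simp [r00]
  · rw [L.eK_κ]
    simp [r00]

lemma eK_mem_iff (r : Fin L.m × Fin L.m) : L.eK r ∈ centLat L.m ↔ r = r00 L := by
  constructor
  · intro h
    apply L.eK_inj
    exact sub_mem h (eK_r00_mem L)
  · rintro rfl
    exact eK_r00_mem L

/-- The counting hypotheses of `ValC` hold on a level-up. -/
theorem hyp_of_Lv (hP : ∀ x, P.τ x = τ x) (hP' : ∀ x, P'.τ x = L.τ' x) :
    Hyp P P' L.leadK (centLat L.m : Set GLv) L.eK (r00 L) where
  gauss W := L.gaussK W
  gaussNeg W := L.gaussK_neg W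
  gaussPi k W := L.gaussK_pi W
  central r := eK_mem_iff L r
  cl g := L.hclK g
  lam_mem l hl g := (centLat L.m).add_mem_cancel_right (L.lamK_mem hl)
  neg_mem g := neg_mem_iff
  pair g x y hx hy h := by
    rw [hP]
    refine L.pair_zeroK (add_neg_cancel g) hx hy ?_
    rw [← hP']
    exact h

lemma vl_iff {x : R} {g : GLv} {y : A} :
    VL L x g y ↔ (g : WithTop GLv) ≤ L.vK x ∧ L.c g x = y := by
  rw [L.le_vK_iff]
  exact ⟨fun h => ⟨h.lt, h.eq⟩, fun h => ⟨h.1, h.2⟩⟩

variable {L P P'}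

/-- Leads of the centraliser of `β_l(X)`, from the frame `H u = u β`, `u ≡ 1`. -/
theorem clead_of_frame {l : ℕ} {u : R} (hu : VL L u 0 1)
    (hH : P'.β l * u = u * L.lev.inc (P.β l)) : CLead P P' L.leadK l := by
  have hu0 : u ≠ 0 := hu.ne_zero one_ne_zero
  have hui := vl_inv hu
  have hH' : VL L (P'.β l) 0 (P.β l) := by
    have h1 : P'.β l = u * L.lev.inc (P.β l) * u⁻¹ := by
      rw [← hH, mul_assoc, mul_inv_cancel₀ hu0, mul_one]
    rw [h1]
    have h2 := (hu.mul_zero_left (VL_inc L (P.β l))).mul_zero_left hui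
    simpa using h2
  refine ⟨fun g x hx hg => ?_, fun g z hz => ?_⟩
  · have hx' : P'.β l * x = x * P'.β l := mem_cent.1 hx
    have hV : VL L x g (L.c g x) := (vl_iff L).2 ⟨hg, rfl⟩
    have h1 := hH'.mul_zero_left hV
    have h2 := hV.mul_zero_right hH'
    rw [hx'] at h1
    exact mem_cent.2 (h1.eq.symm.trans h2.eq)
  · have hz' : P.β l * z = z * P.β l := mem_cent.1 hz
    let w : R := L.φ.symm (THS.mono g z)
    have hw : L.φ w = THS.mono g z := L.φ.apply_symm_apply _
    have hVw : VL L w g z := VL.of_phi hw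
    have hc : L.lev.inc (P.β l) * w = w * L.lev.inc (P.β l) := by
      apply L.φ.injective
      ext a
      have h1 := c_inc_mul L (P.β l) w a
      have h2 := c_mul_inc L (P.β l) w a
      simp only [Lv.c] at h1 h2
      rw [h1, h2, hw, THS.coeff_mono]
      split_ifs
      · exact hz'
      · simp
    have hx : VL L (u * w * u⁻¹) g z := by
      have h2 := (hu.mul_zero_left hVw).mul_zero_right hui
      simpa using h2
    refine ⟨u * w * u⁻¹, ?_, (vl_iff L).1 hx⟩
    refine mem_cent.2 ?_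
    have h3 : u⁻¹ * P'.β l = L.lev.inc (P.β l) * u⁻¹ := by
      calc u⁻¹ * P'.β l = u⁻¹ * (P'.β l * u) * u⁻¹ := by
            rw [mul_assoc, mul_assoc, mul_inv_cancel₀ hu0, mul_one]
        _ = L.lev.inc (P.β l) * u⁻¹ := by
            rw [hH, ← mul_assoc, inv_mul_cancel₀ hu0, one_mul]
    calc P'.β l * (u * w * u⁻¹) = (P'.β l * u) * w * u⁻¹ := by noncomm_ring
      _ = u * (L.lev.inc (P.β l) * w) * u⁻¹ := by rw [hH]; noncomm_ring
      _ = u * (w * L.lev.inc (P.β l)) * u⁻¹ := by rw [hc]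
      _ = u * w * (L.lev.inc (P.β l) * u⁻¹) := by noncomm_ring
      _ = u * w * (u⁻¹ * P'.β l) := by rw [h3]
      _ = u * w * u⁻¹ * P'.β l := by noncomm_ring

end Crest.Agent.Kurosh.ValC
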