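/-
S0270 (Kurosh), blueprint §J(h),(i),(j) (helper83): rank by Gauss, V7, no drop.
-/
import Crest.Agent.Kurosh.VLead
import Crest.Agent.Kurosh.AdmExist
import Crest.Agent.Kurosh.InvFacts

set_option autoImplicit false
set_option linter.unusedSectionVars false

namespace Crest.Agent.Kurosh.ValH

open Hensel State Module LU
open _root_.Crest.Agent.Kurosh.Inv
open _root_.Crest.Agent.Kurosh.Inv.St
open VLead
open CentFacts

/-! ### Linear algebra -/

section LinAlg

variable {K E : Type*} [Field K] [AddCommGroup E] [Module K E] [FiniteDimensional K E]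

/-- The image of `R` modulo the image of `W` is a quotient of `R/W`. -/
lemma finrank_map_sub_le {E' : Type*} [AddCommGroup E'] [Module K E'] (f : E →ₗ[K] E')
    {W R : Submodule K E} (h : W ≤ R) :
    finrank K (R.map f) + finrank K W ≤ finrank K (W.map f) + finrank K R := by
  -- rank-nullity on `R` and on `W`
  have h1 := LinearMap.finrank_range_add_finrank_ker (f.domRestrict R)
  have h2 := LinearMap.finrank_range_add_finrank_ker (f.domRestrict W)
  have hR : LinearMap.range (f.domRestrict R) = R.map f := by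
    ext y; simp [LinearMap.mem_range]
  have hW : LinearMap.range (f.domRestrict W) = W.map f := by
    ext y; simp [LinearMap.mem_range]
  rw [hR] at h1
  rw [hW] at h2
  have h3 : finrank K (LinearMap.ker (f.domRestrict W)) ≤
      finrank K (LinearMap.ker (f.domRestrict R)) := by
    let j : LinearMap.ker (f.domRestrict W) →ₗ[K] LinearMap.ker (f.domRestrict R) :=
      { toFun := fun z => ⟨⟨(z.1 : E), h z.1.2⟩, by
          have := z.2
          simp only [LinearMap.mem_ker, LinearMap.domRestrict_apply] at this ⊢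
          exact this⟩
        map_add' := fun a b => rfl
        map_smul' := fun c a => rfl }
    have hj : Function.Injective j := by
      intro a b hab
      apply Subtype.ext
      apply Subtype.ext
      have := congrArg (fun z : LinearMap.ker (f.domRestrict R) => ((z.1 : R) : E)) hab
      exact this
    exact LinearMap.finrank_le_finrank_of_injective hj
  omega

/-- Restricting both arguments of a pairing. -/
lemma rk_restrict (B : E →ₗ[K] E →ₗ[K] K) {U U₁ U₂ : Submodule K E} (h₁ : U₁ ≤ U) (h₂ : U₂ ≤ U) :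
    finrank K (LinearMap.range (B.domRestrict₁₂ U U)) ≤
      finrank K (LinearMap.range (B.domRestrict₁₂ U₁ U₂)) + (finrank K U - finrank K U₁)
        + (finrank K U - finrank K U₂) := by
  classical
  set f : U →ₗ[K] (U →ₗ[K] K) := B.domRestrict₁₂ U U with hf
  set T2 : Submodule K U := U₂.comap U.subtype with hT2
  set T1 : Submodule K U := U₁.comap U.subtype with hT1
  have e2 : finrank K T2 = finrank K U₂ := (Submodule.comapSubtypeEquivOfLe h₂).finrank_eq
  have e1 : finrank K T1 = finrank K U₁ := (Submodule.comapSubtypeEquivOfLe h₁).finrank_eq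
  have h3 := Rank.rk_le_dualRestrict f T2
  have h4 := Rank.rk_le_domRestrict (T2.subtype.dualMap ∘ₗ f) T1
  -- the range on `T1 × T2` injects into the range on `U₁ × U₂`
  have h5 : finrank K (LinearMap.range ((T2.subtype.dualMap ∘ₗ f).domRestrict T1)) ≤
      finrank K (LinearMap.range (B.domRestrict₁₂ U₁ U₂)) := by
    let p := Submodule.comapSubtypeEquivOfLe h₂
    let q := Submodule.comapSubtypeEquivOfLe h₁
    have e : (T2.subtype.dualMap ∘ₗ f).domRestrict T1 =
        (p.toLinearMap.dualMap) ∘ₗ ((B.domRestrict₁₂ U₁ U₂) ∘ₗ q.toLinearMap) := by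
      ext x y
      rfl
    rw [e, LinearMap.range_comp]
    refine (Submodule.finrank_map_le _ _).trans ?_
    exact Submodule.finrank_mono (LinearMap.range_comp_le_range _ _)
  rw [e2] at h3
  rw [e1] at h4
  omega

/-- Left-kernel count. -/
lemma rk_add_le (B : E →ₗ[K] E →ₗ[K] K) {U₁ U₂ L₀ L₁ : Submodule K E} (h₁ : U₁ ≤ L₁) (h₀ : L₀ ≤ L₁)
    (hz : ∀ τ ∈ L₀, ∀ τ' ∈ U₂, B τ τ' = 0) :
    finrank K (LinearMap.range (B.domRestrict₁₂ U₁ U₂)) + finrank K L₀ ≤ finrank K L₁ := by
  have h1 := LinearMap.finrank_range_add_finrank_ker (B.domRestrict₁₂ U₁ U₂)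
  -- the kernel contains `U₁ ⊓ L₀`
  have h2 : finrank K ↥(U₁ ⊓ L₀) ≤ finrank K (LinearMap.ker (B.domRestrict₁₂ U₁ U₂)) := by
    let j : ↥(U₁ ⊓ L₀) →ₗ[K] LinearMap.ker (B.domRestrict₁₂ U₁ U₂) :=
      { toFun := fun z => ⟨⟨z.1, z.2.1⟩, by
          rw [LinearMap.mem_ker]
          ext τ'
          exact hz _ z.2.2 _ τ'.2⟩
        map_add' := fun a b => rfl
        map_smul' := fun c a => rfl }
    have hj : Function.Injective j := by
      intro a b hab
      apply Subtype.ext
      have := congrArg (fun z : LinearMap.ker (B.domRestrict₁₂ U₁ U₂) => ((z.1 : U₁) : E)) hab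
      exact this
    exact LinearMap.finrank_le_finrank_of_injective hj
  have h3 := Submodule.finrank_sup_add_finrank_inf_eq U₁ L₀
  have h4 : finrank K ↥(U₁ ⊔ L₀) ≤ finrank K L₁ := Submodule.finrank_mono (sup_le h₁ h₀)
  omega

end LinAlg

/-! ### J(j) -/

section NoDrop

variable {F K A : Type*} [Field F] [Field K] [DivisionRing A] [Algebra F K] [Algebra K A]
  [Algebra F A] [IsScalarTower F K A] [FiniteDimensional K A] (P : Pt F K A (Fin 2))
  {N : ℕ} {R : ℕ → Rec} {Q : ℕ → Polynomial F} {l r : ℕ} {S : ℕ → Set A}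
  {TT : Submodule K (Fin 2 → A)}

/-- **J(j)**: no drop: at a valid state the tight test gives `dim R_u = dim Mov_u + q_u`. -/
theorem finrank_RR_eq (hV : Valid P N R Q l r S TT) {u : ℕ} (hu : u < l)
    (hT : ∀ y, Good P N (R u) u y → finrank K (Ay P u y) + (R u).q ≤ N / (R u).σ) :
    finrank K (RR P S u) = finrank K (P.Mov u) + (R u).q := by
  obtain ⟨y, hy⟩ := hV.S_ne u hu
  have h1 := hT y (hV.S_good u hu y hy)
  have h2 := hV.big u hu y hy
  have h3 := hV.mov_codim u hu
  have h4 := hV.mov_le u hu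
  have h5 := finrank_map_sub_le (eProj (isTraceForm P hV.one) (Fy P u y)) h4
  unfold Ay at h1
  rw [eIm_eq_map P hV.one] at h1 h2
  omega

end NoDrop

/-! ### Leads of a subspace and the shift by central monomials -/

section Lead

variable {K A K' R : Type*} [Field K] [DivisionRing A] [Algebra K A] [Field K'] [DivisionRing R]
  [Algebra K R] [Algebra K' R] [Algebra K K'] [IsScalarTower K K' R] {τ : A →ₗ[K] K}
  (L : Lv K A K' R τ)

variable {L} in
lemma vl_scalar (c : K) {x : R} {g : GLv} {y : A} (h : VL L x g y) :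
    VL L (algebraMap K R c * x) g (c • y) := by
  have h0 : VL L (algebraMap K R c) 0 (algebraMap K A c) := VL.of_phi (L.φ_alg c)
  rw [Algebra.smul_def]
  exact h0.mul_zero_left h

/-- The `K`-space of the leads at `g` of a `K'`-space of vectors. -/
noncomputable def leadV {ι : Type*} (V : Submodule K' (ι → R)) (g : GLv) : Submodule K (ι → A) where
  carrier := {τ₀ | ∃ t ∈ V, ∀ v, VL L (t v) g (τ₀ v)}
  add_mem' := by
    rintro a b ⟨t, ht, h⟩ ⟨t', ht', h'⟩
    exact ⟨t + t', V.add_mem ht ht', fun v => (h v).add (h' v)⟩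
  zero_mem' := ⟨0, V.zero_mem, fun v => VL.zero g⟩
  smul_mem' := by
    rintro c τ₀ ⟨t, ht, h⟩
    refine ⟨algebraMap K K' c • t, V.smul_mem _ ht, fun v => ?_⟩
    have := vl_scalar c (h v)
    rw [IsScalarTower.algebraMap_apply K K' R, ← Algebra.smul_def] at this
    exact this

variable {L} in
lemma mem_leadV {ι : Type*} {V : Submodule K' (ι → R)} {g : GLv} {τ₀ : ι → A} :
    τ₀ ∈ leadV L V g ↔ ∃ t ∈ V, ∀ v, VL L (t v) g (τ₀ v) := Iff.rfl

/-- Central monomials. -/
lemma exists_scalar_mono {h : GLv} (hh : h ∈ centLat L.m) :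
    ∃ l : K', l ≠ 0 ∧ VL L (algebraMap K' R l) h 1 := by
  classical
  set x : R := L.φ.symm (THS.mono h 1) with hx
  have hφ : L.φ x = THS.mono h 1 := by rw [hx, RingEquiv.apply_symm_apply]
  have hmem : x ∈ (algebraMap K' R).range := by
    rw [L.mem_K']
    intro g hg
    rw [hφ, THS.coeff_mono] at hg ⊢
    by_cases hgh : g = h
    · subst hgh
      rw [if_pos rfl]
      exact ⟨hh, ⟨1, map_one _⟩⟩
    · rw [if_neg hgh] at hg
      exact absurd rfl hg
  obtain ⟨l, hl⟩ := hmem
  have hV : VL L x h 1 := VL.of_phi hφ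
  refine ⟨l, ?_, by rw [hl]; exact hV⟩
  rintro rfl
  rw [map_zero] at hl
  have h3 : L.c h (0 : R) = 1 := by
    have h4 := hV.eq
    rwa [← hl] at h4
  exact one_ne_zero (h3.symm.trans (VL.c_zero h))

lemma eps_of_cent {h : GLv} (hh : h ∈ centLat L.m) (g : GLv) : eps L h g = 1 := by
  have h1 : (L.m : ℤ) ∣ (ofLex h).1 * κ (ofLex g).2 := Dvd.dvd.mul_right hh.1 _
  exact (L.ζ_prim.zpow_eq_one_iff_dvd _).2 h1

/-- The shift of a lead by a central monomial. -/
lemma VL.shift {x : R} {g h : GLv} {y : A} (hx : VL L x g y) {l : K'}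
    (hl : VL L (algebraMap K' R l) h 1) (hh : h ∈ centLat L.m) : VL L (l • x) (h + g) y := by
  have := hl.mul hx
  rw [eps_of_cent L hh, one_smul, one_mul, ← Algebra.smul_def] at this
  exact this

/-- Leads of a subspace in a whole class. -/
lemma leadV_shift {ι : Type*} {V : Submodule K' (ι → R)} {g g₁ : GLv} (h : g - g₁ ∈ centLat L.m)
    {τ₀ : ι → A} (h₀ : τ₀ ∈ leadV L V g₁) : τ₀ ∈ leadV L V g := by
  obtain ⟨t, ht, hv⟩ := h₀
  obtain ⟨l, -, hl⟩ := exists_scalar_mono L h
  refine ⟨l • t, V.smul_mem _ ht, fun v => ?_⟩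
  have := VL.shift L (hv v) hl h
  rwa [sub_add_cancel] at this

end Lead

/-! ### Rank by Gauss -/

section RankGauss

variable {K A K' R : Type*} [Field K] [DivisionRing A] [Algebra K A] [Field K'] [DivisionRing R]
  [Algebra K R] [Algebra K' R] [Algebra K K'] [IsScalarTower K K' R] {τ : A →ₗ[K] K}
  {L : Lv K A K' R τ}
  {F : Type*} [Field F] [Algebra F K] [Algebra F A] [IsScalarTower F K A] [Algebra F R]
  [IsScalarTower F K R] [Algebra F K'] [IsScalarTower F K' R]
  {P : Pt F K A (Fin 2)} {P' : Pt F K' R (Fin 2)}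

/-- **RANK BY GAUSS** (§J(h)): `w` has lead `c₀` at `g₀`. If each class carries leads `Al K j` of
codimension `≤ a` in `𝕋`, on which the form `P_{c₀}` has rank `≥ b + 2a` on `𝕋`, then the rank of
`P'_w` on `V` is `≥ (number of classes) * b`. -/
theorem rank_gauss [CharZero K] [FiniteDimensional K A] [FiniteDimensional K' R]
    (hm : L.m ≠ 2) {k : ℕ} (hO : Over P P' L k)
    (hτ : ∀ x, P'.τ x = L.τ' x) (hτ₀ : ∀ x, P.τ x = τ x)
    {ρ : Type*} [Fintype ρ] (rep : ρ → GLv)
    (hGauss : ∀ W : Submodule K' (Fin 2 → R), finrank K' W = ∑ e, finrank K (leadV L W (rep e)))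
    (V : Submodule K' (Fin 2 → R)) (hV : V ≤ P'.T k) (TT : Submodule K (Fin 2 → A))
    (c₀ : ℕ → A) (w : ℕ → R) {g₀ : GLv} (hw : ∀ i < k, VL L (w i) g₀ (c₀ i))
    (hS : ∀ τ₁ ∈ TT, ∀ τ₂ ∈ P.T k, P.SS k c₀ τ₁ τ₂ = 0)
    (Al : ℤ → ℤ → Submodule K (Fin 2 → A)) (hAl : ∀ a j, Al a j ≤ TT)
    (hlead : ∀ a j, ∀ τ₁ ∈ Al a j, ∃ t ∈ V, ∃ g : GLv, (L.m : ℤ) ∣ κ (ofLex g).2 - a ∧
      (L.m : ℤ) ∣ (ofLex g).1 - j ∧ ∀ v, VL L (t v) g (τ₁ v))
    {a b : ℕ} (hcod : ∀ x j, finrank K TT ≤ finrank K (Al x j) + a)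
    (hrk : b + 2 * a ≤ rkOn P k c₀ TT) :
    Fintype.card ρ * b ≤ rkOn P' k w V := by
  classical
  set f := (PPb P' k w).domRestrict₁₂ V V with hf
  set Ker : Submodule K' (Fin 2 → R) := (LinearMap.ker f).map V.subtype with hKer
  have hKerle : Ker ≤ V := by
    rintro _ ⟨t, -, rfl⟩
    exact t.2
  have hKermem : ∀ t ∈ Ker, ∀ t' ∈ V, P'.PP k w t t' = 0 := by
    rintro _ ⟨t, ht, rfl⟩ t' ht'
    have h1 : f t = 0 := ht
    exact LinearMap.congr_fun h1 ⟨t', ht'⟩
  have hdimK : finrank K' Ker = finrank K' (LinearMap.ker f) :=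
    LinearEquiv.finrank_eq (Submodule.equivMapOfInjective _ V.injective_subtype _).symm
  have hrn := LinearMap.finrank_range_add_finrank_ker f
  have hkey : ∀ e, b + finrank K (leadV L Ker (rep e)) ≤ finrank K (leadV L V (rep e)) := by
    intro e
    set g := rep e with hg
    set U₁ := Al (κ (ofLex g).2) (ofLex g).1 with hU₁
    set U₂ := Al (-κ (ofLex g₀).2 - κ (ofLex g).2) (-(ofLex g₀).1 - (ofLex g).1) with hU₂
    have h₁ : U₁ ≤ leadV L V g := by
      intro τ₁ hτ₁
      obtain ⟨t, ht, g₁, hg1, hg2, hv⟩ := hlead _ _ τ₁ hτ₁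
      refine leadV_shift L ?_ ⟨t, ht, hv⟩
      refine ⟨?_, ?_⟩
      · have : (ofLex (g - g₁)).1 = (ofLex g).1 - (ofLex g₁).1 := rfl
        rw [this]
        have h3 := dvd_neg.2 hg2
        rwa [neg_sub] at h3
      · have : κ (ofLex (g - g₁)).2 = κ (ofLex g).2 - κ (ofLex g₁).2 := by
          show κ ((ofLex g).2 - (ofLex g₁).2) = _
          rw [map_sub]
        rw [this]
        have h3 := dvd_neg.2 hg1
        rwa [neg_sub] at h3
    have h₀ : leadV L Ker g ≤ leadV L V g := by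
      rintro τ₁ ⟨t, ht, hv⟩
      exact ⟨t, hKerle ht, hv⟩
    have hz : ∀ τ₁ ∈ leadV L Ker g, ∀ τ₂ ∈ U₂, PPb P k c₀ τ₁ τ₂ = 0 := by
      rintro τ₁ ⟨t, ht, hv⟩ τ₂ hτ₂
      obtain ⟨t', ht', g', hg1, hg2, hv'⟩ := hlead _ _ τ₂ hτ₂
      have htT : t ∈ P'.T k := hV (hKerle ht)
      have ht'T : t' ∈ P'.T k := hV ht'
      have hτ₁T : τ₁ ∈ P.T k := fun i hi => (hO.w htT hv hi).1
      have hSS : P.SS k c₀ τ₁ τ₂ = 0 := by
        have := hS τ₂ (hAl _ _ hτ₂) τ₁ hτ₁T
        rw [Pt.SS, add_comm] at this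
        rw [Pt.SS]
        exact this
      have hG : g₀ + (g + g') ∈ centLat L.m := by
        refine ⟨?_, ?_⟩
        · have : (ofLex (g₀ + (g + g'))).1 = (ofLex g₀).1 + ((ofLex g).1 + (ofLex g').1) := rfl
          rw [this]
          have e1 : (ofLex g₀).1 + ((ofLex g).1 + (ofLex g').1) =
              (ofLex g').1 - (-(ofLex g₀).1 - (ofLex g).1) := by ring
          rw [e1]
          exact hg2
        · have : κ (ofLex (g₀ + (g + g'))).2 =
              κ (ofLex g₀).2 + (κ (ofLex g).2 + κ (ofLex g').2) := by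
            show κ ((ofLex g₀).2 + ((ofLex g).2 + (ofLex g').2)) = _
            rw [map_add, map_add]
          rw [this]
          have e1 : κ (ofLex g₀).2 + (κ (ofLex g).2 + κ (ofLex g').2) =
              κ (ofLex g').2 - (-κ (ofLex g₀).2 - κ (ofLex g).2) := by ring
          rw [e1]
          exact hg1
      exact hO.PP_zero hm hτ hτ₀ htT hv ht'T hv' hw hG (hKermem t ht t' ht') hSS
    have h5 := rk_add_le (PPb P k c₀) h₁ h₀ hz
    have h6 := rk_restrict (U₁ := U₁) (U₂ := U₂) (PPb P k c₀) (hAl _ _) (hAl _ _)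
    have h7 : finrank K TT ≤ finrank K U₁ + a := hcod _ _
    have h8 : finrank K TT ≤ finrank K U₂ + a := hcod _ _
    have h9 : b + 2 * a ≤ finrank K (LinearMap.range ((PPb P k c₀).domRestrict₁₂ TT TT)) := hrk
    have h10 : finrank K U₁ ≤ finrank K TT := Submodule.finrank_mono (hAl _ _)
    have h11 : finrank K U₂ ≤ finrank K TT := Submodule.finrank_mono (hAl _ _)
    omega
  have hsum := Finset.sum_le_sum (fun e (_ : e ∈ Finset.univ) => hkey e)
  rw [Finset.sum_add_distrib, Finset.sum_const, Finset.card_univ, smul_eq_mul, ← hGauss, ← hGauss,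
    hdimK] at hsum
  unfold rkOn
  have h12 : finrank K' (LinearMap.range f) + finrank K' (LinearMap.ker f) = finrank K' V := hrn
  rw [← hf]
  omega

end RankGauss

end Crest.Agent.Kurosh.ValH
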