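/-
S0270 (Kurosh), blueprint §J(h) (helper83): the concrete rank lower bound from a lead vector.
-/
import Crest.Agent.Kurosh.ValH
import Crest.Agent.Kurosh.LeadK
import Crest.Agent.Kurosh.ValC

set_option autoImplicit false
set_option linter.unusedSectionVars false

namespace Crest.Agent.Kurosh.ValH

open Hensel State Module LU
open _root_.Crest.Agent.Kurosh.Inv
open _root_.Crest.Agent.Kurosh.Inv.St
open VLead

section Basic

variable {K A K' R : Type*} [Field K] [DivisionRing A] [Algebra K A] [Field K'] [DivisionRing R]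
  [Algebra K R] [Algebra K' R] [Algebra K K'] [IsScalarTower K K' R] {τ : A →ₗ[K] K}
  {L : Lv K A K' R τ}

lemma vl_of_mem_fil {x : R} {j : ℕ} (h : x ∈ L.lev.Φ.fil j) {g : GLv} (hg : (ofLex g).1 < j) :
    VL L x g 0 := by
  have hz : ∀ a : GLv, (ofLex a).1 < j → L.c a x = 0 := by
    intro a ha
    by_contra hne
    have := (L.lev_fil j x).1 h a hne
    omega
  refine ⟨fun a ha => hz a (lt_of_le_of_lt (fst_mono ha.le) hg), hz g hg⟩

lemma vl_mono (x : A) (n : CE) (j : ℕ) : VL L (L.lev.mono x n j) (idx n (j : ℤ)) x :=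
  VL.of_phi (L.lev_mono x n j)

lemma vl_mono_of_lt (x : A) (n : CE) (j : ℕ) {g : GLv} (hg : g < idx n (j : ℤ)) :
    VL L (L.lev.mono x n j) g 0 := by
  have hz : ∀ a : GLv, a < idx n (j : ℤ) → L.c a (L.lev.mono x n j) = 0 := by
    intro a ha
    rw [Lv.c, L.lev_mono, THS.coeff_mono, if_neg (ne_of_lt ha)]
  exact ⟨fun a ha => hz a (ha.trans hg), hz g hg⟩

/-- A `1`-unit. -/
lemma vl_one_unit {x y : R} (hx : x - (1 + y) ∈ L.lev.Φ.fil 2) (hy : y ∈ L.lev.Φ.fil 1) :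
    VL L x 0 1 := by
  have h1 : x - 1 ∈ L.lev.Φ.fil 1 := by
    have h2 : x - (1 + y) ∈ L.lev.Φ.fil 1 := L.lev.Φ.anti (by omega) hx
    have h3 := add_mem h2 hy
    have e : x - (1 + y) + y = x - 1 := by abel
    rwa [e] at h3
  have h4 : VL L (x - 1) 0 0 := vl_of_mem_fil h1 (by simp)
  have h5 := h4.add VL.one
  rw [sub_add_cancel, zero_add] at h5
  exact h5

lemma zero_lt_mu1 : (0 : CE) < mu1 := by
  rw [mu1, cExp, sExp, Prod.Lex.lt_iff]
  left
  show (0 : Levels.CExp) < _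
  rw [Finsupp.Lex.lt_iff]
  refine ⟨OrderDual.toDual 0, ?_, ?_⟩
  · intro j hj
    have hj' : 0 < OrderDual.ofDual j := hj
    have h1 : OrderDual.ofDual j ≠ 0 := Nat.ne_of_gt hj'
    show (0 : ℤ) = ((Finsupp.single (0:ℕ) (1:ℤ) + 0 : ℕ →₀ ℤ)) (OrderDual.ofDual j)
    simp [h1]
  · show (0 : ℤ) < ((Finsupp.single (0:ℕ) (1:ℤ) + 0 : ℕ →₀ ℤ)) (0:ℕ)
    simp

end Basic

section Kers

variable {K E D : Type*} [Field K] [AddCommGroup E] [Module K E] [AddCommGroup D] [Module K D]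
  [FiniteDimensional K E]

/-- Two linear maps with values in `Z`: the common kernel has codimension `≤ 2 dim Z`. -/
lemma finrank_two_kers (f g : E →ₗ[K] D) (Z : Submodule K D)
    (h1 : LinearMap.range f ≤ Z) (h2 : LinearMap.range g ≤ Z) [FiniteDimensional K Z] :
    finrank K E ≤ finrank K ↥(LinearMap.ker f ⊓ LinearMap.ker g) + 2 * finrank K Z := by
  have hr1 := LinearMap.finrank_range_add_finrank_ker f
  have hr2 := LinearMap.finrank_range_add_finrank_ker (g.domRestrict (LinearMap.ker f))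
  have hle1 := Submodule.finrank_mono h1
  have hle2 : finrank K (LinearMap.range (g.domRestrict (LinearMap.ker f))) ≤ finrank K Z := by
    refine (Submodule.finrank_mono ?_).trans (Submodule.finrank_mono h2)
    rintro _ ⟨x, rfl⟩
    exact ⟨x.1, rfl⟩
  have hker : finrank K (LinearMap.ker (g.domRestrict (LinearMap.ker f))) ≤
      finrank K ↥(LinearMap.ker f ⊓ LinearMap.ker g) := by
    let j : LinearMap.ker (g.domRestrict (LinearMap.ker f)) →ₗ[K]
        ↥(LinearMap.ker f ⊓ LinearMap.ker g) :=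
      { toFun := fun z => ⟨z.1.1, z.1.2, z.2⟩
        map_add' := fun a b => rfl
        map_smul' := fun c a => rfl }
    have hj : Function.Injective j := by
      intro a b hab
      apply Subtype.ext
      apply Subtype.ext
      exact congrArg (fun z : ↥(LinearMap.ker f ⊓ LinearMap.ker g) => (z : E)) hab
    exact LinearMap.finrank_le_finrank_of_injective hj
  omega

end Kers

section Abs

variable {K A K' R : Type*} [Field K] [DivisionRing A] [Algebra K A] [Field K'] [DivisionRing R]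
  [Algebra K R] [Algebra K' R] [Algebra K K'] [IsScalarTower K K' R] {τ : A →ₗ[K] K}
  {L : Lv K A K' R τ}
  {F : Type*} [Field F] [Algebra F K] [Algebra F A] [IsScalarTower F K A] [Algebra F R]
  [IsScalarTower F K R] [Algebra F K'] [IsScalarTower F K' R]
  {P : Pt F K A (Fin 2)} {P' : Pt F K' R (Fin 2)}

/-- The data of a solution give `Over`. -/
theorem Over.of_PSol [FiniteDimensional K A] {k : ℕ} {t1 t2 : Fin 2 → A} {X : Fin 2 → R} {g : ℕ → R} (ha : P'.a = P.a)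
    (hX : P'.ρ = X) (h : ∀ J, L.lev.PSol P k J t1 t2 X g) : Over P P' L k := by
  refine ⟨ha, fun v => ?_, fun i hi => ⟨g i, ?_, ?_⟩⟩
  · rw [hX]
    have h1 := (h 0).leadX v
    have h2 : X v - (L.lev.inc (P.ρ v) + L.lev.mono (t1 v) 0 1 + L.lev.mono (t2 v) L.lev.μ₁ 1)
        ∈ L.lev.Φ.fil 1 := L.lev.Φ.anti (by omega) h1
    have h3 := add_mem (add_mem h2 (L.lev.mono_mem (t1 v) 0 1)) (L.lev.mono_mem (t2 v) L.lev.μ₁ 1)
    have e : X v - (L.lev.inc (P.ρ v) + L.lev.mono (t1 v) 0 1 + L.lev.mono (t2 v) L.lev.μ₁ 1)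
        + L.lev.mono (t1 v) 0 1 + L.lev.mono (t2 v) L.lev.μ₁ 1 = X v - L.lev.inc (P.ρ v) := by abel
    rw [e] at h3
    have h4 : VL L (X v - L.lev.inc (P.ρ v)) 0 0 := vl_of_mem_fil h3 (by simp)
    have h5 := h4.add (VL_inc L (P.ρ v))
    rwa [sub_add_cancel, zero_add] at h5
  · have h1 := (h 0).leadg i hi
    have h2 := add_mem (L.lev.mono_mem (P.w i t1) 0 1) (L.lev.mono_mem (P.w i t2) L.lev.μ₁ 1)
    have e : 1 + L.lev.mono (P.w i t1) 0 1 + L.lev.mono (P.w i t2) L.lev.μ₁ 1 =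
        1 + (L.lev.mono (P.w i t1) 0 1 + L.lev.mono (P.w i t2) L.lev.μ₁ 1) := by abel
    rw [e] at h1
    exact vl_one_unit h1 h2
  · have h1 := L.lev.exact_of_PSol (P := P) h hi
    rw [Pt.β, hX, ha]
    exact h1

/-- Codimension of the allowed subspace in `𝕋`. -/
theorem finrank_allowed_ge [FiniteDimensional K A] {k : ℕ} {t1 t2 : Fin 2 → A}
    (TT : Submodule K (Fin 2 → A))
    (N' : Submodule K (ℕ → A)) (hN : N' ≤ P.KK k)
    (h0 : ∀ c ∈ N', ∀ τ₁ ∈ TT, P.PP k c t1 τ₁ = 0 ∧ P.PP k c t2 τ₁ = 0)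
    {q : ℕ} (hq : finrank K (P.KK k) ≤ finrank K N' + q)
    (hTT : TT ≤ P.T k) (hK0 hK1 : Prop) :
    finrank K TT ≤ finrank K ↥(allowed P k t1 t2 hK0 hK1 ⊓ TT) + 2 * q := by
  classical
  let C := P.KK k
  have : FiniteDimensional K C := inferInstanceAs (FiniteDimensional K (P.KK k))
  let Ψ₁ : (Fin 2 → A) → (Fin 2 → A) →ₗ[K] Dual K C := fun t =>
    (C.subtype.dualMap) ∘ₗ ((P.PPtri k).flip t).flip
  let N'' : Submodule K C := N'.comap C.subtype
  have hN'' : finrank K N'' = finrank K N' := (Submodule.comapSubtypeEquivOfLe hN).finrank_eq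
  let Z : Submodule K (Dual K C) := N''.dualAnnihilator
  have hann := Subspace.finrank_add_finrank_dualAnnihilator_eq N''
  have hdimC : finrank K Z ≤ q := by
    have hC : finrank K C = finrank K (P.KK k) := rfl
    show finrank K N''.dualAnnihilator ≤ q
    omega
  have hf : ∀ t, (∀ c ∈ N', ∀ τ₁ ∈ TT, P.PP k c t τ₁ = 0) →
      LinearMap.range ((Ψ₁ t) ∘ₗ TT.subtype) ≤ Z := by
    rintro t ht _ ⟨τ₁, rfl⟩
    show _ ∈ N''.dualAnnihilator
    rw [Submodule.mem_dualAnnihilator]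
    intro c hc
    exact ht c hc τ₁ τ₁.2
  have h1 := hf t1 fun c hc τ₁ hτ₁ => (h0 c hc τ₁ hτ₁).1
  have h2 := hf t2 fun c hc τ₁ hτ₁ => (h0 c hc τ₁ hτ₁).2
  set f := (Ψ₁ t1) ∘ₗ TT.subtype with hfdef
  set g := (Ψ₁ t2) ∘ₗ TT.subtype with hgdef
  have hk := finrank_two_kers f g Z h1 h2
  have hker : finrank K ↥(LinearMap.ker f ⊓ LinearMap.ker g) ≤
      finrank K ↥(allowed P k t1 t2 hK0 hK1 ⊓ TT) := by
    have hmem : ∀ z : ↥(LinearMap.ker f ⊓ LinearMap.ker g),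
        ((z.1 : TT) : Fin 2 → A) ∈ allowed P k t1 t2 hK0 hK1 ⊓ TT := by
      intro z
      have hz1 : f z.1 = 0 := z.2.1
      have hz2 : g z.1 = 0 := z.2.2
      refine ⟨⟨hTT z.1.2, fun _ c hc => ?_, fun _ c hc => ?_⟩, z.1.2⟩
      · exact LinearMap.congr_fun hz1 ⟨c, hc⟩
      · exact LinearMap.congr_fun hz2 ⟨c, hc⟩
    let j : ↥(LinearMap.ker f ⊓ LinearMap.ker g) →ₗ[K]
        ↥(allowed P k t1 t2 hK0 hK1 ⊓ TT) :=
      { toFun := fun z => ⟨((z.1 : TT) : Fin 2 → A), hmem z⟩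
        map_add' := fun a b => rfl
        map_smul' := fun c a => rfl }
    have hj : Function.Injective j := by
      intro a b hab
      apply Subtype.ext
      apply Subtype.ext
      exact congrArg (fun z : ↥(allowed P k t1 t2 hK0 hK1 ⊓ TT) => (z : Fin 2 → A)) hab
    exact LinearMap.finrank_le_finrank_of_injective hj
  have hq' := hdimC
  omega

/-- Gauss for `leadV`. -/
theorem gauss_leadV [FiniteDimensional K A] (W : Submodule K' (Fin 2 → R)) :
    finrank K' W = ∑ e, finrank K (leadV L W (L.eK e)) := by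
  classical
  rw [L.gaussK_pi W]
  refine Finset.sum_congr rfl fun e _ => ?_
  have h3 : (L.leadK.pi (Fin 2)).lead (L.eK e) W = leadV L W (L.eK e) := by
    ext a
    rw [L.mem_leadK_pi]
    constructor
    · rintro ⟨t, ht, h1, h2⟩
      exact ⟨t, ht, fun v => ⟨fun h hh => L.le_vK_iff.1 (h1 v) h hh, h2 v⟩⟩
    · rintro ⟨t, ht, h1⟩
      exact ⟨t, ht, fun v => L.le_vK_iff.2 (h1 v).lt, fun v => (h1 v).eq⟩
  rw [h3]

/-- **The rank from a lead vector** (§J(h), abstract). -/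
theorem rank_of_lead [CharZero K] [FiniteDimensional K A] [FiniteDimensional K' R] (hm : L.m ≠ 2)
    {k : ℕ} (hO : Over P P' L k) (hτ : ∀ x, P'.τ x = L.τ' x) (hτ₀ : ∀ x, P.τ x = τ x)
    {t1 t2 : Fin 2 → A} {TT : Submodule K (Fin 2 → A)} (hTT : TT ≤ P.T k)
    (N' : Submodule K (ℕ → A)) (hN : N' ≤ P.KK k)
    (h0 : ∀ c ∈ N', ∀ τ₁ ∈ TT, P.PP k c t1 τ₁ = 0 ∧ P.PP k c t2 τ₁ = 0)
    {q : ℕ} (hq : finrank K (P.KK k) ≤ finrank K N' + q)
    (V : Submodule K' (Fin 2 → R)) (hV : V ≤ P'.T k)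
    (hlead : ∀ (a j : ℤ), ∀ τ₁ ∈ allowed P k t1 t2 ((L.m : ℤ) ∣ a)
        ((L.m : ℤ) ∣ a + 1 ∧ ¬ (L.m : ℤ) ∣ j + 1) ⊓ TT, ∃ t ∈ V, ∃ g : GLv,
        (L.m : ℤ) ∣ κ (ofLex g).2 - a ∧ (L.m : ℤ) ∣ (ofLex g).1 - j ∧ ∀ v, VL L (t v) g (τ₁ v))
    (c₀ : ℕ → A) (w : ℕ → R) {g₀ : GLv} (hw : ∀ i < k, VL L (w i) g₀ (c₀ i))
    (hS : ∀ τ₁ ∈ TT, ∀ τ₂ ∈ P.T k, P.SS k c₀ τ₁ τ₂ = 0)
    {b : ℕ} (hrk : b + 4 * q ≤ rkOn P k c₀ TT) :
    L.m ^ 2 * b ≤ rkOn P' k w V := by
  classical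
  have hG : ∀ W : Submodule K' (Fin 2 → R), finrank K' W = ∑ e, finrank K (leadV L W (L.eK e)) :=
    gauss_leadV
  have := rank_gauss (P := P) (P' := P') hm hO hτ hτ₀ L.eK hG V hV TT c₀ w hw hS
    (fun a j => allowed P k t1 t2 ((L.m : ℤ) ∣ a) ((L.m : ℤ) ∣ a + 1 ∧ ¬ (L.m : ℤ) ∣ j + 1) ⊓ TT)
    (fun _ _ => inf_le_right) hlead (a := 2 * q) (b := b)
    (fun x j => finrank_allowed_ge TT N' hN h0 hq hTT _ _) (by omega)
  rw [Fintype.card_prod, Fintype.card_fin, ← pow_two] at this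
  exact this

/-! ### Gauss for sequences -/

/-- Leads in a fixed subspace: the dimension bound. -/
theorem finrank_le_of_leads [FiniteDimensional K A] [FiniteDimensional K' R] {k : ℕ}
    {W : Submodule K' (ℕ → R)} (hW : W ≤ P'.KK k) (Z : Submodule K (ℕ → A)) [Module.Finite K Z]
    (h : ∀ c' ∈ W, ∀ g : GLv, (∀ i, ∀ h, h < g → L.c h (c' i) = 0) →
      (fun i => L.c g (c' i)) ∈ Z) :
    finrank K' W ≤ L.m ^ 2 * finrank K Z := by
  classical
  set W' : Submodule K' (Fin k → R) := W.map (ValC.res K' R k) with hW'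
  have h1 : finrank K' W' = finrank K' W := by
    have hinj : Function.Injective ((ValC.res K' R k).domRestrict W) := by
      intro a b hab
      apply Subtype.ext
      funext i
      by_cases hi : i < k
      · exact congrFun hab ⟨i, hi⟩
      · rw [(hW a.2).1 i (not_lt.1 hi), (hW b.2).1 i (not_lt.1 hi)]
    have h2 := LinearMap.finrank_range_of_inj hinj
    have h3 : LinearMap.range ((ValC.res K' R k).domRestrict W) = W' := by
      ext y
      simp [hW', Submodule.mem_map]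
    rw [h3] at h2
    exact h2
  rw [← h1, L.gaussK_pi W']
  have h4 : ∀ e : Fin L.m × Fin L.m,
      finrank K ((L.leadK.pi (Fin k)).lead (L.eK e) W') ≤ finrank K Z := by
    intro e
    refine le_trans (Submodule.finrank_mono ?_) (Submodule.finrank_map_le (ValC.res K A k) Z)
    intro a ha
    obtain ⟨t, ⟨c', hc', rfl⟩, h5, h6⟩ := L.mem_leadK_pi.1 ha
    refine ⟨_, h c' hc' (L.eK e) fun i => ?_, ?_⟩
    · by_cases hi : i < k
      · exact L.le_vK_iff.1 (h5 ⟨i, hi⟩)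
      · intro h0 _
        rw [(hW hc').1 i (not_lt.1 hi)]
        exact VL.c_zero h0
    · funext i
      exact h6 i
  calc ∑ e, finrank K ((L.leadK.pi (Fin k)).lead (L.eK e) W')
      ≤ ∑ _e : Fin L.m × Fin L.m, finrank K Z := Finset.sum_le_sum fun e _ => h4 e
    _ = L.m ^ 2 * finrank K Z := by
      rw [Finset.sum_const, Finset.card_univ, Fintype.card_prod, Fintype.card_fin, smul_eq_mul,
        pow_two]

/-- The contrapositive: a lead outside `Z`. -/
theorem exists_lead_not_mem [FiniteDimensional K A] [FiniteDimensional K' R] {k : ℕ}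
    {W : Submodule K' (ℕ → R)} (hW : W ≤ P'.KK k) (Z : Submodule K (ℕ → A)) [Module.Finite K Z]
    (h : L.m ^ 2 * finrank K Z < finrank K' W) :
    ∃ c' ∈ W, ∃ g : GLv, (∀ i, ∀ h, h < g → L.c h (c' i) = 0) ∧
      (fun i => L.c g (c' i)) ∉ Z := by
  by_contra hcon
  push Not at hcon
  exact absurd (finrank_le_of_leads (L := L) hW Z hcon) (not_le.2 h)

/-! ### J(h) -/

/-- The rank of a multiple. -/
lemma rkOn_smul {k : ℕ} {c' i' : ℕ → R} {V : Submodule K' (Fin 2 → R)} {l : K'} (hl : l ≠ 0)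
    (h0 : ∀ t ∈ V, ∀ t' ∈ V, P'.PP k i' t t' = 0) :
    rkOn P' k (l • c' + i') V = rkOn P' k c' V := by
  unfold rkOn
  have h1 : ∀ t t' : V, P'.PP k (l • c' + i') t t' = l * P'.PP k c' t t' := by
    intro t t'
    rw [P'.PP_add_c, P'.PP_smul_c, h0 t t.2 t' t'.2, add_zero]
  have h2 : (PPb P' k (l • c' + i')).domRestrict₁₂ V V =
      l • (PPb P' k c').domRestrict₁₂ V V := by
    ext t t'
    simp only [LinearMap.domRestrict₁₂_apply, PPb_apply, LinearMap.smul_apply, smul_eq_mul]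
    exact h1 t t'
  rw [h2, LinearMap.range_smul _ _ hl]

/-- **§J(k)**: all of `T(k)(X)` is reached: leads of `T(k)(X)` are in `Al`, `Al` are leads of `V`. -/
theorem eq_T_of_leads [FiniteDimensional K A] [FiniteDimensional K' R]
    {k : ℕ} {V : Submodule K' (Fin 2 → R)} (hV : V ≤ P'.T k)
    (Al : ℤ → ℤ → Submodule K (Fin 2 → A))
    (hT : ∀ t ∈ P'.T k, ∀ g : GLv, (∀ v, ∀ h, h < g → L.c h (t v) = 0) →
      (fun v => L.c g (t v)) ∈ Al (κ (ofLex g).2) (ofLex g).1)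
    (hlead : ∀ (a j : ℤ), ∀ τ₁ ∈ Al a j, ∃ t ∈ V, ∃ g : GLv, (L.m : ℤ) ∣ κ (ofLex g).2 - a ∧
      (L.m : ℤ) ∣ (ofLex g).1 - j ∧ ∀ v, VL L (t v) g (τ₁ v)) :
    V = P'.T k := by
  refine Submodule.eq_of_le_of_finrank_le hV ?_
  rw [gauss_leadV (L := L), gauss_leadV (L := L) V]
  refine Finset.sum_le_sum fun e _ => Submodule.finrank_mono ?_
  rintro τ₁ ⟨t, ht, hv⟩
  have h1 : τ₁ = fun v => L.c (L.eK e) (t v) := by
    funext v
    exact (hv v).eq.symm
  have h2 : τ₁ ∈ Al (κ (ofLex (L.eK e)).2) (ofLex (L.eK e)).1 := by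
    rw [h1]
    exact hT t ht _ fun v => (hv v).lt
  obtain ⟨t', ht', g, hg1, hg2, hv'⟩ := hlead _ _ τ₁ h2
  refine leadV_shift L ?_ ⟨t', ht', hv'⟩
  refine ⟨?_, ?_⟩
  · have : (ofLex (L.eK e - g)).1 = (ofLex (L.eK e)).1 - (ofLex g).1 := rfl
    rw [this]
    have h3 := dvd_neg.2 hg2
    rwa [neg_sub] at h3
  · have : κ (ofLex (L.eK e - g)).2 = κ (ofLex (L.eK e)).2 - κ (ofLex g).2 := by
      show κ ((ofLex (L.eK e)).2 - (ofLex g).2) = _
      rw [map_sub]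
    rw [this]
    have h3 := dvd_neg.2 hg1
    rwa [neg_sub] at h3

/-- The hypotheses of §J(h) for the index `l`. -/
structure JH (L : Lv K A K' R τ) (P : Pt F K A (Fin 2)) (P' : Pt F K' R (Fin 2)) (k l : ℕ)
    (TT : Submodule K (Fin 2 → A)) (V : Submodule K' (Fin 2 → R)) (q : ℕ) : Prop where
  lt : l < k
  Vle : V ≤ P'.T k
  /-- the rank from a lead vector: `rank_of_lead` and the rank clause at `ρ` -/
  rank : ∀ (w : ℕ → R) (g₀ : GLv) (c₀ : ℕ → A), (∀ i, VL L (w i) g₀ (c₀ i)) → c₀ ∈ P.KK (l + 1) →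
    c₀ ∉ IIT P (l + 1) TT → L.m ^ 2 * q ≤ rkOn P' k w V
  /-- `q = 0` forces `𝕂 = 𝕀` -/
  q0 : q = 0 → ∀ c ∈ P.KK (l + 1), c ∈ IIT P (l + 1) TT
  /-- K-lead -/
  klead : ∀ c' ∈ P'.KK (l + 1), ∀ g : GLv, (∀ i, ∀ h, h < g → L.c h (c' i) = 0) →
    (fun i => L.c g (c' i)) ∈ P.KK (l + 1)

section JHs

variable {k l q : ℕ} {TT : Submodule K (Fin 2 → A)} {V : Submodule K' (Fin 2 → R)}

lemma JH.PP_IIT_zero (h : JH L P P' k l TT V q) {c' : ℕ → R} (hc : c' ∈ IIT P' (l + 1) V) {t t' : Fin 2 → R}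
    (ht : t ∈ V) (ht' : t' ∈ V) : P'.PP k c' t t' = 0 := by
  have hlk : l + 1 ≤ k := h.lt
  rw [P'.PP_of_le hlk hc.1]
  exact hc.2 t ht t' (P'.T_anti hlk (h.Vle ht'))

lemma JH.rkOn_IIT_zero (h : JH L P P' k l TT V q) {c' : ℕ → R} (hc : c' ∈ IIT P' (l + 1) V) :
    rkOn P' k c' V = 0 := by
  unfold rkOn
  have : (PPb P' k c').domRestrict₁₂ V V = 0 := by
    ext t t'
    exact h.PP_IIT_zero hc t.2 t'.2
  rw [this, LinearMap.range_zero, finrank_bot]

/-- Leads of `𝕀(l+1)(X)` are in `𝕀(l+1)(ρ)`. -/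
theorem JH.lead_IIT (h : JH L P P' k l TT V q) {c' : ℕ → R} (hc : c' ∈ IIT P' (l + 1) V) {g : GLv}
    (hg : ∀ i, ∀ h, h < g → L.c h (c' i) = 0) : (fun i => L.c g (c' i)) ∈ IIT P (l + 1) TT := by
  by_contra hn
  have h1 := h.rank c' g _ (fun i => ⟨hg i, rfl⟩) (h.klead c' hc.1 g hg) hn
  rw [h.rkOn_IIT_zero hc] at h1
  have hm : 0 < L.m ^ 2 := pow_pos L.m_prime.pos 2
  have h2 : q = 0 := by
    by_contra h3
    have := Nat.mul_pos hm (Nat.pos_of_ne_zero h3)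
    omega
  exact hn (h.q0 h2 _ (h.klead c' hc.1 g hg))

/-- `dim 𝕀(l+1)(X) ≤ m² dim 𝕀(l+1)(ρ)`. -/
theorem JH.finrank_IIT_le [FiniteDimensional K A] [FiniteDimensional K' R]
    (h : JH L P P' k l TT V q) :
    finrank K' (IIT P' (l + 1) V) ≤ L.m ^ 2 * finrank K (IIT P (l + 1) TT) := by
  haveI : Module.Finite K (IIT P (l + 1) TT) :=
    Submodule.finiteDimensional_of_le (fun _ hc => hc.1 : IIT P (l + 1) TT ≤ P.KK (l + 1))
  have hle : IIT P' (l + 1) V ≤ P'.KK (l + 1) := fun _ hc => hc.1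
  exact finrank_le_of_leads hle _ fun c' hc g hg => h.lead_IIT hc hg

/-- **V5**, given the count. -/
theorem JH.rank_ge [FiniteDimensional K A] [FiniteDimensional K' R]
    (h : JH L P P' k l TT V q)
    (hdim : L.m ^ 2 * finrank K (IIT P (l + 1) TT) ≤ finrank K' (IIT P' (l + 1) V))
    {c' : ℕ → R} (hc : c' ∈ P'.KK (l + 1)) (hn : c' ∉ IIT P' (l + 1) V) :
    L.m ^ 2 * q ≤ rkOn P' k c' V := by
  classical
  haveI : Module.Finite K (IIT P (l + 1) TT) :=
    Submodule.finiteDimensional_of_le (fun _ hc => hc.1 : IIT P (l + 1) TT ≤ P.KK (l + 1))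
  set W₀ := IIT P' (l + 1) V with hW₀
  have hW₀K : W₀ ≤ P'.KK (l + 1) := fun _ hc => hc.1
  haveI : Module.Finite K' W₀ := Submodule.finiteDimensional_of_le hW₀K
  set W := W₀ ⊔ Submodule.span K' {c'} with hW
  have hWK : W ≤ P'.KK (l + 1) := by
    refine sup_le hW₀K ?_
    rw [Submodule.span_singleton_le_iff_mem]
    exact hc
  have hc0 : c' ≠ 0 := by
    rintro rfl
    exact hn (zero_mem _)
  have hdimW : finrank K' W = finrank K' W₀ + 1 := by
    have h1 := Submodule.finrank_sup_add_finrank_inf_eq W₀ (Submodule.span K' {c'})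
    have h2 : W₀ ⊓ Submodule.span K' {c'} = ⊥ := by
      rw [eq_bot_iff]
      rintro x ⟨hx1, hx2⟩
      obtain ⟨a, rfl⟩ := Submodule.mem_span_singleton.1 hx2
      by_cases ha : a = 0
      · simp [ha]
      · exfalso
        apply hn
        have := W₀.smul_mem a⁻¹ hx1
        rwa [smul_smul, inv_mul_cancel₀ ha, one_smul] at this
    rw [h2, finrank_bot, finrank_span_singleton hc0] at h1
    omega
  have hlt : L.m ^ 2 * finrank K (IIT P (l + 1) TT) < finrank K' W := by omega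
  obtain ⟨w, hw, g, hg, hwn⟩ := exists_lead_not_mem (L := L) hWK _ hlt
  obtain ⟨i', hi', y, hy, rfl⟩ := Submodule.mem_sup.1 hw
  obtain ⟨a, rfl⟩ := Submodule.mem_span_singleton.1 hy
  have ha : a ≠ 0 := by
    rintro rfl
    rw [zero_smul, add_zero] at hg hwn
    exact hwn (h.lead_IIT hi' hg)
  have h1 := h.rank (i' + a • c') g _ (fun i => ⟨hg i, rfl⟩) (h.klead _ (hWK hw) g hg) hwn
  have e : i' + a • c' = a • c' + i' := add_comm _ _
  rw [e, rkOn_smul ha fun t ht t' ht' => h.PP_IIT_zero hi' ht ht'] at h1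
  exact h1

end JHs

end Abs

end Crest.Agent.Kurosh.ValH
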