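/-
S0270 (Kurosh), blueprint §J(h) (helper83): `JH` from a valid state, the count, one more index of `Valid`.
-/
import Crest.Agent.Kurosh.ValH2

set_option autoImplicit false
set_option linter.unusedSectionVars false

namespace Crest.Agent.Kurosh.ValH

open Hensel State Module LU AdmExist
open _root_.Crest.Agent.Kurosh.Inv
open _root_.Crest.Agent.Kurosh.Inv.St
open VLead

section Congr

variable {F K A : Type*} [Field F] [Field K] [DivisionRing A] [Algebra F K] [Algebra K A]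
  [Algebra F A] [IsScalarTower F K A] {P : Pt F K A (Fin 2)}
  {N : ℕ} {R : ℕ → Rec} {Q : ℕ → Polynomial F} {l r : ℕ} {S S' : ℕ → Set A}
  {TT : Submodule K (Fin 2 → A)}

lemma PPl_congr {u : ℕ} (h : S' u = S u) : PPl P S' u = PPl P S u := by
  unfold PPl
  rw [h]

lemma RR_congr {u : ℕ} (h : S' u = S u) : RR P S' u = RR P S u := by
  ext x
  show (x ∈ Cl P u ∧ ∀ p ∈ PPl P S' u, P.τ (p * x) = 0) ↔ (x ∈ Cl P u ∧ ∀ p ∈ PPl P S u, P.τ (p * x) = 0)
  rw [PPl_congr h]

/-- `Valid` depends only on the witnesses of the verified indices. -/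
theorem Valid.congrS (hV : Valid P N R Q l r S TT) (h : ∀ u < l, S' u = S u) :
    Valid P N R Q l r S' TT where
  le := hV.le
  one := hV.one
  frozen := hV.frozen
  comm := hV.comm
  dvd := hV.dvd
  qbd := hV.qbd
  q_small := hV.q_small
  S_ne u hu := by rw [h u hu]; exact hV.S_ne u hu
  S_good u hu y hy := by rw [h u hu] at hy; exact hV.S_good u hu y hy
  mov_le u hu := by rw [RR_congr (h u hu)]; exact hV.mov_le u hu
  mov_codim u hu := by rw [RR_congr (h u hu)]; exact hV.mov_codim u hu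
  rank u hu c hc hn := by
    rw [PPl_congr (h u hu)] at hn
    exact hV.rank u hu c hc hn
  lift u hu p hp := by
    rw [PPl_congr (h u hu)] at hp
    exact hV.lift u hu p hp
  big u hu y hy := by
    rw [RR_congr (h u hu)]
    rw [h u hu] at hy
    exact hV.big u hu y hy
  TT_le := hV.TT_le
  TT_S := hV.TT_S
  TT_big := hV.TT_big

/-- One more index. -/
theorem Valid.succ (hV : Valid P N R Q l r S TT) (hl : l < r) (Sl : Set A)
    (hne : Sl.Nonempty) (hgood : ∀ y ∈ Sl, Good P N (R l) l y)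
    (hmov : P.Mov l ≤ RR P (Function.update S l Sl) l)
    (hcod : finrank K (RR P (Function.update S l Sl) l) ≤ finrank K (P.Mov l) + (R l).q)
    (hrank : ∀ c ∈ P.KK (l + 1), c l ∉ PPl P (Function.update S l Sl) l → 5 * qS R r ≤ rkOn P r c TT)
    (hlift : ∀ p ∈ PPl P (Function.update S l Sl) l, ∃ c ∈ IIT P (l + 1) TT, c l = p)
    (hbig : ∀ y ∈ Sl, N / (R l).σ ≤
      finrank K (eIm P (Subalgebra.toSubmodule (Fy P l y)) (RR P (Function.update S l Sl) l))) :
    Valid P N R Q (l + 1) r (Function.update S l Sl) TT := by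
  have hne' : ∀ u < l, Function.update S l Sl u = S u := fun u hu =>
    Function.update_of_ne (Nat.ne_of_lt hu) _ _
  have h0 := Valid.congrS (S' := Function.update S l Sl) hV hne'
  have hat : Function.update S l Sl l = Sl := Function.update_self _ _ _
  refine
    { le := hl
      one := hV.one
      frozen := hV.frozen
      comm := hV.comm
      dvd := hV.dvd
      qbd := hV.qbd
      q_small := hV.q_small
      S_ne := fun u hu => ?_
      S_good := fun u hu y hy => ?_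
      mov_le := fun u hu => ?_
      mov_codim := fun u hu => ?_
      rank := fun u hu c hc hn => ?_
      lift := fun u hu p hp => ?_
      big := fun u hu y hy => ?_
      TT_le := hV.TT_le
      TT_S := hV.TT_S
      TT_big := hV.TT_big }
  all_goals rcases Nat.lt_succ_iff_lt_or_eq.1 hu with hu' | rfl
  · exact h0.S_ne u hu'
  · rw [hat]; exact hne
  · exact h0.S_good u hu' y hy
  · rw [hat] at hy; exact hgood y hy
  · exact h0.mov_le u hu'
  · exact hmov
  · exact h0.mov_codim u hu'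
  · exact hcod
  · exact h0.rank u hu' c hc hn
  · exact hrank c hc hn
  · exact h0.lift u hu' p hp
  · exact hlift p hp
  · exact h0.big u hu' y hy
  · rw [hat] at hy; exact hbig y hy

end Congr

section Abs

variable {K A K' R : Type*} [Field K] [DivisionRing A] [Algebra K A] [Field K'] [DivisionRing R]
  [Algebra K R] [Algebra K' R] [Algebra K K'] [IsScalarTower K K' R] {τ : A →ₗ[K] K}
  {L : Lv K A K' R τ}
  {F : Type*} [Field F] [Algebra F K] [Algebra F A] [IsScalarTower F K A] [Algebra F R]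
  [IsScalarTower F K R] [Algebra F K'] [IsScalarTower F K' R]
  {P : Pt F K A (Fin 2)} {P' : Pt F K' R (Fin 2)}
  {N : ℕ} {Rc : ℕ → Rec} {Q : ℕ → Polynomial F} {r : ℕ} {S : ℕ → Set A}
  {TT : Submodule K (Fin 2 → A)}

lemma rkOn_congr {k k' : ℕ} {c c' : ℕ → A}
    (h : ∀ t ∈ TT, ∀ t' ∈ TT, P.PP k c t t' = P.PP k' c' t t') : rkOn P k c TT = rkOn P k' c' TT := by
  unfold rkOn
  have : (PPb P k c).domRestrict₁₂ TT TT = (PPb P k' c').domRestrict₁₂ TT TT := by
    ext t t'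
    exact h t t.2 t' t'.2
  rw [this]

/-- A vector not in `𝕀` has rank `≥ 5 q#`. -/
lemma rkOn_ge_of_not_IIT {l k : ℕ} (hV : Valid P N Rc Q l r S TT) (hk : l ≤ k) {c : ℕ → A}
    (hc : c ∈ P.KK l) (hn : c ∉ IIT P l TT) : 5 * qS Rc r ≤ rkOn P k c TT := by
  obtain ⟨u, hu, c', hc1, hc2, hc3⟩ := exists_top P hV le_rfl c hc hn
  have h5 := hV.rank u hu c' hc1 hc3
  have hur : u + 1 ≤ l := hu
  have hlr := hV.le
  have hTT : TT ≤ P.T l := (hV.TT_le).trans (P.T_anti hlr)
  have hc'l : c' ∈ P.KK l := P.KK_mono hur hc1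
  have e : rkOn P k c TT = rkOn P r c' TT := by
    refine rkOn_congr fun t ht t' ht' => ?_
    rw [P.PP_of_le hk hc, P.PP_of_le hlr hc'l]
    have h6 := hc2.2 t ht t' (hTT ht')
    have h7 := P.PP_add_c l (c - c') c' t t'
    rw [sub_add_cancel] at h7
    rw [h7, h6, zero_add]
  rw [e]
  exact h5

/-- `JH` from a valid state. -/
theorem JH.of_valid [CharZero K] [FiniteDimensional K A] [FiniteDimensional K' R] (hm : L.m ≠ 2)
    {k l : ℕ} (hl : l < k) (hO : Over P P' L k) (hτ : ∀ x, P'.τ x = L.τ' x) (hτ₀ : ∀ x, P.τ x = τ x)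
    (hV : Valid P N Rc Q k r S TT) {t1 t2 : Fin 2 → A} (h1 : t1 ∈ TT) (h2 : t2 ∈ TT)
    {V : Submodule K' (Fin 2 → R)} (hVle : V ≤ P'.T k)
    (hlead : ∀ (a j : ℤ), ∀ τ₁ ∈ allowed P k t1 t2 ((L.m : ℤ) ∣ a)
        ((L.m : ℤ) ∣ a + 1 ∧ ¬ (L.m : ℤ) ∣ j + 1) ⊓ TT, ∃ t ∈ V, ∃ g : GLv,
        (L.m : ℤ) ∣ κ (ofLex g).2 - a ∧ (L.m : ℤ) ∣ (ofLex g).1 - j ∧ ∀ v, VL L (t v) g (τ₁ v))
    (hklead : ∀ c' ∈ P'.KK (l + 1), ∀ g : GLv, (∀ i, ∀ h, h < g → L.c h (c' i) = 0) →
      (fun i => L.c g (c' i)) ∈ P.KK (l + 1)) :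
    JH L P P' k l TT V (qS Rc k) := by
  have hTT : TT ≤ P.T k := (hV.TT_le).trans (P.T_anti hV.le)
  have hlk : l + 1 ≤ k := hl
  refine ⟨hl, hVle, ?_, ?_, hklead⟩
  · intro w g₀ c₀ hw hc₀ hn
    refine rank_of_lead (q := qS Rc k) hm hO hτ hτ₀ hTT (IIT P k TT) (IIT_le_KK P k TT) ?_ ?_ V hVle
      hlead c₀ w (fun i _ => hw i) ?_ ?_
    · intro c hc τ₁ hτ₁
      exact ⟨hc.2 t1 h1 τ₁ (hTT hτ₁), hc.2 t2 h2 τ₁ (hTT hτ₁)⟩
    · have h3 := P.finrank_MMN_add (IIT_le_KK P k TT)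
      have h4 := finrank_MMT_le P hV
      change finrank K (MMT P k TT) + _ = _ at h3
      omega
    · intro τ₁ h τ₂ h'
      exact hV.TT_S k hV.le τ₁ h c₀ (P.KK_mono hlk hc₀) τ₂ h'
    · have h3 := rkOn_ge_of_not_IIT (k := k) (Valid.mono P hV hlk) hlk hc₀ hn
      have h4 := qS_mono Rc hV.le
      omega
  · intro hq c hc
    have hV' := Valid.mono P hV hlk
    have h3 := P.finrank_MMN_add (IIT_le_KK P (l + 1) TT)
    have h4 := finrank_MMT_le P hV'
    have h5 := qS_mono Rc hlk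
    change finrank K (MMT P (l + 1) TT) + _ = _ at h3
    have h6 : finrank K (P.KK (l + 1)) ≤ finrank K (IIT P (l + 1) TT) := by omega
    have h7 := Submodule.eq_of_le_of_finrank_le (IIT_le_KK P (l + 1) TT) h6
    rw [h7]
    exact hc

/-- **The count** (§J(h), Step C): all dimensions are exact. -/
theorem JH.count [FiniteDimensional K A] [FiniteDimensional K' R] {k l q : ℕ}
    {V : Submodule K' (Fin 2 → R)} (J : JH L P P' k l TT V q)
    (hVρ : Valid P N Rc Q (l + 1) r S TT) {N' : ℕ} {Q' : ℕ → Polynomial F} {S' : ℕ → Set R}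
    (hVX : Valid P' N' Rc Q' l k S' V)
    (h𝒫u : ∀ u < l, L.m ^ 2 * finrank K (PPl P S u) ≤ finrank K' (PPl P' S' u))
    (𝒫' : Submodule K' R) (h𝒫 : L.m ^ 2 * finrank K (PPl P S l) ≤ finrank K' 𝒫')
    (hlift : ∀ p ∈ 𝒫', ∃ c ∈ IIT P' (l + 1) V, c l = p) :
    finrank K' 𝒫' = L.m ^ 2 * finrank K (PPl P S l) ∧
      finrank K' (IIT P' l V) = L.m ^ 2 * finrank K (IIT P l TT) ∧
      finrank K' (IIT P' (l + 1) V) = L.m ^ 2 * finrank K (IIT P (l + 1) TT) ∧
      (∀ c ∈ IIT P' (l + 1) V, c l ∈ 𝒫') := by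
  classical
  set W := IIT P' (l + 1) V with hW
  let f : W →ₗ[K'] R := LinearMap.proj l ∘ₗ W.subtype
  have hrn := LinearMap.finrank_range_add_finrank_ker f
  have hr : 𝒫' ≤ LinearMap.range f := by
    intro p hp
    obtain ⟨c, hc, rfl⟩ := hlift p hp
    exact ⟨⟨c, hc⟩, rfl⟩
  have hle : IIT P' l V ≤ W := IIT_mono P' (Nat.le_succ l) V
  have hker : (IIT P' l V).comap W.subtype ≤ LinearMap.ker f := by
    intro c hc
    rw [LinearMap.mem_ker]
    exact hc.1.1 l le_rfl
  have h2 : finrank K' ((IIT P' l V).comap W.subtype) = finrank K' (IIT P' l V) :=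
    (Submodule.comapSubtypeEquivOfLe hle).finrank_eq
  have h3 := Submodule.finrank_mono hr
  have h4 := Submodule.finrank_mono hker
  have h5 := sum_finrank_PPl_le P' hVX (le_refl l)
  have h6 := finrank_IIT_eq P hVρ (le_refl (l + 1))
  have h7 := finrank_IIT_eq P hVρ (Nat.le_succ l)
  have h8 : finrank K' W ≤ L.m ^ 2 * finrank K (IIT P (l + 1) TT) := J.finrank_IIT_le
  rw [Finset.sum_range_succ] at h6
  have h9 : L.m ^ 2 * ∑ u ∈ Finset.range l, finrank K (PPl P S u) ≤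
      ∑ u ∈ Finset.range l, finrank K' (PPl P' S' u) := by
    rw [Finset.mul_sum]
    exact Finset.sum_le_sum fun u hu => h𝒫u u (Finset.mem_range.1 hu)
  rw [h6, mul_add] at h8
  rw [h7]
  rw [h6, mul_add]
  have hfr : finrank K' (LinearMap.range f) ≤ finrank K' 𝒫' := by omega
  have hI := Submodule.eq_of_le_of_finrank_le hr hfr
  refine ⟨by omega, by omega, by omega, fun c hc => ?_⟩
  rw [hI]
  exact ⟨⟨c, hc⟩, rfl⟩

end Abs

end Crest.Agent.Kurosh.ValH
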