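/-
S0270 (Kurosh), blueprint §J(i) (helper83): leads of `𝒫_l(X)` and of `R_l(X)`.
-/
import Crest.Agent.Kurosh.ValH3
import Crest.Agent.Kurosh.ValCL

set_option autoImplicit false
set_option linter.unusedSectionVars false

namespace Crest.Agent.Kurosh.ValH

open Hensel State Module LU AdmExist
open _root_.Crest.Agent.Kurosh.Inv
open _root_.Crest.Agent.Kurosh.Inv.St
open VLead

section Abs

variable {K A K' R : Type*} [Field K] [DivisionRing A] [Algebra K A] [Field K'] [DivisionRing R]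
  [Algebra K R] [Algebra K' R] [Algebra K K'] [IsScalarTower K K' R] {τ : A →ₗ[K] K}
  {L : Lv K A K' R τ}
  {F : Type*} [Field F] [Algebra F K] [Algebra F A] [IsScalarTower F K A] [Algebra F R]
  [IsScalarTower F K R] [Algebra F K'] [IsScalarTower F K' R]
  {P : Pt F K A (Fin 2)} {P' : Pt F K' R (Fin 2)}
  {N : ℕ} {Rc : ℕ → Rec} {Q : ℕ → Polynomial F} {r : ℕ} {S : ℕ → Set A}
  {TT : Submodule K (Fin 2 → A)}

/-- `res` is injective on `𝕂(k)`. -/
lemma finrank_map_res [FiniteDimensional K' R] {k : ℕ} {W : Submodule K' (ℕ → R)}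
    (hW : W ≤ P'.KK k) : finrank K' (W.map (ValC.res K' R k)) = finrank K' W := by
  have h1 : W.map (ValC.res K' R k) = LinearMap.range ((ValC.res K' R k).domRestrict W) := by
    ext y
    simp [Submodule.mem_map]
  rw [h1]
  refine LinearMap.finrank_range_of_inj ?_
  rw [← LinearMap.ker_eq_bot, eq_bot_iff]
  rintro ⟨c, hc⟩ h
  have h0 : ∀ i : Fin k, c i = 0 := fun i => congrFun h i
  rw [Submodule.mem_bot]
  ext i
  by_cases hi : i < k
  · exact h0 ⟨i, hi⟩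
  · exact (hW hc).1 i (not_lt.1 hi)

lemma finrank_map_res₀ [FiniteDimensional K A] {k : ℕ} {W : Submodule K (ℕ → A)}
    (hW : W ≤ P.KK k) : finrank K (W.map (ValC.res K A k)) = finrank K W := by
  have h1 : W.map (ValC.res K A k) = LinearMap.range ((ValC.res K A k).domRestrict W) := by
    ext y
    simp [Submodule.mem_map]
  rw [h1]
  refine LinearMap.finrank_range_of_inj ?_
  rw [← LinearMap.ker_eq_bot, eq_bot_iff]
  rintro ⟨c, hc⟩ h
  have h0 : ∀ i : Fin k, c i = 0 := fun i => congrFun h i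
  rw [Submodule.mem_bot]
  ext i
  by_cases hi : i < k
  · exact h0 ⟨i, hi⟩
  · exact (hW hc).1 i (not_lt.1 hi)

variable {k l q : ℕ} {V : Submodule K' (Fin 2 → R)}

/-- Leads of `𝕀(l)(X)` are in `𝕀(l)(ρ)`. -/
theorem JH.lead_IIT_l [FiniteDimensional K A] (J : JH L P P' k l TT V q) (hVρ : Valid P N Rc Q (l + 1) r S TT)
    {c' : ℕ → R} (hc : c' ∈ IIT P' l V) {g : GLv}
    (hg : ∀ i, ∀ h, h < g → L.c h (c' i) = 0) : (fun i => L.c g (c' i)) ∈ IIT P l TT := by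
  have h1 := J.lead_IIT (IIT_mono P' (Nat.le_succ l) V hc) hg
  have h2 : (fun i => L.c g (c' i)) l = 0 := by
    show L.c g (c' l) = 0
    rw [hc.1.1 l le_rfl]
    exact L.c_zero g
  exact mem_IIT_of_succ P hVρ (Nat.le_succ l) (by have := hVρ.le; omega)
    (P.mem_KK_of_last h1.1 h2) h1

/-- Exact leads of `𝕀(l)(X)`. -/
theorem JH.lead_IIT_eq [FiniteDimensional K A] [FiniteDimensional K' R]
    (J : JH L P P' k l TT V q) (hVρ : Valid P N Rc Q (l + 1) r S TT)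
    (hdim : L.m ^ 2 * finrank K (IIT P l TT) ≤ finrank K' (IIT P' l V)) (e : Fin L.m × Fin L.m) :
    (L.leadK.pi (Fin (l + 1))).lead (L.eK e) ((IIT P' l V).map (ValC.res K' R (l + 1))) =
      (IIT P l TT).map (ValC.res K A (l + 1)) := by
  classical
  have hKl : IIT P' l V ≤ P'.KK (l + 1) := (IIT_le_KK P' l V).trans (P'.KK_mono (Nat.le_succ l))
  have hKl₀ : IIT P l TT ≤ P.KK (l + 1) := (IIT_le_KK P l TT).trans (P.KK_mono (Nat.le_succ l))
  refine TestCore.eq_of_le_of_sum_le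
    (T := fun e => (L.leadK.pi (Fin (l + 1))).lead (L.eK e) ((IIT P' l V).map (ValC.res K' R (l + 1))))
    (L := fun _ => (IIT P l TT).map (ValC.res K A (l + 1))) ?_ ?_ e
  · intro e a ha
    obtain ⟨t, ⟨c', hc', rfl⟩, h1, h2⟩ := L.mem_leadK_pi.1 ha
    have h3 : ∀ i, ∀ h, h < L.eK e → L.c h (c' i) = 0 := by
      intro i h hh
      by_cases hi : i < l + 1
      · exact L.le_vK_iff.1 (h1 ⟨i, hi⟩) h hh
      · rw [(hKl hc').1 i (not_lt.1 hi)]
        exact L.c_zero h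
    refine ⟨_, J.lead_IIT_l hVρ hc' h3, ?_⟩
    funext i
    exact h2 i
  · rw [← L.gaussK_pi, finrank_map_res hKl, finrank_map_res₀ hKl₀]
    simp only [Finset.sum_const, Finset.card_univ, Fintype.card_prod, Fintype.card_fin, smul_eq_mul]
    rw [← pow_two]
    exact hdim

/-- **§J(i)**: leads of `𝒫'` at any monomial are the elements of `𝒫_l(ρ)`. -/
theorem JH.lead_PPl [FiniteDimensional K A] [FiniteDimensional K' R]
    (J : JH L P P' k l TT V q) (hVρ : Valid P N Rc Q (l + 1) r S TT)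
    {N' : ℕ} {Q' : ℕ → Polynomial F} {S' : ℕ → Set R} (hVX : Valid P' N' Rc Q' l k S' V)
    (h𝒫u : ∀ u < l, L.m ^ 2 * finrank K (PPl P S u) ≤ finrank K' (PPl P' S' u))
    (𝒫' : Submodule K' R) (h𝒫 : L.m ^ 2 * finrank K (PPl P S l) ≤ finrank K' 𝒫')
    (hlift : ∀ p ∈ 𝒫', ∃ c ∈ IIT P' (l + 1) V, c l = p) (g : GLv) :
    L.leadK.lead g 𝒫' = PPl P S l := by
  classical
  obtain ⟨hc1, hc2, hc3, hc4⟩ := J.count hVρ hVX h𝒫u 𝒫' h𝒫 hlift
  have hKl : IIT P' (l + 1) V ≤ P'.KK (l + 1) := IIT_le_KK P' (l + 1) V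
  set W' : Submodule K' (Fin (l + 1) → R) := (IIT P' (l + 1) V).map (ValC.res K' R (l + 1)) with hW'
  have hW'map : W'.map (ValC.lastL K' R l) = 𝒫' := by
    ext x
    constructor
    · rintro ⟨_, ⟨c, hc, rfl⟩, rfl⟩
      exact hc4 c hc
    · intro hx
      obtain ⟨c, hc, rfl⟩ := hlift x hx
      exact ⟨_, ⟨c, hc, rfl⟩, rfl⟩
  have hlead0 : ∀ e, (L.leadK.pi (Fin (l + 1))).lead (L.eK e) W' ⊓
      LinearMap.ker (ValC.lastL K A l) ≤ (L.leadK.pi (Fin (l + 1))).lead (L.eK e)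
        (W' ⊓ LinearMap.ker (ValC.lastL K' R l)) := by
    rintro e a ⟨ha, ha0⟩
    obtain ⟨t, ⟨c', hc', rfl⟩, h1, h2⟩ := L.mem_leadK_pi.1 ha
    have h3 : ∀ i, ∀ h, h < L.eK e → L.c h (c' i) = 0 := by
      intro i h hh
      by_cases hi : i < l + 1
      · exact L.le_vK_iff.1 (h1 ⟨i, hi⟩) h hh
      · rw [(hKl hc').1 i (not_lt.1 hi)]
        exact L.c_zero h
    have h4 := J.lead_IIT hc' h3
    have h5 : (fun i => L.c (L.eK e) (c' i)) l = 0 := h2 (Fin.last l) |>.trans ha0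
    have h6 : (fun i => L.c (L.eK e) (c' i)) ∈ IIT P l TT :=
      mem_IIT_of_succ P hVρ (Nat.le_succ l) (by have := hVρ.le; omega)
        (P.mem_KK_of_last h4.1 h5) h4
    have h7 := J.lead_IIT_eq hVρ (le_of_eq hc2.symm) e
    have h8 : a ∈ (L.leadK.pi (Fin (l + 1))).lead (L.eK e)
        ((IIT P' l V).map (ValC.res K' R (l + 1))) := by
      rw [h7]
      refine ⟨_, h6, ?_⟩
      funext i
      exact h2 i
    obtain ⟨t', ⟨c'', hc'', rfl⟩, h9, h10⟩ := L.mem_leadK_pi.1 h8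
    refine L.mem_leadK_pi.2 ⟨ValC.res K' R (l + 1) c'', ⟨⟨c'', IIT_mono P' (Nat.le_succ l) V hc'', rfl⟩, ?_⟩,
      h9, h10⟩
    show c'' l = 0
    exact hc''.1.1 l le_rfl
  have hlast : ∀ e, L.leadK.lead (L.eK e) 𝒫' ≤ PPl P S l := by
    intro e
    rw [← hW'map, ValC.lead_map_eq_of_count (L.leadK.pi (Fin (l + 1))) L.leadK L.eK
      (ValC.lastL K' R l) (ValC.lastL K A l)
      (fun g x hx => ⟨Lead.LeadData.le_pi_val_iff.1 hx (Fin.last l), rfl⟩)
      L.gaussK_pi L.gaussK W' hlead0 e]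
    rintro _ ⟨a, ha, rfl⟩
    obtain ⟨t, ⟨c', hc', rfl⟩, h1, h2⟩ := L.mem_leadK_pi.1 ha
    have h3 : ∀ i, ∀ h, h < L.eK e → L.c h (c' i) = 0 := by
      intro i h hh
      by_cases hi : i < l + 1
      · exact L.le_vK_iff.1 (h1 ⟨i, hi⟩) h hh
      · rw [(hKl hc').1 i (not_lt.1 hi)]
        exact L.c_zero h
    have h4 := J.lead_IIT hc' h3
    have h5 := top_mem_PPl P hVρ (Nat.lt_succ_self l) h4
    show a (Fin.last l) ∈ _
    rw [← h2 (Fin.last l)]
    exact h5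
  have hall : ∀ e, L.leadK.lead (L.eK e) 𝒫' = PPl P S l := by
    intro e
    refine TestCore.eq_of_le_of_sum_le (T := fun e => L.leadK.lead (L.eK e) 𝒫')
      (L := fun _ => PPl P S l) hlast ?_ e
    rw [← L.gaussK, hc1]
    simp only [Finset.sum_const, Finset.card_univ, Fintype.card_prod, Fintype.card_fin, smul_eq_mul]
    rw [← pow_two]
  rw [L.leadK_eq_class g 𝒫']
  exact hall _

/-- **§J(i)**: leads of the orthogonal of `𝒫'` in `C_l(X)`. -/
theorem lead_orthC_eq [FiniteDimensional K A] [FiniteDimensional K' R] {l : ℕ}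
    (hP : ∀ x, P.τ x = τ x) (hP' : ∀ x, P'.τ x = L.τ' x)
    (CL : ValC.CLead P P' L.leadK l) {𝒫' : Submodule K' R} {𝒫₀ : Submodule K A}
    (h𝒫'C : 𝒫' ≤ Cl P' l) (h𝒫₀C : 𝒫₀ ≤ Cl P l) (h𝒫 : ∀ g, L.leadK.lead g 𝒫' = 𝒫₀) (g : GLv) :
    L.leadK.lead g (ValC.orthC P' l 𝒫') = ValC.orthC P l 𝒫₀ := by
  classical
  have hle : ∀ g, L.leadK.lead g (ValC.orthC P' l 𝒫') ≤ ValC.orthC P l 𝒫₀ := by
    rintro g _ ⟨x, hx, hxg, rfl⟩
    refine ⟨CL.le g x hx.1 hxg, fun y hy => ?_⟩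
    rw [← h𝒫 (-g)] at hy
    obtain ⟨y', hy', hyg, rfl⟩ := hy
    have h1 : P'.τ (y' * x) = 0 := hx.2 y' hy'
    rw [hP]
    rw [hP'] at h1
    exact L.pair_zeroK (neg_add_cancel g) hyg hxg h1
  have hall : ∀ e, L.leadK.lead (L.eK e) (ValC.orthC P' l 𝒫') = ValC.orthC P l 𝒫₀ := by
    intro e
    refine TestCore.eq_of_le_of_sum_le (T := fun e => L.leadK.lead (L.eK e) (ValC.orthC P' l 𝒫'))
      (L := fun _ => ValC.orthC P l 𝒫₀) (fun e => hle _) ?_ e
    have hm : 0 < L.m ^ 2 := pow_pos L.m_pos 2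
    have h1 := ValC.finrank_orthC (P := P') l h𝒫'C
    have h2 := ValC.finrank_orthC (P := P) l h𝒫₀C
    have h3 : finrank K' 𝒫' = L.m ^ 2 * finrank K 𝒫₀ := by
      rw [L.gaussK 𝒫', Finset.sum_congr rfl fun r _ => by rw [h𝒫 (L.eK r)]]
      simp [pow_two]
    have h4 : finrank K' (cent (K := K') (P'.β l)) = L.m ^ 2 * finrank K (cent (K := K) (P.β l)) := by
      have h6 : ∀ r, L.leadK.lead (L.eK r) (cent (K := K') (P'.β l)) = cent (K := K) (P.β l) := by
        intro r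
        apply le_antisymm
        · rintro a ⟨x, hx, hxg, rfl⟩
          exact CL.le _ x hx hxg
        · intro z hz
          obtain ⟨x, hx, hxg, rfl⟩ := CL.ex (L.eK r) z hz
          exact ⟨x, hx, hxg, rfl⟩
      rw [L.gaussK, Finset.sum_congr rfl fun r _ => by rw [h6 r]]
      simp [pow_two]
    rw [← L.gaussK]
    simp only [Finset.sum_const, Finset.card_univ, Fintype.card_prod, Fintype.card_fin, smul_eq_mul]
    rw [← pow_two]
    have h5 : L.m ^ 2 * (finrank K (ValC.orthC P l 𝒫₀) + finrank K 𝒫₀) =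
        finrank K' (ValC.orthC P' l 𝒫') + finrank K' 𝒫' := by
      rw [h2, h1, h4]
    rw [mul_add, h3] at h5
    omega
  rw [L.leadK_eq_class g]
  exact hall _

end Abs

end Crest.Agent.Kurosh.ValH
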