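/-
S0270 (Kurosh), blueprint §J(a)-(k) assembled at the abstract level (helper83):
given `Valid` at `ρ` for `k` indices and at `X` for `l < k` indices, the index `l` is valid at `X`.
-/
import Crest.Agent.Kurosh.ValH4
import Crest.Agent.Kurosh.ValD
import Crest.Agent.Kurosh.ValA

set_option autoImplicit false
set_option linter.unusedSectionVars false

namespace Crest.Agent.Kurosh.ValH

open Hensel State Module LU AdmExist
open _root_.Crest.Agent.Kurosh.Inv
open _root_.Crest.Agent.Kurosh.Inv.St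
open VLead

section Abs

variable {K A K' R : Type*} [Field K] [DivisionRing A] [Algebra K A] [Field K'] [DivisionRing R]
  [Algebra K R] [Algebra K' R] [Algebra K K'] [IsScalarTower K K' R] {τ : A →ₗ[K] K}
  {L : Lv K A K' R τ}
  {F : Type*} [Field F] [Algebra F K] [Algebra F A] [IsScalarTower F K A] [Algebra F R]
  [IsScalarTower F K R] [Algebra F K'] [IsScalarTower F K' R]
  {P : Pt F K A (Fin 2)} {P' : Pt F K' R (Fin 2)}
  {N : ℕ} {Rc : ℕ → Rec} {Q : ℕ → Polynomial F} {r : ℕ} {S : ℕ → Set A}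
  {TT : Submodule K (Fin 2 → A)}

/-- `toKD` with other names of the traces. -/
noncomputable def toKD' [FiniteDimensional K A] (L : Lv K A K' R τ) {σ : A →ₗ[K] K}
    {σ' : R →ₗ[K'] K'} (h : σ = τ) (h' : σ' = L.τ') : ValD.KD K A K' R GLv σ σ' L.m :=
  { ValD.toKD L with
    trace_res := fun y hy => by
      rw [h, h']
      exact (ValD.toKD L).trace_res y hy }

/-- The lead of `β_l(X)`. -/
lemma vl_beta_of_frame {l : ℕ} {u : R} (hu : VL L u 0 1)
    (hH : P'.β l * u = u * L.lev.inc (P.β l)) : VL L (P'.β l) 0 (P.β l) := by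
  have hu0 : u ≠ 0 := hu.ne_zero one_ne_zero
  have hui := vl_inv hu
  have h1 : P'.β l = u * L.lev.inc (P.β l) * u⁻¹ := by
    rw [← hH, mul_assoc, mul_inv_cancel₀ hu0, mul_one]
  rw [h1]
  have h2 := (hu.mul_zero_left (VL_inc L (P.β l))).mul_zero_left hui
  simpa using h2

/-- The result of the step. -/
structure StepOut (L : Lv K A K' R τ) (P : Pt F K A (Fin 2)) (P' : Pt F K' R (Fin 2)) (N : ℕ)
    (Rc : ℕ → Rec) (Q : ℕ → Polynomial F) (l r' : ℕ) (S : ℕ → Set A) (S' : ℕ → Set R)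
    (V : Submodule K' (Fin 2 → R)) (Sl : Set R) : Prop where
  valid : Valid P' (N * L.m) Rc Q (l + 1) r' (Function.update S' l Sl) V
  ppl : L.m ^ 2 * finrank K (PPl P S l) ≤ finrank K' (PPl P' (Function.update S' l Sl) l)
  rank : ∀ c ∈ P'.KK (l + 1), c l ∉ PPl P' (Function.update S' l Sl) l →
    L.m ^ 2 * qS Rc r' ≤ rkOn P' r' c V

/-- **§J(a)-(j) for the index `l`.** -/
theorem step [CharZero K] [FiniteDimensional K A] [FiniteDimensional K' R]
    {k l : ℕ} {t1 t2 : Fin 2 → A} {g : ℕ → R} {S' : ℕ → Set R} {V : Submodule K' (Fin 2 → R)}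
    (hl : l < k) (hPτ : P.τ = τ) (hP'τ : P'.τ = L.τ') (ha : P'.a = P.a)
    (hPS : ∀ J, L.lev.PSol P k J t1 t2 P'.ρ g)
    (hV : Valid P N Rc Q k r S TT) (hA : Adm P k TT t1 t2)
    (hV' : Valid P' (N * L.m) Rc Q l k S' V)
    (hVle : V ≤ P'.T k)
    (hlead : ∀ (a j : ℤ), ∀ τ₁ ∈ allowed P k t1 t2 ((L.m : ℤ) ∣ a)
        ((L.m : ℤ) ∣ a + 1 ∧ ¬ (L.m : ℤ) ∣ j + 1) ⊓ TT, ∃ t ∈ V, ∃ g : GLv,
        (L.m : ℤ) ∣ κ (ofLex g).2 - a ∧ (L.m : ℤ) ∣ (ofLex g).1 - j ∧ ∀ v, VL L (t v) g (τ₁ v))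
    (hm5 : 5 ≤ L.m) (hmN : ¬ L.m ∣ N) (hN : finrank K A = N ^ 2)
    (h𝒫u : ∀ u < l, L.m ^ 2 * finrank K (PPl P S u) ≤ finrank K' (PPl P' S' u))
    (htight : ∀ u < l, finrank K' (RR P' S' u) = finrank K' (P'.Mov u) + (Rc u).q)
    (hUB : ∀ y' ∈ P'.Mov l, y' ≠ 0 → (Rc l).n * finrank K' (Fy P' l y') ≤ N * L.m ∧
      ((Rc l).n * finrank K' (Fy P' l y') = N * L.m →
        (Rc l).σ * finrank K' (Ly P' l y') ≤ N * L.m))
    (hkey : ∀ y', Good P' (N * L.m) (Rc l) l y' →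
      ∀ p ∈ PPy P' l y', ∀ z ∈ P'.Mov l, P'.τ (p * z) = 0)
    (hprop : ∀ Sl : Set R, Sl.Nonempty → (∀ y ∈ Sl, Good P' (N * L.m) (Rc l) l y) →
      P'.Mov l ≤ RR P' (Function.update S' l Sl) l →
      finrank K' (RR P' (Function.update S' l Sl) l) ≤ finrank K' (P'.Mov l) + (Rc l).q →
      ∀ p ∈ PPl P' (Function.update S' l Sl) l, ∃ c ∈ IIT P' (l + 1) V, c l = p) :
    ∃ Sl, StepOut L P P' N Rc Q l k S S' V Sl := by
  classical
  have hmp : Fact L.m.Prime := ⟨L.m_prime⟩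
  have hlk : l + 1 ≤ k := hl
  have hFrm : ValA.Frm L P P' k t1 t2 g := ValA.Frm.of_PSol ha hP'τ hPτ hPS
  have hO : Over P P' L k := Over.of_PSol ha rfl hPS
  have H : ValC.Hyp P P' L.leadK (centLat L.m : Set GLv) L.eK (ValC.r00 L) :=
    ValC.hyp_of_Lv L P P' (fun x => by rw [hPτ]) (fun x => by rw [hP'τ])
  have hKL : ∀ k' ≤ k, ValC.KLead P P' L.leadK (centLat L.m : Set GLv) k' TT := by
    intro k' hk' c' hc g' hg'
    have he : ∀ i h, h < g' → L.c h (c' i) = 0 := fun i => L.le_vK_iff.1 (hg' i)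
    exact ⟨hFrm.KK_lead hk' hc g' he, fun hne => hFrm.KK_lead_IIT hk' hc g' he hne hV hA⟩
  have hcard : Fintype.card (Fin L.m × Fin L.m) = L.m ^ 2 := by
    rw [Fintype.card_prod, Fintype.card_fin, pow_two]
  have hex := ValC.exact_KK H hV hl.le hV' (by rw [hcard]; exact h𝒫u) htight (hKL l hl.le)
  have A' : ValC.AnnHyp (P := P) (P' := P') (D := L.leadK) (Λ := (centLat L.m : Set GLv))
      (ρ := Fin L.m × Fin L.m) S N Rc Q l k r TT :=
    ⟨hV, hl, hKL (l + 1) hlk, hKL l hl.le, hex.1⟩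
  obtain ⟨u, hu, hH⟩ := hO.frame l hl
  have CL : ValC.CLead P P' L.leadK l := ValC.clead_of_frame hu hH
  have hβ : VL L (P'.β l) 0 (P.β l) := vl_beta_of_frame hu hH
  have hβ' := (ValC.vl_iff L).1 hβ
  have hlr : l < r := lt_of_lt_of_le hl hV.le
  -- the package of §J(d),(e)
  let D : ValD.KD K A K' R GLv P.τ P'.τ L.m := toKD' L hPτ hP'τ
  have hDld : ∀ g' (W : Submodule K' R), D.ld g' W = L.leadK.lead g' W := fun _ _ => rfl
  have hDcl : ∀ g' : GLv, D.cl g' = 0 ↔ g' ∈ centLat L.m := fun g' => ValD.clK_eq_zero_iff L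
  have E : ValD.DE P P' D l N (Rc l) (S l) (RR P S l) :=
    { m3 := by omega
      mN := hmN
      zeta := ⟨L.ζ, L.ζ_prim⟩
      hN := hN
      hN' := by rw [L.finrank_R, hN]; ring
      hC := fun a ha' => hV.comm a fun v => ha' _
      hC' := fun a ha' => hV'.comm a fun v => ha' _
      h1 := hV.one
      h1' := hV'.one
      H0 := hβ'.1
      Hc := hβ'.2
      dvd := hV.dvd l hlr
      good := hV.S_good l hl
      big := hV.big l hl
      MovR := hV.mov_le l hl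
      LM := fun g₁ hg₁ z hz => ValC.exists_Mov_lead_R H A' CL
        (fun h => hg₁ ((hDcl g₁).2 h)) hz
      LM0 := fun g₁ _ z hz => ValC.exists_Mov_lead_Mov H A' CL g₁ hz
      UB := hUB }
  set Sl : Set R := ValD.newS P P' D l (S l) with hSl
  set S'' : ℕ → Set R := Function.update S' l Sl with hS''
  have hS''l : S'' l = Sl := Function.update_self _ _ _
  have h𝒫'eq : PPl P' S'' l = ⨆ y' ∈ Sl, PPy P' l y' := by
    unfold PPl
    rw [hS''l]
  have hPPl : L.m ^ 2 * finrank K (PPl P S l) ≤ finrank K' (PPl P' S'' l) := by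
    rw [h𝒫'eq]
    exact E.finrank_PPl_le
  have hne : Sl.Nonempty := by
    obtain ⟨y, hy⟩ := hV.S_ne l hl
    obtain ⟨g₀, hg₀⟩ := D.cl_surj (1, 0)
    have hg₁ : D.cl g₀ ≠ 0 := by
      rw [hg₀]
      intro h
      have := congrArg Prod.fst h
      simp at this
    obtain ⟨y', hy', -⟩ := E.exists_lift hy hg₁
    exact ⟨y', hy'⟩
  have hgood : ∀ y ∈ Sl, Good P' (N * L.m) (Rc l) l y := fun y hy => E.newS_good hy
  have hmov : P'.Mov l ≤ RR P' S'' l := by
    intro z hz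
    refine ⟨P'.Mov_le_cent l hz, ?_⟩
    have h1 : PPl P' S'' l ≤ LinearMap.ker (P'.τ ∘ₗ LinearMap.mulRight K' z) := by
      rw [h𝒫'eq]
      refine iSup₂_le fun y' hy' p hp => ?_
      exact hkey y' (hgood y' hy') p hp z hz
    exact fun p hp => h1 hp
  have hcod : finrank K' (RR P' S'' l) ≤ finrank K' (P'.Mov l) + (Rc l).q :=
    ValC.finrank_RR_le H A' (by rw [hcard]; exact hPPl)
  have hlift := hprop Sl hne hgood hmov hcod
  -- J(h)
  have hm2 : L.m ≠ 2 := by omega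
  have J : JH L P P' k l TT V (qS Rc k) :=
    JH.of_valid hm2 hl hO (fun x => by rw [hP'τ]) (fun x => by rw [hPτ]) hV hA.mem1 hA.mem2 hVle
      hlead fun c' hc g' hg' => hFrm.KK_lead hlk hc g' hg'
  have hVρ : Valid P N Rc Q (l + 1) r S TT := Valid.mono P hV hlk
  obtain ⟨hc1, hc2, hc3, hc4⟩ := J.count hVρ hV' h𝒫u (PPl P' S'' l) hPPl hlift
  have hrk : ∀ c ∈ P'.KK (l + 1), c l ∉ PPl P' S'' l → L.m ^ 2 * qS Rc k ≤ rkOn P' k c V := by
    intro c hc hn
    exact J.rank_ge (le_of_eq hc3.symm) hc fun h => hn (hc4 c h)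
  -- J(i)
  have hlp : ∀ g' : GLv, L.leadK.lead g' (PPl P' S'' l) = PPl P S l :=
    J.lead_PPl hVρ hV' h𝒫u (PPl P' S'' l) hPPl hlift
  have hlR : ∀ g' : GLv, L.leadK.lead g' (RR P' S'' l) = RR P S l := by
    intro g'
    have h1 := lead_orthC_eq (L := L) (P := P) (P' := P') (l := l) (fun x => by rw [hPτ])
      (fun x => by rw [hP'τ]) CL (PPl_le_cent P' S'' l) (PPl_le_cent P S l) hlp g'
    exact h1
  have hbig : ∀ y ∈ Sl, N * L.m / (Rc l).σ ≤
      finrank K' (eIm P' (Subalgebra.toSubmodule (Fy P' l y)) (RR P' S'' l)) := by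
    rintro y' ⟨hM, y, hy, g₀, hg₀, hv, hc⟩
    have St := E.sit hy hM hg₀ hv hc
    obtain ⟨-, h2, -⟩ := St.good (E.good y hy) E.dvd (RR P S l) E.LM E.LM0 E.MovR (E.big y hy) hM
      (E.UB y' hM St.y'_ne)
    have h3 := St.count_eIm h2.le (RR P' S'' l) (fun _ => RR P S l) fun r' => by
      rw [hDld, hlR]
    have h4 := E.big y hy
    obtain ⟨d, hd⟩ := (hV.dvd l hlr).2
    have hσ : 0 < (Rc l).σ := by
      rcases Nat.eq_zero_or_pos (Rc l).σ with h0 | h0
      · exfalso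
        rw [h0, zero_mul] at hd
        subst hd
        exact hmN (dvd_zero _)
      · exact h0
    have h5 : N * L.m / (Rc l).σ = N / (Rc l).σ * L.m := by
      rw [hd, mul_assoc, Nat.mul_div_cancel_left _ hσ, Nat.mul_div_cancel_left _ hσ]
    rw [h5]
    simp only [Finset.sum_const, Finset.card_univ, Fintype.card_fin, smul_eq_mul] at h3
    calc N / (Rc l).σ * L.m ≤ _ := Nat.mul_le_mul_right _ h4
      _ = L.m * finrank K (eIm P (Subalgebra.toSubmodule (Fy P l y)) (RR P S l)) := mul_comm _ _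
      _ ≤ _ := h3
  have hq : qS Rc k ≤ L.m ^ 2 * qS Rc k := Nat.le_mul_of_pos_left _ (pow_pos L.m_pos 2)
  refine ⟨Sl, ?_, hPPl, hrk⟩
  refine Valid.succ hV' hl Sl hne hgood hmov hcod (fun c hc hn => ?_) hlift hbig
  have h25 : 5 * qS Rc k ≤ L.m ^ 2 * qS Rc k := by
    refine Nat.mul_le_mul_right _ ?_
    nlinarith
  exact h25.trans (hrk c hc hn)

end Abs

end Crest.Agent.Kurosh.ValH
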