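/-
S0270 (Kurosh), blueprint §J (helper83): `val_succ` of `Plan.lean`.
-/
import Crest.Agent.Kurosh.ValH5
import Crest.Agent.Kurosh.PropI

set_option autoImplicit false
set_option linter.unusedSectionVars false

namespace Crest.Agent.Kurosh.ValSucc

open Hensel State Module LU LU.Tw0 LU.Tw Plan VLead ValH
open _root_.Crest.Agent.Kurosh.Inv
open _root_.Crest.Agent.Kurosh.Inv.St

variable [Tw0] [Tw] {F : Subfield U} [CentF F]

/-- The lead of a fresh move. -/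
lemma vl_of_fresh {n : ℕ} {τ₀ τ' : An n} {y : An (n + 1)} {n0 : CE} {j0 : ℕ}
    (h : y - (lv n).lev.mono τ₀ n0 j0 - (lv n).lev.mono τ' (n0 + mu1) j0 ∈ (lv n).lev.Φ.fil (j0 + 1)) :
    VL (lv n) y (idx n0 (j0 : ℤ)) τ₀ := by
  have h1 : VL (lv n) (y - (lv n).lev.mono τ₀ n0 j0 - (lv n).lev.mono τ' (n0 + mu1) j0)
      (idx n0 (j0 : ℤ)) 0 := vl_of_mem_fil h (by simp)
  have h2 : VL (lv n) ((lv n).lev.mono τ₀ n0 j0) (idx n0 (j0 : ℤ)) τ₀ := vl_mono τ₀ n0 j0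
  have hlt : idx n0 (j0 : ℤ) < idx (n0 + mu1) (j0 : ℤ) := by
    rw [Prod.Lex.lt_iff]
    right
    refine ⟨rfl, ?_⟩
    exact lt_add_of_pos_right n0 zero_lt_mu1
  have h3 : VL (lv n) ((lv n).lev.mono τ' (n0 + mu1) j0) (idx n0 (j0 : ℤ)) 0 :=
    vl_mono_of_lt τ' (n0 + mu1) j0 hlt
  have h4 := (h1.add h2).add h3
  have e : y - (lv n).lev.mono τ₀ n0 j0 - (lv n).lev.mono τ' (n0 + mu1) j0 +
      (lv n).lev.mono τ₀ n0 j0 + (lv n).lev.mono τ' (n0 + mu1) j0 = y := by abel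
  rw [e] at h4
  simpa using h4

/-- §J(a)-(k) for the index `l` at `X`. -/
theorem val_succ (l r' : ℕ) (hl : l < r') (h1 : Orc F l) (h2 : Val F l l) (h3 : Val F l r')
    (h4 : KeyS F l) (h5 : TightS F l) (h6 : UBS F l) : Val F (l + 1) r' := by
  intro Ls n _ ρ r S TT TT0 hC t1 t2 hA hT0 hT0T X g TTX hex hFr
  obtain ⟨S', hV', hP, hR, hTi, -⟩ := h3 Ls n ρ r S TT TT0 hC t1 t2 hA hT0 hT0T X g TTX hex hFr
  have hNs : N (n + 1) = N n * (lv n).m := N_succ n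
  have hup : UpStep ⟨n, ρ⟩ ⟨n + 1, X⟩ := by
    refine UpStep.mk n ρ X fun v => ?_
    have a1 := (lv n).lev.Φ.anti (Nat.le_succ 1) ((hex 0).leadX v)
    have a2 := (lv n).lev.mono_mem (t1 v) 0 1
    have a3 := (lv n).lev.mono_mem (t2 v) (lv n).lev.μ₁ 1
    have := add_mem (add_mem a1 a2) a3
    convert this using 1
    abel
  have hlr' : r' ≤ r := hC.valid.le
  have hAb : ∀ u < r', Above (Ls.Z0 u) ⟨n + 1, X⟩ := fun u hu =>
    Relation.ReflTransGen.tail (hC.above u (lt_of_lt_of_le hu hlr')) hup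
  have hopt : ∀ u < r', Opt F Ls u := fun u hu => hC.opt u (lt_of_lt_of_le hu hlr')
  have hCX : Ctx F Ls (n + 1) X l r' S' TTX := ⟨hV', hAb, hopt⟩
  obtain ⟨t1', t2', hA'⟩ := AdmExist.exists_adm Ls (n + 1) X l r' S' TTX hCX
  have hkey := fun y' hy' => (h4 Ls (n + 1) X r' S' TTX hl hCX t1' t2' hA' y' hy').1
  have hUB := h6 Ls (n + 1) X r' S' TTX hl hCX t1' t2' hA'
  have hvl : ∀ (a j : ℤ) (τ₁ : Fin 2 → An n), τ₁ ∈ TT0 →
      τ₁ ∈ allowed (pt F n ρ Ls.a) r' t1 t2 (((lv n).m : ℤ) ∣ a)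
        (((lv n).m : ℤ) ∣ a + 1 ∧ ¬ ((lv n).m : ℤ) ∣ j + 1) →
      ∃ t ∈ TTX, ∃ g : GLv, ((lv n).m : ℤ) ∣ κ (ofLex g).2 - a ∧
        ((lv n).m : ℤ) ∣ (ofLex g).1 - j ∧ ∀ v, VL (lv n) (t v) g (τ₁ v) := by
    intro a j τ₁ h0 hal
    obtain ⟨t', ht', n0, j0, τ', h7, h8, -, -, -, h9⟩ := hFr.lead a j τ₁ h0 hal
    exact ⟨t', ht', idx n0 (j0 : ℤ), h7, h8, fun v => vl_of_fresh (h9 v)⟩
  have hm := m_big n
  have hNpos := N_pos n
  have hm5 : 5 ≤ (lv n).m := by nlinarith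
  have hmN : ¬ (lv n).m ∣ N n := fun h => by
    have := Nat.le_of_dvd hNpos h
    nlinarith
  have hτ' : (pt F (n + 1) X Ls.a).τ = (lv n).τ' := (τ_succ n).symm
  have hV'' := hV'
  rw [hNs] at hV'
  have hprop : ∀ Sl : Set (An (n + 1)), Sl.Nonempty →
      (∀ y ∈ Sl, Good (pt F (n + 1) X Ls.a) (N n * (lv n).m) (Ls.R l) l y) →
      (pt F (n + 1) X Ls.a).Mov l ≤ RR (pt F (n + 1) X Ls.a) (Function.update S' l Sl) l →
      finrank (Kn (n + 1)) (RR (pt F (n + 1) X Ls.a) (Function.update S' l Sl) l) ≤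
        finrank (Kn (n + 1)) ((pt F (n + 1) X Ls.a).Mov l) + (Ls.R l).q →
      ∀ p ∈ PPl (pt F (n + 1) X Ls.a) (Function.update S' l Sl) l,
        ∃ c ∈ IIT (pt F (n + 1) X Ls.a) (l + 1) TTX, c l = p := by
    intro Sl _ hg _ hcod
    have hC2 : Ctx F Ls (n + 1) X l r' (Function.update S' l Sl) TTX :=
      ⟨Valid.congrS hV'' fun u hu => Function.update_of_ne (Nat.ne_of_lt hu) _ _, hAb, hopt⟩
    refine PropI.lift_PPl h1 h4 hC2 hl (fun y hy => ?_) hcod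
    rw [hNs]
    rw [Function.update_self] at hy
    exact hg y hy
  obtain ⟨Sl, hOut⟩ := ValH.step (L := lv n) (P := pt F n ρ Ls.a) (P' := pt F (n + 1) X Ls.a)
    (N := N n) (Rc := Ls.R) (Q := Ls.Q) (r := r) (S := S) (TT := TT) (k := r') (l := l)
    (t1 := t1) (t2 := t2) (g := g) (S' := S') (V := TTX)
    hl rfl hτ' rfl hex hC.valid hA hV' hFr.le
    (fun a j τ₁ hτ₁ => hvl a j τ₁ (hT0 hτ₁.2) hτ₁.1) hm5 hmN (finrank_eq n) hP hTi
    (by rw [hNs] at hUB; exact hUB) (by rw [hNs] at hkey; exact hkey) hprop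
  set S'' := Function.update S' l Sl with hS''
  have hne : ∀ u < l, S'' u = S' u := fun u hu => Function.update_of_ne (Nat.ne_of_lt hu) _ _
  have hVX : Valid (pt F (n + 1) X Ls.a) (N (n + 1)) Ls.R Ls.Q (l + 1) r' S'' TTX := by
    rw [hNs]
    exact hOut.valid
  -- the tight test at `X`
  have hCX' : Ctx F Ls (n + 1) X (l + 1) r' S'' TTX := ⟨hVX, hAb, hopt⟩
  obtain ⟨t1'', t2'', hA''⟩ := AdmExist.exists_adm Ls (n + 1) X (l + 1) r' S'' TTX hCX'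
  have hT := h5 Ls (n + 1) X r' S'' TTX hCX' t1'' t2'' hA''
  have htight := finrank_RR_eq (pt F (n + 1) X Ls.a) hVX (Nat.lt_succ_self l) hT
  refine ⟨S'', hVX, ?_, ?_, ?_, ?_⟩
  · intro u hu
    rcases Nat.lt_succ_iff_lt_or_eq.1 hu with hu' | rfl
    · rw [PPl_congr (hne u hu')]
      exact hP u hu'
    · exact hOut.ppl
  · intro u hu c hc hn
    rcases Nat.lt_succ_iff_lt_or_eq.1 hu with hu' | rfl
    · rw [PPl_congr (hne u hu')] at hn
      exact hR u hu' c hc hn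
    · exact hOut.rank c hc hn
  · intro u hu
    rcases Nat.lt_succ_iff_lt_or_eq.1 hu with hu' | rfl
    · rw [RR_congr (hne u hu')]
      exact hTi u hu'
    · exact htight
  · rintro rfl rfl
    have hFrm : ValA.Frm (lv n) (pt F n ρ Ls.a) (pt F (n + 1) X Ls.a) (l + 1) t1 t2 g :=
      ValA.Frm.of_PSol rfl hτ' rfl hex
    have hTX : TTX = (pt F (n + 1) X Ls.a).T (l + 1) := by
      refine eq_T_of_leads (L := lv n) hFr.le
        (fun a j => allowed (pt F n ρ Ls.a) (l + 1) t1 t2 (((lv n).m : ℤ) ∣ a)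
          (((lv n).m : ℤ) ∣ a + 1 ∧ ¬ ((lv n).m : ℤ) ∣ j + 1)) ?_ ?_
      · intro t ht g' hg'
        exact hFrm.T_lead le_rfl ht g' hg' hA.S1 hA.S2
      · intro a j τ₁ hτ₁
        exact hvl a j τ₁ hτ₁.1 hτ₁
    refine ⟨fun t ht => hFr.int t ?_, hTX⟩
    rw [hTX]
    exact ht

end Crest.Agent.Kurosh.ValSucc
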