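/-
S0270 (Kurosh), WP306 (helper53): `val_zero` of `Plan.lean`: the part of §J independent of the index.

* `comm_lead`: over `THS A (twist κ ζ)`, for `ξ = ρ + t₁ e₁ + t₂ e₂ + (order ≥ 2)` and `w ≠ 0` with
  no central part, `[ξ, w] ≠ 0`, and at a leading position `p` of `[ξ,w]` with `m ∣ κ p`, the leading
  vector is an inner direction of `ρ`. `comm_lead_L`: the same in `R` for an abstract `Lv`.
* `comm_of_L`: V2 at the new state.
* `Tail`, `tail_of_fresh`, `combo_lead`: the lead of `∑ xᵢ tᵢ'` (`xᵢ ∈ K'`) for moves `tᵢ'` with leads.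
* `indep_inn`: independence modulo inner directions passes from `τᵢ` to their lifts on central
  monomials. `indep_classes`: lifts of a basis at all residues are `K'`-independent.
* `aeval_conj`, `ne_zero_of_lead`: V1 at the new state.
* `exists_family`, `le_of_family`: dimension modulo a subspace versus independent families.
* `val_zero`.
-/
import Crest.Agent.Kurosh.PlanDefs

set_option autoImplicit false

namespace Crest.Agent.Kurosh.ValZero

open Hensel State Module LU

section Core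

/-- The `s'`-order. -/
abbrev lvl (g : GLv) : ℤ := (ofLex g).1

/-- The `s`-exponent. -/
noncomputable def kap (g : GLv) : ℤ := κ (ofLex g).2

lemma lvl_add (a b : GLv) : lvl (a + b) = lvl a + lvl b := rfl

lemma lvl_sub (a b : GLv) : lvl (a - b) = lvl a - lvl b := rfl

lemma kap_add (a b : GLv) : kap (a + b) = kap a + kap b := by
  simp [kap]

lemma kap_sub (a b : GLv) : kap (a - b) = kap a - kap b := by
  simp [kap]

/-- The monomial `s'`. -/
noncomputable def e1 : GLv := idx (0 : CE) 1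

/-- The monomial `η s s'`. -/
noncomputable def e2 : GLv := idx mu1 1

@[simp] lemma lvl_e1 : lvl e1 = 1 := rfl
@[simp] lemma lvl_e2 : lvl e2 = 1 := rfl
@[simp] lemma kap_e1 : kap e1 = 0 := by simp [kap, e1]
@[simp] lemma kap_e2 : kap e2 = 1 := by simpa [kap, e2] using κ_mu1

lemma mu1_pos : (0 : CE) < mu1 := by
  have h : (0 : Lex (ℕᵒᵈ →₀ ℤ)) < toLex (Finsupp.single (OrderDual.toDual 0) 1) := by
    rw [Finsupp.Lex.lt_iff]
    refine ⟨OrderDual.toDual 0, fun j hj => ?_, ?_⟩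
    · have : j ≠ OrderDual.toDual 0 := ne_of_lt hj
      simp only [ofLex_zero, Finsupp.coe_zero, Pi.zero_apply, ofLex_toLex]
      rw [Finsupp.single_apply, if_neg (fun h => this h.symm)]
    · simp
  have h2 : (0 : CE) = toLex (0, 0) := rfl
  have h3 : mu1 = toLex (toLex (Finsupp.single (OrderDual.toDual 0) 1) + 0, 0 + 1) := rfl
  rw [h2, h3]
  refine Prod.Lex.toLex_lt_toLex.mpr (Or.inl ?_)
  simpa using h

lemma e1_lt_e2 : e1 < e2 :=
  Prod.Lex.toLex_lt_toLex.mpr (Or.inr ⟨rfl, mu1_pos⟩)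

variable {K A : Type*} [Field K] [DivisionRing A] [Algebra K A] {ζ : K} {hζ : ζ ≠ 0}

local notation "𝐓" => THS A (twist κ ζ hζ)

lemma twist_apply (a b : GLv) : (twist κ ζ hζ) a b = ζ ^ (lvl a * kap b) := rfl

lemma coeff_mul_lvl {x y : 𝐓} {a b : ℤ} (hx : ∀ g ∈ x.supp, a ≤ lvl g)
    (hy : ∀ g ∈ y.supp, b ≤ lvl g) {g : GLv} (hg : lvl g < a + b) : (x * y).coeff g = 0 := by
  by_contra h
  obtain ⟨u, hu, v, hv, rfl⟩ := Set.mem_add.mp (THS.supp_mul_subset x y h)
  have h1 := hx u hu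
  have h2 := hy v hv
  rw [lvl_add] at hg
  omega

lemma comm_mono_coeff (g : GLv) (a : A) (w : 𝐓) (q : GLv) :
    (THS.mono g a * w - w * THS.mono g a).coeff q =
      ζ ^ (lvl g * kap (q - g)) • (a * w.coeff (q - g))
        - ζ ^ (lvl (q - g) * kap g) • (w.coeff (q - g) * a) := by
  have h1 := THS.coeff_mono_mul g a w (q - g)
  have h2 := THS.coeff_mul_mono g a w (q - g)
  rw [add_sub_cancel] at h1
  rw [sub_add_cancel] at h2
  rw [THS.coeff_sub, h1, h2]
  rfl

/-- The coefficient of the commutator at levels up to `j₀ + 1`. -/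
lemma comm_coeff (r u u' : A) (s w : 𝐓) {j₀ : ℤ} (hs : ∀ g ∈ s.supp, 2 ≤ lvl g)
    (hw : ∀ g ∈ w.supp, j₀ ≤ lvl g) {q : GLv} (hq : lvl q ≤ j₀ + 1) :
    ((THS.mono 0 r + THS.mono e1 u + THS.mono e2 u' + s) * w
        - w * (THS.mono 0 r + THS.mono e1 u + THS.mono e2 u' + s)).coeff q =
      (r * w.coeff q - w.coeff q * r)
      + (ζ ^ kap (q - e1) • (u * w.coeff (q - e1)) - w.coeff (q - e1) * u)
      + (ζ ^ kap (q - e2) • (u' * w.coeff (q - e2))
          - ζ ^ lvl (q - e2) • (w.coeff (q - e2) * u')) := by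
  have h1 : ((THS.mono 0 r + THS.mono e1 u + THS.mono e2 u' + s) * w
        - w * (THS.mono 0 r + THS.mono e1 u + THS.mono e2 u' + s))
      = (THS.mono 0 r * w - w * THS.mono 0 r) + (THS.mono e1 u * w - w * THS.mono e1 u)
        + (THS.mono e2 u' * w - w * THS.mono e2 u') + (s * w - w * s) := by
    noncomm_ring
  have h2 : (s * w).coeff q = 0 := coeff_mul_lvl hs hw (by omega)
  have h3 : (w * s).coeff q = 0 := coeff_mul_lvl hw hs (by omega)
  rw [h1, THS.coeff_add, THS.coeff_add, THS.coeff_add, comm_mono_coeff, comm_mono_coeff,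
    comm_mono_coeff, THS.coeff_sub, h2, h3]
  have e0 : lvl (0 : GLv) = 0 := rfl
  have k0 : kap (0 : GLv) = 0 := by simp [kap]
  simp [e0, k0, sub_zero]

/-- The coefficient of the commutator below level `j₀`, and the formula at level `j₀`. -/
lemma comm_coeff_low (r u u' : A) (s w : 𝐓) {j₀ : ℤ} (hs : ∀ g ∈ s.supp, 2 ≤ lvl g)
    (hw : ∀ g ∈ w.supp, j₀ ≤ lvl g) {q : GLv} (hq : lvl q ≤ j₀) :
    ((THS.mono 0 r + THS.mono e1 u + THS.mono e2 u' + s) * w
        - w * (THS.mono 0 r + THS.mono e1 u + THS.mono e2 u' + s)).coeff q =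
      r * w.coeff q - w.coeff q * r := by
  rw [comm_coeff r u u' s w hs hw (by omega)]
  have h1 : w.coeff (q - e1) = 0 := by
    by_contra h
    have := hw _ h
    rw [lvl_sub, lvl_e1] at this
    omega
  have h2 : w.coeff (q - e2) = 0 := by
    by_contra h
    have := hw _ h
    rw [lvl_sub, lvl_e2] at this
    omega
  simp [h1, h2]

theorem comm_lead (m : ℕ) (hm : m.Prime) (hζm : IsPrimitiveRoot ζ m)
    (τ : A →ₗ[K] K) (hτ1 : τ 1 = 1) (ρ t1 t2 : Fin 2 → A)
    (hcomm : ∀ x : A, (∀ v, x * ρ v = ρ v * x) → ∃ c : K, x = algebraMap K A c)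
    (hind : ∀ (x y : K) (u : A), (∀ v, x • t1 v + y • t2 v = ρ v * u - u * ρ v) → x = 0 ∧ y = 0)
    (s : Fin 2 → 𝐓) (hs : ∀ v, ∀ g ∈ (s v).supp, 2 ≤ lvl g)
    (ξ : Fin 2 → 𝐓)
    (hξ : ∀ v, ξ v = THS.mono 0 (ρ v) + THS.mono e1 (t1 v) + THS.mono e2 (t2 v) + s v)
    (w : 𝐓) (hw : w ≠ 0) (hP : ∀ g ∈ centLat m, τ (w.coeff g) = 0) :
    ∃ p : GLv, (∀ h, h < p → ∀ v, (ξ v * w - w * ξ v).coeff h = 0) ∧
      (∃ v, (ξ v * w - w * ξ v).coeff p ≠ 0) ∧
      ((m : ℤ) ∣ kap p → ∃ y : A, ∀ v, (ξ v * w - w * ξ v).coeff p = ρ v * y - y * ρ v) := by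
  classical
  set C : Fin 2 → 𝐓 := fun v => ξ v * w - w * ξ v with hC
  set j₀ : ℤ := lvl w.ord with hj₀
  have hwlvl : ∀ g ∈ w.supp, j₀ ≤ lvl g := fun g hg => fst_mono (THS.ord_le hg)
  have hCform : ∀ v q, lvl q ≤ j₀ + 1 → (C v).coeff q =
      (ρ v * w.coeff q - w.coeff q * ρ v)
      + (ζ ^ kap (q - e1) • (t1 v * w.coeff (q - e1)) - w.coeff (q - e1) * t1 v)
      + (ζ ^ kap (q - e2) • (t2 v * w.coeff (q - e2))
          - ζ ^ lvl (q - e2) • (w.coeff (q - e2) * t2 v)) := by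
    intro v q hq
    simp only [hC, hξ v]
    exact comm_coeff _ _ _ _ _ (hs v) hwlvl hq
  have hClow : ∀ v q, lvl q ≤ j₀ → (C v).coeff q = ρ v * w.coeff q - w.coeff q * ρ v := by
    intro v q hq
    simp only [hC, hξ v]
    exact comm_coeff_low _ _ _ _ _ (hs v) hwlvl hq
  have hz1 : ∀ k : ℤ, ζ ^ k = 1 ↔ (m : ℤ) ∣ k := fun k => hζm.zpow_eq_one_iff_dvd k
  have hm2 : 2 ≤ m := hm.two_le
  -- scalars at level `j₀`
  -- the scalar form of the formula at level `j₀+1`
  have hform2 : (∀ g, lvl g = j₀ → ∀ v, w.coeff g * ρ v = ρ v * w.coeff g) →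
      ∃ c : GLv → K, (∀ g, lvl g = j₀ → w.coeff g = algebraMap K A (c g)) ∧
        ∀ v q, lvl q = j₀ + 1 → (C v).coeff q = (ρ v * w.coeff q - w.coeff q * ρ v)
          + ((ζ ^ kap q - 1) * c (q - e1)) • t1 v
          + ((ζ ^ (kap q - 1) - ζ ^ j₀) * c (q - e2)) • t2 v := by
    intro hsc
    have hc : ∀ g, ∃ c : K, lvl g = j₀ → w.coeff g = algebraMap K A c := by
      intro g
      by_cases hg : lvl g = j₀
      · obtain ⟨c, hc⟩ := hcomm _ (hsc g hg)
        exact ⟨c, fun _ => hc⟩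
      · exact ⟨0, fun h => absurd h hg⟩
    choose c hc using hc
    refine ⟨c, hc, fun v q hq => ?_⟩
    rw [hCform v q (by omega)]
    have h1 : lvl (q - e1) = j₀ := by rw [lvl_sub, lvl_e1]; omega
    have h2 : lvl (q - e2) = j₀ := by rw [lvl_sub, lvl_e2]; omega
    rw [hc _ h1, hc _ h2, h2, kap_sub, kap_sub, kap_e1, kap_e2, sub_zero]
    have h3 : ∀ (a : K) (x : A), algebraMap K A a * x = a • x := fun a x => (Algebra.smul_def a x).symm
    have h4 : ∀ (a : K) (x : A), x * algebraMap K A a = a • x := fun a x => by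
      rw [← Algebra.commutes, h3]
    simp only [h3, h4]
    simp only [smul_sub, smul_smul, sub_smul]
    module
  -- `Bad` is nonempty and contains a level `≤ j₀+1` element
  have hexists : ∃ q v, lvl q ≤ j₀ + 1 ∧ (C v).coeff q ≠ 0 := by
    by_cases hsc : ∀ g, lvl g = j₀ → ∀ v, w.coeff g * ρ v = ρ v * w.coeff g
    · obtain ⟨c, hc, hf⟩ := hform2 hsc
      set h0 := w.ord with hh0
      have hh0lvl : lvl h0 = j₀ := rfl
      have hw0 : w.coeff h0 ≠ 0 := THS.ord_mem hw
      have hc0 : c h0 ≠ 0 := by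
        intro h
        apply hw0
        rw [hc h0 hh0lvl, h, map_zero]
      have hτc : ∀ a : K, τ (algebraMap K A a) = a := by
        intro a
        rw [Algebra.algebraMap_eq_smul_one, map_smul, hτ1, smul_eq_mul, mul_one]
      have hnc : h0 ∉ centLat m := by
        intro hcen
        have := hP h0 hcen
        rw [hc h0 hh0lvl, hτc] at this
        exact hc0 this
      by_cases hk : (m : ℤ) ∣ kap h0
      · -- `t2` at `h0 + e2`
        have hj : ¬ (m : ℤ) ∣ j₀ := fun h => hnc ⟨h, hk⟩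
        set q := h0 + e2 with hq
        have hql : lvl q = j₀ + 1 := by rw [hq, lvl_add, lvl_e2]
        by_contra hcon
        push Not at hcon
        have hz : ∀ v, (C v).coeff q = 0 := fun v => hcon q v (by omega)
        have hne : (ζ ^ (kap q - 1) - ζ ^ j₀) * c (q - e2) ≠ 0 := by
          have h1 : q - e2 = h0 := by rw [hq]; abel
          have h2 : kap q - 1 = kap h0 := by rw [hq, kap_add, kap_e2]; omega
          rw [h1, h2, (hz1 _).mpr hk]
          refine mul_ne_zero ?_ hc0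
          intro h3
          have h4 : ζ ^ j₀ = 1 := (sub_eq_zero.mp h3).symm
          exact hj ((hz1 _).mp h4)
        have := hind ((ζ ^ kap q - 1) * c (q - e1)) ((ζ ^ (kap q - 1) - ζ ^ j₀) * c (q - e2))
          (- w.coeff q) (fun v => by
            have h5 := hf v q hql
            rw [hz v] at h5
            have h6 : ρ v * -w.coeff q - -w.coeff q * ρ v = -(ρ v * w.coeff q - w.coeff q * ρ v) := by
              noncomm_ring
            rw [h6]
            rw [add_assoc] at h5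
            exact (neg_eq_of_add_eq_zero_right h5.symm).symm ▸ rfl)
        exact hne this.2
      · -- `t1` at `h0 + e1`
        set q := h0 + e1 with hq
        have hql : lvl q = j₀ + 1 := by rw [hq, lvl_add, lvl_e1]
        by_contra hcon
        push Not at hcon
        have hz : ∀ v, (C v).coeff q = 0 := fun v => hcon q v (by omega)
        have hne : (ζ ^ kap q - 1) * c (q - e1) ≠ 0 := by
          have h1 : q - e1 = h0 := by rw [hq]; abel
          have h2 : kap q = kap h0 := by rw [hq, kap_add, kap_e1]; omega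
          rw [h1, h2]
          refine mul_ne_zero ?_ hc0
          intro h3
          exact hk ((hz1 _).mp (sub_eq_zero.mp h3))
        have := hind ((ζ ^ kap q - 1) * c (q - e1)) ((ζ ^ (kap q - 1) - ζ ^ j₀) * c (q - e2))
          (- w.coeff q) (fun v => by
            have h5 := hf v q hql
            rw [hz v] at h5
            have h6 : ρ v * -w.coeff q - -w.coeff q * ρ v = -(ρ v * w.coeff q - w.coeff q * ρ v) := by
              noncomm_ring
            rw [h6]
            rw [add_assoc] at h5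
            exact (neg_eq_of_add_eq_zero_right h5.symm).symm ▸ rfl)
        exact hne this.1
    · push Not at hsc
      obtain ⟨g, hg, v, hv⟩ := hsc
      refine ⟨g, v, by omega, ?_⟩
      rw [hClow v g hg.le]
      exact fun h => hv (sub_eq_zero.mp h).symm
  -- the minimal bad position
  set Bad : Set GLv := ⋃ v, (C v).supp with hBad
  have hBadWF : Bad.IsWF := by
    have h0 : ((C 0).supp ∪ (C 1).supp).IsPWO := (C 0).isPWO_supp.union (C 1).isPWO_supp
    refine h0.isWF.mono ?_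
    intro g hg
    obtain ⟨v, hv⟩ := Set.mem_iUnion.mp hg
    fin_cases v
    · exact Or.inl hv
    · exact Or.inr hv
  have hBadne : Bad.Nonempty := by
    obtain ⟨q, v, -, hq⟩ := hexists
    exact ⟨q, Set.mem_iUnion.mpr ⟨v, hq⟩⟩
  set p := hBadWF.min hBadne with hp
  have hpmem : p ∈ Bad := hBadWF.min_mem hBadne
  have hpmin : ∀ h, h < p → ∀ v, (C v).coeff h = 0 := by
    intro h hlt v
    by_contra hne
    have : h ∈ Bad := Set.mem_iUnion.mpr ⟨v, hne⟩
    exact absurd (hBadWF.min_le hBadne this) (not_le.mpr hlt)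
  have hpv : ∃ v, (C v).coeff p ≠ 0 := by
    obtain ⟨v, hv⟩ := Set.mem_iUnion.mp hpmem
    exact ⟨v, hv⟩
  refine ⟨p, hpmin, hpv, fun hkp => ?_⟩
  -- level of `p`
  by_cases hpl : lvl p ≤ j₀
  · exact ⟨w.coeff p, fun v => hClow v p hpl⟩
  have hsc : ∀ g, lvl g = j₀ → ∀ v, w.coeff g * ρ v = ρ v * w.coeff g := by
    intro g hg v
    have hlt : g < p := lt_of_fst_lt (by
      show lvl g < lvl p
      omega)
    have := hpmin g hlt v
    rw [hClow v g hg.le] at this
    exact (sub_eq_zero.mp this).symm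
  obtain ⟨c, hc, hf⟩ := hform2 hsc
  -- `p` has level `j₀ + 1`
  have hpl2 : lvl p = j₀ + 1 := by
    obtain ⟨q, v, hql, hq⟩ := hexists
    have hq' : q ∈ Bad := Set.mem_iUnion.mpr ⟨v, hq⟩
    have := fst_mono (hBadWF.min_le hBadne hq')
    have h1 : lvl p ≤ lvl q := this
    omega
  have hb : c (p - e2) = 0 := by
    by_contra hne
    -- `h' + e1 < p` is bad
    set h' := p - e2 with hh'
    have hlh' : lvl h' = j₀ := by rw [hh', lvl_sub, lvl_e2]; omega
    set q := h' + e1 with hq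
    have hql : lvl q = j₀ + 1 := by rw [hq, lvl_add, lvl_e1, hlh']
    have hqlt : q < p := by
      have h1 : p = h' + e2 := by rw [hh']; abel
      rw [h1, hq]
      exact add_lt_add_right e1_lt_e2 h'
    have hz : ∀ v, (C v).coeff q = 0 := hpmin q hqlt
    have hkq : kap q = kap p - 1 := by
      rw [hq, hh', kap_add, kap_sub, kap_e1, kap_e2]
      omega
    have hnd : ¬ (m : ℤ) ∣ kap q := by
      intro hd
      rw [hkq] at hd
      have h1 : (m : ℤ) ∣ 1 := by
        have := dvd_sub hkp hd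
        simpa using this
      have h2 : m ∣ 1 := by exact_mod_cast h1
      have := Nat.le_of_dvd one_pos h2
      omega
    have hne' : (ζ ^ kap q - 1) * c (q - e1) ≠ 0 := by
      have h1 : q - e1 = h' := by rw [hq]; abel
      rw [h1]
      refine mul_ne_zero ?_ hne
      intro h3
      exact hnd ((hz1 _).mp (sub_eq_zero.mp h3))
    have := hind ((ζ ^ kap q - 1) * c (q - e1)) ((ζ ^ (kap q - 1) - ζ ^ j₀) * c (q - e2))
      (- w.coeff q) (fun v => by
        have h5 := hf v q hql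
        rw [hz v] at h5
        have h6 : ρ v * -w.coeff q - -w.coeff q * ρ v = -(ρ v * w.coeff q - w.coeff q * ρ v) := by
          noncomm_ring
        rw [h6]
        rw [add_assoc] at h5
        exact (neg_eq_of_add_eq_zero_right h5.symm).symm ▸ rfl)
    exact hne' this.1
  refine ⟨w.coeff p, fun v => ?_⟩
  rw [hf v p hpl2, hb, mul_zero, zero_smul, add_zero, (hz1 _).mpr hkp, sub_self, zero_mul, zero_smul,
    add_zero]

end Core

section Transfer

variable {K A K' R : Type*} [Field K] [DivisionRing A] [Algebra K A] [Field K'] [DivisionRing R]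
  [Algebra K R] [Algebra K' R] [Algebra K K'] [IsScalarTower K K' R] {τ : A →ₗ[K] K}
  (L : Lv K A K' R τ)

lemma phi_inc (x : A) : L.φ (L.lev.inc x) = THS.mono 0 x := by
  have h := L.lev_mono x 0 0
  simp only [Lev.mono, L.lev.mon_zero, mul_one] at h
  rw [h]
  rfl

lemma phi_mono1 (x : A) : L.φ (L.lev.mono x 0 1) = THS.mono e1 x := L.lev_mono x 0 1

lemma phi_mono2 (x : A) : L.φ (L.lev.mono x L.lev.μ₁ 1) = THS.mono e2 x := by
  rw [L.lev_μ₁]
  exact L.lev_mono x mu1 1

/-- The form of `X` given by the lead of a partial solution. -/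
lemma phi_X {ρ t1 t2 : Fin 2 → A} {X : Fin 2 → R}
    (h : ∀ v, X v - (L.lev.inc (ρ v) + L.lev.mono (t1 v) 0 1 + L.lev.mono (t2 v) L.lev.μ₁ 1)
      ∈ L.lev.Φ.fil 2) :
    ∃ s : Fin 2 → THS A (twist κ L.ζ L.ζ_ne), (∀ v, ∀ g ∈ (s v).supp, 2 ≤ lvl g) ∧
      ∀ v, L.φ (X v) = THS.mono 0 (ρ v) + THS.mono e1 (t1 v) + THS.mono e2 (t2 v) + s v := by
  refine ⟨fun v => L.φ (X v -
    (L.lev.inc (ρ v) + L.lev.mono (t1 v) 0 1 + L.lev.mono (t2 v) L.lev.μ₁ 1)), ?_, ?_⟩
  · intro v g hg
    exact_mod_cast (L.lev_fil 2 _).mp (h v) g hg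
  · intro v
    simp only [map_sub, map_add, phi_inc, phi_mono1, phi_mono2]
    abel

/-- The centre-free part of `x`. -/
lemma hP_sub (hτ1 : τ 1 = 1) (x : R) (g : GLv) (hg : g ∈ centLat L.m) :
    τ ((L.φ (x - algebraMap K' R (L.τ' x))).coeff g) = 0 := by
  rw [map_sub, THS.coeff_sub, L.τ'_coeff, if_pos hg, map_sub, Algebra.algebraMap_eq_smul_one,
    map_smul, hτ1, smul_eq_mul, mul_one, sub_self]

/-- `comm_lead` in `R`. -/
theorem comm_lead_L (hτ1 : τ 1 = 1) {ρ t1 t2 : Fin 2 → A}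
    (hcomm : ∀ x : A, (∀ v, x * ρ v = ρ v * x) → ∃ c : K, x = algebraMap K A c)
    (hind : ∀ (x y : K) (u : A), (∀ v, x • t1 v + y • t2 v = ρ v * u - u * ρ v) → x = 0 ∧ y = 0)
    {X : Fin 2 → R}
    (hX : ∀ v, X v - (L.lev.inc (ρ v) + L.lev.mono (t1 v) 0 1 + L.lev.mono (t2 v) L.lev.μ₁ 1)
      ∈ L.lev.Φ.fil 2)
    {w : R} (hw : w ≠ 0) (hP : ∀ g ∈ centLat L.m, τ ((L.φ w).coeff g) = 0) :
    ∃ p : GLv, (∀ h, h < p → ∀ v, (L.φ (X v * w - w * X v)).coeff h = 0) ∧
      (∃ v, (L.φ (X v * w - w * X v)).coeff p ≠ 0) ∧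
      ((L.m : ℤ) ∣ kap p → ∃ y : A, ∀ v, (L.φ (X v * w - w * X v)).coeff p = ρ v * y - y * ρ v) := by
  obtain ⟨s, hs, hXf⟩ := phi_X L hX
  have hw' : L.φ w ≠ 0 := fun h => hw (by simpa using h)
  have := comm_lead L.m L.m_prime L.ζ_prim τ hτ1 ρ t1 t2 hcomm hind s hs (fun v => L.φ (X v)) hXf
    (L.φ w) hw' hP
  simpa only [map_sub, map_mul] using this

/-- V2 at the new state. -/
theorem comm_of_L (hτ1 : τ 1 = 1) {ρ t1 t2 : Fin 2 → A}
    (hcomm : ∀ x : A, (∀ v, x * ρ v = ρ v * x) → ∃ c : K, x = algebraMap K A c)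
    (hind : ∀ (x y : K) (u : A), (∀ v, x • t1 v + y • t2 v = ρ v * u - u * ρ v) → x = 0 ∧ y = 0)
    {X : Fin 2 → R}
    (hX : ∀ v, X v - (L.lev.inc (ρ v) + L.lev.mono (t1 v) 0 1 + L.lev.mono (t2 v) L.lev.μ₁ 1)
      ∈ L.lev.Φ.fil 2)
    (x : R) (hx : ∀ v, x * X v = X v * x) : ∃ c : K', x = algebraMap K' R c := by
  refine ⟨L.τ' x, ?_⟩
  by_contra hne
  have hw : x - algebraMap K' R (L.τ' x) ≠ 0 := sub_ne_zero.mpr hne
  obtain ⟨p, -, ⟨v, hv⟩, -⟩ := comm_lead_L L hτ1 hcomm hind hX hw (hP_sub L hτ1 x)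
  apply hv
  have : X v * (x - algebraMap K' R (L.τ' x)) - (x - algebraMap K' R (L.τ' x)) * X v = 0 := by
    rw [mul_sub, sub_mul, hx v, Algebra.commutes]
    abel
  rw [this, map_zero]
  rfl

/-- The lead of a term `a * (mono g τ₀ + s)`. -/
lemma term_lead {ζ : K} {hζ : ζ ≠ 0} {m : ℕ} (hζm : ζ ^ m = 1)
    {a : THS A (twist κ ζ hζ)} (hlv : (m : ℤ) ∣ lvl a.ord) {c : K}
    (hc : a.coeff a.ord = algebraMap K A c) (τ₀ : A) (g : GLv) {s : THS A (twist κ ζ hζ)}
    (hs : ∀ u ∈ s.supp, g < u) {q : GLv} (hq : q ≤ a.ord + g) :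
    (a * (THS.mono g τ₀ + s)).coeff q = if q = a.ord + g then c • τ₀ else 0 := by
  classical
  have h1 : (a * s).coeff q = 0 := by
    by_contra hne
    obtain ⟨u, hu, w, hw, rfl⟩ := Set.mem_add.mp (THS.supp_mul_subset a s hne)
    have hu' : a.ord ≤ u := THS.ord_le hu
    have hw' : g < w := hs w hw
    have : a.ord + g < u + w := add_lt_add_of_le_of_lt hu' hw'
    exact absurd hq (not_le.mpr this)
  rw [mul_add, THS.coeff_add, h1, add_zero]
  have h2 := THS.coeff_mul_mono g τ₀ a (q - g)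
  rw [sub_add_cancel] at h2
  rw [h2]
  by_cases hq2 : q = a.ord + g
  · rw [if_pos hq2]
    have h3 : q - g = a.ord := by rw [hq2]; abel
    rw [h3, hc, twist_apply]
    obtain ⟨d, hd⟩ := hlv
    rw [hd, mul_assoc, zpow_mul, zpow_natCast, hζm, one_zpow, one_smul, ← Algebra.smul_def]
  · rw [if_neg hq2]
    have h3 : q - g < a.ord := by
      have h4 : q < a.ord + g := lt_of_le_of_ne hq hq2
      exact sub_lt_iff_lt_add.mpr h4
    have h5 : a.coeff (q - g) = 0 := by
      by_contra h6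
      exact absurd (THS.ord_le h6) (not_le.mpr h3)
    rw [h5, zero_mul, smul_zero]

lemma coeff_sum {ε : Bichar GLv K} {ι : Type*} (s : Finset ι) (f : ι → THS A ε) (g : GLv) :
    (∑ i ∈ s, f i).coeff g = ∑ i ∈ s, (f i).coeff g := by
  classical
  induction s using Finset.induction_on with
  | empty => simp
  | insert a s ha ih => rw [Finset.sum_insert ha, Finset.sum_insert ha, THS.coeff_add, ih]

/-- An element of `K'` in coordinates. -/
lemma scal_data (x : K') (hx : x ≠ 0) :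
    L.φ (algebraMap K' R x) ≠ 0 ∧ ((L.m : ℤ) ∣ lvl (L.φ (algebraMap K' R x)).ord) ∧
      (L.φ (algebraMap K' R x)).ord ∈ centLat L.m ∧
      ∃ c : K, c ≠ 0 ∧ (L.φ (algebraMap K' R x)).coeff (L.φ (algebraMap K' R x)).ord = algebraMap K A c := by
  have h0 : L.φ (algebraMap K' R x) ≠ 0 := by
    intro h
    have h1 : algebraMap K' R x = 0 := by simpa using h
    exact hx (by simpa using h1)
  have h1 := THS.ord_mem h0
  have h2 := (L.mem_K' (algebraMap K' R x)).mp ⟨x, rfl⟩ _ h1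
  obtain ⟨c, hc⟩ := h2.2
  refine ⟨h0, h2.1.1, h2.1, c, ?_, hc.symm⟩
  rintro rfl
  rw [map_zero] at hc
  exact h1 hc.symm

/-- The tail of a vector with a lead in the sense of `Fresh`. -/
def Tail (t : R) (x : A) (n : CE) (j : ℕ) : Prop :=
  ∀ g ∈ (L.φ (t - L.lev.mono x n j)).supp, idx n (j : ℤ) < g

/-- The lead in the sense of `Fresh`: a correction at `n + μ₁` on the same level is above. -/
lemma tail_of_fresh {t : R} {x x' : A} {n : CE} {j : ℕ}
    (h : t - L.lev.mono x n j - L.lev.mono x' (n + mu1) j ∈ L.lev.Φ.fil (j + 1)) :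
    Tail L t x n j := by
  classical
  intro g hg
  have h1 : L.φ (t - L.lev.mono x n j) =
      L.φ (t - L.lev.mono x n j - L.lev.mono x' (n + mu1) j) + THS.mono (idx (n + mu1) (j : ℤ)) x' := by
    rw [map_sub (L.φ) (t - L.lev.mono x n j), L.lev_mono x' (n + mu1) j]
    abel
  have hg' : (L.φ (t - L.lev.mono x n j)).coeff g ≠ 0 := hg
  rw [h1, THS.coeff_add] at hg'
  by_cases h2 : (L.φ (t - L.lev.mono x n j - L.lev.mono x' (n + mu1) j)).coeff g = 0
  · rw [h2, zero_add, THS.coeff_mono] at hg'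
    have h3 : g = idx (n + mu1) (j : ℤ) := by
      by_contra h4
      exact hg' (if_neg h4)
    rw [h3]
    exact Prod.Lex.toLex_lt_toLex.mpr (Or.inr ⟨rfl, by
      show n < n + mu1
      exact lt_add_of_pos_right n mu1_pos⟩)
  · have h3 := (L.lev_fil (j + 1) _).mp h g h2
    push_cast at h3
    apply lt_of_fst_lt
    show (j : ℤ) < (ofLex g).1
    omega

/-- **The lead of a combination.** -/
theorem combo_lead {V ι : Type*} [Fintype ι] [DecidableEq ι] (t' : ι → V → R)
    (τ₀ : ι → V → A) (n0 : ι → CE) (j0 : ι → ℕ)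
    (hlead : ∀ i v, Tail L (t' i v) (τ₀ i v) (n0 i) (j0 i))
    (x : ι → K') (hx : x ≠ 0) :
    ∃ (p : GLv) (S : Finset ι) (c : ι → K), S.Nonempty ∧
      (∀ i ∈ S, c i ≠ 0 ∧ p - idx (n0 i) (j0 i) ∈ centLat L.m) ∧
      ∀ v, (∀ h, h < p → (L.φ (∑ i, x i • t' i v)).coeff h = 0) ∧
        (L.φ (∑ i, x i • t' i v)).coeff p = ∑ i ∈ S, c i • τ₀ i v := by
  classical
  set a : ι → THS A (twist κ L.ζ L.ζ_ne) := fun i => L.φ (algebraMap K' R (x i)) with ha
  set P : ι → GLv := fun i => (a i).ord + idx (n0 i) (j0 i) with hP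
  set S0 : Finset ι := Finset.univ.filter (fun i => x i ≠ 0) with hS0
  have hS0ne : S0.Nonempty := by
    by_contra hne
    apply hx
    funext i
    by_contra hi
    exact hne ⟨i, Finset.mem_filter.mpr ⟨Finset.mem_univ _, hi⟩⟩
  obtain ⟨i₀, hi₀, hmin⟩ := Finset.exists_min_image S0 P hS0ne
  set p := P i₀ with hp
  have hc : ∀ i, ∃ c : K, i ∈ S0 → c ≠ 0 ∧ (a i).coeff (a i).ord = algebraMap K A c := by
    intro i
    by_cases hi : i ∈ S0
    · obtain ⟨c, hc0, hc⟩ := (scal_data L (x i) (Finset.mem_filter.mp hi).2).2.2.2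
      exact ⟨c, fun _ => ⟨hc0, hc⟩⟩
    · exact ⟨0, fun h => absurd h hi⟩
  choose c hc using hc
  have hζ1 : L.ζ ^ L.m = 1 := L.ζ_prim.pow_eq_one
  -- the terms
  have hterm : ∀ i ∈ S0, ∀ v q, q ≤ p → (L.φ (x i • t' i v)).coeff q =
      if q = P i then c i • τ₀ i v else 0 := by
    intro i hi v q hq
    have hxi := (Finset.mem_filter.mp hi).2
    have hdata := scal_data L (x i) hxi
    have hqi : q ≤ (a i).ord + idx (n0 i) (j0 i) := hq.trans (hmin i hi)
    set g := idx (n0 i) ((j0 i : ℕ) : ℤ) with hg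
    have hform : L.φ (t' i v) = THS.mono g (τ₀ i v) +
        L.φ (t' i v - L.lev.mono (τ₀ i v) (n0 i) (j0 i)) := by
      rw [map_sub, L.lev_mono]
      abel
    rw [Algebra.smul_def, map_mul, hform]
    convert term_lead hζ1 hdata.2.1 (hc i hi).2 (τ₀ i v) g (hlead i v) hqi
  have hzero : ∀ i, i ∉ S0 → ∀ v, x i • t' i v = 0 := by
    intro i hi v
    have : x i = 0 := by
      by_contra h
      exact hi (Finset.mem_filter.mpr ⟨Finset.mem_univ _, h⟩)
    rw [this, zero_smul]
  have hsum : ∀ v, ∑ i, x i • t' i v = ∑ i ∈ S0, x i • t' i v := by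
    intro v
    symm
    apply Finset.sum_subset (Finset.subset_univ _)
    intro i _ hi
    exact hzero i hi v
  refine ⟨p, S0.filter (fun i => P i = p), c, ⟨i₀, Finset.mem_filter.mpr ⟨hi₀, rfl⟩⟩, ?_, ?_⟩
  · intro i hi
    obtain ⟨h1, h2⟩ := Finset.mem_filter.mp hi
    refine ⟨(hc i h1).1, ?_⟩
    have h3 : p - idx (n0 i) (j0 i) = (a i).ord := by
      rw [sub_eq_iff_eq_add]
      exact h2.symm
    rw [h3]
    exact (scal_data L (x i) (Finset.mem_filter.mp h1).2).2.2.1
  · intro v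
    rw [hsum v, map_sum]
    constructor
    · intro h hh
      rw [coeff_sum]
      apply Finset.sum_eq_zero
      intro i hi
      rw [hterm i hi v h hh.le, if_neg]
      exact fun e => absurd (hmin i hi) (not_le.mpr (e ▸ hh))
    · have h7 : ∑ i ∈ S0.filter (fun i => P i = p), c i • τ₀ i v =
          ∑ i ∈ S0, if P i = p then c i • τ₀ i v else 0 := Finset.sum_filter _ _
      rw [coeff_sum, h7]
      apply Finset.sum_congr rfl
      intro i hi
      rw [hterm i hi v p le_rfl]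
      by_cases h : P i = p
      · rw [if_pos h.symm, if_pos h]
      · rw [if_neg (fun e => h e.symm), if_neg h]

end Transfer

section Indep

variable {K A K' R : Type*} [Field K] [DivisionRing A] [Algebra K A] [Field K'] [DivisionRing R]
  [Algebra K R] [Algebra K' R] [Algebra K K'] [IsScalarTower K K' R] {τ : A →ₗ[K] K}
  (L : Lv K A K' R τ)

/-- Moves on central monomials, independent modulo inner directions of `ρ`, are independent modulo
inner directions of `X`. -/
theorem indep_inn {ι : Type*} [Fintype ι] [DecidableEq ι] (hτ1 : τ 1 = 1) {ρ t1 t2 : Fin 2 → A}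
    (hcomm : ∀ x : A, (∀ v, x * ρ v = ρ v * x) → ∃ c : K, x = algebraMap K A c)
    (hind : ∀ (x y : K) (u : A), (∀ v, x • t1 v + y • t2 v = ρ v * u - u * ρ v) → x = 0 ∧ y = 0)
    {X : Fin 2 → R}
    (hX : ∀ v, X v - (L.lev.inc (ρ v) + L.lev.mono (t1 v) 0 1 + L.lev.mono (t2 v) L.lev.μ₁ 1)
      ∈ L.lev.Φ.fil 2)
    (t' : ι → Fin 2 → R) (τ₀ : ι → Fin 2 → A) (n0 : ι → CE) (j0 : ι → ℕ)
    (hlead : ∀ i v, Tail L (t' i v) (τ₀ i v) (n0 i) (j0 i))
    (hcent : ∀ i, idx (n0 i) (j0 i : ℤ) ∈ centLat L.m)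
    (hindep : ∀ (c : ι → K) (y : A), (∀ v, ∑ i, c i • τ₀ i v = ρ v * y - y * ρ v) → c = 0)
    (x : ι → K') (u : R) (hu : ∀ v, ∑ i, x i • t' i v = X v * u - u * X v) : x = 0 := by
  classical
  by_contra hx
  obtain ⟨p, S, c, ⟨i₀, hi₀⟩, hS, hv⟩ := combo_lead L t' τ₀ n0 j0 hlead x hx
  have hnon : ∀ y : A, ¬ ∀ v, ∑ i ∈ S, c i • τ₀ i v = ρ v * y - y * ρ v := by
    intro y hy
    have h1 := hindep (fun i => if i ∈ S then c i else 0) y (fun v => by
      rw [← hy v, ← Finset.sum_subset (Finset.subset_univ S)]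
      · exact Finset.sum_congr rfl fun i hi => by rw [if_pos hi]
      · intro i _ hi
        rw [if_neg hi, zero_smul])
    have h2 := congrFun h1 i₀
    simp only [if_pos hi₀, Pi.zero_apply] at h2
    exact (hS i₀ hi₀).1 h2
  set w := u - algebraMap K' R (L.τ' u) with hw
  have hcw : ∀ v, X v * w - w * X v = X v * u - u * X v := by
    intro v
    rw [hw, mul_sub, sub_mul, Algebra.commutes]
    abel
  by_cases hw0 : w = 0
  · apply hnon 0
    intro v
    have h1 := hcw v
    rw [hw0, mul_zero, zero_mul, sub_zero, ← hu v] at h1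
    rw [← (hv v).2, ← h1, map_zero]
    simp
  obtain ⟨p', hlow, ⟨v, hne⟩, h3⟩ := comm_lead_L L hτ1 hcomm hind hX hw0 (hP_sub L hτ1 u)
  have hrw : ∀ v, X v * w - w * X v = ∑ i, x i • t' i v := fun v => by rw [hcw v, hu v]
  simp only [hrw] at hlow hne h3
  rcases lt_trichotomy p' p with hlt | heq | hgt
  · exact hne ((hv v).1 p' hlt)
  · subst heq
    have hk : (L.m : ℤ) ∣ kap p' := by
      have h5 : p' = (p' - idx (n0 i₀) (j0 i₀ : ℤ)) + idx (n0 i₀) (j0 i₀ : ℤ) := by abel
      have h6 := (centLat L.m).add_mem (hS i₀ hi₀).2 (hcent i₀)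
      rw [← h5] at h6
      exact h6.2
    obtain ⟨y, hy⟩ := h3 hk
    apply hnon y
    intro v
    rw [← hy v, (hv v).2]
  · apply hnon 0
    intro v
    rw [← (hv v).2, hlow p hgt v]
    simp

/-- The lead of a combination of moves at all residues over a family `b`: at the leading position only
one residue appears. -/
theorem combo_class {V B : Type*} [Fintype B] [DecidableEq B] (b : B → V → A)
    (t' : Fin L.m × Fin L.m × B → V → R)
    (n0 : Fin L.m × Fin L.m × B → CE) (j0 : Fin L.m × Fin L.m × B → ℕ)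
    (hκ : ∀ i, (L.m : ℤ) ∣ κ (n0 i) - ((i.1 : ℕ) : ℤ))
    (hj : ∀ i, (L.m : ℤ) ∣ (j0 i : ℤ) - ((i.2.1 : ℕ) : ℤ))
    (hlead : ∀ i v, Tail L (t' i v) (b i.2.2 v) (n0 i) (j0 i))
    (x : Fin L.m × Fin L.m × B → K') (hx0 : x ≠ 0) :
    ∃ (p : GLv) (s : Finset B) (c : B → K), s.Nonempty ∧ (∀ β ∈ s, c β ≠ 0) ∧
      ∀ v, (∀ h, h < p → (L.φ (∑ i, x i • t' i v)).coeff h = 0) ∧
        (L.φ (∑ i, x i • t' i v)).coeff p = ∑ β ∈ s, c β • b β v := by
  classical
  obtain ⟨p, S, c, ⟨i₀, hi₀⟩, hS, hv⟩ :=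
    combo_lead L t' (fun i => b i.2.2) n0 j0 hlead x hx0
  have hmpos : (0 : ℤ) < L.m := by exact_mod_cast L.m_prime.pos
  have hfib : ∀ i ∈ S, i = (i₀.1, i₀.2.1, i.2.2) := by
    intro i hi
    have h1 := (hS i hi).2
    have h2 := (hS i₀ hi₀).2
    have h3 := (centLat L.m).sub_mem h2 h1
    have h4 : p - idx (n0 i₀) (j0 i₀ : ℤ) - (p - idx (n0 i) (j0 i : ℤ))
        = idx (n0 i) (j0 i : ℤ) - idx (n0 i₀) (j0 i₀ : ℤ) := by abel
    rw [h4] at h3
    have h5 : (L.m : ℤ) ∣ (j0 i : ℤ) - (j0 i₀ : ℤ) := h3.1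
    have h6 : (L.m : ℤ) ∣ κ (n0 i) - κ (n0 i₀) := by
      have := h3.2
      have e : κ (ofLex (idx (n0 i) (j0 i : ℤ) - idx (n0 i₀) (j0 i₀ : ℤ))).2
          = κ (n0 i) - κ (n0 i₀) := by
        have := kap_sub (idx (n0 i) (j0 i : ℤ)) (idx (n0 i₀) (j0 i₀ : ℤ))
        exact this
      rwa [e] at this
    have h7 : (L.m : ℤ) ∣ ((i.2.1 : ℕ) : ℤ) - ((i₀.2.1 : ℕ) : ℤ) := by
      have h := dvd_sub h5 (dvd_sub (hj i) (hj i₀))
      have e : ((j0 i : ℤ) - (j0 i₀ : ℤ)) - (((j0 i : ℤ) - ((i.2.1 : ℕ) : ℤ)) -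
          ((j0 i₀ : ℤ) - ((i₀.2.1 : ℕ) : ℤ))) = ((i.2.1 : ℕ) : ℤ) - ((i₀.2.1 : ℕ) : ℤ) := by ring
      rwa [e] at h
    have h8 : (L.m : ℤ) ∣ ((i.1 : ℕ) : ℤ) - ((i₀.1 : ℕ) : ℤ) := by
      have h := dvd_sub h6 (dvd_sub (hκ i) (hκ i₀))
      have e : (κ (n0 i) - κ (n0 i₀)) - ((κ (n0 i) - ((i.1 : ℕ) : ℤ)) -
          (κ (n0 i₀) - ((i₀.1 : ℕ) : ℤ))) = ((i.1 : ℕ) : ℤ) - ((i₀.1 : ℕ) : ℤ) := by ring
      rwa [e] at h
    have key : ∀ a a' : Fin L.m, (L.m : ℤ) ∣ ((a : ℕ) : ℤ) - ((a' : ℕ) : ℤ) → a = a' := by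
      intro a a' hd
      have h9 := a.2
      have h10 := a'.2
      have h11 : ((a : ℕ) : ℤ) - ((a' : ℕ) : ℤ) = 0 := by
        apply Int.eq_zero_of_abs_lt_dvd hd
        rw [abs_lt]
        constructor <;> omega
      apply Fin.ext
      omega
    have e1 := key _ _ h8
    have e2 := key _ _ h7
    ext1
    · exact e1
    · ext1
      · exact e2
      · rfl
  set c' : B → K := fun β => if (i₀.1, i₀.2.1, β) ∈ S then c (i₀.1, i₀.2.1, β) else 0 with hc'
  have hinj : Set.InjOn (fun i : Fin L.m × Fin L.m × B => i.2.2) (S : Set _) := by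
    intro i hi i' hi' e
    have e' : i.2.2 = i'.2.2 := e
    rw [hfib i hi, hfib i' hi', e']
  have hci : ∀ i ∈ S, c' i.2.2 = c i := by
    intro i hi
    have h1 : (i₀.1, i₀.2.1, i.2.2) ∈ S := by
      rw [← hfib i hi]
      exact hi
    rw [hc']
    simp only [if_pos h1]
    rw [← hfib i hi]
  refine ⟨p, S.image (fun i => i.2.2), c', ⟨i₀.2.2, Finset.mem_image_of_mem _ hi₀⟩, ?_, ?_⟩
  · intro β hβ
    obtain ⟨i, hi, rfl⟩ := Finset.mem_image.mp hβ
    rw [hci i hi]
    exact (hS i hi).1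
  · intro v
    refine ⟨(hv v).1, ?_⟩
    rw [(hv v).2, Finset.sum_image hinj]
    exact Finset.sum_congr rfl fun i hi => by rw [hci i hi]

/-- Moves at all residues over a basis are independent. -/
theorem indep_classes {V B : Type*} [Fintype B] [DecidableEq B] (b : B → V → A)
    (hb : LinearIndependent K b) (t' : Fin L.m × Fin L.m × B → V → R)
    (n0 : Fin L.m × Fin L.m × B → CE) (j0 : Fin L.m × Fin L.m × B → ℕ)
    (hκ : ∀ i, (L.m : ℤ) ∣ κ (n0 i) - ((i.1 : ℕ) : ℤ))
    (hj : ∀ i, (L.m : ℤ) ∣ (j0 i : ℤ) - ((i.2.1 : ℕ) : ℤ))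
    (hlead : ∀ i v, Tail L (t' i v) (b i.2.2 v) (n0 i) (j0 i)) :
    LinearIndependent K' t' := by
  classical
  rw [Fintype.linearIndependent_iff]
  intro x hx i
  by_contra hi
  have hx0 : x ≠ 0 := fun h => hi (by rw [h]; rfl)
  obtain ⟨p, s, c, ⟨β₀, hβ₀⟩, hc, hv⟩ := combo_class L b t' n0 j0 hκ hj hlead x hx0
  have hsum : ∑ β ∈ s, c β • b β = 0 := by
    funext v
    rw [Finset.sum_apply]
    show _ = (0 : A)
    have h1 : ∑ i, x i • t' i v = 0 := by
      have := congrFun hx v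
      simpa [Finset.sum_apply] using this
    have h2 := (hv v).2
    rw [h1, map_zero] at h2
    exact h2.symm
  exact hc β₀ hβ₀ (linearIndependent_iff'.mp hb _ _ hsum β₀ hβ₀)

end Indep

section Linalg

variable {K V : Type*} [Field K] [AddCommGroup V] [Module K V] [FiniteDimensional K V]

/-- A family independent modulo `I` in `T`. -/
lemma exists_family (T I : Submodule K V) (d : ℕ) (hd : d ≤ finrank K T - finrank K ↥(T ⊓ I)) :
    ∃ t : Fin d → V, (∀ i, t i ∈ T) ∧ ∀ x : Fin d → K, ∑ i, x i • t i ∈ I → x = 0 := by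
  classical
  set J : Submodule K ↥T := (T ⊓ I).comap T.subtype with hJ
  obtain ⟨W, hW⟩ := Submodule.exists_isCompl J
  have h1 : finrank K J = finrank K ↥(T ⊓ I) := by
    have h2 : J.map T.subtype = T ⊓ I := by
      rw [hJ, Submodule.map_comap_subtype]
      simp
    rw [← h2]
    exact (LinearEquiv.finrank_eq (Submodule.equivMapOfInjective T.subtype T.injective_subtype J))
  have h3 : finrank K J + finrank K W = finrank K T := Submodule.finrank_add_eq_of_isCompl hW
  have h4 : d ≤ finrank K W := by omega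
  let b := Module.finBasis K W
  let e : Fin d → Fin (finrank K W) := Fin.castLE h4
  refine ⟨fun i => ((b (e i) : W) : T), fun i => ((b (e i) : W) : T).2, fun x hx => ?_⟩
  set y : W := ∑ i, x i • b (e i) with hy
  have hy1 : (((y : W) : T) : V) = ∑ i, x i • (((b (e i) : W) : T) : V) := by
    rw [hy]
    simp
  have hy2 : (y : T) ∈ J := by
    rw [hJ, Submodule.mem_comap]
    refine ⟨(y : T).2, ?_⟩
    show (((y : W) : T) : V) ∈ I
    rw [hy1]
    exact hx
  have hy3 : (y : T) = 0 := by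
    have := hW.disjoint
    rw [Submodule.disjoint_def] at this
    exact this _ hy2 y.2
  have hy4 : y = 0 := Subtype.ext hy3
  have hli : LinearIndependent K (fun i => b (e i)) :=
    b.linearIndependent.comp e (Fin.castLE_injective h4)
  funext i
  exact Fintype.linearIndependent_iff.mp hli x hy4 i

/-- Conversely, a family independent modulo `I` bounds the dimension of `T` modulo `I`. -/
lemma card_le_of_family {ι : Type*} [Fintype ι] (T I : Submodule K V) (t : ι → V)
    (ht : ∀ i, t i ∈ T) (h : ∀ x : ι → K, ∑ i, x i • t i ∈ I → x = 0) :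
    Fintype.card ι ≤ finrank K T - finrank K ↥(T ⊓ I) := by
  classical
  have hli : LinearIndependent K t := by
    rw [Fintype.linearIndependent_iff]
    intro x hx i
    have := h x (by rw [hx]; exact zero_mem _)
    rw [this]
    rfl
  set W := Submodule.span K (Set.range t) with hW
  have h1 : finrank K W = Fintype.card ι := finrank_span_eq_card hli
  have h2 : W ≤ T := Submodule.span_le.mpr (by rintro _ ⟨i, rfl⟩; exact ht i)
  have h3 : W ⊓ (T ⊓ I) = ⊥ := by
    rw [eq_bot_iff]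
    rintro y ⟨hy1, hy2⟩
    obtain ⟨x, rfl⟩ := (Submodule.mem_span_range_iff_exists_fun K).mp hy1
    have := h x hy2.2
    rw [this]
    simp
  have h4 := Submodule.finrank_sup_add_finrank_inf_eq W (T ⊓ I)
  rw [h3, finrank_bot, add_zero, h1] at h4
  have h5 : finrank K ↥(W ⊔ (T ⊓ I)) ≤ finrank K T :=
    Submodule.finrank_mono (sup_le h2 inf_le_left)
  omega

lemma le_of_family (T I : Submodule K V) {d : ℕ} (t : Fin d → V) (ht : ∀ i, t i ∈ T)
    (h : ∀ x : Fin d → K, ∑ i, x i • t i ∈ I → x = 0) :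
    d ≤ finrank K T - finrank K ↥(T ⊓ I) := by
  simpa using card_le_of_family T I t ht h

end Linalg

section Frozen

variable {F A R : Type*} [Field F] [Ring A] [Ring R] [Algebra F A] [Algebra F R]

/-- The conjugation of a polynomial value. -/
lemma aeval_conj (ι : A →ₐ[F] R) {a : A} {b g : R} (h : b * g = g * ι a) (p : Polynomial F) :
    Polynomial.aeval b p * g = g * ι (Polynomial.aeval a p) := by
  have hpow : ∀ n : ℕ, b ^ n * g = g * ι (a ^ n) := by
    intro n
    induction n with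
    | zero => simp
    | succ n ih =>
      rw [pow_succ, mul_assoc, h, ← mul_assoc, ih, mul_assoc, ← map_mul, ← pow_succ]
  induction p using Polynomial.induction_on' with
  | add p q hp hq =>
    simp only [map_add, add_mul, mul_add, hp, hq]
  | monomial n c =>
    simp only [Polynomial.aeval_monomial, mul_assoc, hpow, map_mul, AlgHom.commutes]
    rw [← mul_assoc, ← mul_assoc, Algebra.commutes]

end Frozen

section GNe

variable {K A K' R : Type*} [Field K] [DivisionRing A] [Algebra K A] [Field K'] [DivisionRing R]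
  [Algebra K R] [Algebra K' R] [Algebra K K'] [IsScalarTower K K' R] {τ : A →ₗ[K] K}
  (L : Lv K A K' R τ)

/-- An element with leading term `1` is nonzero. -/
lemma ne_zero_of_lead {G : R} {x y : A}
    (h : G - (1 + L.lev.mono x 0 1 + L.lev.mono y L.lev.μ₁ 1) ∈ L.lev.Φ.fil 2) : G ≠ 0 := by
  classical
  intro h0
  have h1 : (L.φ (G - (1 + L.lev.mono x 0 1 + L.lev.mono y L.lev.μ₁ 1))).coeff 0 = 0 := by
    by_contra hne
    have h2 := (L.lev_fil 2 _).mp h 0 hne
    have h3 : (ofLex (0 : GLv)).1 = 0 := rfl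
    rw [h3] at h2
    norm_num at h2
  rw [h0, zero_sub, map_neg, THS.coeff_neg, map_add, map_add, map_one, phi_mono1, phi_mono2,
    THS.coeff_add, THS.coeff_add, THS.coeff_one, THS.coeff_mono, THS.coeff_mono, if_pos rfl,
    if_neg, if_neg] at h1
  · simp at h1
  · intro e
    have h5 : (0 : ℤ) = 1 := congrArg lvl e
    norm_num at h5
  · intro e
    have h5 : (0 : ℤ) = 1 := congrArg lvl e
    norm_num at h5

end GNe

section Main

open Tw0 Tw _root_.Crest.Agent.Kurosh.Inv _root_.Crest.Agent.Kurosh.Inv.St Plan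

variable [Tw0] [Tw] {F : Subfield U} [CentF F]

lemma mem_Inn_iff {n : ℕ} [Fact (F ≤ Kn n)] (ρ : Stt n) (a : ℕ → FreeAlgebra F (Fin 2))
    (t : Fin 2 → An n) :
    t ∈ Inn (pt F n ρ a) ↔ ∃ u : An n, ∀ v, t v = ρ v * u - u * ρ v := by
  constructor
  · rintro ⟨u, rfl⟩
    exact ⟨u, fun v => by simp [pt]⟩
  · rintro ⟨u, hu⟩
    refine ⟨u, ?_⟩
    funext v
    rw [hu v]
    simp [pt]

lemma finrank_pi2 (n : ℕ) : finrank (Kn n) (Fin 2 → An n) = 2 * N n ^ 2 := by
  rw [Module.finrank_pi_fintype]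
  simp [finrank_eq]

lemma qS_mono (R : ℕ → Rec) {a b : ℕ} (h : a ≤ b) : qS R a ≤ qS R b := by
  unfold qS
  exact Finset.sum_le_sum_of_subset (Finset.range_mono h)

theorem val_zero (r' : ℕ) : Val F 0 r' := by
  intro Ls n _ ρ r S TT TT0 hctx t1 t2 hadm hTT hTT0 X g TTX hsol hfresh
  have hv := hctx.valid
  have hle : r' ≤ r := hv.le
  have hτ1 : (τ n) 1 = 1 := (hτ n).one
  have hcomm : ∀ x : An n, (∀ v, x * ρ v = ρ v * x) → ∃ c : Kn n, x = algebraMap (Kn n) (An n) c :=
    hv.comm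
  have hind : ∀ (x y : Kn n) (u : An n),
      (∀ v, x • t1 v + y • t2 v = ρ v * u - u * ρ v) → x = 0 ∧ y = 0 := by
    intro x y u hu
    exact hadm.indep x y ((mem_Inn_iff ρ Ls.a _).mpr ⟨u, fun v => hu v⟩)
  have hX : ∀ v, X v - ((lv n).lev.inc (ρ v) + (lv n).lev.mono (t1 v) 0 1 +
      (lv n).lev.mono (t2 v) (lv n).lev.μ₁ 1) ∈ (lv n).lev.Φ.fil 2 := (hsol 0).leadX
  refine ⟨fun _ => ∅, ?_, fun u hu => absurd hu (Nat.not_lt_zero _),
    fun u hu => absurd hu (Nat.not_lt_zero _), fun u hu => absurd hu (Nat.not_lt_zero _), ?_⟩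
  · -- the validity
    refine
      { le := Nat.zero_le _
        one := (hτ (n + 1)).one
        frozen := ?_
        comm := ?_
        dvd := ?_
        qbd := ?_
        q_small := ?_
        S_ne := fun u hu => absurd hu (Nat.not_lt_zero _)
        S_good := fun u hu => absurd hu (Nat.not_lt_zero _)
        mov_le := fun u hu => absurd hu (Nat.not_lt_zero _)
        mov_codim := fun u hu => absurd hu (Nat.not_lt_zero _)
        rank := fun u hu => absurd hu (Nat.not_lt_zero _)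
        lift := fun u hu => absurd hu (Nat.not_lt_zero _)
        big := fun u hu => absurd hu (Nat.not_lt_zero _)
        TT_le := hfresh.le
        TT_S := ?_
        TT_big := ?_ }
    · intro u hu
      have hex : ev X (Ls.a u) * g u = g u * (lv n).lev.inc ((pt F n ρ Ls.a).β u) :=
        Lev.exact_of_PSol hsol hu
      have hg0 : g u ≠ 0 := ne_zero_of_lead (lv n) ((hsol 0).leadg u hu)
      have hfr := hv.frozen u (lt_of_lt_of_le hu hle)
      have hc := fun p : Polynomial F =>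
        aeval_conj ((lv n).lev.inc.restrictScalars F) (a := (pt F n ρ Ls.a).β u) hex p
      constructor
      · have h1 := hc (Ls.Q u)
        rw [hfr.1] at h1
        simp only [map_zero, mul_zero] at h1
        exact (mul_eq_zero.mp h1).resolve_right hg0
      · have h1 := hc (Polynomial.derivative (Ls.Q u))
        have h2 : Polynomial.aeval ((pt F n ρ Ls.a).β u) (Polynomial.derivative (Ls.Q u)) ≠ 0 :=
          hfr.2.ne_zero
        have h3 : (lv n).lev.inc (Polynomial.aeval ((pt F n ρ Ls.a).β u)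
            (Polynomial.derivative (Ls.Q u))) ≠ 0 := by
          intro h4
          apply h2
          exact (map_eq_zero_iff _ (lv n).lev.inc.toRingHom.injective).mp h4
        refine IsUnit.mk0 _ ?_
        intro h4
        have h4' : Polynomial.aeval (ev X (Ls.a u)) (Polynomial.derivative (Ls.Q u)) = 0 := h4
        rw [h4', zero_mul] at h1
        exact (mul_ne_zero hg0 h3) h1.symm
    · exact comm_of_L (lv n) hτ1 hcomm hind hX
    · intro u hu
      have h1 := hv.dvd u (lt_of_lt_of_le hu hle)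
      rw [N_succ]
      exact ⟨h1.1.mul_right _, h1.2.mul_right _⟩
    · have h1 := hv.qbd
      have h2 := qS_mono Ls.R hle
      have h3 : N n ^ 2 ≤ N (n + 1) ^ 2 := by
        rw [N_succ]
        exact Nat.pow_le_pow_left (Nat.le_mul_of_pos_right _ (lv n).m_prime.pos) 2
      omega
    · intro u hu
      have h1 := hv.q_small u (lt_of_lt_of_le hu hle)
      refine lt_of_lt_of_le h1 (Nat.div_le_div_right ?_)
      rw [N_succ]
      exact Nat.le_mul_of_pos_right _ (lv n).m_prime.pos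
    · intro k hk t ht c hc t₁ ht₁
      obtain ⟨D, hD, -, hDt⟩ := hfresh.int t ht
      exact Pt.S_identity _ hD hc hDt (Pt.T_anti _ hk (hfresh.le ht)) ht₁
    · -- the big clause
      set d := 2 * qS Ls.R r' + 2 with hd
      have hd1 : d ≤ finrank (Kn n) ↥TT - finrank (Kn n) ↥(TT ⊓ Inn (pt F n ρ Ls.a)) := by
        have h1 := hv.TT_big
        have h2 := qS_mono Ls.R hle
        omega
      obtain ⟨τ₀, hτ₀, hindep⟩ := exists_family TT (Inn (pt F n ρ Ls.a)) d hd1
      have hl := fun i => hfresh.lead 0 0 (τ₀ i) (hTT (hτ₀ i))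
        ⟨hTT0 (hTT (hτ₀ i)), fun h => absurd (dvd_zero _) h, fun h => absurd h.1 (by
          intro h1
          exact h.2 h1)⟩
      choose t' ht' n0 j0 τ' hκ hj h2 hτ' h0 hlead using hl
      apply le_of_family TTX (Inn _) t' ht'
      intro x hx
      obtain ⟨u, hu⟩ := (mem_Inn_iff X Ls.a _).mp hx
      refine indep_inn (lv n) hτ1 hcomm hind hX t' τ₀ n0 j0
        (fun i v => tail_of_fresh _ (hlead i v)) (fun i => ⟨?_, ?_⟩) (fun c y hy => ?_) x u
        (fun v => ?_)
      · simpa using hj i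
      · simpa using hκ i
      · refine hindep c ((mem_Inn_iff ρ Ls.a _).mpr ⟨y, fun v => ?_⟩)
        rw [Finset.sum_apply]
        exact hy v
      · rw [← hu v, Finset.sum_apply]
        rfl
  · intro h0r hTT0eq
    subst h0r
    have hTtop : ∀ t, t ∈ (pt F (n + 1) X Ls.a).T 0 := fun t i hi => absurd hi (Nat.not_lt_zero _)
    have hT0 : ∀ t, t ∈ (pt F n ρ Ls.a).T 0 := fun t i hi => absurd hi (Nat.not_lt_zero _)
    have hT0top : (pt F (n + 1) X Ls.a).T 0 = ⊤ := eq_top_iff.mpr fun t _ => hTtop t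
    have htop : TTX = ⊤ := by
      let b := Module.finBasis (Kn n) (Fin 2 → An n)
      have hl := fun i : Fin (lv n).m × Fin (lv n).m × Fin (finrank (Kn n) (Fin 2 → An n)) =>
        hfresh.lead (((i.1 : ℕ) : ℤ)) (((i.2.1 : ℕ) : ℤ)) (b i.2.2) (by rw [hTT0eq]; exact hT0 _)
        ⟨hT0 _, fun _ c _ => by simp [Pt.PP, Pt.Gam], fun _ c _ => by simp [Pt.PP, Pt.Gam]⟩
      choose t' ht' n0 j0 τ' hκ hj h2 hτ' h0 hlead using hl
      have hli := indep_classes (lv n) b b.linearIndependent t' n0 j0 hκ hj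
        (fun i v => tail_of_fresh _ (hlead i v))
      have hspan := hli.span_eq_top_of_card_eq_finrank' (by
        rw [Fintype.card_prod, Fintype.card_prod, Fintype.card_fin, Fintype.card_fin,
          finrank_pi2, finrank_pi2, N_succ]
        ring)
      rw [eq_top_iff, ← hspan]
      exact Submodule.span_le.mpr (by rintro _ ⟨i, rfl⟩; exact ht' i)
    refine ⟨fun t _ => hfresh.int t (by rw [htop]; trivial), by rw [htop, hT0top]⟩

end Main

end Crest.Agent.Kurosh.ValZero
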