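/-
S0270 (Kurosh): assembly of the induction of `Plan.lean` from the modules.
`all_S_of` has as hypotheses the theorems that are not yet landed (`tight_of`, `lift_of`); they will be
replaced by the theorems themselves.
-/
import Crest.Agent.Kurosh.AdmExist
import Crest.Agent.Kurosh.OrcGlue
import Crest.Agent.Kurosh.ValZero
import Crest.Agent.Kurosh.ValSucc
import Crest.Agent.Kurosh.Key
import Crest.Agent.Kurosh.FreshEx

set_option autoImplicit false

namespace Crest.Agent.Kurosh.Assemble

open Hensel State Module LU LU.Tw0 LU.Tw Plan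
open _root_.Crest.Agent.Kurosh.Inv
open _root_.Crest.Agent.Kurosh.Inv.St

variable [Tw0] [Tw] {F : Subfield U} [CentF F]

/-- The conclusion of the induction, from the Lifting Lemma and the tight test. -/
theorem all_S_of
    (tight_of : ∀ l : ℕ, Orc F l → Val F l l → KeyS F l → TightS F l)
    (lift_of : ∀ l : ℕ, Orc F l → Val F l l → KeyS F l → LiftS F l) :
    ∀ l, Orc F l ∧ (∀ r', l ≤ r' → Val F l r') := by
  intro l
  induction l with
  | zero => exact ⟨AdmExist.orc_zero, fun r' _ => ValZero.val_zero r'⟩
  | succ l ih =>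
    obtain ⟨h1, h2⟩ := ih
    have hll := h2 l le_rfl
    have hk := KeyV3.key_of l h1 hll
    have ht := tight_of l h1 hll hk
    have hu := KeyV3.ub_of l h1 hll
    have hL := lift_of l h1 hll hk
    exact ⟨OrcGlue.orc_succ l h1 hll hk hL, fun r' hr =>
      ValSucc.val_succ l r' (by omega) h1 hll (h2 r' (by omega)) hk ht hu⟩

end Crest.Agent.Kurosh.Assemble
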