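/-
S0270 module M3: calculus on the free algebra.

For `a : FreeAlgebra F ι` and a point `ρ : ι → A`:
* `ev ρ a`      : the value `a(ρ)`;
* `pd ρ t a`    : the first derivative `∂a[t]`, replacing one letter by `t`;
* `B ρ t t' a`  : the second order term `B_a[t,t']`: all ways of replacing two letters, the left one
                  by `t`, the right one by `t'`.
Both derivatives are entries of the lift to `3 × 3` upper triangular matrices
`X_i ↦ [[ρ_i, t_i, 0], [0, ρ_i, t'_i], [0, 0, ρ_i]]`.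
Product rules:
  `pd_mul : ∂(ab)[t] = ∂a[t] b(ρ) + a(ρ) ∂b[t]`,
  `B_mul  : B_{ab}[t,t'] = B_a[t,t'] b(ρ) + a(ρ) B_b[t,t'] + ∂a[t] ∂b[t']`.
-/
import Mathlib

set_option autoImplicit false

namespace Crest.Agent.Kurosh.Calculus

open Matrix

variable {F : Type*} [CommRing F] {A : Type*} [Ring A] [Algebra F A] {ι : Type*}

/-- The `3 × 3` upper triangular generator. -/
def triGen (ρ t t' : ι → A) (i : ι) : Matrix (Fin 3) (Fin 3) A :=
  !![ρ i, t i, 0; 0, ρ i, t' i; 0, 0, ρ i]

variable (F) in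
/-- The lift of the free algebra to upper triangular matrices. -/
noncomputable def lift3 (ρ t t' : ι → A) : FreeAlgebra F ι →ₐ[F] Matrix (Fin 3) (Fin 3) A :=
  FreeAlgebra.lift F (triGen ρ t t')

/-- The value `a(ρ)`. -/
noncomputable def ev (ρ : ι → A) : FreeAlgebra F ι →ₐ[F] A := FreeAlgebra.lift F ρ

/-- The first derivative `∂a[t]` at `ρ`. -/
noncomputable def pd (ρ t : ι → A) (a : FreeAlgebra F ι) : A := lift3 F ρ t 0 a 0 1

/-- The second order term `B_a[t,t']` at `ρ`. -/
noncomputable def B (ρ t t' : ι → A) (a : FreeAlgebra F ι) : A := lift3 F ρ t t' a 0 2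

theorem lift3_ι (ρ t t' : ι → A) (i : ι) :
    lift3 F ρ t t' (FreeAlgebra.ι F i) = triGen ρ t t' i := by
  simp [lift3]

theorem lift3_algebraMap (ρ t t' : ι → A) (c : F) :
    lift3 F ρ t t' (algebraMap F (FreeAlgebra F ι) c) = algebraMap F _ c :=
  (lift3 F ρ t t').commutes c

/-- Shape of the lift. -/
theorem lift3_shape (ρ : ι → A) (a : FreeAlgebra F ι) : ∀ t t' : ι → A,
    (∀ i j : Fin 3, j < i → lift3 F ρ t t' a i j = 0) ∧
    (∀ i : Fin 3, lift3 F ρ t t' a i i = ev ρ a) ∧
    lift3 F ρ t t' a 0 1 = pd ρ t a ∧ lift3 F ρ t t' a 1 2 = pd ρ t' a := by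
  induction a using FreeAlgebra.induction with
  | grade0 c =>
    intro t t'
    have h1 : ∀ (s s' : ι → A) (i j : Fin 3),
        lift3 F ρ s s' (algebraMap F (FreeAlgebra F ι) c) i j
          = if i = j then algebraMap F A c else 0 := by
      intro s s' i j
      rw [lift3_algebraMap, Matrix.algebraMap_matrix_apply]
    refine ⟨fun i j hij => ?_, fun i => ?_, ?_, ?_⟩
    · rw [h1, if_neg hij.ne']
    · rw [h1, if_pos rfl]
      simp [ev]
    · simp only [pd, h1]
    · simp only [pd, h1]; simp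
  | grade1 x =>
    intro t t'
    simp only [pd, lift3_ι, triGen, ev, FreeAlgebra.lift_ι_apply]
    refine ⟨fun i j hij => ?_, fun i => ?_, by simp, by simp⟩
    · fin_cases i <;> fin_cases j <;> first | rfl | (exact absurd hij (by decide))
    · fin_cases i <;> rfl
  | add a b ha hb =>
    intro t t'
    obtain ⟨a1, a2, a3, a4⟩ := ha t t'
    obtain ⟨b1, b2, b3, b4⟩ := hb t t'
    have hpd : ∀ (s : ι → A), pd ρ s (a + b) = pd ρ s a + pd ρ s b := by
      intro s; simp [pd, map_add]
    refine ⟨fun i j hij => ?_, fun i => ?_, ?_, ?_⟩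
    · simp [map_add, a1 i j hij, b1 i j hij]
    · simp [map_add, a2 i, b2 i]
    · rw [hpd, map_add, Matrix.add_apply, a3, b3]
    · rw [hpd, map_add, Matrix.add_apply, a4, b4]
  | mul a b ha hb =>
    intro t t'
    obtain ⟨a1, a2, a3, a4⟩ := ha t t'
    obtain ⟨b1, b2, b3, b4⟩ := hb t t'
    have hpd : ∀ (s : ι → A), pd ρ s (a * b) = pd ρ s a * ev ρ b + ev ρ a * pd ρ s b := by
      intro s
      obtain ⟨a1', a2', a3', _⟩ := ha s 0
      obtain ⟨b1', b2', b3', _⟩ := hb s 0
      change lift3 F ρ s 0 (a * b) 0 1 = _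
      rw [map_mul, Matrix.mul_apply, Fin.sum_univ_three, a2', a3', b2', b3', b1' 2 1 (by decide)]
      simp [add_comm]
    have hmul : ∀ i j, lift3 F ρ t t' (a * b) i j = ∑ k, lift3 F ρ t t' a i k * lift3 F ρ t t' b k j := by
      intro i j
      rw [map_mul, Matrix.mul_apply]
    refine ⟨fun i j hij => ?_, fun i => ?_, ?_, ?_⟩
    · rw [hmul]
      refine Finset.sum_eq_zero fun k _ => ?_
      by_cases hk : k < i
      · rw [a1 i k hk, zero_mul]
      · rw [b1 k j (lt_of_lt_of_le hij (not_lt.mp hk)), mul_zero]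
    · rw [hmul, Finset.sum_eq_single i, a2, b2, map_mul]
      · intro k _ hk
        rcases lt_or_gt_of_ne hk with hk | hk
        · rw [a1 i k hk, zero_mul]
        · rw [b1 k i hk, mul_zero]
      · simp
    · rw [hmul, hpd, Fin.sum_univ_three, a2, a3, b2, b3, b1 2 1 (by decide)]
      simp [add_comm]
    · rw [hmul, hpd, Fin.sum_univ_three, a2, a4, b2, b4, a1 1 0 (by decide)]
      simp [add_comm]

theorem lift3_lower (ρ t t' : ι → A) (a : FreeAlgebra F ι) {i j : Fin 3} (h : j < i) :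
    lift3 F ρ t t' a i j = 0 := (lift3_shape ρ a t t').1 i j h

theorem lift3_diag (ρ t t' : ι → A) (a : FreeAlgebra F ι) (i : Fin 3) :
    lift3 F ρ t t' a i i = ev ρ a := (lift3_shape ρ a t t').2.1 i

theorem lift3_01 (ρ t t' : ι → A) (a : FreeAlgebra F ι) :
    lift3 F ρ t t' a 0 1 = pd ρ t a := (lift3_shape ρ a t t').2.2.1

theorem lift3_12 (ρ t t' : ι → A) (a : FreeAlgebra F ι) :
    lift3 F ρ t t' a 1 2 = pd ρ t' a := (lift3_shape ρ a t t').2.2.2

theorem lift3_02 (ρ t t' : ι → A) (a : FreeAlgebra F ι) :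
    lift3 F ρ t t' a 0 2 = B ρ t t' a := rfl

/-! ### Basic rules -/

@[simp] theorem ev_ι (ρ : ι → A) (i : ι) : ev ρ (FreeAlgebra.ι F i) = ρ i := by
  simp [ev]

@[simp] theorem ev_algebraMap (ρ : ι → A) (c : F) :
    ev ρ (algebraMap F (FreeAlgebra F ι) c) = algebraMap F A c := (ev ρ).commutes c

@[simp] theorem pd_ι (ρ t : ι → A) (i : ι) : pd ρ t (FreeAlgebra.ι F i) = t i := by
  simp [pd, lift3_ι, triGen]

@[simp] theorem pd_algebraMap (ρ t : ι → A) (c : F) :
    pd ρ t (algebraMap F (FreeAlgebra F ι) c) = 0 := by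
  simp [pd, Matrix.algebraMap_matrix_apply]

@[simp] theorem pd_one (ρ t : ι → A) : pd ρ t (1 : FreeAlgebra F ι) = 0 := by
  simpa using pd_algebraMap (F := F) ρ t 1

@[simp] theorem pd_zero (ρ t : ι → A) : pd ρ t (0 : FreeAlgebra F ι) = 0 := by
  simp [pd]

theorem pd_add (ρ t : ι → A) (a b : FreeAlgebra F ι) :
    pd ρ t (a + b) = pd ρ t a + pd ρ t b := by
  simp [pd, map_add]

theorem pd_neg (ρ t : ι → A) (a : FreeAlgebra F ι) : pd ρ t (-a) = -pd ρ t a := by
  simp [pd, map_neg]

theorem pd_sub (ρ t : ι → A) (a b : FreeAlgebra F ι) :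
    pd ρ t (a - b) = pd ρ t a - pd ρ t b := by
  simp [pd, map_sub]

theorem pd_smul (ρ t : ι → A) (c : F) (a : FreeAlgebra F ι) :
    pd ρ t (c • a) = c • pd ρ t a := by
  simp [pd, map_smul]

/-- Product rule for the first derivative. -/
theorem pd_mul (ρ t : ι → A) (a b : FreeAlgebra F ι) :
    pd ρ t (a * b) = pd ρ t a * ev ρ b + ev ρ a * pd ρ t b := by
  change lift3 F ρ t 0 (a * b) 0 1 = _
  rw [map_mul, Matrix.mul_apply, Fin.sum_univ_three, lift3_diag, lift3_01, lift3_diag, lift3_01,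
    lift3_lower (h := (by decide : (1 : Fin 3) < 2))]
  simp [add_comm]

@[simp] theorem B_ι (ρ t t' : ι → A) (i : ι) : B ρ t t' (FreeAlgebra.ι F i) = 0 := by
  simp [B, lift3_ι, triGen]

@[simp] theorem B_algebraMap (ρ t t' : ι → A) (c : F) :
    B ρ t t' (algebraMap F (FreeAlgebra F ι) c) = 0 := by
  simp [B, Matrix.algebraMap_matrix_apply]

@[simp] theorem B_one (ρ t t' : ι → A) : B ρ t t' (1 : FreeAlgebra F ι) = 0 := by
  simpa using B_algebraMap (F := F) ρ t t' 1

@[simp] theorem B_zero (ρ t t' : ι → A) : B ρ t t' (0 : FreeAlgebra F ι) = 0 := by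
  simp [B]

theorem B_add (ρ t t' : ι → A) (a b : FreeAlgebra F ι) :
    B ρ t t' (a + b) = B ρ t t' a + B ρ t t' b := by
  simp [B, map_add]

theorem B_neg (ρ t t' : ι → A) (a : FreeAlgebra F ι) : B ρ t t' (-a) = -B ρ t t' a := by
  simp [B, map_neg]

theorem B_sub (ρ t t' : ι → A) (a b : FreeAlgebra F ι) :
    B ρ t t' (a - b) = B ρ t t' a - B ρ t t' b := by
  simp [B, map_sub]

theorem B_smul (ρ t t' : ι → A) (c : F) (a : FreeAlgebra F ι) :
    B ρ t t' (c • a) = c • B ρ t t' a := by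
  simp [B, map_smul]

/-- Product rule for the second order term. -/
theorem B_mul (ρ t t' : ι → A) (a b : FreeAlgebra F ι) :
    B ρ t t' (a * b) = B ρ t t' a * ev ρ b + ev ρ a * B ρ t t' b + pd ρ t a * pd ρ t' b := by
  change lift3 F ρ t t' (a * b) 0 2 = _
  rw [map_mul, Matrix.mul_apply, Fin.sum_univ_three, lift3_diag, lift3_01, lift3_12, lift3_diag,
    lift3_02, lift3_02]
  abel

/-! ### Induction principle used everywhere below -/

/-- Induction on the free algebra for additive properties. -/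
theorem fa_induction {P : FreeAlgebra F ι → Prop} (hc : ∀ c, P (algebraMap F _ c))
    (hι : ∀ i, P (FreeAlgebra.ι F i)) (hadd : ∀ a b, P a → P b → P (a + b))
    (hmul : ∀ a b, P a → P b → P (a * b)) (a : FreeAlgebra F ι) : P a := by
  induction a using FreeAlgebra.induction with
  | grade0 c => exact hc c
  | grade1 x => exact hι x
  | add a b ha hb => exact hadd a b ha hb
  | mul a b ha hb => exact hmul a b ha hb

/-! ### Linearity in the directions -/

section Linearity

variable {K : Type*} [CommRing K] [Algebra K A]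

theorem pd_dir_add (ρ t₁ t₂ : ι → A) (a : FreeAlgebra F ι) :
    pd ρ (t₁ + t₂) a = pd ρ t₁ a + pd ρ t₂ a := by
  induction a using fa_induction with
  | hc c => simp
  | hι i => simp
  | hadd a b ha hb => simp only [pd_add, ha, hb]; abel
  | hmul a b ha hb => simp only [pd_mul, ha, hb, add_mul, mul_add]; abel

theorem pd_dir_zero (ρ : ι → A) (a : FreeAlgebra F ι) : pd ρ (0 : ι → A) a = 0 := by
  induction a using fa_induction with
  | hc c => simp
  | hι i => simp
  | hadd a b ha hb => simp only [pd_add, ha, hb, add_zero]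
  | hmul a b ha hb => simp only [pd_mul, ha, hb, zero_mul, mul_zero, add_zero]

theorem pd_dir_neg (ρ t : ι → A) (a : FreeAlgebra F ι) : pd ρ (-t) a = -pd ρ t a := by
  have h := pd_dir_add ρ t (-t) a
  rw [add_neg_cancel, pd_dir_zero] at h
  exact eq_neg_of_add_eq_zero_right h.symm

theorem pd_dir_sub (ρ t₁ t₂ : ι → A) (a : FreeAlgebra F ι) :
    pd ρ (t₁ - t₂) a = pd ρ t₁ a - pd ρ t₂ a := by
  rw [sub_eq_add_neg, pd_dir_add, pd_dir_neg, sub_eq_add_neg]

theorem pd_dir_smul (ρ t : ι → A) (c : K) (a : FreeAlgebra F ι) :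
    pd ρ (c • t) a = c • pd ρ t a := by
  induction a using fa_induction with
  | hc c => simp
  | hι i => simp
  | hadd a b ha hb => simp only [pd_add, ha, hb, smul_add]
  | hmul a b ha hb => simp only [pd_mul, ha, hb, smul_add, smul_mul_assoc, mul_smul_comm]

theorem B_left_add (ρ t₁ t₂ t' : ι → A) (a : FreeAlgebra F ι) :
    B ρ (t₁ + t₂) t' a = B ρ t₁ t' a + B ρ t₂ t' a := by
  induction a using fa_induction with
  | hc c => simp
  | hι i => simp
  | hadd a b ha hb => simp only [B_add, ha, hb]; abel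
  | hmul a b ha hb => simp only [B_mul, ha, hb, pd_dir_add, add_mul, mul_add]; abel

theorem B_right_add (ρ t t₁ t₂ : ι → A) (a : FreeAlgebra F ι) :
    B ρ t (t₁ + t₂) a = B ρ t t₁ a + B ρ t t₂ a := by
  induction a using fa_induction with
  | hc c => simp
  | hι i => simp
  | hadd a b ha hb => simp only [B_add, ha, hb]; abel
  | hmul a b ha hb => simp only [B_mul, ha, hb, pd_dir_add, add_mul, mul_add]; abel

theorem B_left_zero (ρ t' : ι → A) (a : FreeAlgebra F ι) : B ρ (0 : ι → A) t' a = 0 := by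
  induction a using fa_induction with
  | hc c => simp
  | hι i => simp
  | hadd a b ha hb => simp only [B_add, ha, hb, add_zero]
  | hmul a b ha hb => simp only [B_mul, ha, hb, pd_dir_zero, zero_mul, mul_zero, add_zero]

theorem B_right_zero (ρ t : ι → A) (a : FreeAlgebra F ι) : B ρ t (0 : ι → A) a = 0 := by
  induction a using fa_induction with
  | hc c => simp
  | hι i => simp
  | hadd a b ha hb => simp only [B_add, ha, hb, add_zero]
  | hmul a b ha hb => simp only [B_mul, ha, hb, pd_dir_zero, zero_mul, mul_zero, add_zero]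

theorem B_left_smul (ρ t t' : ι → A) (c : K) (a : FreeAlgebra F ι) :
    B ρ (c • t) t' a = c • B ρ t t' a := by
  induction a using fa_induction with
  | hc c => simp
  | hι i => simp
  | hadd a b ha hb => simp only [B_add, ha, hb, smul_add]
  | hmul a b ha hb =>
    simp only [B_mul, ha, hb, pd_dir_smul, smul_add, smul_mul_assoc, mul_smul_comm]

theorem B_right_smul (ρ t t' : ι → A) (c : K) (a : FreeAlgebra F ι) :
    B ρ t (c • t') a = c • B ρ t t' a := by
  induction a using fa_induction with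
  | hc c => simp
  | hι i => simp
  | hadd a b ha hb => simp only [B_add, ha, hb, smul_add]
  | hmul a b ha hb =>
    simp only [B_mul, ha, hb, pd_dir_smul, smul_add, smul_mul_assoc, mul_smul_comm]

end Linearity

/-! ### Commutation with elements commuting with the point -/

theorem ev_commute {ρ : ι → A} {e : A} (he : ∀ i, Commute e (ρ i)) (a : FreeAlgebra F ι) :
    Commute e (ev ρ a) := by
  induction a using fa_induction with
  | hc c => rw [ev_algebraMap]; exact (Algebra.commutes c e).symm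
  | hι i => simpa using he i
  | hadd a b ha hb =>
    rw [map_add]
    exact ha.add_right hb
  | hmul a b ha hb =>
    rw [map_mul]
    exact ha.mul_right hb

theorem pd_commute {ρ t : ι → A} {e : A} (he : ∀ i, Commute e (ρ i)) (ht : ∀ i, Commute e (t i))
    (a : FreeAlgebra F ι) : Commute e (pd ρ t a) := by
  induction a using fa_induction with
  | hc c => simp
  | hι i => simpa using ht i
  | hadd a b ha hb =>
    rw [pd_add]
    exact ha.add_right hb
  | hmul a b ha hb =>
    rw [pd_mul]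
    exact (ha.mul_right (ev_commute he b)).add_right ((ev_commute he a).mul_right hb)

/-- `∂a[t e] = ∂a[t] e` when `e` commutes with the point. -/
theorem pd_mul_right {ρ : ι → A} (t : ι → A) {e : A} (he : ∀ i, Commute e (ρ i))
    (a : FreeAlgebra F ι) : pd ρ (fun i => t i * e) a = pd ρ t a * e := by
  induction a using fa_induction with
  | hc c => simp
  | hι i => simp
  | hadd a b ha hb => simp only [pd_add, ha, hb, add_mul]
  | hmul a b ha hb =>
    simp only [pd_mul, ha, hb, add_mul, mul_assoc]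
    rw [(ev_commute he b).eq]

/-- `∂a[e t] = e ∂a[t]` when `e` commutes with the point. -/
theorem pd_mul_left {ρ : ι → A} (t : ι → A) {e : A} (he : ∀ i, Commute e (ρ i))
    (a : FreeAlgebra F ι) : pd ρ (fun i => e * t i) a = e * pd ρ t a := by
  induction a using fa_induction with
  | hc c => simp
  | hι i => simp
  | hadd a b ha hb => simp only [pd_add, ha, hb, mul_add]
  | hmul a b ha hb =>
    simp only [pd_mul, ha, hb, mul_add, ← mul_assoc]
    rw [(ev_commute he a).eq]

/-- `B_a[t e, t' e'] = B_a[t,t'] e e'` if `e` commutes with the point and `t'`, and `e'` commutes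
with the point. -/
theorem B_mul_right {ρ : ι → A} (t t' : ι → A) {e e' : A} (he : ∀ i, Commute e (ρ i))
    (het : ∀ i, Commute e (t' i)) (he' : ∀ i, Commute e' (ρ i)) (a : FreeAlgebra F ι) :
    B ρ (fun i => t i * e) (fun i => t' i * e') a = B ρ t t' a * (e * e') := by
  induction a using fa_induction with
  | hc c => simp
  | hι i => simp
  | hadd a b ha hb => simp only [B_add, ha, hb, add_mul]
  | hmul a b ha hb =>
    simp only [B_mul, ha, hb, add_mul, pd_mul_right _ he, pd_mul_right _ he', mul_assoc]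
    congr 1
    · congr 1
      rw [(ev_commute he' b).eq, ← mul_assoc e, (ev_commute he b).eq, mul_assoc]
    · rw [← mul_assoc e, (pd_commute he het b).eq, mul_assoc]

/-! ### Naturality under algebra homomorphisms -/

section Naturality

variable {A' : Type*} [Ring A'] [Algebra F A'] (f : A →ₐ[F] A')

theorem map_ev (ρ : ι → A) (a : FreeAlgebra F ι) : f (ev ρ a) = ev (fun i => f (ρ i)) a := by
  induction a using fa_induction with
  | hc c => simp
  | hι i => simp
  | hadd a b ha hb => simp only [map_add, ha, hb]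
  | hmul a b ha hb => simp only [map_mul, ha, hb]

theorem map_pd (ρ t : ι → A) (a : FreeAlgebra F ι) :
    f (pd ρ t a) = pd (fun i => f (ρ i)) (fun i => f (t i)) a := by
  induction a using fa_induction with
  | hc c => simp
  | hι i => simp
  | hadd a b ha hb => simp only [pd_add, map_add, ha, hb]
  | hmul a b ha hb => simp only [pd_mul, map_add, map_mul, ha, hb, map_ev]

theorem map_B (ρ t t' : ι → A) (a : FreeAlgebra F ι) :
    f (B ρ t t' a) = B (fun i => f (ρ i)) (fun i => f (t i)) (fun i => f (t' i)) a := by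
  induction a using fa_induction with
  | hc c => simp
  | hι i => simp
  | hadd a b ha hb => simp only [B_add, map_add, ha, hb]
  | hmul a b ha hb => simp only [B_mul, map_add, map_mul, ha, hb, map_ev, map_pd]

end Naturality

/-! ### Derivations killing the coefficients -/

section Deriv

/-- An additive Leibniz map killing the coefficients. -/
structure IsDer (D : A → A) : Prop where
  map_add : ∀ x y, D (x + y) = D x + D y
  map_mul : ∀ x y, D (x * y) = D x * y + x * D y
  map_coef : ∀ c : F, D (algebraMap F A c) = 0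

/-- `D(a(ρ)) = ∂a[Dρ]` -/
theorem IsDer.map_ev {D : A → A} (hD : IsDer (F := F) D) (ρ : ι → A) (a : FreeAlgebra F ι) :
    D (ev ρ a) = pd ρ (fun i => D (ρ i)) a := by
  induction a using fa_induction with
  | hc c => simpa using hD.map_coef c
  | hι i => simp
  | hadd a b ha hb => simp only [_root_.map_add, pd_add, hD.map_add, ha, hb]
  | hmul a b ha hb => simp only [_root_.map_mul, pd_mul, hD.map_mul, ha, hb]

/-- `D(∂a[t]) = ∂a[Dt] + B_a[Dρ,t] + B_a[t,Dρ]` -/
theorem IsDer.map_pd {D : A → A} (hD : IsDer (F := F) D) (ρ t : ι → A) (a : FreeAlgebra F ι) :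
    D (pd ρ t a) = pd ρ (fun i => D (t i)) a + B ρ (fun i => D (ρ i)) t a
      + B ρ t (fun i => D (ρ i)) a := by
  have h0 : D 0 = 0 := by
    have := hD.map_coef 0
    simpa using this
  induction a using fa_induction with
  | hc c => simp [h0]
  | hι i => simp
  | hadd a b ha hb => simp only [pd_add, B_add, hD.map_add, ha, hb]; abel
  | hmul a b ha hb =>
    simp only [pd_mul, B_mul, hD.map_add, hD.map_mul, ha, hb, hD.map_ev, add_mul, mul_add]
    abel

end Deriv

/-! ### Taylor expansion along a filtration -/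

/-- A multiplicative decreasing filtration by additive subgroups. -/
structure Filt (R : Type*) [Ring R] where
  fil : ℕ → AddSubgroup R
  mul_mem : ∀ {i j : ℕ} {x y : R}, x ∈ fil i → y ∈ fil j → x * y ∈ fil (i + j)
  anti : ∀ {i j : ℕ}, i ≤ j → fil j ≤ fil i

section Taylor

variable (Φ : Filt A) (hcoef : ∀ c : F, algebraMap F A c ∈ Φ.fil 0)
include hcoef

theorem ev_mem {ρ : ι → A} (hρ : ∀ i, ρ i ∈ Φ.fil 0) (a : FreeAlgebra F ι) :
    ev ρ a ∈ Φ.fil 0 := by
  induction a using fa_induction with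
  | hc c => simpa using hcoef c
  | hι i => simpa using hρ i
  | hadd a b ha hb => rw [map_add]; exact add_mem ha hb
  | hmul a b ha hb => rw [map_mul]; simpa using Φ.mul_mem ha hb

theorem pd_mem {ρ t : ι → A} {n : ℕ} (hρ : ∀ i, ρ i ∈ Φ.fil 0) (ht : ∀ i, t i ∈ Φ.fil n)
    (a : FreeAlgebra F ι) : pd ρ t a ∈ Φ.fil n := by
  induction a using fa_induction with
  | hc c => simp
  | hι i => simpa using ht i
  | hadd a b ha hb => rw [pd_add]; exact add_mem ha hb
  | hmul a b ha hb =>
    rw [pd_mul]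
    refine add_mem ?_ ?_
    · simpa using Φ.mul_mem ha (ev_mem Φ hcoef hρ b)
    · simpa using Φ.mul_mem (ev_mem Φ hcoef hρ a) hb

theorem B_mem {ρ t t' : ι → A} {n m : ℕ} (hρ : ∀ i, ρ i ∈ Φ.fil 0) (ht : ∀ i, t i ∈ Φ.fil n)
    (ht' : ∀ i, t' i ∈ Φ.fil m) (a : FreeAlgebra F ι) : B ρ t t' a ∈ Φ.fil (n + m) := by
  induction a using fa_induction with
  | hc c => simp
  | hι i => simp
  | hadd a b ha hb => rw [B_add]; exact add_mem ha hb
  | hmul a b ha hb =>
    rw [B_mul]
    refine add_mem (add_mem ?_ ?_) ?_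
    · simpa using Φ.mul_mem ha (ev_mem Φ hcoef hρ b)
    · simpa using Φ.mul_mem (ev_mem Φ hcoef hρ a) hb
    · exact Φ.mul_mem (pd_mem Φ hcoef hρ ht a) (pd_mem Φ hcoef hρ ht' b)

/-- Zeroth order Taylor: `a(ρ+V) ≡ a(ρ)` modulo order `n`. -/
theorem taylor0 {ρ V : ι → A} {n : ℕ} (hρ : ∀ i, ρ i ∈ Φ.fil 0) (hV : ∀ i, V i ∈ Φ.fil n)
    (a : FreeAlgebra F ι) : ev (ρ + V) a - ev ρ a ∈ Φ.fil n := by
  have hρV : ∀ i, (ρ + V) i ∈ Φ.fil 0 := fun i =>
    add_mem (hρ i) (Φ.anti (Nat.zero_le n) (hV i))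
  induction a using fa_induction with
  | hc c => simp
  | hι i => simpa using hV i
  | hadd a b ha hb =>
    rw [map_add, map_add, add_sub_add_comm]
    exact add_mem ha hb
  | hmul a b ha hb =>
    rw [map_mul, map_mul]
    have : ev (ρ + V) a * ev (ρ + V) b - ev ρ a * ev ρ b
        = (ev (ρ + V) a - ev ρ a) * ev (ρ + V) b + ev ρ a * (ev (ρ + V) b - ev ρ b) := by
      noncomm_ring
    rw [this]
    refine add_mem ?_ ?_
    · simpa using Φ.mul_mem ha (ev_mem Φ hcoef hρV b)
    · simpa using Φ.mul_mem (ev_mem Φ hcoef hρ a) hb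

/-- First order Taylor: `a(ρ+V) ≡ a(ρ) + ∂a[V]` modulo order `2n`. -/
theorem taylor1 {ρ V : ι → A} {n : ℕ} (hρ : ∀ i, ρ i ∈ Φ.fil 0) (hV : ∀ i, V i ∈ Φ.fil n)
    (a : FreeAlgebra F ι) : ev (ρ + V) a - ev ρ a - pd ρ V a ∈ Φ.fil (2 * n) := by
  have hρV : ∀ i, (ρ + V) i ∈ Φ.fil 0 := fun i =>
    add_mem (hρ i) (Φ.anti (Nat.zero_le n) (hV i))
  induction a using fa_induction with
  | hc c => simp
  | hι i => simp
  | hadd a b ha hb =>
    rw [map_add, map_add, pd_add]
    have : ev (ρ + V) a + ev (ρ + V) b - (ev ρ a + ev ρ b) - (pd ρ V a + pd ρ V b)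
        = (ev (ρ + V) a - ev ρ a - pd ρ V a) + (ev (ρ + V) b - ev ρ b - pd ρ V b) := by abel
    rw [this]
    exact add_mem ha hb
  | hmul a b ha hb =>
    rw [map_mul, map_mul, pd_mul]
    have : ev (ρ + V) a * ev (ρ + V) b - ev ρ a * ev ρ b - (pd ρ V a * ev ρ b + ev ρ a * pd ρ V b)
        = (ev (ρ + V) a - ev ρ a - pd ρ V a) * ev (ρ + V) b
          + pd ρ V a * (ev (ρ + V) b - ev ρ b)
          + ev ρ a * (ev (ρ + V) b - ev ρ b - pd ρ V b) := by
      noncomm_ring
    rw [this]
    refine add_mem (add_mem ?_ ?_) ?_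
    · simpa using Φ.mul_mem ha (ev_mem Φ hcoef hρV b)
    · have := Φ.mul_mem (pd_mem Φ hcoef hρ hV a) (taylor0 Φ hcoef hρ hV b)
      rwa [← two_mul] at this
    · simpa using Φ.mul_mem (ev_mem Φ hcoef hρ a) hb

/-- Second order Taylor: `a(ρ+V) ≡ a(ρ) + ∂a[V] + B_a[V,V]` modulo order `3n`. -/
theorem taylor2 {ρ V : ι → A} {n : ℕ} (hρ : ∀ i, ρ i ∈ Φ.fil 0) (hV : ∀ i, V i ∈ Φ.fil n)
    (a : FreeAlgebra F ι) :
    ev (ρ + V) a - ev ρ a - pd ρ V a - B ρ V V a ∈ Φ.fil (3 * n) := by
  have hρV : ∀ i, (ρ + V) i ∈ Φ.fil 0 := fun i =>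
    add_mem (hρ i) (Φ.anti (Nat.zero_le n) (hV i))
  induction a using fa_induction with
  | hc c => simp
  | hι i => simp
  | hadd a b ha hb =>
    rw [map_add, map_add, pd_add, B_add]
    have : ev (ρ + V) a + ev (ρ + V) b - (ev ρ a + ev ρ b) - (pd ρ V a + pd ρ V b)
          - (B ρ V V a + B ρ V V b)
        = (ev (ρ + V) a - ev ρ a - pd ρ V a - B ρ V V a)
          + (ev (ρ + V) b - ev ρ b - pd ρ V b - B ρ V V b) := by abel
    rw [this]
    exact add_mem ha hb
  | hmul a b ha hb =>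
    rw [map_mul, map_mul, pd_mul, B_mul]
    have : ev (ρ + V) a * ev (ρ + V) b - ev ρ a * ev ρ b - (pd ρ V a * ev ρ b + ev ρ a * pd ρ V b)
          - (B ρ V V a * ev ρ b + ev ρ a * B ρ V V b + pd ρ V a * pd ρ V b)
        = (ev (ρ + V) a - ev ρ a - pd ρ V a - B ρ V V a) * ev (ρ + V) b
          + B ρ V V a * (ev (ρ + V) b - ev ρ b)
          + pd ρ V a * (ev (ρ + V) b - ev ρ b - pd ρ V b)
          + ev ρ a * (ev (ρ + V) b - ev ρ b - pd ρ V b - B ρ V V b) := by
      noncomm_ring
    rw [this]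
    refine add_mem (add_mem (add_mem ?_ ?_) ?_) ?_
    · simpa using Φ.mul_mem ha (ev_mem Φ hcoef hρV b)
    · have := Φ.mul_mem (B_mem Φ hcoef hρ hV hV a) (taylor0 Φ hcoef hρ hV b)
      have h3 : n + n + n = 3 * n := by ring
      rwa [h3] at this
    · have := Φ.mul_mem (pd_mem Φ hcoef hρ hV a) (taylor1 Φ hcoef hρ hV b)
      have h3 : n + 2 * n = 3 * n := by ring
      rwa [h3] at this
    · simpa using Φ.mul_mem (ev_mem Φ hcoef hρ a) hb

/-- Variation of the first derivative: `∂_{ρ+V} a[t] ≡ ∂_ρ a[t]` modulo order `n + m`. -/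
theorem pd_taylor0 {ρ V t : ι → A} {n m : ℕ} (hρ : ∀ i, ρ i ∈ Φ.fil 0) (hV : ∀ i, V i ∈ Φ.fil n)
    (ht : ∀ i, t i ∈ Φ.fil m) (a : FreeAlgebra F ι) :
    pd (ρ + V) t a - pd ρ t a ∈ Φ.fil (n + m) := by
  have hρV : ∀ i, (ρ + V) i ∈ Φ.fil 0 := fun i =>
    add_mem (hρ i) (Φ.anti (Nat.zero_le n) (hV i))
  induction a using fa_induction with
  | hc c => simp
  | hι i => simp
  | hadd a b ha hb =>
    rw [pd_add, pd_add, add_sub_add_comm]
    exact add_mem ha hb
  | hmul a b ha hb =>
    rw [pd_mul, pd_mul]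
    have : pd (ρ + V) t a * ev (ρ + V) b + ev (ρ + V) a * pd (ρ + V) t b
          - (pd ρ t a * ev ρ b + ev ρ a * pd ρ t b)
        = (pd (ρ + V) t a - pd ρ t a) * ev (ρ + V) b
          + pd ρ t a * (ev (ρ + V) b - ev ρ b)
          + (ev (ρ + V) a - ev ρ a) * pd (ρ + V) t b
          + ev ρ a * (pd (ρ + V) t b - pd ρ t b) := by
      noncomm_ring
    rw [this]
    refine add_mem (add_mem (add_mem ?_ ?_) ?_) ?_
    · simpa using Φ.mul_mem ha (ev_mem Φ hcoef hρV b)
    · have := Φ.mul_mem (pd_mem Φ hcoef hρ ht a) (taylor0 Φ hcoef hρ hV b)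
      rwa [add_comm] at this
    · exact Φ.mul_mem (taylor0 Φ hcoef hρ hV a) (pd_mem Φ hcoef hρV ht b)
    · simpa using Φ.mul_mem (ev_mem Φ hcoef hρ a) hb

end Taylor

end Crest.Agent.Kurosh.Calculus
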