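/-
S0270 (Kurosh), §K (helper72): the definitions of the exploration.

`Ls` is the list with the new word in the entry `k`, i.e. `Ls.a k = b`.
* `AllS`, `KeyAll`, `FreshS`: what the exploration uses from the rest of the contract (`Plan.all_S`, key,
  `Plan.exists_fresh`), as hypotheses (`Assemble` supplies them).
* `InC Ls k Z₀ n' Z`: `Z` is a class state of the entry `k` over the base state `Z₀` (blueprint K.1).
* `fresh_step`: from a context and an admissible pair with `TT₀ = T(k)`, a fresh exact level-up `X`.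
  It is a class state again.
-/
import Crest.Agent.Kurosh.AlgLater
import Crest.Agent.Kurosh.AdmExist

set_option autoImplicit false
set_option linter.unusedSectionVars false

namespace Crest.Agent.Kurosh.Explore

open Hensel State Module LU LU.Tw0 LU.Tw Plan
open _root_.Crest.Agent.Kurosh.Inv
open _root_.Crest.Agent.Kurosh.Inv.St

variable [Tw0] [Tw]

/-- The conclusion of the induction, for all coefficient fields. -/
def AllS : Prop :=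
  ∀ (F : Subfield U) [CentF F] (l : ℕ), Orc F l ∧ ∀ r', l ≤ r' → Val F l r'

/-- The Key Lemma, for all coefficient fields. -/
def KeyAll : Prop := ∀ (F : Subfield U) [CentF F] (l : ℕ), KeyS F l

/-- `Plan.exists_fresh`. -/
def FreshS : Prop :=
  ∀ (F : Subfield U) [CentF F] (Ls : Lst F) (n : ℕ) [Fact (F ≤ Kn n)] (ρ : Stt n) (r' r : ℕ)
    (S : ℕ → Set (An n)) (TT TT0 : Submodule (Kn n) (Fin 2 → An n))
    (_ : Ctx F Ls n ρ r' r S TT) (t1 t2 : Fin 2 → An n) (_ : Adm (pt F n ρ Ls.a) r' TT t1 t2)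
    (_ : TT ≤ TT0) (_ : TT0 ≤ (pt F n ρ Ls.a).T r')
    (_ : Orc F r') (J : ℕ) (_ : 2 ≤ J) (X0 : Stt (n + 1)) (g0 : ℕ → An (n + 1))
    (_ : (lv n).lev.PSol (pt F n ρ Ls.a) r' (J + 1) t1 t2 X0 g0),
    ∃ (X : Stt (n + 1)) (g : ℕ → An (n + 1)) (TTX : Submodule (Kn (n + 1)) (Fin 2 → An (n + 1))),
      (∀ J', (lv n).lev.PSol (pt F n ρ Ls.a) r' J' t1 t2 X g) ∧
      (∀ v, X v - X0 v ∈ (lv n).lev.Φ.fil J) ∧
      (∀ i, g i - g0 i ∈ (lv n).lev.Φ.fil J) ∧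
      Fresh F Ls n ρ r' t1 t2 TT0 X TTX

variable {F : Subfield U} [CentF F]

/-- `Z` is a class state of the entry `k` over the base state `Z₀` (blueprint K.1). -/
structure InC (Ls : Lst F) (k : ℕ) (Z₀ : Σ n, Stt n) (n' : ℕ) [Fact (F ≤ Kn n')] (Z : Stt n') :
    Prop where
  above : Above Z₀ ⟨n', Z⟩
  valid : ∃ S : ℕ → Set (An n'),
    Valid (pt F n' Z Ls.a) (N n') Ls.R Ls.Q k k S ((pt F n' Z Ls.a).T k)
  smooth : Smooth (pt F n' Z Ls.a) k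

/-- A class state with its context. -/
lemma InC.ctx {Ls : Lst F} {k : ℕ} {Z₀ : Σ n, Stt n} {n' : ℕ} [Fact (F ≤ Kn n')] {Z : Stt n'}
    (h : InC Ls k Z₀ n' Z) (hZ0 : ∀ u < k, Above (Ls.Z0 u) Z₀) (hO : ∀ u < k, Opt F Ls u) :
    ∃ S : ℕ → Set (An n'), Ctx F Ls n' Z k k S ((pt F n' Z Ls.a).T k) := by
  obtain ⟨S, hS⟩ := h.valid
  exact ⟨S, ⟨hS, fun u hu => (hZ0 u hu).trans h.above, hO⟩⟩

/-- A fresh exact level-up, from an admissible pair. -/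
theorem fresh_step (hF : FreshS) (Ls : Lst F) (n : ℕ) [Fact (F ≤ Kn n)] (ρ : Stt n) (k r : ℕ)
    (S : ℕ → Set (An n)) (TT TT0 : Submodule (Kn n) (Fin 2 → An n))
    (h : Ctx F Ls n ρ k r S TT) (t1 t2 : Fin 2 → An n) (hA : Adm (pt F n ρ Ls.a) k TT t1 t2)
    (hT : TT ≤ TT0) (hT0 : TT0 ≤ (pt F n ρ Ls.a).T k) (hO : Orc F k) :
    ∃ (X : Stt (n + 1)) (g : ℕ → An (n + 1)) (TTX : Submodule (Kn (n + 1)) (Fin 2 → An (n + 1))),
      (∀ J', (lv n).lev.PSol (pt F n ρ Ls.a) k J' t1 t2 X g) ∧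
      Fresh F Ls n ρ k t1 t2 TT0 X TTX := by
  have hle := hT.trans hT0
  have hSS : ∀ c ∈ (pt F n ρ Ls.a).KK k, ∀ τ' ∈ (pt F n ρ Ls.a).T k,
      (pt F n ρ Ls.a).SS k c t1 τ' = 0 ∧ (pt F n ρ Ls.a).SS k c t2 τ' = 0 :=
    fun c hc τ' hτ' => ⟨hA.S1 c hc τ' hτ', hA.S2 c hc τ' hτ'⟩
  obtain ⟨S0, tt, ww, -, h0⟩ := (lv n).lev.exists_start (P := pt F n ρ Ls.a) (k := k)
    (hle hA.mem1) (hle hA.mem2) hSS hA.H1
  obtain ⟨X, g, TTX, h1, -, -, h2⟩ := hF F Ls n ρ k r S TT TT0 h t1 t2 hA hT hT0 hO 2 le_rfl _ _ h0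
  exact ⟨X, g, TTX, h1, h2⟩

/-! ### The minima of the class (blueprint K.1) -/

open Classical in
/-- `n_k`: the least `N/deg β` over the class states with a nonzero move. -/
noncomputable def minN (Ls : Lst F) (k : ℕ) (Z₀ : Σ n, Stt n) : ℕ :=
  sInf {a | ∃ (n' : ℕ) (_ : Fact (F ≤ Kn n')) (Z : Stt n') (y : An n'), InC Ls k Z₀ n' Z ∧
    y ∈ (pt F n' Z Ls.a).Mov k ∧ y ≠ 0 ∧
    a = N n' / finrank (Kn n') (Algebra.adjoin (Kn n') {(pt F n' Z Ls.a).β k})}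

open Classical in
/-- `σ_k`: the least `N/dim 𝖫` on the first optimal set. -/
noncomputable def minS (Ls : Lst F) (k : ℕ) (Z₀ : Σ n, Stt n) : ℕ :=
  sInf {a | ∃ (n' : ℕ) (_ : Fact (F ≤ Kn n')) (Z : Stt n') (y : An n'), InC Ls k Z₀ n' Z ∧
    y ∈ (pt F n' Z Ls.a).Mov k ∧ y ≠ 0 ∧
    minN Ls k Z₀ * finrank (Kn n') (Algebra.adjoin (Kn n') {(pt F n' Z Ls.a).β k}) = N n' ∧
    a = N n' / finrank (Kn n') (Ly (pt F n' Z Ls.a) k y)}

open Classical in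
/-- `q_k`: the least defect on the second optimal set, among the states satisfying `RC`. -/
noncomputable def minQ (Ls : Lst F) (k : ℕ) (Z₀ : Σ n, Stt n) : ℕ :=
  sInf {a | ∃ (n' : ℕ) (_ : Fact (F ≤ Kn n')) (Z : Stt n') (y : An n'), InC Ls k Z₀ n' Z ∧
    y ∈ (pt F n' Z Ls.a).Mov k ∧ y ≠ 0 ∧
    minN Ls k Z₀ * finrank (Kn n') (Algebra.adjoin (Kn n') {(pt F n' Z Ls.a).β k}) = N n' ∧
    minS Ls k Z₀ * finrank (Kn n') (Ly (pt F n' Z Ls.a) k y) = N n' ∧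
    RC (pt F n' Z Ls.a) (N n') Ls.R k (finrank (Kn n') (Ly (pt F n' Z Ls.a) k y)) ∧
    a = finrank (Kn n') (Ly (pt F n' Z Ls.a) k y) - finrank (Kn n') ((pt F n' Z Ls.a).Mov k)}

/-- The record of the new entry. -/
noncomputable def minRec (Ls : Lst F) (k : ℕ) (Z₀ : Σ n, Stt n) : Rec :=
  ⟨minN Ls k Z₀, minS Ls k Z₀, minQ Ls k Z₀⟩

/-- The conclusion of `Plan.explore`. -/
def ExploreConcl (F : Subfield U) [CentF F] (Ls : Lst F) (n : ℕ) (ρ : Stt n) (k : ℕ)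
    (b : FreeAlgebra F (Fin 2)) : Prop :=
  ∃ (F' : Subfield U) (_ : CentF F') (_ : Fact (F ≤ F')) (s : Finset U)
    (_ : F' = F ⊔ Subfield.closure (s : Set U))
    (Ls' : Lst F') (n' : ℕ) (_ : Fact (F' ≤ Kn n')) (ρ' : Stt n') (k' : ℕ)
    (S' : ℕ → Set (An n')) (TT' : Submodule (Kn n') (Fin 2 → An n')),
    n < n' ∧ k ≤ k' ∧ Above ⟨n, ρ⟩ ⟨n', ρ'⟩ ∧ Ctx F' Ls' n' ρ' k' k' S' TT' ∧
    Transport.ListAgree Ls Ls' k ∧
    AlgLater F' n' ρ' k' Ls' (Transport.tr b)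

/-- **Case A** as a statement: `Ls.a k` is the new word, and every class state has `Mov_k = 0`. -/
def CaseAS : Prop :=
  ∀ (F : Subfield U) [CentF F] (Ls : Lst F) (n : ℕ) [Fact (F ≤ Kn n)] (ρ : Stt n) (k : ℕ)
    (S : ℕ → Set (An n)) (TT : Submodule (Kn n) (Fin 2 → An n)),
    Ctx F Ls n ρ k k S TT →
    (∀ (n' : ℕ) [Fact (F ≤ Kn n')] (Z : Stt n'), InC Ls k ⟨n, ρ⟩ n' Z →
      (pt F n' Z Ls.a).Mov k = ⊥) →
    ExploreConcl F Ls n ρ k (Ls.a k)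

end Crest.Agent.Kurosh.Explore
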