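/-
S0270, module M6 (helper62), first layer: the change of the equation
`E(X,g) = a(X) g - g β` under a move, in a filtered ring, modulo one order.
-/
import Crest.Agent.Kurosh.Calculus
import Crest.Agent.Kurosh.State

set_option autoImplicit false

namespace Crest.Agent.Kurosh.Hensel

open Calculus

variable {F : Type*} [CommRing F] {A : Type*} [Ring A] [Algebra F A] {ι : Type*}

section Bridge

theorem pd_eq_d1 (ρ t : ι → A) (a : FreeAlgebra F ι) : pd ρ t a = State.d1 ρ t a := by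
  induction a using fa_induction with
  | hc c => simp
  | hι i => simp
  | hadd a b ha hb => simp only [pd_add, State.d1_add, ha, hb]
  | hmul a b ha hb =>
    simp only [pd_mul, State.d1_mul, ha, hb]
    rfl

theorem B_eq_d2 (ρ t t' : ι → A) (a : FreeAlgebra F ι) : B ρ t t' a = State.d2 ρ t t' a := by
  induction a using fa_induction with
  | hc c => simp
  | hι i => simp
  | hadd a b ha hb => simp only [B_add, State.d2_add, ha, hb]
  | hmul a b ha hb =>
    simp only [B_mul, State.d2_mul, ha, hb, pd_eq_d1]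
    rfl

end Bridge

section Taylor

variable (Φ : Filt A) (hcoef : ∀ c : F, algebraMap F A c ∈ Φ.fil 0)
include hcoef

/-- Variation of the second order term. -/
theorem B_taylor0 {ρ V t t' : ι → A} {n m m' : ℕ} (hρ : ∀ i, ρ i ∈ Φ.fil 0)
    (hV : ∀ i, V i ∈ Φ.fil n) (ht : ∀ i, t i ∈ Φ.fil m) (ht' : ∀ i, t' i ∈ Φ.fil m')
    (a : FreeAlgebra F ι) :
    B (ρ + V) t t' a - B ρ t t' a ∈ Φ.fil (n + (m + m')) := by
  have hρV : ∀ i, (ρ + V) i ∈ Φ.fil 0 := fun i =>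
    add_mem (hρ i) (Φ.anti (Nat.zero_le n) (hV i))
  induction a using fa_induction with
  | hc c => simp
  | hι i => simp
  | hadd a b ha hb =>
    rw [B_add, B_add, add_sub_add_comm]
    exact add_mem ha hb
  | hmul a b ha hb =>
    rw [B_mul, B_mul]
    have : B (ρ + V) t t' a * ev (ρ + V) b + ev (ρ + V) a * B (ρ + V) t t' b
          + pd (ρ + V) t a * pd (ρ + V) t' b
          - (B ρ t t' a * ev ρ b + ev ρ a * B ρ t t' b + pd ρ t a * pd ρ t' b)
        = (B (ρ + V) t t' a - B ρ t t' a) * ev (ρ + V) b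
          + B ρ t t' a * (ev (ρ + V) b - ev ρ b)
          + (ev (ρ + V) a - ev ρ a) * B (ρ + V) t t' b
          + ev ρ a * (B (ρ + V) t t' b - B ρ t t' b)
          + (pd (ρ + V) t a - pd ρ t a) * pd (ρ + V) t' b
          + pd ρ t a * (pd (ρ + V) t' b - pd ρ t' b) := by
      noncomm_ring
    rw [this]
    refine add_mem (add_mem (add_mem (add_mem (add_mem ?_ ?_) ?_) ?_) ?_) ?_
    · simpa using Φ.mul_mem ha (ev_mem Φ hcoef hρV b)
    · have := Φ.mul_mem (B_mem Φ hcoef hρ ht ht' a) (taylor0 Φ hcoef hρ hV b)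
      have h3 : m + m' + n = n + (m + m') := by ring
      rwa [h3] at this
    · have := Φ.mul_mem (taylor0 Φ hcoef hρ hV a) (B_mem Φ hcoef hρV ht ht' b)
      exact this
    · simpa using Φ.mul_mem (ev_mem Φ hcoef hρ a) hb
    · have := Φ.mul_mem (pd_taylor0 Φ hcoef hρ hV ht a) (pd_mem Φ hcoef hρV ht' b)
      have h3 : n + m + m' = n + (m + m') := by ring
      rwa [h3] at this
    · have := Φ.mul_mem (pd_mem Φ hcoef hρ ht a) (pd_taylor0 Φ hcoef hρ hV ht' b)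
      have h3 : m + (n + m') = n + (m + m') := by ring
      rwa [h3] at this

/-- First order variation of `pd` in the base point. -/
theorem pd_taylor1 {ρ V t : ι → A} {n m : ℕ} (hρ : ∀ i, ρ i ∈ Φ.fil 0)
    (hV : ∀ i, V i ∈ Φ.fil n) (ht : ∀ i, t i ∈ Φ.fil m) (a : FreeAlgebra F ι) :
    pd (ρ + V) t a - pd ρ t a - B ρ V t a - B ρ t V a ∈ Φ.fil (2 * n + m) := by
  have hρV : ∀ i, (ρ + V) i ∈ Φ.fil 0 := fun i =>
    add_mem (hρ i) (Φ.anti (Nat.zero_le n) (hV i))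
  induction a using fa_induction with
  | hc c => simp
  | hι i => simp
  | hadd a b ha hb =>
    rw [pd_add, pd_add, B_add, B_add]
    have : pd (ρ + V) t a + pd (ρ + V) t b - (pd ρ t a + pd ρ t b) - (B ρ V t a + B ρ V t b)
          - (B ρ t V a + B ρ t V b)
        = (pd (ρ + V) t a - pd ρ t a - B ρ V t a - B ρ t V a)
          + (pd (ρ + V) t b - pd ρ t b - B ρ V t b - B ρ t V b) := by abel
    rw [this]
    exact add_mem ha hb
  | hmul a b ha hb =>
    rw [pd_mul, pd_mul, B_mul, B_mul]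
    have : pd (ρ + V) t a * ev (ρ + V) b + ev (ρ + V) a * pd (ρ + V) t b
          - (pd ρ t a * ev ρ b + ev ρ a * pd ρ t b)
          - (B ρ V t a * ev ρ b + ev ρ a * B ρ V t b + pd ρ V a * pd ρ t b)
          - (B ρ t V a * ev ρ b + ev ρ a * B ρ t V b + pd ρ t a * pd ρ V b)
        = (pd (ρ + V) t a - pd ρ t a - B ρ V t a - B ρ t V a) * ev (ρ + V) b
          + (B ρ V t a + B ρ t V a) * (ev (ρ + V) b - ev ρ b)
          + pd ρ t a * (ev (ρ + V) b - ev ρ b - pd ρ V b)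
          + (ev (ρ + V) a - ev ρ a - pd ρ V a) * pd (ρ + V) t b
          + pd ρ V a * (pd (ρ + V) t b - pd ρ t b)
          + ev ρ a * (pd (ρ + V) t b - pd ρ t b - B ρ V t b - B ρ t V b) := by
      noncomm_ring
    rw [this]
    refine add_mem (add_mem (add_mem (add_mem (add_mem ?_ ?_) ?_) ?_) ?_) ?_
    · simpa using Φ.mul_mem ha (ev_mem Φ hcoef hρV b)
    · have h1 := B_mem Φ hcoef hρ hV ht a
      have h2 := B_mem Φ hcoef hρ ht hV a
      have := Φ.mul_mem (add_mem h1 (by rw [Nat.add_comm]; exact h2)) (taylor0 Φ hcoef hρ hV b)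
      have h3 : n + m + n = 2 * n + m := by ring
      rwa [h3] at this
    · have := Φ.mul_mem (pd_mem Φ hcoef hρ ht a) (taylor1 Φ hcoef hρ hV b)
      have h3 : m + 2 * n = 2 * n + m := by ring
      rwa [h3] at this
    · have := Φ.mul_mem (taylor1 Φ hcoef hρ hV a) (pd_mem Φ hcoef hρV ht b)
      exact this
    · have := Φ.mul_mem (pd_mem Φ hcoef hρ hV a) (pd_taylor0 Φ hcoef hρ hV ht b)
      have h3 : n + (n + m) = 2 * n + m := by ring
      rwa [h3] at this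
    · simpa using Φ.mul_mem (ev_mem Φ hcoef hρ a) hb

end Taylor

section Delta

variable (Φ : Filt A) (hcoef : ∀ c : F, algebraMap F A c ∈ Φ.fil 0)
include hcoef

/-- The change of `E(X,g) = a(X) g - g β` (`β = a(ρ)`, `X = ρ + V`, `g = 1 + h`) under a move
`(δ, η)` of order `J - 1 ≥ 1`, modulo order `J + 1`. -/
theorem delta_E {ρ V δ : ι → A} {h η : A} {J : ℕ} (hJ : 2 ≤ J) (hρ : ∀ i, ρ i ∈ Φ.fil 0)
    (hV : ∀ i, V i ∈ Φ.fil 1) (hδ : ∀ i, δ i ∈ Φ.fil (J - 1)) (hh : h ∈ Φ.fil 1)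
    (hη : η ∈ Φ.fil (J - 1)) (hone : (1 : A) ∈ Φ.fil 0) (a : FreeAlgebra F ι) :
    (ev (ρ + V + δ) a * (1 + h + η) - (1 + h + η) * ev ρ a)
      - (ev (ρ + V) a * (1 + h) - (1 + h) * ev ρ a)
      - (pd ρ δ a + (ev ρ a * η - η * ev ρ a)
          + (B ρ V δ a + B ρ δ V a + pd ρ δ a * h + pd ρ V a * η)
          + (B ρ δ δ a + pd ρ δ a * η)) ∈ Φ.fil (J + 1) := by
  obtain ⟨J, rfl⟩ : ∃ k, J = k + 1 := ⟨J - 1, by omega⟩
  have hk : 1 ≤ J := by omega
  simp only [Nat.add_sub_cancel] at hδ hη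
  set X := ρ + V with hX
  have hX0 : ∀ i, X i ∈ Φ.fil 0 := fun i => add_mem (hρ i) (Φ.anti (Nat.zero_le 1) (hV i))
  set Ev := ev (X + δ) a with hEv
  -- step 1: `Ev` to second order
  have h1 : Ev - ev X a - pd X δ a - B X δ δ a ∈ Φ.fil (3 * J) := taylor2 Φ hcoef hX0 hδ a
  have h2 : pd X δ a - pd ρ δ a - B ρ V δ a - B ρ δ V a ∈ Φ.fil (2 * 1 + J) :=
    pd_taylor1 Φ hcoef hρ hV hδ a
  have h3 : B X δ δ a - B ρ δ δ a ∈ Φ.fil (1 + (J + J)) :=
    B_taylor0 Φ hcoef hρ hV hδ hδ a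
  have hD : Ev - ev X a - (pd ρ δ a + B ρ V δ a + B ρ δ V a + B ρ δ δ a) ∈ Φ.fil (J + 1 + 1) := by
    have h1' := Φ.anti (show J + 1 + 1 ≤ 3 * J by omega) h1
    have h2' := Φ.anti (show J + 1 + 1 ≤ 2 * 1 + J by omega) h2
    have h3' := Φ.anti (show J + 1 + 1 ≤ 1 + (J + J) by omega) h3
    have := add_mem (add_mem h1' h2') h3'
    convert this using 1
    abel
  -- `pd ρ δ a` and `B`s
  have hpδ : pd ρ δ a ∈ Φ.fil J := pd_mem Φ hcoef hρ hδ a
  have hB1 : B ρ V δ a ∈ Φ.fil (1 + J) := B_mem Φ hcoef hρ hV hδ a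
  have hB2 : B ρ δ V a ∈ Φ.fil (J + 1) := B_mem Φ hcoef hρ hδ hV a
  have hB3 : B ρ δ δ a ∈ Φ.fil (J + J) := B_mem Φ hcoef hρ hδ hδ a
  -- step 2: `Ev - β` to first order
  have hVδ : ∀ i, (V + δ) i ∈ Φ.fil 1 := fun i => add_mem (hV i) (Φ.anti hk (hδ i))
  have h4 : ev (ρ + (V + δ)) a - ev ρ a - pd ρ (V + δ) a ∈ Φ.fil (2 * 1) :=
    taylor1 Φ hcoef hρ hVδ a
  have hEv' : ev (ρ + (V + δ)) a = Ev := by
    rw [hEv, hX, add_assoc]
  rw [hEv', pd_dir_add] at h4
  -- assembling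
  have e : (Ev * (1 + h + η) - (1 + h + η) * ev ρ a) - (ev X a * (1 + h) - (1 + h) * ev ρ a)
      - (pd ρ δ a + (ev ρ a * η - η * ev ρ a)
          + (B ρ V δ a + B ρ δ V a + pd ρ δ a * h + pd ρ V a * η)
          + (B ρ δ δ a + pd ρ δ a * η))
      = (Ev - ev X a - (pd ρ δ a + B ρ V δ a + B ρ δ V a + B ρ δ δ a))
        + (Ev - ev X a - (pd ρ δ a + B ρ V δ a + B ρ δ V a + B ρ δ δ a)) * h
        + (B ρ V δ a + B ρ δ V a + B ρ δ δ a) * h
        + (Ev - ev ρ a - (pd ρ V a + pd ρ δ a)) * η := by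
    noncomm_ring
  rw [e]
  refine add_mem (add_mem (add_mem hD ?_) ?_) ?_
  · exact Φ.anti (by omega) (Φ.mul_mem hD hh)
  · have : (B ρ V δ a + B ρ δ V a + B ρ δ δ a) * h ∈ Φ.fil (J + 1 + 1) := by
      have h5 : B ρ V δ a + B ρ δ V a + B ρ δ δ a ∈ Φ.fil (J + 1) := by
        refine add_mem (add_mem ?_ hB2) (Φ.anti (by omega) hB3)
        rwa [Nat.add_comm] at hB1
      exact Φ.mul_mem h5 hh
    exact this
  · have := Φ.mul_mem h4 hη
    have h6 : 2 * 1 + J = J + 1 + 1 := by ring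
    rwa [h6] at this

end Delta

end Crest.Agent.Kurosh.Hensel
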