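/-
S0270, module M6 (helper62), second layer: the s'-adic recursion over an abstract level-up ring
(blueprint v3 §F).

`Lev M K A R` abstracts `R = THS(ℤ ×ₗ M, A, ε)`, `ε((j,μ),(j',μ')) = ζ^{j κ(μ')}`:
monomials `mon μ j = μ s'^j`, the `s'`-order filtration, coefficient extraction, limits, and the
subalgebra `FS` of elements of `s'`-order `≥ 0` that are Laurent polynomials in `s` at each order.

Main results:
* `move_expansion`: the change of `E = a(X) g - g β` under a single monomial move.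
* `Obs`: the obstruction functional; `Obs_move_T`, `Obs_move_invariant`.
* `moves_solving`, `solve_all`, `pass`: one pass `J ↦ J+1` of the recursion.
* `exists_start`: the start `ρ + (t₁ + t₂ μ₁) s'` is a partial solution at order `3`.
* `exists_limit`, `exists_limit_presc`: the limit of the passes, with prescribed moves, an exact
  solution, with monomial tracking; `exists_solution`: the whole recursion from the start.
* `Allowed`, `chain_effect_free`: chains from `allowed` vectors.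
* `Obs_eq_of_exact`, `Obs_eq_first_error` (F5), `exists_frame`: first errors.
-/
import Crest.Agent.Kurosh.HenselCalc

set_option autoImplicit false

namespace Crest.Agent.Kurosh.Hensel

open Calculus

/-- The abstract level-up ring. `M` is the group of monomials in `s` and the commutative variables
(written additively, `κ` is the `s`-degree), `μ₁` is the monomial of `t₂` (so `μ₁ = s` in the simplest
design, `μ₁ = η s` in blueprint v3). -/
structure Lev (M K A R : Type*) [AddCommGroup M] [DecidableEq M] [Field K] [Ring A] [Algebra K A] [Ring R]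
    [Algebra K R] where
  /-- the coefficient ring -/
  inc : A →ₐ[K] R
  /-- the `s`-degree -/
  κ : M →+ ℤ
  /-- the monomial of `t₂` -/
  μ₁ : M
  κ_μ₁ : κ μ₁ = 1
  /-- the monomial `μ s'^j` -/
  mon : M → ℕ → R
  mon_comm : ∀ (n : M) (j : ℕ) (x : A), Commute (mon n j) (inc x)
  /-- the twist -/
  ζ : K
  ζ_ne : ζ ≠ 0
  mon_mul : ∀ (n : M) (j : ℕ) (n' : M) (j' : ℕ),
    mon n j * mon n' j' = ζ ^ ((j : ℤ) * κ n') • mon (n + n') (j + j')
  mon_zero : mon 0 0 = 1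
  /-- the `s'`-order filtration -/
  Φ : Filt R
  inc_mem : ∀ x, inc x ∈ Φ.fil 0
  mon_mem : ∀ (n : M) (j : ℕ), mon n j ∈ Φ.fil j
  /-- the coefficient of `μ s'^j` -/
  coeff : M → ℕ → R →ₗ[K] A
  coeff_mono : ∀ (n : M) (j : ℕ) (x : A) (n' : M) (j' : ℕ),
    coeff n j (inc x * mon n' j') = if n = n' ∧ j = j' then x else 0
  coeff_fil : ∀ {m j : ℕ} {n : M} {x : R}, x ∈ Φ.fil m → j < m → coeff n j x = 0
  coeff_inc_mul : ∀ (n : M) (j : ℕ) (x : A) (y : R), coeff n j (inc x * y) = x * coeff n j y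
  coeff_mul_inc : ∀ (n : M) (j : ℕ) (x : A) (y : R), coeff n j (y * inc x) = coeff n j y * x
  mem_fil_succ : ∀ {m : ℕ} {x : R}, x ∈ Φ.fil m → (∀ n, coeff n m x = 0) → x ∈ Φ.fil (m + 1)
  sep : ∀ x : R, (∀ m, x ∈ Φ.fil m) → x = 0
  lim : ∀ x : ℕ → R, (∀ m, x (m + 1) - x m ∈ Φ.fil m) → ∃ y, ∀ m, y - x m ∈ Φ.fil m
  /-- elements of order `≥ 0` that are Laurent polynomials in `s` at each order -/
  FS : Subalgebra K R
  FS_iff : ∀ x, x ∈ FS ↔ x ∈ Φ.fil 0 ∧ ∀ j, {n : M | coeff n j x ≠ 0}.Finite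
  /-- the elements of `FS` whose monomials at order `j` lie in `Hf j` (`Hf` increasing) -/
  FSf : ∀ Hf : ℕ → AddSubgroup M, Monotone Hf → Subalgebra K R
  FSf_iff : ∀ (Hf : ℕ → AddSubgroup M) (hm : Monotone Hf) (x : R),
    x ∈ FSf Hf hm ↔ x ∈ FS ∧ ∀ n j, coeff n j x ≠ 0 → n ∈ Hf j

namespace Lev

variable {M K A R : Type*} [AddCommGroup M] [DecidableEq M] [Field K] [Ring A] [Algebra K A] [Ring R] [Algebra K R]
  (L : Lev M K A R)

/-- The monomial `x s^n s'^j`. -/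
def mono (x : A) (n : M) (j : ℕ) : R := L.inc x * L.mon n j

lemma one_mem : (1 : R) ∈ L.Φ.fil 0 := by
  rw [← L.mon_zero]; exact L.mon_mem 0 0

lemma smul_mem (c : K) {x : R} {m : ℕ} (hx : x ∈ L.Φ.fil m) : c • x ∈ L.Φ.fil m := by
  have h : c • x = L.inc (algebraMap K A c) * x := by
    rw [AlgHom.commutes, Algebra.smul_def]
  rw [h]
  have := L.Φ.mul_mem (L.inc_mem (algebraMap K A c)) hx
  rwa [zero_add] at this

lemma mono_mem (x : A) (n : M) (j : ℕ) : L.mono x n j ∈ L.Φ.fil j := by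
  simpa [mono] using L.Φ.mul_mem (L.inc_mem x) (L.mon_mem n j)

@[simp] lemma mono_zero (n : M) (j : ℕ) : L.mono 0 n j = 0 := by simp [mono]

lemma mono_add (x y : A) (n : M) (j : ℕ) : L.mono (x + y) n j = L.mono x n j + L.mono y n j := by
  simp [mono, add_mul]

lemma mono_sub (x y : A) (n : M) (j : ℕ) : L.mono (x - y) n j = L.mono x n j - L.mono y n j := by
  simp [mono, sub_mul]

lemma mono_neg (x : A) (n : M) (j : ℕ) : L.mono (-x) n j = - L.mono x n j := by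
  simp [mono]

lemma mono_smul (c : K) (x : A) (n : M) (j : ℕ) : L.mono (c • x) n j = c • L.mono x n j := by
  simp [mono]

lemma mono_mul (x y : A) (n : M) (j : ℕ) (n' : M) (j' : ℕ) :
    L.mono x n j * L.mono y n' j' = L.ζ ^ ((j : ℤ) * L.κ n') • L.mono (x * y) (n + n') (j + j') := by
  simp only [mono]
  calc L.inc x * L.mon n j * (L.inc y * L.mon n' j')
      = L.inc x * (L.mon n j * L.inc y) * L.mon n' j' := by noncomm_ring
    _ = L.inc x * (L.inc y * L.mon n j) * L.mon n' j' := by rw [(L.mon_comm n j y).eq]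
    _ = L.inc (x * y) * (L.mon n j * L.mon n' j') := by rw [map_mul]; noncomm_ring
    _ = _ := by rw [L.mon_mul, mul_smul_comm]

lemma inc_mul_mono (x y : A) (n : M) (j : ℕ) : L.inc x * L.mono y n j = L.mono (x * y) n j := by
  simp only [mono, map_mul, mul_assoc]

lemma mono_mul_inc (x y : A) (n : M) (j : ℕ) : L.mono y n j * L.inc x = L.mono (y * x) n j := by
  simp only [mono, map_mul, mul_assoc, (L.mon_comm n j x).eq]

lemma coeff_mono' (n : M) (j : ℕ) (x : A) (n' : M) (j' : ℕ) :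
    L.coeff n j (L.mono x n' j') = if n = n' ∧ j = j' then x else 0 := L.coeff_mono n j x n' j'

lemma coeff_mono_same (n : M) (j : ℕ) (x : A) : L.coeff n j (L.mono x n j) = x := by
  rw [coeff_mono']; simp

lemma coeff_mono_of_ne_j (n : M) {j j' : ℕ} (x : A) (n' : M) (h : j ≠ j') :
    L.coeff n j (L.mono x n' j') = 0 := by
  rw [coeff_mono', if_neg]; exact fun h' => h h'.2

lemma coeff_mono_of_ne_n {n n' : M} (j : ℕ) (x : A) (j' : ℕ) (h : n ≠ n') :
    L.coeff n j (L.mono x n' j') = 0 := by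
  rw [coeff_mono', if_neg]; exact fun h' => h h'.1

lemma fil_le_zero (m : ℕ) : L.Φ.fil m ≤ L.Φ.fil 0 := L.Φ.anti (Nat.zero_le m)

lemma mono_mem_FS (x : A) (n : M) (j : ℕ) : L.mono x n j ∈ L.FS := by
  rw [L.FS_iff]
  refine ⟨L.fil_le_zero j (L.mono_mem x n j), fun j' => ?_⟩
  refine (Set.finite_singleton n).subset fun n' hn' => ?_
  have hn'' : L.coeff n' j' (L.mono x n j) ≠ 0 := hn'
  rw [coeff_mono'] at hn''
  by_contra h
  exact hn'' (if_neg fun h' => h h'.1)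

lemma inc_mem_FS (x : A) : L.inc x ∈ L.FS := by
  have := L.mono_mem_FS x 0 0
  simpa [mono, L.mon_zero] using this

section Free

variable {F ι : Type*} [Field F] [Algebra F K] [Algebra F A] [IsScalarTower F K A] [Algebra F R]
  [IsScalarTower F K R]

lemma ev_inc (ρ : ι → A) (a : FreeAlgebra F ι) :
    ev (fun v => L.inc (ρ v)) a = L.inc (ev ρ a) :=
  (map_ev (L.inc.restrictScalars F) ρ a).symm

lemma pd_inc (ρ t : ι → A) (a : FreeAlgebra F ι) :
    pd (fun v => L.inc (ρ v)) (fun v => L.inc (t v)) a = L.inc (State.d1 ρ t a) := by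
  rw [← pd_eq_d1]
  exact (map_pd (L.inc.restrictScalars F) ρ t a).symm

lemma B_inc (ρ t t' : ι → A) (a : FreeAlgebra F ι) :
    B (fun v => L.inc (ρ v)) (fun v => L.inc (t v)) (fun v => L.inc (t' v)) a
      = L.inc (State.d2 ρ t t' a) := by
  rw [← B_eq_d2]
  exact (map_B (L.inc.restrictScalars F) ρ t t' a).symm

lemma pd_mono (ρ t : ι → A) (n : M) (j : ℕ) (a : FreeAlgebra F ι) :
    pd (fun v => L.inc (ρ v)) (fun v => L.mono (t v) n j) a = L.mono (State.d1 ρ t a) n j := by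
  have h := pd_mul_right (F := F) (ρ := fun v => L.inc (ρ v)) (fun v => L.inc (t v))
    (e := L.mon n j) (fun v => L.mon_comm n j (ρ v)) a
  rw [pd_inc] at h
  exact h

lemma B_mono (ρ t t' : ι → A) (n : M) (j : ℕ) (n' : M) (j' : ℕ) (a : FreeAlgebra F ι) :
    B (fun v => L.inc (ρ v)) (fun v => L.mono (t v) n j) (fun v => L.mono (t' v) n' j') a
      = L.ζ ^ ((j : ℤ) * L.κ n') • L.mono (State.d2 ρ t t' a) (n + n') (j + j') := by
  have h := B_mul_right (F := F) (ρ := fun v => L.inc (ρ v)) (fun v => L.inc (t v))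
    (fun v => L.inc (t' v)) (e := L.mon n j) (e' := L.mon n' j') (fun v => L.mon_comm n j (ρ v))
    (fun v => L.mon_comm n j (t' v)) (fun v => L.mon_comm n' j' (ρ v)) a
  rw [B_inc, L.mon_mul, mul_smul_comm] at h
  exact h

lemma coef_mem (c : F) : algebraMap F R c ∈ L.Φ.fil 0 := by
  have : algebraMap F R c = L.inc (algebraMap F A c) := by
    rw [IsScalarTower.algebraMap_apply F K R, IsScalarTower.algebraMap_apply F K A,
      AlgHom.commutes]
  rw [this]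
  exact L.inc_mem _

lemma coef_mem_FS (c : F) : algebraMap F R c ∈ L.FS := by
  rw [IsScalarTower.algebraMap_apply F K R]
  exact L.FS.algebraMap_mem _

lemma ev_mem_FS {X : ι → R} (hX : ∀ v, X v ∈ L.FS) (a : FreeAlgebra F ι) : ev X a ∈ L.FS := by
  induction a using fa_induction with
  | hc c => simpa using L.coef_mem_FS c
  | hι i => simpa using hX i
  | hadd a b ha hb => rw [map_add]; exact add_mem ha hb
  | hmul a b ha hb => rw [map_mul]; exact mul_mem ha hb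

/-- **The change of `E = a(X) g - g β`** under a single monomial move of order `J ≥ 2`. -/
theorem move_expansion (ρ t1 t2 τ : ι → A) (w1 w2 w : A) (X : ι → R) (g : R)
    (a : FreeAlgebra F ι) {J : ℕ} (hJ : 2 ≤ J) (K0 : M)
    (hX : ∀ v, X v - (L.inc (ρ v) + L.mono (t1 v) 0 1 + L.mono (t2 v) L.μ₁ 1) ∈ L.Φ.fil 2)
    (hg : g - (1 + L.mono w1 0 1 + L.mono w2 L.μ₁ 1) ∈ L.Φ.fil 2) :
    (ev (fun v => X v + L.mono (τ v) K0 J) a * (g + L.mono w K0 J)
        - (g + L.mono w K0 J) * L.inc (ev ρ a))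
      - (ev X a * g - g * L.inc (ev ρ a))
      - L.mono (State.d1 ρ τ a + (ev ρ a * w - w * ev ρ a)) K0 J
      - L.mono (L.ζ ^ L.κ K0 • (State.d2 ρ t1 τ a + State.d1 ρ t1 a * w)
          + (State.d2 ρ τ t1 a + State.d1 ρ τ a * w1)) K0 (J + 1)
      - L.mono (L.ζ ^ L.κ K0 • (State.d2 ρ t2 τ a + State.d1 ρ t2 a * w)
          + L.ζ ^ (J : ℤ) • (State.d2 ρ τ t2 a + State.d1 ρ τ a * w2)) (K0 + L.μ₁) (J + 1)
      ∈ L.Φ.fil (J + 2) := by
  classical
  set ρR : ι → R := fun v => L.inc (ρ v) with hρR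
  set V1 : ι → R := fun v => L.mono (t1 v) 0 1 with hV1
  set V2 : ι → R := fun v => L.mono (t2 v) L.μ₁ 1 with hV2
  set Vr : ι → R := fun v => X v - (L.inc (ρ v) + L.mono (t1 v) 0 1 + L.mono (t2 v) L.μ₁ 1) with hVr
  set h1 : R := L.mono w1 0 1 with hh1
  set h2 : R := L.mono w2 L.μ₁ 1 with hh2
  set hr : R := g - (1 + L.mono w1 0 1 + L.mono w2 L.μ₁ 1) with hhr
  set δ : ι → R := fun v => L.mono (τ v) K0 J with hδ
  set η : R := L.mono w K0 J with hη
  have hXeq : X = ρR + (V1 + V2 + Vr) := by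
    funext v
    simp only [Pi.add_apply, hρR, hV1, hV2, hVr]
    abel
  have hgeq : g = 1 + (h1 + h2 + hr) := by
    simp only [hh1, hh2, hhr]
    abel
  have hρ0 : ∀ v, ρR v ∈ L.Φ.fil 0 := fun v => L.inc_mem _
  have hV1m : ∀ v, V1 v ∈ L.Φ.fil 1 := fun v => L.mono_mem _ _ _
  have hV2m : ∀ v, V2 v ∈ L.Φ.fil 1 := fun v => L.mono_mem _ _ _
  have hVrm : ∀ v, Vr v ∈ L.Φ.fil 2 := hX
  have hVm : ∀ v, (V1 + V2 + Vr) v ∈ L.Φ.fil 1 := fun v =>
    add_mem (add_mem (hV1m v) (hV2m v)) (L.Φ.anti (by omega) (hVrm v))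
  have hh1m : h1 ∈ L.Φ.fil 1 := L.mono_mem _ _ _
  have hh2m : h2 ∈ L.Φ.fil 1 := L.mono_mem _ _ _
  have hhrm : hr ∈ L.Φ.fil 2 := hg
  have hhm : h1 + h2 + hr ∈ L.Φ.fil 1 :=
    add_mem (add_mem hh1m hh2m) (L.Φ.anti (by omega) hhrm)
  have hδm : ∀ v, δ v ∈ L.Φ.fil J := fun v => L.mono_mem _ _ _
  have hηm : η ∈ L.Φ.fil J := L.mono_mem _ _ _
  have hmain := delta_E (F := F) L.Φ L.coef_mem (ρ := ρR) (V := V1 + V2 + Vr) (δ := δ)
    (h := h1 + h2 + hr) (η := η) (J := J + 1) (by omega) hρ0 hVm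
    (by simpa using hδm) hhm (by simpa using hηm) L.one_mem a
  rw [← hXeq, ← hgeq] at hmain
  have hXδ : (X + δ) = fun v => X v + L.mono (τ v) K0 J := rfl
  rw [hXδ] at hmain
  have hβ : ev ρR a = L.inc (ev ρ a) := L.ev_inc ρ a
  rw [hβ] at hmain
  -- first order term
  have hpd : pd ρR δ a = L.mono (State.d1 ρ τ a) K0 J := L.pd_mono ρ τ K0 J a
  have hfirst : pd ρR δ a + (L.inc (ev ρ a) * η - η * L.inc (ev ρ a))
      = L.mono (State.d1 ρ τ a + (ev ρ a * w - w * ev ρ a)) K0 J := by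
    rw [hpd, hη, L.inc_mul_mono, L.mono_mul_inc, L.mono_add, L.mono_sub]
  -- second order term
  have hB11 : B ρR V1 δ a = L.ζ ^ L.κ K0 • L.mono (State.d2 ρ t1 τ a) K0 (J + 1) := by
    have := L.B_mono ρ t1 τ 0 1 K0 J a
    simpa [add_comm 1 J] using this
  have hB12 : B ρR δ V1 a = L.mono (State.d2 ρ τ t1 a) K0 (J + 1) := by
    have := L.B_mono ρ τ t1 K0 J 0 1 a
    simpa using this
  have hB21 : B ρR V2 δ a = L.ζ ^ L.κ K0 • L.mono (State.d2 ρ t2 τ a) (K0 + L.μ₁) (J + 1) := by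
    have := L.B_mono ρ t2 τ L.μ₁ 1 K0 J a
    simpa [add_comm 1 J, add_comm L.μ₁ K0] using this
  have hB22 : B ρR δ V2 a = L.ζ ^ (J : ℤ) • L.mono (State.d2 ρ τ t2 a) (K0 + L.μ₁) (J + 1) := by
    have := L.B_mono ρ τ t2 K0 J L.μ₁ 1 a
    simpa [L.κ_μ₁] using this
  have hpV1 : pd ρR V1 a = L.mono (State.d1 ρ t1 a) 0 1 := L.pd_mono ρ t1 0 1 a
  have hpV2 : pd ρR V2 a = L.mono (State.d1 ρ t2 a) L.μ₁ 1 := L.pd_mono ρ t2 L.μ₁ 1 a
  have hp1 : pd ρR V1 a * η = L.ζ ^ L.κ K0 • L.mono (State.d1 ρ t1 a * w) K0 (J + 1) := by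
    rw [hpV1, hη, L.mono_mul]
    simp [add_comm 1 J]
  have hp2 : pd ρR V2 a * η = L.ζ ^ L.κ K0 • L.mono (State.d1 ρ t2 a * w) (K0 + L.μ₁) (J + 1) := by
    rw [hpV2, hη, L.mono_mul]
    simp [add_comm 1 J, add_comm L.μ₁ K0]
  have hq1 : pd ρR δ a * h1 = L.mono (State.d1 ρ τ a * w1) K0 (J + 1) := by
    rw [hpd, hh1, L.mono_mul]
    simp
  have hq2 : pd ρR δ a * h2 = L.ζ ^ (J : ℤ) • L.mono (State.d1 ρ τ a * w2) (K0 + L.μ₁) (J + 1) := by
    rw [hpd, hh2, L.mono_mul]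
    simp [L.κ_μ₁]
  -- the remainders
  have hR1 : B ρR Vr δ a ∈ L.Φ.fil (J + 2) := by
    have := B_mem (F := F) L.Φ L.coef_mem hρ0 hVrm hδm a
    rwa [add_comm] at this
  have hR2 : B ρR δ Vr a ∈ L.Φ.fil (J + 2) := B_mem (F := F) L.Φ L.coef_mem hρ0 hδm hVrm a
  have hpδm : pd ρR δ a ∈ L.Φ.fil J := pd_mem (F := F) L.Φ L.coef_mem hρ0 hδm a
  have hR3 : pd ρR δ a * hr ∈ L.Φ.fil (J + 2) := L.Φ.mul_mem hpδm hhrm
  have hR4 : pd ρR Vr a * η ∈ L.Φ.fil (J + 2) := by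
    have := L.Φ.mul_mem (pd_mem (F := F) L.Φ L.coef_mem hρ0 hVrm a) hηm
    rwa [add_comm] at this
  have hR5 : B ρR δ δ a ∈ L.Φ.fil (J + 2) :=
    L.Φ.anti (by omega) (B_mem (F := F) L.Φ L.coef_mem hρ0 hδm hδm a)
  have hR6 : pd ρR δ a * η ∈ L.Φ.fil (J + 2) := L.Φ.anti (by omega) (L.Φ.mul_mem hpδm hηm)
  -- expansions of `B` and `pd`
  have hBL : B ρR (V1 + V2 + Vr) δ a = B ρR V1 δ a + B ρR V2 δ a + B ρR Vr δ a := by
    rw [B_left_add, B_left_add]
  have hBR : B ρR δ (V1 + V2 + Vr) a = B ρR δ V1 a + B ρR δ V2 a + B ρR δ Vr a := by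
    rw [B_right_add, B_right_add]
  have hpL : pd ρR (V1 + V2 + Vr) a = pd ρR V1 a + pd ρR V2 a + pd ρR Vr a := by
    rw [pd_dir_add, pd_dir_add]
  have hsum : L.mono (L.ζ ^ L.κ K0 • (State.d2 ρ t1 τ a + State.d1 ρ t1 a * w)
          + (State.d2 ρ τ t1 a + State.d1 ρ τ a * w1)) K0 (J + 1)
        + L.mono (L.ζ ^ L.κ K0 • (State.d2 ρ t2 τ a + State.d1 ρ t2 a * w)
          + L.ζ ^ (J : ℤ) • (State.d2 ρ τ t2 a + State.d1 ρ τ a * w2)) (K0 + L.μ₁) (J + 1)
      = B ρR V1 δ a + B ρR V2 δ a + B ρR δ V1 a + B ρR δ V2 a + pd ρR V1 a * η + pd ρR V2 a * η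
        + pd ρR δ a * h1 + pd ρR δ a * h2 := by
    rw [hB11, hB12, hB21, hB22, hp1, hp2, hq1, hq2]
    simp only [mono_add, mono_smul, smul_add]
    abel
  rw [hfirst, hBL, hBR, hpL] at hmain
  have hfinal := add_mem (add_mem (add_mem (add_mem (add_mem (add_mem hmain hR1) hR2) hR3) hR4) hR5) hR6
  have hadd : ∀ x y : R, x - (y : R) - (L.mono (L.ζ ^ L.κ K0 • (State.d2 ρ t1 τ a + State.d1 ρ t1 a * w)
          + (State.d2 ρ τ t1 a + State.d1 ρ τ a * w1)) K0 (J + 1))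
        - L.mono (L.ζ ^ L.κ K0 • (State.d2 ρ t2 τ a + State.d1 ρ t2 a * w)
          + L.ζ ^ (J : ℤ) • (State.d2 ρ τ t2 a + State.d1 ρ τ a * w2)) (K0 + L.μ₁) (J + 1)
        = x - y - (L.mono (L.ζ ^ L.κ K0 • (State.d2 ρ t1 τ a + State.d1 ρ t1 a * w)
          + (State.d2 ρ τ t1 a + State.d1 ρ τ a * w1)) K0 (J + 1)
        + L.mono (L.ζ ^ L.κ K0 • (State.d2 ρ t2 τ a + State.d1 ρ t2 a * w)
          + L.ζ ^ (J : ℤ) • (State.d2 ρ τ t2 a + State.d1 ρ τ a * w2)) (K0 + L.μ₁) (J + 1)) := by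
    intro x y; abel
  convert hfinal using 1
  rw [hadd, hsum]
  simp only [mul_add, add_mul, mul_sub, sub_mul]
  abel

/-- The coefficients of the first derivative in the `s`,`s'`-directions. -/
theorem coeff_pd (ρ : ι → A) (δ : ι → R) (n : M) (j : ℕ) (a : FreeAlgebra F ι) :
    L.coeff n j (pd (fun v => L.inc (ρ v)) δ a) = State.d1 ρ (fun v => L.coeff n j (δ v)) a := by
  induction a using fa_induction with
  | hc c => simp
  | hι i => simp
  | hadd a b ha hb => simp only [pd_add, map_add, State.d1_add, ha, hb]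
  | hmul a b ha hb =>
    rw [pd_mul, State.d1_mul, map_add, L.ev_inc, L.ev_inc, L.coeff_mul_inc, L.coeff_inc_mul, ha, hb]
    rfl

end Free

section Equation

variable {F ι : Type*} [Field F] [Algebra F K] [Algebra F A] [IsScalarTower F K A] [Algebra F R]
  [IsScalarTower F K R] (P : State.Pt F K A ι)

/-- `E_i(X,g) = a_i(X) g_i - g_i β_i` -/
noncomputable def E (X : ι → R) (g : ℕ → R) (i : ℕ) : R :=
  ev X (P.a i) * g i - g i * L.inc (P.β i)

/-- The obstruction functional at the monomial `s^n s'^j`, for the prefix `i < k`. -/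
noncomputable def Obs (k : ℕ) (n : M) (j : ℕ) (X : ι → R) (g : ℕ → R) : (ℕ → A) →ₗ[K] K :=
  ∑ i ∈ Finset.range k,
    P.τ ∘ₗ LinearMap.mulRight K (L.coeff n j (L.E P X g i)) ∘ₗ LinearMap.proj i

lemma Obs_apply (k : ℕ) (n : M) (j : ℕ) (X : ι → R) (g : ℕ → R) (c : ℕ → A) :
    L.Obs P k n j X g c = ∑ i ∈ Finset.range k, P.τ (c i * L.coeff n j (L.E P X g i)) := by
  simp [Obs, LinearMap.sum_apply]

/-- Partial solutions of order `J` for the prefix `i < k`, with leading term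
`ρ + (t₁ + t₂ s) s'`. -/
structure PSol (k J : ℕ) (t1 t2 : ι → A) (X : ι → R) (g : ℕ → R) : Prop where
  fsX : ∀ v, X v ∈ L.FS
  fsg : ∀ i, g i ∈ L.FS
  leadX : ∀ v, X v - (L.inc (P.ρ v) + L.mono (t1 v) 0 1 + L.mono (t2 v) L.μ₁ 1) ∈ L.Φ.fil 2
  leadg : ∀ i < k, g i - (1 + L.mono (P.w i t1) 0 1 + L.mono (P.w i t2) L.μ₁ 1) ∈ L.Φ.fil 2
  E_mem : ∀ i < k, L.E P X g i ∈ L.Φ.fil J

/-- The monomial move. -/
noncomputable def mvX (X : ι → R) (τ : ι → A) (n : M) (j : ℕ) : ι → R :=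
  fun v => X v + L.mono (τ v) n j

/-- The monomial move. -/
noncomputable def mvg (g : ℕ → R) (w : ℕ → A) (n : M) (j : ℕ) : ℕ → R :=
  fun i => g i + L.mono (w i) n j

/-- Adding finitely many monomials of order `J` to `X`. -/
noncomputable def addX (X : ι → R) (s : Finset M) (τ : M → ι → A) (J : ℕ) : ι → R :=
  fun v => X v + ∑ m ∈ s, L.mono (τ m v) m J

/-- Adding finitely many monomials of order `J` to `g`. -/
noncomputable def addg (g : ℕ → R) (s : Finset M) (w : M → ℕ → A) (J : ℕ) : ℕ → R :=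
  fun i => g i + ∑ m ∈ s, L.mono (w m i) m J

lemma sum_mono_mem (s : Finset M) (f : M → A) (J : ℕ) : ∑ m ∈ s, L.mono (f m) m J ∈ L.Φ.fil J :=
  sum_mem fun m _ => L.mono_mem _ _ _

lemma sum_mono_mem_FS (s : Finset M) (f : M → A) (J : ℕ) : ∑ m ∈ s, L.mono (f m) m J ∈ L.FS :=
  sum_mem fun m _ => L.mono_mem_FS _ _ _

lemma coeff_sum_mono (s : Finset M) (f : M → A) (J : ℕ) (μ : M) :
    L.coeff μ J (∑ m ∈ s, L.mono (f m) m J) = if μ ∈ s then f μ else 0 := by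
  rw [map_sum]
  simp only [coeff_mono', and_true]
  rw [Finset.sum_ite_eq]

lemma coeff_sum_mono_of_ne (s : Finset M) (f : M → A) {J j : ℕ} (μ : M) (h : j ≠ J) :
    L.coeff μ j (∑ m ∈ s, L.mono (f m) m J) = 0 := by
  rw [map_sum]
  exact Finset.sum_eq_zero fun m _ => L.coeff_mono_of_ne_j _ _ _ h

lemma addX_empty (X : ι → R) (τ : M → ι → A) (J : ℕ) : L.addX X ∅ τ J = X := by
  funext v; simp [addX]

lemma addg_empty (g : ℕ → R) (w : M → ℕ → A) (J : ℕ) : L.addg g ∅ w J = g := by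
  funext v; simp [addg]

lemma addX_insert (X : ι → R) {s : Finset M} {a : M} (ha : a ∉ s) (τ : M → ι → A) (J : ℕ) :
    L.addX X (insert a s) τ J = L.mvX (L.addX X s τ J) (τ a) a J := by
  funext v
  simp only [addX, mvX, Finset.sum_insert ha]
  abel

lemma addg_insert (g : ℕ → R) {s : Finset M} {a : M} (ha : a ∉ s) (w : M → ℕ → A) (J : ℕ) :
    L.addg g (insert a s) w J = L.mvg (L.addg g s w J) (w a) a J := by
  funext i
  simp only [addg, mvg, Finset.sum_insert ha]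
  abel

variable {L P}
variable {k J : ℕ} {t1 t2 : ι → A} {X : ι → R} {g : ℕ → R}

theorem PSol.E_expansion (h : L.PSol P k J t1 t2 X g) {i : ℕ} (hi : i < k) {J' : ℕ} (hJ' : 2 ≤ J')
    (τ : ι → A) (w : ℕ → A) (n : M) :
    L.E P (L.mvX X τ n J') (L.mvg g w n J') i - L.E P X g i
      - L.mono (P.dL i τ + (P.β i * w i - w i * P.β i)) n J'
      - L.mono (L.ζ ^ L.κ n • (State.d2 P.ρ t1 τ (P.a i) + P.dL i t1 * w i)
          + (State.d2 P.ρ τ t1 (P.a i) + P.dL i τ * P.w i t1)) n (J' + 1)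
      - L.mono (L.ζ ^ L.κ n • (State.d2 P.ρ t2 τ (P.a i) + P.dL i t2 * w i)
          + L.ζ ^ (J' : ℤ) • (State.d2 P.ρ τ t2 (P.a i) + P.dL i τ * P.w i t2)) (n + L.μ₁) (J' + 1)
      ∈ L.Φ.fil (J' + 2) :=
  L.move_expansion P.ρ t1 t2 τ (P.w i t1) (P.w i t2) (w i) X (g i) (P.a i) hJ' n h.leadX
    (h.leadg i hi)

theorem PSol.coeff_E_same (h : L.PSol P k J t1 t2 X g) {i : ℕ} (hi : i < k) {J' : ℕ} (hJ' : 2 ≤ J')
    (τ : ι → A) (w : ℕ → A) (n m : M) :
    L.coeff m J' (L.E P (L.mvX X τ n J') (L.mvg g w n J') i)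
      = L.coeff m J' (L.E P X g i)
        + if m = n then P.dL i τ + (P.β i * w i - w i * P.β i) else 0 := by
  have h1 := L.coeff_fil (n := m) (j := J') (h.E_expansion hi hJ' τ w n) (by omega)
  simp only [map_sub] at h1
  rw [L.coeff_mono_of_ne_j _ _ _ (by omega : J' ≠ J' + 1),
    L.coeff_mono_of_ne_j _ _ _ (by omega : J' ≠ J' + 1), coeff_mono'] at h1
  simp only [sub_zero, true_and, and_true] at h1
  rw [sub_sub, sub_eq_zero] at h1
  exact h1

theorem PSol.coeff_E_next (h : L.PSol P k J t1 t2 X g) {i : ℕ} (hi : i < k) {J' : ℕ} (hJ' : 2 ≤ J')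
    (τ : ι → A) (w : ℕ → A) (n m : M) :
    L.coeff m (J' + 1) (L.E P (L.mvX X τ n J') (L.mvg g w n J') i)
      = L.coeff m (J' + 1) (L.E P X g i)
        + (if m = n then L.ζ ^ L.κ n • (State.d2 P.ρ t1 τ (P.a i) + P.dL i t1 * w i)
            + (State.d2 P.ρ τ t1 (P.a i) + P.dL i τ * P.w i t1) else 0)
        + (if m = n + L.μ₁ then L.ζ ^ L.κ n • (State.d2 P.ρ t2 τ (P.a i) + P.dL i t2 * w i)
            + L.ζ ^ (J' : ℤ) • (State.d2 P.ρ τ t2 (P.a i) + P.dL i τ * P.w i t2) else 0) := by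
  have h1 := L.coeff_fil (n := m) (j := J' + 1) (h.E_expansion hi hJ' τ w n) (by omega)
  simp only [map_sub] at h1
  rw [L.coeff_mono_of_ne_j _ _ _ (by omega : J' + 1 ≠ J'), coeff_mono', coeff_mono'] at h1
  simp only [sub_zero, and_true] at h1
  rw [sub_sub, sub_eq_zero] at h1
  rw [add_assoc]
  exact sub_eq_iff_eq_add'.mp h1

/-- A general move of order `J ≥ 1`: modulo order `J + 1` the change of `E` is linear. -/
theorem E_first_order {ρ : ι → A} {X X' : ι → R} {g g' : R} {a : FreeAlgebra F ι} (hJ : 1 ≤ J)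
    (hX : ∀ v, X v - L.inc (ρ v) ∈ L.Φ.fil 1) (hg : g - 1 ∈ L.Φ.fil 1)
    (hX' : ∀ v, X' v - X v ∈ L.Φ.fil J) (hg' : g' - g ∈ L.Φ.fil J) :
    (ev X' a * g' - g' * L.inc (ev ρ a)) - (ev X a * g - g * L.inc (ev ρ a))
      - (pd (fun v => L.inc (ρ v)) (X' - X) a
          + (L.inc (ev ρ a) * (g' - g) - (g' - g) * L.inc (ev ρ a))) ∈ L.Φ.fil (J + 1) := by
  set ρR : ι → R := fun v => L.inc (ρ v) with hρR
  set V : ι → R := X - ρR with hV
  set h : R := g - 1 with hh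
  set δ : ι → R := X' - X with hδ
  set η : R := g' - g with hη
  have hρ0 : ∀ v, ρR v ∈ L.Φ.fil 0 := fun v => L.inc_mem _
  have hδm : ∀ v, δ v ∈ L.Φ.fil J := hX'
  have hηm : η ∈ L.Φ.fil J := hg'
  have hVm : ∀ v, V v ∈ L.Φ.fil 1 := hX
  have hmain := delta_E (F := F) L.Φ L.coef_mem (ρ := ρR) (V := V) (δ := δ)
    (h := h) (η := η) (J := J + 1) (by omega) hρ0 hVm
    (by simpa using hδm) hg (by simpa using hηm) L.one_mem a
  have e1 : ρR + V = X := by
    funext v; simp [hV]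
  have e2 : X + δ = X' := by
    funext v; simp [hδ]
  have e3 : 1 + h = g := by simp [hh]
  have e4 : g + η = g' := by simp [hη]
  rw [e1, e2, e3, e4, L.ev_inc] at hmain
  have hB1 : B ρR V δ a ∈ L.Φ.fil (J + 1) := by
    have := B_mem (F := F) L.Φ L.coef_mem hρ0 hVm hδm a
    rwa [add_comm] at this
  have hB2 : B ρR δ V a ∈ L.Φ.fil (J + 1) := B_mem (F := F) L.Φ L.coef_mem hρ0 hδm hVm a
  have hpδ : pd ρR δ a ∈ L.Φ.fil J := pd_mem (F := F) L.Φ L.coef_mem hρ0 hδm a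
  have hB3 : pd ρR δ a * h ∈ L.Φ.fil (J + 1) := L.Φ.mul_mem hpδ hg
  have hB4 : pd ρR V a * η ∈ L.Φ.fil (J + 1) := by
    have := L.Φ.mul_mem (pd_mem (F := F) L.Φ L.coef_mem hρ0 hVm a) hηm
    rwa [add_comm] at this
  have hB5 : B ρR δ δ a ∈ L.Φ.fil (J + 1) :=
    L.Φ.anti (by omega) (B_mem (F := F) L.Φ L.coef_mem hρ0 hδm hδm a)
  have hB6 : pd ρR δ a * η ∈ L.Φ.fil (J + 1) := L.Φ.anti (by omega) (L.Φ.mul_mem hpδ hηm)
  have hfinal := add_mem (add_mem (add_mem (add_mem (add_mem (add_mem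
    (L.Φ.anti (Nat.le_succ _) hmain) hB1) hB2) hB3) hB4) hB5) hB6
  convert hfinal using 1
  abel

variable [FiniteDimensional K A]

/-- A general move of order `J` does not change the obstruction on `𝕂` at order `J`
(the kernel relation). -/
theorem Obs_invariant {X' : ι → R} {g' : ℕ → R} (hJ : 1 ≤ J) {c : ℕ → A} (hc : c ∈ P.KK k)
    (hX : ∀ v, X v - L.inc (P.ρ v) ∈ L.Φ.fil 1) (hg : ∀ i < k, g i - 1 ∈ L.Φ.fil 1)
    (hX' : ∀ v, X' v - X v ∈ L.Φ.fil J) (hg' : ∀ i < k, g' i - g i ∈ L.Φ.fil J) (n : M) :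
    L.Obs P k n J X' g' c = L.Obs P k n J X g c := by
  rw [Obs_apply, Obs_apply]
  set tt : ι → A := fun v => L.coeff n J (X' v - X v) with htt
  set yy : ℕ → A := fun i => L.coeff n J (g' i - g i) with hyy
  have hcoef : ∀ i < k, L.coeff n J (L.E P X' g' i) = L.coeff n J (L.E P X g i)
      + (P.dL i tt + (P.β i * yy i - yy i * P.β i)) := by
    intro i hi
    have h1 := L.coeff_fil (n := n) (j := J)
      (E_first_order (L := L) (ρ := P.ρ) (a := P.a i) hJ hX (hg i hi) hX' (hg' i hi))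
      (by omega)
    have h2 : L.coeff n J (pd (fun v => L.inc (P.ρ v)) (X' - X) (P.a i)) = P.dL i tt := by
      rw [L.coeff_pd]; rfl
    have h3 : L.coeff n J (L.inc (ev P.ρ (P.a i)) * (g' i - g i))
        = P.β i * yy i := by
      rw [L.coeff_inc_mul]; rfl
    have h4 : L.coeff n J ((g' i - g i) * L.inc (ev P.ρ (P.a i)))
        = yy i * P.β i := by
      rw [L.coeff_mul_inc]; rfl
    simp only [map_sub, map_add, h2, h3, h4] at h1
    have h5 : ev P.ρ (P.a i) = P.β i := rfl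
    simp only [E, h5, map_sub]
    simp only [h5] at h1
    rw [← sub_eq_zero, ← h1]
    abel
  have hsum : ∑ i ∈ Finset.range k, P.τ (c i * L.coeff n J (L.E P X' g' i))
      = ∑ i ∈ Finset.range k, P.τ (c i * L.coeff n J (L.E P X g i))
        + (∑ i ∈ Finset.range k, P.τ (c i * P.dL i tt)
          + ∑ i ∈ Finset.range k, P.τ (c i * (P.β i * yy i - yy i * P.β i))) := by
    rw [← Finset.sum_add_distrib, ← Finset.sum_add_distrib]
    refine Finset.sum_congr rfl fun i hi => ?_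
    rw [hcoef i (Finset.mem_range.mp hi), mul_add, mul_add, map_add, map_add]
  rw [hsum, hc.2.2 tt, P.sum_τ_comm hc, add_zero, add_zero]

/-- The pairing of a pair of second order terms. -/
lemma sum_pair (c : ℕ → A) (t τ : ι → A) (e₁ e₂ : K) :
    ∑ i ∈ Finset.range k, P.τ (c i * (e₁ • (State.d2 P.ρ t τ (P.a i) + P.dL i t * P.w i τ)
        + e₂ • (State.d2 P.ρ τ t (P.a i) + P.dL i τ * P.w i t)))
      = e₁ * P.Gam k c t τ + e₂ * P.Gam k c τ t := by
  simp only [State.Pt.Gam, Finset.mul_sum, ← Finset.sum_add_distrib]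
  refine Finset.sum_congr rfl fun i _ => ?_
  rw [mul_add, mul_smul_comm, mul_smul_comm, map_add, map_smul, map_smul, smul_eq_mul, smul_eq_mul]

/-- Effect of a move `τ ∈ T` of order `J` on the obstruction at order `J+1`. -/
theorem PSol.Obs_move_T [CharZero K] (h : L.PSol P k J t1 t2 X g) {J' : ℕ} (hJ' : 2 ≤ J')
    (n m : M) (τ : ι → A) {c : ℕ → A} (hS1 : P.SS k c t1 τ = 0) (hS2 : P.SS k c t2 τ = 0) :
    L.Obs P k m (J' + 1) (L.mvX X τ n J') (L.mvg g (fun i => P.w i τ) n J') c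
      = L.Obs P k m (J' + 1) X g c
        + (if m = n then 2⁻¹ * (L.ζ ^ L.κ n - 1) * P.PP k c t1 τ else 0)
        + (if m = n + L.μ₁ then 2⁻¹ * (L.ζ ^ L.κ n - L.ζ ^ (J' : ℤ)) * P.PP k c t2 τ else 0) := by
  rw [Obs_apply, Obs_apply]
  have hcoef : ∀ i ∈ Finset.range k,
      P.τ (c i * L.coeff m (J' + 1) (L.E P (L.mvX X τ n J') (L.mvg g (fun i => P.w i τ) n J') i))
      = P.τ (c i * L.coeff m (J' + 1) (L.E P X g i))
        + (if m = n then P.τ (c i * ((L.ζ ^ L.κ n) • (State.d2 P.ρ t1 τ (P.a i) + P.dL i t1 * P.w i τ)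
            + (1 : K) • (State.d2 P.ρ τ t1 (P.a i) + P.dL i τ * P.w i t1))) else 0)
        + (if m = n + L.μ₁ then P.τ (c i * ((L.ζ ^ L.κ n) • (State.d2 P.ρ t2 τ (P.a i) + P.dL i t2 * P.w i τ)
            + (L.ζ ^ (J' : ℤ)) • (State.d2 P.ρ τ t2 (P.a i) + P.dL i τ * P.w i t2))) else 0) := by
    intro i hi
    rw [h.coeff_E_next (Finset.mem_range.mp hi) hJ' τ (fun i => P.w i τ) n m]
    rw [mul_add, mul_add, map_add, map_add]
    congr 1
    · congr 1
      split_ifs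
      · rw [one_smul]
      · simp
    · split_ifs
      · rfl
      · simp
  rw [Finset.sum_congr rfl hcoef, Finset.sum_add_distrib, Finset.sum_add_distrib]
  congr 1
  · congr 1
    split_ifs with hm
    · rw [sum_pair, P.eps_combo, hS1]
      ring
    · simp
  · split_ifs with hm
    · rw [sum_pair, P.eps_combo, hS2]
      ring
    · simp

/-- A monomial move of order `≥ J` keeps a partial solution. -/
theorem PSol.mv_general (h : L.PSol P k J t1 t2 X g) {J' : ℕ} (hJ' : 2 ≤ J') (hJJ : J ≤ J')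
    (τ : ι → A) (w : ℕ → A) (n : M) :
    L.PSol P k J t1 t2 (L.mvX X τ n J') (L.mvg g w n J') := by
  refine ⟨fun v => add_mem (h.fsX v) (L.mono_mem_FS _ _ _), fun i => add_mem (h.fsg i)
    (L.mono_mem_FS _ _ _), fun v => ?_, fun i hi => ?_, fun i hi => ?_⟩
  · have := add_mem (h.leadX v) (L.Φ.anti hJ' (L.mono_mem (τ v) n J'))
    convert this using 1
    simp only [mvX]
    abel
  · have := add_mem (h.leadg i hi) (L.Φ.anti hJ' (L.mono_mem (w i) n J'))
    convert this using 1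
    simp only [mvg]
    abel
  · have h1 := h.E_expansion hi hJ' τ w n
    have h2 := add_mem (add_mem (add_mem (add_mem (L.Φ.anti (by omega : J ≤ J' + 2) h1)
      (h.E_mem i hi)) (L.Φ.anti hJJ (L.mono_mem (P.dL i τ + (P.β i * w i - w i * P.β i)) n J')))
      (L.Φ.anti (by omega : J ≤ J' + 1) (L.mono_mem (L.ζ ^ L.κ n • (State.d2 P.ρ t1 τ (P.a i)
        + P.dL i t1 * w i) + (State.d2 P.ρ τ t1 (P.a i) + P.dL i τ * P.w i t1)) n (J' + 1))))
      (L.Φ.anti (by omega : J ≤ J' + 1) (L.mono_mem (L.ζ ^ L.κ n • (State.d2 P.ρ t2 τ (P.a i)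
        + P.dL i t2 * w i) + L.ζ ^ (J' : ℤ) • (State.d2 P.ρ τ t2 (P.a i)
          + P.dL i τ * P.w i t2)) (n + L.μ₁) (J' + 1)))
    convert h2 using 1
    abel

/-- A monomial move `τ ∈ T` of order `J'` keeps a partial solution of order `J'+1`. -/
theorem PSol.mv_T {J' : ℕ} (h : L.PSol P k (J' + 1) t1 t2 X g) (hJ' : 2 ≤ J') {τ : ι → A}
    (hτ : τ ∈ P.T k) (n : M) :
    L.PSol P k (J' + 1) t1 t2 (L.mvX X τ n J') (L.mvg g (fun i => P.w i τ) n J') := by
  have h0 := h.mv_general (J' := J' + 1) (by omega) le_rfl 0 0 0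
  refine ⟨fun v => add_mem (h.fsX v) (L.mono_mem_FS _ _ _), fun i => add_mem (h.fsg i)
    (L.mono_mem_FS _ _ _), fun v => ?_, fun i hi => ?_, fun i hi => ?_⟩
  · have := add_mem (h.leadX v) (L.Φ.anti hJ' (L.mono_mem (τ v) n J'))
    convert this using 1
    simp only [mvX]
    abel
  · have := add_mem (h.leadg i hi) (L.Φ.anti hJ' (L.mono_mem (P.w i τ) n J'))
    convert this using 1
    simp only [mvg]
    abel
  · have h1 := h.E_expansion hi hJ' τ (fun i => P.w i τ) n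
    have hfirst : P.dL i τ + (P.β i * P.w i τ - P.w i τ * P.β i) = 0 := by
      rw [P.dL_eq_of_mem hi hτ]
      abel
    rw [hfirst, mono_zero, sub_zero] at h1
    have h2 := add_mem (add_mem (add_mem (L.Φ.anti (by omega : J' + 1 ≤ J' + 2) h1)
      (h.E_mem i hi))
      (L.mono_mem (L.ζ ^ L.κ n • (State.d2 P.ρ t1 τ (P.a i)
        + P.dL i t1 * P.w i τ) + (State.d2 P.ρ τ t1 (P.a i) + P.dL i τ * P.w i t1)) n (J' + 1)))
      (L.mono_mem (L.ζ ^ L.κ n • (State.d2 P.ρ t2 τ (P.a i)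
        + P.dL i t2 * P.w i τ) + L.ζ ^ (J' : ℤ) • (State.d2 P.ρ τ t2 (P.a i)
          + P.dL i τ * P.w i t2)) (n + L.μ₁) (J' + 1))
    convert h2 using 1
    abel

lemma PP_zero_right (c : ℕ → A) (t : ι → A) : P.PP k c t 0 = 0 := by
  have h1 := P.Gam_smul_right k c (0 : K) t 0
  have h2 := P.Gam_smul_left k c (0 : K) 0 t
  simp only [zero_smul, zero_mul] at h1 h2
  simp [State.Pt.PP, h1, h2]

/-- Finitely many monomial moves in `T` at order `J'`. -/
theorem PSol.addT {J' : ℕ} (h : L.PSol P k (J' + 1) t1 t2 X g) (hJ' : 2 ≤ J')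
    (τ : M → ι → A) (hτ : ∀ n, τ n ∈ P.T k) (s : Finset M) :
    L.PSol P k (J' + 1) t1 t2 (L.addX X s τ J') (L.addg g s (fun m i => P.w i (τ m)) J') := by
  classical
  induction s using Finset.induction_on with
  | empty => rwa [addX_empty, addg_empty]
  | insert a s ha ih =>
    rw [addX_insert _ _ ha, addg_insert _ _ ha]
    exact ih.mv_T hJ' (hτ a) a

/-- The effect of finitely many monomial moves in `T` at order `J'` on the obstruction. -/
theorem PSol.Obs_addT [CharZero K] {J' : ℕ} (h : L.PSol P k (J' + 1) t1 t2 X g) (hJ' : 2 ≤ J')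
    (τ : M → ι → A) (hτ : ∀ n, τ n ∈ P.T k)
    (hS : ∀ c ∈ P.KK k, ∀ τ' ∈ P.T k, P.SS k c t1 τ' = 0 ∧ P.SS k c t2 τ' = 0) (s : Finset M)
    {c : ℕ → A} (hc : c ∈ P.KK k) (m : M) :
    L.Obs P k m (J' + 1) (L.addX X s τ J') (L.addg g s (fun m i => P.w i (τ m)) J') c
      = L.Obs P k m (J' + 1) X g c
        + (if m ∈ s then 2⁻¹ * (L.ζ ^ L.κ m - 1) * P.PP k c t1 (τ m) else 0)
        + (if m - L.μ₁ ∈ s then 2⁻¹ * (L.ζ ^ L.κ (m - L.μ₁) - L.ζ ^ (J' : ℤ)) * P.PP k c t2 (τ (m - L.μ₁))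
            else 0) := by
  classical
  induction s using Finset.induction_on with
  | empty => simp [addX_empty, addg_empty]
  | insert a s ha ih =>
    have h1 := h.addT hJ' τ hτ s
    have hS' := hS c hc (τ a) (hτ a)
    rw [addX_insert _ _ ha, addg_insert _ _ ha,
      h1.Obs_move_T hJ' a m (τ a) hS'.1 hS'.2, ih]
    by_cases hma : m = a
    · subst hma
      have h3 : m ∈ insert m s := Finset.mem_insert_self _ _
      have hμ₁ : L.μ₁ ≠ 0 := by
        intro h0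
        have := L.κ_μ₁
        rw [h0, map_zero] at this
        exact absurd this (by norm_num)
      have h4 : m - L.μ₁ ≠ m := by
        intro h0
        exact hμ₁ (by simpa using h0)
      have h5 : m ≠ m + L.μ₁ := by
        intro h0
        exact hμ₁ (by simpa using h0)
      simp only [h3, ha, if_true, if_false, h5, Finset.mem_insert, h4, false_or]
      ring
    · have h6 : m ∈ insert a s ↔ m ∈ s := by simp [hma]
      by_cases hma1 : m = a + L.μ₁
      · subst hma1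
        have h7 : a + L.μ₁ - L.μ₁ = a := by abel
        have h8 : a ∉ s := ha
        simp only [h6, hma, if_false, h7, Finset.mem_insert, true_or, if_true, h8]
        ring
      · have h9 : m - L.μ₁ ≠ a := fun h => hma1 (by rw [← h]; abel)
        have h10 : m - L.μ₁ ∈ insert a s ↔ m - L.μ₁ ∈ s := by simp [h9]
        simp only [h6, hma, if_false, h10, hma1]
        ring

/-- Finitely many monomial moves of order `J`: a partial solution of order `J` stays so. -/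
theorem PSol.add_general (h : L.PSol P k J t1 t2 X g) (hJ : 2 ≤ J) (tt : M → ι → A)
    (ww : M → ℕ → A) (s : Finset M) :
    L.PSol P k J t1 t2 (L.addX X s tt J) (L.addg g s ww J) := by
  classical
  induction s using Finset.induction_on with
  | empty => rwa [addX_empty, addg_empty]
  | insert a s ha ih =>
    rw [addX_insert _ _ ha, addg_insert _ _ ha]
    exact ih.mv_general hJ le_rfl _ _ a

/-- The effect of finitely many monomial moves of order `J` on the coefficients at order `J`. -/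
theorem PSol.coeff_add_general (h : L.PSol P k J t1 t2 X g) (hJ : 2 ≤ J) (tt : M → ι → A)
    (ww : M → ℕ → A) (s : Finset M) {i : ℕ} (hi : i < k) (m : M) :
    L.coeff m J (L.E P (L.addX X s tt J) (L.addg g s ww J) i) = L.coeff m J (L.E P X g i)
        + if m ∈ s then P.dL i (tt m) + (P.β i * ww m i - ww m i * P.β i) else 0 := by
  classical
  induction s using Finset.induction_on with
  | empty => simp [addX_empty, addg_empty]
  | insert a s ha ih =>
    have h1 := h.add_general hJ tt ww s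
    rw [addX_insert _ _ ha, addg_insert _ _ ha, h1.coeff_E_same hi hJ (tt a) (ww a) a m, ih]
    by_cases hma : m = a
    · subst hma
      simp [ha]
    · simp [hma]

lemma E_mem_FS (hX : ∀ v, X v ∈ L.FS) (hg : ∀ i, g i ∈ L.FS) (i : ℕ) : L.E P X g i ∈ L.FS :=
  sub_mem (mul_mem (L.ev_mem_FS hX _) (hg i)) (mul_mem (hg i) (L.inc_mem_FS _))

lemma finite_coeff_E (hX : ∀ v, X v ∈ L.FS) (hg : ∀ i, g i ∈ L.FS) (k j : ℕ) :
    {m : M | ∃ i < k, L.coeff m j (L.E P X g i) ≠ 0}.Finite := by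
  have : {m : M | ∃ i < k, L.coeff m j (L.E P X g i) ≠ 0}
      = ⋃ i ∈ Finset.range k, {m : M | L.coeff m j (L.E P X g i) ≠ 0} := by
    ext m
    simp only [Set.mem_iUnion, Finset.mem_range, exists_prop]
    rfl
  rw [this]
  exact Set.Finite.biUnion (Finset.finite_toSet _) fun i _ =>
    ((L.FS_iff _).mp (E_mem_FS hX hg i)).2 j

lemma Obs_eq_zero_of_coeff {m : M} {j : ℕ} (h : ∀ i < k, L.coeff m j (L.E P X g i) = 0)
    (c : ℕ → A) : L.Obs P k m j X g c = 0 := by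
  rw [Obs_apply]
  refine Finset.sum_eq_zero fun i hi => ?_
  rw [h i (Finset.mem_range.mp hi), mul_zero, map_zero]

/-- If the obstruction vanishes on `𝕂` at all monomials of order `J`, the equation can be solved
to order `J + 1`, changing only coefficients at order `J` at the monomials in the support of the
error. -/
theorem PSol.solve_all (h : L.PSol P k J t1 t2 X g) (hJ : 2 ≤ J)
    (hO : ∀ m : M, ∀ c ∈ P.KK k, L.Obs P k m J X g c = 0) :
    ∃ (S : Finset M) (tt : M → ι → A) (ww : M → ℕ → A),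
      L.PSol P k (J + 1) t1 t2 (L.addX X S tt J) (L.addg g S ww J) ∧
      ∀ m ∈ S, ∃ i < k, L.coeff m J (L.E P X g i) ≠ 0 := by
  classical
  have hsolv : ∀ m : M, ∃ (t : ι → A) (w : ℕ → A), ∀ i < k,
      P.dL i t + (P.β i * w i - w i * P.β i) = - L.coeff m J (L.E P X g i) := by
    intro m
    rw [P.solvable_iff k]
    intro c hc
    have := hO m c hc
    rw [Obs_apply] at this
    simp only [mul_neg, map_neg, Finset.sum_neg_distrib, this, neg_zero]
  choose tt ww htt using hsolv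
  have hfin := finite_coeff_E (P := P) h.fsX h.fsg k J
  refine ⟨hfin.toFinset, tt, ww, ?_, fun m hm => ?_⟩
  · have h1 := h.add_general hJ tt ww hfin.toFinset
    refine ⟨h1.fsX, h1.fsg, h1.leadX, h1.leadg, fun i hi => ?_⟩
    refine L.mem_fil_succ (h1.E_mem i hi) fun m => ?_
    rw [h.coeff_add_general hJ tt ww _ hi m]
    by_cases hm : m ∈ hfin.toFinset
    · rw [if_pos hm, htt m i hi]
      simp
    · rw [if_neg hm, add_zero]
      by_contra hne
      apply hm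
      rw [Set.Finite.mem_toFinset]
      exact ⟨i, hi, hne⟩
  · rwa [Set.Finite.mem_toFinset] at hm

/-- **Solving by `P`-moves**: `Q` is a subspace of `𝕂`; if `H2` holds for `Q`, the obstruction
vanishes on `II` and at central monomials on `Q`, then finitely many moves `τ_m ∈ T` at order `J`
make the obstruction at order `J + 1` vanish on `Q`. A monomial `m` is moved only if the obstruction
is nonzero on `Q` at `m` or at `m + μ₁`. -/
theorem PSol.moves_solving [CharZero K] (h : L.PSol P k (J + 1) t1 t2 X g) (hJ : 2 ≤ J)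
    (II Q : Submodule K (ℕ → A)) (hQ : Q ≤ P.KK k)
    (hS : ∀ c ∈ P.KK k, ∀ τ' ∈ P.T k, P.SS k c t1 τ' = 0 ∧ P.SS k c t2 τ' = 0)
    (hH2 : ∀ φ₁ φ₂ : (ℕ → A) →ₗ[K] K, (∀ c ∈ II, φ₁ c = 0) → (∀ c ∈ II, φ₂ c = 0) →
      ∃ τ' ∈ P.T k, ∀ c ∈ Q, P.PP k c t1 τ' = φ₁ c ∧ P.PP k c t2 τ' = φ₂ c)
    (hI : ∀ m : M, ∀ c ∈ II, L.Obs P k m (J + 1) X g c = 0)
    (hC : ∀ m : M, L.ζ ^ L.κ m = 1 → L.ζ ^ ((J : ℤ) + 1) = 1 → ∀ c ∈ Q,
      L.Obs P k m (J + 1) X g c = 0) :
    ∃ (u : Finset M) (τ : M → ι → A), (∀ m, τ m ∈ P.T k) ∧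
      (∀ m ∈ u, (∃ c ∈ Q, L.Obs P k m (J + 1) X g c ≠ 0) ∨
        (∃ c ∈ Q, L.Obs P k (m + L.μ₁) (J + 1) X g c ≠ 0)) ∧
      ∀ m : M, ∀ c ∈ Q, L.Obs P k m (J + 1) (L.addX X u τ J)
        (L.addg g u (fun m i => P.w i (τ m)) J) c = 0 := by
  classical
  have h2ne : (2 : K)⁻¹ ≠ 0 := inv_ne_zero two_ne_zero
  set φ : M → (ℕ → A) →ₗ[K] K := fun m => L.Obs P k m (J + 1) X g with hφ
  set a : M → K := fun m => 2⁻¹ * (L.ζ ^ L.κ m - 1) with ha
  set b : M → K := fun m => 2⁻¹ * (L.ζ ^ L.κ m - L.ζ ^ (J : ℤ)) with hb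
  -- `NZ m`: the obstruction at `m` is nonzero on `Q`
  set NZ : M → Prop := fun m => ∃ c ∈ Q, φ m c ≠ 0 with hNZ
  set x : M → (ℕ → A) →ₗ[K] K :=
    fun m => if a m ≠ 0 ∧ NZ m then (-(a m)⁻¹) • φ m else 0 with hx
  set y : M → (ℕ → A) →ₗ[K] K :=
    fun m => if a (m + L.μ₁) = 0 ∧ b m ≠ 0 ∧ NZ (m + L.μ₁) then (-(b m)⁻¹) • φ (m + L.μ₁) else 0
    with hy
  have hxI : ∀ m, ∀ c ∈ II, x m c = 0 := by
    intro m c hc
    simp only [hx]
    split_ifs
    · simp [hφ, hI m c hc]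
    · simp
  have hyI : ∀ m, ∀ c ∈ II, y m c = 0 := by
    intro m c hc
    simp only [hy]
    split_ifs
    · simp [hφ, hI (m + L.μ₁) c hc]
    · simp
  choose τ hτT hτ using fun m => hH2 (x m) (y m) (hxI m) (hyI m)
  -- the support
  have hNZfin : {m : M | NZ m}.Finite := by
    refine (finite_coeff_E (P := P) h.fsX h.fsg k (J + 1)).subset ?_
    rintro m ⟨c, _, hc⟩
    by_contra hcon
    apply hc
    refine Obs_eq_zero_of_coeff (fun i hi => ?_) c
    by_contra hne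
    exact hcon ⟨i, hi, hne⟩
  have hufin : {m : M | NZ m ∨ NZ (m + L.μ₁)}.Finite := by
    have h2 : {m : M | NZ (m + L.μ₁)} = (fun m => m - L.μ₁) '' {m : M | NZ m} := by
      ext m
      constructor
      · intro hm
        exact ⟨m + L.μ₁, hm, by abel⟩
      · rintro ⟨n, hn, rfl⟩
        have : n - L.μ₁ + L.μ₁ = n := by abel
        show NZ (n - L.μ₁ + L.μ₁)
        rwa [this]
    have h3 : {m : M | NZ m ∨ NZ (m + L.μ₁)} = {m : M | NZ m} ∪ {m : M | NZ (m + L.μ₁)} := rfl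
    rw [h3, h2]
    exact hNZfin.union (hNZfin.image _)
  refine ⟨hufin.toFinset, τ, hτT, ?_, ?_⟩
  · intro m hm
    rwa [Set.Finite.mem_toFinset] at hm
  -- all obstructions vanish
  intro m c hc
  have hcK := hQ hc
  rw [h.Obs_addT hJ τ hτT hS _ hcK m]
  have e1 : (if m ∈ hufin.toFinset then 2⁻¹ * (L.ζ ^ L.κ m - 1) * P.PP k c t1 (τ m) else 0)
      = a m * x m c := by
    by_cases hm : m ∈ hufin.toFinset
    · rw [if_pos hm, (hτ m c hc).1]
    · rw [if_neg hm]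
      have hm' : ¬ NZ m := fun h => hm (by
        rw [Set.Finite.mem_toFinset]
        exact Or.inl h)
      simp [hx, hm']
  have e2 : (if m - L.μ₁ ∈ hufin.toFinset then 2⁻¹ * (L.ζ ^ L.κ (m - L.μ₁) - L.ζ ^ (J : ℤ))
      * P.PP k c t2 (τ (m - L.μ₁)) else 0) = b (m - L.μ₁) * y (m - L.μ₁) c := by
    by_cases hm : m - L.μ₁ ∈ hufin.toFinset
    · rw [if_pos hm, (hτ (m - L.μ₁) c hc).2]
    · rw [if_neg hm]
      have hm' : ¬ NZ (m - L.μ₁ + L.μ₁) := fun h => hm (by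
        rw [Set.Finite.mem_toFinset]
        exact Or.inr h)
      simp only [hy]
      rw [if_neg fun h => hm' h.2.2]
      simp
  rw [e1, e2]
  have hm1 : m - L.μ₁ + L.μ₁ = m := by abel
  by_cases hNZm : NZ m
  · by_cases ham : a m = 0
    · by_cases hbm : b (m - L.μ₁) = 0
      · -- central
        have hzm : L.ζ ^ L.κ m = 1 := by
          have : L.ζ ^ L.κ m - 1 = 0 := (mul_eq_zero.mp ham).resolve_left h2ne
          exact sub_eq_zero.mp this
        have hzb : L.ζ ^ L.κ (m - L.μ₁) = L.ζ ^ (J : ℤ) := by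
          have : L.ζ ^ L.κ (m - L.μ₁) - L.ζ ^ (J : ℤ) = 0 := (mul_eq_zero.mp hbm).resolve_left h2ne
          exact sub_eq_zero.mp this
        have hzJ : L.ζ ^ ((J : ℤ) + 1) = 1 := by
          have hκ : L.κ (m - L.μ₁) + 1 = L.κ m := by
            rw [map_sub, L.κ_μ₁]
            omega
          rw [zpow_add₀ L.ζ_ne, ← hzb, ← zpow_add₀ L.ζ_ne, hκ, hzm]
        rw [ham, hbm, zero_mul, zero_mul, add_zero, add_zero]
        exact hC m hzm hzJ c hc
      · have hy' : y (m - L.μ₁) = (-(b (m - L.μ₁))⁻¹) • φ m := by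
          simp only [hy, hm1]
          rw [if_pos ⟨ham, hbm, hNZm⟩]
        rw [ham, zero_mul, hy', LinearMap.smul_apply, smul_eq_mul, add_zero]
        field_simp
        simp [hφ]
    · have hx' : x m = (-(a m)⁻¹) • φ m := by
        simp only [hx]
        rw [if_pos ⟨ham, hNZm⟩]
      have hy' : y (m - L.μ₁) = 0 := by
        simp only [hy, hm1]
        rw [if_neg]
        exact fun h => ham h.1
      rw [hx', hy', LinearMap.smul_apply, smul_eq_mul]
      simp only [LinearMap.zero_apply, mul_zero, add_zero]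
      field_simp
      simp [hφ]
  · have hx' : x m = 0 := by
      simp only [hx]
      rw [if_neg]
      exact fun h => hNZm h.2
    have hy' : y (m - L.μ₁) = 0 := by
      simp only [hy, hm1]
      rw [if_neg]
      exact fun h => hNZm h.2.2
    have hφm : φ m c = 0 := by
      by_contra hne
      exact hNZm ⟨c, hc, hne⟩
    rw [hx', hy']
    simp only [LinearMap.zero_apply, mul_zero, add_zero]
    exact hφm

/-- **One pass** of the recursion: from order `J + 1` to order `J + 2`, changing `X,g` only from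
order `J ≥ 2` on. -/
theorem PSol.pass [CharZero K] (h : L.PSol P k (J + 1) t1 t2 X g) (hJ : 2 ≤ J)
    (II : Submodule K (ℕ → A))
    (hS : ∀ c ∈ P.KK k, ∀ τ' ∈ P.T k, P.SS k c t1 τ' = 0 ∧ P.SS k c t2 τ' = 0)
    (hH2 : ∀ φ₁ φ₂ : (ℕ → A) →ₗ[K] K, (∀ c ∈ II, φ₁ c = 0) → (∀ c ∈ II, φ₂ c = 0) →
      ∃ τ' ∈ P.T k, ∀ c ∈ P.KK k, P.PP k c t1 τ' = φ₁ c ∧ P.PP k c t2 τ' = φ₂ c)
    (hI : ∀ m : M, ∀ c ∈ II, L.Obs P k m (J + 1) X g c = 0)
    (hC : ∀ m : M, L.ζ ^ L.κ m = 1 → L.ζ ^ ((J : ℤ) + 1) = 1 → ∀ c ∈ P.KK k,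
      L.Obs P k m (J + 1) X g c = 0) :
    ∃ (u : Finset M) (τ : M → ι → A) (S : Finset M) (tt : M → ι → A) (ww : M → ℕ → A),
      (∀ m, τ m ∈ P.T k) ∧
      (∀ m ∈ u, (∃ c ∈ P.KK k, L.Obs P k m (J + 1) X g c ≠ 0) ∨
        (∃ c ∈ P.KK k, L.Obs P k (m + L.μ₁) (J + 1) X g c ≠ 0)) ∧
      (∀ m ∈ S, ∃ i < k, L.coeff m (J + 1) (L.E P (L.addX X u τ J)
        (L.addg g u (fun m i => P.w i (τ m)) J) i) ≠ 0) ∧
      L.PSol P k (J + 2) t1 t2 (L.addX (L.addX X u τ J) S tt (J + 1))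
        (L.addg (L.addg g u (fun m i => P.w i (τ m)) J) S ww (J + 1)) := by
  obtain ⟨u, τ, hτ, hu, hO⟩ := h.moves_solving hJ II (P.KK k) le_rfl hS hH2 hI hC
  obtain ⟨S, tt, ww, h1, hS1⟩ := (h.addT hJ τ hτ u).solve_all (by omega) hO
  exact ⟨u, τ, S, tt, ww, hτ, hu, hS1, h1⟩

/-- **The start**: `ρ + (t₁ + t₂ μ₁) s'` extends to a partial solution of order `3`, by adding terms
of order `2` at the monomials `0, μ₁, 2 μ₁`. -/
theorem exists_start [CharZero K] (ht1 : t1 ∈ P.T k) (ht2 : t2 ∈ P.T k)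
    (hS : ∀ c ∈ P.KK k, ∀ τ' ∈ P.T k, P.SS k c t1 τ' = 0 ∧ P.SS k c t2 τ' = 0)
    (hH1 : ∀ c ∈ P.KK k, P.PP k c t1 t2 = 0) :
    ∃ (S : Finset M) (tt : M → ι → A) (ww : M → ℕ → A),
      (∀ m ∈ S, m = 0 ∨ m = L.μ₁ ∨ m = L.μ₁ + L.μ₁) ∧
      L.PSol P k 3 t1 t2
        (L.addX (fun v => L.inc (P.ρ v) + L.mono (t1 v) 0 1 + L.mono (t2 v) L.μ₁ 1) S tt 2)
        (L.addg (fun i => 1 + L.mono (P.w i t1) 0 1 + L.mono (P.w i t2) L.μ₁ 1) S ww 2) := by
  classical
  set V1 : ι → R := fun v => L.mono (t1 v) 0 1 with hV1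
  set V2 : ι → R := fun v => L.mono (t2 v) L.μ₁ 1 with hV2
  set X0 : ι → R := fun v => L.inc (P.ρ v) + L.mono (t1 v) 0 1 + L.mono (t2 v) L.μ₁ 1 with hX0
  set g0 : ℕ → R := fun i => 1 + L.mono (P.w i t1) 0 1 + L.mono (P.w i t2) L.μ₁ 1 with hg0
  set ρR : ι → R := fun v => L.inc (P.ρ v) with hρR
  have hρ0 : ∀ v, ρR v ∈ L.Φ.fil 0 := fun v => L.inc_mem _
  -- the expansion
  have hexp : ∀ i < k, L.E P X0 g0 i
      - L.mono (State.d2 P.ρ t1 t1 (P.a i) + P.dL i t1 * P.w i t1) 0 2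
      - L.mono (L.ζ • (State.d2 P.ρ t1 t2 (P.a i) + P.dL i t1 * P.w i t2)
          + (State.d2 P.ρ t2 t1 (P.a i) + P.dL i t2 * P.w i t1)) L.μ₁ 2
      - L.mono (L.ζ • (State.d2 P.ρ t2 t2 (P.a i) + P.dL i t2 * P.w i t2)) (L.μ₁ + L.μ₁) 2
      ∈ L.Φ.fil 3 := by
    intro i hi
    set a := P.a i with ha
    set h1 : R := L.mono (P.w i t1) 0 1 with hh1
    set h2 : R := L.mono (P.w i t2) L.μ₁ 1 with hh2
    have hδm : ∀ v, (V1 + V2) v ∈ L.Φ.fil 1 := fun v =>
      add_mem (L.mono_mem _ _ _) (L.mono_mem _ _ _)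
    have hηm : h1 + h2 ∈ L.Φ.fil 1 := add_mem (L.mono_mem _ _ _) (L.mono_mem _ _ _)
    have hmain := delta_E (F := F) L.Φ L.coef_mem (ρ := ρR) (V := 0) (δ := V1 + V2)
      (h := 0) (η := h1 + h2) (J := 2) le_rfl hρ0 (fun _ => zero_mem _)
      (by simpa using hδm) (zero_mem _) (by simpa using hηm) L.one_mem a
    have e1 : ρR + 0 + (V1 + V2) = X0 := by
      funext v
      simp only [Pi.add_apply, add_zero, hρR, hV1, hV2, hX0]
      abel
    have e2 : (1 : R) + 0 + (h1 + h2) = g0 i := by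
      simp only [add_zero, hh1, hh2, hg0]
      abel
    have hβ : ev ρR a = L.inc (P.β i) := L.ev_inc P.ρ a
    have e3 : ev (ρR + 0) a = L.inc (P.β i) := by rw [add_zero, hβ]
    rw [e1, e2, e3, hβ, add_zero] at hmain
    have hp1 : pd ρR V1 a = L.mono (P.dL i t1) 0 1 := L.pd_mono P.ρ t1 0 1 a
    have hp2 : pd ρR V2 a = L.mono (P.dL i t2) L.μ₁ 1 := L.pd_mono P.ρ t2 L.μ₁ 1 a
    have hfirst1 : P.dL i t1 + (P.β i * P.w i t1 - P.w i t1 * P.β i) = 0 := by
      rw [P.dL_eq_of_mem hi ht1]; abel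
    have hfirst2 : P.dL i t2 + (P.β i * P.w i t2 - P.w i t2 * P.β i) = 0 := by
      rw [P.dL_eq_of_mem hi ht2]; abel
    have hfirst : pd ρR (V1 + V2) a + (L.inc (P.β i) * (h1 + h2) - (h1 + h2) * L.inc (P.β i)) = 0 := by
      rw [pd_dir_add, hp1, hp2, mul_add, add_mul, hh1, hh2, L.inc_mul_mono, L.inc_mul_mono,
        L.mono_mul_inc, L.mono_mul_inc]
      have e4 := congrArg (fun x => L.mono x 0 1) hfirst1
      have e5 := congrArg (fun x => L.mono x L.μ₁ 1) hfirst2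
      simp only [mono_add, mono_sub, mono_zero] at e4 e5
      calc _ = (L.mono (P.dL i t1) 0 1 + (L.mono (P.β i * P.w i t1) 0 1 - L.mono (P.w i t1 * P.β i) 0 1))
            + (L.mono (P.dL i t2) L.μ₁ 1 + (L.mono (P.β i * P.w i t2) L.μ₁ 1 - L.mono (P.w i t2 * P.β i) L.μ₁ 1)) := by
              abel
        _ = 0 := by rw [e4, e5, add_zero]
    have hzero : B ρR 0 (V1 + V2) a + B ρR (V1 + V2) 0 a + pd ρR (V1 + V2) a * 0 + pd ρR 0 a * (h1 + h2) = 0 := by
      rw [B_left_zero, B_right_zero, pd_dir_zero, mul_zero, zero_mul]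
      simp
    rw [hfirst, hzero, zero_add, zero_add] at hmain
    have hB11 : B ρR V1 V1 a = L.mono (State.d2 P.ρ t1 t1 a) 0 2 := by
      have := L.B_mono P.ρ t1 t1 0 1 0 1 a
      simpa using this
    have hB12 : B ρR V1 V2 a = L.ζ • L.mono (State.d2 P.ρ t1 t2 a) L.μ₁ 2 := by
      have := L.B_mono P.ρ t1 t2 0 1 L.μ₁ 1 a
      simpa [L.κ_μ₁] using this
    have hB21 : B ρR V2 V1 a = L.mono (State.d2 P.ρ t2 t1 a) L.μ₁ 2 := by
      have := L.B_mono P.ρ t2 t1 L.μ₁ 1 0 1 a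
      simpa using this
    have hB22 : B ρR V2 V2 a = L.ζ • L.mono (State.d2 P.ρ t2 t2 a) (L.μ₁ + L.μ₁) 2 := by
      have := L.B_mono P.ρ t2 t2 L.μ₁ 1 L.μ₁ 1 a
      simpa [L.κ_μ₁] using this
    have hq11 : pd ρR V1 a * h1 = L.mono (P.dL i t1 * P.w i t1) 0 2 := by
      rw [hp1, hh1, L.mono_mul]; simp
    have hq12 : pd ρR V1 a * h2 = L.ζ • L.mono (P.dL i t1 * P.w i t2) L.μ₁ 2 := by
      rw [hp1, hh2, L.mono_mul]; simp [L.κ_μ₁]
    have hq21 : pd ρR V2 a * h1 = L.mono (P.dL i t2 * P.w i t1) L.μ₁ 2 := by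
      rw [hp2, hh1, L.mono_mul]; simp
    have hq22 : pd ρR V2 a * h2 = L.ζ • L.mono (P.dL i t2 * P.w i t2) (L.μ₁ + L.μ₁) 2 := by
      rw [hp2, hh2, L.mono_mul]
      simp [L.κ_μ₁]
    have hsec : B ρR (V1 + V2) (V1 + V2) a + pd ρR (V1 + V2) a * (h1 + h2)
        = L.mono (State.d2 P.ρ t1 t1 a + P.dL i t1 * P.w i t1) 0 2
          + L.mono (L.ζ • (State.d2 P.ρ t1 t2 a + P.dL i t1 * P.w i t2)
              + (State.d2 P.ρ t2 t1 a + P.dL i t2 * P.w i t1)) L.μ₁ 2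
          + L.mono (L.ζ • (State.d2 P.ρ t2 t2 a + P.dL i t2 * P.w i t2)) (L.μ₁ + L.μ₁) 2 := by
      rw [B_left_add, B_right_add, B_right_add, pd_dir_add, add_mul, mul_add, mul_add, hB11, hB12,
        hB21, hB22, hq11, hq12, hq21, hq22]
      simp only [mono_add, mono_smul, smul_add]
      abel
    rw [hsec] at hmain
    rw [mul_one, one_mul, sub_self, sub_zero] at hmain
    convert hmain using 1
    simp only [E, ← ha]
    abel
  have h2 : L.PSol P k 2 t1 t2 X0 g0 := by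
    refine ⟨fun v => add_mem (add_mem (L.inc_mem_FS _) (L.mono_mem_FS _ _ _)) (L.mono_mem_FS _ _ _),
      fun i => add_mem (add_mem L.FS.one_mem (L.mono_mem_FS _ _ _)) (L.mono_mem_FS _ _ _),
      fun v => by simp [hX0], fun i _ => by simp [hg0], fun i hi => ?_⟩
    have h3 := add_mem (add_mem (add_mem (L.Φ.anti (by omega : 2 ≤ 3) (hexp i hi))
      (L.mono_mem (State.d2 P.ρ t1 t1 (P.a i) + P.dL i t1 * P.w i t1) 0 2))
      (L.mono_mem (L.ζ • (State.d2 P.ρ t1 t2 (P.a i) + P.dL i t1 * P.w i t2)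
          + (State.d2 P.ρ t2 t1 (P.a i) + P.dL i t2 * P.w i t1)) L.μ₁ 2))
      (L.mono_mem (L.ζ • (State.d2 P.ρ t2 t2 (P.a i) + P.dL i t2 * P.w i t2)) (L.μ₁ + L.μ₁) 2)
    convert h3 using 1
    abel
  -- all obstructions vanish at order `2`
  have hO : ∀ m : M, ∀ c ∈ P.KK k, L.Obs P k m 2 X0 g0 c = 0 := by
    intro m c hc
    have hS1 := hS c hc t1 ht1
    have hS2 := hS c hc t2 ht2
    have hcoef : ∀ i ∈ Finset.range k, L.coeff m 2 (L.E P X0 g0 i)
        = (if m = 0 then State.d2 P.ρ t1 t1 (P.a i) + P.dL i t1 * P.w i t1 else 0)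
          + (if m = L.μ₁ then L.ζ • (State.d2 P.ρ t1 t2 (P.a i) + P.dL i t1 * P.w i t2)
              + (State.d2 P.ρ t2 t1 (P.a i) + P.dL i t2 * P.w i t1) else 0)
          + (if m = L.μ₁ + L.μ₁ then L.ζ • (State.d2 P.ρ t2 t2 (P.a i) + P.dL i t2 * P.w i t2) else 0) := by
      intro i hi
      have h3 := L.coeff_fil (n := m) (j := 2) (hexp i (Finset.mem_range.mp hi)) (by omega)
      simp only [map_sub, coeff_mono', and_true] at h3
      rw [sub_sub, sub_sub, sub_eq_zero] at h3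
      rw [add_assoc]
      exact h3
    rw [Obs_apply]
    have hμ₁ : L.μ₁ ≠ 0 := by
      intro h0
      have := L.κ_μ₁
      rw [h0, map_zero] at this
      exact absurd this (by norm_num)
    have hμ₂ : L.μ₁ + L.μ₁ ≠ 0 := by
      intro h0
      have := congrArg L.κ h0
      rw [map_add, map_zero, L.κ_μ₁] at this
      exact absurd this (by norm_num)
    have hμ₃ : (L.μ₁ + L.μ₁ : M) ≠ L.μ₁ := by
      intro h0
      exact hμ₁ (by simpa using h0)
    by_cases m0 : m = 0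
    · subst m0
      have h4 : ∀ i ∈ Finset.range k, P.τ (c i * L.coeff 0 2 (L.E P X0 g0 i))
          = P.τ (c i * (State.d2 P.ρ t1 t1 (P.a i) + P.dL i t1 * P.w i t1)) := by
        intro i hi
        rw [hcoef i hi]
        simp [hμ₁.symm, hμ₂.symm]
      rw [Finset.sum_congr rfl h4]
      have h5 : P.SS k c t1 t1 = 0 := hS1.1
      simp only [State.Pt.SS] at h5
      exact add_self_eq_zero.mp h5
    · by_cases m1 : m = L.μ₁
      · subst m1
        have h4 : ∀ i ∈ Finset.range k, P.τ (c i * L.coeff L.μ₁ 2 (L.E P X0 g0 i))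
            = P.τ (c i * (L.ζ • (State.d2 P.ρ t1 t2 (P.a i) + P.dL i t1 * P.w i t2)
              + (1 : K) • (State.d2 P.ρ t2 t1 (P.a i) + P.dL i t2 * P.w i t1))) := by
          intro i hi
          rw [hcoef i hi]
          simp [hμ₁, hμ₃.symm]
        rw [Finset.sum_congr rfl h4, sum_pair, P.eps_combo, hS2.1, hH1 c hc]
        ring
      · by_cases m2 : m = L.μ₁ + L.μ₁
        · subst m2
          have h4 : ∀ i ∈ Finset.range k, P.τ (c i * L.coeff (L.μ₁ + L.μ₁) 2 (L.E P X0 g0 i))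
              = L.ζ * P.τ (c i * (State.d2 P.ρ t2 t2 (P.a i) + P.dL i t2 * P.w i t2)) := by
            intro i hi
            rw [hcoef i hi, if_neg hμ₂, if_neg hμ₃, if_pos rfl, zero_add,
              zero_add, mul_smul_comm, map_smul, smul_eq_mul]
          rw [Finset.sum_congr rfl h4, ← Finset.mul_sum]
          have h5 : P.SS k c t2 t2 = 0 := hS2.2
          simp only [State.Pt.SS] at h5
          have h6 : P.Gam k c t2 t2 = 0 := add_self_eq_zero.mp h5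
          simp only [State.Pt.Gam] at h6
          rw [h6, mul_zero]
        · refine Finset.sum_eq_zero fun i hi => ?_
          rw [hcoef i hi]
          simp [m0, m1, m2]
  obtain ⟨S, tt, ww, h3, hS3⟩ := h2.solve_all le_rfl hO
  refine ⟨S, tt, ww, fun m hm => ?_, h3⟩
  obtain ⟨i, hi, hne⟩ := hS3 m hm
  by_contra hcon
  simp only [not_or] at hcon
  apply hne
  have h4 := L.coeff_fil (n := m) (j := 2) (hexp i hi) (by omega)
  simp only [map_sub, coeff_mono', and_true] at h4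
  rw [if_neg hcon.1, if_neg hcon.2.1, if_neg hcon.2.2] at h4
  simpa using h4

/-- The limit of a fast Cauchy sequence converges fast. -/
lemma lim_strong {x : ℕ → R} {y : R} {J1 : ℕ} (hx : ∀ m, x (m + 1) - x m ∈ L.Φ.fil (J1 + m))
    (hy : ∀ m, y - x m ∈ L.Φ.fil m) (m : ℕ) : y - x m ∈ L.Φ.fil (J1 + m) := by
  have hd : ∀ d m, x (m + d) - x m ∈ L.Φ.fil (J1 + m) := by
    intro d m
    induction d with
    | zero => simp
    | succ d ih =>
      have := add_mem (L.Φ.anti (by omega : J1 + m ≤ J1 + (m + d)) (hx (m + d))) ih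
      convert this using 1
      rw [← add_assoc]
      abel
  have h2 : J1 + m = m + J1 := add_comm _ _
  convert (add_mem (hy (m + J1)) (by rw [← h2]; exact hd J1 m) : _ ∈ L.Φ.fil (m + J1)) using 1
  · rw [h2]
  · abel

/-- A point solving the equation at all orders solves it exactly. -/
theorem exact_of_PSol (h : ∀ J, L.PSol P k J t1 t2 X g) {i : ℕ} (hi : i < k) :
    ev X (P.a i) * g i = g i * L.inc (P.β i) :=
  sub_eq_zero.mp (L.sep _ fun J => (h J).E_mem i hi)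

/-! ### Monomial tracking -/

/-- The filtration `j ↦ Hf (min j (J-1))`. -/
def Hc (Hf : ℕ → AddSubgroup M) (J : ℕ) : ℕ → AddSubgroup M := fun j => Hf (min j (J - 1))

lemma Hc_mono {Hf : ℕ → AddSubgroup M} (hm : Monotone Hf) (J : ℕ) : Monotone (Hc Hf J) :=
  fun _ _ h => hm (min_le_min_right _ h)

lemma FSf_le (L : Lev M K A R) {Hf Hf' : ℕ → AddSubgroup M} (hm : Monotone Hf) (hm' : Monotone Hf')
    (h : ∀ j, Hf j ≤ Hf' j) : L.FSf Hf hm ≤ L.FSf Hf' hm' := by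
  intro x hx
  rw [L.FSf_iff] at hx ⊢
  exact ⟨hx.1, fun n j hne => h j (hx.2 n j hne)⟩

lemma mono_mem_FSf (L : Lev M K A R) {Hf : ℕ → AddSubgroup M} (hm : Monotone Hf) (x : A) {n : M}
    {j : ℕ} (hn : n ∈ Hf j) : L.mono x n j ∈ L.FSf Hf hm := by
  rw [L.FSf_iff]
  refine ⟨L.mono_mem_FS x n j, fun n' j' hne => ?_⟩
  rw [coeff_mono'] at hne
  by_cases h : n' = n ∧ j' = j
  · rw [h.1, h.2]
    exact hn
  · exact absurd (if_neg h) hne

lemma inc_mem_FSf (L : Lev M K A R) {Hf : ℕ → AddSubgroup M} (hm : Monotone Hf) (x : A) :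
    L.inc x ∈ L.FSf Hf hm := by
  have := L.mono_mem_FSf hm x (n := 0) (j := 0) (zero_mem _)
  simpa [mono, L.mon_zero] using this

lemma coef_mem_FSf (L : Lev M K A R) {Hf : ℕ → AddSubgroup M} (hm : Monotone Hf) (c : F) :
    algebraMap F R c ∈ L.FSf Hf hm := by
  rw [IsScalarTower.algebraMap_apply F K R]
  exact (L.FSf Hf hm).algebraMap_mem _

lemma ev_mem_FSf (L : Lev M K A R) {Hf : ℕ → AddSubgroup M} (hm : Monotone Hf) {X : ι → R}
    (hX : ∀ v, X v ∈ L.FSf Hf hm) (a : FreeAlgebra F ι) : ev X a ∈ L.FSf Hf hm := by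
  induction a using fa_induction with
  | hc c => simpa using L.coef_mem_FSf hm c
  | hι i => simpa using hX i
  | hadd a b ha hb => rw [map_add]; exact add_mem ha hb
  | hmul a b ha hb => rw [map_mul]; exact mul_mem ha hb

lemma E_mem_FSf {Hf : ℕ → AddSubgroup M} (hm : Monotone Hf)
    (hX : ∀ v, X v ∈ L.FSf Hf hm) (hg : ∀ i, g i ∈ L.FSf Hf hm) (i : ℕ) :
    L.E P X g i ∈ L.FSf Hf hm :=
  sub_mem (mul_mem (L.ev_mem_FSf hm hX _) (hg i)) (mul_mem (hg i) (L.inc_mem_FSf hm _))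

lemma coeff_E_mem_Hf {Hf : ℕ → AddSubgroup M} (hm : Monotone Hf)
    (hX : ∀ v, X v ∈ L.FSf Hf hm) (hg : ∀ i, g i ∈ L.FSf Hf hm) {i j : ℕ} {n : M}
    (hne : L.coeff n j (L.E P X g i) ≠ 0) : n ∈ Hf j :=
  ((L.FSf_iff Hf hm _).mp (E_mem_FSf hm hX hg i)).2 n j hne

/-- Nonvanishing obstruction implies nonvanishing coefficient. -/
lemma exists_coeff_of_Obs {m : M} {j : ℕ} {c : ℕ → A} (h : L.Obs P k m j X g c ≠ 0) :
    ∃ i < k, L.coeff m j (L.E P X g i) ≠ 0 := by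
  by_contra hcon
  apply h
  refine Obs_eq_zero_of_coeff (fun i hi => ?_) c
  by_contra hne
  exact hcon ⟨i, hi, hne⟩

lemma sum_mono_mem_FSf {Hf : ℕ → AddSubgroup M} (hm : Monotone Hf) (s : Finset M) (f : M → A)
    {J : ℕ} (h : ∀ m ∈ s, m ∈ Hf J) : ∑ m ∈ s, L.mono (f m) m J ∈ L.FSf Hf hm :=
  sum_mem fun m hm' => L.mono_mem_FSf hm _ (h m hm')

lemma PSol.pp_apply_of_FS {x : R} (hx : x ∈ L.FS) : x ∈ L.Φ.fil 0 := ((L.FS_iff x).mp hx).1

/-- **The limit of the passes, with prescribed moves and monomial tracking.**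
`(X0,g0)` is a partial solution of order `J1 + 1`. `y j` are prescribed moves of order `j ≥ J1`
(finitely many monomials at each order, values in `T`), with no effect on the obstruction
(`hyfree`: this holds for chains built from `allowed` vectors, see `chain_effect_free`).
If the obstruction vanishes on `II` and, for central monomials, on `𝕂`, for all partial solutions
extending `(X0,g0)`, then `(X0,g0)` extends to an exact solution `(X,g)`.
Tracking: `Hf` is an increasing family of subgroups of monomials with `μ₁ ∈ Hf 1`, `y j` is supported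
in `Hf j`, and `X0,g0` have monomials in `Hf (min j (J1 - 1))` at order `j`. Then `X,g` have monomials
in `Hf j` at order `j`, and at order `j ≥ J1` the coefficient of `X` at a monomial outside
`Hf (j - 1)` is the prescribed one. -/
theorem exists_limit_presc [CharZero K] {J1 : ℕ} (hJ1 : 2 ≤ J1) {X0 : ι → R} {g0 : ℕ → R}
    (h0 : L.PSol P k (J1 + 1) t1 t2 X0 g0) (II : Submodule K (ℕ → A))
    (hS : ∀ c ∈ P.KK k, ∀ τ' ∈ P.T k, P.SS k c t1 τ' = 0 ∧ P.SS k c t2 τ' = 0)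
    (hH2 : ∀ φ₁ φ₂ : (ℕ → A) →ₗ[K] K, (∀ c ∈ II, φ₁ c = 0) → (∀ c ∈ II, φ₂ c = 0) →
      ∃ τ' ∈ P.T k, ∀ c ∈ P.KK k, P.PP k c t1 τ' = φ₁ c ∧ P.PP k c t2 τ' = φ₂ c)
    (y : ℕ → M → ι → A) (hyfin : ∀ j, {m : M | y j m ≠ 0}.Finite) (hyT : ∀ j m, y j m ∈ P.T k)
    (hyfree : ∀ j, J1 ≤ j → ∀ c ∈ P.KK k, ∀ m : M,
      (L.ζ ^ L.κ m - 1) * P.PP k c t1 (y j m)
        + (L.ζ ^ L.κ (m - L.μ₁) - L.ζ ^ (j : ℤ)) * P.PP k c t2 (y j (m - L.μ₁)) = 0)
    (Hf : ℕ → AddSubgroup M) (hHf : Monotone Hf) (hμ : L.μ₁ ∈ Hf 1)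
    (hyHf : ∀ j m, y j m ≠ 0 → m ∈ Hf j)
    (hX0 : ∀ v, X0 v ∈ L.FSf (Hc Hf J1) (Hc_mono hHf J1))
    (hg0 : ∀ i, g0 i ∈ L.FSf (Hc Hf J1) (Hc_mono hHf J1))
    (hVan : ∀ J, J1 ≤ J → ∀ (X : ι → R) (g : ℕ → R), L.PSol P k (J + 1) t1 t2 X g →
      (∀ v, X v - X0 v ∈ L.Φ.fil J1) → (∀ i, g i - g0 i ∈ L.Φ.fil J1) →
      (∀ m : M, ∀ c ∈ II, L.Obs P k m (J + 1) X g c = 0) ∧
      (∀ m : M, L.ζ ^ L.κ m = 1 → L.ζ ^ ((J : ℤ) + 1) = 1 → ∀ c ∈ P.KK k,
        L.Obs P k m (J + 1) X g c = 0)) :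
    ∃ (X : ι → R) (g : ℕ → R), (∀ J, L.PSol P k J t1 t2 X g) ∧
      (∀ v, X v - X0 v ∈ L.Φ.fil J1) ∧ (∀ i, g i - g0 i ∈ L.Φ.fil J1) ∧
      (∀ v, X v ∈ L.FSf Hf hHf) ∧ (∀ i, g i ∈ L.FSf Hf hHf) ∧
      (∀ j, J1 ≤ j → ∀ μ, μ ∉ Hf (j - 1) → ∀ v, L.coeff μ j (X v) = y j μ v) ∧
      (∀ j, J1 ≤ j → ∀ μ, μ ∉ Hf (j - 1) → ∀ i, L.coeff μ j (g i) = P.w i (y j μ)) := by
  classical
  let Good : ℕ → (ι → R) × (ℕ → R) → Prop := fun n p =>
    L.PSol P k (J1 + n + 1) t1 t2 p.1 p.2 ∧ (∀ v, p.1 v - X0 v ∈ L.Φ.fil J1) ∧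
      (∀ i, p.2 i - g0 i ∈ L.Φ.fil J1) ∧
      (∀ v, p.1 v ∈ L.FSf (Hc Hf (J1 + n)) (Hc_mono hHf (J1 + n))) ∧
      (∀ i, p.2 i ∈ L.FSf (Hc Hf (J1 + n)) (Hc_mono hHf (J1 + n)))
  have step : ∀ n p, Good n p → ∃ p', Good (n + 1) p' ∧ (∀ v, p'.1 v - p.1 v ∈ L.Φ.fil (J1 + n)) ∧
      (∀ i, p'.2 i - p.2 i ∈ L.Φ.fil (J1 + n)) ∧
      (∀ μ, μ ∉ Hf (J1 + n - 1) → ∀ v, L.coeff μ (J1 + n) (p'.1 v) = y (J1 + n) μ v) ∧
      (∀ μ, μ ∉ Hf (J1 + n - 1) → ∀ i, L.coeff μ (J1 + n) (p'.2 i) = P.w i (y (J1 + n) μ)) := by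
    rintro n ⟨X, g⟩ ⟨hp, hX, hg, hXf, hgf⟩
    set J := J1 + n with hJdef
    have hJ2 : 2 ≤ J := by omega
    simp only at hp hX hg hXf hgf
    -- the prescribed moves
    set s : Finset M := (hyfin J).toFinset with hs
    have hsmem : ∀ m, m ∈ s ↔ y J m ≠ 0 := fun m => by simp [hs]
    set Xd := L.addX X s (y J) J with hXd
    set gd := L.addg g s (fun m i => P.w i (y J m)) J with hgd
    have hd : L.PSol P k (J + 1) t1 t2 Xd gd := hp.addT hJ2 (y J) (hyT J) s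
    have hObsd : ∀ m, ∀ c ∈ P.KK k, L.Obs P k m (J + 1) Xd gd c = L.Obs P k m (J + 1) X g c := by
      intro m c hc
      rw [hXd, hgd, hp.Obs_addT hJ2 (y J) (hyT J) hS s hc m]
      have e1 : (if m ∈ s then 2⁻¹ * (L.ζ ^ L.κ m - 1) * P.PP k c t1 (y J m) else 0)
          = 2⁻¹ * ((L.ζ ^ L.κ m - 1) * P.PP k c t1 (y J m)) := by
        by_cases hm : m ∈ s
        · rw [if_pos hm]; ring
        · have : y J m = 0 := by
            by_contra h
            exact hm ((hsmem m).mpr h)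
          rw [if_neg hm, this, PP_zero_right]
          ring
      have e2 : (if m - L.μ₁ ∈ s then 2⁻¹ * (L.ζ ^ L.κ (m - L.μ₁) - L.ζ ^ (J : ℤ))
            * P.PP k c t2 (y J (m - L.μ₁)) else 0)
          = 2⁻¹ * ((L.ζ ^ L.κ (m - L.μ₁) - L.ζ ^ (J : ℤ)) * P.PP k c t2 (y J (m - L.μ₁))) := by
        by_cases hm : m - L.μ₁ ∈ s
        · rw [if_pos hm]; ring
        · have : y J (m - L.μ₁) = 0 := by
            by_contra h
            exact hm ((hsmem _).mpr h)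
          rw [if_neg hm, this, PP_zero_right]
          ring
      rw [e1, e2, add_assoc, ← mul_add, hyfree J (by omega) c hc m, mul_zero, add_zero]
    have hXdX : ∀ v, Xd v - X v ∈ L.Φ.fil J := by
      intro v
      have : Xd v - X v = ∑ m ∈ s, L.mono (y J m v) m J := by
        simp [hXd, addX]
      rw [this]
      exact L.sum_mono_mem _ _ _
    have hgdg : ∀ i, gd i - g i ∈ L.Φ.fil J := by
      intro i
      have : gd i - g i = ∑ m ∈ s, L.mono (P.w i (y J m)) m J := by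
        simp [hgd, addg]
      rw [this]
      exact L.sum_mono_mem _ _ _
    have hclose : ∀ v, Xd v - X0 v ∈ L.Φ.fil J1 := by
      intro v
      have := add_mem (L.Φ.anti (by omega : J1 ≤ J) (hXdX v)) (hX v)
      convert this using 1
      abel
    have hcloseg : ∀ i, gd i - g0 i ∈ L.Φ.fil J1 := by
      intro i
      have := add_mem (L.Φ.anti (by omega : J1 ≤ J) (hgdg i)) (hg i)
      convert this using 1
      abel
    obtain ⟨hI, hC⟩ := hVan J (by omega) Xd gd hd hclose hcloseg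
    -- the moves and the solution
    obtain ⟨u, τ, hτ, hu, hO⟩ := hd.moves_solving hJ2 II (P.KK k) le_rfl hS hH2 hI hC
    set X1 := L.addX Xd u τ J with hX1
    set g1 := L.addg gd u (fun m i => P.w i (τ m)) J with hg1
    have h1 : L.PSol P k (J + 1) t1 t2 X1 g1 := hd.addT hJ2 τ hτ u
    obtain ⟨S, tt, ww, h2, hS2⟩ := h1.solve_all (by omega) hO
    -- tracking
    have hHc1 : ∀ j, Hc Hf J j ≤ Hc Hf (J + 1) j := fun j => hHf (by
      simp only [Nat.add_sub_cancel]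
      omega)
    have hmemJ : Hf (J - 1) ≤ Hf J := hHf (by omega)
    have hμJ : L.μ₁ ∈ Hf (J - 1) := hHf (by omega : 1 ≤ J - 1) hμ
    have huHf : ∀ m ∈ u, m ∈ Hf (J - 1) := by
      intro m hm
      have hmin : min (J + 1) (J - 1) = J - 1 := by omega
      rcases hu m hm with ⟨c, hc, hne⟩ | ⟨c, hc, hne⟩
      · rw [hObsd m c hc] at hne
        obtain ⟨i, _, hne'⟩ := exists_coeff_of_Obs hne
        have := coeff_E_mem_Hf (P := P) (Hc_mono hHf J) hXf hgf hne'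
        simpa only [Hc, hmin] using this
      · rw [hObsd _ c hc] at hne
        obtain ⟨i, _, hne'⟩ := exists_coeff_of_Obs hne
        have := coeff_E_mem_Hf (P := P) (Hc_mono hHf J) hXf hgf hne'
        have h3 : m + L.μ₁ ∈ Hf (J - 1) := by simpa only [Hc, hmin] using this
        have h4 := sub_mem h3 hμJ
        simpa using h4
    have hHcJ : ∀ m, m ∈ Hf J → m ∈ Hc Hf (J + 1) J := by
      intro m hm
      simpa [Hc] using hm
    have hsHf : ∀ m ∈ s, m ∈ Hc Hf (J + 1) J := fun m hm =>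
      hHcJ m (hyHf J m ((hsmem m).mp hm))
    have huHf' : ∀ m ∈ u, m ∈ Hc Hf (J + 1) J := fun m hm => hHcJ m (hmemJ (huHf m hm))
    have hX1f : ∀ v, X1 v ∈ L.FSf (Hc Hf (J + 1)) (Hc_mono hHf (J + 1)) := by
      intro v
      refine add_mem (add_mem ?_ ?_) ?_
      · exact FSf_le L _ _ hHc1 (hXf v)
      · exact sum_mono_mem_FSf _ _ _ hsHf
      · exact sum_mono_mem_FSf _ _ _ huHf'
    have hg1f : ∀ i, g1 i ∈ L.FSf (Hc Hf (J + 1)) (Hc_mono hHf (J + 1)) := by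
      intro i
      refine add_mem (add_mem ?_ ?_) ?_
      · exact FSf_le L _ _ hHc1 (hgf i)
      · exact sum_mono_mem_FSf _ _ _ hsHf
      · exact sum_mono_mem_FSf _ _ _ huHf'
    have hSHf : ∀ m ∈ S, m ∈ Hc Hf (J + 1) (J + 1) := by
      intro m hm
      obtain ⟨i, _, hne⟩ := hS2 m hm
      exact coeff_E_mem_Hf (P := P) (Hc_mono hHf (J + 1)) hX1f hg1f hne
    refine ⟨(L.addX X1 S tt (J + 1), L.addg g1 S ww (J + 1)),
      ⟨?_, fun v => ?_, fun i => ?_, fun v => ?_, fun i => ?_⟩, fun v => ?_, fun i => ?_,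
      fun μ hμ' v => ?_, fun μ hμ' i => ?_⟩
    · exact h2
    · have h3 := add_mem (add_mem (L.Φ.anti (by omega : J1 ≤ J + 1) (L.sum_mono_mem S (fun m => tt m v) (J + 1)))
        (L.Φ.anti (by omega : J1 ≤ J) (L.sum_mono_mem u (fun m => τ m v) J))) (hclose v)
      convert h3 using 1
      simp only [addX, hX1]
      abel
    · have h3 := add_mem (add_mem (L.Φ.anti (by omega : J1 ≤ J + 1) (L.sum_mono_mem S (fun m => ww m i) (J + 1)))
        (L.Φ.anti (by omega : J1 ≤ J) (L.sum_mono_mem u (fun m => P.w i (τ m)) J))) (hcloseg i)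
      convert h3 using 1
      simp only [addg, hg1]
      abel
    · exact add_mem (hX1f v) (sum_mono_mem_FSf _ _ _ hSHf)
    · exact add_mem (hg1f i) (sum_mono_mem_FSf _ _ _ hSHf)
    · have h3 := add_mem (add_mem (L.Φ.anti (by omega : J ≤ J + 1) (L.sum_mono_mem S (fun m => tt m v) (J + 1)))
        (L.sum_mono_mem u (fun m => τ m v) J)) (hXdX v)
      convert h3 using 1
      simp only [addX, hX1]
      abel
    · have h3 := add_mem (add_mem (L.Φ.anti (by omega : J ≤ J + 1) (L.sum_mono_mem S (fun m => ww m i) (J + 1)))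
        (L.sum_mono_mem u (fun m => P.w i (τ m)) J)) (hgdg i)
      convert h3 using 1
      simp only [addg, hg1]
      abel
    · -- the prescribed coefficient
      have hμu : μ ∉ u := fun h => hμ' (huHf μ h)
      have hcoefX : L.coeff μ J (X v) = 0 := by
        by_contra hne
        have := ((L.FSf_iff _ _ _).mp (hXf v)).2 μ J hne
        have hmin : min J (J - 1) = J - 1 := by omega
        exact hμ' (by simpa only [Hc, hmin] using this)
      simp only [addX, hX1, hXd, map_add, hcoefX, L.coeff_sum_mono, if_neg hμu, zero_add, add_zero,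
        L.coeff_sum_mono_of_ne _ _ μ (by omega : J ≠ J + 1)]
      by_cases hμs : μ ∈ s
      · rw [if_pos hμs]
      · rw [if_neg hμs]
        have : y J μ = 0 := by
          by_contra h
          exact hμs ((hsmem μ).mpr h)
        rw [this]
        rfl
    · have hμu : μ ∉ u := fun h => hμ' (huHf μ h)
      have hcoefg : L.coeff μ J (g i) = 0 := by
        by_contra hne
        have := ((L.FSf_iff _ _ _).mp (hgf i)).2 μ J hne
        have hmin : min J (J - 1) = J - 1 := by omega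
        exact hμ' (by simpa only [Hc, hmin] using this)
      simp only [addg, hg1, hgd, map_add, hcoefg, L.coeff_sum_mono, if_neg hμu, zero_add, add_zero,
        L.coeff_sum_mono_of_ne _ _ μ (by omega : J ≠ J + 1)]
      by_cases hμs : μ ∈ s
      · rw [if_pos hμs]
      · rw [if_neg hμs]
        have : y J μ = 0 := by
          by_contra h
          exact hμs ((hsmem μ).mpr h)
        rw [this, map_zero]
  choose! f hf using step
  let seq : ℕ → (ι → R) × (ℕ → R) := fun n => Nat.rec (X0, g0) (fun n p => f n p) n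
  have hseq : ∀ n, Good n (seq n) := by
    intro n
    induction n with
    | zero => exact ⟨h0, fun v => by simp [seq], fun i => by simp [seq], hX0, hg0⟩
    | succ n ih => exact (hf n (seq n) ih).1
  have hdX : ∀ v n, (seq (n + 1)).1 v - (seq n).1 v ∈ L.Φ.fil (J1 + n) := fun v n =>
    (hf n (seq n) (hseq n)).2.1 v
  have hdg : ∀ i n, (seq (n + 1)).2 i - (seq n).2 i ∈ L.Φ.fil (J1 + n) := fun i n =>
    (hf n (seq n) (hseq n)).2.2.1 i
  have hXlim : ∀ v, ∃ y, ∀ m, y - (seq m).1 v ∈ L.Φ.fil m := fun v =>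
    L.lim _ fun m => L.Φ.anti (by omega : m ≤ J1 + m) (hdX v m)
  have hglim : ∀ i, ∃ y, ∀ m, y - (seq m).2 i ∈ L.Φ.fil m := fun i =>
    L.lim _ fun m => L.Φ.anti (by omega : m ≤ J1 + m) (hdg i m)
  choose X hX using hXlim
  choose g hg using hglim
  have hX' : ∀ v m, X v - (seq m).1 v ∈ L.Φ.fil (J1 + m) := fun v m =>
    lim_strong (hdX v) (hX v) m
  have hg' : ∀ i m, g i - (seq m).2 i ∈ L.Φ.fil (J1 + m) := fun i m =>
    lim_strong (hdg i) (hg i) m
  have hX0' : ∀ v, X v - X0 v ∈ L.Φ.fil J1 := fun v => by simpa [seq] using hX' v 0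
  have hg0' : ∀ i, g i - g0 i ∈ L.Φ.fil J1 := fun i => by simpa [seq] using hg' i 0
  -- membership in `FS`
  have hFS : ∀ (y : R) (x : ℕ → R), (∀ m, x m ∈ L.FS) → (∀ m, y - x m ∈ L.Φ.fil (J1 + m)) →
      y ∈ L.FS := by
    intro y x hx hyx
    rw [L.FS_iff]
    constructor
    · have := add_mem (L.fil_le_zero _ (hyx 0)) ((L.FS_iff _).mp (hx 0)).1
      convert this using 1
      abel
    · intro j
      refine (((L.FS_iff _).mp (hx j)).2 j).subset fun n hn => ?_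
      have h1 := L.coeff_fil (n := n) (j := j) (hyx j) (by omega)
      rw [map_sub, sub_eq_zero] at h1
      have hn' : L.coeff n j y ≠ 0 := hn
      rw [h1] at hn'
      exact hn'
  -- coefficients of the limit
  have hcoefX : ∀ v n j, j < J1 + n → ∀ μ, L.coeff μ j (X v) = L.coeff μ j ((seq n).1 v) := by
    intro v n j hj μ
    have h1 := L.coeff_fil (n := μ) (j := j) (hX' v n) hj
    rwa [map_sub, sub_eq_zero] at h1
  have hcoefg : ∀ i n j, j < J1 + n → ∀ μ, L.coeff μ j (g i) = L.coeff μ j ((seq n).2 i) := by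
    intro i n j hj μ
    have h1 := L.coeff_fil (n := μ) (j := j) (hg' i n) hj
    rwa [map_sub, sub_eq_zero] at h1
  have hFSf : ∀ (y : R) (x : ℕ → R), (∀ m, x m ∈ L.FSf (Hc Hf (J1 + m)) (Hc_mono hHf (J1 + m))) →
      (∀ m, y - x m ∈ L.Φ.fil (J1 + m)) → y ∈ L.FSf Hf hHf := by
    intro y x hx hyx
    rw [L.FSf_iff]
    refine ⟨hFS y x (fun m => ((L.FSf_iff _ _ _).mp (hx m)).1) hyx, fun n j hne => ?_⟩
    have h1 := L.coeff_fil (n := n) (j := j) (hyx j) (by omega)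
    rw [map_sub, sub_eq_zero] at h1
    rw [h1] at hne
    have h2 := ((L.FSf_iff _ _ _).mp (hx j)).2 n j hne
    have hmin : min j (J1 + j - 1) = j := by omega
    simpa only [Hc, hmin] using h2
  refine ⟨X, g, fun J => ⟨fun v => hFS _ (fun m => (seq m).1 v) (fun m => (hseq m).1.fsX v) (hX' v),
    fun i => hFS _ (fun m => (seq m).2 i) (fun m => (hseq m).1.fsg i) (hg' i), fun v => ?_,
    fun i hi => ?_, fun i hi => ?_⟩, hX0', hg0',
    fun v => hFSf _ (fun m => (seq m).1 v) (fun m => (hseq m).2.2.2.1 v) (hX' v),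
    fun i => hFSf _ (fun m => (seq m).2 i) (fun m => (hseq m).2.2.2.2 i) (hg' i), ?_, ?_⟩
  · have := add_mem (L.Φ.anti hJ1 (hX0' v)) (h0.leadX v)
    convert this using 1
    abel
  · have := add_mem (L.Φ.anti hJ1 (hg0' i)) (h0.leadg i hi)
    convert this using 1
    abel
  · -- the equation
    set N := J1 + J with hN
    have hm := (hseq J).1
    have hX1 : ∀ v, (seq J).1 v - L.inc (P.ρ v) ∈ L.Φ.fil 1 := by
      intro v
      have := add_mem (add_mem (L.Φ.anti (by omega : 1 ≤ 2) (hm.leadX v))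
        (L.mono_mem (t1 v) 0 1)) (L.mono_mem (t2 v) L.μ₁ 1)
      convert this using 1
      abel
    have hg1 : (seq J).2 i - 1 ∈ L.Φ.fil 1 := by
      have := add_mem (add_mem (L.Φ.anti (by omega : 1 ≤ 2) (hm.leadg i hi))
        (L.mono_mem (P.w i t1) 0 1)) (L.mono_mem (P.w i t2) L.μ₁ 1)
      convert this using 1
      abel
    have h1 := E_first_order (L := L) (ρ := P.ρ) (a := P.a i) (J := N) (by omega) hX1 hg1
      (fun v => hX' v J) (hg' i J)
    have h2 : pd (fun v => L.inc (P.ρ v)) (X - (seq J).1) (P.a i) ∈ L.Φ.fil N :=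
      pd_mem (F := F) L.Φ L.coef_mem (fun v => L.inc_mem _) (fun v => hX' v J) _
    have h3 : L.inc (ev P.ρ (P.a i)) * (g i - (seq J).2 i) ∈ L.Φ.fil N := by
      have := L.Φ.mul_mem (L.inc_mem (ev P.ρ (P.a i))) (hg' i J)
      rwa [zero_add] at this
    have h4 : (g i - (seq J).2 i) * L.inc (ev P.ρ (P.a i)) ∈ L.Φ.fil N := by
      have := L.Φ.mul_mem (hg' i J) (L.inc_mem (ev P.ρ (P.a i)))
      rwa [add_zero] at this
    have h5 : L.E P (seq J).1 (seq J).2 i ∈ L.Φ.fil N :=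
      L.Φ.anti (by omega) (hm.E_mem i hi)
    have h6 := add_mem (add_mem (add_mem (L.Φ.anti (Nat.le_succ N) h1) h2) (sub_mem h3 h4)) h5
    refine L.Φ.anti (by omega : J ≤ N) ?_
    convert h6 using 1
    simp only [E]
    have h7 : ev P.ρ (P.a i) = P.β i := rfl
    rw [h7]
    abel
  · intro j hj μ hμ' v
    obtain ⟨n, rfl⟩ := Nat.exists_eq_add_of_le hj
    rw [hcoefX v (n + 1) (J1 + n) (by omega) μ]
    exact (hf n (seq n) (hseq n)).2.2.2.1 μ hμ' v
  · intro j hj μ hμ' i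
    obtain ⟨n, rfl⟩ := Nat.exists_eq_add_of_le hj
    rw [hcoefg i (n + 1) (J1 + n) (by omega) μ]
    exact (hf n (seq n) (hseq n)).2.2.2.2 μ hμ' i

/-- **The limit of the passes** without prescribed moves. -/
theorem exists_limit [CharZero K] {J1 : ℕ} (hJ1 : 2 ≤ J1) {X0 : ι → R} {g0 : ℕ → R}
    (h0 : L.PSol P k (J1 + 1) t1 t2 X0 g0) (II : Submodule K (ℕ → A))
    (hS : ∀ c ∈ P.KK k, ∀ τ' ∈ P.T k, P.SS k c t1 τ' = 0 ∧ P.SS k c t2 τ' = 0)
    (hH2 : ∀ φ₁ φ₂ : (ℕ → A) →ₗ[K] K, (∀ c ∈ II, φ₁ c = 0) → (∀ c ∈ II, φ₂ c = 0) →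
      ∃ τ' ∈ P.T k, ∀ c ∈ P.KK k, P.PP k c t1 τ' = φ₁ c ∧ P.PP k c t2 τ' = φ₂ c)
    (hVan : ∀ J, J1 ≤ J → ∀ (X : ι → R) (g : ℕ → R), L.PSol P k (J + 1) t1 t2 X g →
      (∀ v, X v - X0 v ∈ L.Φ.fil J1) → (∀ i, g i - g0 i ∈ L.Φ.fil J1) →
      (∀ m : M, ∀ c ∈ II, L.Obs P k m (J + 1) X g c = 0) ∧
      (∀ m : M, L.ζ ^ L.κ m = 1 → L.ζ ^ ((J : ℤ) + 1) = 1 → ∀ c ∈ P.KK k,
        L.Obs P k m (J + 1) X g c = 0)) :
    ∃ (X : ι → R) (g : ℕ → R), (∀ J, L.PSol P k J t1 t2 X g) ∧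
      (∀ v, X v - X0 v ∈ L.Φ.fil J1) ∧ (∀ i, g i - g0 i ∈ L.Φ.fil J1) := by
  have hfs : ∀ x ∈ L.FS, x ∈ L.FSf (Hc (fun _ => ⊤) J1) (Hc_mono (fun _ _ _ => le_rfl) J1) := by
    intro x hx
    rw [L.FSf_iff]
    exact ⟨hx, fun _ _ _ => trivial⟩
  obtain ⟨X, g, h1, h2, h3, -⟩ := exists_limit_presc hJ1 h0 II hS hH2 (fun _ _ => 0)
    (fun _ => by simp) (fun _ _ => zero_mem _)
    (fun j _ c _ m => by simp [PP_zero_right]) (fun _ => ⊤) (fun _ _ _ => le_rfl) trivial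
    (fun _ _ h => absurd rfl h) (fun v => hfs _ (h0.fsX v)) (fun i => hfs _ (h0.fsg i)) hVan
  exact ⟨X, g, h1, h2, h3⟩

/-! ### Chains: from `allowed` vectors to effect-free prescribed moves -/

/-- A vector `τ ∈ T` is `allowed` at the monomial `μ` (order `j`) if the moves at `μ` have no effect
through the first vector, and no effect through the second one when the monomial `μ + μ₁` is central
in `s`. -/
def Allowed (L : Lev M K A R) (P : State.Pt F K A ι) (k j : ℕ) (t1 t2 : ι → A) (μ : M)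
    (τ : ι → A) : Prop :=
  τ ∈ P.T k ∧ (L.ζ ^ L.κ μ ≠ 1 → ∀ c ∈ P.KK k, P.PP k c t1 τ = 0) ∧
    (L.ζ ^ L.κ (μ + L.μ₁) = 1 → L.ζ ^ L.κ μ ≠ L.ζ ^ (j : ℤ) → ∀ c ∈ P.KK k, P.PP k c t2 τ = 0)

/-- The chain of an allowed vector: `τ` at `μ`, and a correction `τ'` at `μ + μ₁`, make an effect-free
prescribed move of order `j`. -/
theorem chain_effect_free (II : Submodule K (ℕ → A))
    (hH2 : ∀ φ₁ φ₂ : (ℕ → A) →ₗ[K] K, (∀ c ∈ II, φ₁ c = 0) → (∀ c ∈ II, φ₂ c = 0) →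
      ∃ τ' ∈ P.T k, ∀ c ∈ P.KK k, P.PP k c t1 τ' = φ₁ c ∧ P.PP k c t2 τ' = φ₂ c)
    {j : ℕ} {μ : M} {τ : ι → A} (hτ : L.Allowed P k j t1 t2 μ τ)
    (ψ : (ℕ → A) →ₗ[K] K) (hψ : ∀ c ∈ P.KK k, P.PP k c t2 τ = ψ c) (hψI : ∀ c ∈ II, ψ c = 0) :
    ∃ τ' ∈ P.T k, ∀ c ∈ P.KK k, ∀ m : M,
      (L.ζ ^ L.κ m - 1) * P.PP k c t1 (if m = μ then τ else if m = μ + L.μ₁ then τ' else 0)
        + (L.ζ ^ L.κ (m - L.μ₁) - L.ζ ^ (j : ℤ)) * P.PP k c t2
            (if m - L.μ₁ = μ then τ else if m - L.μ₁ = μ + L.μ₁ then τ' else 0) = 0 := by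
  classical
  obtain ⟨hτT, hτ1, hτ2⟩ := hτ
  -- the correction
  have hμ₁ : L.μ₁ ≠ 0 := by
    intro h0
    have := L.κ_μ₁
    rw [h0, map_zero] at this
    exact absurd this (by norm_num)
  set a : K := L.ζ ^ L.κ (μ + L.μ₁) - 1 with ha
  set b : K := L.ζ ^ L.κ μ - L.ζ ^ (j : ℤ) with hb
  obtain ⟨τ', hτ'T, hτ'⟩ := hH2 ((- (a⁻¹ * b)) • ψ) 0
    (fun c hc => by simp [hψI c hc]) (fun c _ => by simp)
  refine ⟨τ', hτ'T, fun c hc m => ?_⟩
  have hτ'1 := (hτ' c hc).1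
  have hτ'2 := (hτ' c hc).2
  simp only [LinearMap.smul_apply, smul_eq_mul, LinearMap.zero_apply] at hτ'1 hτ'2
  by_cases hm : m = μ
  · subst hm
    have h3 : m - L.μ₁ ≠ m := fun h => hμ₁ (by simpa using h)
    have h4 : m - L.μ₁ ≠ m + L.μ₁ := by
      intro h
      have := congrArg L.κ h
      rw [map_sub, map_add, L.κ_μ₁] at this
      omega
    rw [if_pos rfl, if_neg h3, if_neg h4, PP_zero_right, mul_zero, add_zero]
    by_cases hz : L.ζ ^ L.κ m = 1
    · rw [hz, sub_self, zero_mul]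
    · rw [hτ1 hz c hc, mul_zero]
  · by_cases hm1 : m = μ + L.μ₁
    · subst hm1
      have h6 : μ + L.μ₁ - L.μ₁ = μ := by abel
      rw [if_neg hm, if_pos rfl, h6, if_pos rfl, hτ'1, hψ c hc]
      by_cases ha0 : a = 0
      · have hz : L.ζ ^ L.κ (μ + L.μ₁) = 1 := sub_eq_zero.mp ha0
        by_cases hb0 : b = 0
        · have e : L.ζ ^ L.κ μ - L.ζ ^ (j : ℤ) = 0 := hb0
          rw [← ha, e]
          simp [ha0]
        · have hne : L.ζ ^ L.κ μ ≠ L.ζ ^ (j : ℤ) := fun h => hb0 (sub_eq_zero.mpr h)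
          rw [← hψ c hc, hτ2 hz hne c hc]
          simp [ha0]
      · rw [← ha, ← hb]
        field_simp
        ring
    · have h7 : m - L.μ₁ ≠ μ := fun h => hm1 (by rw [← h]; abel)
      by_cases hm2 : m - L.μ₁ = μ + L.μ₁
      · rw [if_neg hm, if_neg hm1, PP_zero_right, mul_zero, zero_add, if_neg h7, if_pos hm2, hτ'2,
          mul_zero]
      · rw [if_neg hm, if_neg hm1, if_neg h7, if_neg hm2, PP_zero_right, PP_zero_right, mul_zero,
          mul_zero, add_zero]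

/-! ### First errors -/

/-- If the first `l` equations are exact, the obstruction of the prefix `l+1` sees only the error of
the `l`-th equation. -/
theorem Obs_eq_of_exact {l j : ℕ} (hex : ∀ i < l, L.E P X g i = 0) (n : M) (c : ℕ → A) :
    L.Obs P (l + 1) n j X g c = P.τ (c l * L.coeff n j (L.E P X g l)) := by
  rw [Obs_apply, Finset.sum_range_succ, Finset.sum_eq_zero, zero_add]
  intro i hi
  rw [hex i (Finset.mem_range.mp hi), map_zero, mul_zero, map_zero]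

/-- **F5.** A partial solution `(X,g)` of order `j` for the prefix `l + 1`, and `(X',g')` exact for
the prefix `l`, agreeing with `(X,g)` up to order `j`: the obstruction of `(X,g)` is the pairing of
`c_l` with the first error of `(X',g')` in the `l`-th equation. -/
theorem Obs_eq_first_error {l j : ℕ} (hj : 1 ≤ j) {X' : ι → R} {g' : ℕ → R} {c : ℕ → A}
    (hc : c ∈ P.KK (l + 1))
    (hX : ∀ v, X v - L.inc (P.ρ v) ∈ L.Φ.fil 1) (hg : ∀ i < l + 1, g i - 1 ∈ L.Φ.fil 1)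
    (hX' : ∀ v, X' v - X v ∈ L.Φ.fil j) (hg' : ∀ i < l + 1, g' i - g i ∈ L.Φ.fil j)
    (hex : ∀ i < l, L.E P X' g' i = 0) (n : M) :
    L.Obs P (l + 1) n j X g c = P.τ (c l * L.coeff n j (L.E P X' g' l)) := by
  rw [← Obs_invariant hj hc hX hg hX' hg' n, Obs_eq_of_exact hex]

/-- The frame: modifying `g_i` at order `j` one can arrange that the error at order `j` lies in the
centraliser of `β_i`; its coefficients are the projections of the old ones. -/
theorem exists_frame {i j : ℕ} (hj : 1 ≤ j) {g1 : R} (hfs : g1 ∈ L.FS)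
    (hX : ∀ v, X v ∈ L.FS) (hX1 : ∀ v, X v - L.inc (P.ρ v) ∈ L.Φ.fil 1) (hg1 : g1 - 1 ∈ L.Φ.fil 1)
    (hE : ev X (P.a i) * g1 - g1 * L.inc (P.β i) ∈ L.Φ.fil j) :
    ∃ g2 : R, g2 ∈ L.FS ∧ g2 - g1 ∈ L.Φ.fil j ∧
      ev X (P.a i) * g2 - g2 * L.inc (P.β i) ∈ L.Φ.fil j ∧
      ∀ n : M, L.coeff n j (ev X (P.a i) * g2 - g2 * L.inc (P.β i))
        = P.e i (L.coeff n j (ev X (P.a i) * g1 - g1 * L.inc (P.β i))) := by
  classical
  set E1 := ev X (P.a i) * g1 - g1 * L.inc (P.β i) with hE1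
  have hE1FS : E1 ∈ L.FS :=
    sub_mem (mul_mem (L.ev_mem_FS hX _) hfs) (mul_mem hfs (L.inc_mem_FS _))
  have hfin := ((L.FS_iff _).mp hE1FS).2 j
  set S := hfin.toFinset with hS
  let w : M → A := fun n => - (P.split i).inv (L.coeff n j E1)
  set η : R := ∑ n ∈ S, L.mono (w n) n j with hη
  have hηm : η ∈ L.Φ.fil j := L.sum_mono_mem _ _ _
  have hηFS : η ∈ L.FS := L.sum_mono_mem_FS _ _ _
  set g2 := g1 + η with hg2
  have hdiff : g2 - g1 = η := by simp [hg2]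
  have h1 := E_first_order (L := L) (ρ := P.ρ) (a := P.a i) (X := X) (X' := X) (g := g1) (g' := g2)
    hj hX1 hg1 (fun v => by simp) (by rw [hdiff]; exact hηm)
  have h0 : pd (fun v => L.inc (P.ρ v)) (X - X) (P.a i) = 0 := by
    rw [sub_self, pd_dir_zero]
  rw [h0, zero_add, hdiff] at h1
  have hβ : ev P.ρ (P.a i) = P.β i := rfl
  rw [hβ, ← hE1] at h1
  have h2 : L.inc (P.β i) * η ∈ L.Φ.fil j := by
    have := L.Φ.mul_mem (L.inc_mem (P.β i)) hηm
    rwa [zero_add] at this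
  have h3 : η * L.inc (P.β i) ∈ L.Φ.fil j := by
    have := L.Φ.mul_mem hηm (L.inc_mem (P.β i))
    rwa [add_zero] at this
  refine ⟨g2, add_mem hfs hηFS, by rw [hdiff]; exact hηm, ?_, fun n => ?_⟩
  · have h4 := add_mem (add_mem (L.Φ.anti (Nat.le_succ j) h1) hE) (sub_mem h2 h3)
    convert h4 using 1
    abel
  · have h5 := L.coeff_fil (n := n) (j := j) h1 (by omega)
    generalize ev X (P.a i) * g2 - g2 * L.inc (P.β i) = E2 at h5 ⊢
    rw [map_sub, map_sub, map_sub (L.coeff n j) (L.inc (P.β i) * η), L.coeff_inc_mul,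
      L.coeff_mul_inc] at h5
    have hηc : L.coeff n j η = if n ∈ S then w n else 0 := L.coeff_sum_mono _ _ _ _
    rw [hηc] at h5
    by_cases hn : n ∈ S
    · rw [if_pos hn] at h5
      have h7 : P.β i * w n - w n * P.β i = -(L.coeff n j E1 - P.e i (L.coeff n j E1)) := by
        rw [P.sub_e_eq i (L.coeff n j E1)]
        simp only [w]
        noncomm_ring
      rw [h7] at h5
      calc L.coeff n j E2 = (L.coeff n j E2 - L.coeff n j E1
              - -(L.coeff n j E1 - P.e i (L.coeff n j E1))) + P.e i (L.coeff n j E1) := by abel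
        _ = P.e i (L.coeff n j E1) := by rw [h5, zero_add]
    · have hz : L.coeff n j E1 = 0 := by
        by_contra hne
        exact hn ((Set.Finite.mem_toFinset hfin).mpr hne)
      rw [if_neg hn, hz] at h5
      rw [hz, map_zero]
      simpa using h5

/-! ### The whole recursion from the start -/

/-- **The recursion**: the start `ρ + (t₁ + t₂ μ₁) s'`, prescribed effect-free moves `y j`, `j ≥ 2`, and
the oracle for all partial solutions give an exact solution, with monomial tracking. -/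
theorem exists_solution [CharZero K] (ht1 : t1 ∈ P.T k) (ht2 : t2 ∈ P.T k)
    (II : Submodule K (ℕ → A))
    (hS : ∀ c ∈ P.KK k, ∀ τ' ∈ P.T k, P.SS k c t1 τ' = 0 ∧ P.SS k c t2 τ' = 0)
    (hH1 : ∀ c ∈ P.KK k, P.PP k c t1 t2 = 0)
    (hH2 : ∀ φ₁ φ₂ : (ℕ → A) →ₗ[K] K, (∀ c ∈ II, φ₁ c = 0) → (∀ c ∈ II, φ₂ c = 0) →
      ∃ τ' ∈ P.T k, ∀ c ∈ P.KK k, P.PP k c t1 τ' = φ₁ c ∧ P.PP k c t2 τ' = φ₂ c)
    (y : ℕ → M → ι → A) (hyfin : ∀ j, {m : M | y j m ≠ 0}.Finite) (hyT : ∀ j m, y j m ∈ P.T k)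
    (hyfree : ∀ j, 2 ≤ j → ∀ c ∈ P.KK k, ∀ m : M,
      (L.ζ ^ L.κ m - 1) * P.PP k c t1 (y j m)
        + (L.ζ ^ L.κ (m - L.μ₁) - L.ζ ^ (j : ℤ)) * P.PP k c t2 (y j (m - L.μ₁)) = 0)
    (Hf : ℕ → AddSubgroup M) (hHf : Monotone Hf) (hμ : L.μ₁ ∈ Hf 1)
    (hyHf : ∀ j m, y j m ≠ 0 → m ∈ Hf j)
    (hVan : ∀ J, 2 ≤ J → ∀ (X : ι → R) (g : ℕ → R), L.PSol P k (J + 1) t1 t2 X g →
      (∀ m : M, ∀ c ∈ II, L.Obs P k m (J + 1) X g c = 0) ∧
      (∀ m : M, L.ζ ^ L.κ m = 1 → L.ζ ^ ((J : ℤ) + 1) = 1 → ∀ c ∈ P.KK k,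
        L.Obs P k m (J + 1) X g c = 0)) :
    ∃ (X : ι → R) (g : ℕ → R), (∀ J, L.PSol P k J t1 t2 X g) ∧
      (∀ v, X v ∈ L.FSf Hf hHf) ∧ (∀ i, g i ∈ L.FSf Hf hHf) ∧
      (∀ j, 2 ≤ j → ∀ μ, μ ∉ Hf (j - 1) → ∀ v, L.coeff μ j (X v) = y j μ v) ∧
      (∀ j, 2 ≤ j → ∀ μ, μ ∉ Hf (j - 1) → ∀ i, L.coeff μ j (g i) = P.w i (y j μ)) := by
  obtain ⟨S, tt, ww, hSm, h0⟩ := exists_start (L := L) (P := P) ht1 ht2 hS hH1
  have hmono := Hc_mono hHf 2
  have h1 : L.μ₁ ∈ Hc Hf 2 1 := by simpa [Hc] using hμ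
  have h2 : L.μ₁ ∈ Hc Hf 2 2 := by simpa [Hc] using hμ
  have hSHf : ∀ m ∈ S, m ∈ Hc Hf 2 2 := by
    intro m hm
    rcases hSm m hm with rfl | rfl | rfl
    · exact zero_mem _
    · exact h2
    · exact add_mem h2 h2
  have h00 : (0 : M) ∈ Hc Hf 2 1 := zero_mem _
  obtain ⟨X, g, h3, -, -, h4, h5, h6, h7⟩ := exists_limit_presc (J1 := 2) le_rfl h0 II hS hH2 y hyfin
    hyT hyfree Hf hHf hμ hyHf
    (fun v => add_mem (add_mem (add_mem (L.inc_mem_FSf hmono _) (L.mono_mem_FSf hmono _ h00))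
      (L.mono_mem_FSf hmono _ h1)) (sum_mono_mem_FSf hmono _ _ hSHf))
    (fun i => add_mem (add_mem (add_mem (L.FSf _ hmono).one_mem (L.mono_mem_FSf hmono _ h00))
      (L.mono_mem_FSf hmono _ h1)) (sum_mono_mem_FSf hmono _ _ hSHf))
    (fun J hJ X g hp _ _ => hVan J hJ X g hp)
  exact ⟨X, g, h3, h4, h5, h6, h7⟩

end Equation

end Lev

end Crest.Agent.Kurosh.Hensel
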