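import Mathlib

/-!
# Twisted Hahn series

For a linearly ordered abelian group `G`, a field `k` and a bicharacter `ε : G → G → kˣ`,
`THS R ε` is the space of Hahn series with coefficients in a division ring `R` (an algebra over the
field `k`) with the twisted product `(x * y)_g = ∑_{a + b = g} ε a b • (x_a * y_b)`.
It is a division ring (Hahn–Neumann).
-/

set_option linter.unusedSectionVars false

namespace Crest.Agent.Kurosh

open Finset Pointwise

/-- A bicharacter with nonzero values. -/
structure Bichar (G k : Type*) [AddCommGroup G] [Field k] where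
  toFun : G → G → k
  add_left' : ∀ a b c, toFun (a + b) c = toFun a c * toFun b c
  add_right' : ∀ a b c, toFun a (b + c) = toFun a b * toFun a c
  ne_zero' : ∀ a b, toFun a b ≠ 0

namespace Bichar

variable {G k : Type*} [AddCommGroup G] [Field k]

instance : CoeFun (Bichar G k) (fun _ => G → G → k) := ⟨Bichar.toFun⟩

lemma add_left (ε : Bichar G k) (a b c : G) : ε (a + b) c = ε a c * ε b c := ε.add_left' a b c
lemma add_right (ε : Bichar G k) (a b c : G) : ε a (b + c) = ε a b * ε a c := ε.add_right' a b c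
lemma ne_zero (ε : Bichar G k) (a b : G) : ε a b ≠ 0 := ε.ne_zero' a b

@[simp] lemma zero_left (ε : Bichar G k) (c : G) : ε 0 c = 1 := by
  have h := ε.add_left 0 0 c
  rw [add_zero] at h
  exact (mul_eq_left₀ (ε.ne_zero 0 c)).mp h.symm

@[simp] lemma zero_right (ε : Bichar G k) (c : G) : ε c 0 = 1 := by
  have h := ε.add_right c 0 0
  rw [add_zero] at h
  exact (mul_eq_left₀ (ε.ne_zero c 0)).mp h.symm

/-- The cocycle identity. -/
lemma cocycle (ε : Bichar G k) (a b c : G) :
    ε (a + b) c * ε a b = ε a (b + c) * ε b c := by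
  rw [ε.add_left, ε.add_right]; ring

end Bichar

variable {G k : Type*} [AddCommGroup G] [LinearOrder G] [IsOrderedAddMonoid G] [Field k]
variable {R : Type*} [DivisionRing R] [Algebra k R]

/-- Twisted Hahn series with coefficients in the division ring `R`; the twist `ε` has values in a
field `k` central in `R`. The product is `(x * y)_g = ∑_{a + b = g} ε a b • (x_a * y_b)`. -/
def THS (R : Type*) [DivisionRing R] [Algebra k R] (_ε : Bichar G k) : Type _ := HahnSeries G R

namespace THS

variable {ε : Bichar G k}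

noncomputable instance : AddCommGroup (THS R ε) := inferInstanceAs (AddCommGroup (HahnSeries G R))
noncomputable instance : Module k (THS R ε) := inferInstanceAs (Module k (HahnSeries G R))

/-- Underlying Hahn series. -/
def toH (x : THS R ε) : HahnSeries G R := x
/-- A Hahn series seen as a twisted Hahn series. -/
def ofH (x : HahnSeries G R) : THS R ε := x

/-- Coefficient. -/
def coeff (x : THS R ε) (g : G) : R := (toH x).coeff g
/-- Support. -/
def supp (x : THS R ε) : Set G := (toH x).support

lemma isPWO_supp (x : THS R ε) : x.supp.IsPWO := (toH x).isPWO_support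

@[simp] lemma mem_supp {x : THS R ε} {g : G} : g ∈ x.supp ↔ x.coeff g ≠ 0 := Iff.rfl

@[ext] lemma ext {x y : THS R ε} (h : ∀ g, x.coeff g = y.coeff g) : x = y :=
  HahnSeries.ext (funext h)

@[simp] lemma coeff_zero (g : G) : (0 : THS R ε).coeff g = 0 := rfl
@[simp] lemma coeff_add (x y : THS R ε) (g : G) : (x + y).coeff g = x.coeff g + y.coeff g := rfl
@[simp] lemma coeff_neg (x : THS R ε) (g : G) : (-x).coeff g = -x.coeff g := rfl
@[simp] lemma coeff_sub (x y : THS R ε) (g : G) : (x - y).coeff g = x.coeff g - y.coeff g := rfl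
@[simp] lemma coeff_smul (c : k) (x : THS R ε) (g : G) : (c • x).coeff g = c • x.coeff g := rfl

@[simp] lemma coeff_ofH (x : HahnSeries G R) (g : G) : (ofH x : THS R ε).coeff g = x.coeff g := rfl

/-- The monomial `c e_g`. -/
noncomputable def mono (g : G) (c : R) : THS R ε := ofH (HahnSeries.single g c)

open Classical in
lemma coeff_mono (g : G) (c : R) (h : G) :
    (mono g c : THS R ε).coeff h = if h = g then c else 0 := by
  simp [mono, HahnSeries.coeff_single]

lemma supp_mono_subset (g : G) (c : R) : (mono g c : THS R ε).supp ⊆ {g} := by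
  classical
  intro h hh
  by_contra hne
  have hh' : (mono g c : THS R ε).coeff h ≠ 0 := hh
  apply hh'
  rw [coeff_mono, if_neg (fun e => hne (Set.mem_singleton_iff.2 e))]

/-! ### multiplication -/

/-- The twisted product. -/
noncomputable def mulAux (x y : THS R ε) : THS R ε := ofH
  { coeff := fun a => ∑ ij ∈ antidiagonal x.isPWO_supp y.isPWO_supp a,
      ε ij.1 ij.2 • (x.coeff ij.1 * y.coeff ij.2)
    isPWO_support' := by
      refine (x.isPWO_supp.add y.isPWO_supp).mono ?_
      intro a ha
      have : (antidiagonal x.isPWO_supp y.isPWO_supp a).Nonempty := by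
        by_contra hne
        rw [Finset.not_nonempty_iff_eq_empty] at hne
        apply ha
        show (∑ ij ∈ antidiagonal x.isPWO_supp y.isPWO_supp a,
          ε ij.1 ij.2 • (x.coeff ij.1 * y.coeff ij.2)) = 0
        rw [hne, Finset.sum_empty]
      obtain ⟨⟨i, j⟩, hij⟩ := this
      obtain ⟨hi, hj, rfl⟩ := mem_antidiagonal.1 hij
      exact Set.add_mem_add hi hj }

noncomputable instance : Mul (THS R ε) := ⟨mulAux⟩

lemma coeff_mul (x y : THS R ε) (a : G) : (x * y).coeff a =
    ∑ ij ∈ antidiagonal x.isPWO_supp y.isPWO_supp a,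
      ε ij.1 ij.2 • (x.coeff ij.1 * y.coeff ij.2) := rfl

/-- Product formula with any PWO set containing the left support. -/
lemma coeff_mul_left' {x y : THS R ε} {a : G} {s : Set G} (hs : s.IsPWO) (hxs : x.supp ⊆ s) :
    (x * y).coeff a = ∑ ij ∈ antidiagonal hs y.isPWO_supp a,
      ε ij.1 ij.2 • (x.coeff ij.1 * y.coeff ij.2) := by
  rw [coeff_mul]
  apply Finset.sum_subset (antidiagonal_mono_left hxs)
  intro b hb hb'
  have : x.coeff b.1 = 0 := by
    by_contra h
    apply hb'
    obtain ⟨_, h2, h3⟩ := mem_antidiagonal.1 hb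
    exact mem_antidiagonal.2 ⟨h, h2, h3⟩
  simp [this]

/-- Product formula with any PWO set containing the right support. -/
lemma coeff_mul_right' {x y : THS R ε} {a : G} {s : Set G} (hs : s.IsPWO) (hys : y.supp ⊆ s) :
    (x * y).coeff a = ∑ ij ∈ antidiagonal x.isPWO_supp hs a,
      ε ij.1 ij.2 • (x.coeff ij.1 * y.coeff ij.2) := by
  rw [coeff_mul]
  apply Finset.sum_subset (antidiagonal_mono_right hys)
  intro b hb hb'
  have : y.coeff b.2 = 0 := by
    by_contra h
    apply hb'
    obtain ⟨h1, _, h3⟩ := mem_antidiagonal.1 hb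
    exact mem_antidiagonal.2 ⟨h1, h, h3⟩
  simp [this]

lemma supp_mul_subset (x y : THS R ε) : (x * y).supp ⊆ x.supp + y.supp := by
  intro a ha
  have : (antidiagonal x.isPWO_supp y.isPWO_supp a).Nonempty := by
    by_contra hne
    rw [Finset.not_nonempty_iff_eq_empty] at hne
    have ha' : (x * y).coeff a ≠ 0 := ha
    apply ha'
    rw [coeff_mul, hne, Finset.sum_empty]
  obtain ⟨⟨i, j⟩, hij⟩ := this
  obtain ⟨hi, hj, rfl⟩ := mem_antidiagonal.1 hij
  exact Set.add_mem_add hi hj

protected lemma left_distrib (x y z : THS R ε) : x * (y + z) = x * y + x * z := by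
  ext a
  have hwf := y.isPWO_supp.union z.isPWO_supp
  have hy : y.supp ⊆ y.supp ∪ z.supp := Set.subset_union_left
  have hz : z.supp ⊆ y.supp ∪ z.supp := Set.subset_union_right
  have hyz : (y + z).supp ⊆ y.supp ∪ z.supp := by
    intro g hg
    by_contra hn
    simp only [Set.mem_union, not_or, mem_supp, not_not] at hn
    have hg' := hg
    rw [mem_supp] at hg'
    exact hg' (by simp [hn.1, hn.2])
  rw [coeff_mul_right' hwf hyz, coeff_add, coeff_mul_right' hwf hy, coeff_mul_right' hwf hz,
    ← Finset.sum_add_distrib]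
  apply Finset.sum_congr rfl
  intro ij _
  simp only [coeff_add, mul_add, smul_add]

protected lemma right_distrib (x y z : THS R ε) : (x + y) * z = x * z + y * z := by
  ext a
  have hwf := x.isPWO_supp.union y.isPWO_supp
  have hx : x.supp ⊆ x.supp ∪ y.supp := Set.subset_union_left
  have hy : y.supp ⊆ x.supp ∪ y.supp := Set.subset_union_right
  have hxy : (x + y).supp ⊆ x.supp ∪ y.supp := by
    intro g hg
    by_contra hn
    simp only [Set.mem_union, not_or, mem_supp, not_not] at hn
    have hg' := hg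
    rw [mem_supp] at hg'
    exact hg' (by simp [hn.1, hn.2])
  rw [coeff_mul_left' hwf hxy, coeff_add, coeff_mul_left' hwf hx, coeff_mul_left' hwf hy,
    ← Finset.sum_add_distrib]
  apply Finset.sum_congr rfl
  intro ij _
  simp only [coeff_add, add_mul, smul_add]

protected lemma mul_assoc (x y z : THS R ε) : x * y * z = x * (y * z) := by
  ext b
  rw [coeff_mul_left' (x.isPWO_supp.add y.isPWO_supp) (supp_mul_subset x y),
    coeff_mul_right' (y.isPWO_supp.add z.isPWO_supp) (supp_mul_subset y z)]
  simp only [coeff_mul, Finset.mul_sum, Finset.sum_mul, Finset.smul_sum, sum_sigma']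
  apply Finset.sum_nbij' (fun p => ⟨(p.2.1, p.2.2 + p.1.2), (p.2.2, p.1.2)⟩)
    (fun p => ⟨(p.1.1 + p.2.1, p.2.2), (p.1.1, p.2.1)⟩)
  · rintro ⟨⟨i, j⟩, ⟨k, l⟩⟩ h
    obtain ⟨h0, h00⟩ := mem_sigma.1 h
    obtain ⟨h1, h2, h3⟩ := mem_antidiagonal.1 h0
    obtain ⟨h4, h5, h6⟩ := mem_antidiagonal.1 h00
    refine mem_sigma.2 ⟨mem_antidiagonal.2 ⟨h4, Set.add_mem_add h5 h2, ?_⟩,
      mem_antidiagonal.2 ⟨h5, h2, rfl⟩⟩
    simp only at h3 h6 ⊢
    rw [← h3, ← h6]; abel
  · rintro ⟨⟨i, j⟩, ⟨k, l⟩⟩ h
    obtain ⟨h0, h00⟩ := mem_sigma.1 h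
    obtain ⟨h1, h2, h3⟩ := mem_antidiagonal.1 h0
    obtain ⟨h4, h5, h6⟩ := mem_antidiagonal.1 h00
    refine mem_sigma.2 ⟨mem_antidiagonal.2 ⟨Set.add_mem_add h1 h4, h5, ?_⟩,
      mem_antidiagonal.2 ⟨h1, h4, rfl⟩⟩
    simp only at h3 h6 ⊢
    rw [← h3, ← h6]; abel
  · rintro ⟨⟨i, j⟩, ⟨k, l⟩⟩ h
    obtain ⟨h0, h00⟩ := mem_sigma.1 h
    obtain ⟨_, _, h6⟩ := mem_antidiagonal.1 h00
    simp only at h6
    subst h6
    rfl
  · rintro ⟨⟨i, j⟩, ⟨k, l⟩⟩ h
    obtain ⟨h0, h00⟩ := mem_sigma.1 h
    obtain ⟨_, _, h6⟩ := mem_antidiagonal.1 h00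
    simp only at h6
    subst h6
    rfl
  · rintro ⟨⟨i, j⟩, ⟨k, l⟩⟩ h
    obtain ⟨h0, h00⟩ := mem_sigma.1 h
    obtain ⟨_, _, h6⟩ := mem_antidiagonal.1 h00
    simp only at h6
    subst h6
    simp only
    have hc := ε.cocycle k l j
    calc ε (k + l) j • ((ε k l • (x.coeff k * y.coeff l)) * z.coeff j)
        = (ε (k + l) j * ε k l) • (x.coeff k * y.coeff l * z.coeff j) := by
          rw [smul_mul_assoc, smul_smul]
      _ = (ε k (l + j) * ε l j) • (x.coeff k * y.coeff l * z.coeff j) := by rw [hc]
      _ = _ := by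
          rw [mul_smul_comm, smul_smul, mul_assoc]

/-- The unit. -/
noncomputable instance : One (THS R ε) := ⟨mono 0 1⟩

open Classical in
lemma coeff_one (h : G) : (1 : THS R ε).coeff h = if h = 0 then 1 else 0 := coeff_mono 0 1 h

lemma coeff_mono_mul (g : G) (c : R) (y : THS R ε) (a : G) :
    (mono g c * y).coeff (g + a) = ε g a • (c * y.coeff a) := by
  classical
  rw [coeff_mul_left' (s := {g}) (Set.isPWO_singleton g) (supp_mono_subset g c)]
  by_cases ha : y.coeff a = 0
  · rw [ha, mul_zero, smul_zero]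
    apply Finset.sum_eq_zero
    rintro ⟨i, j⟩ hij
    obtain ⟨hi, hj, hij⟩ := mem_antidiagonal.1 hij
    have hi' : i = g := hi
    subst hi'
    have hj' : j = a := by simpa using hij
    subst hj'
    simp [ha]
  · have : antidiagonal (Set.isPWO_singleton g) y.isPWO_supp (g + a) = {(g, a)} := by
      ext ⟨i, j⟩
      rw [Finset.mem_antidiagonal, Finset.mem_singleton, Prod.mk.injEq]
      constructor
      · rintro ⟨hi, _, h⟩
        have hi' : i = g := hi
        subst hi'
        exact ⟨rfl, by simpa using h⟩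
      · rintro ⟨rfl, rfl⟩
        exact ⟨rfl, ha, rfl⟩
    rw [this, Finset.sum_singleton]
    simp [coeff_mono]

lemma coeff_mul_mono (g : G) (c : R) (y : THS R ε) (a : G) :
    (y * mono g c).coeff (a + g) = ε a g • (y.coeff a * c) := by
  classical
  rw [coeff_mul_right' (s := {g}) (Set.isPWO_singleton g) (supp_mono_subset g c)]
  by_cases ha : y.coeff a = 0
  · rw [ha, zero_mul, smul_zero]
    apply Finset.sum_eq_zero
    rintro ⟨i, j⟩ hij
    obtain ⟨hi, hj, hij⟩ := mem_antidiagonal.1 hij
    have hj' : j = g := hj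
    subst hj'
    have hi' : i = a := by simpa using hij
    subst hi'
    simp [ha]
  · have : antidiagonal y.isPWO_supp (Set.isPWO_singleton g) (a + g) = {(a, g)} := by
      ext ⟨i, j⟩
      rw [Finset.mem_antidiagonal, Finset.mem_singleton, Prod.mk.injEq]
      constructor
      · rintro ⟨_, hj, h⟩
        have hj' : j = g := hj
        subst hj'
        exact ⟨by simpa using h, rfl⟩
      · rintro ⟨rfl, rfl⟩
        exact ⟨ha, rfl, rfl⟩
    rw [this, Finset.sum_singleton]
    simp [coeff_mono]

protected lemma one_mul (y : THS R ε) : 1 * y = y := by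
  ext a
  have := coeff_mono_mul (ε := ε) 0 1 y a
  simp only [zero_add, Bichar.zero_left, _root_.one_mul, one_smul] at this
  exact this

protected lemma mul_one (y : THS R ε) : y * 1 = y := by
  ext a
  have := coeff_mul_mono (ε := ε) 0 1 y a
  simp only [add_zero, Bichar.zero_right, one_smul, _root_.mul_one] at this
  exact this

noncomputable instance : Ring (THS R ε) :=
  { (inferInstance : AddCommGroup (THS R ε)) with
    mul := (· * ·)
    one := 1
    left_distrib := THS.left_distrib
    right_distrib := THS.right_distrib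
    zero_mul := by
      intro x
      ext a
      rw [coeff_mul]
      apply Finset.sum_eq_zero
      intro ij hij
      simp
    mul_zero := by
      intro x
      ext a
      rw [coeff_mul]
      apply Finset.sum_eq_zero
      intro ij hij
      simp
    mul_assoc := THS.mul_assoc
    one_mul := THS.one_mul
    mul_one := THS.mul_one }

lemma mono_mul_mono (g h : G) (c d : R) :
    (mono g c * mono h d : THS R ε) = mono (g + h) (ε g h • (c * d)) := by
  classical
  ext a
  by_cases ha : a = g + h
  · subst ha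
    rw [coeff_mono_mul, coeff_mono, coeff_mono]
    simp
  · have : a - g ≠ h := fun H => ha (by rw [← H]; abel)
    have e : a = g + (a - g) := by abel
    rw [e, coeff_mono_mul, coeff_mono, coeff_mono, if_neg this, if_neg (by rw [← e]; exact ha)]
    simp

lemma mono_zero' (g : G) : (mono g 0 : THS R ε) = 0 := by
  classical
  ext a
  simp [coeff_mono]

lemma mono_add (g : G) (c d : R) : (mono g (c + d) : THS R ε) = mono g c + mono g d := by
  classical
  ext a
  simp only [coeff_mono, coeff_add]
  split_ifs <;> simp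

lemma one_eq_mono : (1 : THS R ε) = mono 0 1 := rfl

lemma smul_eq_mono_mul (c : k) (x : THS R ε) : c • x = mono 0 (algebraMap k R c) * x := by
  ext a
  have := coeff_mono_mul (ε := ε) 0 (algebraMap k R c) x a
  simp only [zero_add, Bichar.zero_left, one_smul] at this
  rw [this, coeff_smul, Algebra.smul_def]

lemma smul_eq_mul_mono (c : k) (x : THS R ε) : c • x = x * mono 0 (algebraMap k R c) := by
  ext a
  have := coeff_mul_mono (ε := ε) 0 (algebraMap k R c) x a
  simp only [add_zero, Bichar.zero_right, one_smul] at this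
  rw [this, coeff_smul, Algebra.smul_def, Algebra.commutes]

noncomputable instance : Algebra k (THS R ε) :=
  Algebra.ofModule
    (fun r x y => by
      rw [smul_eq_mono_mul, smul_eq_mono_mul, mul_assoc])
    (fun r x y => by
      rw [smul_eq_mul_mono, smul_eq_mul_mono, mul_assoc])

lemma algebraMap_eq (c : k) : algebraMap k (THS R ε) c = mono 0 (algebraMap k R c) := by
  rw [Algebra.algebraMap_eq_smul_one, smul_eq_mul_mono, _root_.one_mul]

/-! ### Neumann series -/

lemma supp_pow_subset_closure (y : THS R ε) (n : ℕ) :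
    (y ^ n).supp ⊆ (AddSubmonoid.closure y.supp : Set G) := by
  classical
  induction n with
  | zero =>
    intro g hg
    rw [pow_zero] at hg
    have hg' : (1 : THS R ε).coeff g ≠ 0 := hg
    have : g = 0 := by
      by_contra h
      apply hg'
      rw [coeff_one, if_neg h]
    subst this
    exact AddSubmonoid.zero_mem _
  | succ n ih =>
    intro g hg
    rw [pow_succ] at hg
    obtain ⟨i, hi, j, hj, rfl⟩ := supp_mul_subset _ _ hg
    exact AddSubmonoid.add_mem _ (ih hi) (AddSubmonoid.subset_closure hj)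

lemma isPWO_closure_supp {y : THS R ε} (hy : ∀ g ∈ y.supp, 0 < g) :
    (AddSubmonoid.closure y.supp : Set G).IsPWO :=
  y.isPWO_supp.addSubmonoid_closure (fun g hg => (hy g hg).le)

/-- For each `g` only finitely many powers of a positive series have a coefficient at `g`. -/
lemma pow_finite_co_support {y : THS R ε} (hy : ∀ g ∈ y.supp, 0 < g) (g : G) :
    {n : ℕ | (y ^ n).coeff g ≠ 0}.Finite := by
  classical
  have hpwo := isPWO_closure_supp hy
  by_cases hg : g ∈ (AddSubmonoid.closure y.supp : Set G)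
  swap
  · refine Set.finite_empty.subset fun n hn => hg (supp_pow_subset_closure y n hn)
  refine hpwo.isWF.induction hg (P := fun g => {n : ℕ | (y ^ n).coeff g ≠ 0}.Finite) ?_
  intro a ha IH
  refine (((( antidiagonal hpwo y.isPWO_supp a).finite_toSet.biUnion
    (t := fun ij => {n : ℕ | (y ^ n).coeff ij.1 ≠ 0}) ?_).image Nat.succ).union
      (Set.finite_singleton 0)).subset ?_
  · intro ij hij
    obtain ⟨hi, hj, rfl⟩ := mem_antidiagonal.1 (mem_coe.1 hij)
    exact IH ij.1 hi (lt_add_of_pos_right _ (hy _ hj))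
  · rintro (_ | n) hn
    · exact Set.mem_union_right _ (Set.mem_singleton 0)
    · have hn' : (y ^ n * y).coeff a ≠ 0 := by rwa [← pow_succ]
      obtain ⟨i, hi, j, hj, rfl⟩ := supp_mul_subset _ _ hn'
      refine Set.mem_union_left _ ⟨n, Set.mem_iUnion.2 ⟨(i, j), Set.mem_iUnion.2 ⟨?_, hi⟩⟩, rfl⟩
      exact mem_coe.2 (mem_antidiagonal.2 ⟨supp_pow_subset_closure y n hi, hj, rfl⟩)

/-- The Neumann series `∑ yⁿ` of a positive series. -/
noncomputable def neumann (y : THS R ε) (hy : ∀ g ∈ y.supp, 0 < g) : THS R ε := ofH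
  { coeff := fun g => ∑ n ∈ (pow_finite_co_support hy g).toFinset, (y ^ n).coeff g
    isPWO_support' := by
      refine (isPWO_closure_supp hy).mono ?_
      intro g hg
      by_contra hn
      apply hg
      apply Finset.sum_eq_zero
      intro n hn'
      have h1 : (y ^ n).coeff g ≠ 0 := (Set.Finite.mem_toFinset _).1 hn'
      exact absurd (supp_pow_subset_closure y n h1) hn }

lemma coeff_neumann_of_subset {y : THS R ε} (hy : ∀ g ∈ y.supp, 0 < g) (g : G) (M : Finset ℕ)
    (hM : ∀ n, (y ^ n).coeff g ≠ 0 → n ∈ M) :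
    (neumann y hy).coeff g = ∑ n ∈ M, (y ^ n).coeff g := by
  show (∑ n ∈ (pow_finite_co_support hy g).toFinset, (y ^ n).coeff g) = _
  apply Finset.sum_subset
  · intro n hn
    exact hM n ((Set.Finite.mem_toFinset _).1 hn)
  · intro n _ hn
    by_contra h
    exact hn ((Set.Finite.mem_toFinset _).2 h)

lemma neumann_supp_subset {y : THS R ε} (hy : ∀ g ∈ y.supp, 0 < g) :
    (neumann y hy).supp ⊆ (AddSubmonoid.closure y.supp : Set G) := by
  intro g hg
  by_contra hn
  have hg' : (neumann y hy).coeff g ≠ 0 := hg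
  apply hg'
  apply Finset.sum_eq_zero
  intro n hn'
  have h1 : (y ^ n).coeff g ≠ 0 := (Set.Finite.mem_toFinset _).1 hn'
  exact absurd (supp_pow_subset_closure y n h1) hn

/-- `y * ∑ yⁿ = ∑ yⁿ - 1`. -/
lemma mul_neumann {y : THS R ε} (hy : ∀ g ∈ y.supp, 0 < g) :
    y * neumann y hy = neumann y hy - 1 := by
  classical
  ext a
  have hpwo := isPWO_closure_supp hy
  rw [coeff_mul_right' hpwo (neumann_supp_subset hy)]
  set A := antidiagonal y.isPWO_supp hpwo a with hA
  -- a finite set of exponents good for everything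
  let M0 : Finset ℕ := (pow_finite_co_support hy a).toFinset
  let M : Finset ℕ := M0 ∪ A.biUnion (fun ij => (pow_finite_co_support hy ij.2).toFinset)
  have hM1 : ∀ ij ∈ A, ∀ n, (y ^ n).coeff ij.2 ≠ 0 → n ∈ M := by
    intro ij hij n hn
    refine Finset.mem_union_right _ (Finset.mem_biUnion.2 ⟨ij, hij, ?_⟩)
    exact (Set.Finite.mem_toFinset _).2 hn
  have hM0 : ∀ n, (y ^ n).coeff a ≠ 0 → n ∈ M := fun n hn =>
    Finset.mem_union_left _ ((Set.Finite.mem_toFinset _).2 hn)
  -- M' containing M and M+1
  let M' : Finset ℕ := Finset.range (M.sup id + 2)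
  have hMM' : ∀ n ∈ M, n ∈ M' := fun n hn =>
    Finset.mem_range.2 (Nat.lt_succ_of_lt (Nat.lt_succ_of_le (Finset.le_sup (f := id) hn)))
  have h1 : (∑ ij ∈ A, ε ij.1 ij.2 • (y.coeff ij.1 * (neumann y hy).coeff ij.2))
      = ∑ n ∈ M', (y ^ (n + 1)).coeff a := by
    have e1 : ∀ ij ∈ A, ε ij.1 ij.2 • (y.coeff ij.1 * (neumann y hy).coeff ij.2)
        = ∑ n ∈ M', ε ij.1 ij.2 • (y.coeff ij.1 * (y ^ n).coeff ij.2) := by
      intro ij hij
      rw [coeff_neumann_of_subset hy ij.2 M' (fun n hn => hMM' n (hM1 ij hij n hn)),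
        Finset.mul_sum, Finset.smul_sum]
    rw [Finset.sum_congr rfl e1, Finset.sum_comm]
    apply Finset.sum_congr rfl
    intro n _
    rw [pow_succ', coeff_mul_right' hpwo (supp_pow_subset_closure y n)]
  rw [h1, coeff_sub, coeff_neumann_of_subset hy a M' (fun n hn => hMM' n (hM0 n hn)), coeff_one]
  -- telescoping: sum over range of coefficient of y^(n+1)
  have hlast : (y ^ (M.sup id + 2)).coeff a = 0 := by
    by_contra h
    have := Finset.le_sup (f := id) (hM0 _ h)
    simp only [id] at this
    omega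
  have hsum := Finset.sum_range_succ' (fun n => (y ^ n).coeff a) (M.sup id + 2)
  have hsum2 := Finset.sum_range_succ (fun n => (y ^ n).coeff a) (M.sup id + 2)
  simp only [M'] at *
  rw [hlast, add_zero] at hsum2
  have : (y ^ 0).coeff a = if a = 0 then 1 else 0 := by rw [pow_zero, coeff_one]
  rw [this] at hsum
  rw [hsum2] at hsum
  rw [hsum, add_sub_cancel_right]

/-- `(1 - y) * ∑ yⁿ = 1`. -/
lemma one_sub_mul_neumann {y : THS R ε} (hy : ∀ g ∈ y.supp, 0 < g) :
    (1 - y) * neumann y hy = 1 := by
  rw [sub_mul, _root_.one_mul, mul_neumann hy]; abel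

/-! ### inverse -/

lemma exists_order (x : THS R ε) (hx : x ≠ 0) :
    ∃ g ∈ x.supp, ∀ h ∈ x.supp, g ≤ h := by
  have hne : x.supp.Nonempty := by
    by_contra hn
    rw [Set.not_nonempty_iff_eq_empty] at hn
    apply hx
    ext a
    by_contra h
    have : a ∈ x.supp := h
    rw [hn] at this
    exact this
  have hwf := x.isPWO_supp.isWF
  exact ⟨hwf.min hne, hwf.min_mem hne, fun h hh => hwf.min_le hne hh⟩

open Classical in
/-- The leading exponent. -/
noncomputable def ord (x : THS R ε) : G :=
  if hx : x = 0 then 0 else (exists_order x hx).choose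

lemma ord_mem {x : THS R ε} (hx : x ≠ 0) : x.ord ∈ x.supp := by
  rw [ord, dif_neg hx]; exact (exists_order x hx).choose_spec.1

lemma ord_le {x : THS R ε} {h : G} (hh : x.coeff h ≠ 0) : x.ord ≤ h := by
  have hx : x ≠ 0 := by
    rintro rfl
    exact hh rfl
  rw [ord, dif_neg hx]; exact (exists_order x hx).choose_spec.2 h hh

/-- A monomial inverse. -/
noncomputable def monoInv (g : G) (c : R) : THS R ε := mono (-g) ((ε g (-g))⁻¹ • c⁻¹)

lemma mono_mul_monoInv (g : G) {c : R} (hc : c ≠ 0) :
    (mono g c * monoInv g c : THS R ε) = 1 := by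
  rw [monoInv, mono_mul_mono, add_neg_cancel, one_eq_mono]
  congr 1
  rw [mul_smul_comm, smul_smul, mul_inv_cancel₀ (ε.ne_zero g (-g)), one_smul,
    mul_inv_cancel₀ hc]

lemma bichar_neg_eq (g : G) : ε (-g) g = ε g (-g) := by
  have h1 : ε (-g) g * ε g g = 1 := by
    rw [← ε.add_left]; simp
  have h2 : ε g (-g) * ε g g = 1 := by
    rw [← ε.add_right]; simp
  have h3 := ε.ne_zero g g
  exact mul_right_cancel₀ h3 (h1.trans h2.symm)

lemma monoInv_mul_mono (g : G) {c : R} (hc : c ≠ 0) :
    (monoInv g c * mono g c : THS R ε) = 1 := by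
  rw [monoInv, mono_mul_mono, neg_add_cancel, one_eq_mono, bichar_neg_eq]
  congr 1
  rw [smul_mul_assoc, smul_smul, mul_inv_cancel₀ (ε.ne_zero g (-g)), one_smul,
    inv_mul_cancel₀ hc]

open Classical in
noncomputable instance : Inv (THS R ε) where
  inv x := if hx : x = 0 then 0 else
    let c := x.coeff x.ord
    let y : THS R ε := 1 - monoInv x.ord c * x
    if hy : ∀ g ∈ y.supp, 0 < g then neumann y hy * monoInv x.ord c else 0

lemma monoInv_mul_positive {x : THS R ε} (hx : x ≠ 0) :
    ∀ g ∈ (1 - monoInv x.ord (x.coeff x.ord) * x : THS R ε).supp, 0 < g := by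
  classical
  intro g hg
  set c := x.coeff x.ord with hc
  have hc0 : c ≠ 0 := ord_mem hx
  by_contra hgn
  have hg0 : g ≤ 0 := not_lt.1 hgn
  have hg' : (1 - monoInv x.ord c * x : THS R ε).coeff g ≠ 0 := hg
  apply hg'
  rw [coeff_sub, coeff_one]
  have key : (monoInv x.ord c * x : THS R ε).coeff g
      = ε (-x.ord) (g + x.ord) • (((ε x.ord (-x.ord))⁻¹ • c⁻¹) * x.coeff (g + x.ord)) := by
    have := coeff_mono_mul (ε := ε) (-x.ord) ((ε x.ord (-x.ord))⁻¹ • c⁻¹) x (g + x.ord)
    rw [show -x.ord + (g + x.ord) = g by abel] at this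
    exact this
  rw [key]
  rcases hg0.eq_or_lt with rfl | hlt
  · rw [if_pos rfl, zero_add, ← hc, bichar_neg_eq, smul_mul_assoc, smul_smul,
      mul_inv_cancel₀ (ε.ne_zero x.ord (-x.ord)), one_smul, inv_mul_cancel₀ hc0, sub_self]
  · rw [if_neg hlt.ne]
    have : x.coeff (g + x.ord) = 0 := by
      by_contra h
      have h1 := ord_le h
      have h2 : g + x.ord < x.ord := by
        simpa using add_lt_add_left hlt x.ord
      exact absurd h1 (not_le.2 h2)
    simp [this]

protected lemma mul_inv_cancel (x : THS R ε) (hx : x ≠ 0) : x * x⁻¹ = 1 := by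
  classical
  have hy := monoInv_mul_positive hx
  set c := x.coeff x.ord with hc
  have hc0 : c ≠ 0 := ord_mem hx
  have hinv : x⁻¹ = neumann (1 - monoInv x.ord c * x) hy * monoInv x.ord c := by
    change (if hx : x = 0 then (0 : THS R ε) else
      (if hy : ∀ g ∈ (1 - monoInv x.ord (x.coeff x.ord) * x : THS R ε).supp, 0 < g then
        neumann _ hy * monoInv x.ord (x.coeff x.ord) else 0)) = _
    rw [dif_neg hx, dif_pos hy]
  rw [hinv]
  set y : THS R ε := 1 - monoInv x.ord c * x with hy'
  have h1 : monoInv x.ord c * x = 1 - y := by rw [hy']; abel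
  have h2 : x = mono x.ord c * (1 - y) := by
    rw [← h1, ← mul_assoc, mono_mul_monoInv _ hc0, _root_.one_mul]
  calc x * (neumann y hy * monoInv x.ord c)
      = mono x.ord c * (1 - y) * (neumann y hy * monoInv x.ord c) := by rw [← h2]
    _ = mono x.ord c * ((1 - y) * neumann y hy) * monoInv x.ord c := by
        simp only [mul_assoc]
    _ = 1 := by rw [one_sub_mul_neumann hy, _root_.mul_one, mono_mul_monoInv _ hc0]

noncomputable instance : Nontrivial (THS R ε) := by
  refine ⟨⟨0, 1, fun h => ?_⟩⟩
  have := congrArg (fun x : THS R ε => x.coeff 0) h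
  classical
  simp [coeff_one] at this

noncomputable instance : DivisionRing (THS R ε) :=
  { (inferInstance : Ring (THS R ε)) with
    inv := Inv.inv
    nnqsmul := _
    nnqsmul_def := fun _ _ => rfl
    qsmul := _
    qsmul_def := fun _ _ => rfl
    exists_pair_ne := ⟨0, 1, zero_ne_one⟩
    mul_inv_cancel := THS.mul_inv_cancel
    inv_zero := by
      classical
      change (if hx : (0 : THS R ε) = 0 then (0 : THS R ε) else _) = 0
      rw [dif_pos rfl] }

lemma algebraMap_injective' : Function.Injective (algebraMap k (THS R ε)) :=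
  (algebraMap k (THS R ε)).injective

instance [CharZero k] : CharZero (THS R ε) :=
  charZero_of_injective_algebraMap (R := k) algebraMap_injective'

/-! ### coefficient embedding and leading terms -/

/-- The coefficient ring embedded at exponent `0`. -/
noncomputable def constHom : R →+* THS R ε where
  toFun c := mono 0 c
  map_one' := rfl
  map_mul' c d := by rw [mono_mul_mono]; simp
  map_zero' := mono_zero' 0
  map_add' c d := mono_add 0 c d

lemma coeff_mul_of_lt_ord {x y : THS R ε} {a : G} (hx : x ≠ 0) (hy : y ≠ 0)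
    (ha : a < x.ord + y.ord) : (x * y).coeff a = 0 := by
  rw [coeff_mul]
  apply Finset.sum_eq_zero
  rintro ⟨i, j⟩ hij
  obtain ⟨hi, hj, h⟩ := Finset.mem_antidiagonal.1 hij
  have h1 := ord_le (x := x) hi
  have h2 := ord_le (x := y) hj
  have h3 : x.ord + y.ord ≤ i + j := add_le_add h1 h2
  simp only at h
  rw [h] at h3
  exact absurd ha (not_lt.2 h3)

lemma coeff_mul_ord (x y : THS R ε) (hx : x ≠ 0) (hy : y ≠ 0) :
    (x * y).coeff (x.ord + y.ord) = ε x.ord y.ord • (x.coeff x.ord * y.coeff y.ord) := by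
  rw [coeff_mul]
  have : Finset.antidiagonal x.isPWO_supp y.isPWO_supp (x.ord + y.ord) = {(x.ord, y.ord)} := by
    ext ⟨i, j⟩
    rw [Finset.mem_antidiagonal, Finset.mem_singleton, Prod.mk.injEq]
    constructor
    · rintro ⟨hi, hj, h⟩
      have h1 := ord_le (x := x) hi
      have h2 := ord_le (x := y) hj
      simp only at h
      constructor
      · by_contra hne
        have : x.ord < i := lt_of_le_of_ne h1 (Ne.symm hne)
        have := add_lt_add_of_lt_of_le this h2
        rw [h] at this
        exact lt_irrefl _ this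
      · by_contra hne
        have : y.ord < j := lt_of_le_of_ne h2 (Ne.symm hne)
        have := add_lt_add_of_le_of_lt h1 this
        rw [h] at this
        exact lt_irrefl _ this
    · rintro ⟨rfl, rfl⟩
      exact ⟨ord_mem hx, ord_mem hy, rfl⟩
  rw [this, Finset.sum_singleton]

lemma ord_mul {x y : THS R ε} (hx : x ≠ 0) (hy : y ≠ 0) : (x * y).ord = x.ord + y.ord := by
  have hne : (x * y).coeff (x.ord + y.ord) ≠ 0 := by
    rw [coeff_mul_ord x y hx hy]
    intro h
    have h1 : x.coeff x.ord * y.coeff y.ord = 0 :=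
      (smul_eq_zero.1 h).resolve_left (ε.ne_zero _ _)
    rcases mul_eq_zero.1 h1 with h2 | h2
    · exact ord_mem hx h2
    · exact ord_mem hy h2
  apply le_antisymm (ord_le hne)
  by_contra hlt
  rw [not_le] at hlt
  exact ord_mem (mul_ne_zero hx hy) (coeff_mul_of_lt_ord hx hy hlt)

end THS

end Crest.Agent.Kurosh
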