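/-
S0270, module M6 (helper62): the level-up ring `THS A (twist ζ)` over `ℤ ×ₗ ℤ` (`j` first, then `K`)
is an abstract level-up ring `Lev K A _`, so that all of `HenselPass` applies to it.
-/
import Crest.Agent.Kurosh.HenselPass
import Crest.Agent.Kurosh.THahn

set_option autoImplicit false

namespace Crest.Agent.Kurosh.Hensel

open Crest.Agent.Kurosh Pointwise

variable {M : Type*} [AddCommGroup M] [LinearOrder M] [IsOrderedAddMonoid M]

/-- The group of exponents of `μ s'^j`: the first coordinate is `j`. -/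
abbrev G2 (M : Type*) := ℤ ×ₗ M

/-- The exponent of `μ s'^j`. -/
def idx (n : M) (j : ℤ) : G2 M := toLex (j, n)

@[simp] lemma idx_fst (n : M) (j : ℤ) : (ofLex (idx n j)).1 = j := rfl
@[simp] lemma idx_snd (n : M) (j : ℤ) : (ofLex (idx n j)).2 = n := rfl

lemma idx_eta (g : G2 M) : idx (ofLex g).2 (ofLex g).1 = g := rfl

lemma idx_add (n n' : M) (j j' : ℤ) : idx n j + idx n' j' = idx (n + n') (j + j') := rfl

lemma idx_zero : idx (0 : M) 0 = 0 := rfl

lemma idx_inj {n n' : M} {j j' : ℤ} : idx n j = idx n' j' ↔ n = n' ∧ j = j' := by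
  constructor
  · intro h
    have h' := congrArg ofLex h
    simp only [idx, ofLex_toLex, Prod.mk.injEq] at h'
    exact ⟨h'.2, h'.1⟩
  · rintro ⟨rfl, rfl⟩
    rfl

lemma fst_mono {a b : G2 M} (h : a ≤ b) : (ofLex a).1 ≤ (ofLex b).1 := by
  rcases Prod.Lex.le_iff.mp h with h | h
  · exact h.le
  · exact h.1.le

lemma lt_of_fst_lt {a b : G2 M} (h : (ofLex a).1 < (ofLex b).1) : a < b :=
  Prod.Lex.lt_iff.mpr (Or.inl h)

variable {K A : Type*} [Field K] [DivisionRing A] [Algebra K A]

/-- The twist `ε((j,μ),(j',μ')) = ζ^{j κ(μ')}`. -/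
def twist (κ : M →+ ℤ) (ζ : K) (hζ : ζ ≠ 0) : Bichar (G2 M) K where
  toFun a b := ζ ^ ((ofLex a).1 * κ (ofLex b).2)
  add_left' a b c := by
    simp only [ofLex_add, Prod.fst_add, add_mul, zpow_add₀ hζ]
  add_right' a b c := by
    simp only [ofLex_add, Prod.snd_add, map_add, mul_add, zpow_add₀ hζ]
  ne_zero' _ _ := zpow_ne_zero _ hζ

variable (κ : M →+ ℤ) (ζ : K) (hζ : ζ ≠ 0)

namespace THSLev

/-- The level-up ring. -/
abbrev RR (A : Type*) [DivisionRing A] [Algebra K A] (κ : M →+ ℤ) (ζ : K) (hζ : ζ ≠ 0) :=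
  THS A (twist κ ζ hζ)

local notation "𝐑" => RR A κ ζ hζ

/-- The `s'`-order filtration. -/
def filS (m : ℕ) : AddSubgroup 𝐑 where
  carrier := {x | ∀ g ∈ x.supp, (m : ℤ) ≤ (ofLex g).1}
  add_mem' := by
    intro x y hx hy g hg
    by_cases h : x.coeff g = 0
    · refine hy g ?_
      intro h'
      have h'' : y.coeff g = 0 := h'
      apply hg
      show (x + y).coeff g = 0
      rw [THS.coeff_add, h, h'', add_zero]
    · exact hx g h
  zero_mem' := by
    intro g hg
    exact absurd rfl hg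
  neg_mem' := by
    intro x hx g hg
    refine hx g ?_
    intro h'
    have h'' : x.coeff g = 0 := h'
    apply hg
    show (-x).coeff g = 0
    rw [THS.coeff_neg, h'', neg_zero]

lemma mem_filS {m : ℕ} {x : 𝐑} : x ∈ filS κ ζ hζ m ↔ ∀ g ∈ x.supp, (m : ℤ) ≤ (ofLex g).1 := Iff.rfl

lemma filS_of_coeff {m : ℕ} {x : 𝐑} (h : ∀ g : G2 M, (ofLex g).1 < m → x.coeff g = 0) :
    x ∈ filS κ ζ hζ m := by
  intro g hg
  by_contra hlt
  exact hg (h g (not_le.mp hlt))

lemma coeff_of_filS {m : ℕ} {x : 𝐑} (hx : x ∈ filS κ ζ hζ m) {g : G2 M} (h : (ofLex g).1 < m) :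
    x.coeff g = 0 := by
  by_contra hne
  exact absurd (hx g hne) (not_le.mpr h)

/-- The filtration is multiplicative. -/
def Phi : Calculus.Filt 𝐑 where
  fil := filS κ ζ hζ
  mul_mem := by
    intro i j x y hx hy g hg
    obtain ⟨a, ha, b, hb, rfl⟩ := Set.mem_add.mp (THS.supp_mul_subset x y hg)
    have h1 := hx a ha
    have h2 := hy b hb
    push_cast
    simp only [ofLex_add, Prod.fst_add]
    omega
  anti := by
    intro i j hij x hx g hg
    have := hx g hg
    omega

lemma exists_lim (x : ℕ → 𝐑) (hx : ∀ m, x (m + 1) - x m ∈ filS κ ζ hζ m) :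
    ∃ y, ∀ m, y - x m ∈ filS κ ζ hζ m := by
  classical
  have anti : ∀ {i j : ℕ}, i ≤ j → filS (A := A) κ ζ hζ j ≤ filS (A := A) κ ζ hζ i := (Phi κ ζ hζ).anti
  have tele : ∀ d m, x (m + d) - x m ∈ filS κ ζ hζ m := by
    intro d m
    induction d with
    | zero => simp
    | succ d ih =>
      have := add_mem (anti (by omega : m ≤ m + d) (hx (m + d))) ih
      convert this using 1
      rw [← add_assoc]
      abel
  -- the index at which the coefficient stabilises
  let N : G2 M → ℕ := fun g => ((ofLex g).1 + 1).toNat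
  have hN : ∀ g : G2 M, (ofLex g).1 < N g := by
    intro g
    simp only [N]
    have := Int.self_le_toNat ((ofLex g).1 + 1)
    omega
  have hNle : ∀ (g : G2 M) (m : ℕ), (ofLex g).1 < m → N g ≤ m := by
    intro g m hm
    simp only [N]
    have h0 : (0 : ℤ) ≤ (m : ℤ) := Int.natCast_nonneg m
    omega
  have hstab : ∀ (g : G2 M) (m : ℕ), (ofLex g).1 < m → (x m).coeff g = (x (N g)).coeff g := by
    intro g m hm
    obtain ⟨d, hd⟩ := Nat.exists_eq_add_of_le (hNle g m hm)
    have h1 := coeff_of_filS κ ζ hζ (tele d (N g)) (hN g)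
    rw [← hd, THS.coeff_sub, sub_eq_zero] at h1
    exact h1
  -- the support
  let S : Set (G2 M) := {g | (x (N g)).coeff g ≠ 0}
  have hSWF : S.IsWF := by
    -- a lower bound for the first coordinate
    obtain ⟨lb, hlb⟩ : ∃ lb : ℤ, ∀ g ∈ S, lb ≤ (ofLex g).1 := by
      by_cases he : ((x 0).supp).Nonempty
      · have hw := (x 0).isPWO_supp.isWF
        refine ⟨min 0 (ofLex (hw.min he)).1, fun g hg => ?_⟩
        by_cases hg0 : (ofLex g).1 < 0
        · have hN0 : N g = 0 := by
            simp only [N]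
            omega
          have hg1 : g ∈ (x 0).supp := by
            have hg2 : (x (N g)).coeff g ≠ 0 := hg
            rw [hN0] at hg2
            exact hg2
          have := fst_mono (hw.min_le he hg1)
          exact le_trans (min_le_right _ _) this
        · exact le_trans (min_le_left _ _) (not_lt.mp hg0)
      · refine ⟨0, fun g hg => ?_⟩
        by_contra hg0
        have hN0 : N g = 0 := by
          simp only [N]
          omega
        have hg2 : (x (N g)).coeff g ≠ 0 := hg
        rw [hN0] at hg2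
        exact he ⟨g, hg2⟩
    -- every nonempty subset has a least element
    have hmin : ∀ B : Set (G2 M), B ⊆ S → B.Nonempty → ∃ a ∈ B, ∀ b ∈ B, a ≤ b := by
      intro B hB hne
      obtain ⟨b0, hb0⟩ := hne
      obtain ⟨js, ⟨b1, hb1, hb1j⟩, hjs⟩ := Int.exists_least_of_bdd
        (P := fun j => ∃ b ∈ B, (ofLex b).1 = j)
        ⟨lb, by
          rintro z ⟨b, hb, rfl⟩
          exact hlb b (hB hb)⟩ ⟨_, b0, hb0, rfl⟩
      let Bs : Set (G2 M) := {b | b ∈ B ∧ (ofLex b).1 = js}
      let M : ℕ := (js + 1).toNat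
      have hBs : Bs ⊆ (x M).supp := by
        rintro b ⟨hb, hbj⟩
        have h1 : (x (N b)).coeff b ≠ 0 := hB hb
        have h2 : N b = M := by simp only [N, M, hbj]
        rwa [h2] at h1
      have hw : Bs.IsWF := (x M).isPWO_supp.isWF.mono hBs
      have hneBs : Bs.Nonempty := ⟨b1, hb1, hb1j⟩
      refine ⟨hw.min hneBs, (hw.min_mem hneBs).1, fun b hb => ?_⟩
      by_cases hbj : (ofLex b).1 = js
      · exact hw.min_le hneBs ⟨hb, hbj⟩
      · have h3 := hjs _ ⟨b, hb, rfl⟩
        apply le_of_lt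
        apply lt_of_fst_lt
        rw [(hw.min_mem hneBs).2]
        omega
    rw [Set.isWF_iff_no_descending_seq]
    intro f hf hfS
    obtain ⟨a, ⟨i, rfl⟩, ha⟩ := hmin (Set.range f) (by rintro _ ⟨i, rfl⟩; exact hfS i)
      ⟨f 0, 0, rfl⟩
    exact absurd (ha (f (i + 1)) ⟨i + 1, rfl⟩) (not_le.mpr (hf (Nat.lt_succ_self i)))
  let y : 𝐑 := THS.ofH { coeff := fun g => (x (N g)).coeff g, isPWO_support' := hSWF.isPWO }
  have hy : ∀ g, y.coeff g = (x (N g)).coeff g := fun g => rfl
  refine ⟨y, fun m => filS_of_coeff κ ζ hζ fun g hg => ?_⟩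
  rw [THS.coeff_sub, hy, hstab g m hg, sub_self]

/-- The coefficient at `s^n s'^j`. -/
noncomputable def coeffL (n : M) (j : ℕ) : 𝐑 →ₗ[K] A where
  toFun x := x.coeff (idx n j)
  map_add' x y := THS.coeff_add x y _
  map_smul' c x := THS.coeff_smul c x _

@[simp] lemma coeffL_apply (n : M) (j : ℕ) (x : 𝐑) : coeffL κ ζ hζ n j x = x.coeff (idx n j) := rfl

/-- The Laurent polynomials in `s`, of order `≥ 0` in `s'`. -/
noncomputable def FSS : Subalgebra K 𝐑 where
  carrier := {x | x ∈ filS κ ζ hζ 0 ∧ ∀ j : ℕ, {n : M | x.coeff (idx n j) ≠ 0}.Finite}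
  add_mem' := by
    rintro x y ⟨hx0, hx⟩ ⟨hy0, hy⟩
    refine ⟨add_mem hx0 hy0, fun j => ((hx j).union (hy j)).subset fun n hn => ?_⟩
    by_contra hcon
    simp only [Set.mem_union, not_or] at hcon
    apply hn
    have h1 : x.coeff (idx n j) = 0 := by
      by_contra h; exact hcon.1 h
    have h2 : y.coeff (idx n j) = 0 := by
      by_contra h; exact hcon.2 h
    rw [THS.coeff_add, h1, h2, add_zero]
  mul_mem' := by
    rintro x y ⟨hx0, hx⟩ ⟨hy0, hy⟩
    refine ⟨?_, fun j => ?_⟩
    · have := (Phi κ ζ hζ).mul_mem hx0 hy0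
      exact this
    · -- support at level `j`
      have hfin : (⋃ j₁ ∈ Finset.range (j + 1),
          ({n : M | x.coeff (idx n j₁) ≠ 0}
            + {n : M | y.coeff (idx n ((j - j₁ : ℕ) : ℤ)) ≠ 0})).Finite :=
        Set.Finite.biUnion (Finset.finite_toSet _) fun j₁ _ => (hx j₁).add (hy (j - j₁))
      refine hfin.subset fun n hn => ?_
      have hn' : idx n j ∈ (x * y).supp := hn
      obtain ⟨a, ha, b, hb, hab⟩ := Set.mem_add.mp (THS.supp_mul_subset x y hn')
      have ha0 := hx0 a ha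
      have hb0 := hy0 b hb
      have h1 : (ofLex a).1 + (ofLex b).1 = (j : ℤ) := by
        have := congrArg (fun z : G2 M => (ofLex z).1) hab
        simpa using this
      have h2 : (ofLex a).2 + (ofLex b).2 = n := by
        have := congrArg (fun z : G2 M => (ofLex z).2) hab
        simpa using this
      simp only [Nat.cast_zero] at ha0 hb0
      obtain ⟨j₁, hj₁⟩ := Int.eq_ofNat_of_zero_le ha0
      obtain ⟨j₂, hj₂⟩ := Int.eq_ofNat_of_zero_le hb0
      have hsum : j₁ + j₂ = j := by omega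
      have hj₂' : j - j₁ = j₂ := by omega
      simp only [Set.mem_iUnion]
      refine ⟨j₁, Finset.mem_coe.mpr (Finset.mem_range.mpr (by omega)), Set.mem_add.mpr
        ⟨(ofLex a).2, ?_, (ofLex b).2, ?_, h2⟩⟩
      · have : idx (ofLex a).2 (j₁ : ℤ) = a := by rw [← hj₁]; exact idx_eta a
        show x.coeff (idx (ofLex a).2 (j₁ : ℤ)) ≠ 0
        rw [this]
        exact ha
      · have : idx (ofLex b).2 ((j - j₁ : ℕ) : ℤ) = b := by rw [hj₂', ← hj₂]; exact idx_eta b
        show y.coeff (idx (ofLex b).2 ((j - j₁ : ℕ) : ℤ)) ≠ 0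
        rw [this]
        exact hb
  algebraMap_mem' := by
    intro c
    rw [THS.algebraMap_eq]
    refine ⟨fun g hg => ?_, fun j => (Set.finite_singleton (0 : M)).subset fun n hn => ?_⟩
    · have : g = 0 := THS.supp_mono_subset _ _ hg
      subst this
      simp
    · have hn' : (THS.mono 0 (algebraMap K A c) : 𝐑).coeff (idx n j) ≠ 0 := hn
      have : idx n j = 0 := THS.supp_mono_subset _ _ hn'
      have h := (idx_inj (n := n) (j := j) (n' := 0) (j' := 0)).mp this
      exact h.1

/-- The Laurent polynomials with monomials at order `j` in `Hf j`, for an increasing family `Hf`. -/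
noncomputable def FSfS (Hf : ℕ → AddSubgroup M) (hm : Monotone Hf) : Subalgebra K 𝐑 where
  carrier := {x | x ∈ FSS κ ζ hζ ∧ ∀ (n : M) (j : ℕ), x.coeff (idx n j) ≠ 0 → n ∈ Hf j}
  add_mem' := by
    rintro x y ⟨hx0, hx⟩ ⟨hy0, hy⟩
    refine ⟨add_mem hx0 hy0, fun n j hne => ?_⟩
    by_cases h : x.coeff (idx n j) = 0
    · refine hy n j fun h' => hne ?_
      rw [THS.coeff_add, h, h', add_zero]
    · exact hx n j h
  mul_mem' := by
    rintro x y ⟨hx0, hx⟩ ⟨hy0, hy⟩
    refine ⟨mul_mem hx0 hy0, fun n j hne => ?_⟩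
    have hn' : idx n (j : ℤ) ∈ (x * y).supp := hne
    obtain ⟨a, ha, b, hb, hab⟩ := Set.mem_add.mp (THS.supp_mul_subset x y hn')
    have ha0 := hx0.1 a ha
    have hb0 := hy0.1 b hb
    have h1 : (ofLex a).1 + (ofLex b).1 = (j : ℤ) := by
      have := congrArg (fun z : G2 M => (ofLex z).1) hab
      simpa using this
    have h2 : (ofLex a).2 + (ofLex b).2 = n := by
      have := congrArg (fun z : G2 M => (ofLex z).2) hab
      simpa using this
    simp only [Nat.cast_zero] at ha0 hb0
    obtain ⟨j₁, hj₁⟩ := Int.eq_ofNat_of_zero_le ha0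
    obtain ⟨j₂, hj₂⟩ := Int.eq_ofNat_of_zero_le hb0
    have hsum : j₁ + j₂ = j := by omega
    rw [← h2]
    refine add_mem (hm (by omega : j₁ ≤ j) (hx _ j₁ ?_)) (hm (by omega : j₂ ≤ j) (hy _ j₂ ?_))
    · have : idx (ofLex a).2 (j₁ : ℤ) = a := by rw [← hj₁]; exact idx_eta a
      rw [this]
      exact ha
    · have : idx (ofLex b).2 (j₂ : ℤ) = b := by rw [← hj₂]; exact idx_eta b
      rw [this]
      exact hb
  algebraMap_mem' := by
    intro c
    refine ⟨(FSS κ ζ hζ).algebraMap_mem c, fun n j hne => ?_⟩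
    rw [THS.algebraMap_eq] at hne
    have : idx n (j : ℤ) = 0 := THS.supp_mono_subset _ _ hne
    have h := (idx_inj (n := n) (j := j) (n' := 0) (j' := 0)).mp this
    rw [h.1]
    exact zero_mem _

/-- The inclusion of the coefficient ring. -/
noncomputable def incHom : A →ₐ[K] 𝐑 :=
  { (THS.constHom : A →+* 𝐑) with
    commutes' := fun c => (THS.algebraMap_eq c).symm }

lemma incHom_apply (x : A) : incHom κ ζ hζ x = (THS.mono 0 x : 𝐑) := rfl

lemma mono_smul_K (c : K) (g : G2 M) (x : A) : (THS.mono g (c • x) : 𝐑) = c • (THS.mono g x : 𝐑) := by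
  classical
  ext a
  simp only [THS.coeff_mono, THS.coeff_smul]
  split_ifs <;> simp

lemma inc_mul_monomial (x : A) (g : G2 M) (y : A) :
    (THS.mono 0 x * THS.mono g y : 𝐑) = THS.mono g (x * y) := by
  rw [THS.mono_mul_mono, zero_add, Bichar.zero_left, one_smul]

lemma monomial_mul_inc (x : A) (g : G2 M) (y : A) :
    (THS.mono g y * THS.mono 0 x : 𝐑) = THS.mono g (y * x) := by
  rw [THS.mono_mul_mono, add_zero, Bichar.zero_right, one_smul]

end THSLev

open THSLev

/-- The level-up ring `THS A (twist κ ζ)` is an abstract level-up ring. -/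
noncomputable def levTHS (μ₁ : M) (hμ₁ : κ μ₁ = 1) : Lev M K A (RR A κ ζ hζ) where
  inc := incHom κ ζ hζ
  κ := κ
  μ₁ := μ₁
  κ_μ₁ := hμ₁
  mon n j := THS.mono (idx n j) 1
  mon_comm n j x := by
    show THS.mono (idx n j) 1 * THS.mono 0 x = THS.mono 0 x * THS.mono (idx n j) 1
    rw [monomial_mul_inc, inc_mul_monomial, one_mul, mul_one]
  ζ := ζ
  ζ_ne := hζ
  mon_mul n j n' j' := by
    have e : idx (n + n') ((j : ℤ) + (j' : ℤ)) = idx (n + n') ((j + j' : ℕ) : ℤ) := by
      push_cast
      rfl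
    rw [THS.mono_mul_mono, idx_add, ← mono_smul_K, e, mul_one]
    rfl
  mon_zero := by
    show THS.mono (idx 0 ((0 : ℕ) : ℤ)) 1 = 1
    rfl
  Φ := Phi κ ζ hζ
  inc_mem x := by
    intro g hg
    have : g = 0 := THS.supp_mono_subset _ _ hg
    subst this
    simp
  mon_mem n j := by
    intro g hg
    have : g = idx n j := THS.supp_mono_subset _ _ hg
    subst this
    simp
  coeff := coeffL κ ζ hζ
  coeff_mono n j x n' j' := by
    classical
    show (THS.mono 0 x * THS.mono (idx n' j') 1 : RR A κ ζ hζ).coeff (idx n j) = _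
    rw [inc_mul_monomial, mul_one, THS.coeff_mono]
    by_cases h : n = n' ∧ j = j'
    · rw [if_pos h, if_pos]
      rw [h.1, h.2]
    · rw [if_neg h, if_neg]
      intro h'
      apply h
      have := idx_inj.mp h'
      exact ⟨this.1, by exact_mod_cast this.2⟩
  coeff_inc_mul n j x y := by
    have := THS.coeff_mono_mul (ε := twist κ ζ hζ) 0 x y (idx n j)
    rw [zero_add, Bichar.zero_left, one_smul] at this
    exact this
  coeff_mul_inc n j x y := by
    have := THS.coeff_mul_mono (ε := twist κ ζ hζ) 0 x y (idx n j)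
    rw [add_zero, Bichar.zero_right, one_smul] at this
    exact this
  coeff_fil := by
    intro m j n x hx hj
    apply coeff_of_filS κ ζ hζ hx
    simpa using hj
  mem_fil_succ := by
    intro m x hx h g hg
    have h1 := hx g hg
    by_contra hlt
    have hj : (ofLex g).1 = m := by push_cast at hlt; omega
    apply hg
    have := h (ofLex g).2
    rw [coeffL_apply, ← hj] at this
    exact this
  sep x hx := by
    by_contra hne
    obtain ⟨g, hg⟩ : ∃ g, x.coeff g ≠ 0 := by
      by_contra hcon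
      exact hne (THS.ext fun g => by
        rw [THS.coeff_zero]
        by_contra h
        exact hcon ⟨g, h⟩)
    have := hx ((ofLex g).1.toNat + 1) g hg
    have h2 := Int.self_le_toNat (ofLex g).1
    push_cast at this
    omega
  lim := exists_lim κ ζ hζ
  FS := FSS κ ζ hζ
  FS_iff _ := Iff.rfl
  FSf := FSfS κ ζ hζ
  FSf_iff _ _ _ := Iff.rfl

end Crest.Agent.Kurosh.Hensel
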