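/-
S0270, M1b (helper69): the level-up isomorphism
`A (n+1) ≃ THS (A n) (twist kappa ζ_{n+1})` over the group `G0 = ℤ ×ₗ MLvl` of one level, and the
abstract level-up ring `Lev MLvl (K n) (A n) (A (n+1))`.
-/
import Crest.Agent.Kurosh.Levels
import Crest.Agent.Kurosh.HenselTHS

set_option autoImplicit false
set_option linter.unusedSimpArgs false
set_option linter.unusedVariables false

/-! ### Transport of an abstract level-up ring -/

namespace Crest.Agent.Kurosh.Hensel.Lev

variable {M K A R R' : Type*} [AddCommGroup M] [DecidableEq M] [Field K] [Ring A] [Algebra K A] [Ring R]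
  [Algebra K R] [Ring R'] [Algebra K R']

/-- An abstract level-up ring transported along an algebra isomorphism. -/
noncomputable def transport (L : Lev M K A R') (Ψ : R ≃ₐ[K] R') : Lev M K A R where
  inc := (Ψ.symm : R' →ₐ[K] R).comp L.inc
  κ := L.κ
  μ₁ := L.μ₁
  κ_μ₁ := L.κ_μ₁
  mon n j := Ψ.symm (L.mon n j)
  mon_comm n j x := (L.mon_comm n j x).map Ψ.symm
  ζ := L.ζ
  ζ_ne := L.ζ_ne
  mon_mul n j n' j' := by
    rw [← map_mul, L.mon_mul, map_smul]
  mon_zero := by
    rw [L.mon_zero, map_one]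
  Φ :=
    { fil := fun m => (L.Φ.fil m).comap (Ψ : R →+ R')
      mul_mem := by
        intro i j x y hx hy
        show Ψ (x * y) ∈ L.Φ.fil (i + j)
        rw [map_mul]
        exact L.Φ.mul_mem hx hy
      anti := fun h x hx => L.Φ.anti h hx }
  inc_mem x := by
    show Ψ (Ψ.symm (L.inc x)) ∈ L.Φ.fil 0
    rw [Ψ.apply_symm_apply]
    exact L.inc_mem x
  mon_mem n j := by
    show Ψ (Ψ.symm (L.mon n j)) ∈ L.Φ.fil j
    rw [Ψ.apply_symm_apply]
    exact L.mon_mem n j
  coeff n j := (L.coeff n j).comp Ψ.toLinearMap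
  coeff_mono n j x n' j' := by
    show L.coeff n j (Ψ (Ψ.symm (L.inc x) * Ψ.symm (L.mon n' j'))) = _
    rw [map_mul, Ψ.apply_symm_apply, Ψ.apply_symm_apply, L.coeff_mono]
  coeff_fil := by
    intro m j n x hx hj
    exact L.coeff_fil hx hj
  coeff_inc_mul n j x y := by
    show L.coeff n j (Ψ (Ψ.symm (L.inc x) * y)) = x * L.coeff n j (Ψ y)
    rw [map_mul, Ψ.apply_symm_apply, L.coeff_inc_mul]
  coeff_mul_inc n j x y := by
    show L.coeff n j (Ψ (y * Ψ.symm (L.inc x))) = L.coeff n j (Ψ y) * x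
    rw [map_mul, Ψ.apply_symm_apply, L.coeff_mul_inc]
  mem_fil_succ := by
    intro m x hx h
    exact L.mem_fil_succ hx h
  sep x hx := by
    have := L.sep (Ψ x) hx
    simpa using this
  lim x hx := by
    obtain ⟨y, hy⟩ := L.lim (fun m => Ψ (x m)) (fun m => by
      have := hx m
      show Ψ (x (m + 1)) - Ψ (x m) ∈ L.Φ.fil m
      rw [← map_sub]
      exact this)
    refine ⟨Ψ.symm y, fun m => ?_⟩
    show Ψ (Ψ.symm y - x m) ∈ L.Φ.fil m
    rw [map_sub, Ψ.apply_symm_apply]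
    exact hy m
  FS := L.FS.comap (Ψ : R →ₐ[K] R')
  FS_iff x := L.FS_iff (Ψ x)
  FSf Hf hm := (L.FSf Hf hm).comap (Ψ : R →ₐ[K] R')
  FSf_iff Hf hm x := L.FSf_iff Hf hm (Ψ x)

/-- Change of the decidable equality of the monomial group. -/
def reinst {M K A R : Type*} [AddCommGroup M] (d₁ d₂ : DecidableEq M) [Field K] [Ring A] [Algebra K A]
    [Ring R] [Algebra K R] (L : @Lev M K A R _ d₁ _ _ _ _ _) : @Lev M K A R _ d₂ _ _ _ _ _ :=
  { L with
    coeff_mono := fun n j x n' j' => by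
      have := @Lev.coeff_mono M K A R _ d₁ _ _ _ _ _ L n j x n' j'
      convert this }

end Crest.Agent.Kurosh.Hensel.Lev

namespace Crest.Agent.Kurosh.Levels

open Hensel Hensel.THSLev


namespace LevelData

/-! ### The group -/

theorem coord_lo_add_lev {n : ℕ} {g : G} (hg : g ∈ Gsub (Rg n)) (v : G0) :
    coord (g + lev (n + 1) v) (n + 1) = v := by
  have h0 : coord g (n + 1) = 0 := mem_Gsub_Rg.1 hg _ (Nat.lt_succ_self n)
  simp [h0]

theorem lo_add_lev {n : ℕ} {g : G} (hg : g ∈ Gsub (Rg n)) (v : G0) :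
    lo n (g + lev (n + 1) v) = g := by
  apply G_ext
  intro i
  have h1 := mem_Gsub_Rg.1 hg
  by_cases hi : n < i
  · simp [hi, h1 i hi]
  · have : n + 1 ≠ i := by omega
    simp [hi, coord_lev_ne this]

theorem lo_mem (n : ℕ) (g : G) : lo n g ∈ Gsub (Rg n) := by
  rw [mem_Gsub_Rg]
  intro i hi
  simp [hi]

theorem lo_add_lev_coord {n : ℕ} {g : G} (hg : g ∈ Gsub (Rg (n + 1))) :
    lo n g + lev (n + 1) (coord g (n + 1)) = g := by
  apply G_ext
  intro i
  have h1 := mem_Gsub_Rg.1 hg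
  by_cases hi : n < i
  · by_cases hi2 : n + 1 = i
    · subst hi2
      simp
    · have hi3 : n + 1 < i := by omega
      simp [hi, coord_lev_ne hi2, h1 i hi3]
  · have : n + 1 ≠ i := by omega
    simp [hi, coord_lev_ne this]

theorem lev_add (i : ℕ) (v w : G0) : lev i (v + w) = lev i v + lev i w := by
  simp [lev, Finsupp.single_add]

theorem lev_zero (i : ℕ) : lev i 0 = 0 := by
  simp [lev]

theorem lev_mem_Gsub (n : ℕ) (v : G0) : lev (n + 1) v ∈ Gsub (Rg (n + 1)) := by
  rw [mem_Gsub_Rg]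
  intro i hi
  exact coord_lev_ne (by omega) v

/-- `coord · (n+1)` is monotone on the elements without higher levels. -/
theorem coord_top_mono {n : ℕ} {a b : G} (ha : a ∈ Gsub (Rg (n + 1)))
    (hb : b ∈ Gsub (Rg (n + 1))) (hab : a ≤ b) : coord a (n + 1) ≤ coord b (n + 1) := by
  rcases hab.eq_or_lt with rfl | hlt
  · exact le_rfl
  obtain ⟨i, h1, h2⟩ := lt_iff.1 hlt
  rcases lt_trichotomy i (n + 1) with h | h | h
  · exact (h1 _ h).le
  · subst h
    exact h2.le
  · rw [mem_Gsub_Rg.1 ha i h, mem_Gsub_Rg.1 hb i h] at h2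
    exact absurd h2 (lt_irrefl _)

variable {k : Type*} [Field k] (D : LevelData k) (n : ℕ)

/-! ### The twist -/

/-- `ε` on `g₁ + lev v₁, g₂ + lev v₂`. -/
theorem eps_split {g₁ g₂ : G} (h₁ : g₁ ∈ Gsub (Rg n)) (h₂ : g₂ ∈ Gsub (Rg n)) (v₁ v₂ : G0) :
    D.eps (g₁ + lev (n + 1) v₁) (g₂ + lev (n + 1) v₂)
      = D.eps g₁ g₂ * D.ζ (n + 1) ^ ((ofLex v₁).1 * (ofLex (ofLex v₂).2).2) := by
  have e1 : D.eps g₁ (lev (n + 1) v₂) = 1 := by
    rw [D.eps_apply _ _ (Rg n) (mem_Gsub.1 h₁)]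
    refine Finset.prod_eq_one fun i hi => ?_
    have : n + 1 ≠ i := by
      have := Finset.mem_range.1 hi
      omega
    have h3 : kk (lev (n + 1) v₂) i = 0 := by simp [kk, coord_lev_ne this]
    rw [h3]
    simp
  have e2 : D.eps (lev (n + 1) v₁) g₂ = 1 := by
    rw [D.eps_apply _ _ {n + 1} (suppIn_lev _ _), Finset.prod_singleton]
    have h3 : kk g₂ (n + 1) = 0 := by
      have := mem_Gsub_Rg.1 h₂ (n + 1) (Nat.lt_succ_self n)
      simp [kk, this]
    rw [h3]
    simp
  rw [D.eps.add_left, D.eps.add_right, D.eps.add_right, e1, e2, D.eps_lev_lev]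
  ring

/-- The twist parameter, as an element of `K n`. -/
noncomputable def zK : D.K (Rg n) := algebraMap k (D.K (Rg n)) (D.ζ (n + 1))

theorem zK_ne : D.zK n ≠ 0 :=
  (map_ne_zero _).2 (D.ζ_ne_zero (n + 1))

/-- The twist of one level. -/
noncomputable abbrev Bi : Bichar G0 (D.K (Rg n)) := twist kappa (D.zK n) (D.zK_ne n)

/-- The level-up ring `A n ((G0))`. -/
noncomputable abbrev Up : Type _ := THS (R := D.A (Rg n)) (D.Bi n)

theorem Bi_apply (a b : G0) :
    D.Bi n a b = algebraMap k (D.K (Rg n)) (D.ζ (n + 1) ^ ((ofLex a).1 * (ofLex (ofLex b).2).2)) := by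
  show D.zK n ^ _ = _
  rw [zK, map_zpow₀]
  rfl

/-! ### The slices -/

open Classical in
/-- The part of `x` at the level monomial `v`. -/
noncomputable def slice (x : D.U) (v : G0) : D.U := THS.ofH
  { coeff := fun g => if g ∈ Gsub (Rg n) then x.coeff (g + lev (n + 1) v) else 0
    isPWO_support' := by
      have h1 : (x.supp.image (fun g => g - lev (n + 1) v)).IsPWO :=
        x.isPWO_supp.image_of_monotone (fun a b hab => sub_le_sub_right hab _)
      refine h1.mono ?_
      intro g hg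
      have hg' : (if g ∈ Gsub (Rg n) then x.coeff (g + lev (n + 1) v) else 0) ≠ 0 := hg
      by_cases h : g ∈ Gsub (Rg n)
      · rw [if_pos h] at hg'
        exact ⟨g + lev (n + 1) v, hg', by simp⟩
      · rw [if_neg h] at hg'
        exact absurd rfl hg' }

open Classical in
theorem coeff_slice (x : D.U) (v : G0) (g : G) :
    (D.slice n x v).coeff g = if g ∈ Gsub (Rg n) then x.coeff (g + lev (n + 1) v) else 0 := rfl

theorem coeff_slice_of_mem (x : D.U) (v : G0) {g : G} (hg : g ∈ Gsub (Rg n)) :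
    (D.slice n x v).coeff g = x.coeff (g + lev (n + 1) v) := by
  classical
  rw [coeff_slice, if_pos hg]

theorem slice_mem (x : D.U) (v : G0) : D.slice n x v ∈ D.A (Rg n) := by
  classical
  intro g hg
  by_contra h
  apply THS.mem_supp.1 hg
  rw [coeff_slice, if_neg (show g ∉ Gsub (Rg n) from h)]

/-- The map `A (n+1) → Up`. -/
noncomputable def toLvl (x : D.A (Rg (n + 1))) : D.Up n := THS.ofH
  { coeff := fun v => ⟨D.slice n x.1 v, D.slice_mem n x.1 v⟩
    isPWO_support' := by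
      have h1 : ((x.1.supp).image (fun g => coord g (n + 1))).IsPWO :=
        x.1.isPWO_supp.image_of_monotoneOn (fun a ha b hb hab => coord_top_mono (x.2 ha) (x.2 hb) hab)
      refine h1.mono ?_
      intro v hv
      have hv' : (⟨D.slice n x.1 v, D.slice_mem n x.1 v⟩ : D.A (Rg n)) ≠ 0 := hv
      have hv'' : D.slice n x.1 v ≠ 0 := fun h => hv' (Subtype.ext h)
      obtain ⟨g, hg⟩ : ∃ g, (D.slice n x.1 v).coeff g ≠ 0 := by
        by_contra hcon
        push Not at hcon
        exact hv'' (THS.ext fun g => by rw [hcon g]; rfl)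
      by_cases hgI : g ∈ Gsub (Rg n)
      · rw [D.coeff_slice_of_mem n _ _ hgI] at hg
        exact ⟨g + lev (n + 1) v, hg, coord_lo_add_lev hgI v⟩
      · exact absurd (D.slice_mem n x.1 v (THS.mem_supp.2 hg)) hgI }

theorem coeff_toLvl (x : D.A (Rg (n + 1))) (v : G0) :
    (((D.toLvl n x).coeff v : D.A (Rg n)) : D.U) = D.slice n x.1 v := rfl

theorem coeff_coeff_toLvl (x : D.A (Rg (n + 1))) (v : G0) {g : G} (hg : g ∈ Gsub (Rg n)) :
    (((D.toLvl n x).coeff v : D.A (Rg n)) : D.U).coeff g = x.1.coeff (g + lev (n + 1) v) :=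
  D.coeff_slice_of_mem n _ _ hg

open Classical in
/-- The map `Up → A (n+1)`, as a series. -/
noncomputable def ofLvlAux (y : D.Up n) : D.U := THS.ofH
  { coeff := fun g => if g ∈ Gsub (Rg (n + 1)) then
      (((y.coeff (coord g (n + 1))) : D.A (Rg n)) : D.U).coeff (lo n g) else 0
    isPWO_support' := by
      apply Set.IsWF.isPWO
      rw [Set.isWF_iff_no_descending_seq]
      intro f hf hfS
      -- membership
      have hf1 : ∀ t, f t ∈ Gsub (Rg (n + 1)) := by
        intro t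
        by_contra h
        exact hfS t (if_neg h)
      have hf2 : ∀ t, ((y.coeff (coord (f t) (n + 1)) : D.A (Rg n)) : D.U).coeff (lo n (f t)) ≠ 0 := by
        intro t h0
        apply hfS t
        show (if f t ∈ Gsub (Rg (n + 1)) then _ else _) = _
        rw [if_pos (hf1 t)]
        exact h0
      have hf3 : ∀ t, coord (f t) (n + 1) ∈ y.supp := by
        intro t h0
        apply hf2 t
        have h0' : y.coeff (coord (f t) (n + 1)) = 0 := h0
        rw [h0']
        rfl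
      -- the top coordinates stabilise
      have hw := y.isPWO_supp.isWF
      have hne : (Set.range fun t => coord (f t) (n + 1)).Nonempty := ⟨_, 0, rfl⟩
      have hw' : (Set.range fun t => coord (f t) (n + 1)).IsWF :=
        hw.mono (by rintro _ ⟨t, rfl⟩; exact hf3 t)
      obtain ⟨t0, ht0⟩ := hw'.min_mem hne
      have hmin : ∀ t, coord (f t0) (n + 1) ≤ coord (f t) (n + 1) := by
        intro t
        have := hw'.min_le hne ⟨t, rfl⟩
        rw [← ht0] at this
        exact this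
      have hanti : ∀ t, t0 ≤ t → coord (f t) (n + 1) = coord (f t0) (n + 1) := by
        intro t ht
        exact le_antisymm (coord_top_mono (hf1 _) (hf1 _) (hf.antitone ht)) (hmin t)
      -- the low parts are strictly decreasing in one support
      set v := coord (f t0) (n + 1) with hv
      let h : ℕ → G := fun t => lo n (f (t0 + t))
      have hh : StrictAnti h := by
        apply strictAnti_nat_of_succ_lt
        intro t
        have h1 : f (t0 + (t + 1)) < f (t0 + t) := hf (by omega)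
        have e1 := lo_add_lev_coord (hf1 (t0 + (t + 1)))
        have e2 := lo_add_lev_coord (hf1 (t0 + t))
        rw [hanti _ (by omega)] at e1
        rw [hanti _ (by omega)] at e2
        rw [← e1, ← e2] at h1
        exact lt_of_add_lt_add_right h1
      have hmem : ∀ t, h t ∈ ((y.coeff v : D.A (Rg n)) : D.U).supp := by
        intro t
        have := hf2 (t0 + t)
        rw [hanti _ (by omega)] at this
        exact this
      have hw2 := ((y.coeff v : D.A (Rg n)) : D.U).isPWO_supp.isWF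
      rw [Set.isWF_iff_no_descending_seq] at hw2
      exact hw2 h hh hmem }

open Classical in
theorem coeff_ofLvlAux (y : D.Up n) (g : G) : (D.ofLvlAux n y).coeff g =
    if g ∈ Gsub (Rg (n + 1)) then
      (((y.coeff (coord g (n + 1))) : D.A (Rg n)) : D.U).coeff (lo n g) else 0 := rfl

theorem ofLvlAux_mem (y : D.Up n) : D.ofLvlAux n y ∈ D.A (Rg (n + 1)) := by
  classical
  intro g hg
  by_contra h
  apply THS.mem_supp.1 hg
  rw [coeff_ofLvlAux, if_neg (show g ∉ Gsub (Rg (n + 1)) from h)]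

/-- The map `Up → A (n+1)`. -/
noncomputable def ofLvl (y : D.Up n) : D.A (Rg (n + 1)) := ⟨D.ofLvlAux n y, D.ofLvlAux_mem n y⟩

theorem ofLvl_toLvl (x : D.A (Rg (n + 1))) : D.ofLvl n (D.toLvl n x) = x := by
  classical
  apply Subtype.ext
  ext g
  show (D.ofLvlAux n (D.toLvl n x)).coeff g = _
  rw [coeff_ofLvlAux]
  by_cases hg : g ∈ Gsub (Rg (n + 1))
  · rw [if_pos hg, D.coeff_coeff_toLvl n _ _ (lo_mem n g), lo_add_lev_coord hg]
  · rw [if_neg hg]
    by_contra hne
    exact hg (x.2 (THS.mem_supp.2 (Ne.symm hne)))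

theorem toLvl_ofLvl (y : D.Up n) : D.toLvl n (D.ofLvl n y) = y := by
  classical
  ext v g
  show (D.slice n (D.ofLvlAux n y) v).coeff g = ((y.coeff v : D.A (Rg n)) : D.U).coeff g
  rw [coeff_slice]
  by_cases hg : g ∈ Gsub (Rg n)
  · rw [if_pos hg, coeff_ofLvlAux, if_pos (add_mem (Gsub_Rg_mono (Nat.le_succ n) hg) (lev_mem_Gsub n v)),
      coord_lo_add_lev hg, lo_add_lev hg]
  · rw [if_neg hg]
    by_contra hne
    exact hg ((y.coeff v : D.A (Rg n)).2 (THS.mem_supp.2 (Ne.symm hne)))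

theorem toLvl_add (x y : D.A (Rg (n + 1))) : D.toLvl n (x + y) = D.toLvl n x + D.toLvl n y := by
  classical
  ext v g
  show (D.slice n (x.1 + y.1) v).coeff g = (D.slice n x.1 v).coeff g + (D.slice n y.1 v).coeff g
  simp only [coeff_slice, THS.coeff_add]
  split_ifs <;> simp

/-- Coefficients of a `K n`-multiple in `A n`, where the scalar comes from `k`. -/
theorem coeff_algebraMap_smul (c : k) (z : D.A (Rg n)) (g : G) :
    ((algebraMap k (D.K (Rg n)) c • z : D.A (Rg n)) : D.U).coeff g = c • (z : D.U).coeff g := by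
  have : ((algebraMap k (D.K (Rg n)) c • z : D.A (Rg n)) : D.U) = c • (z : D.U) := by
    rw [smul_KA_coe, algebraMap_kK_coe, ← Algebra.smul_def]
  rw [this]
  rfl

/-- Product formula for `toLvl`. -/
theorem coeff_mul_eq (x y : D.A (Rg (n + 1))) (v : G0) {g : G} (hg : g ∈ Gsub (Rg n)) :
    ((x * y : D.A (Rg (n + 1))) : D.U).coeff (g + lev (n + 1) v)
      = (((D.toLvl n x * D.toLvl n y).coeff v : D.A (Rg n)) : D.U).coeff g := by
  classical
  have hsum : ∀ (S : Finset (G0 × G0)) (F : G0 × G0 → D.A (Rg n)),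
      ((∑ p ∈ S, F p : D.A (Rg n)) : D.U).coeff g = ∑ p ∈ S, ((F p : D.A (Rg n)) : D.U).coeff g := by
    intro S F
    have : ((∑ p ∈ S, F p : D.A (Rg n)) : D.U) = ∑ p ∈ S, ((F p : D.A (Rg n)) : D.U) :=
      map_sum (D.A (Rg n)).subtype _ _
    rw [this, D.coeff_sum]
  rw [THS.coeff_mul (D.toLvl n x) (D.toLvl n y) v, hsum]
  simp_rw [Bi_apply, coeff_algebraMap_smul]
  have hinner : ∀ p : G0 × G0, (((D.toLvl n x).coeff p.1 * (D.toLvl n y).coeff p.2 : D.A (Rg n)) : D.U).coeff g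
      = ∑ q ∈ Finset.antidiagonal (D.slice n x.1 p.1).isPWO_supp (D.slice n y.1 p.2).isPWO_supp g,
        D.eps q.1 q.2 • ((D.slice n x.1 p.1).coeff q.1 * (D.slice n y.1 p.2).coeff q.2) := by
    intro p
    exact THS.coeff_mul _ _ _
  simp_rw [hinner, Finset.smul_sum]
  rw [Finset.sum_sigma']
  show (x.1 * y.1).coeff (g + lev (n + 1) v) = _
  rw [THS.coeff_mul]
  refine Finset.sum_nbij'
    (fun ab => ⟨(coord ab.1 (n + 1), coord ab.2 (n + 1)), (lo n ab.1, lo n ab.2)⟩)
    (fun pq => (pq.2.1 + lev (n + 1) pq.1.1, pq.2.2 + lev (n + 1) pq.1.2)) ?_ ?_ ?_ ?_ ?_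
  · rintro ⟨a, b⟩ h
    obtain ⟨ha, hb, hab⟩ := Finset.mem_antidiagonal.1 h
    simp only at ha hb hab
    have haI := x.2 ha
    have hbI := y.2 hb
    have e1 : coord a (n + 1) + coord b (n + 1) = v := by
      rw [← coord_add, hab, coord_lo_add_lev hg]
    have e2 : lo n a + lo n b = g := by
      rw [← map_add, hab, lo_add_lev hg]
    refine Finset.mem_sigma.2 ⟨Finset.mem_antidiagonal.2 ⟨?_, ?_, e1⟩,
      Finset.mem_antidiagonal.2 ⟨?_, ?_, e2⟩⟩
    · intro h0
      have h1 : (D.slice n x.1 (coord a (n + 1))).coeff (lo n a) = 0 := by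
        rw [show D.slice n x.1 (coord a (n + 1)) = 0 from congrArg Subtype.val h0]
        rfl
      rw [D.coeff_slice_of_mem n _ _ (lo_mem n a), lo_add_lev_coord haI] at h1
      exact ha h1
    · intro h0
      have h1 : (D.slice n y.1 (coord b (n + 1))).coeff (lo n b) = 0 := by
        rw [show D.slice n y.1 (coord b (n + 1)) = 0 from congrArg Subtype.val h0]
        rfl
      rw [D.coeff_slice_of_mem n _ _ (lo_mem n b), lo_add_lev_coord hbI] at h1
      exact hb h1
    · show (D.slice n x.1 (coord a (n + 1))).coeff (lo n a) ≠ 0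
      rw [D.coeff_slice_of_mem n _ _ (lo_mem n a), lo_add_lev_coord haI]
      exact ha
    · show (D.slice n y.1 (coord b (n + 1))).coeff (lo n b) ≠ 0
      rw [D.coeff_slice_of_mem n _ _ (lo_mem n b), lo_add_lev_coord hbI]
      exact hb
  · rintro ⟨⟨v₁, v₂⟩, ⟨g₁, g₂⟩⟩ h
    obtain ⟨h1, h2⟩ := Finset.mem_sigma.1 h
    obtain ⟨hv1, hv2, hv⟩ := Finset.mem_antidiagonal.1 h1
    obtain ⟨hg1, hg2, hgg⟩ := Finset.mem_antidiagonal.1 h2
    simp only at hv1 hv2 hv hg1 hg2 hgg ⊢
    have hg1I := D.slice_mem n _ _ hg1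
    have hg2I := D.slice_mem n _ _ hg2
    refine Finset.mem_antidiagonal.2 ⟨?_, ?_, ?_⟩
    · rw [THS.mem_supp, D.coeff_slice_of_mem n _ _ hg1I] at hg1
      exact hg1
    · rw [THS.mem_supp, D.coeff_slice_of_mem n _ _ hg2I] at hg2
      exact hg2
    · show g₁ + lev (n + 1) v₁ + (g₂ + lev (n + 1) v₂) = g + lev (n + 1) v
      rw [← hgg, ← hv, lev_add]
      abel
  · rintro ⟨a, b⟩ h
    obtain ⟨ha, hb, hab⟩ := Finset.mem_antidiagonal.1 h
    simp only at ha hb hab ⊢
    rw [lo_add_lev_coord (x.2 ha), lo_add_lev_coord (y.2 hb)]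
  · rintro ⟨⟨v₁, v₂⟩, ⟨g₁, g₂⟩⟩ h
    obtain ⟨h1, h2⟩ := Finset.mem_sigma.1 h
    obtain ⟨hg1, hg2, hgg⟩ := Finset.mem_antidiagonal.1 h2
    simp only at hg1 hg2 hgg ⊢
    have hg1I := D.slice_mem n _ _ hg1
    have hg2I := D.slice_mem n _ _ hg2
    rw [coord_lo_add_lev hg1I, coord_lo_add_lev hg2I, lo_add_lev hg1I, lo_add_lev hg2I]
  · rintro ⟨a, b⟩ h
    obtain ⟨ha, hb, hab⟩ := Finset.mem_antidiagonal.1 h
    simp only at ha hb hab ⊢
    have haI := x.2 ha
    have hbI := y.2 hb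
    rw [D.coeff_slice_of_mem n _ _ (lo_mem n a), D.coeff_slice_of_mem n _ _ (lo_mem n b),
      lo_add_lev_coord haI, lo_add_lev_coord hbI]
    conv_lhs => rw [← lo_add_lev_coord haI, ← lo_add_lev_coord hbI]
    rw [D.eps_split n (lo_mem n a) (lo_mem n b), lo_add_lev_coord haI, lo_add_lev_coord hbI,
      smul_smul, mul_comm]

theorem toLvl_mul (x y : D.A (Rg (n + 1))) : D.toLvl n (x * y) = D.toLvl n x * D.toLvl n y := by
  classical
  ext v g
  show (D.slice n (x.1 * y.1) v).coeff g = _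
  rw [coeff_slice]
  by_cases hg : g ∈ Gsub (Rg n)
  · rw [if_pos hg]
    exact D.coeff_mul_eq n x y v hg
  · rw [if_neg hg]
    by_contra hne
    exact hg (((D.toLvl n x * D.toLvl n y).coeff v : D.A (Rg n)).2 (THS.mem_supp.2 (Ne.symm hne)))

/-- **The level-up isomorphism.** -/
noncomputable def levEquiv : D.A (Rg (n + 1)) ≃+* D.Up n where
  toFun := D.toLvl n
  invFun := D.ofLvl n
  left_inv := D.ofLvl_toLvl n
  right_inv := D.toLvl_ofLvl n
  map_mul' := D.toLvl_mul n
  map_add' := D.toLvl_add n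

@[simp] theorem levEquiv_apply (x : D.A (Rg (n + 1))) : D.levEquiv n x = D.toLvl n x := rfl

/-! ### Compatibility with the `K n`-structure -/

theorem Rg_K_le_A_succ : D.K (Rg n) ≤ D.A (Rg (n + 1)) :=
  le_trans (D.K_le_A _) (D.A_mono (Finset.range_subset_range.2 (Nat.le_succ _)))

theorem Rg_A_le_A_succ : D.A (Rg n) ≤ D.A (Rg (n + 1)) :=
  D.A_mono (Finset.range_subset_range.2 (Nat.le_succ _))

/-- `A (n+1)` is a `K n`-algebra. -/
noncomputable instance algKnAsucc : Algebra (D.K (Rg n)) (D.A (Rg (n + 1))) :=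
  (Subfield.inclusion (D.Rg_K_le_A_succ n)).toAlgebra'
    (fun c x => Subtype.ext (D.K_central c.2 x.1))

theorem coe_algebraMap_succ (c : D.K (Rg n)) :
    ((algebraMap (D.K (Rg n)) (D.A (Rg (n + 1))) c : D.A (Rg (n + 1))) : D.U) = c := rfl

theorem coe_smul_succ (c : D.K (Rg n)) (x : D.A (Rg (n + 1))) :
    ((c • x : D.A (Rg (n + 1))) : D.U) = c * x := rfl

/-- The inclusion `A n → A (n+1)`. -/
noncomputable def incA : D.A (Rg n) →ₐ[D.K (Rg n)] D.A (Rg (n + 1)) :=
  { Subfield.inclusion (D.Rg_A_le_A_succ n) with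
    commutes' := fun c => rfl }

@[simp] theorem coe_incA (a : D.A (Rg n)) : ((D.incA n a : D.A (Rg (n + 1))) : D.U) = a := rfl

/-- A series in `A n` is a constant. -/
theorem toLvl_incA (a : D.A (Rg n)) : D.toLvl n (D.incA n a) = THS.mono 0 a := by
  classical
  ext v g
  show (D.slice n (a : D.U) v).coeff g = _
  rw [coeff_slice, THS.coeff_mono]
  by_cases hg : g ∈ Gsub (Rg n)
  · rw [if_pos hg]
    by_cases hv : v = 0
    · subst hv
      rw [if_pos rfl, lev_zero, add_zero]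
    · rw [if_neg hv]
      have hnot : g + lev (n + 1) v ∉ (a : D.U).supp := by
        intro hm
        have h1 := a.2 hm
        have h2 := mem_Gsub_Rg.1 h1 (n + 1) (Nat.lt_succ_self n)
        rw [coord_lo_add_lev hg] at h2
        exact hv h2
      by_contra hne
      exact hnot (THS.mem_supp.2 hne)
  · rw [if_neg hg]
    by_cases hv : v = 0
    · subst hv
      rw [if_pos rfl]
      by_contra hne
      exact hg (a.2 (THS.mem_supp.2 (Ne.symm hne)))
    · rw [if_neg hv]
      rfl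

/-- A level monomial. -/
theorem toLvl_e (v : G0) :
    D.toLvl n ⟨D.e (lev (n + 1) v), D.e_mem_A (lev_mem_Gsub n v)⟩ = THS.mono v 1 := by
  classical
  ext w g
  show (D.slice n (D.e (lev (n + 1) v)) w).coeff g = _
  rw [coeff_slice, THS.coeff_mono]
  by_cases hg : g ∈ Gsub (Rg n)
  · rw [if_pos hg, coeff_e]
    by_cases hw : w = v
    · subst hw
      rw [if_pos rfl]
      by_cases hg0 : g = 0
      · subst hg0
        rw [zero_add, if_pos rfl]
        show (1 : k) = ((1 : D.U)).coeff 0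
        rw [THS.coeff_one, if_pos rfl]
      · rw [if_neg (by simpa using hg0)]
        show (0 : k) = ((1 : D.U)).coeff g
        rw [THS.coeff_one, if_neg hg0]
    · rw [if_neg hw, if_neg]
      · rfl
      · intro h
        apply hw
        have h1 := congrArg (fun z => coord z (n + 1)) h
        simpa [coord_lo_add_lev hg] using h1
  · rw [if_neg hg]
    by_cases hw : w = v
    · subst hw
      rw [if_pos rfl]
      show (0 : k) = ((1 : D.U)).coeff g
      rw [THS.coeff_one, if_neg]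
      rintro rfl
      exact hg (Gsub (Rg n)).zero_mem
    · rw [if_neg hw]
      rfl

/-- Generic product: `a e(lev v)` is a monomial of the level-up ring. -/
theorem toLvl_incA_mul_e (a : D.A (Rg n)) (v : G0) :
    D.toLvl n (D.incA n a * ⟨D.e (lev (n + 1) v), D.e_mem_A (lev_mem_Gsub n v)⟩) = THS.mono v a := by
  rw [toLvl_mul, toLvl_incA, toLvl_e, THS.mono_mul_mono, zero_add, Bichar.zero_left, one_smul, mul_one]

/-- `levEquiv` is `K n`-linear. -/
noncomputable def levAlg : D.A (Rg (n + 1)) ≃ₐ[D.K (Rg n)] D.Up n :=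
  { D.levEquiv n with
    commutes' := fun c => by
      show D.toLvl n (algebraMap (D.K (Rg n)) (D.A (Rg (n + 1))) c) = _
      have : algebraMap (D.K (Rg n)) (D.A (Rg (n + 1))) c
          = D.incA n (algebraMap (D.K (Rg n)) (D.A (Rg n)) c) := rfl
      rw [this, toLvl_incA, THS.algebraMap_eq] }

@[simp] theorem levAlg_apply (x : D.A (Rg (n + 1))) : D.levAlg n x = D.toLvl n x := rfl

/-! ### The abstract level-up ring -/

/-- The element `η s` of `MLvl` (`η = c_0`). -/
noncomputable def muOne : MLvl := toLex (toLex (Finsupp.single (OrderDual.toDual 0) 1), 1)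

theorem kappa_muOne : kappa muOne = 1 := rfl

/-- The level-up ring `A n → A (n+1)` as an abstract level-up ring, for any choice of the monomial
`μ₁` of `s`-degree `1`. -/
noncomputable def levLev (μ₁ : MLvl) (hμ₁ : kappa μ₁ = 1) :
    Lev MLvl (D.K (Rg n)) (D.A (Rg n)) (D.A (Rg (n + 1))) :=
  Lev.reinst (fun a b => LinearOrder.toDecidableEq a b) _
    (@Lev.transport _ _ _ _ _ _ (fun a b => LinearOrder.toDecidableEq a b) _ _ _ _ _ _ _
      (levTHS kappa (D.zK n) (D.zK_ne n) μ₁ hμ₁) (D.levAlg n))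

/-- The level-up ring with `μ₁ = η s`. -/
noncomputable abbrev L : Lev MLvl (D.K (Rg n)) (D.A (Rg n)) (D.A (Rg (n + 1))) :=
  D.levLev n muOne kappa_muOne

variable {n} {μ₁ : MLvl} {hμ₁ : kappa μ₁ = 1}

theorem levLev_inc (a : D.A (Rg n)) : (D.levLev n μ₁ hμ₁).inc a = D.incA n a := by
  apply (D.levAlg n).injective
  show (D.levAlg n) ((D.levAlg n).symm (THS.mono 0 a)) = _
  rw [AlgEquiv.apply_symm_apply, levAlg_apply, toLvl_incA]

theorem levLev_mon (m : MLvl) (j : ℕ) :
    (((D.levLev n μ₁ hμ₁).mon m j : D.A (Rg (n + 1))) : D.U)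
      = D.e (lev (n + 1) (toLex ((j : ℤ), m))) := by
  have : (D.levLev n μ₁ hμ₁).mon m j
      = ⟨D.e (lev (n + 1) (toLex ((j : ℤ), m))), D.e_mem_A (lev_mem_Gsub n _)⟩ := by
    apply (D.levAlg n).injective
    show (D.levAlg n) ((D.levAlg n).symm (THS.mono (idx m j) 1)) = _
    rw [AlgEquiv.apply_symm_apply, levAlg_apply, toLvl_e]
    rfl
  rw [this]

theorem levLev_ζ : (D.levLev n μ₁ hμ₁).ζ = D.zK n := rfl

theorem levLev_κ : (D.levLev n μ₁ hμ₁).κ = kappa := rfl

theorem mem_levLev_fil {m : ℕ} {x : D.A (Rg (n + 1))} :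
    x ∈ (D.levLev n μ₁ hμ₁).Φ.fil m ↔ ∀ g ∈ (x : D.U).supp, (m : ℤ) ≤ jj g (n + 1) := by
  constructor
  · intro h g hg
    have hgI := x.2 hg
    have h1 : ((D.toLvl n x).coeff (coord g (n + 1)) : D.A (Rg n)) ≠ 0 := by
      intro h0
      have h2 := D.coeff_coeff_toLvl n x (coord g (n + 1)) (lo_mem n g)
      rw [h0, lo_add_lev_coord hgI] at h2
      exact hg h2.symm
    exact h _ h1
  · intro h v hv
    have h1 : (D.toLvl n x).coeff v ≠ 0 := hv
    obtain ⟨g, hg⟩ : ∃ g, (((D.toLvl n x).coeff v : D.A (Rg n)) : D.U).coeff g ≠ 0 := by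
      by_contra hcon
      push Not at hcon
      exact h1 (Subtype.ext (THS.ext fun g => by rw [hcon g]; rfl))
    have hgI : g ∈ Gsub (Rg n) := ((D.toLvl n x).coeff v : D.A (Rg n)).2 (THS.mem_supp.2 hg)
    rw [D.coeff_coeff_toLvl n x v hgI] at hg
    have := h _ hg
    have e : jj (g + lev (n + 1) v) (n + 1) = (ofLex v).1 := by
      simp only [jj]
      rw [coord_lo_add_lev hgI]
    rw [e] at this
    exact this

/-- The coefficient maps of the abstract level-up ring. -/
theorem coe_levLev_coeff (m : MLvl) (j : ℕ) (x : D.A (Rg (n + 1))) :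
    (((D.levLev n μ₁ hμ₁).coeff m j x : D.A (Rg n)) : D.U)
      = D.slice n x.1 (toLex ((j : ℤ), m)) := rfl

/-- One step of a chain: the element of order `≥ 1` above `a` is in the valuation ring, with
residue `a`. -/
theorem mem_O_of_fil_one {x : D.A (Rg (n + 1))} {a : D.A (Rg n)}
    (h : x - (D.levLev n μ₁ hμ₁).inc a ∈ (D.levLev n μ₁ hμ₁).Φ.fil 1) :
    x.1 ∈ D.O n ∧ THS.restrict (Gsub (Rg n) : Set G) x.1 = a.1 := by
  classical
  rw [mem_levLev_fil, levLev_inc] at h
  have h1 : ∀ g, (x.1.coeff g - (a : D.U).coeff g ≠ 0) → (1 : ℤ) ≤ jj g (n + 1) := by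
    intro g hg
    exact_mod_cast h g hg
  have hpos : ∀ g, (1 : ℤ) ≤ jj g (n + 1) → g ∈ Gsub (Rg (n + 1)) → 0 ≤ hi n g := by
    intro g hg hI
    apply le_of_lt
    refine lt_iff.2 ⟨n + 1, fun i hi' => ?_, ?_⟩
    · have h3 := mem_Gsub_Rg.1 hI i hi'
      simp [hi', show n < i by omega, h3]
    · have hj : (0 : ℤ) < (ofLex (coord (hi n g) (n + 1))).1 := by
        simp only [coord_hi, Nat.lt_succ_self, if_true]
        exact lt_of_lt_of_le one_pos hg
      exact Prod.Lex.lt_iff.2 (Or.inl hj)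
  constructor
  · rw [mem_O]
    intro g hg
    by_cases hg1 : x.1.coeff g = (a : D.U).coeff g
    · have : g ∈ (a : D.U).supp := by
        rw [THS.mem_supp, ← hg1]
        exact hg
      rw [hi_eq_zero_iff.2 (a.2 this)]
    · exact hpos g (h1 g (sub_ne_zero.2 hg1)) (x.2 hg)
  · ext g
    rw [THS.coeff_restrict]
    by_cases hg : g ∈ (Gsub (Rg n) : Set G)
    · rw [if_pos hg]
      by_contra hne
      have h2 := h1 g (sub_ne_zero.2 hne)
      have h3 : jj g (n + 1) = 0 := by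
        have := mem_Gsub_Rg.1 hg (n + 1) (Nat.lt_succ_self n)
        simp [jj, this]
      omega
    · rw [if_neg hg]
      by_contra hne
      exact hg (a.2 (THS.mem_supp.2 (Ne.symm hne)))

/-- **The limit of a chain of the level-up rings.** -/
theorem exists_limit_of_chain {μ : ℕ → MLvl} {hμ : ∀ n, kappa (μ n) = 1}
    (X : ∀ n, D.A (Rg n))
    (h : ∀ n, X (n + 1) - (D.levLev n (μ n) (hμ n)).inc (X n) ∈ (D.levLev n (μ n) (hμ n)).Φ.fil 1) :
    ∃ L : D.U, ∀ n, ∃ hL : L ∈ D.O n, D.resn n ⟨L, hL⟩ = X n := by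
  obtain ⟨L, hL⟩ := D.exists_limit (fun n => (X n : D.U)) (fun n => (X n).2)
    (fun n => (D.mem_O_of_fil_one (h n)).1) (fun n => (D.mem_O_of_fil_one (h n)).2)
  refine ⟨L, fun n => ⟨(hL n).1, Subtype.ext ?_⟩⟩
  rw [coe_resn]
  exact (hL n).2

/-! ### The centre and the trace of the next stage, in slices -/

variable (n) in
theorem isPrimitiveRoot_zK : IsPrimitiveRoot (D.zK n) (D.p (n + 1)) :=
  (D.prim (n + 1)).map_of_injective (algebraMap k (D.K (Rg n))).injective

theorem Lam_lev_iff {g : G} (hg : g ∈ Gsub (Rg n)) (v : G0) :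
    g + lev (n + 1) v ∈ D.Lam (Rg (n + 1)) ↔ g ∈ D.Lam (Rg n) ∧
      (D.p (n + 1) : ℤ) ∣ (ofLex v).1 ∧ (D.p (n + 1) : ℤ) ∣ (ofLex (ofLex v).2).2 := by
  have hg0 := mem_Gsub_Rg.1 hg
  have hj : ∀ i, i ≠ n + 1 → jj (g + lev (n + 1) v) i = jj g i := by
    intro i hi
    simp [jj, coord_lev_ne (Ne.symm hi)]
  have hk : ∀ i, i ≠ n + 1 → kk (g + lev (n + 1) v) i = kk g i := by
    intro i hi
    simp [kk, coord_lev_ne (Ne.symm hi)]
  have hj1 : jj (g + lev (n + 1) v) (n + 1) = (ofLex v).1 := by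
    simp [jj, hg0 (n + 1) (Nat.lt_succ_self n)]
  have hk1 : kk (g + lev (n + 1) v) (n + 1) = (ofLex (ofLex v).2).2 := by
    simp [kk, hg0 (n + 1) (Nat.lt_succ_self n)]
  constructor
  · intro h
    refine ⟨⟨mem_Gsub.1 hg, fun i => ?_⟩, ?_, ?_⟩
    · by_cases hi : i = n + 1
      · subst hi
        have h0 := hg0 (n + 1) (Nat.lt_succ_self n)
        simp [jj, kk, h0]
      · rw [← hj i hi, ← hk i hi]
        exact h.2 i
    · rw [← hj1]
      exact (h.2 _).1
    · rw [← hk1]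
      exact (h.2 _).2
  · rintro ⟨h1, h2, h3⟩
    refine ⟨mem_Gsub.1 (add_mem (Gsub_Rg_mono (Nat.le_succ n) hg) (lev_mem_Gsub n v)), fun i => ?_⟩
    by_cases hi : i = n + 1
    · subst hi
      rw [hj1, hk1]
      exact ⟨h2, h3⟩
    · rw [hj i hi, hk i hi]
      exact h1.2 i

/-- Membership in the next centre, in slices. -/
theorem mem_K_succ_iff (x : D.A (Rg (n + 1))) :
    (x : D.U) ∈ D.K (Rg (n + 1)) ↔ ∀ v : G0, D.slice n x.1 v ∈ D.K (Rg n) ∧
      (D.slice n x.1 v ≠ 0 → (D.p (n + 1) : ℤ) ∣ (ofLex v).1 ∧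
        (D.p (n + 1) : ℤ) ∣ (ofLex (ofLex v).2).2) := by
  classical
  constructor
  · intro h v
    have key : ∀ g, g ∈ (D.slice n x.1 v).supp → g ∈ D.Lam (Rg n) ∧
        (D.p (n + 1) : ℤ) ∣ (ofLex v).1 ∧ (D.p (n + 1) : ℤ) ∣ (ofLex (ofLex v).2).2 := by
      intro g hg
      have hgI : g ∈ Gsub (Rg n) := D.slice_mem n _ _ hg
      rw [THS.mem_supp, D.coeff_slice_of_mem n _ _ hgI] at hg
      exact (D.Lam_lev_iff hgI v).1 (h hg)
    refine ⟨fun g hg => (key g hg).1, fun hne => ?_⟩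
    obtain ⟨g, hg⟩ : ∃ g, (D.slice n x.1 v).coeff g ≠ 0 := by
      by_contra hcon
      push Not at hcon
      exact hne (THS.ext fun g => by rw [hcon g]; rfl)
    exact (key g hg).2
  · intro h g hg
    have hgI := x.2 hg
    rw [← lo_add_lev_coord hgI]
    have hg2 : (D.slice n x.1 (coord g (n + 1))).coeff (lo n g) ≠ 0 := by
      rw [D.coeff_slice_of_mem n _ _ (lo_mem n g), lo_add_lev_coord hgI]
      exact hg
    obtain ⟨h1, h2⟩ := h (coord g (n + 1))
    refine (D.Lam_lev_iff (lo_mem n g) _).2 ⟨h1 hg2, h2 ?_⟩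
    intro h0
    rw [h0] at hg2
    exact hg2 rfl

/-- The slices of the trace of the next stage. -/
theorem slice_τ_succ (x : D.A (Rg (n + 1))) (v : G0)
    [Decidable ((D.p (n + 1) : ℤ) ∣ (ofLex v).1 ∧ (D.p (n + 1) : ℤ) ∣ (ofLex (ofLex v).2).2)] :
    D.slice n ((D.τ (Rg (n + 1)) x : D.K (Rg (n + 1))) : D.U) v =
      if (D.p (n + 1) : ℤ) ∣ (ofLex v).1 ∧ (D.p (n + 1) : ℤ) ∣ (ofLex (ofLex v).2).2 then
        ((D.τ (Rg n) ⟨D.slice n x.1 v, D.slice_mem n x.1 v⟩ : D.K (Rg n)) : D.U) else 0 := by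
  classical
  ext g
  rw [coeff_slice]
  by_cases hg : g ∈ Gsub (Rg n)
  · rw [if_pos hg, τ_coe, THS.coeff_restrict]
    by_cases hd : (D.p (n + 1) : ℤ) ∣ (ofLex v).1 ∧ (D.p (n + 1) : ℤ) ∣ (ofLex (ofLex v).2).2
    · rw [if_pos hd, τ_coe, THS.coeff_restrict]
      by_cases hL : g ∈ (D.Lam (Rg n) : Set G)
      · rw [if_pos (show g + lev (n + 1) v ∈ (D.Lam (Rg (n + 1)) : Set G) from
          (D.Lam_lev_iff hg v).2 ⟨hL, hd⟩), if_pos hL]
        exact (D.coeff_slice_of_mem n _ _ hg).symm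
      · rw [if_neg (show g + lev (n + 1) v ∉ (D.Lam (Rg (n + 1)) : Set G) from
          fun h => hL ((D.Lam_lev_iff hg v).1 h).1), if_neg hL]
    · rw [if_neg hd, if_neg (show g + lev (n + 1) v ∉ (D.Lam (Rg (n + 1)) : Set G) from
        fun h => hd ((D.Lam_lev_iff hg v).1 h).2)]
      rfl
  · rw [if_neg hg]
    by_cases hd : (D.p (n + 1) : ℤ) ∣ (ofLex v).1 ∧ (D.p (n + 1) : ℤ) ∣ (ofLex (ofLex v).2).2
    · rw [if_pos hd]
      symm
      by_contra hne
      exact hg (D.K_le_A _ (D.τ (Rg n) ⟨D.slice n x.1 v, D.slice_mem n x.1 v⟩).2 (THS.mem_supp.2 hne))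
    · rw [if_neg hd]
      rfl

end LevelData

end Crest.Agent.Kurosh.Levels
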