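/-
S0270, M1b (helper69): the tower of `LU.Tw0`, `LU.Tw` realised in the universe of `Levels`.
-/
import Crest.Agent.Kurosh.LevelsUp
import Crest.Agent.Kurosh.LevelUp

set_option autoImplicit false
set_option linter.unusedVariables false

namespace Crest.Agent.Kurosh.Tower

open Levels Levels.LevelData Hensel LU

/-- The level data of the tower. -/
noncomputable abbrev DD : LevelData ℂ := dataOf (fun N => 100 * N ^ 2 + 100)

/-- The ambient ring and the subfields. -/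
noncomputable instance tw0 : LU.Tw0 where
  U := DD.U
  Kn n := DD.K (Rg n)
  An n := DD.A (Rg n)
  Kn_le_An n x hx := DD.K_le_A _ hx
  Kn_le_succ n := DD.K_mono (Finset.range_subset_range.2 (Nat.le_succ _))
  An_le_succ n := fun x hx => DD.A_mono (Finset.range_subset_range.2 (Nat.le_succ _)) hx
  central n x hx y := DD.K_central hx y

open LU.Tw0

/-- The trace. -/
noncomputable def τT (n : ℕ) : An n →ₗ[Kn n] Kn n := DD.τ (Rg n)

theorem τT_isTrace (n : ℕ) : Valued.IsTraceForm (τT n) :=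
  ⟨DD.τ_comm (Rg n), DD.τ_one (Rg n), DD.τ_nondeg (Rg n)⟩

theorem mem_range_algebraMap_succ (n : ℕ) (x : An (n + 1)) :
    x ∈ (algebraMap (Kn (n + 1)) (An (n + 1))).range ↔ (x : U) ∈ DD.K (Rg (n + 1)) := by
  constructor
  · rintro ⟨c, rfl⟩
    exact c.2
  · intro h
    exact ⟨⟨x.1, h⟩, rfl⟩

theorem mem_range_algebraMap (n : ℕ) (x : An n) :
    x ∈ (algebraMap (Kn n) (An n)).range ↔ (x : U) ∈ DD.K (Rg n) := by
  constructor
  · rintro ⟨c, rfl⟩
    exact c.2
  · intro h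
    exact ⟨⟨x.1, h⟩, rfl⟩

/-- The level-up. -/
noncomputable def lvT (n : ℕ) : Lv (Kn n) (An n) (Kn (n + 1)) (An (n + 1)) (τT n) where
  m := DD.p (n + 1)
  m_prime := Data.dataOf_prime _ n
  ζ := DD.zK n
  ζ_prim := DD.isPrimitiveRoot_zK n
  ζ_ne := DD.zK_ne n
  φ := DD.levEquiv n
  φ_alg c := DD.toLvl_incA n (algebraMap (DD.K (Rg n)) (DD.A (Rg n)) c)
  lev := DD.levLev n mu1 κ_mu1
  lev_κ := rfl
  lev_μ₁ := rfl
  lev_ζ := rfl
  lev_mono x m j := by
    have : (DD.levLev n mu1 κ_mu1).mono x m j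
        = DD.incA n x * ⟨DD.e (lev (n + 1) (toLex ((j : ℤ), m))), DD.e_mem_A (lev_mem_Gsub n _)⟩ := by
      show (DD.levLev n mu1 κ_mu1).inc x * (DD.levLev n mu1 κ_mu1).mon m j = _
      rw [levLev_inc]
      congr 1
      exact Subtype.ext (DD.levLev_mon m j)
    exact (congrArg (DD.toLvl n) this).trans (DD.toLvl_incA_mul_e n x _)
  lev_coeff m j x := rfl
  lev_fil j x := Iff.rfl
  mem_K' x := by
    rw [mem_range_algebraMap_succ]
    show (x : DD.U) ∈ DD.K (Rg (n + 1)) ↔ _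
    rw [DD.mem_K_succ_iff x]
    constructor
    · intro h g hg
      have hg' : (DD.toLvl n x).coeff g ≠ 0 := hg
      obtain ⟨h1, h2⟩ := h g
      have hne : DD.slice n x.1 g ≠ 0 := fun h0 => hg' (Subtype.ext h0)
      refine ⟨h2 hne, ?_⟩
      exact (mem_range_algebraMap n _).2 h1
    · intro h v
      by_cases hv : (DD.toLvl n x).coeff v = 0
      · have h0 : DD.slice n x.1 v = 0 := congrArg Subtype.val hv
        refine ⟨?_, fun h1 => absurd h0 h1⟩
        rw [h0]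
        exact (DD.K (Rg n)).zero_mem
      · obtain ⟨h1, h2⟩ := h v hv
        exact ⟨(mem_range_algebraMap n _).1 h2, fun _ => h1⟩
  τ' := DD.τ (Rg (n + 1))
  τ'_coeff x g := by
    classical
    apply Subtype.ext
    have h1 := DD.slice_τ_succ x g
    refine Eq.trans h1 ?_
    by_cases hg : (DD.p (n + 1) : ℤ) ∣ (ofLex g).1 ∧ (DD.p (n + 1) : ℤ) ∣ (ofLex (ofLex g).2).2
    · rw [if_pos hg, if_pos (show g ∈ centLat (DD.p (n + 1)) from hg)]
      rfl
    · rw [if_neg hg, if_neg (show g ∉ centLat (DD.p (n + 1)) from hg)]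
      rfl

/-! ### The start -/

theorem p_zero : DD.p 0 = 1 := rfl

/-- At stage `0` the algebra is its centre. -/
theorem A_zero_le_K {x : DD.U} (hx : x ∈ DD.A (Rg 0)) : x ∈ DD.K (Rg 0) := by
  intro g hg
  have hgI : g ∈ Gsub (Rg 0) := hx hg
  refine ⟨mem_Gsub.1 hgI, fun i => ?_⟩
  by_cases hi : i = 0
  · subst hi
    rw [p_zero]
    simp
  · have h0 := mem_Gsub_Rg.1 hgI i (Nat.pos_of_ne_zero hi)
    simp [jj, kk, h0]

/-- The exponent of `c_{0,ν}`. -/
noncomputable def phi (ν : ℕ) : G →+ ℂ where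
  toFun g := (((ofLex (cc g 0) : ℕᵒᵈ →₀ ℤ) (OrderDual.toDual ν) : ℤ) : ℂ)
  map_zero' := by
    simp
  map_add' a b := by
    rw [cc_add, ofLex_add, Finsupp.add_apply, Int.cast_add]

theorem phi_gc (ν μ : ℕ) [Decidable (μ = ν)] : phi μ (gc 0 ν) = if μ = ν then 1 else 0 := by
  have h1 : cc (gc 0 ν) 0 = toLex (Finsupp.single (OrderDual.toDual ν) 1) := by
    simp [cc, gc, mkLvl]
  show (((ofLex (cc (gc 0 ν) 0) : ℕᵒᵈ →₀ ℤ) (OrderDual.toDual μ) : ℤ) : ℂ) = _
  rw [h1, ofLex_toLex]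
  by_cases h : μ = ν
  · subst h
    simp
  · have : OrderDual.toDual ν ≠ OrderDual.toDual μ := fun h' => h (OrderDual.toDual.injective h').symm
    simp [h]

/-- The Euler derivation of `c_{0,ν}` on `A 0`. -/
noncomputable def E (ν : ℕ) (x : An 0) : An 0 :=
  ⟨THS.euler (phi ν) (x : DD.U), fun g hg => x.2 (THS.supp_euler_subset _ _ hg)⟩

theorem E_add (ν : ℕ) (x y : An 0) : E ν (x + y) = E ν x + E ν y :=
  Subtype.ext (map_add (THS.euler (phi ν)) x.1 y.1)

theorem E_mul (ν : ℕ) (x y : An 0) : E ν (x * y) = E ν x * y + x * E ν y :=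
  Subtype.ext (THS.euler_mul (phi ν) x.1 y.1)

theorem central0 (x y : An 0) : x * y = y * x :=
  Subtype.ext (DD.K_central (A_zero_le_K x.2) y.1)

/-- The start. -/
noncomputable def ρ0 : Fin 2 → An 0 := fun v =>
  ⟨DD.c 0 v.val, DD.K_le_A _ (DD.c_mem_K (Finset.self_mem_range_succ 0) v.val)⟩

theorem ρ0_ne (v : Fin 2) : ρ0 v ≠ 0 := fun h => DD.c_ne_zero 0 v.val (congrArg Subtype.val h)

theorem E_ρ0 (ν : ℕ) (v : Fin 2) [Decidable (ν = v.val)] :
    E ν (ρ0 v) = if ν = v.val then ρ0 v else 0 := by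
  apply Subtype.ext
  show THS.euler (phi ν) (DD.c 0 v.val) = _
  have : THS.euler (phi ν) (DD.c 0 v.val) = phi ν (gc 0 v.val) • DD.c 0 v.val := by
    classical
    ext g
    rw [THS.coeff_euler, THS.coeff_smul]
    by_cases hg : g = gc 0 v.val
    · rw [hg]
    · have : (DD.c 0 v.val).coeff g = 0 := by
        unfold LevelData.c
        rw [DD.coeff_e, if_neg hg]
      rw [this, smul_zero, smul_zero]
  rw [this, phi_gc]
  by_cases h : ν = v.val
  · rw [if_pos h, if_pos h, one_smul]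
    rfl
  · rw [if_neg h, if_neg h, zero_smul]
    rfl

theorem start_T' (t : Fin 2 → An 0) : ∃ D : An 0 → An 0, (∀ x y, D (x + y) = D x + D y) ∧
    (∀ x y, D (x * y) = D x * y + x * D y) ∧ (∀ c : ℚ, D (algebraMap ℚ _ c) = 0) ∧
    (∀ c : Kn 0, ∃ c' : Kn 0, D (algebraMap (Kn 0) (An 0) c) = algebraMap (Kn 0) (An 0) c') ∧
    t = fun v => D (ρ0 v) := by
  classical
  let a : An 0 := t 0 * (ρ0 0)⁻¹
  let b : An 0 := t 1 * (ρ0 1)⁻¹
  let D : An 0 → An 0 := fun x => a * E 0 x + b * E 1 x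
  have hadd : ∀ x y, D (x + y) = D x + D y := by
    intro x y
    simp only [D, E_add, mul_add]
    abel
  have hmul : ∀ x y, D (x * y) = D x * y + x * D y := by
    intro x y
    simp only [D, E_mul, mul_add, add_mul]
    rw [mul_assoc a, mul_assoc b, ← mul_assoc a x, ← mul_assoc b x, central0 a x, central0 b x]
    simp only [mul_assoc]
    abel
  have hone : D 1 = 0 := by
    have h := hmul 1 1
    rw [mul_one, one_mul, mul_one] at h
    simpa using h
  refine ⟨D, hadd, hmul, ?_, ?_, ?_⟩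
  · intro c
    let f : An 0 →+ An 0 := { toFun := D, map_zero' := by simpa using hadd 0 0, map_add' := hadd }
    have h1 : (algebraMap ℚ (An 0) c) = c • (1 : An 0) := by
      rw [Algebra.smul_def, mul_one]
    rw [h1]
    have h2 : f (c • (1 : An 0)) = c • f 1 := map_rat_smul f c 1
    have h3 : f 1 = 0 := hone
    rw [h3, smul_zero] at h2
    exact h2
  · intro c
    exact ⟨⟨(D (algebraMap (Kn 0) (An 0) c)).1, A_zero_le_K (D _).2⟩, rfl⟩
  · funext v
    fin_cases v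
    · show t 0 = a * E 0 (ρ0 0) + b * E 1 (ρ0 0)
      rw [E_ρ0, E_ρ0]
      simp only [a, Fin.val_zero]
      simp [ρ0_ne]
    · show t 1 = a * E 0 (ρ0 1) + b * E 1 (ρ0 1)
      rw [E_ρ0, E_ρ0]
      simp only [b, Fin.val_one]
      simp [ρ0_ne]

/-- **The tower.** -/
noncomputable instance tw : LU.Tw where
  N n := DD.deg (Rg n)
  N_pos n := Finset.prod_pos fun i _ => DD.p_pos i
  fin n := DD.finiteDimensional (Rg n)
  finrank_eq n := DD.finrank_A (Rg n)
  τ := τT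
  hτ := τT_isTrace
  lv := lvT
  N_succ n := Finset.prod_range_succ _ _
  m_big n := Data.dataOf_ge (fun N => 100 * N ^ 2 + 100) n
  τ_succ n := rfl
  N_zero := by
    show DD.deg (Rg 0) = 1
    simp [LevelData.deg, p_zero]
  ρ₀ := ρ0
  start_T := start_T'

/-! ### The limit of a run -/

open LU.Tw

/-- The chain condition in terms of the tower gives a limit in the universe. -/
theorem exists_limit_of_run (Z : ∀ n, An n)
    (h : ∀ n, Z (n + 1) - (lv n).lev.inc (Z n) ∈ (lv n).lev.Φ.fil 1) :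
    ∃ L : U, ∀ n, ∃ hL : L ∈ DD.O n, DD.resn n ⟨L, hL⟩ = Z n :=
  DD.exists_limit_of_chain (μ := fun _ => mu1) (hμ := fun _ => κ_mu1) Z h

/-- The residue hypothesis of `Limit.kurosh_final` for a chain `Z` in the tower. -/
theorem hLevels_of_run {x y : U} (hx : ∀ n, x ∈ DD.O n) (hy : ∀ n, y ∈ DD.O n)
    (hC : ∀ M : ℕ, ∃ n, M ≤ n ∧ ∀ a : An n, a * DD.resn n ⟨x, hx n⟩ = DD.resn n ⟨x, hx n⟩ * a →
      a * DD.resn n ⟨y, hy n⟩ = DD.resn n ⟨y, hy n⟩ * a →
      ∃ c : Kn n, a = algebraMap (Kn n) (An n) c) (M : ℕ) :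
    ∃ (K : Type) (A : Type) (_ : Field K) (_ : DivisionRing A)
      (_ : Algebra K A) (_ : FiniteDimensional K A) (O : Subring U) (res : O →+* A)
      (hx : x ∈ O) (hy : y ∈ O),
      (∀ a : A, a * res ⟨x, hx⟩ = res ⟨x, hx⟩ * a → a * res ⟨y, hy⟩ = res ⟨y, hy⟩ * a →
        ∃ c : K, a = algebraMap K A c) ∧
      ∃ (u v : A) (ζ : K), v * u = ζ • (u * v) ∧ u ≠ 0 ∧ v ≠ 0 ∧
        Function.Injective fun i : Fin M => ζ ^ i.val := by
  obtain ⟨n, hn, hCn⟩ := hC M
  have hmem : n ∈ Rg n := Finset.self_mem_range_succ n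
  have hpM : M ≤ DD.p n := le_trans hn (Data.le_p _ n)
  refine ⟨Kn n, An n, inferInstance, inferInstance, inferInstance, inferInstance, DD.O n, DD.resn n,
    hx n, hy n, hCn, ⟨_, DD.s_mem_A hmem⟩, ⟨_, DD.s'_mem_A hmem⟩,
    algebraMap ℂ (DD.K (Rg n)) (DD.ζ n), ?_, ?_, ?_, ?_⟩
  · apply Subtype.ext
    show DD.s' n * DD.s n
      = ((algebraMap ℂ (DD.K (Rg n)) (DD.ζ n) : DD.K (Rg n)) : DD.U) * (DD.s n * DD.s' n)
    rw [DD.s'_mul_s, DD.algebraMap_kK_coe, ← Algebra.smul_def]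
  · exact fun h => DD.s_ne_zero n (congrArg Subtype.val h)
  · exact fun h => DD.s'_ne_zero n (congrArg Subtype.val h)
  · intro i i' h
    have h1 : algebraMap ℂ (DD.K (Rg n)) (DD.ζ n ^ i.val) = algebraMap ℂ (DD.K (Rg n)) (DD.ζ n ^ i'.val) := by
      simpa using h
    have h2 : DD.ζ n ^ i.val = DD.ζ n ^ i'.val := (algebraMap ℂ (DD.K (Rg n))).injective h1
    exact Fin.ext ((DD.prim n).pow_inj (lt_of_lt_of_le i.2 hpM) (lt_of_lt_of_le i'.2 hpM) h2)

/-! ### Euler derivations of the tower -/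

section Euler

variable {F : Subfield U} [CentF F]

/-- The Euler derivation of `φ` on the universe. -/
noncomputable def eul (φ : G →+ ℂ) : DD.U →ₗ[ℂ] DD.U := THS.euler φ

/-- The Euler derivation of `φ` on `An m`. -/
noncomputable def eulA (φ : G →+ ℂ) (m : ℕ) (x : An m) : An m :=
  ⟨eul φ (x : DD.U), fun _ hg => x.2 (THS.supp_euler_subset _ _ hg)⟩

@[simp] theorem coe_eulA (φ : G →+ ℂ) (m : ℕ) (x : An m) :
    ((eulA φ m x : An m) : U) = eul φ (x : DD.U) := rfl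

/-- The Euler derivation of `φ` on `Kn m`. -/
noncomputable def eulK (φ : G →+ ℂ) (m : ℕ) (x : Kn m) : Kn m :=
  ⟨eul φ (x : DD.U), fun _ hg => x.2 (THS.supp_euler_subset _ _ hg)⟩

theorem eulA_add (φ : G →+ ℂ) (m : ℕ) (x y : An m) : eulA φ m (x + y) = eulA φ m x + eulA φ m y :=
  Subtype.ext (map_add (eul φ) x.1 y.1)

theorem eulA_mul (φ : G →+ ℂ) (m : ℕ) (x y : An m) :
    eulA φ m (x * y) = eulA φ m x * y + x * eulA φ m y :=
  Subtype.ext (THS.euler_mul φ x.1 y.1)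

/-- `eulA` is a derivation over `F` if it kills `F`. -/
theorem eulA_isDer (φ : G →+ ℂ) (m : ℕ) [Fact (F ≤ Kn m)]
    (hF : ∀ f ∈ F, eul φ (f : DD.U) = 0) : State.IsDer (F := F) (eulA φ m) where
  add := eulA_add φ m
  mul := eulA_mul φ m
  alg r := Subtype.ext (hF r.1 r.2)

theorem eulA_algebraMap (φ : G →+ ℂ) (m : ℕ) (c : Kn m) :
    eulA φ m (algebraMap (Kn m) (An m) c) = algebraMap (Kn m) (An m) (eulK φ m c) := rfl

theorem eulA_K (φ : G →+ ℂ) (m : ℕ) (c : Kn m) :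
    ∃ c' : Kn m, eulA φ m (algebraMap (Kn m) (An m) c) = algebraMap (Kn m) (An m) c' :=
  ⟨_, eulA_algebraMap φ m c⟩

theorem restrict_euler (φ : G →+ ℂ) (P : Set G) (x : DD.U) :
    THS.restrict P (eul φ x) = eul φ (THS.restrict P x) := by
  classical
  ext g
  show (THS.restrict P (THS.euler φ x)).coeff g = (THS.euler φ (THS.restrict P x)).coeff g
  rw [THS.coeff_restrict, THS.coeff_euler, THS.coeff_euler, THS.coeff_restrict]
  split_ifs <;> simp

/-- The trace commutes with the Euler derivations. -/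
theorem τ_eulA (φ : G →+ ℂ) (m : ℕ) (x : An m) : τ m (eulA φ m x) = eulK φ m (τ m x) :=
  Subtype.ext (restrict_euler φ _ _)

/-- The Euler derivation of `φ` vanishes on series supported where `φ` does. -/
theorem euler_eq_zero_of_mem {φ : G →+ ℂ} {n0 : ℕ} (hφ : ∀ g ∈ Gsub (Rg n0), φ g = 0) {x : DD.U}
    (hx : x ∈ DD.A (Rg n0)) : eul φ x = 0 :=
  THS.euler_eq_zero_of_supp φ x fun g hg => hφ g (hx hg)

/-- The coordinate `j_i` as an additive map. -/
noncomputable def fJ (i : ℕ) : G →+ ℂ where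
  toFun g := ((jj g i : ℤ) : ℂ)
  map_zero' := by simp
  map_add' a b := by simp

/-- The coordinate `K_i` as an additive map. -/
noncomputable def fK (i : ℕ) : G →+ ℂ where
  toFun g := ((kk g i : ℤ) : ℂ)
  map_zero' := by simp
  map_add' a b := by simp

/-- The coordinate `c_{i,ν}` as an additive map. -/
noncomputable def fC (i ν : ℕ) : G →+ ℂ where
  toFun g := (((ofLex (cc g i) : ℕᵒᵈ →₀ ℤ) (OrderDual.toDual ν) : ℤ) : ℂ)
  map_zero' := by simp
  map_add' a b := by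
    rw [cc_add, ofLex_add, Finsupp.add_apply, Int.cast_add]

theorem coord_eq_zero_of_coords {g : G} {i : ℕ} (h1 : jj g i = 0) (h2 : kk g i = 0)
    (h3 : ∀ ν : ℕ, (ofLex (cc g i) : ℕᵒᵈ →₀ ℤ) (OrderDual.toDual ν) = 0) : coord g i = 0 := by
  apply (ofLex (α := ℤ × MLvl)).injective
  refine Prod.ext h1 ?_
  apply (ofLex (α := CExp × ℤ)).injective
  refine Prod.ext ?_ h2
  apply (ofLex (α := ℕᵒᵈ →₀ ℤ)).injective
  exact Finsupp.ext fun ν => h3 (OrderDual.ofDual ν)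

/-- A series killed by all the Euler derivations of the levels above `n0` lives at `n0`. -/
theorem mem_A_of_euler {n0 : ℕ} {x : DD.U}
    (h : ∀ φ : G →+ ℂ, (∀ g ∈ Gsub (Rg n0), φ g = 0) → eul φ x = 0) : x ∈ DD.A (Rg n0) := by
  classical
  intro g hg
  show g ∈ Gsub (Rg n0)
  rw [mem_Gsub_Rg]
  intro i hi
  have key : ∀ φ : G →+ ℂ, (∀ g ∈ Gsub (Rg n0), φ g = 0) → φ g = 0 := by
    intro φ hφ
    have h1 : φ g • x.coeff g = 0 := congrArg (fun z : DD.U => z.coeff g) (h φ hφ)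
    exact (smul_eq_zero.1 h1).resolve_right hg
  have hlow : ∀ g' ∈ Gsub (Rg n0), coord g' i = 0 := fun g' hg' => mem_Gsub_Rg.1 hg' i hi
  apply coord_eq_zero_of_coords
  · have : ((jj g i : ℤ) : ℂ) = 0 := key (fJ i) (fun g' hg' => by
      show ((jj g' i : ℤ) : ℂ) = 0
      simp [jj, hlow g' hg'])
    exact_mod_cast this
  · have : ((kk g i : ℤ) : ℂ) = 0 := key (fK i) (fun g' hg' => by
      show ((kk g' i : ℤ) : ℂ) = 0
      simp [kk, hlow g' hg'])
    exact_mod_cast this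
  · intro ν
    have : (((ofLex (cc g i) : ℕᵒᵈ →₀ ℤ) (OrderDual.toDual ν) : ℤ) : ℂ) = 0 :=
      key (fC i ν) (fun g' hg' => by
        show (((ofLex (cc g' i) : ℕᵒᵈ →₀ ℤ) (OrderDual.toDual ν) : ℤ) : ℂ) = 0
        simp [cc, hlow g' hg'])
    exact_mod_cast this

end Euler

/-! ### Residues of states, words and traces -/

section Res

/-- The trace and the residue. -/
theorem τ_res {n0 m : ℕ} (h : n0 ≤ m) (x : An m) (hx : (x : U) ∈ DD.O n0) :
    THS.restrict (R := ℂ) (ε := DD.eps) (Gsub (Rg n0) : Set G) ((τ m x : Kn m) : DD.U)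
      = ((τ n0 (DD.resn n0 ⟨x, hx⟩) : Kn n0) : DD.U) := by
  classical
  have hI : Rg n0 ⊆ Rg m := Finset.range_subset_range.2 (by omega)
  have key : THS.restrict (Gsub (Rg n0) : Set G)
        (THS.restrict (DD.Lam (Rg m) : Set G) (x : DD.U))
      = THS.restrict (DD.Lam (Rg n0) : Set G) ((DD.resn n0 ⟨x, hx⟩ : DD.A (Rg n0)) : DD.U) := by
    rw [coe_resn]
    ext g
    simp only [THS.coeff_restrict]
    by_cases hg : g ∈ (Gsub (Rg n0) : Set G)
    · simp only [hg, if_true, SetLike.mem_coe, DD.mem_Lam_iff_of_le hI hg]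
    · have : g ∉ DD.Lam (Rg n0) := fun hL => hg (DD.Lam_le_Gsub _ hL)
      simp [hg, this]
  exact key

/-- If the trace of `x` lives at stage `n0`, it is the trace of the residue. -/
theorem τ_eq_of_mem {n0 m : ℕ} (h : n0 ≤ m) (x : An m) (hx : (x : U) ∈ DD.O n0)
    (hτ : ((τ m x : Kn m) : DD.U) ∈ DD.A (Rg n0)) :
    ((τ m x : Kn m) : U) = ((τ n0 (DD.resn n0 ⟨x, hx⟩) : Kn n0) : U) := by
  rw [← τ_res h x hx]
  exact (THS.restrict_eq_self hτ).symm

/-- The states above `Z0`. -/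
theorem above_res {a b : Σ n, Stt n} (h : Above a b) :
    a.1 ≤ b.1 ∧ ∀ v, ∃ hv : ((b.2 v : An b.1) : DD.U) ∈ DD.O a.1,
      ((DD.resn a.1 ⟨_, hv⟩ : DD.A (Rg a.1)) : DD.U) = ((a.2 v : An a.1) : DD.U) := by
  induction h with
  | refl =>
    refine ⟨le_rfl, fun v => ⟨DD.A_le_O _ (a.2 v).2, DD.resn_coe_of_mem _ (a.2 v).2⟩⟩
  | tail _ hstep ih =>
    obtain ⟨hle, ih⟩ := ih
    cases hstep with
    | mk n ρ X hX =>
      refine ⟨hle.trans (Nat.le_succ _), fun v => ?_⟩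
      obtain ⟨hO, hres⟩ := DD.mem_O_of_fil_one (hX v)
      obtain ⟨hv, hv2⟩ := ih v
      have hOa : ((X v : An (n + 1)) : DD.U) ∈ DD.O a.1 :=
        DD.mem_O_of_res hle hO (by rw [hres]; exact hv)
      refine ⟨hOa, ?_⟩
      rw [← hv2, coe_resn, coe_resn]
      ext g
      simp only [THS.coeff_restrict]
      by_cases hg : g ∈ (Gsub (Rg a.1) : Set G)
      · simp only [hg, if_true]
        have hg' : g ∈ (Gsub (Rg n) : Set G) := Gsub_Rg_mono hle hg
        rw [← hres, THS.coeff_restrict_of_mem _ hg']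
      · simp [hg]

section Words

variable {F : Subfield U} [CentF F]

/-- The value in `U` of a word at a state. -/
theorem coe_ev {n : ℕ} [Fact (F ≤ Kn n)] (Z : Stt n) (a : FreeAlgebra F (Fin 2)) :
    ((State.ev Z a : An n) : U) = State.ev (fun v => ((Z v : An n) : U)) a := by
  induction a using FreeAlgebra.induction with
  | grade0 r =>
    simp only [AlgHom.commutes]
    rfl
  | grade1 i => simp
  | mul a b ha hb => simp only [map_mul, ← ha, ← hb]; rfl
  | add a b ha hb => simp only [map_add, ← ha, ← hb]; rfl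

/-- Words: the residue of the value at a state above `Z0` is the value at `Z0`. -/
theorem ev_res {n0 m : ℕ} (h : F ≤ Kn n0) {Z0 : Stt n0} {Z : Stt m}
    (hZ : ∀ v, ∃ hv : ((Z v : An m) : DD.U) ∈ DD.O n0,
      ((DD.resn n0 ⟨_, hv⟩ : DD.A (Rg n0)) : DD.U) = ((Z0 v : An n0) : DD.U))
    (a : FreeAlgebra F (Fin 2)) :
    ∃ hv : (State.ev (fun v => ((Z v : An m) : U)) a : DD.U) ∈ DD.O n0,
      ((DD.resn n0 ⟨_, hv⟩ : DD.A (Rg n0)) : DD.U)
        = (State.ev (fun v => ((Z0 v : An n0) : U)) a : U) := by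
  induction a using FreeAlgebra.induction with
  | grade0 r =>
    have hr : ((r : U)) ∈ DD.A (Rg n0) := DD.K_le_A _ (h r.2)
    simp only [AlgHom.commutes]
    exact ⟨DD.A_le_O _ hr, DD.resn_coe_of_mem _ hr⟩
  | grade1 i =>
    simp only [State.ev_ι]
    exact hZ i
  | mul a b ha hb =>
    obtain ⟨h1, h2⟩ := ha
    obtain ⟨h3, h4⟩ := hb
    simp only [map_mul]
    refine ⟨(DD.O n0).mul_mem h1 h3, ?_⟩
    have := map_mul (DD.resn n0) ⟨_, h1⟩ ⟨_, h3⟩
    have h5 : ((DD.resn n0 ⟨_, (DD.O n0).mul_mem h1 h3⟩ : DD.A (Rg n0)) : DD.U)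
        = (DD.resn n0 ⟨_, h1⟩ : DD.A (Rg n0)) * (DD.resn n0 ⟨_, h3⟩ : DD.A (Rg n0)) :=
      congrArg Subtype.val this
    rw [h5, h2, h4]
  | add a b ha hb =>
    obtain ⟨h1, h2⟩ := ha
    obtain ⟨h3, h4⟩ := hb
    simp only [map_add]
    refine ⟨(DD.O n0).add_mem h1 h3, ?_⟩
    have := map_add (DD.resn n0) ⟨_, h1⟩ ⟨_, h3⟩
    have h5 : ((DD.resn n0 ⟨_, (DD.O n0).add_mem h1 h3⟩ : DD.A (Rg n0)) : DD.U)
        = (DD.resn n0 ⟨_, h1⟩ : DD.A (Rg n0)) + (DD.resn n0 ⟨_, h3⟩ : DD.A (Rg n0)) :=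
      congrArg Subtype.val this
    rw [h5, h2, h4]

end Words

end Res

end Crest.Agent.Kurosh.Tower
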