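/-
S0270, blueprint §K, Case A (helper69): every class state has `Mov_k = 0`.
The word `b = Ls.a k` then stays algebraic over a finitely generated extension of `F`: at a fresh
exact level-up `X` of any later state, `Mov_k(X) = 0`, so all Euler derivations above `ρ` kill the
coefficients of the minimal polynomial of `b(X)`: it has coefficients at the stage of `ρ`, and by
residues it is the minimal polynomial of `b(X₀)` for the first fresh level-up `X₀`.
-/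
import Crest.Agent.Kurosh.ExploreDefs
import Crest.Agent.Kurosh.Tower
import Crest.Agent.Kurosh.InvFacts

set_option autoImplicit false
set_option linter.unusedVariables false
set_option linter.unusedSectionVars false

namespace Crest.Agent.Kurosh.Explore

open Hensel State Module LU LU.Tw0 LU.Tw Plan Levels Levels.LevelData Tower Polynomial Transport
open _root_.Crest.Agent.Kurosh.Inv
open _root_.Crest.Agent.Kurosh.Inv.St

/-! ### One fresh step -/

variable {F : Subfield U} [CentF F]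

/-- The chain condition at the start of a partial solution. -/
theorem upStep_of_PSol {m : ℕ} [Fact (F ≤ Kn m)] {P : Pt F (Kn m) (An m) (Fin 2)} {k : ℕ}
    {t1 t2 : Fin 2 → An m} {X : Stt (m + 1)} {g : ℕ → An (m + 1)}
    (hP : ∀ J, (lv m).lev.PSol P k J t1 t2 X g) (v : Fin 2) :
    X v - (lv m).lev.inc (P.ρ v) ∈ (lv m).lev.Φ.fil 1 := by
  have h := (hP 2).leadX v
  have h1 : (lv m).lev.Φ.fil 2 ≤ (lv m).lev.Φ.fil 1 := (lv m).lev.Φ.anti (by norm_num)
  have h2 : (lv m).lev.mono (t1 v) 0 1 ∈ (lv m).lev.Φ.fil 1 := (lv m).lev.mono_mem _ _ _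
  have h3 : (lv m).lev.mono (t2 v) (lv m).lev.μ₁ 1 ∈ (lv m).lev.Φ.fil 1 := (lv m).lev.mono_mem _ _ _
  have := (lv m).lev.Φ.fil 1 |>.add_mem (h1 h) ((lv m).lev.Φ.fil 1 |>.add_mem h2 h3)
  convert this using 1
  abel

/-- **Step A.** A fresh exact level-up at the index `k` of a context is a class state. -/
theorem exists_class_step (hS : AllS) (hF : FreshS) (Ls : Lst F) (m : ℕ) [Fact (F ≤ Kn m)]
    (Z : Stt m) (k r : ℕ) (S : ℕ → Set (An m)) (TT : Submodule (Kn m) (Fin 2 → An m))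
    (h : Ctx F Ls m Z k r S TT) :
    ∃ X : Stt (m + 1), UpStep ⟨m, Z⟩ ⟨m + 1, X⟩ ∧
      (∃ S' : ℕ → Set (An (m + 1)),
        Valid (pt F (m + 1) X Ls.a) (N (m + 1)) Ls.R Ls.Q k k S' ((pt F (m + 1) X Ls.a).T k)) ∧
      Smooth (pt F (m + 1) X Ls.a) k := by
  obtain ⟨t1, t2, hA⟩ := AdmExist.exists_adm Ls m Z k r S TT h
  have hTT : TT ≤ (pt F m Z Ls.a).T k := h.valid.TT_le.trans (Pt.T_anti _ h.valid.le)
  obtain ⟨hO, hV⟩ := hS F k
  obtain ⟨X, g, TTX, hP, hFr⟩ := fresh_step hF Ls m Z k r S TT _ h t1 t2 hA hTT le_rfl hO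
  obtain ⟨S', hV', -, -, -, hlast⟩ := hV k le_rfl Ls m Z r S TT _ h t1 t2 hA hTT le_rfl X g TTX hP hFr
  obtain ⟨hSm, hTX⟩ := hlast rfl rfl
  refine ⟨X, UpStep.mk m Z X fun v => upStep_of_PSol hP v, ⟨S', ?_⟩, hSm⟩
  rw [← hTX]
  exact hV'

/-! ### Step B -/

/-- **Step B.** If `Mov_k = 0` at a class state `X`, all coefficients of the minimal polynomial of
`β_k(X)` live at the stage of `ρ`. -/
theorem coeff_mem_of_mov {Ls : Lst F} {n m : ℕ} [Fact (F ≤ Kn n)] [Fact (F ≤ Kn m)] {k : ℕ}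
    {X : Stt m} {S : ℕ → Set (An m)}
    (hV : Valid (pt F m X Ls.a) (N m) Ls.R Ls.Q k k S ((pt F m X Ls.a).T k))
    (hMov : (pt F m X Ls.a).Mov k = ⊥) (i : ℕ) :
    (((minpoly (Kn m) ((pt F m X Ls.a).β k)).coeff i : Kn m) : U) ∈ DD.A (Rg n) := by
  apply mem_A_of_euler
  intro φ hφ
  have hD : State.IsDer (F := F) (eulA φ m) :=
    eulA_isDer φ m fun f hf =>
      euler_eq_zero_of_mem hφ (DD.K_le_A _ ((Fact.out : F ≤ Kn n) hf))
  let d : Kn m →+ Kn m :=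
    { toFun := eulK φ m
      map_zero' := Subtype.ext (map_zero (eul φ))
      map_add' := fun x y => Subtype.ext (map_add (eul φ) x.1 y.1) }
  have hd : ∀ c, eulA φ m (algebraMap (Kn m) (An m) c) = algebraMap (Kn m) (An m) (d c) :=
    fun c => eulA_algebraMap φ m c
  have hT : (fun j => eulA φ m ((pt F m X Ls.a).ρ j)) ∈ (pt F m X Ls.a).T k :=
    Pt.der_mem_T _ hD Ls.Q (fun i hi => (hV.frozen i hi).1) (fun i hi => (hV.frozen i hi).2)
  have hM : (pt F m X Ls.a).e k ((pt F m X Ls.a).dL k (fun j => eulA φ m ((pt F m X Ls.a).ρ j))) ∈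
      (pt F m X Ls.a).Mov k := (pt F m X Ls.a).mem_Mov.mpr ⟨_, hT, rfl⟩
  rw [hMov, Submodule.mem_bot] at hM
  have := (Inv.St.e_der_eq_zero_iff (pt F m X Ls.a) hV.one hD hd k).mp hM i
  exact congrArg Subtype.val this

/-! ### Step C: polynomials and residues -/

lemma Kn_mono {r m : ℕ} (h : r ≤ m) : Kn r ≤ Kn m :=
  monotone_nat_of_le_succ Kn_le_succ h

/-- `aeval` in `U`, over `K n`. -/
lemma coe_aeval {m : ℕ} (p : Polynomial (Kn m)) (x : An m) :
    ((aeval x p : An m) : U) =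
      ∑ i ∈ Finset.range (p.natDegree + 1), ((p.coeff i : Kn m) : U) * ((x : An m) : U) ^ i := by
  rw [aeval_eq_sum_range]
  have : ((∑ i ∈ Finset.range (p.natDegree + 1), p.coeff i • x ^ i : An m) : U) =
      (An m).subtype (∑ i ∈ Finset.range (p.natDegree + 1), p.coeff i • x ^ i) := rfl
  rw [this, map_sum]
  refine Finset.sum_congr rfl fun i _ => ?_
  rw [Algebra.smul_def, map_mul, map_pow]
  rfl

/-- `aeval` in `U`, over a central field. -/
lemma aeval_eq_sum {F : Subfield U} [CentF F] (P : Polynomial F) (y : U) :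
    aeval y P = ∑ i ∈ Finset.range (P.natDegree + 1), ((P.coeff i : F) : U) * y ^ i := by
  rw [aeval_eq_sum_range]
  refine Finset.sum_congr rfl fun i _ => ?_
  rw [Algebra.smul_def]
  rfl

/-- The residue map on a polynomial expression. -/
lemma sum_res_eq_zero {r : ℕ} (s : Finset ℕ) (c : ℕ → DD.U) (hc : ∀ i, c i ∈ DD.A (Rg r))
    {x : DD.U} (hx : x ∈ DD.O r) (h0 : ∑ i ∈ s, c i * x ^ i = 0) :
    ∑ i ∈ s, c i * ((DD.resn r ⟨x, hx⟩ : DD.A (Rg r)) : DD.U) ^ i = 0 := by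
  let c' : ℕ → DD.O r := fun i => ⟨c i, DD.A_le_O r (hc i)⟩
  let x' : DD.O r := ⟨x, hx⟩
  have h1 : ∑ i ∈ s, c' i * x' ^ i = 0 := by
    apply Subtype.ext
    have : ((∑ i ∈ s, c' i * x' ^ i : DD.O r) : DD.U) =
        (DD.O r).subtype (∑ i ∈ s, c' i * x' ^ i) := rfl
    rw [this, map_sum]
    simpa [c', x'] using h0
  have h2 := congrArg (DD.resn r) h1
  rw [map_sum, map_zero] at h2
  have h3 := congrArg (DD.A (Rg r)).subtype h2
  rw [map_sum, map_zero] at h3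
  rw [← h3]
  refine Finset.sum_congr rfl fun i _ => ?_
  rw [map_mul, map_mul, map_pow, map_pow]
  congr 1
  exact (DD.resn_coe_of_mem r (hc i)).symm

/-- Residues of a polynomial expression in a word. -/
lemma sum_word_res {r m : ℕ} [Fact (F ≤ Kn r)] {Z₁ : Stt r} {Z₂ : Stt m}
    (hab : Above ⟨r, Z₁⟩ ⟨m, Z₂⟩) (a : FreeAlgebra F (Fin 2)) (s : Finset ℕ) (c : ℕ → U)
    (hc : ∀ i, c i ∈ DD.A (Rg r)) (h0 : ∑ i ∈ s, c i * (evU Z₂ a) ^ i = 0) :
    ∑ i ∈ s, c i * (evU Z₁ a) ^ i = 0 := by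
  obtain ⟨hv, hres⟩ := ev_res (Fact.out : F ≤ Kn r) (above_res hab).2 a
  have := sum_res_eq_zero s c hc hv h0
  rw [hres] at this
  exact this

/-- A series of `K (Rg m)` at the stage `n` is in `K (Rg n)`. -/
lemma mem_Kn_of_mem_A {n m : ℕ} (h : n ≤ m) {x : U} (hx : x ∈ Kn m) (hA : x ∈ DD.A (Rg n)) :
    x ∈ Kn n := fun g hg =>
  (DD.mem_Lam_iff_of_le (Finset.range_subset_range.2 (Nat.succ_le_succ h)) (hA hg)).1 (hx hg)

/-- Descent of a minimal polynomial. -/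
theorem descend_minpoly {m r : ℕ} (hrm : r ≤ m) (x : An m) (y : An r)
    (hc : ∀ i, (((minpoly (Kn m) x).coeff i : Kn m) : U) ∈ Kn r)
    (hy : ∑ i ∈ Finset.range ((minpoly (Kn m) x).natDegree + 1),
      (((minpoly (Kn m) x).coeff i : Kn m) : U) * ((y : An r) : U) ^ i = 0) :
    (minpoly (Kn r) y).map (Subfield.inclusion (Kn_mono hrm)) = minpoly (Kn m) x := by
  set ι := Subfield.inclusion (Kn_mono hrm) with hι
  have hint : IsIntegral (Kn m) x := IsIntegral.of_finite _ _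
  have hl : minpoly (Kn m) x ∈ lifts ι :=
    (lifts_iff_coeff_lifts _).2 fun i => ⟨⟨_, hc i⟩, rfl⟩
  obtain ⟨Q, hQ⟩ := mem_lifts _ |>.1 hl
  have hinj : Function.Injective ι := ι.injective
  have hm : Q.Monic := monic_of_injective hinj (hQ ▸ minpoly.monic hint)
  have hirr : Irreducible Q :=
    hm.irreducible_of_irreducible_map ι Q (hQ ▸ minpoly.irreducible hint)
  have hdeg : Q.natDegree = (minpoly (Kn m) x).natDegree := by
    rw [← hQ, natDegree_map_eq_of_injective hinj]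
  have hQy : aeval y Q = 0 := by
    apply Subtype.ext
    rw [coe_aeval, hdeg]
    refine Eq.trans (Finset.sum_congr rfl fun i _ => ?_) hy
    rw [← hQ, coeff_map]
    rfl
  rw [← minpoly.eq_of_irreducible_of_monic hirr hQy hm]
  exact hQ

/-! ### The later states -/

/-- The minimal polynomial of the word at the first fresh level-up annihilates the word at all later
states. -/
theorem class_eval (hS : AllS) (hF : FreshS) (Ls : Lst F) (n : ℕ) [Fact (F ≤ Kn n)] (ρ : Stt n) (k : ℕ)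
    (hMov : ∀ (n' : ℕ) [Fact (F ≤ Kn n')] (Z : Stt n'), InC Ls k ⟨n, ρ⟩ n' Z →
      (pt F n' Z Ls.a).Mov k = ⊥)
    {X₀ : Stt (n + 1)} (hup : UpStep ⟨n, ρ⟩ ⟨n + 1, X₀⟩)
    (F'' : Subfield U) [CentF F''] [Fact (F ≤ F'')] (Ls'' : Lst F'') (nZ : ℕ) [Fact (F'' ≤ Kn nZ)]
    (Z : Stt nZ) (k'' : ℕ) (S : ℕ → Set (An nZ)) (TT : Submodule (Kn nZ) (Fin 2 → An nZ))
    (hk : k ≤ k'') (hC : Ctx F'' Ls'' nZ Z k'' k'' S TT) (hL : ListAgree Ls Ls'' k)
    (hab : Above ⟨n + 1, X₀⟩ ⟨nZ, Z⟩) :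
    ∑ i ∈ Finset.range ((minpoly (Kn (n + 1)) ((pt F (n + 1) X₀ Ls.a).β k)).natDegree + 1),
      (((minpoly (Kn (n + 1)) ((pt F (n + 1) X₀ Ls.a).β k)).coeff i : Kn (n + 1)) : U) *
        (evU Z (Ls.a k)) ^ i = 0 := by
  have hnZ : Fact (F ≤ Kn nZ) := ⟨(Fact.out : F ≤ F'').trans Fact.out⟩
  have hC' : Ctx F'' Ls'' nZ Z k k'' S TT := ⟨Valid.mono_l hk hC.valid, hC.above, hC.opt⟩
  obtain ⟨X, hup2, ⟨S', hV'⟩, hSm⟩ := exists_class_step hS hF Ls'' nZ Z k k'' S TT hC'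
  have hs := sameTo_pt (F := F) (F' := F'') (nZ + 1) X (a := Ls.a) (a' := Ls''.a) hL.a
  have hV : Valid (pt F (nZ + 1) X Ls.a) (N (nZ + 1)) Ls.R Ls.Q k k S'
      ((pt F (nZ + 1) X Ls.a).T k) := by
    rw [hs.T_eq le_rfl]
    exact valid_down (nZ + 1) X hL hV'
  have hSm' : Smooth (pt F (nZ + 1) X Ls.a) k := Smooth.down hs hSm
  have hab1 : Above ⟨n, ρ⟩ ⟨n + 1, X₀⟩ := Relation.ReflTransGen.single hup
  have hab2 : Above ⟨nZ, Z⟩ ⟨nZ + 1, X⟩ := Relation.ReflTransGen.single hup2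
  have hab3 : Above ⟨n + 1, X₀⟩ ⟨nZ + 1, X⟩ := hab.trans hab2
  have hM := hMov (nZ + 1) X ⟨hab1.trans hab3, ⟨S', hV⟩, hSm'⟩
  have hc := coeff_mem_of_mov (n := n) hV hM
  have hnZ' : n + 1 ≤ nZ := (above_res hab).1
  set p := minpoly (Kn (nZ + 1)) ((pt F (nZ + 1) X Ls.a).β k) with hp
  have hint : IsIntegral (Kn (nZ + 1)) ((pt F (nZ + 1) X Ls.a).β k) := IsIntegral.of_finite _ _
  have h0 : ∑ i ∈ Finset.range (p.natDegree + 1), ((p.coeff i : Kn (nZ + 1)) : U) *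
      (evU X (Ls.a k)) ^ i = 0 := by
    have h1 := coe_aeval p ((pt F (nZ + 1) X Ls.a).β k)
    rw [hp, minpoly.aeval, ← hp] at h1
    have h2 : (((pt F (nZ + 1) X Ls.a).β k : An (nZ + 1)) : U) = evU X (Ls.a k) :=
      coe_ev X (Ls.a k)
    rw [h2] at h1
    exact h1.symm
  have hc1 : ∀ i, ((p.coeff i : Kn (nZ + 1)) : U) ∈ DD.A (Rg (n + 1)) := fun i =>
    DD.A_mono (Finset.range_subset_range.2 (by omega)) (hc i)
  have hcZ : ∀ i, ((p.coeff i : Kn (nZ + 1)) : U) ∈ DD.A (Rg nZ) := fun i =>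
    DD.A_mono (Finset.range_subset_range.2 (by omega)) (hc i)
  have hX₀ := sum_word_res hab3 (Ls.a k) _ _ hc1 h0
  have hZ := sum_word_res hab2 (Ls.a k) _ _ hcZ h0
  have hKc : ∀ i, ((p.coeff i : Kn (nZ + 1)) : U) ∈ Kn (n + 1) := fun i =>
    mem_Kn_of_mem_A (by omega) (p.coeff i).2 (hc1 i)
  have hβ : ((pt F (n + 1) X₀ Ls.a).β k : An (n + 1)) = _ := rfl
  have hde := descend_minpoly (r := n + 1) (m := nZ + 1) (by omega)
    ((pt F (nZ + 1) X Ls.a).β k) ((pt F (n + 1) X₀ Ls.a).β k) hKc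
    (by
      have h2 : (((pt F (n + 1) X₀ Ls.a).β k : An (n + 1)) : U) = evU X₀ (Ls.a k) :=
        coe_ev X₀ (Ls.a k)
      rw [h2]
      exact hX₀)
  rw [← hp] at hde
  have hdeg : (minpoly (Kn (n + 1)) ((pt F (n + 1) X₀ Ls.a).β k)).natDegree = p.natDegree := by
    rw [← hde, natDegree_map_eq_of_injective
      (Subfield.inclusion (Kn_mono (by omega : n + 1 ≤ nZ + 1))).injective]
  rw [hdeg]
  refine Eq.trans (Finset.sum_congr rfl fun i _ => ?_) hZ
  rw [← hde, coeff_map]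
  rfl

/-! ### Case A -/

/-- **Case A** of the exploration. -/
theorem caseA (hS : AllS) (hF : FreshS) : CaseAS := by
  intro F _ Ls n _ ρ k S TT h hMov
  obtain ⟨X₀, hup, ⟨S₀, hV₀⟩, hSm₀⟩ := exists_class_step hS hF Ls n ρ k k S TT h
  have hab1 : Above ⟨n, ρ⟩ ⟨n + 1, X₀⟩ := Relation.ReflTransGen.single hup
  have hC₀ : InC Ls k ⟨n, ρ⟩ (n + 1) X₀ := ⟨hab1, ⟨S₀, hV₀⟩, hSm₀⟩
  obtain ⟨S', hctx⟩ := hC₀.ctx h.above h.opt
  set Pa := minpoly (Kn (n + 1)) ((pt F (n + 1) X₀ Ls.a).β k) with hPa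
  have hint : IsIntegral (Kn (n + 1)) ((pt F (n + 1) X₀ Ls.a).β k) := IsIntegral.of_finite _ _
  classical
  let s : Finset U := (Finset.range (Pa.natDegree + 1)).image fun i => ((Pa.coeff i : Kn (n + 1)) : U)
  let F' : Subfield U := F ⊔ Subfield.closure (s : Set U)
  have hF'le : F' ≤ Kn (n + 1) := by
    refine sup_le (Fact.out : F ≤ Kn (n + 1)) (Subfield.closure_le.2 ?_)
    intro x hx
    obtain ⟨i, -, rfl⟩ := Finset.mem_image.1 (Finset.mem_coe.1 hx)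
    exact (Pa.coeff i).2
  have hCF' : CentF F' := ⟨fun x hx y => central (n + 1) x (hF'le hx) y⟩
  have hFF' : Fact (F ≤ F') := ⟨le_sup_left⟩
  have hF'K : Fact (F' ≤ Kn (n + 1)) := ⟨hF'le⟩
  refine ⟨F', hCF', hFF', s, rfl, Lst.tr Ls, n + 1, hF'K, X₀, k, S', _, Nat.lt_succ_self n, le_rfl,
    hab1, ctx_up (listAgree_tr Ls k) (n + 1) X₀ hctx, listAgree_tr Ls k, ?_⟩
  -- the polynomial over `F'`
  have hl : Pa ∈ lifts (Subfield.inclusion hF'le) := by
    refine (lifts_iff_coeff_lifts _).2 fun i => ?_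
    by_cases hi : i ≤ Pa.natDegree
    · refine ⟨⟨_, (le_sup_right : Subfield.closure (s : Set U) ≤ F') (Subfield.subset_closure
        (Finset.mem_coe.2 (Finset.mem_image.2 ⟨i, Finset.mem_range.2 (Nat.lt_succ_of_le hi), rfl⟩)))⟩,
        rfl⟩
    · rw [coeff_eq_zero_of_natDegree_lt (not_le.1 hi)]
      exact ⟨0, map_zero _⟩
  obtain ⟨P, hP⟩ := mem_lifts _ |>.1 hl
  refine ⟨P, ?_, ?_⟩
  · rintro rfl
    rw [Polynomial.map_zero] at hP
    exact minpoly.ne_zero hint hP.symm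
  · intro F'' _ _ Ls'' nZ _ Z k'' S'' TT'' hk hC hL hab
    have hFF'' : Fact (F ≤ F'') := ⟨(Fact.out : F ≤ F').trans Fact.out⟩
    have hL' : ListAgree Ls Ls'' k := (listAgree_tr Ls k).trans hL
    have hz := class_eval hS hF Ls n ρ k hMov hup F'' Ls'' nZ Z k'' S'' TT'' hk hC hL' hab
    rw [evU_tr, aeval_eq_sum]
    have hdeg : P.natDegree = Pa.natDegree := by
      rw [← hP, natDegree_map_eq_of_injective (Subfield.inclusion hF'le).injective]
    rw [hdeg]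
    refine Eq.trans (Finset.sum_congr rfl fun i _ => ?_) hz
    rw [← hPa, ← hP, coeff_map]
    rfl

end Crest.Agent.Kurosh.Explore
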