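/-
S0270 (helper89): the valuation `v_n = (j, c_{≥ n})` on a level-up `LU.Lv`:
`piN n : GLv →+ GV`, section `secN n`, the central lattice as `SymSub`, coset representatives,
the lead data `Lv.gr` on `R` and the Gauss formula `Lv.gauss`.
-/
import Crest.Agent.Kurosh.THSLead
import Crest.Agent.Kurosh.LevelUp

set_option autoImplicit false
set_option linter.unusedSectionVars false

namespace Crest.Agent.Kurosh.LeadVN

open THS THSLead Hensel LU Module

/-- The exponents of the commutative variables. -/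
abbrev CX := Lex (ℕᵒᵈ →₀ ℤ)

/-- The value group of `v_n`. -/
abbrev GV := ℤ ×ₗ CX

private lemma shift_inj (n : ℕ) : Function.Injective (fun ν : ℕᵒᵈ => OrderDual.toDual (OrderDual.ofDual ν + n)) := by
  intro a b h
  have h1 : OrderDual.ofDual a + n = OrderDual.ofDual b + n := OrderDual.toDual.injective h
  exact OrderDual.ofDual.injective (Nat.add_right_cancel h1)

/-- Drop the first `n` variables. -/
noncomputable def dropL (n : ℕ) : CX →+ CX where
  toFun α := toLex (Finsupp.comapDomain.addMonoidHom (shift_inj n) (ofLex α))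
  map_zero' := by simp
  map_add' a b := by
    rw [ofLex_add, map_add, toLex_add]

/-- Shift by `n` variables. -/
noncomputable def liftL (n : ℕ) : CX →+ CX where
  toFun α := toLex (Finsupp.mapDomain.addMonoidHom
    (fun ν : ℕᵒᵈ => OrderDual.toDual (OrderDual.ofDual ν + n)) (ofLex α))
  map_zero' := by simp
  map_add' a b := by
    rw [ofLex_add, map_add, toLex_add]

lemma dropL_apply (n : ℕ) (α : CX) (i : ℕ) :
    ofLex (dropL n α) (OrderDual.toDual i) = ofLex α (OrderDual.toDual (i + n)) := rfl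

lemma liftL_apply (n : ℕ) (α : CX) (i : ℕ) :
    ofLex (liftL n α) (OrderDual.toDual (i + n)) = ofLex α (OrderDual.toDual i) := by
  show (Finsupp.mapDomain (fun ν : ℕᵒᵈ => OrderDual.toDual (OrderDual.ofDual ν + n)) (ofLex α))
    (OrderDual.toDual (i + n)) = _
  exact Finsupp.mapDomain_apply (shift_inj n) _ (OrderDual.toDual i)

lemma dropL_liftL (n : ℕ) (α : CX) : dropL n (liftL n α) = α := by
  apply (ofLex (α := ℕᵒᵈ →₀ ℤ)).injective
  ext i
  obtain ⟨i, rfl⟩ := OrderDual.toDual.surjective i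
  rw [dropL_apply, liftL_apply]

lemma dropL_mono (n : ℕ) : Monotone (dropL n) := by
  intro a b hab
  rcases hab.lt_or_eq with h | rfl
  swap
  · exact le_rfl
  obtain ⟨i, hi, hlt⟩ := Finsupp.Lex.lt_iff.1 h
  obtain ⟨i, rfl⟩ := OrderDual.toDual.surjective i
  by_cases hin : n ≤ i
  · obtain ⟨i₀, rfl⟩ : ∃ i₀, i = i₀ + n := ⟨i - n, by omega⟩
    apply le_of_lt
    refine Finsupp.Lex.lt_iff.2 ⟨OrderDual.toDual i₀, ?_, ?_⟩
    · intro k hk
      obtain ⟨k, rfl⟩ := OrderDual.toDual.surjective k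
      have hk' : i₀ < k := hk
      exact hi _ (show i₀ + n < k + n by omega)
    · exact hlt
  · apply le_of_eq
    apply (ofLex (α := ℕᵒᵈ →₀ ℤ)).injective
    ext k
    obtain ⟨k, rfl⟩ := OrderDual.toDual.surjective k
    rw [dropL_apply, dropL_apply]
    exact hi _ (show i < k + n by omega)

/-- `v_n`. -/
noncomputable def piN (n : ℕ) : GLv →+ GV where
  toFun g := toLex ((ofLex g).1, dropL n (ofLex (ofLex g).2).1)
  map_zero' := by
    show toLex ((0 : ℤ), dropL n (0 : CX)) = 0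
    rw [map_zero]
    rfl
  map_add' a b := by
    have h : dropL n ((ofLex (ofLex (a + b)).2).1) =
        dropL n (ofLex (ofLex a).2).1 + dropL n (ofLex (ofLex b).2).1 :=
      map_add (dropL n) (ofLex (ofLex a).2).1 (ofLex (ofLex b).2).1
    apply (ofLex (α := ℤ × CX)).injective
    exact Prod.ext rfl h

/-- The section of `v_n`. -/
noncomputable def secN (n : ℕ) : GV →+ GLv where
  toFun γ := toLex ((ofLex γ).1, toLex (liftL n (ofLex γ).2, (0 : ℤ)))
  map_zero' := by
    show toLex ((0 : ℤ), toLex (liftL n (0 : CX), (0 : ℤ))) = 0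
    rw [map_zero]
    rfl
  map_add' a b := by
    have h : liftL n (ofLex (a + b)).2 = liftL n (ofLex a).2 + liftL n (ofLex b).2 :=
      map_add (liftL n) (ofLex a).2 (ofLex b).2
    apply (ofLex (α := ℤ × CE)).injective
    refine Prod.ext rfl ?_
    apply (ofLex (α := CX × ℤ)).injective
    refine Prod.ext h ?_
    show (0 : ℤ) = 0 + 0
    simp

lemma piN_fst (n : ℕ) (g : GLv) : (ofLex (piN n g)).1 = (ofLex g).1 := rfl
lemma piN_snd (n : ℕ) (g : GLv) : (ofLex (piN n g)).2 = dropL n (ofLex (ofLex g).2).1 := rfl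
lemma secN_fst (n : ℕ) (γ : GV) : (ofLex (secN n γ)).1 = (ofLex γ).1 := rfl
lemma secN_snd (n : ℕ) (γ : GV) : (ofLex (ofLex (secN n γ)).2).1 = liftL n (ofLex γ).2 := rfl
lemma secN_κ (n : ℕ) (γ : GV) : κ (ofLex (secN n γ)).2 = 0 := rfl

lemma piN_secN (n : ℕ) (γ : GV) : piN n (secN n γ) = γ := by
  apply (ofLex (α := ℤ × CX)).injective
  apply Prod.ext
  · rfl
  · exact dropL_liftL n _

lemma piN_mono (n : ℕ) : Monotone (piN n) := by
  intro a b hab
  rcases hab.lt_or_eq with h | rfl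
  swap
  · exact le_rfl
  rcases Prod.Lex.lt_iff.1 h with h1 | ⟨h1, h2⟩
  · exact le_of_lt (Prod.Lex.lt_iff.2 (Or.inl h1))
  · have h3 : (ofLex (ofLex a).2).1 ≤ (ofLex (ofLex b).2).1 := by
      rcases Prod.Lex.lt_iff.1 h2 with h3 | ⟨h3, -⟩
      · exact h3.le
      · exact h3.le
    apply Prod.Lex.le_iff.2
    rcases (dropL_mono n h3).lt_or_eq with h4 | h4
    · exact Or.inr ⟨h1, h4.le⟩
    · exact Or.inr ⟨h1, h4.le⟩

lemma mem_ker_piN {n : ℕ} {g : GLv} :
    g ∈ (piN n).ker ↔ (ofLex g).1 = 0 ∧ dropL n (ofLex (ofLex g).2).1 = 0 := by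
  rw [AddMonoidHom.mem_ker]
  constructor
  · intro h
    have h1 := congrArg ofLex h
    exact ⟨congrArg Prod.fst h1, congrArg Prod.snd h1⟩
  · rintro ⟨h1, h2⟩
    apply (ofLex (α := ℤ × CX)).injective
    exact Prod.ext h1 h2

/-! ### The central lattice -/

section Cent

variable {K : Type*} [Field K] (ζ : K) (hζ : ζ ≠ 0) (m : ℕ) (hm : ζ ^ m = 1)

include hm in
lemma zpow_of_dvd {z : ℤ} (h : (m : ℤ) ∣ z) : ζ ^ z = 1 := by
  obtain ⟨w, rfl⟩ := h
  rw [zpow_mul, zpow_natCast, hm, one_zpow]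

/-- The central lattice as a symmetric subgroup. -/
def centS : SymSub (twist κ ζ hζ) where
  Γ := centLat m
  symm γ hγ g := by
    show ζ ^ ((ofLex γ).1 * κ (ofLex g).2) = ζ ^ ((ofLex g).1 * κ (ofLex γ).2)
    rw [zpow_of_dvd ζ m hm (Dvd.dvd.mul_right hγ.1 _), zpow_of_dvd ζ m hm (Dvd.dvd.mul_left hγ.2 _)]

lemma secN_piN_mem (n : ℕ) (g : GLv) (hg : g ∈ (centS ζ hζ m hm).Γ) :
    secN n (piN n g) ∈ (centS ζ hζ m hm).Γ :=
  ⟨hg.1, by
    show (m : ℤ) ∣ κ (ofLex (secN n (piN n g))).2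
    rw [secN_κ]
    exact dvd_zero _⟩

lemma twist_secN (n : ℕ) (γ δ : GV) : (twist κ ζ hζ) (secN n γ) (secN n δ) = 1 := by
  show ζ ^ ((ofLex (secN n γ)).1 * κ (ofLex (secN n δ)).2) = 1
  rw [secN_κ, mul_zero, zpow_zero]

end Cent

/-! ### Coset representatives -/

section Reps

variable {K : Type*} [Field K] (ζ : K) (hζ : ζ ≠ 0) (m : ℕ) (hm : ζ ^ m = 1) [Fact m.Prime]

/-- The monomial `s^k s'^a`, `0 ≤ k, a < m`. -/
def repG (a k : ZMod m) : GLv := toLex (((a.val : ℕ) : ℤ), toLex ((0 : CX), ((k.val : ℕ) : ℤ)))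

lemma repG_fst (a k : ZMod m) : (ofLex (repG m a k)).1 = ((a.val : ℕ) : ℤ) := rfl
lemma repG_κ (a k : ZMod m) : κ (ofLex (repG m a k)).2 = ((k.val : ℕ) : ℤ) := rfl

lemma intCast_val (a : ZMod m) : (((a.val : ℕ) : ℤ) : ZMod m) = a := by
  rw [Int.cast_natCast, ZMod.natCast_zmod_val]

lemma sub_repG_mem {g : GLv} {a k : ZMod m} (h1 : (((ofLex g).1 : ℤ) : ZMod m) = a)
    (h2 : ((κ (ofLex g).2 : ℤ) : ZMod m) = k) : g - repG m a k ∈ centLat m := by
  constructor
  · rw [ofLex_sub]
    show (m : ℤ) ∣ (ofLex g).1 - (ofLex (repG m a k)).1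
    rw [repG_fst, ← ZMod.intCast_zmod_eq_zero_iff_dvd]
    rw [Int.cast_sub, h1, intCast_val, sub_self]
  · rw [ofLex_sub]
    show (m : ℤ) ∣ κ ((ofLex g).2 - (ofLex (repG m a k)).2)
    rw [map_sub, repG_κ, ← ZMod.intCast_zmod_eq_zero_iff_dvd]
    rw [Int.cast_sub, h2, intCast_val, sub_self]

/-- All representatives. -/
noncomputable def repsT : Finset GLv := (Finset.univ : Finset (ZMod m × ZMod m)).image
  (fun p => repG m p.1 p.2)

lemma repsT_cover (g : GLv) : ∃ t ∈ repsT m, g - t ∈ centLat m :=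
  ⟨repG m ((ofLex g).1 : ZMod m) ((κ (ofLex g).2 : ℤ) : ZMod m),
    Finset.mem_image.2 ⟨(_, _), Finset.mem_univ _, rfl⟩, sub_repG_mem m rfl rfl⟩

lemma repG_sub_mem_imp {a k a' k' : ZMod m} (h : repG m a k - repG m a' k' ∈ centLat m) :
    a = a' ∧ k = k' := by
  obtain ⟨h1, h2⟩ := h
  rw [ofLex_sub] at h1 h2
  have h1' : (m : ℤ) ∣ (ofLex (repG m a k)).1 - (ofLex (repG m a' k')).1 := h1
  have h2' : (m : ℤ) ∣ κ ((ofLex (repG m a k)).2 - (ofLex (repG m a' k')).2) := h2
  rw [map_sub] at h2'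
  rw [repG_fst, repG_fst, ← ZMod.intCast_zmod_eq_zero_iff_dvd, Int.cast_sub, intCast_val, intCast_val,
    sub_eq_zero] at h1'
  rw [repG_κ, repG_κ, ← ZMod.intCast_zmod_eq_zero_iff_dvd, Int.cast_sub, intCast_val, intCast_val,
    sub_eq_zero] at h2'
  exact ⟨h1', h2'⟩

lemma repsT_disj : ∀ t ∈ repsT m, ∀ t' ∈ repsT m, t - t' ∈ centLat m → t = t' := by
  intro t ht t' ht' h
  obtain ⟨p, -, rfl⟩ := Finset.mem_image.1 ht
  obtain ⟨p', -, rfl⟩ := Finset.mem_image.1 ht'
  obtain ⟨h1, h2⟩ := repG_sub_mem_imp m h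
  show repG m p.1 p.2 = repG m p'.1 p'.2
  rw [h1, h2]

/-- The representatives of the residue ring. -/
noncomputable def repsK : Finset GLv := (Finset.univ : Finset (ZMod m)).image (fun k => repG m 0 k)

lemma repG_zero_mem_ker (n : ℕ) (k : ZMod m) : repG m 0 k ∈ (piN n).ker := by
  rw [mem_ker_piN]
  refine ⟨?_, ?_⟩
  · rw [repG_fst, ZMod.val_zero]
    rfl
  · show dropL n (0 : CX) = 0
    rw [map_zero]

lemma repsK_mem_ker (n : ℕ) : ∀ t ∈ repsK m, t ∈ (piN n).ker := by
  intro t ht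
  obtain ⟨k, -, rfl⟩ := Finset.mem_image.1 ht
  exact repG_zero_mem_ker m n k

lemma repsK_cover (n : ℕ) (g : GLv) (hg : g ∈ (piN n).ker) : ∃ t ∈ repsK m, g - t ∈ centLat m := by
  refine ⟨repG m 0 ((κ (ofLex g).2 : ℤ) : ZMod m),
    Finset.mem_image.2 ⟨_, Finset.mem_univ _, rfl⟩, sub_repG_mem m ?_ rfl⟩
  rw [(mem_ker_piN.1 hg).1]
  simp

lemma repsK_disj : ∀ t ∈ repsK m, ∀ t' ∈ repsK m, t - t' ∈ centLat m → t = t' := by
  intro t ht t' ht' h
  obtain ⟨p, -, rfl⟩ := Finset.mem_image.1 ht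
  obtain ⟨p', -, rfl⟩ := Finset.mem_image.1 ht'
  obtain ⟨-, h2⟩ := repG_sub_mem_imp m h
  rw [h2]

/-- Representatives of the value group modulo the values of the central field. -/
noncomputable def eV (a : ZMod m) : GV := toLex (((a.val : ℕ) : ℤ), (0 : CX))

end Reps

/-! ### The lead data of a level-up -/

namespace LvData

open Lv

variable {K A K' R : Type*} [Field K] [DivisionRing A] [Algebra K A] [Field K'] [DivisionRing R]
  [Algebra K R] [Algebra K' R] [Algebra K K'] [IsScalarTower K K' R] {τ : A →ₗ[K] K}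
  (L : Lv K A K' R τ)

lemma zeta_pow : L.ζ ^ L.m = 1 := L.ζ_prim.pow_eq_one

instance : Fact L.m.Prime := ⟨L.m_prime⟩

/-- The twist. -/
noncomputable abbrev tw : Bichar GLv K := twist κ L.ζ L.ζ_ne

/-- The central lattice. -/
noncomputable def cS : SymSub (tw L) := centS L.ζ L.ζ_ne L.m (zeta_pow L)

lemma mem_cS_Γ {g : GLv} : g ∈ (cS L).Γ ↔ g ∈ centLat L.m := Iff.rfl

/-- `K'` is the central field of series. -/
noncomputable def psi : K' ≃+* Scal A (cS L) :=
  RingEquiv.ofBijective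
    { toFun := fun l => ⟨L.φ (algebraMap K' R l), by
        have h := (L.mem_K' (algebraMap K' R l)).1 ⟨l, rfl⟩
        constructor
        · exact fun g hg => (h g hg).1
        · intro g
          by_cases hg : (L.φ (algebraMap K' R l)).coeff g = 0
          · rw [hg]
            exact Subalgebra.zero_mem _
          · exact Algebra.mem_bot.2 (h g hg).2⟩
      map_one' := by
        apply Subtype.ext
        show L.φ (algebraMap K' R 1) = 1
        rw [map_one, map_one]
      map_mul' := fun a b => by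
        apply Subtype.ext
        show L.φ (algebraMap K' R (a * b)) = L.φ (algebraMap K' R a) * L.φ (algebraMap K' R b)
        rw [map_mul, map_mul]
      map_zero' := by
        apply Subtype.ext
        show L.φ (algebraMap K' R 0) = 0
        rw [map_zero, map_zero]
      map_add' := fun a b => by
        apply Subtype.ext
        show L.φ (algebraMap K' R (a + b)) = L.φ (algebraMap K' R a) + L.φ (algebraMap K' R b)
        rw [map_add, map_add] }
    ⟨RingHom.injective _, by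
      intro c
      have h1 : L.φ.symm c.1 ∈ (algebraMap K' R).range := by
        rw [L.mem_K', RingEquiv.apply_symm_apply]
        intro g hg
        refine ⟨c.2.1 g hg, ?_⟩
        exact Algebra.mem_bot.1 (c.2.2 g)
      obtain ⟨l, hl⟩ := h1
      refine ⟨l, Subtype.ext ?_⟩
      show L.φ (algebraMap K' R l) = c.1
      rw [hl, RingEquiv.apply_symm_apply]⟩

lemma psi_coe (l : K') : (psi L l).1 = L.φ (algebraMap K' R l) := rfl

lemma hTrace (y : R) : L.φ (algebraMap K' R (L.τ' y)) = traceSeries (cS L) τ (L.φ y) := by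
  classical
  ext g
  rw [L.τ'_coeff, coeff_traceSeries]
  rfl

/-- The residue field of `v_n`. -/
abbrev Kh (n : ℕ) := Scal A (S0 (cS L) (piN n))

/-- The residue ring of `v_n`. -/
abbrev Rh (n : ℕ) := ↥(subS (R := A) (ε := tw L) (piN n).ker)

/-- The multiplicative lead data of `v_n`. -/
noncomputable def gr (n : ℕ) : TestCore.GrData K' (Kh L n) R (Rh L n) GV :=
  grTrans (cS L) (piN_mono n) (secN n) (piN_secN n)
    (fun g hg => secN_piN_mem L.ζ L.ζ_ne L.m (zeta_pow L) n g hg)
    (twist_secN L.ζ L.ζ_ne n) τ L.φ (psi L) (psi_coe L) L.τ' (hTrace L)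

variable [FiniteDimensional K A]

instance finiteRh (n : ℕ) : Module.Finite (Kh L n) (Rh L n) :=
  res_finite (cS L) (piN n) (repsK L.m) (repsK_mem_ker L.m n) (repsK_cover L.m n) (repsK_disj L.m)

lemma finrank_Rh (n : ℕ) : finrank (Kh L n) (Rh L n) = L.m * finrank K A := by
  rw [finrank_res (cS L) (piN n) (repsK L.m) (repsK_mem_ker L.m n) (repsK_cover L.m n) (repsK_disj L.m)]
  congr 1
  rw [repsK, Finset.card_image_of_injective, Finset.card_univ, ZMod.card]
  intro k k' h
  have h1 : repG L.m 0 k - repG L.m 0 k' ∈ centLat L.m := by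
    have h' : repG L.m 0 k = repG L.m 0 k' := h
    rw [h', sub_self]
    exact (centLat L.m).zero_mem
  exact (repG_sub_mem_imp L.m h1).2

/-- The basis of `R` over `K'`. -/
noncomputable def basisR : Module.Basis (↥(repsT L.m) × Fin (finrank K A)) K' R :=
  basisTrans (cS L) L.φ (psi L) (psi_coe L)
    (monoBasis (A := A) (cS L) (repsT L.m) (repsT_cover L.m) (repsT_disj L.m))

theorem finrank_R : finrank K' R = L.m ^ 2 * finrank K A := by
  rw [finrank_eq_card_basis (basisR L)]
  simp only [Fintype.card_prod, Fintype.card_coe, Fintype.card_fin]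
  congr 1
  rw [repsT, Finset.card_image_of_injective, Finset.card_univ, Fintype.card_prod, ZMod.card, sq]
  intro p p' h
  have h1 : repG L.m p.1 p.2 - repG L.m p'.1 p'.2 ∈ centLat L.m := by
    have h' : repG L.m p.1 p.2 = repG L.m p'.1 p'.2 := h
    rw [h', sub_self]
    exact (centLat L.m).zero_mem
  obtain ⟨h2, h3⟩ := repG_sub_mem_imp L.m h1
  exact Prod.ext h2 h3

lemma gr_val (n : ℕ) (x : R) : (gr L n).val x = vΓ (piN n) (L.φ x) := rfl

lemma gr_c_coe (n : ℕ) (γ : GV) (x : R) :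
    ((gr L n).c γ x).1 = coef (secN n) (piN n) γ (L.φ x) := rfl

lemma gr_lam (n : ℕ) (l : K') : (gr L n).lam l = piN n (psi L l).1.ord := rfl

lemma gr_contractive (n : ℕ) (y : R) (i : ↥(repsT L.m) × Fin (finrank K A)) :
    (gr L n).val y ≤ (gr L n).val ((basisR L).repr y i • basisR L i) := by
  have h1 : (basisR L).repr y i = (psi L).symm ((monoBasis (A := A) (cS L) (repsT L.m)
      (repsT_cover L.m) (repsT_disj L.m)).repr (L.φ y) i) :=
    basisTrans_repr (cS L) L.φ (psi L) (psi_coe L) _ y i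
  have h2 : L.φ (basisR L i) = monoBasis (A := A) (cS L) (repsT L.m)
      (repsT_cover L.m) (repsT_disj L.m) i := by
    rw [basisR, basisTrans_apply, RingEquiv.apply_symm_apply]
  rw [gr_val, gr_val, phi_smul (cS L) L.φ (psi L) (psi_coe L), h1, h2, RingEquiv.apply_symm_apply]
  exact vΓ_le_coord (cS L) (piN_mono n) (repsT L.m) (repsT_cover L.m) (repsT_disj L.m) (L.φ y) i

/-- A scalar monomial of a prescribed central exponent, in the central field of series. -/
noncomputable def scalElt (g : GLv) (hg : g ∈ centLat L.m) : Scal A (cS L) :=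
  ⟨mono g 1, show IsIn (cS L).Γ (⊥ : Subalgebra K A) (mono g 1 : THS A (tw L)) by
    classical
    constructor
    · intro h hh
      rw [coeff_mono] at hh
      by_cases hgh : h = g
      · rw [hgh]
        exact hg
      · rw [if_neg hgh] at hh
        exact absurd rfl hh
    · intro h
      rw [coeff_mono]
      split_ifs
      · exact Subalgebra.one_mem _
      · exact Subalgebra.zero_mem _⟩

/-- A scalar monomial of a prescribed central exponent. -/
noncomputable def scalMono (g : GLv) (hg : g ∈ centLat L.m) : K' := (psi L).symm (scalElt L g hg)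

lemma psi_scalMono (g : GLv) (hg : g ∈ centLat L.m) : (psi L (scalMono L g hg)).1 = mono g 1 := by
  have h : psi L (scalMono L g hg) = scalElt L g hg := RingEquiv.apply_symm_apply _ _
  exact congrArg Subtype.val h

lemma scalMono_ne (g : GLv) (hg : g ∈ centLat L.m) : scalMono L g hg ≠ 0 := by
  classical
  intro h
  have h1 := psi_scalMono L g hg
  rw [h, map_zero] at h1
  have h2 := congrArg (fun z : THS A (tw L) => z.coeff g) h1
  simp only [coeff_mono, if_true] at h2
  exact zero_ne_one h2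

lemma ord_mono (g : GLv) {c : A} (hc : c ≠ 0) : (mono g c : THS A (tw L)).ord = g := by
  classical
  have h0 : (mono g c : THS A (tw L)) ≠ 0 := by
    intro h
    have h1 := congrArg (fun y => THS.coeff y g) h
    simp only [coeff_mono, if_true, coeff_zero] at h1
    exact hc h1
  have h1 := ord_mem h0
  have h2 := supp_mono_subset (ε := tw L) g c h1
  rwa [Set.mem_singleton_iff] at h2

lemma gr_lam_scalMono (n : ℕ) (g : GLv) (hg : g ∈ centLat L.m) :
    (gr L n).lam (scalMono L g hg) = piN n g := by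
  rw [gr_lam, psi_scalMono, ord_mono L g one_ne_zero]

/-- Values of scalars have first coordinate in `mℤ`. -/
lemma gr_lam_dvd (n : ℕ) {l : K'} (hl : l ≠ 0) : (L.m : ℤ) ∣ (ofLex ((gr L n).lam l)).1 := by
  rw [gr_lam, piN_fst]
  have h1 : (psi L l).1 ≠ 0 := fun h => hl ((map_eq_zero_iff _ (psi L).injective).1 (Subtype.ext h))
  exact ((psi L l).2.1 _ (ord_mem h1)).1

lemma gr_hcl (n : ℕ) (g : GV) : ∃ a : ZMod L.m, ∃ l : K', l ≠ 0 ∧ g + (gr L n).lam l = eV L.m a := by
  set a : ZMod L.m := (((ofLex g).1 : ℤ) : ZMod L.m) with ha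
  have h1 : secN n (eV L.m a - g) ∈ centLat L.m := by
    constructor
    · show (L.m : ℤ) ∣ (ofLex (secN n (eV L.m a - g))).1
      rw [secN_fst, ofLex_sub]
      show (L.m : ℤ) ∣ ((a.val : ℕ) : ℤ) - (ofLex g).1
      rw [← ZMod.intCast_zmod_eq_zero_iff_dvd, Int.cast_sub, intCast_val, ← ha, sub_self]
    · show (L.m : ℤ) ∣ κ (ofLex (secN n (eV L.m a - g))).2
      rw [secN_κ]
      exact dvd_zero _
  refine ⟨a, scalMono L _ h1, scalMono_ne L _ h1, ?_⟩
  rw [gr_lam_scalMono, piN_secN]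
  abel

lemma gr_hdisj (n : ℕ) (a a' : ZMod L.m) (l l' : K') (hl : l ≠ 0) (hl' : l' ≠ 0)
    (h : eV L.m a + (gr L n).lam l = eV L.m a' + (gr L n).lam l') : a = a' := by
  have h1 := congrArg (fun z : GV => (ofLex z).1) h
  simp only [ofLex_add, Prod.fst_add] at h1
  have h2 : (ofLex (eV L.m a)).1 = ((a.val : ℕ) : ℤ) := rfl
  have h3 : (ofLex (eV L.m a')).1 = ((a'.val : ℕ) : ℤ) := rfl
  rw [h2, h3] at h1
  have h4 := congrArg (fun z : ℤ => (z : ZMod L.m)) h1
  simp only [Int.cast_add, intCast_val] at h4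
  have h5 : (((ofLex ((gr L n).lam l)).1 : ℤ) : ZMod L.m) = 0 :=
    (ZMod.intCast_zmod_eq_zero_iff_dvd _ _).2 (gr_lam_dvd L n hl)
  have h6 : (((ofLex ((gr L n).lam l')).1 : ℤ) : ZMod L.m) = 0 :=
    (ZMod.intCast_zmod_eq_zero_iff_dvd _ _).2 (gr_lam_dvd L n hl')
  rw [h5, h6, add_zero, add_zero] at h4
  exact h4

/-- **Gauss**: the dimension of a `K'`-subspace is the sum of the dimensions of its leading spaces. -/
theorem gauss (n : ℕ) (W : Submodule K' R) :
    finrank K' W = ∑ a : ZMod L.m, finrank (Kh L n) ((gr L n).toLeadData.lead (eV L.m a) W) :=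
  Lead.LeadData.finrank_eq_sum_lead (gr L n).toLeadData (basisR L) (eV L.m)
    (gr_contractive L n) (gr_hcl L n) (fun r r' l l' hl hl' h => gr_hdisj L n r r' l l' hl hl' h) W

end LvData

end Crest.Agent.Kurosh.LeadVN
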