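/-
S0270 (Kurosh), §K (helper72): the lead data of a level-up for the coarsest valuation, the `s'`-order
`j` (`π = fst`).  All the `c_ν` and `s` are in the residue ring.

`gr L : GrData K' (Kh L) R (Rh L) ℤ`, `val x = min j`, `c j x` = the series `∑_n x_{(n,j)} e_n`
(no phase), `θ_j e_n = ζ^{j κ n} e_n`, `τR` = the part on `m ∣ κ n`.

* `mn n x` : the monomial `x e_n` of the residue ring, `mn_mul`, `ι`;
* `coeff_c`, `c_mono`, `val_of_fil`;
* `coeff_θ`, `coeff_τR`;
* `eK n`: central monomials of the residue field;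
* `gauss`: `dim_{K'} W = ∑_{a : ZMod m} dim_{K̂} lead_a W`;
* `lead_shift`;
* `linearIndependent_ι`, `finrank_span_ι`.
-/
import Crest.Agent.Kurosh.LeadVN

set_option autoImplicit false
set_option linter.unusedSectionVars false

namespace Crest.Agent.Kurosh.FstData

open THS THSLead Hensel LU Module LeadVN LeadVN.LvData

/-- The `s'`-order. -/
noncomputable def piF : GLv →+ ℤ where
  toFun g := (ofLex g).1
  map_zero' := rfl
  map_add' _ _ := rfl

@[simp] lemma piF_apply (g : GLv) : piF g = (ofLex g).1 := rfl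

lemma piF_mono : Monotone piF := fun _ _ h => fst_mono h

/-- The section: pure powers of `s'`. -/
noncomputable def secF : ℤ →+ GLv where
  toFun j := idx 0 j
  map_zero' := rfl
  map_add' a b := by
    rw [idx_add, add_zero]

@[simp] lemma secF_apply (j : ℤ) : secF j = idx 0 j := rfl

lemma piF_secF (j : ℤ) : piF (secF j) = j := rfl

lemma mem_ker_piF {g : GLv} : g ∈ piF.ker ↔ (ofLex g).1 = 0 := AddMonoidHom.mem_ker

lemma idx_mem_ker (n : CE) : idx n 0 ∈ piF.ker := rfl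

lemma eq_idx_of_mem_ker {g : GLv} (hg : g ∈ piF.ker) : g = idx (ofLex g).2 0 := by
  have h := mem_ker_piF.1 hg
  rw [← h]
  rfl

variable {K A K' R : Type*} [Field K] [DivisionRing A] [Algebra K A] [Field K'] [DivisionRing R]
  [Algebra K R] [Algebra K' R] [Algebra K K'] [IsScalarTower K K' R] {τ : A →ₗ[K] K}
  (L : Lv K A K' R τ)

lemma secF_mem (g : GLv) (hg : g ∈ (cS L).Γ) : secF (piF g) ∈ (cS L).Γ :=
  ⟨hg.1, by
    show (L.m : ℤ) ∣ κ (0 : CE)
    simp⟩

lemma twist_secF (a b : ℤ) : (tw L) (secF a) (secF b) = 1 := by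
  show L.ζ ^ (a * κ (0 : CE)) = 1
  simp

/-- The residue field. -/
abbrev Kh := Scal A (S0 (cS L) piF)

/-- The residue ring. -/
abbrev Rh := ↥(subS (R := A) (ε := tw L) piF.ker)

/-- The lead data of the `s'`-order. -/
noncomputable def gr : TestCore.GrData K' (Kh L) R (Rh L) ℤ :=
  grTrans (cS L) piF_mono secF piF_secF (secF_mem L) (twist_secF L) τ L.φ (psi L) (psi_coe L) L.τ'
    (hTrace L)

lemma gr_val (x : R) : (gr L).val x = vΓ piF (L.φ x) := rfl

lemma gr_c_coe (j : ℤ) (x : R) : ((gr L).c j x).1 = coef secF piF j (L.φ x) := rfl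

lemma gr_ω (g h : ℤ) : (gr L).ω g h = 1 := rfl

lemma gr_lam (l : K') : (gr L).lam l = piF (psi L l).1.ord := rfl

lemma gr_θ_coe (j : ℤ) (y : Rh L) : ((gr L).θ j y).1 = thetaM secF j y.1 := rfl

lemma gr_τR (y : Rh L) : (gr L).τR y = traceR (cS L) τ y := rfl

lemma gr_τ' (x : R) : (gr L).τ' x = L.τ' x := rfl

/-- `j ≤ val x`. -/
lemma le_val_iff {j : ℤ} {x : R} :
    (j : WithTop ℤ) ≤ (gr L).val x ↔ ∀ g, (L.φ x).coeff g ≠ 0 → j ≤ (ofLex g).1 := by
  rw [gr_val, le_vΓ_iff piF_mono]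
  refine forall_congr' fun g => forall_congr' fun _ => ?_
  exact WithTop.coe_le_coe

lemma le_val_of_fil {j : ℕ} {x : R} (h : x ∈ L.lev.Φ.fil j) : ((j : ℤ) : WithTop ℤ) ≤ (gr L).val x := by
  rw [le_val_iff]
  exact fun g hg => (L.lev_fil j x).1 h g hg

lemma fil_of_le_val {j : ℕ} {x : R} (h : ((j : ℤ) : WithTop ℤ) ≤ (gr L).val x) : x ∈ L.lev.Φ.fil j :=
  (L.lev_fil j x).2 fun g hg => (le_val_iff L).1 h g hg

/-- The coefficients of `c j x`. -/
lemma coeff_c (j : ℤ) (x : R) (n : CE) :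
    ((gr L).c j x).1.coeff (idx n 0) = (L.φ x).coeff (idx n j) := by
  classical
  have h1 := coef_mul_eM (π := piF) (R := A) (ε := tw L) secF j (L.φ x)
  have h2 := coeff_mul_mono (ε := tw L) (idx 0 j) (1 : A) (coef secF piF j (L.φ x)) (idx n 0)
  have h3 : idx n 0 + idx (0 : CE) j = idx n j := by
    rw [idx_add, add_zero, zero_add]
  rw [h3] at h2
  have h4 : (tw L) (idx n 0) (idx (0 : CE) j) = 1 := by
    show L.ζ ^ ((0 : ℤ) * κ (0 : CE)) = 1
    simp
  rw [h4, one_smul, mul_one] at h2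
  rw [gr_c_coe, ← h2]
  have h5 : (coef secF piF j (L.φ x) * mono (idx 0 j) 1 : THS A (tw L)) = layer piF j (L.φ x) := h1
  rw [h5]
  exact coeff_layer_of_eq piF _ rfl

/-- Elements of the residue ring are determined by the coefficients at `idx n 0`. -/
lemma Rh_ext {y y' : Rh L} (h : ∀ n : CE, y.1.coeff (idx n 0) = y'.1.coeff (idx n 0)) : y = y' := by
  apply Subtype.ext
  ext g
  by_cases hg : g ∈ piF.ker
  · rw [eq_idx_of_mem_ker hg]
    exact h _
  · have h1 : y.1.coeff g = 0 := by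
      by_contra hne
      exact hg ((mem_subS.1 y.2) hne)
    have h2 : y'.1.coeff g = 0 := by
      by_contra hne
      exact hg ((mem_subS.1 y'.2) hne)
    rw [h1, h2]

/-- The monomial `x e_n` of the residue ring. -/
noncomputable def mn (n : CE) (x : A) : Rh L := ⟨mono (idx n 0) x, mono_mem_subS (idx_mem_ker n) x⟩

lemma mn_coe (n : CE) (x : A) : (mn L n x).1 = mono (idx n 0) x := rfl

lemma coeff_mn (n n' : CE) (x : A) : (mn L n x).1.coeff (idx n' 0) = if n' = n then x else 0 := by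
  classical
  rw [mn_coe, coeff_mono]
  by_cases h : n' = n
  · rw [if_pos h, if_pos (by rw [h])]
  · rw [if_neg h, if_neg]
    intro h'
    exact h (idx_inj.1 h').1

lemma mn_mul (n n' : CE) (x x' : A) : mn L n x * mn L n' x' = mn L (n + n') (x * x') := by
  apply Subtype.ext
  show (mono (idx n 0) x * mono (idx n' 0) x' : THS A (tw L)) = mono (idx (n + n') 0) (x * x')
  rw [mono_mul_mono, idx_add, add_zero]
  have h4 : (tw L) (idx n 0) (idx n' 0) = 1 := by
    show L.ζ ^ ((0 : ℤ) * κ n') = 1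
    simp
  rw [h4, one_smul]

lemma mn_add (n : CE) (x x' : A) : mn L n (x + x') = mn L n x + mn L n x' :=
  Subtype.ext (mono_add _ _ _)

@[simp] lemma mn_zero (n : CE) : mn L n (0 : A) = 0 := Subtype.ext (mono_zero' _)

@[simp] lemma mn_zero_one : mn L 0 (1 : A) = 1 := rfl

lemma mn_ne_zero (n : CE) {x : A} (hx : x ≠ 0) : mn L n x ≠ 0 := by
  intro h
  have h1 := coeff_mn L n n x
  rw [h, if_pos rfl] at h1
  exact hx h1.symm

/-- `A` in the residue ring. -/
noncomputable def ι : A →+* Rh L where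
  toFun := mn L 0
  map_one' := rfl
  map_mul' x y := by rw [mn_mul, add_zero]
  map_zero' := mn_zero L 0
  map_add' := mn_add L 0

@[simp] lemma ι_apply (x : A) : ι L x = mn L 0 x := rfl

lemma ι_mul_mn (x x' : A) (n : CE) : ι L x * mn L n x' = mn L n (x * x') := by
  rw [ι_apply, mn_mul, zero_add]

lemma mn_mul_ι (x x' : A) (n : CE) : mn L n x' * ι L x = mn L n (x' * x) := by
  rw [ι_apply, mn_mul, add_zero]

/-- The coefficient of a monomial. -/
lemma c_mono (x : A) (n : CE) (j : ℕ) : (gr L).c (j : ℤ) (L.lev.mono x n j) = mn L n x := by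
  apply Rh_ext
  intro n'
  rw [coeff_c, L.lev_mono, coeff_mono, coeff_mn]
  by_cases h : n' = n
  · rw [if_pos h, if_pos (by rw [h])]
  · rw [if_neg h, if_neg]
    intro h'
    exact h (idx_inj.1 h').1

/-- Terms of higher order do not count. -/
lemma c_of_lt_val {j : ℤ} {x : R} (h : (j : WithTop ℤ) < (gr L).val x) : (gr L).c j x = 0 :=
  ((gr L).c_eq_zero_iff j x h.le).2 h

lemma c_of_fil {j : ℕ} {x : R} (h : x ∈ L.lev.Φ.fil (j + 1)) : (gr L).c (j : ℤ) x = 0 := by
  apply c_of_lt_val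
  have h1 := le_val_of_fil L h
  refine lt_of_lt_of_le ?_ h1
  exact_mod_cast Nat.lt_succ_self j

/-- The coefficient of the twist. -/
lemma coeff_θ (j : ℤ) (y : Rh L) (n : CE) :
    ((gr L).θ j y).1.coeff (idx n 0) = L.ζ ^ (j * κ n) • y.1.coeff (idx n 0) := by
  rw [gr_θ_coe, coeff_thetaM]
  congr 1
  show L.ζ ^ (j * κ n) * (L.ζ ^ ((0 : ℤ) * κ (0 : CE)))⁻¹ = _
  simp

lemma θ_ι (j : ℤ) (x : A) : (gr L).θ j (ι L x) = ι L x := by
  apply Rh_ext
  intro n
  rw [coeff_θ]
  show L.ζ ^ (j * κ n) • (mn L 0 x).1.coeff (idx n 0) = (mn L 0 x).1.coeff (idx n 0)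
  rw [coeff_mn]
  by_cases h : n = 0
  · rw [if_pos h, h]
    simp
  · rw [if_neg h, smul_zero]

/-- `K` in the residue field. -/
noncomputable def ofK : K →+* Kh L := Scal.ofK (S0 (cS L) piF)

lemma ofK_coe (c : K) : (ofK L c).1 = mono 0 (algebraMap K A c) := rfl

lemma smul_coe (c : Kh L) (y : Rh L) : (c • y).1 = c.1 * y.1 := rfl

lemma ofK_smul_mn (c : K) (n : CE) (x : A) : ofK L c • mn L n x = mn L n (c • x) := by
  apply Subtype.ext
  rw [smul_coe, ofK_coe, mn_coe, mn_coe, mono_mul_mono, zero_add, Bichar.zero_left, one_smul,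
    Algebra.smul_def]

lemma θ_mn (j : ℤ) (n : CE) (x : A) : (gr L).θ j (mn L n x) = ofK L (L.ζ ^ (j * κ n)) • mn L n x := by
  apply Rh_ext
  intro n'
  rw [coeff_θ, ofK_smul_mn, coeff_mn, coeff_mn]
  by_cases h : n' = n
  · rw [if_pos h, if_pos h, h]
  · rw [if_neg h, if_neg h, smul_zero]

/-- The twist acts by `ζ^{j κ}`: central exponents are fixed. -/
lemma θ_eq_self_of_supp {j : ℤ} {y : Rh L} (h : ∀ n : CE, y.1.coeff (idx n 0) ≠ 0 → (L.m : ℤ) ∣ κ n) :
    (gr L).θ j y = y := by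
  apply Rh_ext
  intro n
  rw [coeff_θ]
  by_cases h0 : y.1.coeff (idx n 0) = 0
  · rw [h0, smul_zero]
  · obtain ⟨w, hw⟩ := h n h0
    have hz : L.ζ ^ (j * κ n) = 1 := by
      rw [hw, mul_comm j, mul_assoc, zpow_mul, zpow_natCast, (zeta_pow L), one_zpow]
    rw [hz, one_smul]

/-- The twist depends only on the class of `j`. -/
lemma θ_congr {j j' : ℤ} (h : (L.m : ℤ) ∣ j - j') (y : Rh L) : (gr L).θ j y = (gr L).θ j' y := by
  apply Rh_ext
  intro n
  rw [coeff_θ, coeff_θ]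
  congr 1
  obtain ⟨w, hw⟩ := h
  have : j * κ n = j' * κ n + L.m * (w * κ n) := by
    have h2 : j = j' + L.m * w := by omega
    rw [h2]
    ring
  rw [this, zpow_add₀ L.ζ_ne, zpow_mul L.ζ (L.m : ℤ), zpow_natCast, zeta_pow L, one_zpow, mul_one]

lemma mem_S0 {n : CE} : idx n 0 ∈ (S0 (cS L) piF).Γ ↔ (L.m : ℤ) ∣ κ n := by
  constructor
  · exact fun h => h.1.2
  · exact fun h => ⟨⟨dvd_zero _, h⟩, rfl⟩

/-- The coefficients of the residue trace. -/
lemma coeff_τR (y : Rh L) (n : CE) : ((gr L).τR y).1.coeff (idx n 0) =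
    open Classical in if (L.m : ℤ) ∣ κ n then algebraMap K A (τ (y.1.coeff (idx n 0))) else 0 := by
  classical
  rw [gr_τR]
  show (traceSeries (S0 (cS L) piF) τ y.1).coeff (idx n 0) = _
  rw [coeff_traceSeries]
  by_cases h : (L.m : ℤ) ∣ κ n
  · rw [if_pos h, if_pos ((mem_S0 L).2 h)]
  · rw [if_neg h, if_neg (fun h' => h ((mem_S0 L).1 h'))]

/-- Residue scalars are determined by the coefficients. -/
lemma Kh_ext {c c' : Kh L} (h : ∀ n : CE, c.1.coeff (idx n 0) = c'.1.coeff (idx n 0)) : c = c' := by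
  apply Subtype.ext
  ext g
  by_cases hg : g ∈ piF.ker
  · rw [eq_idx_of_mem_ker hg]
    exact h _
  · have h1 : c.1.coeff g = 0 := by
      by_contra hne
      exact hg (c.2.1 g hne).2
    have h2 : c'.1.coeff g = 0 := by
      by_contra hne
      exact hg (c'.2.1 g hne).2
    rw [h1, h2]

/-- A central monomial of the residue field. -/
noncomputable def eK (n : CE) (h : (L.m : ℤ) ∣ κ n) : Kh L := ⟨mono (idx n 0) 1, by
  classical
  constructor
  · intro g hg
    rw [coeff_mono] at hg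
    by_cases hgn : g = idx n 0
    · rw [hgn]
      exact (mem_S0 L).2 h
    · rw [if_neg hgn] at hg
      exact absurd rfl hg
  · intro g
    rw [coeff_mono]
    split_ifs
    · exact Subalgebra.one_mem _
    · exact Subalgebra.zero_mem _⟩

lemma eK_coe (n : CE) (h : (L.m : ℤ) ∣ κ n) : (eK L n h).1 = mono (idx n 0) 1 := rfl

lemma eK_smul_mn (n : CE) (h : (L.m : ℤ) ∣ κ n) (n' : CE) (x : A) :
    eK L n h • mn L n' x = mn L (n + n') x := by
  apply Subtype.ext
  rw [smul_coe, eK_coe, mn_coe, mn_coe, mono_mul_mono, idx_add, add_zero, one_mul]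
  have h4 : (tw L) (idx n 0) (idx n' 0) = 1 := by
    show L.ζ ^ ((0 : ℤ) * κ n') = 1
    simp
  rw [h4, one_smul]

lemma eK_ne_zero (n : CE) (h : (L.m : ℤ) ∣ κ n) : eK L n h ≠ 0 := by
  classical
  intro h0
  have h1 := eK_coe L n h
  rw [h0] at h1
  have h2 := congrArg (fun z : THS A (tw L) => z.coeff (idx n 0)) h1
  simp only [coeff_mono, if_true] at h2
  exact zero_ne_one h2

/-- The residue trace of a monomial. -/
lemma τR_mn_of_not_dvd {n : CE} (h : ¬ (L.m : ℤ) ∣ κ n) (x : A) : (gr L).τR (mn L n x) = 0 := by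
  apply Kh_ext
  intro n'
  rw [coeff_τR, coeff_mn]
  show _ = ((0 : Kh L)).1.coeff _
  rw [show ((0 : Kh L)).1 = 0 from rfl, coeff_zero]
  by_cases h1 : n' = n
  · rw [h1, if_neg h]
  · rw [if_neg h1, map_zero, map_zero, ite_self]

lemma τR_mn_of_dvd {n : CE} (h : (L.m : ℤ) ∣ κ n) (x : A) :
    (gr L).τR (mn L n x) = eK L n h * ofK L (τ x) := by
  apply Kh_ext
  intro n'
  rw [coeff_τR, coeff_mn]
  have h2 : (eK L n h * ofK L (τ x)).1 = mono (idx n 0) (algebraMap K A (τ x)) := by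
    show (mono (idx n 0) 1 * mono 0 (algebraMap K A (τ x)) : THS A (tw L)) = _
    rw [mono_mul_mono, add_zero, one_mul, Bichar.zero_right, one_smul]
  rw [h2, coeff_mono]
  by_cases h1 : n' = n
  · rw [h1, if_pos h, if_pos rfl, if_pos rfl]
  · rw [if_neg h1, map_zero, map_zero, ite_self, if_neg]
    intro h'
    exact h1 (idx_inj.1 h').1

/-! ### Gauss -/

lemma repG_zero_mem_kerF (k : ZMod L.m) : repG L.m 0 k ∈ piF.ker := by
  rw [mem_ker_piF, repG_fst, ZMod.val_zero]
  rfl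

lemma repsK_mem_kerF : ∀ t ∈ repsK L.m, t ∈ piF.ker := by
  intro t ht
  obtain ⟨k, -, rfl⟩ := Finset.mem_image.1 ht
  exact repG_zero_mem_kerF L k

lemma repsK_coverF (g : GLv) (hg : g ∈ piF.ker) : ∃ t ∈ repsK L.m, g - t ∈ centLat L.m := by
  refine ⟨repG L.m 0 ((κ (ofLex g).2 : ℤ) : ZMod L.m),
    Finset.mem_image.2 ⟨_, Finset.mem_univ _, rfl⟩, sub_repG_mem L.m ?_ rfl⟩
  rw [mem_ker_piF.1 hg]
  simp

variable [FiniteDimensional K A]

instance finiteRh : Module.Finite (Kh L) (Rh L) :=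
  res_finite (cS L) piF (repsK L.m) (repsK_mem_kerF L) (repsK_coverF L) (repsK_disj L.m)

lemma gr_contractive (y : R) (i : ↥(repsT L.m) × Fin (finrank K A)) :
    (gr L).val y ≤ (gr L).val ((basisR L).repr y i • basisR L i) := by
  have h1 : (basisR L).repr y i = (psi L).symm ((monoBasis (A := A) (cS L) (repsT L.m)
      (repsT_cover L.m) (repsT_disj L.m)).repr (L.φ y) i) :=
    basisTrans_repr (cS L) L.φ (psi L) (psi_coe L) _ y i
  have h2 : L.φ (basisR L i) = monoBasis (A := A) (cS L) (repsT L.m)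
      (repsT_cover L.m) (repsT_disj L.m) i := by
    rw [basisR, basisTrans_apply, RingEquiv.apply_symm_apply]
  rw [gr_val, gr_val, phi_smul (cS L) L.φ (psi L) (psi_coe L), h1, h2, RingEquiv.apply_symm_apply]
  exact vΓ_le_coord (cS L) piF_mono (repsT L.m) (repsT_cover L.m) (repsT_disj L.m) (L.φ y) i

lemma idx0_mem (j : ℤ) (hj : (L.m : ℤ) ∣ j) : idx (0 : CE) j ∈ centLat L.m :=
  ⟨hj, by
    show (L.m : ℤ) ∣ κ (0 : CE)
    simp⟩

/-- A scalar which is a pure power of `s'`. -/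
noncomputable def sP (j : ℤ) (hj : (L.m : ℤ) ∣ j) : K' :=
  scalMono L (idx 0 j) (idx0_mem L j hj)

lemma sP_ne (j : ℤ) (hj : (L.m : ℤ) ∣ j) : sP L j hj ≠ 0 := scalMono_ne L _ _

lemma psi_sP (j : ℤ) (hj : (L.m : ℤ) ∣ j) : (psi L (sP L j hj)).1 = mono (idx 0 j) 1 :=
  psi_scalMono L _ _

lemma gr_lam_sP (j : ℤ) (hj : (L.m : ℤ) ∣ j) : (gr L).lam (sP L j hj) = j := by
  rw [gr_lam, psi_sP, ord_mono L _ one_ne_zero]
  rfl

lemma gr_lc_sP (j : ℤ) (hj : (L.m : ℤ) ∣ j) : (gr L).lc (sP L j hj) = 1 := by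
  apply Subtype.ext
  show coef secF piF (piF (psi L (sP L j hj)).1.ord) (psi L (sP L j hj)).1 = 1
  rw [psi_sP, ord_mono L _ one_ne_zero]
  unfold coef
  rw [layer_eq_self piF]
  · exact mul_inv_cancel₀ (eM_ne_zero (R := A) (ε := tw L) secF j)
  · intro g hg
    have h1 := supp_mono_subset (ε := tw L) (idx 0 j) (1 : A) hg
    rw [Set.mem_singleton_iff] at h1
    rw [h1]

/-- Multiplication by the scalar `s'^j` shifts the coefficients. -/
lemma c_sP (j : ℤ) (hj : (L.m : ℤ) ∣ j) (g : ℤ) {x : R} (hx : (g : WithTop ℤ) ≤ (gr L).val x) :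
    (((g + j : ℤ) : WithTop ℤ) ≤ (gr L).val (sP L j hj • x)) ∧
      (gr L).c (g + j) (sP L j hj • x) = (gr L).c g x := by
  have h := (gr L).smul_spec (sP L j hj) (sP_ne L j hj) g x hx
  rw [gr_lam_sP, gr_lc_sP, one_smul] at h
  exact h

lemma gr_hcl (g : ℤ) : ∃ a : ZMod L.m, ∃ l : K', l ≠ 0 ∧ g + (gr L).lam l = ((a.val : ℕ) : ℤ) := by
  set a : ZMod L.m := ((g : ℤ) : ZMod L.m) with ha
  have h1 : (L.m : ℤ) ∣ ((a.val : ℕ) : ℤ) - g := by
    rw [← ZMod.intCast_zmod_eq_zero_iff_dvd, Int.cast_sub, intCast_val, ← ha, sub_self]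
  refine ⟨a, sP L _ h1, sP_ne L _ h1, ?_⟩
  rw [gr_lam_sP]
  omega

lemma gr_lam_dvd {l : K'} (hl : l ≠ 0) : (L.m : ℤ) ∣ (gr L).lam l := by
  rw [gr_lam]
  have h1 : (psi L l).1 ≠ 0 := fun h => hl ((map_eq_zero_iff _ (psi L).injective).1 (Subtype.ext h))
  exact ((psi L l).2.1 _ (ord_mem h1)).1

lemma gr_hdisj (a a' : ZMod L.m) (l l' : K') (hl : l ≠ 0) (hl' : l' ≠ 0)
    (h : ((a.val : ℕ) : ℤ) + (gr L).lam l = ((a'.val : ℕ) : ℤ) + (gr L).lam l') : a = a' := by
  have h4 := congrArg (fun z : ℤ => (z : ZMod L.m)) h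
  simp only [Int.cast_add, intCast_val] at h4
  have h5 : (((gr L).lam l : ℤ) : ZMod L.m) = 0 :=
    (ZMod.intCast_zmod_eq_zero_iff_dvd _ _).2 (gr_lam_dvd L hl)
  have h6 : (((gr L).lam l' : ℤ) : ZMod L.m) = 0 :=
    (ZMod.intCast_zmod_eq_zero_iff_dvd _ _).2 (gr_lam_dvd L hl')
  rw [h5, h6, add_zero, add_zero] at h4
  exact h4

/-- **Gauss**: the dimension of a `K'`-subspace is the sum of the dimensions of its leading spaces. -/
theorem gauss (W : Submodule K' R) :
    finrank K' W = ∑ a : ZMod L.m, finrank (Kh L) ((gr L).toLeadData.lead ((a.val : ℕ) : ℤ) W) :=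
  Lead.LeadData.finrank_eq_sum_lead (gr L).toLeadData (basisR L) (fun a : ZMod L.m => ((a.val : ℕ) : ℤ))
    (gr_contractive L) (gr_hcl L) (fun r r' l l' hl hl' h => gr_hdisj L r r' l l' hl hl' h) W

/-- Leading spaces depend only on the class modulo `m`. -/
lemma lead_shift {j j' : ℤ} (h : (L.m : ℤ) ∣ j - j') (W : Submodule K' R) :
    (gr L).toLeadData.lead j W = (gr L).toLeadData.lead j' W := by
  have h1 := (gr L).lead_add_lam j' (sP_ne L (j - j') h) W
  rw [gr_lam_sP] at h1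
  have e : j' + (j - j') = j := by ring
  rw [e] at h1
  exact h1

/-! ### Independence of monomials -/

omit [FiniteDimensional K A] in
/-- The coefficients of residue scalars are in `K`. -/
lemma coeff_Kh_mem (c : Kh L) (g : GLv) : ∃ a : K, c.1.coeff g = algebraMap K A a := by
  obtain ⟨a, ha⟩ := Algebra.mem_bot.1 (c.2.2 g)
  exact ⟨a, ha.symm⟩

omit [FiniteDimensional K A] in
/-- The coefficient of `c • ι x`. -/
lemma coeff_smul_ι (c : Kh L) (x : A) (g : GLv) : (c • ι L x).1.coeff g = c.1.coeff g * x := by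
  have h := coeff_mul_mono (ε := tw L) (0 : GLv) x c.1 g
  rw [add_zero, Bichar.zero_right, one_smul] at h
  exact h

/-- `K`-independent elements of `A` stay independent over the residue field. -/
theorem linearIndependent_ι {ι' : Type*} [Fintype ι'] {v : ι' → A} (hv : LinearIndependent K v) :
    LinearIndependent (Kh L) (fun i => ι L (v i)) := by
  classical
  rw [Fintype.linearIndependent_iff]
  intro c hc i
  apply Subtype.ext
  ext g
  rw [show ((0 : Kh L)).1 = 0 from rfl, coeff_zero]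
  choose a ha using fun i => coeff_Kh_mem L (c i) g
  have h1 : ∑ i, a i • v i = 0 := by
    have h2 : ((∑ i, c i • ι L (v i) : Rh L)).1.coeff g = ((0 : Rh L)).1.coeff g :=
      congrArg (fun y : Rh L => y.1.coeff g) hc
    have h3 : ((∑ i, c i • ι L (v i) : Rh L)).1 = ∑ i, (c i • ι L (v i)).1 :=
      AddSubmonoidClass.coe_finsetSum _ _
    rw [h3, THSLead.coeff_sum] at h2
    rw [show ((0 : Rh L)).1 = 0 from rfl, coeff_zero] at h2
    rw [← h2]
    refine Finset.sum_congr rfl fun i _ => ?_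
    rw [coeff_smul_ι, ha, Algebra.smul_def]
  have h2 := Fintype.linearIndependent_iff.1 hv a h1 i
  rw [ha, h2, map_zero]

/-- The span of `ι V` has the dimension of `V`. -/
theorem finrank_span_ι (V : Submodule K A) [FiniteDimensional K V] :
    finrank (Kh L) (Submodule.span (Kh L) (ι L '' (V : Set A))) = finrank K V := by
  classical
  let b := Module.finBasis K V
  have hli : LinearIndependent (Kh L) (fun i => ι L ((b i : V) : A)) :=
    linearIndependent_ι L (v := fun i => ((b i : V) : A))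
      (b.linearIndependent.map' V.subtype (Submodule.ker_subtype V))
  have hs : Submodule.span (Kh L) (ι L '' (V : Set A)) =
      Submodule.span (Kh L) (Set.range fun i => ι L ((b i : V) : A)) := by
    apply le_antisymm
    · rw [Submodule.span_le]
      rintro _ ⟨x, hx, rfl⟩
      have hx' : (⟨x, hx⟩ : V) = ∑ i, b.repr ⟨x, hx⟩ i • b i := (b.sum_repr _).symm
      have hx2 : x = ∑ i, b.repr ⟨x, hx⟩ i • ((b i : V) : A) := by
        have h5 : ((⟨x, hx⟩ : V) : A) = ((∑ i, b.repr ⟨x, hx⟩ i • b i : V) : A) :=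
          congrArg Subtype.val hx'
        rw [AddSubmonoidClass.coe_finsetSum] at h5
        exact h5
      rw [hx2, map_sum]
      refine Submodule.sum_mem _ fun i _ => ?_
      have h3 : ι L (b.repr ⟨x, hx⟩ i • ((b i : V) : A)) = ofK L (b.repr ⟨x, hx⟩ i) • ι L ((b i : V) : A) := by
        rw [ι_apply, ι_apply, ofK_smul_mn]
      rw [h3]
      exact Submodule.smul_mem _ _ (Submodule.subset_span ⟨i, rfl⟩)
    · apply Submodule.span_mono
      rintro _ ⟨i, rfl⟩
      exact ⟨(b i : V), (b i).2, rfl⟩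
  rw [hs, finrank_span_eq_card hli]
  simp

end Crest.Agent.Kurosh.FstData
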