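/-
S0270 (Kurosh), §K (helper72): calculus in the residue ring of `FstData` with coefficients in a commutative
subfield `E ≤ A` (`E = K[β]`).

`EA E`: series with coefficients in `E`, a commutative subalgebra of the residue ring over `K̂`.
`MA E`: moreover with central support (`m ∣ κ`).
`τR_mn_mul_eq_zero`, `τR_mn_mul_congr`: the trace of `x e_n G` for `G ∈ MA E`.
`eq_zero_of_τR`: nondegeneracy on `MA E`.
-/
import Crest.Agent.Kurosh.FstData
import Crest.Agent.Kurosh.QBinom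
import Crest.Agent.Kurosh.DoubleCent

set_option autoImplicit false
set_option linter.unusedSectionVars false

namespace Crest.Agent.Kurosh.ExLead

open THS THSLead Hensel LU Module LeadVN FstData
open LeadVN.LvData (cS tw psi scalMono)

variable {K A K' R : Type*} [Field K] [DivisionRing A] [Algebra K A] [Field K'] [DivisionRing R]
  [Algebra K R] [Algebra K' R] [Algebra K K'] [IsScalarTower K K' R] {τ : A →ₗ[K] K}
  (L : Lv K A K' R τ) [FiniteDimensional K A] (E : Subalgebra K A)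

lemma hinv : ∀ a ∈ E, a⁻¹ ∈ E := fun a ha => DoubleCent.inv_mem_subalgebra E ha

lemma coeff_Kh_mem_E (c : Kh L) (g : GLv) : c.1.coeff g ∈ E := by
  obtain ⟨a, ha⟩ := coeff_Kh_mem L c g
  rw [ha]
  exact E.algebraMap_mem a

/-- Series with coefficients in `E`. -/
def EA : Subalgebra (Kh L) (Rh L) where
  carrier := {y | IsIn piF.ker E y.1}
  mul_mem' := IsIn.mul
  add_mem' := IsIn.add
  algebraMap_mem' c := ⟨fun g hg => (c.2.1 g hg).2, fun g => coeff_Kh_mem_E L E c g⟩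

lemma mem_EA {y : Rh L} : y ∈ EA L E ↔ ∀ n : CE, y.1.coeff (idx n 0) ∈ E := by
  constructor
  · exact fun h n => h.2 _
  · intro h
    refine ⟨fun g hg => (mem_subS.1 y.2) hg, fun g => ?_⟩
    by_cases hg : g ∈ piF.ker
    · rw [eq_idx_of_mem_ker hg]
      exact h _
    · have h1 : y.1.coeff g = 0 := by
        by_contra hne
        exact hg ((mem_subS.1 y.2) hne)
      rw [h1]
      exact E.zero_mem

lemma inv_mem_EA {y : Rh L} (hy : y ∈ EA L E) : y⁻¹ ∈ EA L E := IsIn.inv (hinv E) hy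

lemma mn_mem_EA (n : CE) {x : A} (hx : x ∈ E) : mn L n x ∈ EA L E := by
  rw [mem_EA]
  intro n'
  rw [coeff_mn]
  split_ifs
  · exact hx
  · exact E.zero_mem

lemma ι_mem_EA {x : A} (hx : x ∈ E) : ι L x ∈ EA L E := mn_mem_EA L E 0 hx

/-- Series with coefficients in a commutative `E` commute. -/
lemma EA_comm (hE : ∀ x ∈ E, ∀ y ∈ E, x * y = y * x) {y y' : Rh L} (hy : y ∈ EA L E)
    (hy' : y' ∈ EA L E) : y * y' = y' * y := by
  classical
  apply Subtype.ext
  ext g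
  show (y.1 * y'.1).coeff g = (y'.1 * y.1).coeff g
  rw [coeff_mul, coeff_mul]
  refine Finset.sum_nbij' Prod.swap Prod.swap ?_ ?_ ?_ ?_ ?_
  · rintro ⟨a, b⟩ h
    obtain ⟨ha, hb, hab⟩ := Finset.mem_antidiagonal.1 h
    exact Finset.mem_antidiagonal.2 ⟨hb, ha, by simpa [add_comm] using hab⟩
  · rintro ⟨a, b⟩ h
    obtain ⟨ha, hb, hab⟩ := Finset.mem_antidiagonal.1 h
    exact Finset.mem_antidiagonal.2 ⟨hb, ha, by simpa [add_comm] using hab⟩
  · rintro ⟨a, b⟩ -
    rfl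
  · rintro ⟨a, b⟩ -
    rfl
  · rintro ⟨a, b⟩ h
    obtain ⟨ha, hb, hab⟩ := Finset.mem_antidiagonal.1 h
    simp only [Prod.swap_prod_mk]
    have h1 : (tw L) a b = 1 := by
      show L.ζ ^ ((ofLex a).1 * κ (ofLex b).2) = 1
      rw [mem_ker_piF.1 (hy.1 a ha), zero_mul, zpow_zero]
    have h2 : (tw L) b a = 1 := by
      show L.ζ ^ ((ofLex b).1 * κ (ofLex a).2) = 1
      rw [mem_ker_piF.1 (hy'.1 b hb), zero_mul, zpow_zero]
    rw [h1, h2, hE _ (hy.2 a) _ (hy'.2 b)]

/-- Series with coefficients in `E` and central support. -/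
def MA : Subalgebra (Kh L) (Rh L) where
  carrier := {y | IsIn (S0 (cS L) piF).Γ E y.1}
  mul_mem' := IsIn.mul
  add_mem' := IsIn.add
  algebraMap_mem' c := ⟨fun g hg => c.2.1 g hg, fun g => coeff_Kh_mem_E L E c g⟩

lemma MA_le_EA : MA L E ≤ EA L E := fun _ hy => ⟨fun g hg => (hy.1 g hg).2, hy.2⟩

lemma inv_mem_MA {y : Rh L} (hy : y ∈ MA L E) : y⁻¹ ∈ MA L E := IsIn.inv (hinv E) hy

lemma mem_MA_supp {y : Rh L} (hy : y ∈ MA L E) {n : CE} (h : y.1.coeff (idx n 0) ≠ 0) :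
    (L.m : ℤ) ∣ κ n := (mem_S0 L).1 (hy.1 _ h)

lemma mn_mem_MA {n : CE} (hn : (L.m : ℤ) ∣ κ n) {x : A} (hx : x ∈ E) : mn L n x ∈ MA L E := by
  classical
  refine ⟨fun g hg => ?_, fun g => ?_⟩
  · have h1 := supp_mono_subset (ε := tw L) (idx n 0) x hg
    rw [Set.mem_singleton_iff] at h1
    rw [h1]
    exact (mem_S0 L).2 hn
  · show (mono (idx n 0) x : THS A (tw L)).coeff g ∈ E
    rw [coeff_mono]
    split_ifs
    · exact hx
    · exact E.zero_mem

lemma ι_mem_MA {x : A} (hx : x ∈ E) : ι L x ∈ MA L E := mn_mem_MA L E (by simp) hx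

/-- The twist is trivial on `MA`. -/
lemma θ_MA (j : ℤ) {y : Rh L} (hy : y ∈ MA L E) : (gr L).θ j y = y :=
  θ_eq_self_of_supp L fun _ h => mem_MA_supp L E hy h

/-! ### The product with a monomial -/

lemma coeff_mn_mul (n n' : CE) (c : A) (y : Rh L) :
    (mn L n c * y).1.coeff (idx n' 0) = c * y.1.coeff (idx (n' - n) 0) := by
  have h := coeff_mono_mul (ε := tw L) (idx n 0) c y.1 (idx (n' - n) 0)
  have h1 : idx n 0 + idx (n' - n) 0 = idx n' 0 := by
    rw [idx_add, add_zero, add_sub_cancel]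
  rw [h1] at h
  have h2 : (tw L) (idx n 0) (idx (n' - n) 0) = 1 := by
    show L.ζ ^ ((0 : ℤ) * κ (n' - n)) = 1
    simp
  rw [h2, one_smul] at h
  exact h

lemma coeff_mul_ι (y : Rh L) (f : A) (n : CE) :
    (y * ι L f).1.coeff (idx n 0) = y.1.coeff (idx n 0) * f := by
  have h := coeff_mul_mono (ε := tw L) (0 : GLv) f y.1 (idx n 0)
  rw [add_zero, Bichar.zero_right, one_smul] at h
  exact h

/-- `τR (x e_n G) = 0` for `G` central, `n` not central. -/
lemma τR_mn_mul_eq_zero {n : CE} (hn : ¬ (L.m : ℤ) ∣ κ n) (c : A) {G : Rh L} (hG : G ∈ MA L E) :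
    (gr L).τR (mn L n c * G) = 0 := by
  classical
  apply Kh_ext
  intro n'
  rw [coeff_τR, coeff_mn_mul]
  show _ = ((0 : Kh L)).1.coeff _
  rw [show ((0 : Kh L)).1 = 0 from rfl, coeff_zero]
  split_ifs with h
  · by_cases h0 : G.1.coeff (idx (n' - n) 0) = 0
    · rw [h0, mul_zero, map_zero, map_zero]
    · exfalso
      apply hn
      have h1 := mem_MA_supp L E hG h0
      rw [map_sub] at h1
      have h2 := dvd_sub h h1
      simpa using h2
  · rfl

/-- `τR (x e_n G) = τR (x' e_n G)` if `x, x'` have the same trace against `E`. -/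
lemma τR_mn_mul_congr {n : CE} {c c' : A} (hc : ∀ g ∈ E, τ (c * g) = τ (c' * g)) {G : Rh L}
    (hG : G ∈ EA L E) : (gr L).τR (mn L n c * G) = (gr L).τR (mn L n c' * G) := by
  classical
  apply Kh_ext
  intro n'
  rw [coeff_τR, coeff_τR, coeff_mn_mul, coeff_mn_mul, hc _ ((mem_EA L E).1 hG _)]

/-- Nondegeneracy of the residue trace on `MA`. -/
lemma eq_zero_of_τR (h1 : τ 1 = 1) {y : Rh L} (hy : y ∈ MA L E)
    (h : ∀ f ∈ E, (gr L).τR (y * ι L f) = 0) : y = 0 := by
  classical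
  apply Rh_ext
  intro n
  rw [show ((0 : Rh L)).1 = 0 from rfl, coeff_zero]
  by_contra hne
  have hdvd := mem_MA_supp L E hy hne
  have h2 := h _ (hinv E _ ((mem_EA L E).1 (MA_le_EA L E hy) n))
  have h3 : ((gr L).τR (y * ι L (y.1.coeff (idx n 0))⁻¹)).1.coeff (idx n 0) = 0 := by
    rw [h2]
    rfl
  rw [coeff_τR, if_pos hdvd, coeff_mul_ι, mul_inv_cancel₀ hne, h1, map_one] at h3
  exact one_ne_zero h3

end Crest.Agent.Kurosh.ExLead
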