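/-
S0270 (Kurosh), §K (helper72): the leads of `F' = K'[H]` for the exploration.
`Hyp`: `H ≡ β` mod order 1 and `π = P(H) ≡ (v + v μ η s) s'` mod order 2, `P` the minimal polynomial of `β`.
Then `c_r(π^r) = w r = v^r ∏_{i<r} (1 + ζ^i Y)`, `Y = μ η s`, and `dim F' ≥ m deg β`; in case of
equality the leading spaces of `F'` are `K̂ ι(K[β]) w_r`.
-/
import Crest.Agent.Kurosh.ExLead1

set_option autoImplicit false
set_option linter.unusedSectionVars false

namespace Crest.Agent.Kurosh.ExLead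

open THS THSLead Hensel LU Module LeadVN FstData Polynomial QBinom
open LeadVN.LvData (cS tw psi scalMono)

variable {K A K' R : Type*} [Field K] [DivisionRing A] [Algebra K A] [Field K'] [DivisionRing R]
  [Algebra K R] [Algebra K' R] [Algebra K K'] [IsScalarTower K K' R] {τ : A →ₗ[K] K}
  (L : Lv K A K' R τ)

section Gr

lemma c_mul' {g h k : ℤ} (hk : g + h = k) {x y : R} (hx : (g : WithTop ℤ) ≤ (gr L).val x)
    (hy : (h : WithTop ℤ) ≤ (gr L).val y) :
    (gr L).c k (x * y) = (gr L).c g x * (gr L).θ g ((gr L).c h y) := by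
  rw [(gr L).c_mul' hk hx hy, gr_ω, one_smul]

lemma θ_zero (y : Rh L) : (gr L).θ 0 y = y := by
  apply Rh_ext
  intro n
  rw [coeff_θ, zero_mul, zpow_zero, one_smul]

lemma c_zero_mul {h : ℤ} {x y : R} (hx : ((0 : ℤ) : WithTop ℤ) ≤ (gr L).val x)
    (hy : (h : WithTop ℤ) ≤ (gr L).val y) :
    (gr L).c h (x * y) = (gr L).c 0 x * (gr L).c h y := by
  rw [c_mul' L (zero_add h) hx hy, θ_zero]

lemma le_val_mul {g h : ℤ} {x y : R} (hx : (g : WithTop ℤ) ≤ (gr L).val x)
    (hy : (h : WithTop ℤ) ≤ (gr L).val y) : ((g + h : ℤ) : WithTop ℤ) ≤ (gr L).val (x * y) :=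
  (gr L).le_val_mul hx hy

lemma mono_zero_zero (x : A) : L.lev.mono x 0 0 = L.lev.inc x := by
  rw [Lev.mono, L.lev.mon_zero, mul_one]

lemma val_inc (x : A) : ((0 : ℤ) : WithTop ℤ) ≤ (gr L).val (L.lev.inc x) :=
  le_val_of_fil L (j := 0) (L.lev.inc_mem x)

lemma c_inc (x : A) : (gr L).c 0 (L.lev.inc x) = ι L x := by
  have h := c_mono L x 0 0
  rw [mono_zero_zero] at h
  exact h

lemma val_one : ((0 : ℤ) : WithTop ℤ) ≤ (gr L).val (1 : R) := by
  have h := val_inc L (1 : A)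
  rwa [map_one] at h

lemma c_one : (gr L).c 0 (1 : R) = 1 := by
  have h := c_inc L (1 : A)
  have e : L.lev.inc (1 : A) = 1 := map_one _
  rw [e] at h
  rw [h]
  exact map_one (ι L)

lemma val_add_ge {j : ℤ} {x y : R} (hx : (j : WithTop ℤ) ≤ (gr L).val x)
    (hy : (j : WithTop ℤ) ≤ (gr L).val y) : (j : WithTop ℤ) ≤ (gr L).val (x + y) :=
  le_trans (le_min hx hy) ((gr L).val_add x y)

lemma val_sub_ge {j : ℤ} {x y : R} (hx : (j : WithTop ℤ) ≤ (gr L).val x)
    (hy : (j : WithTop ℤ) ≤ (gr L).val y) : (j : WithTop ℤ) ≤ (gr L).val (x - y) := by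
  rw [sub_eq_add_neg]
  refine val_add_ge L hx ?_
  rw [(gr L).val_neg]
  exact hy

lemma le_val_of_le {j j' : ℤ} {x : R} (h : j ≤ j') (hx : (j' : WithTop ℤ) ≤ (gr L).val x) :
    (j : WithTop ℤ) ≤ (gr L).val x := le_trans (WithTop.coe_le_coe.2 h) hx

lemma mu1_ne : mu1 ≠ (0 : CE) := by
  intro h
  have := κ_mu1
  rw [h, map_zero] at this
  exact zero_ne_one this

end Gr

/-! ### The monomial `Y` -/

section Y

variable (μ : A)

/-- `ζ` in the residue field. -/
noncomputable def ζh : Kh L := ofK L L.ζ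

lemma ζh_prim : IsPrimitiveRoot (ζh L) L.m := L.ζ_prim.map_of_injective (ofK L).injective

/-- `Y = μ η s`. -/
noncomputable def Y : Rh L := mn L mu1 μ

lemma Y_pow (a : ℕ) : Y L μ ^ a = mn L (a • mu1) (μ ^ a) := by
  induction a with
  | zero => simp [Y]
  | succ a ih => rw [pow_succ, ih, Y, mn_mul, pow_succ, succ_nsmul]

lemma θ_Y (r : ℕ) : (gr L).θ (r : ℤ) (Y L μ) = algebraMap (Kh L) (Rh L) (ζh L ^ r) * Y L μ := by
  rw [Y, θ_mn, κ_mu1, mul_one, zpow_natCast, map_pow, Algebra.smul_def]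
  rfl

lemma one_add_smul_Y_ne (c : Kh L) : (1 : Rh L) + algebraMap (Kh L) (Rh L) c * Y L μ ≠ 0 := by
  classical
  intro h
  have h1 : ((1 : Rh L) + algebraMap (Kh L) (Rh L) c * Y L μ : Rh L).1.coeff (idx (0 : CE) 0) =
      ((0 : Rh L)).1.coeff (idx (0 : CE) 0) := by rw [h]
  have h2 : ((algebraMap (Kh L) (Rh L) c * Y L μ : Rh L)).1.coeff (idx (0 : CE) 0) = 0 := by
    have h3 : ((algebraMap (Kh L) (Rh L) c * Y L μ : Rh L)).1 = c.1 * mono (idx mu1 0) μ := rfl
    rw [h3]
    have h4 := coeff_mul_mono (ε := tw L) (idx mu1 0) μ c.1 (idx (-mu1) 0)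
    have h5 : idx (-mu1) 0 + idx mu1 0 = idx (0 : CE) 0 := by
      rw [idx_add, add_zero, neg_add_cancel]
    rw [h5] at h4
    rw [h4]
    have h6 : c.1.coeff (idx (-mu1) 0) = 0 := by
      by_contra hne
      have h7 := (mem_S0 L).1 (c.2.1 _ hne)
      rw [map_neg, κ_mu1] at h7
      have h8 := L.m_prime.one_lt
      have h9 : (L.m : ℤ) ∣ 1 := by simpa using h7
      have h10 := Int.le_of_dvd one_pos h9
      omega
    rw [h6, zero_mul, smul_zero]
  rw [show ((1 + algebraMap (Kh L) (Rh L) c * Y L μ : Rh L)).1 = (1 : Rh L).1 +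
    (algebraMap (Kh L) (Rh L) c * Y L μ : Rh L).1 from rfl, THS.coeff_add, h2, add_zero] at h1
  have h11 : ((1 : Rh L)).1.coeff (idx (0 : CE) 0) = 1 := by
    show (1 : THS A (tw L)).coeff _ = 1
    rw [THS.coeff_one, if_pos idx_zero]
  rw [h11] at h1
  exact one_ne_zero h1

/-- `w_r = v^r ∏_{i<r} (1 + ζ^i Y)`. -/
noncomputable def w (v : A) (r : ℕ) : Rh L := ι L (v ^ r) * aeval (Y L μ) (prodPoly (ζh L) r)

lemma w_zero (v : A) : w L μ v 0 = 1 := by
  rw [w, pow_zero, map_one (ι L), prodPoly, Finset.prod_range_zero, map_one, mul_one]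

end Y

/-! ### The hypotheses -/

variable [FiniteDimensional K A]

/-- `H ≡ β` and `π = P(H) ≡ (v + v μ η s) s'`. -/
structure Hyp (β : A) (H : R) (v μ : A) : Prop where
  hH : H - L.lev.inc β ∈ L.lev.Φ.fil 1
  hπ : aeval H (minpoly K β) - L.lev.mono v 0 1 - L.lev.mono (v * μ) mu1 1 ∈ L.lev.Φ.fil 2
  hv : v ≠ 0
  hvE : v ∈ Algebra.adjoin K ({β} : Set A)
  hμE : μ ∈ Algebra.adjoin K ({β} : Set A)

variable {L} {β : A} {H : R} {v μ : A}

lemma E_comm : ∀ x ∈ (Algebra.adjoin K ({β} : Set A)), ∀ y ∈ (Algebra.adjoin K ({β} : Set A)),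
    x * y = y * x := by
  intro x hx y hy
  have h := Algebra.isMulCommutative_adjoin K (s := {β}) (by
    intro a ha b hb
    rw [Set.mem_singleton_iff] at ha hb
    rw [ha, hb])
  have h2 := h.is_comm.comm ⟨x, hx⟩ ⟨y, hy⟩
  exact congrArg Subtype.val h2

namespace Hyp

variable (h : Hyp L β H v μ)
include h

omit [FiniteDimensional K A] in
lemma val_H : ((0 : ℤ) : WithTop ℤ) ≤ (gr L).val H := by
  have h1 : H = L.lev.inc β + (H - L.lev.inc β) := by abel
  rw [h1]
  refine val_add_ge L (val_inc L β) ?_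
  exact le_val_of_le L (by norm_num) (le_val_of_fil L h.hH)

omit [FiniteDimensional K A] in
lemma c_H : (gr L).c 0 H = ι L β := by
  have h1 : H = L.lev.inc β + (H - L.lev.inc β) := by abel
  have h2 := c_of_fil L (j := 0) h.hH
  rw [Nat.cast_zero] at h2
  rw [h1, map_add, c_inc, h2, add_zero]

omit [FiniteDimensional K A] in
lemma c_pow (n : ℕ) : ((0 : ℤ) : WithTop ℤ) ≤ (gr L).val (H ^ n) ∧
    (gr L).c 0 (H ^ n) = ι L (β ^ n) := by
  induction n with
  | zero =>
    simp only [pow_zero, map_one]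
    exact ⟨val_one L, c_one L⟩
  | succ n ih =>
    rw [pow_succ]
    refine ⟨?_, ?_⟩
    · have := le_val_mul L ih.1 h.val_H
      simpa using this
    · rw [c_zero_mul L ih.1 h.val_H, ih.2, h.c_H, pow_succ, map_mul]

omit [FiniteDimensional K A] in
/-- `c_0 (f(H)) = ι f(β)`. -/
lemma c_aeval (f : K[X]) : ((0 : ℤ) : WithTop ℤ) ≤ (gr L).val (aeval H f) ∧
    (gr L).c 0 (aeval H f) = ι L (aeval β f) := by
  induction f using Polynomial.induction_on' with
  | add p q hp hq =>
    rw [map_add, map_add, map_add, map_add, hp.2, hq.2]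
    exact ⟨val_add_ge L hp.1 hq.1, rfl⟩
  | monomial n a =>
    have e1 : aeval H (monomial n a) = L.lev.inc (algebraMap K A a) * H ^ n := by
      rw [aeval_monomial, AlgHom.commutes]
    have e2 : aeval β (monomial n a) = algebraMap K A a * β ^ n := by
      rw [aeval_monomial]
    rw [e1, e2]
    refine ⟨?_, ?_⟩
    · have := le_val_mul L (val_inc L (algebraMap K A a)) (h.c_pow n).1
      simpa using this
    · rw [c_zero_mul L (val_inc L _) (h.c_pow n).1, c_inc, (h.c_pow n).2, map_mul]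


omit [FiniteDimensional K A] in
lemma val_π : ((1 : ℤ) : WithTop ℤ) ≤ (gr L).val (aeval H (minpoly K β)) := by
  have e : aeval H (minpoly K β) = (aeval H (minpoly K β) - L.lev.mono v 0 1 -
      L.lev.mono (v * μ) mu1 1) + L.lev.mono v 0 1 + L.lev.mono (v * μ) mu1 1 := by abel
  rw [e]
  have h1 := le_val_of_fil L (L.lev.mono_mem v 0 1)
  have h2 := le_val_of_fil L (L.lev.mono_mem (v * μ) mu1 1)
  have h3 := le_val_of_fil L h.hπ
  rw [Nat.cast_one] at h1 h2
  refine val_add_ge L (val_add_ge L (le_val_of_le L ?_ h3) h1) h2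
  norm_num

omit [FiniteDimensional K A] in
lemma c_π : (gr L).c 1 (aeval H (minpoly K β)) = ι L v * (1 + Y L μ) := by
  have e : aeval H (minpoly K β) = (aeval H (minpoly K β) - L.lev.mono v 0 1 -
      L.lev.mono (v * μ) mu1 1) + L.lev.mono v 0 1 + L.lev.mono (v * μ) mu1 1 := by abel
  have h1 := c_mono L v 0 1
  have h2 := c_mono L (v * μ) mu1 1
  have h3 := c_of_fil L (j := 1) h.hπ
  rw [Nat.cast_one] at h1 h2 h3
  rw [e, map_add, map_add, h3, h1, h2, zero_add, mul_add, mul_one, Y, ι_mul_mn]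
  rfl

lemma comm_v_aeval (f : (Kh L)[X]) : ι L v * aeval (Y L μ) f = aeval (Y L μ) f * ι L v := by
  have hE := E_comm (K := K) (β := β)
  have h1 : ι L v ∈ EA L (Algebra.adjoin K ({β} : Set A)) := ι_mem_EA L _ h.hvE
  have h2 : Y L μ ∈ EA L (Algebra.adjoin K ({β} : Set A)) := mn_mem_EA L _ _ h.hμE
  have h3 : aeval (Y L μ) f ∈ EA L (Algebra.adjoin K ({β} : Set A)) := by
    let y : ↥(EA L (Algebra.adjoin K ({β} : Set A))) := ⟨Y L μ, h2⟩
    have := Polynomial.aeval_subalgebra_coe f (EA L (Algebra.adjoin K ({β} : Set A))) y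
    rw [show (y : Rh L) = Y L μ from rfl] at this
    rw [← this]
    exact Subtype.property _
  exact EA_comm L _ hE h1 h3

/-- `c_r(π^r) = w_r`. -/
lemma w_spec (r : ℕ) : ((r : ℤ) : WithTop ℤ) ≤ (gr L).val (aeval H (minpoly K β) ^ r) ∧
    (gr L).c (r : ℤ) (aeval H (minpoly K β) ^ r) = w L μ v r := by
  induction r with
  | zero =>
    refine ⟨?_, ?_⟩
    · rw [pow_zero]; exact val_one L
    · rw [pow_zero, w_zero]
      exact c_one L
  | succ r ih =>
    have hk : (r : ℤ) + 1 = ((r + 1 : ℕ) : ℤ) := by push_cast; ring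
    refine ⟨?_, ?_⟩
    · rw [pow_succ]
      have := le_val_mul L ih.1 h.val_π
      rwa [hk] at this
    · rw [pow_succ, c_mul' L hk ih.1 h.val_π, ih.2, h.c_π, map_mul, map_add, map_one, θ_ι, θ_Y, w, w,
        aeval_prodPoly_succ, pow_succ, map_mul]
      have e : ζh L ^ r = ζh L ^ r := rfl
      rw [mul_assoc, mul_assoc, ← mul_assoc (ι L v), h.comm_v_aeval, mul_assoc]

omit [FiniteDimensional K A] in
lemma prod_ne (r : ℕ) : aeval (Y L μ) (prodPoly (ζh L) r) ≠ 0 := by
  induction r with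
  | zero =>
    rw [prodPoly, Finset.prod_range_zero, map_one]
    exact one_ne_zero
  | succ r ih =>
    rw [aeval_prodPoly_succ]
    exact mul_ne_zero ih (one_add_smul_Y_ne L μ _)

omit [FiniteDimensional K A] in
lemma w_ne (r : ℕ) : w L μ v r ≠ 0 := by
  rw [w]
  refine mul_ne_zero ?_ (h.prod_ne r)
  rw [map_pow]
  exact pow_ne_zero _ ((map_ne_zero (ι L)).2 h.hv)

end Hyp

/-- `F' = K'[H]`. -/
noncomputable def FF (K' : Type*) {R : Type*} [Field K'] [DivisionRing R] [Algebra K' R] (H : R) :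
    Submodule K' R := Subalgebra.toSubmodule (Algebra.adjoin K' ({H} : Set R))

lemma aeval_mem_FF (H : R) (f : K[X]) : aeval H f ∈ FF K' H := by
  rw [← aeval_map_algebraMap K']
  exact aeval_mem_adjoin_singleton K' H

/-- `K[β]`. -/
noncomputable def EE (K : Type*) {A : Type*} [Field K] [DivisionRing A] [Algebra K A] (β : A) :
    Submodule K A := Subalgebra.toSubmodule (Algebra.adjoin K ({β} : Set A))

lemma mem_EE {x : A} : x ∈ EE K β ↔ ∃ f : K[X], aeval β f = x := by
  rw [EE, Subalgebra.mem_toSubmodule, Algebra.adjoin_singleton_eq_range_aeval]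
  rfl

variable (L)

/-- The expected leading space of `F'` at the class `r`. -/
noncomputable def TT (β v μ : A) (r : ℕ) : Submodule (Kh L) (Rh L) :=
  (Submodule.span (Kh L) (ι L '' (EE K β : Set A))).map (LinearMap.mulRight (Kh L) (w L μ v r))

variable {L}

namespace Hyp

variable (h : Hyp L β H v μ)
include h

lemma mem_lead_w (f : K[X]) (r : ℕ) :
    ι L (aeval β f) * w L μ v r ∈ (gr L).toLeadData.lead (r : ℤ) (FF K' H) := by
  refine ⟨aeval H f * aeval H (minpoly K β) ^ r, ?_, ?_, ?_⟩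
  · rw [← map_pow, ← map_mul]
    exact aeval_mem_FF H _
  · have := le_val_mul L (h.c_aeval f).1 (h.w_spec r).1
    rwa [zero_add] at this
  · rw [c_zero_mul L (h.c_aeval f).1 (h.w_spec r).1, (h.c_aeval f).2, (h.w_spec r).2]

lemma TT_le (r : ℕ) : TT L β v μ r ≤ (gr L).toLeadData.lead (r : ℤ) (FF K' H) := by
  rw [TT, Submodule.map_le_iff_le_comap, Submodule.span_le]
  rintro _ ⟨x, hx, rfl⟩
  obtain ⟨f, rfl⟩ := mem_EE.1 hx
  exact h.mem_lead_w f r

lemma finrank_TT (r : ℕ) : finrank (Kh L) (TT L β v μ r) = finrank K (EE K β) := by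
  rw [TT, ← finrank_span_ι L (EE K β)]
  have hinj : Function.Injective (LinearMap.mulRight (Kh L) (w L μ v r)) := by
    intro a b hab
    exact mul_right_cancel₀ (h.w_ne r) hab
  exact (Submodule.equivMapOfInjective _ hinj _).finrank_eq.symm

/-- `dim F' ≥ m deg β`. -/
theorem finrank_ge : L.m * finrank K (EE K β) ≤ finrank K' (FF K' H) := by
  have : NeZero L.m := ⟨L.m_prime.ne_zero⟩
  rw [gauss L (FF K' H)]
  calc L.m * finrank K (EE K β) = ∑ _a : ZMod L.m, finrank K (EE K β) := by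
        rw [Finset.sum_const, Finset.card_univ, ZMod.card, smul_eq_mul]
    _ ≤ _ := Finset.sum_le_sum fun a _ => by
        rw [← h.finrank_TT a.val]
        exact Submodule.finrank_mono (h.TT_le a.val)

/-- In the equality case, the leading spaces of `F'` are the expected ones. -/
theorem lead_eq (hF : finrank K' (FF K' H) ≤ L.m * finrank K (EE K β)) (r : ℕ) (hr : r < L.m) :
    (gr L).toLeadData.lead (r : ℤ) (FF K' H) = TT L β v μ r := by
  have : NeZero L.m := ⟨L.m_prime.ne_zero⟩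
  have h1 := TestCore.lead_eq_of_le_of_sum (gr L) (fun a : ZMod L.m => ((a.val : ℕ) : ℤ))
    (W := FF K' H) (gauss L (FF K' H)) (T := fun a => TT L β v μ a.val)
    (fun a => h.TT_le a.val) (by
      refine hF.trans (le_of_eq ?_)
      rw [Finset.sum_congr rfl fun a _ => h.finrank_TT a.val, Finset.sum_const, Finset.card_univ,
        ZMod.card, smul_eq_mul]) (r : ZMod L.m)
  have h2 : ((r : ZMod L.m)).val = r := ZMod.val_natCast_of_lt hr
  simp only [h2] at h1
  exact h1.symm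

end Hyp

end Crest.Agent.Kurosh.ExLead
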