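/-
S0270 (Kurosh), §K (helper72): pairing a fresh move with `f π^{-r}`, in the equality case
`dim F' = m deg β` (`pair_main`), and the formula for the leading coefficient (`lead_formula`):
`c_{j0} u = c • ι(z μ^a) * Û_r`, `Û_r = (1 + Y^m)⁻¹ ∏_{i<r} (1 + ζ^i Y)`.
-/
import Crest.Agent.Kurosh.ExLead2

set_option autoImplicit false
set_option linter.unusedSectionVars false

namespace Crest.Agent.Kurosh.ExLead

open THS THSLead Hensel LU Module LeadVN FstData Polynomial QBinom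
open LeadVN.LvData (cS tw psi scalMono)

variable {K A K' R : Type*} [Field K] [DivisionRing A] [Algebra K A] [Field K'] [DivisionRing R]
  [Algebra K R] [Algebra K' R] [Algebra K K'] [IsScalarTower K K' R] {τ : A →ₗ[K] K}
  (L : Lv K A K' R τ)

lemma τ'_one (h1 : τ 1 = 1) : L.τ' 1 = 1 := by
  classical
  apply (algebraMap K' R).injective
  apply L.φ.injective
  ext g
  rw [L.τ'_coeff, map_one (algebraMap K' R), map_one L.φ, THS.coeff_one]
  by_cases hg : g = 0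
  · rw [if_pos hg]
    subst hg
    rw [if_pos (AddSubgroup.zero_mem _), h1, map_one]
  · rw [if_neg hg]
    split_ifs with h
    · rw [map_zero, map_zero]
    · rfl

lemma κ_add_nsmul (n : CE) (a : ℕ) : κ (n + a • mu1) = κ n + a := by
  rw [map_add, map_nsmul, κ_mu1]
  simp

variable (μ : A)

/-- `Û_r = (1 + Y^m)⁻¹ ∏_{i<r} (1 + ζ^i Y)`. -/
noncomputable def UU (r : ℕ) : Rh L := (1 + Y L μ ^ L.m)⁻¹ * aeval (Y L μ) (prodPoly (ζh L) r)

lemma one_add_Y_pow_ne : (1 : Rh L) + Y L μ ^ L.m ≠ 0 := by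
  classical
  intro h0
  have h1 : ((1 : Rh L) + Y L μ ^ L.m : Rh L).1.coeff (idx (0 : CE) 0) =
      ((0 : Rh L)).1.coeff (idx (0 : CE) 0) := by rw [h0]
  have hne : (0 : CE) ≠ L.m • mu1 := by
    intro h
    have h2 := congrArg κ h
    rw [map_zero, map_nsmul, κ_mu1] at h2
    have h3 := L.m_prime.pos
    simp at h2
    omega
  rw [Y_pow, show ((1 : Rh L) + mn L (L.m • mu1) (μ ^ L.m) : Rh L).1 =
    (mn L 0 1 : Rh L).1 + (mn L (L.m • mu1) (μ ^ L.m)).1 from rfl, THS.coeff_add, coeff_mn, coeff_mn,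
    if_pos rfl, if_neg hne, add_zero, show ((0 : Rh L)).1 = 0 from rfl, THS.coeff_zero] at h1
  exact one_ne_zero h1

variable [FiniteDimensional K A]

omit L in
lemma finR (L : Lv K A K' R τ) : FiniteDimensional K' R :=
  Module.Basis.finiteDimensional_of_finite (LeadVN.LvData.basisR L)

lemma inv_mem_FF (L : Lv K A K' R τ) {H u : R} (hu : u ∈ FF K' H) : u⁻¹ ∈ FF K' H := by
  have := finR L
  exact DoubleCent.inv_mem_subalgebra (Algebra.adjoin K' ({H} : Set R)) hu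

variable {L} {β : A} {H : R} {v μ}

lemma span_ι_le_MA : Submodule.span (Kh L) (ι L '' (EE K β : Set A)) ≤
    Subalgebra.toSubmodule (MA L (Algebra.adjoin K ({β} : Set A))) := by
  rw [Submodule.span_le]
  rintro _ ⟨x, hx, rfl⟩
  exact ι_mem_MA L _ hx

lemma aeval_Y_mem_EA (hμ : μ ∈ Algebra.adjoin K ({β} : Set A)) (f : (Kh L)[X]) :
    aeval (Y L μ) f ∈ EA L (Algebra.adjoin K ({β} : Set A)) := by
  have h2 : Y L μ ∈ EA L (Algebra.adjoin K ({β} : Set A)) := mn_mem_EA L _ _ hμ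
  let y : ↥(EA L (Algebra.adjoin K ({β} : Set A))) := ⟨Y L μ, h2⟩
  have := Polynomial.aeval_subalgebra_coe f (EA L (Algebra.adjoin K ({β} : Set A))) y
  rw [show (y : Rh L) = Y L μ from rfl] at this
  rw [← this]
  exact Subtype.property _

lemma one_add_Y_mem_MA (hμ : μ ∈ Algebra.adjoin K ({β} : Set A)) :
    (1 : Rh L) + Y L μ ^ L.m ∈ MA L (Algebra.adjoin K ({β} : Set A)) := by
  refine add_mem (one_mem _) ?_
  rw [Y_pow]
  refine mn_mem_MA L _ ?_ (pow_mem hμ _)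
  rw [map_nsmul, κ_mu1]
  simp

namespace Hyp

variable (h : Hyp L β H v μ)
include h

lemma w_mem_EA (r : ℕ) : w L μ v r ∈ EA L (Algebra.adjoin K ({β} : Set A)) := by
  rw [w]
  exact mul_mem (ι_mem_EA L _ (pow_mem h.hvE r)) (aeval_Y_mem_EA h.hμE _)

/-- The equality case, for all `r`. -/
theorem lead_eq' (hF : finrank K' (FF K' H) ≤ L.m * finrank K (EE K β)) (r : ℕ) :
    (gr L).toLeadData.lead (r : ℤ) (FF K' H) = TT L β v μ r := by
  have := finR (K' := K') L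
  have hlt : r % L.m < L.m := Nat.mod_lt _ L.m_prime.pos
  have h1 := h.lead_eq hF (r % L.m) hlt
  have hs : ((L.m : ℤ)) ∣ (r : ℤ) - ((r % L.m : ℕ) : ℤ) := by
    have := Int.dvd_sub_self_of_emod_eq (a := (r : ℤ)) (b := ((L.m : ℕ) : ℤ))
      (c := ((r % L.m : ℕ) : ℤ)) (by simp)
    rwa [← dvd_neg, neg_sub] at this
  have h2 := lead_shift L hs (FF K' H)
  symm
  apply Submodule.eq_of_le_of_finrank_le (h.TT_le r)
  rw [h2, h1, h.finrank_TT, h.finrank_TT]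

lemma val_pow_eq (r : ℕ) : (gr L).val (aeval H (minpoly K β) ^ r) = ((r : ℤ) : WithTop ℤ) := by
  apply le_antisymm _ (h.w_spec r).1
  by_contra hlt
  have h1 := ((gr L).c_eq_zero_iff _ _ (h.w_spec r).1).2 (not_le.1 hlt)
  rw [(h.w_spec r).2] at h1
  exact h.w_ne r h1

lemma π_pow_ne (r : ℕ) : aeval H (minpoly K β) ^ r ≠ 0 := by
  intro h0
  have h1 := h.val_pow_eq r
  rw [h0, (gr L).val_zero] at h1
  exact WithTop.top_ne_coe h1

/-- The coefficient of `π^{-r}`. -/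
lemma c_inv (r : ℕ) : ((-(r : ℤ) : ℤ) : WithTop ℤ) ≤ (gr L).val (aeval H (minpoly K β) ^ r)⁻¹ ∧
    (gr L).θ (r : ℤ) ((gr L).c (-(r : ℤ)) (aeval H (minpoly K β) ^ r)⁻¹) = (w L μ v r)⁻¹ := by
  have h0 := h.π_pow_ne r
  have h1 : (gr L).val (aeval H (minpoly K β) ^ r) + (gr L).val (aeval H (minpoly K β) ^ r)⁻¹ = 0 := by
    rw [← (gr L).val_mul, mul_inv_cancel₀ h0, (gr L).val_one]
  have h2 : (gr L).val (aeval H (minpoly K β) ^ r)⁻¹ = ((-(r : ℤ) : ℤ) : WithTop ℤ) := by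
    rw [h.val_pow_eq r] at h1
    cases hv' : (gr L).val (aeval H (minpoly K β) ^ r)⁻¹ with
    | top => rw [hv', WithTop.add_top] at h1; exact absurd h1 WithTop.top_ne_zero
    | coe a =>
      rw [hv', ← WithTop.coe_add] at h1
      have h3 : (r : ℤ) + a = 0 := by exact_mod_cast h1
      have h4 : a = -(r : ℤ) := by omega
      rw [h4]
  have h3 : ((-(r : ℤ) : ℤ) : WithTop ℤ) ≤ (gr L).val (aeval H (minpoly K β) ^ r)⁻¹ := by rw [h2]
  refine ⟨h3, ?_⟩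
  have h4 := c_mul' L (add_neg_cancel (r : ℤ)) (h.w_spec r).1 h3
  rw [mul_inv_cancel₀ h0, c_one, (h.w_spec r).2] at h4
  exact eq_inv_of_mul_eq_one_right h4.symm

/-- **Pairing** in the equality case. -/
theorem pair_main (hF : finrank K' (FF K' H) ≤ L.m * finrank K (EE K β)) (hτ1 : τ 1 = 1) {u x : R}
    (hu : u ∈ FF K' H) (hpair : ∀ f ∈ FF K' H, L.τ' (u * f) = L.τ' (x * f)) {j0 : ℤ}
    (hx : (j0 : WithTop ℤ) ≤ (gr L).val x) {r : ℕ} (hjr : (L.m : ℤ) ∣ j0 - r) :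
    (j0 : WithTop ℤ) ≤ (gr L).val u ∧ ∃ ŵ ∈ Submodule.span (Kh L) (ι L '' (EE K β : Set A)),
      (gr L).c j0 u = ŵ * w L μ v r ∧
      ∀ f ∈ Algebra.adjoin K ({β} : Set A),
        (gr L).τR (ŵ * ι L f) = (gr L).τR ((gr L).c j0 x * (ι L f * (w L μ v r)⁻¹)) := by
  classical
  have hval : (j0 : WithTop ℤ) ≤ (gr L).val u := by
    by_cases hu0 : u = 0
    · rw [hu0, (gr L).val_zero]; exact le_top
    · have h1 := (gr L).not_val_lt_of_pair (c_one L) (τ'_one L hτ1) (mul_inv_cancel₀ hu0)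
        (hpair _ (inv_mem_FF L hu))
      exact le_trans hx (not_lt.1 h1)
  refine ⟨hval, ?_⟩
  have hmem : (gr L).c j0 u ∈ TT L β v μ r := by
    rw [← h.lead_eq' hF r, ← lead_shift L hjr]
    exact ⟨u, hu, hval, rfl⟩
  obtain ⟨ŵ, hŵ, hc⟩ := Submodule.mem_map.1 hmem
  rw [LinearMap.mulRight_apply] at hc
  refine ⟨ŵ, hŵ, hc.symm, fun f hf => ?_⟩
  obtain ⟨g, rfl⟩ := mem_EE.1 (show f ∈ EE K β from hf)
  have hj' : (L.m : ℤ) ∣ (r : ℤ) - j0 := by
    have := dvd_neg.2 hjr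
    rwa [neg_sub] at this
  have hz1 := le_val_mul L (h.c_aeval g).1 (h.c_inv r).1
  rw [zero_add] at hz1
  have hz2 := c_sP L _ hj' _ hz1
  have e : -(r : ℤ) + ((r : ℤ) - j0) = -j0 := by ring
  rw [e] at hz2
  have hmemf : sP L _ hj' • (aeval H g * (aeval H (minpoly K β) ^ r)⁻¹) ∈ FF K' H := by
    refine Submodule.smul_mem _ _ ?_
    have h1 : aeval H g ∈ Algebra.adjoin K' ({H} : Set R) := aeval_mem_FF H g
    have h2 : aeval H (minpoly K β) ^ r ∈ Algebra.adjoin K' ({H} : Set R) := by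
      rw [← map_pow]
      exact aeval_mem_FF H _
    have h3 : (aeval H (minpoly K β) ^ r)⁻¹ ∈ Algebra.adjoin K' ({H} : Set R) :=
      inv_mem_FF L (H := H) (u := aeval H (minpoly K β) ^ r) h2
    exact (mul_mem h1 h3 : _ ∈ Algebra.adjoin K' ({H} : Set R))
  have h5 := (gr L).pair_eq (add_neg_cancel j0) hval hx hz2.1 (hpair _ hmemf)
  have h6 : (gr L).θ j0 ((gr L).c (-j0) (sP L _ hj' • (aeval H g *
      (aeval H (minpoly K β) ^ r)⁻¹))) = ι L (aeval β g) * (w L μ v r)⁻¹ := by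
    rw [hz2.2, c_zero_mul L (h.c_aeval g).1 (h.c_inv r).1, (h.c_aeval g).2, map_mul, θ_ι,
      θ_congr L hjr, (h.c_inv r).2]
  rw [h6, ← hc] at h5
  have h7 : ŵ * w L μ v r * (ι L (aeval β g) * (w L μ v r)⁻¹) = ŵ * ι L (aeval β g) := by
    have hE := E_comm (K := K) (β := β)
    have h8 := EA_comm L _ hE (h.w_mem_EA r) (ι_mem_EA L _ hf)
    rw [mul_assoc, ← mul_assoc (w L μ v r), h8, mul_assoc, mul_inv_cancel₀ (h.w_ne r), mul_one]
  rw [h7] at h5
  exact h5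

/-- The expansion of the pairing against `ι f (w r)⁻¹`. -/
lemma τR_expand (hodd : Odd L.m) {r : ℕ} (hr : r ≤ L.m) (n : CE) (d f : A)
    (hf : f ∈ Algebra.adjoin K ({β} : Set A)) :
    (gr L).τR (mn L n d * (ι L f * (w L μ v r)⁻¹)) =
      ∑ a' ∈ Finset.range (L.m - r + 1), tailCoeff (ζh L) r (L.m - r) a' *
        (gr L).τR (mn L (n + a' • mu1) (d * μ ^ a') *
          ((1 + Y L μ ^ L.m)⁻¹ * ((ι L (v ^ r))⁻¹ * ι L f))) := by
  have hE := E_comm (K := K) (β := β)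
  have hrs : r + (L.m - r) = L.m := by omega
  have hY := one_add_Y_pow_ne (L := L) μ
  have h1 : (w L μ v r)⁻¹ = aeval (Y L μ) (tailPoly (ζh L) r (L.m - r)) *
      ((1 + Y L μ ^ L.m)⁻¹ * (ι L (v ^ r))⁻¹) := by
    rw [w, mul_inv_rev, aeval_prodPoly_inv_div (ζh_prim L) hodd hrs _ hY, mul_assoc]
  have hU : (1 + Y L μ ^ L.m)⁻¹ ∈ EA L (Algebra.adjoin K ({β} : Set A)) :=
    MA_le_EA L _ (inv_mem_MA L _ (one_add_Y_mem_MA h.hμE))
  have hQ := aeval_Y_mem_EA (L := L) h.hμE (tailPoly (ζh L) r (L.m - r))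
  have hι := ι_mem_EA L _ hf
  have hv := inv_mem_EA L _ (ι_mem_EA L _ (pow_mem h.hvE r))
  have h2 : ι L f * (w L μ v r)⁻¹ = aeval (Y L μ) (tailPoly (ζh L) r (L.m - r)) *
      ((1 + Y L μ ^ L.m)⁻¹ * ((ι L (v ^ r))⁻¹ * ι L f)) := by
    rw [h1, ← mul_assoc (ι L f), EA_comm L _ hE hι hQ, mul_assoc, ← mul_assoc (ι L f),
      EA_comm L _ hE hι hU, mul_assoc, EA_comm L _ hE hι hv]
  rw [h2, aeval_tailPoly, ← mul_assoc, Finset.mul_sum, Finset.sum_mul, map_sum]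
  refine Finset.sum_congr rfl fun a' _ => ?_
  have h3 : mn L n d * (algebraMap (Kh L) (Rh L) (tailCoeff (ζh L) r (L.m - r) a') * Y L μ ^ a') *
      ((1 + Y L μ ^ L.m)⁻¹ * ((ι L (v ^ r))⁻¹ * ι L f)) =
      tailCoeff (ζh L) r (L.m - r) a' • (mn L (n + a' • mu1) (d * μ ^ a') *
        ((1 + Y L μ ^ L.m)⁻¹ * ((ι L (v ^ r))⁻¹ * ι L f))) := by
    have e1 : mn L n d * (algebraMap (Kh L) (Rh L) (tailCoeff (ζh L) r (L.m - r) a') * Y L μ ^ a') =
        algebraMap (Kh L) (Rh L) (tailCoeff (ζh L) r (L.m - r) a') *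
          mn L (n + a' • mu1) (d * μ ^ a') := by
      rw [Y_pow, ← mul_assoc, ← Algebra.commutes, mul_assoc, mn_mul]
    rw [e1, Algebra.smul_def, mul_assoc]
  rw [h3, map_smul, smul_eq_mul]

/-- **The leading coefficient of a fresh move** in the equality case (`r = m` is the class `0`). -/
theorem lead_formula (hodd : Odd L.m) (hF : finrank K' (FF K' H) ≤ L.m * finrank K (EE K β))
    (hτ1 : τ 1 = 1) {u x : R} (hu : u ∈ FF K' H) (hpair : ∀ f ∈ FF K' H, L.τ' (u * f) = L.τ' (x * f))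
    {j0 : ℤ} (hx : (j0 : WithTop ℤ) ≤ (gr L).val x) {r : ℕ} (hr1 : 1 ≤ r) (hrm : r ≤ L.m)
    (hjr : (L.m : ℤ) ∣ j0 - r) {n0 : CE} {d d' z : A}
    (hc : (gr L).c j0 x = mn L n0 d + mn L (n0 + mu1) d') (hz : z ∈ Algebra.adjoin K ({β} : Set A))
    (hdz : ∀ g ∈ Algebra.adjoin K ({β} : Set A), τ (d * g) = τ (z * g)) {a : ℕ} (ha : a ≤ L.m - r)
    (hκ : (L.m : ℤ) ∣ κ n0 + a) (hd' : d' = 0 ∨ (a = 0 ∧ 2 ≤ r)) :
    (j0 : WithTop ℤ) ≤ (gr L).val u ∧ ∃ c : Kh L, c ≠ 0 ∧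
      (gr L).c j0 u = c • (ι L (z * μ ^ a) * UU L μ r) := by
  obtain ⟨hval, ŵ, hŵ, hcu, hτŵ⟩ := h.pair_main hF hτ1 hu hpair hx hjr
  refine ⟨hval, ?_⟩
  have hk : (L.m : ℤ) ∣ κ (n0 + a • mu1) := by rwa [κ_add_nsmul]
  have hmE : z * μ ^ a ∈ Algebra.adjoin K ({β} : Set A) := mul_mem hz (pow_mem h.hμE a)
  set E := Algebra.adjoin K ({β} : Set A) with hE'
  have hU : (1 + Y L μ ^ L.m)⁻¹ ∈ MA L E := inv_mem_MA L _ (one_add_Y_mem_MA h.hμE)
  have hIv : (ι L (v ^ r))⁻¹ ∈ MA L E := inv_mem_MA L _ (ι_mem_MA L _ (pow_mem h.hvE r))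
  -- the candidate
  set t := tailCoeff (ζh L) r (L.m - r) a with ht
  set ŵ₀ : Rh L := t • (mn L (n0 + a • mu1) (z * μ ^ a) * ((1 + Y L μ ^ L.m)⁻¹ * (ι L (v ^ r))⁻¹))
    with hŵ₀
  have hŵ₀M : ŵ₀ ∈ MA L E :=
    Subalgebra.smul_mem _ (mul_mem (mn_mem_MA L _ hk hmE) (mul_mem hU hIv)) _
  have hŵM : ŵ ∈ MA L E := span_ι_le_MA hŵ
  have hs : L.m - r < L.m := by have := L.m_prime.pos; omega
  have key : ∀ f ∈ E, (gr L).τR (ŵ * ι L f) = (gr L).τR (ŵ₀ * ι L f) := by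
    intro f hf
    have hM : (1 + Y L μ ^ L.m)⁻¹ * ((ι L (v ^ r))⁻¹ * ι L f) ∈ MA L E :=
      mul_mem hU (mul_mem hIv (ι_mem_MA L _ hf))
    rw [hτŵ f hf, hc, add_mul, map_add, h.τR_expand hodd hrm n0 d f hf,
      h.τR_expand hodd hrm (n0 + mu1) d' f hf]
    have h1 : ∑ a' ∈ Finset.range (L.m - r + 1), tailCoeff (ζh L) r (L.m - r) a' *
        (gr L).τR (mn L (n0 + mu1 + a' • mu1) (d' * μ ^ a') *
          ((1 + Y L μ ^ L.m)⁻¹ * ((ι L (v ^ r))⁻¹ * ι L f))) = 0 := by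
      refine Finset.sum_eq_zero fun a' ha' => ?_
      rcases hd' with rfl | ⟨rfl, h2r⟩
      · rw [zero_mul, mn_zero, zero_mul, map_zero, mul_zero]
      · have hnd : ¬ (L.m : ℤ) ∣ κ (n0 + mu1 + a' • mu1) := by
          rw [κ_add_nsmul, map_add, κ_mu1]
          intro hd
          rw [Nat.cast_zero, add_zero] at hκ
          have h3 : (L.m : ℤ) ∣ 1 + (a' : ℤ) := by
            have := dvd_sub hd hκ
            have e : κ n0 + 1 + (a' : ℤ) - κ n0 = 1 + a' := by ring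
            rwa [e] at this
          have h4 := Int.le_of_dvd (by omega) h3
          rw [Finset.mem_range] at ha'
          omega
        rw [τR_mn_mul_eq_zero L E hnd _ hM, mul_zero]
    rw [h1, add_zero, Finset.sum_eq_single a]
    · have h2 := τR_mn_mul_congr L E (n := n0 + a • mu1) (c := d * μ ^ a) (c' := z * μ ^ a)
        (fun g hg => by
          rw [mul_assoc, mul_assoc]
          exact hdz _ (mul_mem (pow_mem h.hμE a) hg)) (MA_le_EA L E hM)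
      rw [h2, hŵ₀, smul_mul_assoc, map_smul, smul_eq_mul]
      congr 2
      rw [mul_assoc, mul_assoc]
    · intro a' ha' hne
      have hnd : ¬ (L.m : ℤ) ∣ κ (n0 + a' • mu1) := by
        rw [κ_add_nsmul]
        intro hd
        have h3 := dvd_sub hd hκ
        have e : κ n0 + (a' : ℤ) - (κ n0 + a) = (a' : ℤ) - a := by ring
        rw [e] at h3
        rw [Finset.mem_range] at ha'
        have h4 : ((a' : ℤ) - a) = 0 := by
          apply Int.eq_zero_of_abs_lt_dvd h3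
          rw [abs_lt]
          omega
        omega
      rw [τR_mn_mul_eq_zero L E hnd _ hM, mul_zero]
    · intro hn
      exact absurd (Finset.mem_range.2 (by omega)) hn
  have heq : ŵ = ŵ₀ := by
    have h0 := eq_zero_of_τR L E hτ1 (sub_mem hŵM hŵ₀M) (fun f hf => by
      rw [sub_mul, map_sub, key f hf, sub_self])
    exact sub_eq_zero.1 h0
  refine ⟨t * eK L (n0 + a • mu1) hk, mul_ne_zero ?_ (eK_ne_zero L _ hk), ?_⟩
  · exact tailCoeff_ne_zero (ζh_prim L) (by omega) (by omega) ha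
  · have e2 : ∀ X : Rh L, (t * eK L (n0 + a • mu1) hk) • X = t • (eK L (n0 + a • mu1) hk • X) := by
      intro X
      rw [Algebra.smul_def, Algebra.smul_def, Algebra.smul_def, map_mul, mul_assoc]
    rw [hcu, heq, hŵ₀, w, UU, smul_mul_assoc, e2, ← smul_mul_assoc (eK L _ hk)]
    congr 1
    have e1 : eK L (n0 + a • mu1) hk • ι L (z * μ ^ a) = mn L (n0 + a • mu1) (z * μ ^ a) := by
      rw [ι_apply, eK_smul_mn, add_zero]
    rw [e1, mul_assoc, mul_assoc, inv_mul_cancel_left₀ ((map_ne_zero (ι L)).2 (pow_ne_zero _ h.hv))]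

end Hyp

end Crest.Agent.Kurosh.ExLead
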