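/-
S0270 (Kurosh), §K (helper72): dimension counts from leading coefficients.
`finrank_ge_of_leads`: `∑_{r<m} dim V r ≤ dim W` when `ι(V r) Û_r` are leads of `W` at the class `r`.
`ly_bound`: `m dim K[A₀] ≤ dim B` for a subalgebra `B` with `ι A₀` in its class `0` and an element of value `2`.
-/
import Crest.Agent.Kurosh.ExLead3

set_option autoImplicit false
set_option linter.unusedSectionVars false

namespace Crest.Agent.Kurosh.ExLead

open THS THSLead Hensel LU Module LeadVN FstData Polynomial QBinom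
open LeadVN.LvData (cS tw psi scalMono)

variable {K A K' R : Type*} [Field K] [DivisionRing A] [Algebra K A] [Field K'] [DivisionRing R]
  [Algebra K R] [Algebra K' R] [Algebra K K'] [IsScalarTower K K' R] {τ : A →ₗ[K] K}
  (L : Lv K A K' R τ) [FiniteDimensional K A]

/-- The span of `ι V · Û` has the dimension of `V`. -/
lemma finrank_mul_span (V : Submodule K A) {Û : Rh L} (hÛ : Û ≠ 0) :
    finrank (Kh L) ((Submodule.span (Kh L) (ι L '' (V : Set A))).map (LinearMap.mulRight (Kh L) Û)) =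
      finrank K V := by
  rw [← finrank_span_ι L V]
  have hinj : Function.Injective (LinearMap.mulRight (Kh L) Û) := by
    intro a b hab
    exact mul_right_cancel₀ hÛ hab
  exact (Submodule.equivMapOfInjective _ hinj _).finrank_eq.symm

/-- A sum over the residues modulo `m` as a sum over `r < m`. -/
lemma sum_zmod (f : ℕ → ℕ) : ∑ a : ZMod L.m, (haveI : NeZero L.m := ⟨L.m_prime.ne_zero⟩; f a.val) =
    ∑ r ∈ Finset.range L.m, f r := by
  have : NeZero L.m := ⟨L.m_prime.ne_zero⟩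
  refine Finset.sum_bij (fun a _ => a.val) (fun a _ => Finset.mem_range.2 (ZMod.val_lt a))
    (fun a _ b _ h => ZMod.val_injective _ h) (fun r hr => ?_) (fun a _ => rfl)
  exact ⟨(r : ZMod L.m), Finset.mem_univ _, ZMod.val_natCast_of_lt (Finset.mem_range.1 hr)⟩

/-- **Count**: leading coefficients give a lower bound for the dimension. -/
theorem finrank_ge_of_leads (W : Submodule K' R) (Û : ℕ → Rh L) (hÛ : ∀ r < L.m, Û r ≠ 0)
    (V : ℕ → Submodule K A)
    (hV : ∀ r < L.m, ∀ z ∈ V r, ι L z * Û r ∈ (gr L).toLeadData.lead (r : ℤ) W) :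
    ∑ r ∈ Finset.range L.m, finrank K (V r) ≤ finrank K' W := by
  have : NeZero L.m := ⟨L.m_prime.ne_zero⟩
  rw [gauss L W, ← sum_zmod L]
  refine Finset.sum_le_sum fun a _ => ?_
  have hlt := ZMod.val_lt a
  rw [← finrank_mul_span L (V a.val) (hÛ a.val hlt)]
  apply Submodule.finrank_mono
  rw [Submodule.map_le_iff_le_comap, Submodule.span_le]
  rintro _ ⟨z, hz, rfl⟩
  exact hV a.val hlt z hz

/-! ### The subalgebra bound -/

variable {L}

lemma algebraMap_eq_inc (a : K) : algebraMap K R a = L.lev.inc (algebraMap K A a) :=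
  (AlgHom.commutes _ a).symm

/-- The `z` with `ι z` in the class `0` of `B` form a subalgebra. -/
lemma ι_mem_lead_of_adjoin (B : Subalgebra K' R) {A₀ : Set A}
    (hA₀ : ∀ z ∈ A₀, ι L z ∈ (gr L).toLeadData.lead 0 (Subalgebra.toSubmodule B)) {z : A}
    (hz : z ∈ Algebra.adjoin K A₀) :
    ι L z ∈ (gr L).toLeadData.lead 0 (Subalgebra.toSubmodule B) := by
  induction hz using Algebra.adjoin_induction with
  | mem x hx => exact hA₀ x hx
  | algebraMap a =>
    refine ⟨algebraMap K' R (algebraMap K K' a), Subalgebra.algebraMap_mem B _, ?_, ?_⟩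
    · rw [← IsScalarTower.algebraMap_apply, algebraMap_eq_inc (L := L)]
      exact val_inc L _
    · rw [← IsScalarTower.algebraMap_apply, algebraMap_eq_inc (L := L)]
      exact c_inc L _
  | add x y _ _ hx hy =>
    rw [map_add]
    exact add_mem hx hy
  | mul x y _ _ hx hy =>
    obtain ⟨a, ha, ha1, ha2⟩ := hx
    obtain ⟨b, hb, hb1, hb2⟩ := hy
    refine ⟨a * b, (mul_mem ha hb : a * b ∈ B), ?_, ?_⟩
    · have := le_val_mul L ha1 hb1
      rwa [zero_add] at this
    · rw [c_zero_mul L ha1 hb1, ha2, hb2, map_mul]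

lemma c_pow_two {ξ : R} (hval : ((2 : ℤ) : WithTop ℤ) ≤ (gr L).val ξ) (hne : (gr L).c 2 ξ ≠ 0) (i : ℕ) :
    ((2 * i : ℤ) : WithTop ℤ) ≤ (gr L).val (ξ ^ i) ∧ (gr L).c (2 * i : ℤ) (ξ ^ i) ≠ 0 := by
  induction i with
  | zero =>
    rw [pow_zero]
    simp only [Nat.cast_zero, mul_zero]
    exact ⟨val_one L, by rw [c_one]; exact one_ne_zero⟩
  | succ i ih =>
    have hk : (2 * (i : ℤ)) + 2 = 2 * ((i + 1 : ℕ) : ℤ) := by push_cast; ring
    rw [pow_succ]
    refine ⟨?_, ?_⟩
    · have := le_val_mul L ih.1 hval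
      rwa [hk] at this
    · rw [c_mul' L hk ih.1 hval]
      refine mul_ne_zero ih.2 ?_
      intro h0
      exact hne (((gr L).θ (2 * (i : ℤ))).injective (by rw [h0, map_zero]))

variable (L) in
/-- The class of `2i`. -/
lemma exists_half (hodd : Odd L.m) (r : ℕ) : ∃ i : ℕ, (L.m : ℤ) ∣ (2 * i : ℤ) - r := by
  obtain ⟨k, hk⟩ := hodd
  refine ⟨r * (k + 1), ⟨r, ?_⟩⟩
  rw [hk]
  push_cast
  ring

/-- **The bound for a subalgebra.** -/
theorem ly_bound (hodd : Odd L.m) (B : Subalgebra K' R) {A₀ : Set A}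
    (hA₀ : ∀ z ∈ A₀, ι L z ∈ (gr L).toLeadData.lead 0 (Subalgebra.toSubmodule B)) {ξ : R} (hξ : ξ ∈ B)
    (hval : ((2 : ℤ) : WithTop ℤ) ≤ (gr L).val ξ) (hne : (gr L).c 2 ξ ≠ 0) :
    L.m * finrank K (Algebra.adjoin K A₀) ≤ finrank K' B := by
  classical
  choose i hi using exists_half L hodd
  have h := finrank_ge_of_leads L (Subalgebra.toSubmodule B)
    (fun r => (gr L).c (2 * i r : ℤ) (ξ ^ i r)) (fun r _ => (c_pow_two hval hne (i r)).2)
    (fun _ => Subalgebra.toSubmodule (Algebra.adjoin K A₀)) (fun r _ z hz => ?_)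
  · rw [Finset.sum_const, Finset.card_range, smul_eq_mul] at h
    exact h
  · obtain ⟨x, hx, hx1, hx2⟩ := ι_mem_lead_of_adjoin B hA₀ hz
    rw [← lead_shift L (hi r)]
    refine ⟨x * ξ ^ i r, (mul_mem hx (pow_mem hξ _) : x * ξ ^ i r ∈ B), ?_, ?_⟩
    · have := le_val_mul L hx1 (c_pow_two hval hne (i r)).1
      rwa [zero_add] at this
    · rw [c_zero_mul L hx1 (c_pow_two hval hne (i r)).1, hx2]

end Crest.Agent.Kurosh.ExLead
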