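/-
S0270 (Kurosh), §K (helper72): the first order expansion of `P(H)` and `Hyp` from a level-up.
`aeval_lead`: `P(H) ≡ P(β) + ∂P[β;u₁] s' + ∂P[β;u₂] μ₁ s'` modulo order `2`.
`dPoly_eq`: `∂P[β;u] = P'(β) e(u)` if `P(β) = 0`.
`hyp_of_frame`: the hypotheses `Hyp` at a level-up.
-/
import Crest.Agent.Kurosh.ExLead4
import Crest.Agent.Kurosh.ValA
import Crest.Agent.Kurosh.InvFacts
import Crest.Agent.Kurosh.CentFactsB

set_option autoImplicit false
set_option linter.unusedSectionVars false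

namespace Crest.Agent.Kurosh.ExLead

open THS THSLead Hensel LU Module LeadVN FstData Polynomial QBinom State CentFactsB
open _root_.Crest.Agent.Kurosh.Inv
open _root_.Crest.Agent.Kurosh.Inv.St

variable {K A K' R : Type*} [Field K] [DivisionRing A] [Algebra K A] [Field K'] [DivisionRing R]
  [Algebra K R] [Algebra K' R] [Algebra K K'] [IsScalarTower K K' R] {τ : A →ₗ[K] K}
  (L : Lv K A K' R τ)

/-- `∑_{a<n} β^a u β^{n-1-a}`. -/
noncomputable def Dn (β u : A) (n : ℕ) : A := ∑ a ∈ Finset.range n, β ^ a * u * β ^ (n - 1 - a)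

lemma Dn_zero (β u : A) : Dn β u 0 = 0 := by simp [Dn]

lemma Dn_succ (β u : A) (n : ℕ) : Dn β u (n + 1) = Dn β u n * β + β ^ n * u := by
  rw [Dn, Finset.sum_range_succ, Dn, Finset.sum_mul]
  congr 1
  · refine Finset.sum_congr rfl fun a ha => ?_
    have h := Finset.mem_range.1 ha
    have e : n + 1 - 1 - a = (n - 1 - a) + 1 := by omega
    rw [e, pow_succ, mul_assoc _ _ β]
  · simp

lemma Dn_comm (β u : A) (n : ℕ) : β * Dn β u n - Dn β u n * β = β ^ n * u - u * β ^ n := by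
  induction n with
  | zero => simp [Dn_zero]
  | succ n ih =>
    rw [Dn_succ, pow_succ]
    have h1 : β ^ n * β = β * β ^ n := (pow_succ β n).symm.trans (pow_succ' β n)
    have h2 : β * (Dn β u n * β + β ^ n * u) - (Dn β u n * β + β ^ n * u) * β =
        (β * Dn β u n - Dn β u n * β) * β + (β * β ^ n) * u - β ^ n * u * β := by noncomm_ring
    rw [h2, ih, ← h1]
    noncomm_ring

lemma dPoly_eq_Dn (β u : A) (n : ℕ) (c : K) : dPoly β u (monomial n c) = c • Dn β u n := by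
  rw [dPoly_monomial, Dn]

/-- `[β, ∂P[β;u]] = [P(β), u]`. -/
lemma dPoly_comm (β u : A) (p : K[X]) :
    β * dPoly β u p - dPoly β u p * β = aeval β p * u - u * aeval β p := by
  induction p using Polynomial.induction_on' with
  | add p q hp hq =>
    rw [dPoly_add, map_add, mul_add, add_mul, mul_add, add_mul]
    have e : ∀ a b c d : A, a + b - (c + d) = (a - c) + (b - d) := fun a b c d => by abel
    rw [e, hp, hq, e]
  | monomial n c =>
    rw [dPoly_eq_Dn, mul_smul_comm, smul_mul_assoc, ← smul_sub, Dn_comm, aeval_monomial,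
      ← Algebra.smul_def, smul_mul_assoc, mul_smul_comm, smul_sub]

/-- `∂P[β;u] = P'(β) e(u)` if `P(β) = 0`. -/
lemma dPoly_eq [FiniteDimensional K A] {β : A} (S : State.Split (K := K) β) (u : A) {p : K[X]}
    (hp : aeval β p = 0) : dPoly β u p = aeval β (derivative p) * S.e u := by
  have h1 : dPoly β u p ∈ cent (K := K) β := by
    rw [mem_cent, ← sub_eq_zero, dPoly_comm, hp, zero_mul, mul_zero, sub_zero]
  rw [← split_e_dPoly, S.e_cent _ h1]

lemma pow_lead {β u1 u2 : A} {H : R}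
    (hH : H - (L.lev.inc β + L.lev.mono u1 0 1 + L.lev.mono u2 L.lev.μ₁ 1) ∈ L.lev.Φ.fil 2) (n : ℕ) :
    H ^ n - (L.lev.inc (β ^ n) + L.lev.mono (Dn β u1 n) 0 1 + L.lev.mono (Dn β u2 n) L.lev.μ₁ 1) ∈
      L.lev.Φ.fil 2 := by
  induction n with
  | zero => simp [Dn_zero]
  | succ n ih =>
    set I := L.lev.inc (β ^ n) with hI
    set I' := L.lev.inc β with hI'
    set m1 := L.lev.mono (Dn β u1 n) 0 1 with hm1
    set m2 := L.lev.mono (Dn β u2 n) L.lev.μ₁ 1 with hm2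
    set x1 := L.lev.mono u1 0 1 with hx1
    set x2 := L.lev.mono u2 L.lev.μ₁ 1 with hx2
    set e := H - (I' + x1 + x2) with he
    set en := H ^ n - (I + m1 + m2) with hen
    have h0 : H = I' + x1 + x2 + e := by rw [he]; abel
    have hn : H ^ n = I + m1 + m2 + en := by rw [hen]; abel
    have hI0 : I ∈ L.lev.Φ.fil 0 := L.lev.inc_mem _
    have hI'0 : I' ∈ L.lev.Φ.fil 0 := L.lev.inc_mem _
    have hm11 : m1 ∈ L.lev.Φ.fil 1 := L.lev.mono_mem _ _ _
    have hm21 : m2 ∈ L.lev.Φ.fil 1 := L.lev.mono_mem _ _ _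
    have hx11 : x1 ∈ L.lev.Φ.fil 1 := L.lev.mono_mem _ _ _
    have hx21 : x2 ∈ L.lev.Φ.fil 1 := L.lev.mono_mem _ _ _
    have he1 : e ∈ L.lev.Φ.fil 1 := L.lev.Φ.anti (by omega) hH
    have hH0 : H ∈ L.lev.Φ.fil 0 := by
      rw [h0]
      exact add_mem (add_mem (add_mem hI'0 (L.lev.Φ.anti (by omega) hx11))
        (L.lev.Φ.anti (by omega) hx21)) (L.lev.Φ.anti (by omega) he1)
    have e1 : L.lev.inc (β ^ (n + 1)) = I * I' := by rw [pow_succ, map_mul]
    have e2 : L.lev.mono (Dn β u1 (n + 1)) 0 1 = m1 * I' + I * x1 := by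
      rw [Dn_succ, L.lev.mono_add, ← L.lev.mono_mul_inc, ← L.lev.inc_mul_mono]
    have e3 : L.lev.mono (Dn β u2 (n + 1)) L.lev.μ₁ 1 = m2 * I' + I * x2 := by
      rw [Dn_succ, L.lev.mono_add, ← L.lev.mono_mul_inc, ← L.lev.inc_mul_mono]
    have e4 : H ^ (n + 1) - (I * I' + (m1 * I' + I * x1) + (m2 * I' + I * x2)) =
        I * e + (m1 + m2) * (x1 + x2 + e) + en * H := by
      rw [pow_succ]
      nth_rewrite 1 [hn]
      nth_rewrite 1 [h0]
      nth_rewrite 1 [h0]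
      noncomm_ring
    rw [e1, e2, e3, e4]
    refine add_mem (add_mem ?_ ?_) ?_
    · have := L.lev.Φ.mul_mem hI0 hH
      simpa using this
    · exact L.lev.Φ.mul_mem (add_mem hm11 hm21) (add_mem (add_mem hx11 hx21) he1)
    · have := L.lev.Φ.mul_mem ih hH0
      simpa using this

/-- `P(H) ≡ P(β) + ∂P[β;u₁] s' + ∂P[β;u₂] μ₁ s'` modulo order `2`. -/
theorem aeval_lead {β u1 u2 : A} {H : R}
    (hH : H - (L.lev.inc β + L.lev.mono u1 0 1 + L.lev.mono u2 L.lev.μ₁ 1) ∈ L.lev.Φ.fil 2)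
    (p : K[X]) :
    aeval H p - (L.lev.inc (aeval β p) + L.lev.mono (dPoly β u1 p) 0 1
      + L.lev.mono (dPoly β u2 p) L.lev.μ₁ 1) ∈ L.lev.Φ.fil 2 := by
  induction p using Polynomial.induction_on' with
  | add p q hp hq =>
    rw [dPoly_add, dPoly_add, map_add, map_add, map_add, L.lev.mono_add, L.lev.mono_add]
    have e : ∀ a b c d e f g h : R, a + b - (c + d + (e + f) + (g + h)) =
        (a - (c + e + g)) + (b - (d + f + h)) := fun a b c d e f g h => by abel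
    rw [e]
    exact add_mem hp hq
  | monomial n c =>
    have h := L.lev.smul_mem c (pow_lead L hH n)
    have e : c • (H ^ n - (L.lev.inc (β ^ n) + L.lev.mono (Dn β u1 n) 0 1 +
        L.lev.mono (Dn β u2 n) L.lev.μ₁ 1)) =
        aeval H (monomial n c) - (L.lev.inc (aeval β (monomial n c)) +
          L.lev.mono (dPoly β u1 (monomial n c)) 0 1 + L.lev.mono (dPoly β u2 (monomial n c)) L.lev.μ₁ 1) := by
      rw [dPoly_eq_Dn, dPoly_eq_Dn, L.lev.mono_smul, L.lev.mono_smul, aeval_monomial, aeval_monomial,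
        ← Algebra.smul_def, ← Algebra.smul_def, map_smul, smul_sub, smul_add, smul_add]
    rwa [e] at h

variable {F : Type*} [Field F] [Algebra F K] [Algebra F A] [IsScalarTower F K A] [Algebra F R]
  [IsScalarTower F K R] [Algebra F K'] [IsScalarTower F K' R]
  [FiniteDimensional K A] [CharZero K]

/-- **`Hyp` at a level-up.** -/
theorem hyp_of_frame {P : Pt F K A (Fin 2)} {P' : Pt F K' R (Fin 2)} (ha : P'.a = P.a)
    {t1 t2 : Fin 2 → A}
    (hX : ∀ v, P'.ρ v - (L.lev.inc (P.ρ v) + L.lev.mono (t1 v) 0 1 + L.lev.mono (t2 v) L.lev.μ₁ 1) ∈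
      L.lev.Φ.fil 2) (k : ℕ) (h1 : P.τ 1 = 1) (hS : Smooth P k)
    (hy : P.e k (P.dL k t1) ≠ 0) (ht1 : t1 ∈ P.T k) (ht2 : t2 ∈ P.T k) :
    Hyp L (P.β k) (P'.β k) (aeval (P.β k) (derivative (minpoly K (P.β k))) * P.e k (P.dL k t1))
      ((P.e k (P.dL k t1))⁻¹ * P.e k (P.dL k t2)) := by
  have hM := Mov_le_adjoin P h1 hS
  have hy1 : P.e k (P.dL k t1) ∈ Algebra.adjoin K ({P.β k} : Set A) := hM (P.mem_Mov.2 ⟨t1, ht1, rfl⟩)
  have hy2 : P.e k (P.dL k t2) ∈ Algebra.adjoin K ({P.β k} : Set A) := hM (P.mem_Mov.2 ⟨t2, ht2, rfl⟩)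
  have hH : P'.β k - (L.lev.inc (P.β k) + L.lev.mono (P.dL k t1) 0 1 +
      L.lev.mono (P.dL k t2) L.lev.μ₁ 1) ∈ L.lev.Φ.fil 2 := by
    have h := ValA.ev_lead L hX (P.a k)
    show ev P'.ρ (P'.a k) - _ ∈ _
    rw [ha]
    exact h
  have hp0 := minpoly.aeval K (P.β k)
  have hd1 : dPoly (P.β k) (P.dL k t1) (minpoly K (P.β k)) =
      aeval (P.β k) (derivative (minpoly K (P.β k))) * P.e k (P.dL k t1) :=
    dPoly_eq (P.split k) (P.dL k t1) hp0
  have hd2 : dPoly (P.β k) (P.dL k t2) (minpoly K (P.β k)) =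
      aeval (P.β k) (derivative (minpoly K (P.β k))) * P.e k (P.dL k t2) :=
    dPoly_eq (P.split k) (P.dL k t2) hp0
  have hπ := aeval_lead L hH (minpoly K (P.β k))
  rw [hp0, map_zero, zero_add, hd1, hd2] at hπ
  refine ⟨?_, ?_, ?_, ?_, ?_⟩
  · have e : P'.β k - L.lev.inc (P.β k) = (P'.β k - (L.lev.inc (P.β k) + L.lev.mono (P.dL k t1) 0 1 +
        L.lev.mono (P.dL k t2) L.lev.μ₁ 1)) + L.lev.mono (P.dL k t1) 0 1 +
        L.lev.mono (P.dL k t2) L.lev.μ₁ 1 := by abel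
    rw [e]
    exact add_mem (add_mem (L.lev.Φ.anti (by omega) hH) (L.lev.mono_mem _ _ _)) (L.lev.mono_mem _ _ _)
  · have e : aeval (P.β k) (derivative (minpoly K (P.β k))) * P.e k (P.dL k t1) *
        ((P.e k (P.dL k t1))⁻¹ * P.e k (P.dL k t2)) =
        aeval (P.β k) (derivative (minpoly K (P.β k))) * P.e k (P.dL k t2) := by
      rw [mul_assoc, mul_inv_cancel_left₀ hy]
    rw [e, ← L.lev_μ₁]
    have e2 : ∀ a b c : R, a - b - c = a - (b + c) := fun a b c => by abel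
    rw [e2]
    exact hπ
  · exact mul_ne_zero (aeval_derivative_minpoly_ne_zero (K := K) _) hy
  · exact mul_mem (aeval_mem_adjoin_singleton K _) hy1
  · exact mul_mem (hinv _ _ hy1) hy2

end Crest.Agent.Kurosh.ExLead
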