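/-
S0270 (Kurosh), §K (helper72): the leads of `Mov_k(X)` for a fresh level-up `X`.
`Sit`: the situation: `Hyp`, `X` over `ρ` to first order, `Smooth(k)` at both.
`Sit.lead_move`: a fresh move `t'` of a direction `τ₀` gives `ι(z μ^a) Û_r ∈ lead_r Mov_k(X)`, `z = Π τ₀`.
`Sit.ne_of_move`: if `z ≠ 0` then `Π t' ≠ 0`.
`Sit.count`, `Sit.ly_core`: the dimension bounds.
-/
import Crest.Agent.Kurosh.ExLead4
import Crest.Agent.Kurosh.ValA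
import Crest.Agent.Kurosh.InvFacts

set_option autoImplicit false
set_option linter.unusedSectionVars false

namespace Crest.Agent.Kurosh.ExLead

open THS THSLead Hensel LU Module LeadVN FstData Polynomial QBinom Calculus State
open LeadVN.LvData (cS tw psi scalMono)
open _root_.Crest.Agent.Kurosh.Inv
open _root_.Crest.Agent.Kurosh.Inv.St

variable {K A K' R : Type*} [Field K] [DivisionRing A] [Algebra K A] [Field K'] [DivisionRing R]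
  [Algebra K R] [Algebra K' R] [Algebra K K'] [IsScalarTower K K' R] {τ : A →ₗ[K] K}

section Abstract

variable (L : Lv K A K' R τ)

lemma c_of_lead {x : R} {d d' : A} {n0 : CE} {j0 : ℕ}
    (hx : x - L.lev.mono d n0 j0 - L.lev.mono d' (n0 + mu1) j0 ∈ L.lev.Φ.fil (j0 + 1)) :
    ((j0 : ℤ) : WithTop ℤ) ≤ (gr L).val x ∧
      (gr L).c (j0 : ℤ) x = mn L n0 d + mn L (n0 + mu1) d' := by
  have e : x = (x - L.lev.mono d n0 j0 - L.lev.mono d' (n0 + mu1) j0) + L.lev.mono d n0 j0 +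
      L.lev.mono d' (n0 + mu1) j0 := by abel
  have h1 := le_val_of_fil L (L.lev.mono_mem d n0 j0)
  have h2 := le_val_of_fil L (L.lev.mono_mem d' (n0 + mu1) j0)
  have h3 := le_val_of_fil L hx
  refine ⟨?_, ?_⟩
  · rw [e]
    refine val_add_ge L (val_add_ge L (le_val_of_le L ?_ h3) h1) h2
    push_cast
    omega
  · rw [e, map_add, map_add, c_of_fil L hx, c_mono, c_mono, zero_add]

/-- `ι` is `K`-linear. -/
lemma ι_smul (c : K) (x : A) : ι L (c • x) = ofK L c • ι L x := by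
  rw [ι_apply, ι_apply, ofK_smul_mn]

variable [FiniteDimensional K A]

variable {L}

variable {β : A} {H : R} {v μ : A}

namespace Hyp

variable (h : Hyp L β H v μ)
include h

/-- A fresh move of a nonzero direction has a nonzero pairing with `F'`. -/
theorem pair_ne (hτ1 : τ 1 = 1) {x : R} {j0 : ℕ} (hx : ((j0 : ℤ) : WithTop ℤ) ≤ (gr L).val x)
    {n0 : CE} {d d' z : A} (hc : (gr L).c (j0 : ℤ) x = mn L n0 d + mn L (n0 + mu1) d')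
    (hz : z ∈ Algebra.adjoin K ({β} : Set A))
    (hdz : ∀ g ∈ Algebra.adjoin K ({β} : Set A), τ (d * g) = τ (z * g))
    (hκ : (L.m : ℤ) ∣ κ n0) (hj : (L.m : ℤ) ∣ (j0 : ℤ)) (hz0 : z ≠ 0) :
    ∃ f ∈ FF K' H, L.τ' (x * f) ≠ 0 := by
  classical
  have hzi : z⁻¹ ∈ Algebra.adjoin K ({β} : Set A) := hinv _ _ hz
  obtain ⟨g, hg⟩ := mem_EE.1 (show z⁻¹ ∈ EE K β from hzi)
  have hj' : (L.m : ℤ) ∣ -(j0 : ℤ) := dvd_neg.2 hj
  have h1 := c_sP L _ hj' 0 (h.c_aeval g).1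
  rw [zero_add] at h1
  refine ⟨sP L _ hj' • aeval H g, Submodule.smul_mem _ _ (aeval_mem_FF H g), fun h0 => ?_⟩
  have h2 := (gr L).pair_zero (add_neg_cancel (j0 : ℤ)) hx h1.1 h0
  rw [h1.2, (h.c_aeval g).2, hg, θ_ι, hc, add_mul, mn_mul_ι, mn_mul_ι, map_add,
    τR_mn_of_not_dvd L (n := n0 + mu1), add_zero, τR_mn_of_dvd L hκ, hdz _ hzi,
    mul_inv_cancel₀ hz0, hτ1, map_one, mul_one] at h2
  · exact eK_ne_zero L _ _ h2
  · rw [map_add, κ_mu1]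
    intro hd
    have h3 := dvd_sub hd hκ
    rw [add_sub_cancel_left] at h3
    have h4 := Int.le_of_dvd one_pos h3
    have h5 := L.m_prime.one_lt
    omega

end Hyp

lemma UU_ne (h : Hyp L β H v μ) (r : ℕ) : UU L μ r ≠ 0 :=
  mul_ne_zero (inv_ne_zero (one_add_Y_pow_ne L μ)) (h.prod_ne r)

lemma UU_self (hodd : Odd L.m) : UU L μ L.m = 1 := by
  rw [UU, prodPoly_prim (ζh_prim L) hodd, map_add, map_one, map_pow, aeval_X,
    inv_mul_cancel₀ (one_add_Y_pow_ne L μ)]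

/-- The inverse of a unit of value `0`. -/
lemma inv_c0 {u : R} {y : A} (hy : y ≠ 0) (hu : ((0 : ℤ) : WithTop ℤ) ≤ (gr L).val u)
    (hc : (gr L).c 0 u = ι L y) :
    u ≠ 0 ∧ ((0 : ℤ) : WithTop ℤ) ≤ (gr L).val u⁻¹ ∧ (gr L).c 0 u⁻¹ = ι L y⁻¹ := by
  have hι : ι L y ≠ 0 := (map_ne_zero (ι L)).2 hy
  have hu0 : u ≠ 0 := by
    rintro rfl
    rw [map_zero] at hc
    exact hι hc.symm
  have h1 : (gr L).val u = ((0 : ℤ) : WithTop ℤ) := by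
    apply le_antisymm _ hu
    by_contra hlt
    have := ((gr L).c_eq_zero_iff _ _ hu).2 (not_le.1 hlt)
    rw [hc] at this
    exact hι this
  have h2 : (gr L).val u + (gr L).val u⁻¹ = 0 := by
    rw [← (gr L).val_mul, mul_inv_cancel₀ hu0, (gr L).val_one]
  have h3 : (gr L).val u⁻¹ = ((0 : ℤ) : WithTop ℤ) := by
    rw [h1] at h2
    simpa using h2
  have h4 : ((0 : ℤ) : WithTop ℤ) ≤ (gr L).val u⁻¹ := by rw [h3]
  refine ⟨hu0, h4, ?_⟩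
  have h5 := c_zero_mul L hu h4
  rw [mul_inv_cancel₀ hu0, c_one, hc] at h5
  rw [map_inv₀ (ι L)]
  exact eq_inv_of_mul_eq_one_right h5.symm

end Abstract

variable {F : Type*} [Field F] [Algebra F K] [Algebra F A] [IsScalarTower F K A] [Algebra F R]
  [IsScalarTower F K R] [Algebra F K'] [IsScalarTower F K' R]
  (L : Lv K A K' R τ)

/-- The first order expansion of the derivative of a word along a fresh move. -/
theorem d1_lead {ρ : Fin 2 → A} {X : Fin 2 → R} (hX : ∀ v, X v - L.lev.inc (ρ v) ∈ L.lev.Φ.fil 1)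
    {t' : Fin 2 → R} {τ₀ τ₁ : Fin 2 → A} {n0 : CE} {j0 : ℕ}
    (hlead : ∀ v, t' v - L.lev.mono (τ₀ v) n0 j0 - L.lev.mono (τ₁ v) (n0 + mu1) j0 ∈
      L.lev.Φ.fil (j0 + 1)) (a : FreeAlgebra F (Fin 2)) :
    State.d1 X t' a - L.lev.mono (State.d1 ρ τ₀ a) n0 j0 - L.lev.mono (State.d1 ρ τ₁ a) (n0 + mu1) j0 ∈
      L.lev.Φ.fil (j0 + 1) := by
  have hρ : ∀ v, L.lev.inc (ρ v) ∈ L.lev.Φ.fil 0 := fun v => L.lev.inc_mem _
  set M0 : Fin 2 → R := fun v => L.lev.mono (τ₀ v) n0 j0 with hM0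
  set M1 : Fin 2 → R := fun v => L.lev.mono (τ₁ v) (n0 + mu1) j0 with hM1
  set Rr : Fin 2 → R := fun v => t' v - L.lev.mono (τ₀ v) n0 j0 - L.lev.mono (τ₁ v) (n0 + mu1) j0
    with hRr
  have ht' : t' = M0 + M1 + Rr := by
    funext v
    simp only [Pi.add_apply, hM0, hM1, hRr]
    abel
  have hδ : ∀ v, t' v ∈ L.lev.Φ.fil j0 := by
    intro v
    rw [ht']
    exact add_mem (add_mem (L.lev.mono_mem _ _ _) (L.lev.mono_mem _ _ _))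
      (L.lev.Φ.anti (Nat.le_succ j0) (hlead v))
  have hXe : X = (fun v => L.lev.inc (ρ v)) + (fun v => X v - L.lev.inc (ρ v)) := by
    funext v; simp
  have h := pd_taylor0 L.lev.Φ (L.lev.coef_mem (F := F)) hρ hX hδ a
  rw [← hXe] at h
  have hr := pd_mem L.lev.Φ (L.lev.coef_mem (F := F)) hρ hlead a
  have e1 : pd (fun v => L.lev.inc (ρ v)) t' a = L.lev.mono (State.d1 ρ τ₀ a) n0 j0 +
      L.lev.mono (State.d1 ρ τ₁ a) (n0 + mu1) j0 + pd (fun v => L.lev.inc (ρ v)) Rr a := by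
    rw [ht', pd_dir_add, pd_dir_add, hM0, hM1, L.lev.pd_mono, L.lev.pd_mono]
  rw [← pd_eq_d1]
  have e2 : pd X t' a - L.lev.mono (State.d1 ρ τ₀ a) n0 j0 -
      L.lev.mono (State.d1 ρ τ₁ a) (n0 + mu1) j0 = (pd X t' a - pd (fun v => L.lev.inc (ρ v)) t' a) +
      pd (fun v => L.lev.inc (ρ v)) Rr a := by
    rw [e1]
    abel
  rw [e2]
  refine add_mem ?_ hr
  rwa [Nat.add_comm] at h

section Sit

variable [FiniteDimensional K A] [CharZero K] [CharZero K']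

/-- The situation of a fresh level-up. -/
structure Sit (P : State.Pt F K A (Fin 2)) (P' : State.Pt F K' R (Fin 2)) (k : ℕ)
    (t1 t2 : Fin 2 → A) (v μ : A) : Prop where
  a_eq : P'.a = P.a
  τ_eq : P'.τ = L.τ'
  Pτ_eq : P.τ = τ
  one : τ 1 = 1
  odd : Odd L.m
  leadX : ∀ v, P'.ρ v - (L.lev.inc (P.ρ v) + L.lev.mono (t1 v) 0 1
    + L.lev.mono (t2 v) L.lev.μ₁ 1) ∈ L.lev.Φ.fil 2
  sm : Smooth P k
  sm' : Smooth P' k
  hyp : Hyp L (P.β k) (P'.β k) v μ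

/-- What the fresh moves give (`Fresh.lead`, for `TT0 = T(k)`, `TTX = T(k)(X)`). -/
def FreshA (P : State.Pt F K A (Fin 2)) (P' : State.Pt F K' R (Fin 2)) (k : ℕ)
    (t1 t2 : Fin 2 → A) : Prop :=
  ∀ (K_ j : ℤ) (τ₀ : Fin 2 → A), τ₀ ∈ P.T k →
    τ₀ ∈ allowed P k t1 t2 ((L.m : ℤ) ∣ K_) ((L.m : ℤ) ∣ K_ + 1 ∧ ¬ (L.m : ℤ) ∣ j + 1) →
    ∃ t' ∈ P'.T k, ∃ (n0 : CE) (j0 : ℕ) (τ₁ : Fin 2 → A),
      (L.m : ℤ) ∣ κ n0 - K_ ∧ (L.m : ℤ) ∣ (j0 : ℤ) - j ∧ 2 ≤ j0 ∧ τ₁ ∈ P.T k ∧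
      ((∀ c ∈ P.KK k, P.PP k c t2 τ₀ = 0) → τ₁ = 0) ∧
      ∀ v, t' v - L.lev.mono (τ₀ v) n0 j0 - L.lev.mono (τ₁ v) (n0 + mu1) j0 ∈ L.lev.Φ.fil (j0 + 1)

/-- The class of `r` in `[1,m]`. -/
def rt (m r : ℕ) : ℕ := if r = 0 then m else r

/-- The elements `w` of `A` with `ι w Û_r` in the leading space at the class `r` of `W`. -/
noncomputable def LV (μ : A) (W : Submodule K' R) (r : ℕ) : Submodule K A where
  carrier := {w | ι L w * UU L μ (rt L.m r) ∈ (gr L).toLeadData.lead ((rt L.m r : ℕ) : ℤ) W}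
  zero_mem' := by
    show ι L 0 * UU L μ (rt L.m r) ∈ (gr L).toLeadData.lead ((rt L.m r : ℕ) : ℤ) W
    rw [map_zero, zero_mul]
    exact zero_mem _
  add_mem' := by
    intro a b ha hb
    show ι L (a + b) * UU L μ (rt L.m r) ∈ (gr L).toLeadData.lead ((rt L.m r : ℕ) : ℤ) W
    rw [map_add, add_mul]
    exact add_mem ha hb
  smul_mem' := by
    intro c a ha
    show ι L (c • a) * UU L μ (rt L.m r) ∈ (gr L).toLeadData.lead ((rt L.m r : ℕ) : ℤ) W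
    rw [ι_smul, smul_mul_assoc]
    exact Submodule.smul_mem _ _ ha

variable {L}
variable {P : State.Pt F K A (Fin 2)} {P' : State.Pt F K' R (Fin 2)} {k : ℕ} {t1 t2 : Fin 2 → A}
  {v μ : A}

namespace Sit

variable (S : Sit L P P' k t1 t2 v μ)
include S

lemma h1 : P.τ 1 = 1 := by rw [S.Pτ_eq]; exact S.one

lemma h1' : P'.τ 1 = 1 := by rw [S.τ_eq]; exact τ'_one L S.one

lemma mov_le_E : P.Mov k ≤ Subalgebra.toSubmodule (Algebra.adjoin K ({P.β k} : Set A)) :=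
  Mov_le_adjoin P S.h1 S.sm

lemma mov_le_F : P'.Mov k ≤ FF K' (P'.β k) := by
  have := finR L
  exact Mov_le_adjoin P' S.h1' S.sm'

lemma hX1 : ∀ w, P'.ρ w - L.lev.inc (P.ρ w) ∈ L.lev.Φ.fil 1 := by
  intro w
  have e : P'.ρ w - L.lev.inc (P.ρ w) = (P'.ρ w - (L.lev.inc (P.ρ w) + L.lev.mono (t1 w) 0 1
      + L.lev.mono (t2 w) L.lev.μ₁ 1)) + L.lev.mono (t1 w) 0 1 + L.lev.mono (t2 w) L.lev.μ₁ 1 := by
    abel
  rw [e]
  exact add_mem (add_mem (L.lev.Φ.anti (by omega) (S.leadX w)) (L.lev.mono_mem _ _ _))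
    (L.lev.mono_mem _ _ _)

/-- The projection to `C(H)` does not change the pairing with `F'`. -/
lemma pairing (t : Fin 2 → R) : ∀ f ∈ FF K' (P'.β k),
    L.τ' (P'.e k (P'.dL k t) * f) = L.τ' (P'.dL k t * f) := by
  intro f hf
  have := finR L
  have hc : P'.β k * f = f * P'.β k :=
    E_comm (K := K') (β := P'.β k) _ (Algebra.subset_adjoin (Set.mem_singleton _)) f hf
  rw [← S.τ_eq, P'.τ_comm, P'.τ_cent_e hc, P'.τ_comm]

lemma dL_lead {t' : Fin 2 → R} {τ₀ τ₁ : Fin 2 → A} {n0 : CE} {j0 : ℕ}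
    (hlead : ∀ v, t' v - L.lev.mono (τ₀ v) n0 j0 - L.lev.mono (τ₁ v) (n0 + mu1) j0 ∈
      L.lev.Φ.fil (j0 + 1)) :
    P'.dL k t' - L.lev.mono (P.dL k τ₀) n0 j0 - L.lev.mono (P.dL k τ₁) (n0 + mu1) j0 ∈
      L.lev.Φ.fil (j0 + 1) := by
  simp only [Pt.dL_apply]
  rw [S.a_eq]
  exact d1_lead L S.hX1 hlead (P.a k)

lemma hdz (τ₀ : Fin 2 → A) : ∀ g ∈ Algebra.adjoin K ({P.β k} : Set A),
    τ (P.dL k τ₀ * g) = τ (P.e k (P.dL k τ₀) * g) := by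
  intro g hg
  have hc : P.β k * g = g * P.β k :=
    E_comm (K := K) (β := P.β k) _ (Algebra.subset_adjoin (Set.mem_singleton _)) g hg
  rw [← S.Pτ_eq, P.τ_comm, ← P.τ_cent_e hc, P.τ_comm]

/-- **The lead of a fresh move**. -/
theorem lead_move (hF : finrank K' (FF K' (P'.β k)) ≤ L.m * finrank K (EE K (P.β k)))
    {t' : Fin 2 → R} (ht' : t' ∈ P'.T k) {τ₀ τ₁ : Fin 2 → A} (hτ₀ : τ₀ ∈ P.T k) {n0 : CE} {j0 : ℕ}
    (hlead : ∀ v, t' v - L.lev.mono (τ₀ v) n0 j0 - L.lev.mono (τ₁ v) (n0 + mu1) j0 ∈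
      L.lev.Φ.fil (j0 + 1))
    {r a : ℕ} (hr1 : 1 ≤ r) (hrm : r ≤ L.m) (hj : (L.m : ℤ) ∣ (j0 : ℤ) - r) (ha : a ≤ L.m - r)
    (hκ : (L.m : ℤ) ∣ κ n0 + a) (hd : P.dL k τ₁ = 0 ∨ (a = 0 ∧ 2 ≤ r)) :
    ι L (P.e k (P.dL k τ₀) * μ ^ a) * UU L μ r ∈ (gr L).toLeadData.lead (r : ℤ) (P'.Mov k) := by
  obtain ⟨hv, hc⟩ := c_of_lead L (S.dL_lead hlead)
  have hz : P.e k (P.dL k τ₀) ∈ Algebra.adjoin K ({P.β k} : Set A) :=
    S.mov_le_E (P.mem_Mov.2 ⟨τ₀, hτ₀, rfl⟩)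
  have hu : P'.e k (P'.dL k t') ∈ P'.Mov k := P'.mem_Mov.2 ⟨t', ht', rfl⟩
  obtain ⟨hval, c, hc0, hcu⟩ := S.hyp.lead_formula S.odd hF S.one (S.mov_le_F hu)
    (S.pairing t') hv hr1 hrm hj hc hz (S.hdz τ₀) ha hκ hd
  rw [← lead_shift L hj]
  have e : ι L (P.e k (P.dL k τ₀) * μ ^ a) * UU L μ r = c⁻¹ • (gr L).c (j0 : ℤ) (P'.e k (P'.dL k t')) := by
    rw [hcu, smul_smul, inv_mul_cancel₀ hc0, one_smul]
  rw [e]
  exact Submodule.smul_mem _ _ ⟨_, hu, hval, rfl⟩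

/-- The move of a nonzero direction is nonzero. -/
theorem ne_of_move {t' : Fin 2 → R} {τ₀ τ₁ : Fin 2 → A} (hτ₀ : τ₀ ∈ P.T k) {n0 : CE} {j0 : ℕ}
    (hlead : ∀ v, t' v - L.lev.mono (τ₀ v) n0 j0 - L.lev.mono (τ₁ v) (n0 + mu1) j0 ∈
      L.lev.Φ.fil (j0 + 1))
    (hj : (L.m : ℤ) ∣ (j0 : ℤ)) (hκ : (L.m : ℤ) ∣ κ n0) (hz0 : P.e k (P.dL k τ₀) ≠ 0) :
    P'.e k (P'.dL k t') ≠ 0 := by
  obtain ⟨hv, hc⟩ := c_of_lead L (S.dL_lead hlead)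
  have hz : P.e k (P.dL k τ₀) ∈ Algebra.adjoin K ({P.β k} : Set A) :=
    S.mov_le_E (P.mem_Mov.2 ⟨τ₀, hτ₀, rfl⟩)
  obtain ⟨f, hf, hne⟩ := S.hyp.pair_ne S.one hv hc hz (S.hdz τ₀) hκ hj hz0
  intro h0
  have h2 := S.pairing t' f hf
  rw [h0, zero_mul, map_zero] at h2
  exact hne h2.symm

variable (hFr : FreshA L P P' k t1 t2)
include hFr

lemma not_dvd_one : ¬ (L.m : ℤ) ∣ 0 + 1 := by
  rw [zero_add]
  intro h
  have h1 := Int.le_of_dvd one_pos h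
  have h2 := L.m_prime.one_lt
  omega

/-- The moves with `K ≡ 0`. -/
theorem lead_zero (hF : finrank K' (FF K' (P'.β k)) ≤ L.m * finrank K (EE K (P.β k)))
    {τ₀ : Fin 2 → A} (hτ₀ : τ₀ ∈ P.T k) {r : ℕ} (h2 : 2 ≤ r) (hrm : r ≤ L.m) :
    ι L (P.e k (P.dL k τ₀)) * UU L μ r ∈ (gr L).toLeadData.lead (r : ℤ) (P'.Mov k) := by
  obtain ⟨t', ht', n0, j0, τ₁, hκ, hj, -, -, -, hlead⟩ := hFr 0 r τ₀ hτ₀
    ⟨hτ₀, fun h => absurd (dvd_zero _) h, fun h => absurd h.1 (S.not_dvd_one hFr)⟩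
  have h := S.lead_move (a := 0) hF ht' hτ₀ hlead (by omega) hrm hj (Nat.zero_le _)
    (by simpa using hκ) (Or.inr ⟨rfl, h2⟩)
  rwa [pow_zero, mul_one] at h

/-- The moves with `P(t1,τ) = P(t2,τ) = 0`. -/
theorem lead_T0 (hF : finrank K' (FF K' (P'.β k)) ≤ L.m * finrank K (EE K (P.β k)))
    {τ₀ : Fin 2 → A} (hτ₀ : τ₀ ∈ P.T k)
    (hP : ∀ c ∈ P.KK k, P.PP k c t1 τ₀ = 0 ∧ P.PP k c t2 τ₀ = 0) {r a : ℕ} (h1 : 1 ≤ r)
    (hrm : r ≤ L.m) (ha : a ≤ L.m - r) :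
    ι L (P.e k (P.dL k τ₀) * μ ^ a) * UU L μ r ∈ (gr L).toLeadData.lead (r : ℤ) (P'.Mov k) := by
  obtain ⟨t', ht', n0, j0, τ₁, hκ, hj, -, -, h0, hlead⟩ := hFr (-(a : ℤ)) r τ₀ hτ₀
    ⟨hτ₀, fun _ c hc => (hP c hc).1, fun _ c hc => (hP c hc).2⟩
  have hτ₁ : τ₁ = 0 := h0 fun c hc => (hP c hc).2
  refine S.lead_move hF ht' hτ₀ hlead h1 hrm hj ha (by simpa using hκ) (Or.inl ?_)
  rw [hτ₁, map_zero]

/-- **The count**. -/
theorem count (hF : finrank K' (FF K' (P'.β k)) ≤ L.m * finrank K (EE K (P.β k))) :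
    ∃ V : ℕ → Submodule K A,
      ∑ r ∈ Finset.range L.m, finrank K (V r) ≤ finrank K' (P'.Mov k) ∧
      (∀ r < L.m, r ≠ 1 → P.Mov k ≤ V r) ∧
      ((∀ z ∈ P.Mov k, ∃ τ₀ ∈ P.T k, P.e k (P.dL k τ₀) = z ∧
          ∀ c ∈ P.KK k, P.PP k c t1 τ₀ = 0 ∧ P.PP k c t2 τ₀ = 0) →
        ∀ r < L.m, ∀ a, a ≤ L.m - r → (r = 0 → a = 0) → ∀ z ∈ P.Mov k, z * μ ^ a ∈ V r) := by
  have hm2 := L.m_prime.two_le
  have hshift : ∀ r : ℕ, (L.m : ℤ) ∣ (r : ℤ) - ((rt L.m r : ℕ) : ℤ) := by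
    intro r
    rw [rt]
    split_ifs with h
    · subst h
      simp
    · simp
  refine ⟨LV L μ (P'.Mov k), ?_, ?_, ?_⟩
  · refine finrank_ge_of_leads L (P'.Mov k) (fun r => UU L μ (rt L.m r))
      (fun r _ => UU_ne S.hyp _) _ (fun r _ z hz => ?_)
    rw [lead_shift L (hshift r)]
    exact hz
  · intro r hr h1 z hz
    obtain ⟨τ₀, hτ₀, rfl⟩ := P.mem_Mov.1 hz
    have h2 : 2 ≤ rt L.m r := by
      rw [rt]
      split_ifs with h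
      · exact hm2
      · omega
    have h3 : rt L.m r ≤ L.m := by
      rw [rt]
      split_ifs with h
      · exact le_rfl
      · exact hr.le
    exact S.lead_zero hFr hF hτ₀ h2 h3
  · intro hon r hr a ha h0 z hz
    obtain ⟨τ₀, hτ₀, rfl, hP⟩ := hon z hz
    show ι L (P.e k (P.dL k τ₀) * μ ^ a) * UU L μ (rt L.m r) ∈
      (gr L).toLeadData.lead ((rt L.m r : ℕ) : ℤ) (P'.Mov k)
    by_cases hr0 : r = 0
    · have ha0 := h0 hr0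
      rw [rt, if_pos hr0]
      exact S.lead_T0 hFr hF hτ₀ hP (by omega) le_rfl (by omega)
    · rw [rt, if_neg hr0]
      exact S.lead_T0 hFr hF hτ₀ hP (by omega) hr.le ha

/-- **The subalgebra bound**. -/
theorem ly_core (hF : finrank K' (FF K' (P'.β k)) ≤ L.m * finrank K (EE K (P.β k))) {y : A}
    (hy : y ∈ P.Mov k) (hy0 : y ≠ 0) (B : Subalgebra K' R)
    (hB : ∀ u ∈ P'.Mov k, ∀ u' ∈ P'.Mov k, u ≠ 0 → u⁻¹ * u' ∈ B) :
    L.m * finrank K (Algebra.adjoin K ((fun x => y⁻¹ * x) '' (P.Mov k : Set A))) ≤ finrank K' B := by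
  have hm2 := L.m_prime.two_le
  have hodd := S.odd
  -- the class `0`
  have h0 : ∀ z ∈ P.Mov k, ι L z ∈ (gr L).toLeadData.lead 0 (P'.Mov k) := by
    intro z hz
    obtain ⟨τ₀, hτ₀, rfl⟩ := P.mem_Mov.1 hz
    have h := S.lead_zero hFr hF (μ := μ) hτ₀ hm2 le_rfl
    rw [UU_self hodd, mul_one, lead_shift L (j' := 0) (by simp)] at h
    exact h
  obtain ⟨u, hu, hu1, hu2⟩ := h0 y hy
  obtain ⟨hu0, hi1, hi2⟩ := inv_c0 hy0 hu1 hu2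
  obtain ⟨u₂, hu₂, h21, h22⟩ : ∃ x ∈ P'.Mov k, ((2 : ℤ) : WithTop ℤ) ≤ (gr L).val x ∧
      (gr L).c 2 x = ι L y * UU L μ 2 := by
    obtain ⟨τ₀, hτ₀, rfl⟩ := P.mem_Mov.1 hy
    exact S.lead_zero hFr hF (μ := μ) hτ₀ le_rfl hm2
  refine ly_bound hodd B (ξ := u⁻¹ * u₂) ?_ (hB u hu u₂ hu₂ hu0) ?_ ?_
  · rintro _ ⟨z, hz, rfl⟩
    obtain ⟨u', hu', h1, h2⟩ := h0 z hz
    refine ⟨u⁻¹ * u', hB u hu u' hu' hu0, ?_, ?_⟩
    · have := le_val_mul L hi1 h1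
      rwa [zero_add] at this
    · rw [c_zero_mul L hi1 h1, hi2, h2, map_mul]
  · have := le_val_mul L hi1 h21
    rwa [zero_add] at this
  · rw [c_zero_mul L hi1 h21, hi2, h22, ← mul_assoc, ← map_mul, inv_mul_cancel₀ hy0, map_one, one_mul]
    exact UU_ne S.hyp 2

end Sit

end Sit

end Crest.Agent.Kurosh.ExLead
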