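/-
S0270 (Kurosh), §K (helper72): the output of the lead analysis of the exploration, as a statement.

`LeadOut Ls n Z k t1 t2 X`: `X` a fresh exact level-up of the class state `Z` by the admissible pair `t1,t2`
(`y₀ = Π t1`, `μ = y₀⁻¹ Π t2`, `m` the new prime, `H = β_k(X)`, `D = deg β_k(Z)`):
* `deg_ge`: `m D ≤ deg H`;
* `mov_ne`: `Mov_k(Z) ≠ 0 ⇒ Mov_k(X) ≠ 0`;
* in the equality case `deg H ≤ m D`:
  * `ly_ge`: `m dim 𝔏_y(Z) ≤ dim 𝔏_{y'}(X)` for all nonzero `y ∈ Mov_k(Z)`, `y' ∈ Mov_k(X)`;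
  * `count`: subspaces `V r` (`r < m`) of `A`, the classes of the leads of `Mov_k(X)`, with
    `∑ dim V r ≤ dim Mov_k(X)`; always `Mov_k(Z) ≤ V r` for `r ≠ 1`; and if all of `Mov_k(Z)` is hit by
    moves `τ` with `P(t1,τ) = P(t2,τ) = 0` on `𝕂(k)` (`exists_T0_of_mem_Mov`, `ExploreLin.exists_T0_presc`),
    then `z μ^a ∈ V r` for `z ∈ Mov_k(Z)`, `r < m`, `a ≤ m - r`, `a = 0` if `r = 0`.
-/
import Crest.Agent.Kurosh.ExploreDefs

set_option autoImplicit false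
set_option linter.unusedSectionVars false

namespace Crest.Agent.Kurosh.Explore

open Hensel State Module LU LU.Tw0 LU.Tw Plan
open _root_.Crest.Agent.Kurosh.Inv
open _root_.Crest.Agent.Kurosh.Inv.St

variable [Tw0] [Tw] {F : Subfield U} [CentF F]

/-- The output of the lead analysis of a fresh level-up (see the head of the file). -/
structure LeadOut (Ls : Lst F) (n : ℕ) [Fact (F ≤ Kn n)] (Z : Stt n) (k : ℕ)
    (t1 t2 : Fin 2 → An n) (X : Stt (n + 1)) : Prop where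
  deg_ge : (lv n).m * finrank (Kn n) (Algebra.adjoin (Kn n) {(pt F n Z Ls.a).β k}) ≤
    finrank (Kn (n + 1)) (Algebra.adjoin (Kn (n + 1)) {(pt F (n + 1) X Ls.a).β k})
  mov_ne : (pt F n Z Ls.a).Mov k ≠ ⊥ → (pt F (n + 1) X Ls.a).Mov k ≠ ⊥
  ly_ge : finrank (Kn (n + 1)) (Algebra.adjoin (Kn (n + 1)) {(pt F (n + 1) X Ls.a).β k}) ≤
      (lv n).m * finrank (Kn n) (Algebra.adjoin (Kn n) {(pt F n Z Ls.a).β k}) →
    ∀ y ∈ (pt F n Z Ls.a).Mov k, y ≠ 0 → ∀ y' ∈ (pt F (n + 1) X Ls.a).Mov k, y' ≠ 0 →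
      (lv n).m * finrank (Kn n) (Ly (pt F n Z Ls.a) k y) ≤
        finrank (Kn (n + 1)) (Ly (pt F (n + 1) X Ls.a) k y')
  count : finrank (Kn (n + 1)) (Algebra.adjoin (Kn (n + 1)) {(pt F (n + 1) X Ls.a).β k}) ≤
      (lv n).m * finrank (Kn n) (Algebra.adjoin (Kn n) {(pt F n Z Ls.a).β k}) →
    ∃ V : ℕ → Submodule (Kn n) (An n),
      ∑ r ∈ Finset.range (lv n).m, finrank (Kn n) (V r) ≤
          finrank (Kn (n + 1)) ((pt F (n + 1) X Ls.a).Mov k) ∧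
      (∀ r < (lv n).m, r ≠ 1 → (pt F n Z Ls.a).Mov k ≤ V r) ∧
      ((∀ z ∈ (pt F n Z Ls.a).Mov k, ∃ τ ∈ (pt F n Z Ls.a).T k,
          (pt F n Z Ls.a).e k ((pt F n Z Ls.a).dL k τ) = z ∧
          ∀ c ∈ (pt F n Z Ls.a).KK k, (pt F n Z Ls.a).PP k c t1 τ = 0 ∧
            (pt F n Z Ls.a).PP k c t2 τ = 0) →
        ∀ r < (lv n).m, ∀ a, a ≤ (lv n).m - r → (r = 0 → a = 0) →
          ∀ z ∈ (pt F n Z Ls.a).Mov k,
            z * (((pt F n Z Ls.a).e k ((pt F n Z Ls.a).dL k t1))⁻¹ *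
              (pt F n Z Ls.a).e k ((pt F n Z Ls.a).dL k t2)) ^ a ∈ V r)

/-- The lead analysis of the exploration (`ExploreLead`, helper72; a hypothesis of the logic of
the class until it lands). The state `Z` has `Smooth(k)`; so has the fresh level-up `X` (`Val k k`). -/
def LeadS : Prop :=
  ∀ (F : Subfield U) [CentF F] (Ls : Lst F) (n : ℕ) [Fact (F ≤ Kn n)] (Z : Stt n) (k : ℕ)
    (S : ℕ → Set (An n)),
    Valid (pt F n Z Ls.a) (N n) Ls.R Ls.Q k k S ((pt F n Z Ls.a).T k) →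
    Smooth (pt F n Z Ls.a) k →
    ∀ (t1 t2 : Fin 2 → An n), Adm (pt F n Z Ls.a) k ((pt F n Z Ls.a).T k) t1 t2 →
    (pt F n Z Ls.a).e k ((pt F n Z Ls.a).dL k t1) ≠ 0 →
    ∀ (X : Stt (n + 1)) (g : ℕ → An (n + 1)),
      (∀ J, (lv n).lev.PSol (pt F n Z Ls.a) k J t1 t2 X g) →
      Fresh F Ls n Z k t1 t2 ((pt F n Z Ls.a).T k) X ((pt F (n + 1) X Ls.a).T k) →
      Smooth (pt F (n + 1) X Ls.a) k →
      LeadOut Ls n Z k t1 t2 X

end Crest.Agent.Kurosh.Explore
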