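/-
S0270 (Kurosh), §K (helper8): `F_y`, `A_y`, `𝔏_y` when `Mov_l ≤ K[β_l]`.
-/
import Crest.Agent.Kurosh.Inv
import Crest.Agent.Kurosh.DoubleCent

set_option autoImplicit false
set_option linter.unusedSectionVars false

namespace Crest.Agent.Kurosh.Inv.St

open Module

variable {F K A : Type*} [Field F] [Field K] [DivisionRing A] [Algebra F K] [Algebra K A]
  [Algebra F A] [IsScalarTower F K A] (P : State.Pt F K A (Fin 2)) {l : ℕ} {y y' z : A}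

/-- `F_y = K[β_l]` if `y ∈ K[β_l]`. -/
theorem Fy_eq_adjoin (hM : P.Mov l ≤ Subalgebra.toSubmodule (Algebra.adjoin K {P.β l}))
    (hy : y ∈ P.Mov l) : Fy P l y = Algebra.adjoin K {P.β l} := by
  apply le_antisymm
  · refine Algebra.adjoin_le ?_
    intro x hx
    rcases hx with rfl | rfl
    · exact Algebra.subset_adjoin rfl
    · exact hM hy
  · exact Algebra.adjoin_mono (by simp)

variable [FiniteDimensional K A]

/-- A f.d. subalgebra of a division ring is closed under inverses. -/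
lemma inv_mem_sub (E : Subalgebra K A) {x : A} (hx : x ∈ E) : x⁻¹ ∈ E :=
  DoubleCent.inv_mem_subalgebra E hx

/-- `A_y = Mov_l`: the `τ`-orthogonal projection to the field `F_y ⊃ Mov_l` is the identity on `Mov_l`. -/
theorem Ay_eq_Mov (h1 : P.τ 1 = 1) (hM : P.Mov l ≤ Subalgebra.toSubmodule (Algebra.adjoin K {P.β l}))
    (hy : y ∈ P.Mov l) : Ay P l y = P.Mov l := by
  unfold Ay
  rw [Fy_eq_adjoin P hM hy]
  ext f
  constructor
  · rintro ⟨hf, w, hw, h⟩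
    have hw' := hM hw
    by_cases hne : f - w = 0
    · rw [sub_eq_zero.1 hne]
      exact hw
    · exfalso
      have hsub : f - w ∈ Algebra.adjoin K {P.β l} := sub_mem hf hw'
      have h2 := h _ (inv_mem_sub _ hsub)
      have h3 : P.τ ((f - w) * (f - w)⁻¹) = 0 := by
        rw [sub_mul, map_sub, h2, sub_self]
      rw [mul_inv_cancel₀ hne, h1] at h3
      exact one_ne_zero h3
  · intro hf
    exact ⟨hM hf, f, hf, fun _ _ => rfl⟩

/-- `𝔏_y = K[y⁻¹ Mov_l]`. -/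
theorem Ly_eq_adjoin (h1 : P.τ 1 = 1)
    (hM : P.Mov l ≤ Subalgebra.toSubmodule (Algebra.adjoin K {P.β l})) (hy : y ∈ P.Mov l) :
    Ly P l y = Algebra.adjoin K ((fun x => y⁻¹ * x) '' (P.Mov l : Set A)) := by
  unfold Ly
  rw [Ay_eq_Mov P h1 hM hy]

/-- `y⁻¹ z ∈ 𝔏_y` for `z ∈ Mov_l`. -/
theorem inv_mul_mem_Ly (h1 : P.τ 1 = 1)
    (hM : P.Mov l ≤ Subalgebra.toSubmodule (Algebra.adjoin K {P.β l})) (hy : y ∈ P.Mov l)
    (hz : z ∈ P.Mov l) : y⁻¹ * z ∈ Ly P l y := by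
  rw [Ly_eq_adjoin P h1 hM hy]
  exact Algebra.subset_adjoin ⟨z, hz, rfl⟩

/-- `𝔏_y` does not depend on `y`. -/
theorem Ly_le (h1 : P.τ 1 = 1)
    (hM : P.Mov l ≤ Subalgebra.toSubmodule (Algebra.adjoin K {P.β l})) (hy : y ∈ P.Mov l)
    (hy' : y' ∈ P.Mov l) (hy'0 : y' ≠ 0) : Ly P l y ≤ Ly P l y' := by
  rw [Ly_eq_adjoin P h1 hM hy]
  refine Algebra.adjoin_le ?_
  rintro _ ⟨w, hw, rfl⟩
  by_cases hy0 : y = 0
  · subst hy0
    simp only [inv_zero, zero_mul]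
    exact zero_mem _
  have h2 : y'⁻¹ * y ∈ Ly P l y' := inv_mul_mem_Ly P h1 hM hy' hy
  have h3 : y'⁻¹ * w ∈ Ly P l y' := inv_mul_mem_Ly P h1 hM hy' hw
  have h4 : (y'⁻¹ * y)⁻¹ ∈ Ly P l y' := inv_mem_sub _ h2
  have e : y⁻¹ * w = (y'⁻¹ * y)⁻¹ * (y'⁻¹ * w) := by
    rw [mul_inv_rev, inv_inv, mul_assoc, mul_inv_cancel_left₀ hy'0]
  show y⁻¹ * w ∈ Ly P l y'
  rw [e]
  exact mul_mem h4 h3

/-- `𝔏_y` does not depend on `y`. -/
theorem Ly_indep (h1 : P.τ 1 = 1)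
    (hM : P.Mov l ≤ Subalgebra.toSubmodule (Algebra.adjoin K {P.β l})) (hy : y ∈ P.Mov l)
    (hy' : y' ∈ P.Mov l) (hy0 : y ≠ 0) (hy'0 : y' ≠ 0) : Ly P l y = Ly P l y' :=
  le_antisymm (Ly_le P h1 hM hy hy' hy'0) (Ly_le P h1 hM hy' hy hy0)

end Crest.Agent.Kurosh.Inv.St
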