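/-
S0270 (Kurosh), §K (helper72): `lead_out : LeadS`, the lead analysis of the exploration.
-/
import Crest.Agent.Kurosh.ExLeadS
import Crest.Agent.Kurosh.ExLead5
import Crest.Agent.Kurosh.ExLead6
import Crest.Agent.Kurosh.LyFacts

set_option autoImplicit false
set_option linter.unusedSectionVars false

namespace Crest.Agent.Kurosh.Explore

open Hensel State Module LU LU.Tw0 LU.Tw Plan
open _root_.Crest.Agent.Kurosh.Inv
open _root_.Crest.Agent.Kurosh.Inv.St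

variable [Tw0] [Tw]

lemma odd_m (n : ℕ) : Odd (lv n).m := by
  refine (lv n).m_prime.odd_of_ne_two ?_
  have := m_big n
  omega

/-- **The lead analysis of the exploration.** -/
theorem lead_out : LeadS := by
  intro F _ Ls n _ Z k S hV hSm t1 t2 hA hy X g hsol hFresh hSm'
  have hX := (hsol 0).leadX
  have hyp := ExLead.hyp_of_frame (lv n) (P := pt F n Z Ls.a) (P' := pt F (n + 1) X Ls.a) rfl hX k
    hV.one hSm hy hA.mem1 hA.mem2
  have S0 : ExLead.Sit (lv n) (pt F n Z Ls.a) (pt F (n + 1) X Ls.a) k t1 t2 _ _ :=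
    ⟨rfl, (τ_succ n).symm, rfl, hV.one, odd_m n, hX, hSm, hSm', hyp⟩
  have hFr : ExLead.FreshA (lv n) (pt F n Z Ls.a) (pt F (n + 1) X Ls.a) k t1 t2 :=
    fun K_ j τ₀ hτ₀ hal => hFresh.lead K_ j τ₀ hτ₀ hal
  have h1 := S0.h1
  have h1' := S0.h1'
  have hM := S0.mov_le_E
  have hM' : (pt F (n + 1) X Ls.a).Mov k ≤
      Subalgebra.toSubmodule (Algebra.adjoin (Kn (n + 1)) {(pt F (n + 1) X Ls.a).β k}) := S0.mov_le_F
  refine ⟨hyp.finrank_ge, ?_, ?_, ?_⟩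
  · intro hne
    obtain ⟨z, hz, hz0⟩ := Submodule.exists_mem_ne_zero_of_ne_bot hne
    obtain ⟨τ₀, hτ₀, rfl⟩ := (pt F n Z Ls.a).mem_Mov.1 hz
    obtain ⟨t', ht', n0, j0, τ₁, hκ, hj, -, -, -, hlead⟩ := hFr 0 0 τ₀ hτ₀
      ⟨hτ₀, fun h => absurd (dvd_zero _) h, fun h => absurd h.1 (S0.not_dvd_one hFr)⟩
    have h3 := S0.ne_of_move hτ₀ hlead (by simpa using hj) (by simpa using hκ) hz0
    intro hbot
    have h4 : (pt F (n + 1) X Ls.a).e k ((pt F (n + 1) X Ls.a).dL k t') ∈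
        (pt F (n + 1) X Ls.a).Mov k := (pt F (n + 1) X Ls.a).mem_Mov.2 ⟨t', ht', rfl⟩
    rw [hbot, Submodule.mem_bot] at h4
    exact h3 h4
  · intro hF y hy' hy0 y' hy'' hy'0
    rw [Ly_eq_adjoin _ h1 hM hy']
    refine S0.ly_core hFr hF hy' hy0 _ fun u hu u' hu' hu0 => ?_
    have hu1 := inv_mul_mem_Ly _ h1' hM' hy'' hu
    have hu2 := inv_mul_mem_Ly _ h1' hM' hy'' hu'
    have hu3 : (y'⁻¹ * u)⁻¹ * (y'⁻¹ * u') = u⁻¹ * u' := by
      rw [mul_inv_rev, inv_inv, mul_assoc, mul_inv_cancel_left₀ hy'0]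
    rw [← hu3]
    exact mul_mem (inv_mem_sub _ hu1) hu2
  · intro hF
    exact S0.count hFr hF

end Crest.Agent.Kurosh.Explore
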