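/-
S0270 (Kurosh), §K, linear algebra of the exploration (helper49).
Abstract over `P : Pt F K A (Fin 2)`, at a valid state `Valid P N R Q k k S (P.T k)`, with `K` infinite.
* `exists_adm_S1`: admissible pairs with `t1` in a line-open set.
* `exists_adm_ne` (B1): `Mov_k ≠ 0` ⇒ an admissible pair with `Π t1 ≠ 0`.
* `exists_adm_presc` (B2): admissible pairs with prescribed `Π t1 = y1`, `Π t2 = y2`, whose joint
  surjectivity already holds on `T(k+1) = ker Π`.
* `exists_T0_presc` (B3): `T0(t1) ∩ T0(t2)` maps onto `Mov_k`.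
* `rank_of_top` (B4): a rank bound for the top components gives one for all nonzero classes.
-/
import Crest.Agent.Kurosh.AdmExist

set_option autoImplicit false
set_option linter.unusedSectionVars false

namespace Crest.Agent.Kurosh.ExploreLin

open State Module
open _root_.Crest.Agent.Kurosh.Inv
open _root_.Crest.Agent.Kurosh.Inv.St
open _root_.Crest.Agent.Kurosh.AdmExist

section Linear

open _root_.Crest.Agent.Kurosh.Rank

variable {K T V E : Type*} [Field K] [Infinite K] [AddCommGroup T] [Module K T] [Module.Finite K T]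
  [AddCommGroup V] [Module K V] [Module.Finite K V] [AddCommGroup E] [Module K E]

/-- Rank lemma on `W × T3`: every nonempty line-open `S ⊂ W` contains a `t` with `P_·(t,·)` mapping
`T3` onto `V^*`. -/
theorem exists_surj (P : V →ₗ[K] T →ₗ[K] T →ₗ[K] K) (W T3 : Submodule K T)
    (hr : ∀ v, v ≠ 0 → finrank K V + (finrank K T - finrank K W) + (finrank K T - finrank K T3)
      ≤ finrank K (LinearMap.range (P v)))
    {S : Set W} (hS : LineOpen K S) (hne : S.Nonempty) :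
    ∃ t ∈ S, ∀ f : Dual K V, ∃ τ ∈ T3, Pt P t.1 τ = f := by
  classical
  let P2 : V →ₗ[K] W →ₗ[K] Dual K T3 :=
    { toFun := fun v => T3.subtype.dualMap ∘ₗ (P v) ∘ₗ W.subtype
      map_add' := fun a b => by ext x y; simp
      map_smul' := fun c a => by ext x y; simp }
  obtain ⟨t, ht, hinj⟩ := exists_injective P2 (by
    intro v hv
    have h2 := hr v hv
    have h3 := rk_le_domRestrict (P v) W
    have h4 := rk_le_dualRestrict ((P v).domRestrict W) T3
    have h5 : T3.subtype.dualMap ∘ₗ (P v).domRestrict W = P2 v := rfl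
    rw [h5] at h4
    have h10 : finrank K V ≤ finrank K (LinearMap.range (P2 v)) := by omega
    exact h10) hS hne
  refine ⟨t, ht, ?_⟩
  let L : T3 →ₗ[K] Dual K V := (Pt P t.1).domRestrict T3
  have hL : Function.Surjective L := by
    apply surjective_of_separating
    intro v hv
    apply hinj
    simp only [map_zero]
    ext x
    exact hv x
  intro f
  obtain ⟨τ, hτ⟩ := hL f
  exact ⟨τ.1, τ.2, hτ⟩

/-- One vector with prescribed nonzero image: `pr` vanishes on `T3`, `pr t0 ≠ 0`. There is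
`t ∈ T3 + K t0` with `pr t = pr t0` and `P_·(t,·)` mapping `T3` onto `V^*`. -/
theorem exists_t_presc (P : V →ₗ[K] T →ₗ[K] T →ₗ[K] K) (pr : T →ₗ[K] E) (T3 : Submodule K T)
    (hpr : ∀ x ∈ T3, pr x = 0) {t0 : T} (ht0 : pr t0 ≠ 0)
    (hr : ∀ v, v ≠ 0 → finrank K V + 2 * (finrank K T - finrank K T3)
      ≤ finrank K (LinearMap.range (P v))) :
    ∃ t ∈ T3 ⊔ Submodule.span K {t0}, pr t = pr t0 ∧ ∀ f : Dual K V, ∃ τ ∈ T3, Pt P t τ = f := by
  classical
  set W := T3 ⊔ Submodule.span K {t0} with hW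
  have hle : finrank K T3 ≤ finrank K W := Submodule.finrank_mono le_sup_left
  have hWT : finrank K W ≤ finrank K T := Submodule.finrank_le _
  have hT3T : finrank K T3 ≤ finrank K T := Submodule.finrank_le _
  let S : Set W := ((LinearMap.ker (pr ∘ₗ W.subtype) : Submodule K W) : Set W)ᶜ
  have hS : LineOpen K S := lineOpen_compl_submodule _
  have hne : S.Nonempty :=
    ⟨⟨t0, Submodule.mem_sup_right (Submodule.mem_span_singleton_self t0)⟩, by
      simpa [S] using ht0⟩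
  obtain ⟨t, ht, hsurj⟩ := exists_surj P W T3 (by
    intro v hv
    have := hr v hv
    omega) hS hne
  obtain ⟨a, ha, b, hb, hab⟩ := Submodule.mem_sup.1 t.2
  obtain ⟨c, rfl⟩ := Submodule.mem_span_singleton.1 hb
  have hpt : pr t.1 = c • pr t0 := by rw [← hab, map_add, hpr a ha, zero_add, map_smul]
  have hc : c ≠ 0 := by
    rintro rfl
    apply ht
    show pr t.1 = 0
    rw [hpt, zero_smul]
  refine ⟨c⁻¹ • t.1, Submodule.smul_mem _ _ t.2, ?_, ?_⟩
  · rw [map_smul, hpt, smul_smul, inv_mul_cancel₀ hc, one_smul]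
  · intro f
    obtain ⟨τ, hτ, h⟩ := hsurj (c • f)
    refine ⟨τ, hτ, ?_⟩
    ext v
    have h1 : P v t.1 τ = c * f v := by
      have := LinearMap.congr_fun h v
      simpa [Pt_apply] using this
    have h2 : Pt P (c⁻¹ • t.1) τ v = c⁻¹ * P v t.1 τ := by
      simp [Pt_apply]
    rw [h2, h1, ← mul_assoc, inv_mul_cancel₀ hc, one_mul]

/-- **Admissible pairs with prescribed images.** `pr : T → E`, `T'' = ker pr`,
`d = codim T''`, `q = dim V`, every nonzero form of rank `≥ 3q + 2d`. Given `t01` with `pr t01 ≠ 0`,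
and `t02` with `pr t02 ≠ 0`, or else `pr t02 = 0` and `dim U + q + d < dim T`, there are
`t1`, `t2 ∈ T0(t1)` with the images of `t01`, `t02`, (`t2 ∉ U` in the second case) and
`τ ↦ (P_·(t1,τ), P_·(t2,τ))` maps `T''` onto `V^* × V^*`. -/
theorem exists_pair_presc (P : V →ₗ[K] T →ₗ[K] T →ₗ[K] K) (pr : T →ₗ[K] E) (U : Submodule K T)
    (hr : ∀ v, v ≠ 0 → 3 * finrank K V + 2 * (finrank K T - finrank K (LinearMap.ker pr))
      ≤ finrank K (LinearMap.range (P v)))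
    {t01 t02 : T} (h1 : pr t01 ≠ 0)
    (h2 : pr t02 ≠ 0 ∨ (pr t02 = 0 ∧
      finrank K U + finrank K V + (finrank K T - finrank K (LinearMap.ker pr)) < finrank K T)) :
    ∃ t1 t2 : T, pr t1 = pr t01 ∧ pr t2 = pr t02 ∧ t2 ∈ T0 P t1 ∧ (pr t02 = 0 → t2 ∉ U) ∧
      ∀ f g : Dual K V, ∃ τ ∈ LinearMap.ker pr, Pt P t1 τ = f ∧ Pt P t2 τ = g := by
  classical
  set T'' := LinearMap.ker pr with hT''
  have hT''T : finrank K T'' ≤ finrank K T := Submodule.finrank_le _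
  obtain ⟨t1, -, ht1, hsurj1⟩ := exists_t_presc P pr T'' (fun x hx => hx) h1 (by
    intro v hv
    have := hr v hv
    omega)
  set T1 := T0 P t1 with hT1
  let T3 : Submodule K T := T1 ⊓ T''
  have hfr1 := finrank_T0_ge P t1
  have hfr3 : finrank K T - finrank K T3 ≤ finrank K V + (finrank K T - finrank K T'') := by
    have h1 := Submodule.finrank_sup_add_finrank_inf_eq T1 T''
    have h2 : finrank K (T1 ⊔ T'' : Submodule K T) ≤ finrank K T := Submodule.finrank_le _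
    have h4 : finrank K T3 = finrank K (T1 ⊓ T'' : Submodule K T) := rfl
    have h5 : finrank K T - finrank K V ≤ finrank K T1 := hfr1
    omega
  have hT3T : finrank K T3 ≤ finrank K T := Submodule.finrank_le _
  have hT3pr : ∀ x ∈ T3, pr x = 0 := fun x hx => LinearMap.mem_ker.1 hx.2
  -- the second vector
  obtain ⟨t2, ht2pr, ht2T1, ht2U, hsurj2⟩ : ∃ t2 : T, pr t2 = pr t02 ∧ t2 ∈ T1 ∧
      (pr t02 = 0 → t2 ∉ U) ∧ ∀ g : Dual K V, ∃ τ ∈ T3, Pt P t2 τ = g := by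
    rcases h2 with h2 | ⟨h2, hdim⟩
    · obtain ⟨τ, hτ, hτ'⟩ := hsurj1 (Pt P t1 t02)
      have hτ0 : pr τ = 0 := LinearMap.mem_ker.1 hτ
      have h3 : pr (t02 - τ) = pr t02 := by rw [map_sub, hτ0, sub_zero]
      have h4 : t02 - τ ∈ T1 := by
        rw [hT1, T0, LinearMap.mem_ker, map_sub, hτ', sub_self]
      obtain ⟨t2, ht2, ht2', hs⟩ := exists_t_presc P pr T3 hT3pr (t0 := t02 - τ)
        (by rwa [h3]) (by
          intro v hv
          have := hr v hv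
          omega)
      refine ⟨t2, by rw [ht2', h3], ?_, fun h => absurd h h2, hs⟩
      refine (sup_le inf_le_left ?_ : T3 ⊔ Submodule.span K {t02 - τ} ≤ T1) ht2
      rwa [Submodule.span_singleton_le_iff_mem]
    · have hnle : ¬ T3 ≤ U := fun hle => by
        have := Submodule.finrank_mono hle
        omega
      obtain ⟨x, hx, hxU⟩ := SetLike.not_le_iff_exists.1 hnle
      let S : Set T3 := {y | (y : T) ∉ U}
      have hS : LineOpen K S := (lineOpen_compl_submodule U).preimage (T' := T3) T3.subtype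
      obtain ⟨t, ht, hs⟩ := exists_surj P T3 T3 (by
        intro v hv
        have := hr v hv
        omega) hS ⟨⟨x, hx⟩, hxU⟩
      exact ⟨t.1, by rw [hT3pr _ t.2, h2], t.2.1, fun _ => ht, hs⟩
  refine ⟨t1, t2, ht1, ht2pr, ht2T1, ht2U, fun f g => ?_⟩
  obtain ⟨τ1, h1, h1'⟩ := hsurj1 f
  obtain ⟨τ2, h2, h2'⟩ := hsurj2 (g - Pt P t2 τ1)
  refine ⟨τ1 + τ2, T''.add_mem h1 h2.2, ?_, ?_⟩
  · have : Pt P t1 τ2 = 0 := h2.1
    rw [map_add, h1', this, add_zero]
  · rw [map_add, h2']; abel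

end Linear

section Abstract

variable {F K A : Type*} [Field F] [Field K] [DivisionRing A] [Algebra F K] [Algebra K A]
  [Algebra F A] [IsScalarTower F K A] (P : State.Pt F K A (Fin 2))

/-- Inner directions do not move anything: `Π_k [ρ,w] = 0`. -/
lemma e_dL_of_mem_Inn {k : ℕ} {t : Fin 2 → A} (ht : t ∈ Inn P) : P.e k (P.dL k t) = 0 := by
  obtain ⟨w, rfl⟩ := ht
  let D : A → A := fun x => x * w - w * x
  have hD : IsDer (F := F) D := by
    refine ⟨fun x y => ?_, fun x y => ?_, fun r => ?_⟩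
    · simp only [D, add_mul, mul_add]; abel
    · simp only [D, sub_mul, mul_sub, mul_assoc]; abel
    · simp only [D, ← Algebra.commutes, sub_self]
  have h1 : P.dL k (LinearMap.pi (fun v => adL (K := K) (P.ρ v)) w) = D (P.β k) := by
    rw [Pt.dL_apply, Pt.β, der_ev hD]
    congr 1
  rw [h1]
  exact P.e_comm k w

/-- `Π_k` on `T(k)`. -/
noncomputable def piK (k : ℕ) : P.T k →ₗ[K] A := (P.e k ∘ₗ P.dL k) ∘ₗ (P.T k).subtype

@[simp] lemma piK_apply (k : ℕ) (t : P.T k) : piK P k t = P.e k (P.dL k t) := rfl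

lemma range_piK (k : ℕ) : LinearMap.range (piK P k) = P.Mov k := by
  ext y
  rw [P.mem_Mov]
  constructor
  · rintro ⟨t, rfl⟩
    exact ⟨t.1, t.2, rfl⟩
  · rintro ⟨t, ht, rfl⟩
    exact ⟨⟨t, ht⟩, rfl⟩

lemma mem_T_succ_of_ker {k : ℕ} {t : P.T k} (h : t ∈ LinearMap.ker (piK P k)) :
    (t : Fin 2 → A) ∈ P.T (k + 1) :=
  P.mem_T_succ.2 ⟨t.2, LinearMap.mem_ker.1 h⟩

variable [FiniteDimensional K A]

lemma finrank_sub_ker_piK (k : ℕ) :
    finrank K (P.T k) - finrank K (LinearMap.ker (piK P k)) = finrank K (P.Mov k) := by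
  have h := LinearMap.finrank_range_add_finrank_ker (piK P k)
  rw [range_piK] at h
  omega

variable {N : ℕ} {R : ℕ → Rec} {Q : ℕ → Polynomial F} {l r : ℕ} {S : ℕ → Set A}
  {TT : Submodule K (Fin 2 → A)}

/-- The dimension of `𝕋 ∩ Inn` as a subspace of `𝕋`. -/
lemma finrank_comap_Inn (TT : Submodule K (Fin 2 → A)) :
    finrank K ((Inn P).comap TT.subtype) = finrank K ↥(TT ⊓ Inn P) := by
  have e : (Inn P).comap TT.subtype = (TT ⊓ Inn P).comap TT.subtype := by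
    ext x
    simp
  rw [e]
  exact (Submodule.comapSubtypeEquivOfLe (inf_le_left)).finrank_eq

/-- Independence modulo `Inn`, from `t1 ∉ U`, `t2 ∉ U + K t1`. -/
lemma indep_of_not_mem {t1 t2 : TT} (ht1 : t1 ∉ (Inn P).comap TT.subtype)
    (ht2 : t2 ∉ (Inn P).comap TT.subtype ⊔ Submodule.span K {t1}) (x y : K)
    (hxy : x • (t1 : Fin 2 → A) + y • (t2 : Fin 2 → A) ∈ Inn P) : x = 0 ∧ y = 0 := by
  by_cases hy : y = 0
  · subst hy
    refine ⟨?_, rfl⟩
    by_contra hx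
    apply ht1
    have e : (t1 : Fin 2 → A) = x⁻¹ • (x • (t1 : Fin 2 → A) + (0 : K) • (t2 : Fin 2 → A)) := by
      rw [zero_smul, add_zero, smul_smul, inv_mul_cancel₀ hx, one_smul]
    show (t1 : Fin 2 → A) ∈ Inn P
    rw [e]
    exact Submodule.smul_mem _ _ hxy
  · exfalso
    apply ht2
    have h1 : y⁻¹ • (x • t1 + y • t2) ∈ (Inn P).comap TT.subtype := by
      apply Submodule.smul_mem
      show ((x • t1 + y • t2 : TT) : Fin 2 → A) ∈ Inn P
      simpa using hxy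
    have e : t2 = y⁻¹ • (x • t1 + y • t2) - (y⁻¹ * x) • t1 := by
      rw [smul_add, smul_smul, smul_smul, inv_mul_cancel₀ hy, one_smul]
      abel
    rw [e]
    exact Submodule.sub_mem _ (Submodule.mem_sup_left h1)
      (Submodule.mem_sup_right (Submodule.smul_mem _ _ (Submodule.mem_span_singleton_self t1)))

/-- **Admissible pairs with `t1` in a given line-open set.** -/
theorem exists_adm_S1 [Infinite K] (hV : Valid P N R Q l r S TT) {S1 : Set TT}
    (hS1 : _root_.Crest.Agent.Kurosh.Rank.LineOpen K S1) (hne : S1.Nonempty) :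
    ∃ t1 t2 : TT, t1 ∈ S1 ∧ Adm P l TT t1 t2 := by
  classical
  have hS := hV.TT_S l hV.le
  have hlr := hV.le
  have hTT : TT ≤ P.T l := (hV.TT_le).trans (P.T_anti hlr)
  have hq : finrank K (MMT P l TT) ≤ qS R r := (finrank_MMT_le P hV).trans (qS_mono R hlr)
  let U : Submodule K TT := (Inn P).comap TT.subtype
  have hUf : finrank K U = finrank K ↥(TT ⊓ Inn P) := finrank_comap_Inn P TT
  have hbig := hV.TT_big
  have hU : finrank K U + finrank K (MMT P l TT) + 1 < finrank K TT := by omega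
  have hr : ∀ v : MMT P l TT, v ≠ 0 →
      3 * finrank K (MMT P l TT) + (finrank K TT - finrank K (⊤ : Submodule K TT))
      ≤ finrank K (LinearMap.range (P.PFormN l (IIT P l TT) TT (IIT_vanish P hTT) v)) := by
    intro v hv
    have h1 := rank_ge P hV v hv
    have h2 : finrank K TT - finrank K (⊤ : Submodule K TT) = 0 := by
      rw [finrank_top]; omega
    rw [h2]
    omega
  obtain ⟨t1, t2, h1S, ht1, ht2, hPP, hsurj⟩ := P.exists_pair_of_rankN l (IIT P l TT) TT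
    (IIT_vanish P hTT) U ⊤ hU hr hS1 hne
  refine ⟨t1, t2, h1S, t1.2, t2.2, hS _ t1.2, hS _ t2.2, hPP, ?_, indep_of_not_mem P ht1 ht2⟩
  intro φ₁ φ₂ h1 h2
  let f₁ : Dual K (MMT P l TT) := Submodule.liftQ _ (φ₁ ∘ₗ (P.KK l).subtype) (fun c hc => h1 _ hc)
  let f₂ : Dual K (MMT P l TT) := Submodule.liftQ _ (φ₂ ∘ₗ (P.KK l).subtype) (fun c hc => h2 _ hc)
  obtain ⟨τ, -, h3, h4⟩ := hsurj f₁ f₂
  refine ⟨τ, τ.2, fun c hc => ⟨?_, ?_⟩⟩
  · have := LinearMap.congr_fun h3 (P.mkMN l (IIT P l TT) ⟨c, hc⟩)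
    exact this
  · have := LinearMap.congr_fun h4 (P.mkMN l (IIT P l TT) ⟨c, hc⟩)
    exact this

/-- (B1) If `Mov_k ≠ 0` there is an admissible pair with `Π_k t1 ≠ 0`. -/
theorem exists_adm_ne [Infinite K] {k : ℕ} (hV : Valid P N R Q k k S (P.T k))
    (hne : P.Mov k ≠ ⊥) :
    ∃ t1 t2, Adm P k (P.T k) t1 t2 ∧ P.e k (P.dL k t1) ≠ 0 := by
  classical
  obtain ⟨y, hy, hy0⟩ := Submodule.exists_mem_ne_zero_of_ne_bot hne
  obtain ⟨t, ht, rfl⟩ := P.mem_Mov.1 hy
  let S1 : Set (P.T k) := ((LinearMap.ker (piK P k) : Submodule K (P.T k)) : Set (P.T k))ᶜ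
  have hS1 : _root_.Crest.Agent.Kurosh.Rank.LineOpen K S1 :=
    _root_.Crest.Agent.Kurosh.Rank.lineOpen_compl_submodule _
  obtain ⟨t1, t2, h1, h2⟩ := exists_adm_S1 P hV hS1 ⟨⟨t, ht⟩, hy0⟩
  exact ⟨t1, t2, h2, h1⟩

/-- The rank of the form of a class is the rank of a representative. -/
lemma finrank_range_PFormN_mk (k : ℕ) (c : P.KK k) :
    finrank K (LinearMap.range (P.PFormN k (IIT P k (P.T k)) (P.T k)
      (IIT_vanish P le_rfl) (P.mkMN k (IIT P k (P.T k)) c))) = rkOn P k c (P.T k) := rfl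

/-- (B2) **Admissible pairs with prescribed moves.** -/
theorem exists_adm_presc [Infinite K] {k : ℕ} (hV : Valid P N R Q k k S (P.T k))
    (hrk : ∀ c ∈ P.KK k, c ∉ St.II P k →
      5 * qS R k + 2 * finrank K (P.Mov k) + 2 ≤ rkOn P k c (P.T k))
    {y1 y2 : A} (hy1 : y1 ∈ P.Mov k) (hy2 : y2 ∈ P.Mov k) (hy10 : y1 ≠ 0)
    (hind : (∀ x y : K, x • y1 + y • y2 = 0 → x = 0 ∧ y = 0) ∨
      (y2 = 0 ∧ finrank K (P.Mov k) = 1)) :
    ∃ t1 t2, Adm P k (P.T k) t1 t2 ∧ P.e k (P.dL k t1) = y1 ∧ P.e k (P.dL k t2) = y2 ∧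
      ∀ φ₁ φ₂ : (ℕ → A) →ₗ[K] K, (∀ c ∈ St.II P k, φ₁ c = 0) → (∀ c ∈ St.II P k, φ₂ c = 0) →
        ∃ t' ∈ P.T (k + 1), ∀ c ∈ P.KK k, P.PP k c t1 t' = φ₁ c ∧ P.PP k c t2 t' = φ₂ c := by
  classical
  have hS := hV.TT_S k le_rfl
  let Pf := P.PFormN k (IIT P k (P.T k)) (P.T k) (IIT_vanish P le_rfl)
  let pr := piK P k
  let U : Submodule K (P.T k) := (Inn P).comap (P.T k).subtype
  have hUf : finrank K U = finrank K ↥(P.T k ⊓ Inn P) := finrank_comap_Inn P (P.T k)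
  have hq : finrank K (MMT P k (P.T k)) ≤ qS R k := finrank_MMT_le P hV
  have hd : finrank K (P.T k) - finrank K (LinearMap.ker pr) = finrank K (P.Mov k) :=
    finrank_sub_ker_piK P k
  have hbig := hV.TT_big
  have hr : ∀ v : MMT P k (P.T k), v ≠ 0 → 3 * finrank K (MMT P k (P.T k)) +
      2 * (finrank K (P.T k) - finrank K (LinearMap.ker pr)) ≤
      finrank K (LinearMap.range (Pf v)) := by
    intro v hv
    obtain ⟨⟨c, hc⟩, rfl⟩ := Submodule.Quotient.mk_surjective _ v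
    have hc0 : c ∉ St.II P k := fun h => hv (P.mkMN_eq_zero_iff.2 (by rwa [IIT_self]))
    have h1 := hrk c hc hc0
    have h2 : finrank K (LinearMap.range (Pf (P.mkMN k (IIT P k (P.T k)) ⟨c, hc⟩))) =
        rkOn P k c (P.T k) := finrank_range_PFormN_mk P k ⟨c, hc⟩
    have h4 : finrank K (LinearMap.range (Pf (Submodule.Quotient.mk (⟨c, hc⟩ : P.KK k)))) =
        rkOn P k c (P.T k) := h2
    rw [h4, hd]
    omega
  obtain ⟨t01, ht01, rfl⟩ := P.mem_Mov.1 hy1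
  obtain ⟨t02, ht02, rfl⟩ := P.mem_Mov.1 hy2
  have hpr1 : pr ⟨t01, ht01⟩ ≠ 0 := hy10
  have h2 : pr ⟨t02, ht02⟩ ≠ 0 ∨ (pr ⟨t02, ht02⟩ = 0 ∧ finrank K U +
      finrank K (MMT P k (P.T k)) +
      (finrank K (P.T k) - finrank K (LinearMap.ker pr)) < finrank K (P.T k)) := by
    rcases hind with hind | ⟨h0, h1⟩
    · left
      intro h0
      have h0' : P.e k (P.dL k t02) = 0 := h0
      have := (hind 0 1 (by rw [h0']; simp)).2
      exact one_ne_zero this
    · right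
      refine ⟨h0, ?_⟩
      rw [hd, h1]
      omega
  obtain ⟨t1, t2, h1p, h2p, hT0, hU, hsurj⟩ := exists_pair_presc Pf pr U hr hpr1 h2
  have hsurj' : ∀ φ₁ φ₂ : (ℕ → A) →ₗ[K] K, (∀ c ∈ St.II P k, φ₁ c = 0) →
      (∀ c ∈ St.II P k, φ₂ c = 0) →
      ∃ t' ∈ P.T (k + 1), ∀ c ∈ P.KK k, P.PP k c t1 t' = φ₁ c ∧ P.PP k c t2 t' = φ₂ c := by
    intro φ₁ φ₂ h1 h2
    have h1' : ∀ c ∈ IIT P k (P.T k), φ₁ c = 0 := fun c hc => h1 c (by rwa [IIT_self] at hc)
    have h2' : ∀ c ∈ IIT P k (P.T k), φ₂ c = 0 := fun c hc => h2 c (by rwa [IIT_self] at hc)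
    let f₁ : Dual K (MMT P k (P.T k)) :=
      Submodule.liftQ _ (φ₁ ∘ₗ (P.KK k).subtype) (fun c hc => h1' _ hc)
    let f₂ : Dual K (MMT P k (P.T k)) :=
      Submodule.liftQ _ (φ₂ ∘ₗ (P.KK k).subtype) (fun c hc => h2' _ hc)
    obtain ⟨τ, hτ, h3, h4⟩ := hsurj f₁ f₂
    refine ⟨τ, mem_T_succ_of_ker P hτ, fun c hc => ⟨?_, ?_⟩⟩
    · have := LinearMap.congr_fun h3 (P.mkMN k (IIT P k (P.T k)) ⟨c, hc⟩)
      exact this
    · have := LinearMap.congr_fun h4 (P.mkMN k (IIT P k (P.T k)) ⟨c, hc⟩)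
      exact this
  have hpr : ∀ x y : K, x • (t1 : Fin 2 → A) + y • (t2 : Fin 2 → A) ∈ Inn P →
      x • P.e k (P.dL k t01) + y • P.e k (P.dL k t02) = 0 := by
    intro x y hxy
    have h3 := e_dL_of_mem_Inn P (k := k) hxy
    rw [map_add, map_add, map_smul, map_smul, map_smul, map_smul] at h3
    have h4 : P.e k (P.dL k t1) = P.e k (P.dL k t01) := h1p
    have h5 : P.e k (P.dL k t2) = P.e k (P.dL k t02) := h2p
    rwa [h4, h5] at h3
  refine ⟨t1, t2, ⟨t1.2, t2.2, hS _ t1.2, hS _ t2.2, ?_, ?_, ?_⟩, h1p, h2p, hsurj'⟩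
  · exact P.mem_T0_PFormN.1 hT0
  · intro φ₁ φ₂ h1 h2
    obtain ⟨t', ht', h⟩ := hsurj' φ₁ φ₂ (fun c hc => h1 c (by rwa [IIT_self])) 
      (fun c hc => h2 c (by rwa [IIT_self]))
    exact ⟨t', P.T_anti (Nat.le_succ k) ht', h⟩
  · intro x y hxy
    have h3 := hpr x y hxy
    rcases hind with hind | ⟨h0, -⟩
    · exact hind x y h3
    · rw [h0, smul_zero, add_zero, smul_eq_zero] at h3
      have hx : x = 0 := h3.resolve_right hy10
      refine ⟨hx, ?_⟩
      by_contra hy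
      apply hU h0
      show (t2 : Fin 2 → A) ∈ Inn P
      rw [hx, zero_smul, zero_add] at hxy
      have e : (t2 : Fin 2 → A) = y⁻¹ • (y • (t2 : Fin 2 → A)) := by
        rw [smul_smul, inv_mul_cancel₀ hy, one_smul]
      rw [e]
      exact Submodule.smul_mem _ _ hxy

omit [FiniteDimensional K A] in
/-- (B3) `T0(t1) ∩ T0(t2)` maps onto `Mov_k`, given the joint surjectivity on `T(k+1)`. -/
theorem exists_T0_presc {k : ℕ} {t1 t2 : Fin 2 → A} (ht1 : t1 ∈ P.T k) (ht2 : t2 ∈ P.T k)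
    (hs : ∀ φ₁ φ₂ : (ℕ → A) →ₗ[K] K, (∀ c ∈ St.II P k, φ₁ c = 0) → (∀ c ∈ St.II P k, φ₂ c = 0) →
      ∃ t' ∈ P.T (k + 1), ∀ c ∈ P.KK k, P.PP k c t1 t' = φ₁ c ∧ P.PP k c t2 t' = φ₂ c)
    {z : A} (hz : z ∈ P.Mov k) :
    ∃ τ ∈ P.T k, P.e k (P.dL k τ) = z ∧ ∀ c ∈ P.KK k, P.PP k c t1 τ = 0 ∧ P.PP k c t2 τ = 0 := by
  classical
  obtain ⟨τ₀, hτ₀, rfl⟩ := P.mem_Mov.1 hz
  let g : (Fin 2 → A) → (P.KK k →ₗ[K] K) := fun t =>
    ((P.PPtri k).flip t).flip τ₀ ∘ₗ (P.KK k).subtype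
  obtain ⟨φ₁, hφ₁⟩ := LinearMap.exists_extend (g t1)
  obtain ⟨φ₂, hφ₂⟩ := LinearMap.exists_extend (g t2)
  have hφ₁' : ∀ c (hc : c ∈ P.KK k), φ₁ c = P.PP k c t1 τ₀ := fun c hc =>
    LinearMap.congr_fun hφ₁ ⟨c, hc⟩
  have hφ₂' : ∀ c (hc : c ∈ P.KK k), φ₂ c = P.PP k c t2 τ₀ := fun c hc =>
    LinearMap.congr_fun hφ₂ ⟨c, hc⟩
  obtain ⟨t', ht', h⟩ := hs φ₁ φ₂
    (fun c hc => by rw [hφ₁' c hc.1]; exact hc.2 _ ht1 _ hτ₀)
    (fun c hc => by rw [hφ₂' c hc.1]; exact hc.2 _ ht2 _ hτ₀)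
  have hT : P.T (k + 1) ≤ P.T k := P.T_anti (Nat.le_succ k)
  refine ⟨τ₀ - t', sub_mem hτ₀ (hT ht'), ?_, fun c hc => ?_⟩
  · have h1 : P.e k (P.dL k t') = 0 := ht' k (Nat.lt_succ_self k)
    rw [map_sub, map_sub, h1, sub_zero]
  · have e1 : ∀ t, P.PP k c t (τ₀ - t') = P.PP k c t τ₀ - P.PP k c t t' := fun t => by
      have := (P.PPtri k c t).map_sub τ₀ t'
      simpa using this
    obtain ⟨h1, h2⟩ := h c hc
    rw [e1, e1, h1, h2, hφ₁' c hc, hφ₂' c hc]
    simp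

omit [FiniteDimensional K A] in
/-- (B4) A rank bound for the forms of the top components gives it for all nonzero classes. -/
theorem rank_of_top {k : ℕ} (hV : Valid P N R Q k k S (P.T k)) {M : ℕ}
    (h : ∀ u < k, ∀ c ∈ P.KK (u + 1), c u ∉ PPl P S u → M ≤ rkOn P k c (P.T k)) :
    ∀ c ∈ P.KK k, c ∉ St.II P k → M ≤ rkOn P k c (P.T k) := by
  intro c hc hc0
  obtain ⟨u, hu, c', hc1, hc2, hc3⟩ := exists_top P hV le_rfl c hc (by rwa [IIT_self])
  have h5 := h u hu c' hc1 hc3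
  have hc'k : c' ∈ P.KK k := P.KK_mono (by omega) hc1
  have e : (PPb P k c').domRestrict₁₂ (P.T k) (P.T k) =
      (PPb P k c).domRestrict₁₂ (P.T k) (P.T k) := by
    ext t t'
    simp only [LinearMap.domRestrict₁₂_apply, PPb_apply]
    have h6 := hc2.2 t t.2 t' t'.2
    have h7 := P.PP_add_c k (c - c') c' t t'
    rw [sub_add_cancel] at h7
    rw [h7, h6, zero_add]
  unfold rkOn at h5 ⊢
  rwa [e] at h5

end Abstract

end Crest.Agent.Kurosh.ExploreLin
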