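/-
S0270 (Kurosh), §K (helper72): the optimal sets of the class of an entry.

`InA2`: the second optimal set `𝖠2`: a class state with a nonzero move, `n_k deg β = N`, `σ_k dim 𝔏 = N`.
`exists_A2`: if some class state has a nonzero move, `𝖠2` is not empty.
`A2_step`: a fresh level-up of a state in `𝖠2` by an admissible pair with `Π t1 ≠ 0` stays in `𝖠2`.
-/
import Crest.Agent.Kurosh.ExLead7
import Crest.Agent.Kurosh.ExploreLin
import Crest.Agent.Kurosh.ExploreOpt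

set_option autoImplicit false
set_option linter.unusedSectionVars false

namespace Crest.Agent.Kurosh.Explore

open Hensel State Module LU LU.Tw0 LU.Tw Plan
open _root_.Crest.Agent.Kurosh.Inv
open _root_.Crest.Agent.Kurosh.Inv.St

variable [Tw0] [Tw] {F : Subfield U} [CentF F]

section Facts

variable {Ls : Lst F} {k : ℕ} {Z₀ : Σ n, Stt n} {n' : ℕ} [Fact (F ≤ Kn n')] {Z : Stt n'}

namespace InC

variable (h : InC Ls k Z₀ n' Z)
include h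

lemma h1 : (pt F n' Z Ls.a).τ 1 = 1 := by
  obtain ⟨S, hS⟩ := h.valid
  exact hS.one

lemma mov_le : (pt F n' Z Ls.a).Mov k ≤
    Subalgebra.toSubmodule (Algebra.adjoin (Kn n') {(pt F n' Z Ls.a).β k}) :=
  Mov_le_adjoin _ h.h1 h.smooth

lemma hC : ∀ a : An n', (∀ x, a * x = x * a) → ∃ c : Kn n', a = algebraMap (Kn n') (An n') c := by
  obtain ⟨S, hS⟩ := h.valid
  exact fun a ha => hS.comm a fun v => ha _

lemma deg_dvd : finrank (Kn n') (Algebra.adjoin (Kn n') {(pt F n' Z Ls.a).β k}) ∣ N n' :=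
  DoubleCent.finrank_dvd_of_sq h.hC _ (ExLead.E_comm (K := Kn n')) (finrank_eq n')

lemma ly_le {y : An n'} (hy : y ∈ (pt F n' Z Ls.a).Mov k) :
    Ly (pt F n' Z Ls.a) k y ≤ Algebra.adjoin (Kn n') {(pt F n' Z Ls.a).β k} := by
  rw [Ly_eq_adjoin _ h.h1 h.mov_le hy]
  refine Algebra.adjoin_le ?_
  rintro _ ⟨x, hx, rfl⟩
  exact mul_mem (inv_mem_sub _ (h.mov_le hy)) (h.mov_le hx)

lemma ly_dvd {y : An n'} (hy : y ∈ (pt F n' Z Ls.a).Mov k) :
    finrank (Kn n') (Ly (pt F n' Z Ls.a) k y) ∣ N n' :=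
  DoubleCent.finrank_dvd_of_sq h.hC _
    (fun a ha b hb => ExLead.E_comm (K := Kn n') _ (h.ly_le hy ha) _ (h.ly_le hy hb)) (finrank_eq n')

end InC

end Facts

/-- The second optimal set `𝖠2` of the class. -/
structure InA2 (Ls : Lst F) (k : ℕ) (Z₀ : Σ n, Stt n) (n' : ℕ) [Fact (F ≤ Kn n')] (Z : Stt n') :
    Prop where
  inC : InC Ls k Z₀ n' Z
  ne : (pt F n' Z Ls.a).Mov k ≠ ⊥
  deg : minN Ls k Z₀ * finrank (Kn n') (Algebra.adjoin (Kn n') {(pt F n' Z Ls.a).β k}) = N n'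
  ly : ∀ y ∈ (pt F n' Z Ls.a).Mov k, y ≠ 0 →
    minS Ls k Z₀ * finrank (Kn n') (Ly (pt F n' Z Ls.a) k y) = N n'

/-- Case B: `𝖠2` is not empty. -/
theorem exists_A2 {Ls : Lst F} {k : ℕ} {Z₀ : Σ n, Stt n}
    (h : ∃ (n' : ℕ) (_ : Fact (F ≤ Kn n')) (Z : Stt n'), InC Ls k Z₀ n' Z ∧
      (pt F n' Z Ls.a).Mov k ≠ ⊥) :
    ∃ (n' : ℕ) (_ : Fact (F ≤ Kn n')) (Z : Stt n'), InA2 Ls k Z₀ n' Z := by
  classical
  obtain ⟨n0, hn0, Z0', hZ0', hne⟩ := h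
  obtain ⟨y0, hy0, hy00⟩ := Submodule.exists_mem_ne_zero_of_ne_bot hne
  -- the first minimum
  have h1 := Nat.sInf_mem (s := {a | ∃ (n' : ℕ) (_ : Fact (F ≤ Kn n')) (Z : Stt n') (y : An n'),
    InC Ls k Z₀ n' Z ∧ y ∈ (pt F n' Z Ls.a).Mov k ∧ y ≠ 0 ∧
    a = N n' / finrank (Kn n') (Algebra.adjoin (Kn n') {(pt F n' Z Ls.a).β k})})
    ⟨_, n0, hn0, Z0', y0, hZ0', hy0, hy00, rfl⟩
  obtain ⟨n1, hn1, Z1, y1, hZ1, hy1, hy10, e1⟩ := h1
  have h2 : minN Ls k Z₀ * finrank (Kn n1) (Algebra.adjoin (Kn n1) {(pt F n1 Z1 Ls.a).β k}) = N n1 := by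
    show sInf _ * _ = _
    rw [e1]
    exact Nat.div_mul_cancel hZ1.deg_dvd
  -- the second minimum
  have h3 := Nat.sInf_mem (s := {a | ∃ (n' : ℕ) (_ : Fact (F ≤ Kn n')) (Z : Stt n') (y : An n'),
    InC Ls k Z₀ n' Z ∧ y ∈ (pt F n' Z Ls.a).Mov k ∧ y ≠ 0 ∧
    minN Ls k Z₀ * finrank (Kn n') (Algebra.adjoin (Kn n') {(pt F n' Z Ls.a).β k}) = N n' ∧
    a = N n' / finrank (Kn n') (Ly (pt F n' Z Ls.a) k y)})
    ⟨_, n1, hn1, Z1, y1, hZ1, hy1, hy10, h2, rfl⟩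
  obtain ⟨n2, hn2, Z2, y2, hZ2, hy2, hy20, h4, e2⟩ := h3
  refine ⟨n2, hn2, Z2, hZ2, ?_, h4, ?_⟩
  · intro hbot
    rw [hbot, Submodule.mem_bot] at hy2
    exact hy20 hy2
  · intro y hy hy0'
    rw [Ly_indep _ hZ2.h1 hZ2.mov_le hy hy2 hy0' hy20]
    show sInf _ * _ = _
    rw [e2]
    exact Nat.div_mul_cancel (hZ2.ly_dvd hy2)

lemma upStep_of_lead {m : ℕ} {ρ : Stt m} {X : Stt (m + 1)} {t1 t2 : Fin 2 → An m}
    (h : ∀ v, X v - ((lv m).lev.inc (ρ v) + (lv m).lev.mono (t1 v) 0 1 +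
      (lv m).lev.mono (t2 v) (lv m).lev.μ₁ 1) ∈ (lv m).lev.Φ.fil 2) (v : Fin 2) :
    X v - (lv m).lev.inc (ρ v) ∈ (lv m).lev.Φ.fil 1 := by
  have e : X v - (lv m).lev.inc (ρ v) = (X v - ((lv m).lev.inc (ρ v) + (lv m).lev.mono (t1 v) 0 1 +
      (lv m).lev.mono (t2 v) (lv m).lev.μ₁ 1)) + (lv m).lev.mono (t1 v) 0 1 +
      (lv m).lev.mono (t2 v) (lv m).lev.μ₁ 1 := by abel
  rw [e]
  exact add_mem (add_mem ((lv m).lev.Φ.anti (by omega) (h v)) ((lv m).lev.mono_mem _ _ _))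
    ((lv m).lev.mono_mem _ _ _)

/-- The output of a step inside `𝖠2`. -/
structure StepOut (Ls : Lst F) (k : ℕ) (Z₀ : Σ n, Stt n) (n' : ℕ) [Fact (F ≤ Kn n')] (Z : Stt n')
    (t1 t2 : Fin 2 → An n') (X : Stt (n' + 1)) (g : ℕ → An (n' + 1))
    (S' : ℕ → Set (An (n' + 1))) : Prop where
  sol : ∀ J, (lv n').lev.PSol (pt F n' Z Ls.a) k J t1 t2 X g
  fresh : Fresh F Ls n' Z k t1 t2 ((pt F n' Z Ls.a).T k) X ((pt F (n' + 1) X Ls.a).T k)
  valid : Valid (pt F (n' + 1) X Ls.a) (N (n' + 1)) Ls.R Ls.Q k k S' ((pt F (n' + 1) X Ls.a).T k)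
  smooth : Smooth (pt F (n' + 1) X Ls.a) k
  lead : LeadOut Ls n' Z k t1 t2 X
  a2 : InA2 Ls k Z₀ (n' + 1) X
  deg_eq : finrank (Kn (n' + 1)) (Algebra.adjoin (Kn (n' + 1)) {(pt F (n' + 1) X Ls.a).β k}) =
    (lv n').m * finrank (Kn n') (Algebra.adjoin (Kn n') {(pt F n' Z Ls.a).β k})
  up : UpStep ⟨n', Z⟩ ⟨n' + 1, X⟩

/-- The clauses of `Val` at the fresh level-up. -/
structure ValOut (Ls : Lst F) (k : ℕ) (n' : ℕ) [Fact (F ≤ Kn n')] (Z : Stt n') (X : Stt (n' + 1))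
    (S0 : ℕ → Set (An n')) (S' : ℕ → Set (An (n' + 1))) : Prop where
  ppl : ∀ u < k, (lv n').m ^ 2 * finrank (Kn n') (PPl (pt F n' Z Ls.a) S0 u) ≤
    finrank (Kn (n' + 1)) (PPl (pt F (n' + 1) X Ls.a) S' u)
  rank : ∀ u < k, ∀ c ∈ (pt F (n' + 1) X Ls.a).KK (u + 1), c u ∉ PPl (pt F (n' + 1) X Ls.a) S' u →
    (lv n').m ^ 2 * qS Ls.R k ≤ rkOn (pt F (n' + 1) X Ls.a) k c ((pt F (n' + 1) X Ls.a).T k)
  tight : ∀ u < k, finrank (Kn (n' + 1)) (RR (pt F (n' + 1) X Ls.a) S' u) =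
    finrank (Kn (n' + 1)) ((pt F (n' + 1) X Ls.a).Mov u) + (Ls.R u).q

/-- **A step inside `𝖠2`.** -/
theorem A2_step (hS : AllS) (hF : FreshS) {Ls : Lst F} {k : ℕ} {Z₀ : Σ n, Stt n}
    (hZ0 : ∀ u < k, Above (Ls.Z0 u) Z₀) (hO : ∀ u < k, Opt F Ls u) {n' : ℕ} [Fact (F ≤ Kn n')]
    {Z : Stt n'} (h : InA2 Ls k Z₀ n' Z) {S0 : ℕ → Set (An n')}
    (hV0 : Valid (pt F n' Z Ls.a) (N n') Ls.R Ls.Q k k S0 ((pt F n' Z Ls.a).T k))
    {t1 t2 : Fin 2 → An n'} (hA : Adm (pt F n' Z Ls.a) k ((pt F n' Z Ls.a).T k) t1 t2)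
    (hy : (pt F n' Z Ls.a).e k ((pt F n' Z Ls.a).dL k t1) ≠ 0) :
    ∃ (X : Stt (n' + 1)) (g : ℕ → An (n' + 1)) (S' : ℕ → Set (An (n' + 1))),
      StepOut Ls k Z₀ n' Z t1 t2 X g S' ∧ ValOut Ls k n' Z X S0 S' := by
  have hCtx : Ctx F Ls n' Z k k S0 ((pt F n' Z Ls.a).T k) :=
    ⟨hV0, fun u hu => (hZ0 u hu).trans h.inC.above, hO⟩
  obtain ⟨hO', hVal⟩ := hS F k
  obtain ⟨X, g, TTX, hP, hFr⟩ := fresh_step hF Ls n' Z k k S0 _ _ hCtx t1 t2 hA le_rfl le_rfl hO'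
  obtain ⟨S', hV', hPP, hR, hTi, hlast⟩ := hVal k le_rfl Ls n' Z k S0 _ _ hCtx t1 t2 hA le_rfl le_rfl
    X g TTX hP hFr
  obtain ⟨hSm, rfl⟩ := hlast rfl rfl
  have LO := lead_out F Ls n' Z k S0 hV0 h.inC.smooth t1 t2 hA hy X g hP hFr hSm
  have hup : UpStep ⟨n', Z⟩ ⟨n' + 1, X⟩ := UpStep.mk n' Z X (upStep_of_lead (hP 0).leadX)
  have hC' : InC Ls k Z₀ (n' + 1) X := ⟨h.inC.above.tail hup, ⟨S', hV'⟩, hSm⟩
  have hne := LO.mov_ne h.ne
  obtain ⟨y', hy', hy'0⟩ := Submodule.exists_mem_ne_zero_of_ne_bot hne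
  have hCB := cb_of_class hC'
  have hNs : N (n' + 1) = N n' * (lv n').m := N_succ n'
  have hpos : 0 < minN Ls k Z₀ := by
    have h0 := N_pos n'
    rw [← h.deg] at h0
    exact Nat.pos_of_mul_pos_right h0 |> fun h => h
  have hd1 : minN Ls k Z₀ * finrank (Kn (n' + 1))
      (Algebra.adjoin (Kn (n' + 1)) {(pt F (n' + 1) X Ls.a).β k}) ≤ N (n' + 1) := by
    have := (hCB y' hy' hy'0).1
    rwa [Function.update_self] at this
  have hdeg : finrank (Kn (n' + 1)) (Algebra.adjoin (Kn (n' + 1)) {(pt F (n' + 1) X Ls.a).β k}) =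
      (lv n').m * finrank (Kn n') (Algebra.adjoin (Kn n') {(pt F n' Z Ls.a).β k}) := by
    refine le_antisymm ?_ LO.deg_ge
    refine Nat.le_of_mul_le_mul_left ?_ hpos
    calc _ ≤ N (n' + 1) := hd1
      _ = _ := by
        rw [hNs, ← h.deg]
        ring
  have hdN : minN Ls k Z₀ * finrank (Kn (n' + 1))
      (Algebra.adjoin (Kn (n' + 1)) {(pt F (n' + 1) X Ls.a).β k}) = N (n' + 1) := by
    rw [hdeg, hNs, ← h.deg]
    ring
  refine ⟨X, g, S', ⟨hP, hFr, hV', hSm, LO, ⟨hC', hne, hdN, ?_⟩, hdeg, hup⟩, ⟨hPP, hR, hTi⟩⟩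
  intro y'' hy'' hy''0
  obtain ⟨y, hyM, hy0⟩ := Submodule.exists_mem_ne_zero_of_ne_bot h.ne
  have h1 := LO.ly_ge hdeg.le y hyM hy0 y'' hy'' hy''0
  have h2 := (hCB y'' hy'' hy''0).2
  rw [Function.update_self] at h2
  have h3 := (h2 hdN).1
  have h4 := h.ly y hyM hy0
  refine le_antisymm h3 ?_
  rw [hNs, ← h4]
  calc minS Ls k Z₀ * finrank (Kn n') (Ly (pt F n' Z Ls.a) k y) * (lv n').m
      = minS Ls k Z₀ * ((lv n').m * finrank (Kn n') (Ly (pt F n' Z Ls.a) k y)) := by ring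
    _ ≤ _ := Nat.mul_le_mul_left _ h1

/-! ### The rank half of `RC` -/

section RankHalf

variable {F₀ K A : Type*} [Field F₀] [Field K] [DivisionRing A] [Algebra F₀ K] [Algebra K A]
  [Algebra F₀ A] [IsScalarTower F₀ K A] [FiniteDimensional K A] [CharZero K]
  {P : Pt F₀ K A (Fin 2)} {N₀ : ℕ} {R : ℕ → Rec} {Q : ℕ → Polynomial F₀} {k : ℕ} {S : ℕ → Set A}

/-- The rank half of `RC`, from a rank bound for the top components. -/
theorem rc_rank_of (hV : Valid P N₀ R Q k k S (P.T k)) {M : ℕ}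
    (hR : ∀ u < k, ∀ c ∈ P.KK (u + 1), c u ∉ PPl P S u → M * qS R k ≤ rkOn P k c (P.T k))
    (hb : 5 * qS R k + 2 * finrank K (P.Mov k) + 2 ≤ M) :
    ∀ c ∈ P.KK k, c ∉ II P k → 5 * qS R k + 2 * finrank K (P.Mov k) + 2 ≤ rkOn P k c (P.T k) := by
  by_cases hq : qS R k = 0
  · intro c hc hc0
    exfalso
    have h1 := AdmExist.finrank_MMT_le P hV
    rw [hq] at h1
    have h2 : finrank K (AdmExist.MMT P k (P.T k)) = 0 := by omega
    have h3 : Subsingleton (AdmExist.MMT P k (P.T k)) := Module.finrank_zero_iff.1 h2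
    have h4 := h3.elim (P.mkMN k (IIT P k (P.T k)) ⟨c, hc⟩) 0
    exact hc0 ((AdmExist.IIT_self P k) ▸ P.mkMN_eq_zero_iff.1 h4)
  · refine ExploreLin.rank_of_top P hV fun u hu c hc hc' => le_trans ?_ (hR u hu c hc hc')
    calc _ ≤ M := hb
      _ ≤ M * qS R k := Nat.le_mul_of_pos_right _ (Nat.pos_of_ne_zero hq)

end RankHalf

lemma arith_rank {m N₀ q d : ℕ} (hm : 100 * N₀ ^ 2 + 100 ≤ m) (hq : q ≤ N₀ ^ 2) (hd : d ≤ m * N₀) :
    5 * q + 2 * d + 2 ≤ m ^ 2 := by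
  have h1 : 2 * N₀ ≤ N₀ ^ 2 + 1 := by nlinarith [sq_nonneg ((N₀ : ℤ) - 1), sq_abs ((N₀ : ℤ) - 1)]
  nlinarith [Nat.mul_le_mul_left m h1, Nat.mul_le_mul_left m hm]

section Class

variable {Ls : Lst F} {k : ℕ} {Z₀ : Σ n, Stt n} {n' : ℕ} [Fact (F ≤ Kn n')] {Z : Stt n'}

/-- `dim Mov_k(X) ≤ m N` at a fresh level-up. -/
lemma finrank_mov_le {t1 t2 : Fin 2 → An n'} {X : Stt (n' + 1)} {g : ℕ → An (n' + 1)}
    {S' : ℕ → Set (An (n' + 1))} (h : InA2 Ls k Z₀ n' Z) (hO : StepOut Ls k Z₀ n' Z t1 t2 X g S') :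
    finrank (Kn (n' + 1)) ((pt F (n' + 1) X Ls.a).Mov k) ≤ (lv n').m * N n' := by
  have h1 := hO.a2.inC.mov_le
  have h2 := Submodule.finrank_mono h1
  have h3 : finrank (Kn (n' + 1)) (Subalgebra.toSubmodule
      (Algebra.adjoin (Kn (n' + 1)) {(pt F (n' + 1) X Ls.a).β k})) =
      finrank (Kn (n' + 1)) (Algebra.adjoin (Kn (n' + 1)) {(pt F (n' + 1) X Ls.a).β k}) := rfl
  rw [h3, hO.deg_eq] at h2
  refine h2.trans (Nat.mul_le_mul_left _ ?_)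
  exact Nat.le_of_dvd (N_pos n') h.inC.deg_dvd

/-- The rank half of `RC` at a fresh level-up. -/
theorem rc_rank_step {t1 t2 : Fin 2 → An n'} {X : Stt (n' + 1)} {g : ℕ → An (n' + 1)}
    {S0 : ℕ → Set (An n')} {S' : ℕ → Set (An (n' + 1))} (h : InA2 Ls k Z₀ n' Z)
    (hV0 : Valid (pt F n' Z Ls.a) (N n') Ls.R Ls.Q k k S0 ((pt F n' Z Ls.a).T k))
    (hO : StepOut Ls k Z₀ n' Z t1 t2 X g S') (hO' : ValOut Ls k n' Z X S0 S') :
    ∀ c ∈ (pt F (n' + 1) X Ls.a).KK k, c ∉ II (pt F (n' + 1) X Ls.a) k →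
      5 * qS Ls.R k + 2 * finrank (Kn (n' + 1)) ((pt F (n' + 1) X Ls.a).Mov k) + 2 ≤
        rkOn (pt F (n' + 1) X Ls.a) k c ((pt F (n' + 1) X Ls.a).T k) :=
  rc_rank_of hO.valid (M := (lv n').m ^ 2) hO'.rank
    (arith_rank (m_big n') hV0.qbd (finrank_mov_le h hO))

/-- **BLIND**: a state of `𝖠2` with the rank half of `RC`. -/
theorem blind (hS : AllS) (hF : FreshS) (hZ0 : ∀ u < k, Above (Ls.Z0 u) Z₀)
    (hO : ∀ u < k, Opt F Ls u) (h : InA2 Ls k Z₀ n' Z) :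
    ∃ (X : Stt (n' + 1)) (S' : ℕ → Set (An (n' + 1))), InA2 Ls k Z₀ (n' + 1) X ∧
      Valid (pt F (n' + 1) X Ls.a) (N (n' + 1)) Ls.R Ls.Q k k S' ((pt F (n' + 1) X Ls.a).T k) ∧
      ∀ c ∈ (pt F (n' + 1) X Ls.a).KK k, c ∉ II (pt F (n' + 1) X Ls.a) k →
        5 * qS Ls.R k + 2 * finrank (Kn (n' + 1)) ((pt F (n' + 1) X Ls.a).Mov k) + 2 ≤
          rkOn (pt F (n' + 1) X Ls.a) k c ((pt F (n' + 1) X Ls.a).T k) := by
  obtain ⟨S0, hV0⟩ := h.inC.valid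
  obtain ⟨t1, t2, hA, hy⟩ := ExploreLin.exists_adm_ne _ hV0 h.ne
  obtain ⟨X, g, S', hOut, hVO⟩ := A2_step hS hF hZ0 hO h hV0 hA hy
  exact ⟨X, S', hOut.a2, hOut.valid, rc_rank_step h hV0 hOut hVO⟩

end Class

/-! ### Powers of a generator -/

section Powers

open Polynomial

variable {K A : Type*} [Field K] [DivisionRing A] [Algebra K A] [FiniteDimensional K A]

lemma natDegree_le_finrank_adjoin (x : A) :
    (minpoly K x).natDegree ≤ finrank K (Algebra.adjoin K ({x} : Set A)) := by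
  classical
  have hli := linearIndependent_pow (K := K) x
  let f : Fin (minpoly K x).natDegree → Algebra.adjoin K ({x} : Set A) := fun i =>
    ⟨x ^ (i : ℕ), pow_mem (Algebra.subset_adjoin (Set.mem_singleton x)) _⟩
  have hf : LinearIndependent K f := by
    have h2 : (Algebra.adjoin K ({x} : Set A)).val.toLinearMap ∘ f =
        fun i : Fin (minpoly K x).natDegree => x ^ (i : ℕ) := rfl
    rw [← h2] at hli
    exact hli.of_comp _
  have := hf.fintype_card_le_finrank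
  simpa using this

/-- If `y x^a ∈ W` for all powers below the degree then `y K[x] ⊂ W`. -/
lemma mul_aeval_mem {x y : A} {W : Submodule K A}
    (h : ∀ a, a < finrank K (Algebra.adjoin K ({x} : Set A)) → y * x ^ a ∈ W) (f : K[X]) :
    y * aeval x f ∈ W := by
  classical
  have hi : IsIntegral K x := IsIntegral.of_finite K x
  have hmon := minpoly.monic hi
  have hroot := minpoly.aeval K x
  rw [← Polynomial.aeval_modByMonic_eq_self_of_root (p := f) hroot]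
  have hdeg : (f %ₘ minpoly K x).natDegree < (minpoly K x).natDegree :=
    Polynomial.natDegree_modByMonic_lt _ hmon (minpoly.ne_one K x)
  rw [(f %ₘ minpoly K x).as_sum_range' _ hdeg, map_sum, Finset.mul_sum]
  refine sum_mem fun a ha => ?_
  rw [aeval_monomial, ← Algebra.smul_def, mul_smul_comm]
  exact W.smul_mem _ (h a ((Finset.mem_range.1 ha).trans_le (natDegree_le_finrank_adjoin x)))

/-- The dimension of a subspace containing `y x^a`, `a < deg x`. -/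
lemma finrank_le_of_pow {x y : A} (hy : y ≠ 0) {W : Submodule K A}
    (h : ∀ a, a < finrank K (Algebra.adjoin K ({x} : Set A)) → y * x ^ a ∈ W) :
    finrank K (Algebra.adjoin K ({x} : Set A)) ≤ finrank K W := by
  have hinj : Function.Injective (LinearMap.mulLeft K y) := fun a b hab =>
    mul_left_cancel₀ hy hab
  have e := (Submodule.equivMapOfInjective _ hinj
    (Subalgebra.toSubmodule (Algebra.adjoin K ({x} : Set A)))).finrank_eq
  have e' : finrank K (Subalgebra.toSubmodule (Algebra.adjoin K ({x} : Set A))) =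
      finrank K (Algebra.adjoin K ({x} : Set A)) := rfl
  rw [← e', e]
  refine Submodule.finrank_mono ?_
  rintro _ ⟨z, hz, rfl⟩
  obtain ⟨f, rfl⟩ := ExLead.mem_EE.1 (show z ∈ ExLead.EE K x from hz)
  exact mul_aeval_mem h f

end Powers

lemma arith_boost {m l d : ℕ} (hl : 1 ≤ l) (h3 : 3 * l < m) (hd : (m - l) * l ≤ d) :
    3 * (m * l - d) < m * l := by
  obtain ⟨e, rfl⟩ : ∃ e, m = l + e := ⟨m - l, by omega⟩
  have h1 : (l + e - l) * l = e * l := by rw [Nat.add_sub_cancel_left]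
  rw [h1] at hd
  have h2 : (l + e) * l - d ≤ l * l := by
    have : (l + e) * l = l * l + e * l := by ring
    omega
  have h4 : 3 * (l * l) < (l + e) * l := by nlinarith
  omega

section Gen

variable {Ls : Lst F} {k : ℕ} {Z₀ : Σ n, Stt n} {n' : ℕ} [Fact (F ≤ Kn n')] {Z : Stt n'}

lemma Ly_le_bot_of_one {y : An n'} (h : InC Ls k Z₀ n' Z) (hy : y ∈ (pt F n' Z Ls.a).Mov k)
    (hy0 : y ≠ 0) (hd : finrank (Kn n') ((pt F n' Z Ls.a).Mov k) = 1) :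
    Ly (pt F n' Z Ls.a) k y ≤ ⊥ := by
  rw [Ly_eq_adjoin _ h.h1 h.mov_le hy]
  refine Algebra.adjoin_le ?_
  rintro _ ⟨x, hx, rfl⟩
  have hy' : (⟨y, hy⟩ : (pt F n' Z Ls.a).Mov k) ≠ 0 := fun h0 => hy0 (congrArg Subtype.val h0)
  obtain ⟨c, hc⟩ := (finrank_eq_one_iff_of_nonzero' _ hy').1 hd ⟨x, hx⟩
  have hc' : c • y = x := congrArg Subtype.val hc
  show y⁻¹ * x ∈ (⊥ : Subalgebra (Kn n') (An n'))
  rw [← hc', mul_smul_comm, inv_mul_cancel₀ hy0]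
  exact Subalgebra.smul_mem _ (one_mem _) _

/-- The choice of the second direction for the BOOST. -/
theorem exists_gen {y : An n'} (h : InC Ls k Z₀ n' Z) (hy : y ∈ (pt F n' Z Ls.a).Mov k) (hy0 : y ≠ 0) :
    ∃ μ, y * μ ∈ (pt F n' Z Ls.a).Mov k ∧
      Algebra.adjoin (Kn n') {μ} = Ly (pt F n' Z Ls.a) k y ∧
      ((∀ a b : Kn n', a • y + b • (y * μ) = 0 → a = 0 ∧ b = 0) ∨
        (y * μ = 0 ∧ finrank (Kn n') ((pt F n' Z Ls.a).Mov k) = 1)) := by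
  classical
  by_cases hd : finrank (Kn n') ((pt F n' Z Ls.a).Mov k) = 1
  · refine ⟨0, by rw [mul_zero]; exact zero_mem _, ?_, Or.inr ⟨mul_zero y, hd⟩⟩
    refine le_antisymm ?_ ?_
    · refine Algebra.adjoin_le ?_
      rintro _ rfl
      exact zero_mem _
    · exact (Ly_le_bot_of_one h hy hy0 hd).trans bot_le
  · let W : Submodule (Kn n') (An n') := ((pt F n' Z Ls.a).Mov k).map (LinearMap.mulLeft (Kn n') y⁻¹)
    have hL : Algebra.adjoin (Kn n') (W : Set (An n')) = Ly (pt F n' Z Ls.a) k y := by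
      rw [Ly_eq_adjoin _ h.h1 h.mov_le hy]
      congr 1
    have hcomm : ∀ a ∈ Ly (pt F n' Z Ls.a) k y, ∀ b ∈ Ly (pt F n' Z Ls.a) k y, a * b = b * a :=
      fun a ha b hb => ExLead.E_comm (K := Kn n') _ (h.ly_le hy ha) _ (h.ly_le hy hb)
    obtain ⟨μ, hμ, hμ2⟩ := QBinom.exists_generator_subalgebra _ hcomm W hL
    obtain ⟨x, hx, rfl⟩ := hμ
    simp only [LinearMap.mulLeft_apply] at hμ2 ⊢
    refine ⟨y⁻¹ * x, by rwa [mul_inv_cancel_left₀ hy0], hμ2, Or.inl ?_⟩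
    intro a b hab
    rw [mul_inv_cancel_left₀ hy0] at hab
    by_cases hb : b = 0
    · subst hb
      rw [zero_smul, add_zero] at hab
      exact ⟨(smul_eq_zero.1 hab).resolve_right hy0, rfl⟩
    · exfalso
      -- `μ` is a scalar, so `𝔏 = K`, `dim Mov = 1`
      have h1 : y⁻¹ * x = (-(b⁻¹ * a)) • (1 : An n') := by
        have h2 : b • x = (-a) • y := by
          rw [neg_smul]
          exact eq_neg_of_add_eq_zero_right hab
        have h3 : x = (-(b⁻¹ * a)) • y := by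
          have := congrArg (fun w => b⁻¹ • w) h2
          simp only [smul_smul, inv_mul_cancel₀ hb, one_smul] at this
          rw [this, mul_neg, neg_smul]
        rw [h3, mul_smul_comm, inv_mul_cancel₀ hy0]
      have hbot : Ly (pt F n' Z Ls.a) k y ≤ ⊥ := by
        rw [← hμ2]
        refine Algebra.adjoin_le ?_
        rintro _ rfl
        rw [h1]
        exact Subalgebra.smul_mem _ (one_mem _) _
      apply hd
      have hy' : (⟨y, hy⟩ : (pt F n' Z Ls.a).Mov k) ≠ 0 := fun h0 => hy0 (congrArg Subtype.val h0)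
      refine (finrank_eq_one_iff_of_nonzero' _ hy').2 fun w => ?_
      have h2 : y⁻¹ * w.1 ∈ (⊥ : Subalgebra (Kn n') (An n')) :=
        hbot (inv_mul_mem_Ly _ h.h1 h.mov_le hy w.2)
      obtain ⟨c, hc⟩ := Algebra.mem_bot.1 h2
      refine ⟨c, Subtype.ext ?_⟩
      show c • y = w.1
      have h3 : w.1 = y * (y⁻¹ * w.1) := by rw [mul_inv_cancel_left₀ hy0]
      rw [h3, ← hc, ← Algebra.commutes, ← Algebra.smul_def]

end Gen

section Boost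

variable {Ls : Lst F} {k : ℕ} {Z₀ : Σ n, Stt n} {n' : ℕ} [Fact (F ≤ Kn n')] {Z : Stt n'}

/-- **BOOST**: a state of `𝖠2` with `RC`. -/
theorem boost (hS : AllS) (hF : FreshS) (hZ0 : ∀ u < k, Above (Ls.Z0 u) Z₀)
    (hO : ∀ u < k, Opt F Ls u) (h : InA2 Ls k Z₀ n' Z) {S0 : ℕ → Set (An n')}
    (hV0 : Valid (pt F n' Z Ls.a) (N n') Ls.R Ls.Q k k S0 ((pt F n' Z Ls.a).T k))
    (hrk : ∀ c ∈ (pt F n' Z Ls.a).KK k, c ∉ II (pt F n' Z Ls.a) k →
      5 * qS Ls.R k + 2 * finrank (Kn n') ((pt F n' Z Ls.a).Mov k) + 2 ≤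
        rkOn (pt F n' Z Ls.a) k c ((pt F n' Z Ls.a).T k)) :
    ∃ X : Stt (n' + 1), InA2 Ls k Z₀ (n' + 1) X ∧
      ∀ y ∈ (pt F (n' + 1) X Ls.a).Mov k, y ≠ 0 →
        RC (pt F (n' + 1) X Ls.a) (N (n' + 1)) Ls.R k
          (finrank (Kn (n' + 1)) (Ly (pt F (n' + 1) X Ls.a) k y)) := by
  classical
  obtain ⟨y, hy, hy0⟩ := Submodule.exists_mem_ne_zero_of_ne_bot h.ne
  obtain ⟨μ, hμ1, hμ2, hind⟩ := exists_gen h.inC hy hy0
  obtain ⟨t1, t2, hA, e1, e2, hs⟩ := ExploreLin.exists_adm_presc _ hV0 hrk hy hμ1 hy0 hind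
  have hy1 : (pt F n' Z Ls.a).e k ((pt F n' Z Ls.a).dL k t1) ≠ 0 := by rw [e1]; exact hy0
  obtain ⟨X, g, S', hOut, hVO⟩ := A2_step hS hF hZ0 hO h hV0 hA hy1
  refine ⟨X, hOut.a2, fun y' hy' hy'0 => ?_⟩
  obtain ⟨V, hsum, -, hT0⟩ := hOut.lead.count hOut.deg_eq.le
  have hT := hT0 fun z hz => ExploreLin.exists_T0_presc _ hA.mem1 hA.mem2 hs hz
  rw [e1, e2, inv_mul_cancel_left₀ hy0] at hT
  set m := (lv n').m with hm
  set l := finrank (Kn n') (Ly (pt F n' Z Ls.a) k y) with hl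
  have hlN : l ≤ N n' := Nat.le_of_dvd (N_pos n') (h.inC.ly_dvd hy)
  have hl1 : 1 ≤ l := by
    have := Module.finrank_pos (R := Kn n') (M := Ly (pt F n' Z Ls.a) k y)
    exact this
  have hmbig : 100 * N n' ^ 2 + 100 ≤ m := m_big n'
  have h3l : 3 * l < m := by nlinarith
  have hVr : ∀ r, 1 ≤ r → r ≤ m - l → l ≤ finrank (Kn n') (V r) := by
    intro r hr1 hr2
    have h1 : l = finrank (Kn n') (Algebra.adjoin (Kn n') ({μ} : Set (An n'))) := by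
      rw [hl, hμ2]
    rw [h1]
    refine finrank_le_of_pow hy0 fun a ha => ?_
    rw [← h1] at ha
    exact hT r (by omega) a (by omega) (by omega) y hy
  have hsum2 : (m - l) * l ≤ finrank (Kn (n' + 1)) ((pt F (n' + 1) X Ls.a).Mov k) := by
    refine le_trans ?_ hsum
    have hsub : Finset.Icc 1 (m - l) ⊆ Finset.range m := by
      intro r hr
      rw [Finset.mem_Icc] at hr
      rw [Finset.mem_range]
      omega
    calc (m - l) * l = ∑ _r ∈ Finset.Icc 1 (m - l), l := by simp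
      _ ≤ ∑ r ∈ Finset.Icc 1 (m - l), finrank (Kn n') (V r) := Finset.sum_le_sum fun r hr => by
          rw [Finset.mem_Icc] at hr
          exact hVr r hr.1 hr.2
      _ ≤ _ := Finset.sum_le_sum_of_subset hsub
  have hdimL : finrank (Kn (n' + 1)) (Ly (pt F (n' + 1) X Ls.a) k y') = m * l := by
    have h1 := hOut.a2.ly y' hy' hy'0
    have h2 := h.ly y hy hy0
    have hpos : 0 < minS Ls k Z₀ := by
      have h0 := N_pos n'
      rw [← h2] at h0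
      exact Nat.pos_of_mul_pos_right h0 |> fun h => h
    refine Nat.eq_of_mul_eq_mul_left hpos ?_
    rw [h1, N_succ, ← h2]
    ring
  refine ⟨?_, rc_rank_step h hV0 hOut hVO⟩
  rw [hdimL]
  exact arith_boost hl1 h3l hsum2

/-- **`𝖠3 ≠ ∅`**: a state attaining `q_k`. -/
theorem exists_A3 (hS : AllS) (hF : FreshS) (hZ0 : ∀ u < k, Above (Ls.Z0 u) Z₀)
    (hO : ∀ u < k, Opt F Ls u)
    (hex : ∃ (n' : ℕ) (_ : Fact (F ≤ Kn n')) (Z : Stt n'), InC Ls k Z₀ n' Z ∧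
      (pt F n' Z Ls.a).Mov k ≠ ⊥) :
    ∃ (n' : ℕ) (_ : Fact (F ≤ Kn n')) (Z : Stt n') (y : An n'), InA2 Ls k Z₀ n' Z ∧
      y ∈ (pt F n' Z Ls.a).Mov k ∧ y ≠ 0 ∧
      RC (pt F n' Z Ls.a) (N n') Ls.R k (finrank (Kn n') (Ly (pt F n' Z Ls.a) k y)) ∧
      minQ Ls k Z₀ = finrank (Kn n') (Ly (pt F n' Z Ls.a) k y) -
        finrank (Kn n') ((pt F n' Z Ls.a).Mov k) := by
  classical
  obtain ⟨n1, hn1, Z1, hZ1⟩ := exists_A2 hex
  obtain ⟨X1, S1, hX1, hV1, hrk1⟩ := blind hS hF hZ0 hO hZ1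
  obtain ⟨X2, hX2, hRC⟩ := boost hS hF hZ0 hO hX1 hV1 hrk1
  obtain ⟨y2, hy2, hy20⟩ := Submodule.exists_mem_ne_zero_of_ne_bot hX2.ne
  have h1 := Nat.sInf_mem (s := {a | ∃ (n' : ℕ) (_ : Fact (F ≤ Kn n')) (Z : Stt n') (y : An n'),
    InC Ls k Z₀ n' Z ∧ y ∈ (pt F n' Z Ls.a).Mov k ∧ y ≠ 0 ∧
    minN Ls k Z₀ * finrank (Kn n') (Algebra.adjoin (Kn n') {(pt F n' Z Ls.a).β k}) = N n' ∧
    minS Ls k Z₀ * finrank (Kn n') (Ly (pt F n' Z Ls.a) k y) = N n' ∧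
    RC (pt F n' Z Ls.a) (N n') Ls.R k (finrank (Kn n') (Ly (pt F n' Z Ls.a) k y)) ∧
    a = finrank (Kn n') (Ly (pt F n' Z Ls.a) k y) - finrank (Kn n') ((pt F n' Z Ls.a).Mov k)})
    ⟨_, n1 + 1 + 1, inferInstance, X2, y2, hX2.inC, hy2, hy20, hX2.deg, hX2.ly y2 hy2 hy20,
      hRC y2 hy2 hy20, rfl⟩
  obtain ⟨n3, hn3, Z3, y3, hZ3, hy3, hy30, h3, h4, h5, h6⟩ := h1
  refine ⟨n3, hn3, Z3, y3, ⟨hZ3, ?_, h3, ?_⟩, hy3, hy30, h5, h6⟩
  · intro hbot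
    rw [hbot, Submodule.mem_bot] at hy3
    exact hy30 hy3
  · intro y hy hy0
    rw [Ly_indep _ hZ3.h1 hZ3.mov_le hy hy3 hy0 hy30]
    exact h4

end Boost

end Crest.Agent.Kurosh.Explore
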