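/-
S0270 (Kurosh), blueprint v3 §M, WP314 (helper63): the run of the construction and the limit.

`main_of`: given the tower `[Tw0] [Tw]`, its limit interface `TwLim` and the exploration theorem
`ExploreStmt` (`Plan.explore`), the conclusion of `Limit.kurosh_final`.
`towerLim`: the limit interface of the concrete tower `Tower.tw0`, `Tower.tw`.
`main`: `Plan.main`, given `ExploreStmt` for the concrete tower.

No `sorry`, no import of `Plan.lean`.
-/
import Crest.Agent.Kurosh.AlgLater
import Crest.Agent.Kurosh.Limit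
import Crest.Agent.Kurosh.StateII
import Crest.Agent.Kurosh.Tower

set_option autoImplicit false
set_option linter.unusedSectionVars false
set_option linter.style.haveILetI false

namespace Crest.Agent.Kurosh.Main

open Hensel State Module LU LU.Tw0 LU.Tw Plan
open _root_.Crest.Agent.Kurosh.Inv
open _root_.Crest.Agent.Kurosh.Inv.St
open _root_.Crest.Agent.Kurosh.Limit

section Abs

variable [Tw0] [Tw]

/-! ### The limit interface of the tower -/

/-- What the concrete tower provides for the limit: valuation rings `O n ⊃ A n` with residue maps,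
limits of chains, separation, and quantum planes with parameters of large order. -/
structure TwLim where
  O : ℕ → Subring U
  res : ∀ n, O n →+* An n
  A_le : ∀ n (x : An n), (x : U) ∈ O n
  res_coe : ∀ n (x : An n), res n ⟨x, A_le n x⟩ = x
  lim : ∀ X : ∀ n, Stt n, (∀ n, UpStep ⟨n, X n⟩ ⟨n + 1, X (n + 1)⟩) → ∀ v,
    ∃ L : U, ∀ n, ∃ h : L ∈ O n, res n ⟨L, h⟩ = X n v
  sep : ∀ u : U, (∀ t, ∃ n, t ≤ n ∧ ∃ h : u ∈ O n, res n ⟨u, h⟩ = 0) → u = 0
  plane : ∀ M : ℕ, ∃ n₀, ∀ n, n₀ ≤ n → ∃ (u v : An n) (ζ : Kn n),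
    v * u = ζ • (u * v) ∧ u ≠ 0 ∧ v ≠ 0 ∧ Function.Injective fun i : Fin M => ζ ^ i.val

/-! ### Transport of words -/

section Tr

variable {F F' : Subfield U} [CentF F] [CentF F']

/-- The transport of a word to a larger coefficient field. -/
noncomputable def trW (h : F ≤ F') : FreeAlgebra F (Fin 2) →+* FreeAlgebra F' (Fin 2) :=
  haveI : Fact (F ≤ F') := ⟨h⟩
  (Transport.tr : FreeAlgebra F (Fin 2) →ₐ[F] FreeAlgebra F' (Fin 2)).toRingHom

theorem trW_eq [h : Fact (F ≤ F')] (b : FreeAlgebra F (Fin 2)) : trW h.out b = Transport.tr b := rfl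

theorem ev_algebraMap (F : Subfield U) [CentF F] (p : Fin 2 → U) (r : F) :
    ev p (algebraMap F (FreeAlgebra F (Fin 2)) r) = (r : U) :=
  AlgHom.commutes _ _

theorem trW_algebraMap (h : F ≤ F') (r : F) :
    trW h (algebraMap F _ r) = algebraMap F' _ (Subfield.inclusion h r) := by
  haveI : Fact (F ≤ F') := ⟨h⟩
  exact Transport.tr_algebraMap r

theorem trW_ι (h : F ≤ F') (i : Fin 2) : trW h (FreeAlgebra.ι F i) = FreeAlgebra.ι F' i := by
  haveI : Fact (F ≤ F') := ⟨h⟩
  exact Transport.tr_ι i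

theorem ev_trW (h : F ≤ F') (p : Fin 2 → U) (b : FreeAlgebra F (Fin 2)) :
    ev p (trW h b) = ev p b := by
  induction b using FreeAlgebra.induction with
  | grade0 r =>
    rw [trW_algebraMap, ev_algebraMap, ev_algebraMap]
    rfl
  | grade1 i =>
    rw [trW_ι, ev_ι, ev_ι]
  | mul a b ha hb =>
    rw [map_mul, map_mul, map_mul, ha, hb]
  | add a b ha hb =>
    rw [map_add, map_add, map_add, ha, hb]

theorem ev_tr' [Fact (F ≤ F')] (p : Fin 2 → U) (b : FreeAlgebra F (Fin 2)) :
    ev p (Transport.tr (F' := F') b) = ev p b := ev_trW Fact.out p b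

theorem tr_self [Fact (F ≤ F)] (b : FreeAlgebra F (Fin 2)) : Transport.tr (F' := F) b = b := by
  induction b using FreeAlgebra.induction with
  | grade0 r =>
    rw [Transport.tr_algebraMap]
    rfl
  | grade1 i => simp
  | mul a b ha hb => simp only [map_mul, ha, hb]
  | add a b ha hb => simp only [map_add, ha, hb]

theorem tr_tr {F'' : Subfield U} [CentF F''] [Fact (F ≤ F')] [Fact (F' ≤ F'')] [Fact (F ≤ F'')]
    (b : FreeAlgebra F (Fin 2)) :
    Transport.tr (F := F') (F' := F'') (Transport.tr (F := F) (F' := F') b) = Transport.tr b := by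
  induction b using FreeAlgebra.induction with
  | grade0 r =>
    rw [Transport.tr_algebraMap, Transport.tr_algebraMap, Transport.tr_algebraMap]
    rfl
  | grade1 i => simp
  | mul a b ha hb => simp only [map_mul, ha, hb]
  | add a b ha hb => simp only [map_add, ha, hb]

theorem listAgree_refl [Fact (F ≤ F)] (Ls : Lst F) (k : ℕ) : Transport.ListAgree Ls Ls k := by
  refine ⟨fun u _ => (tr_self _).symm, fun u _ => ?_, fun _ _ => rfl, fun _ _ => rfl⟩
  refine Polynomial.ext fun i => ?_
  rw [Polynomial.coeff_map]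
  rfl

theorem listAgree_trans {F'' : Subfield U} [CentF F''] [Fact (F ≤ F')] [Fact (F' ≤ F'')]
    [Fact (F ≤ F'')] {Ls : Lst F} {Ls' : Lst F'} {Ls'' : Lst F''} {k : ℕ}
    (h : Transport.ListAgree Ls Ls' k) (h' : Transport.ListAgree Ls' Ls'' k) :
    Transport.ListAgree Ls Ls'' k := by
  refine ⟨fun u hu => ?_, fun u hu => ?_, fun u hu => ?_, fun u hu => ?_⟩
  · rw [h'.a u hu, h.a u hu, tr_tr]
  · rw [h'.Q u hu, h.Q u hu, Polynomial.map_map]
    rfl
  · rw [h'.R u hu, h.R u hu]
  · rw [h'.Z0 u hu, h.Z0 u hu]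

end Tr

/-- Countability of the words. -/
theorem countable_words (F : Subfield U) [Countable F] [CentF F] :
    Countable (FreeAlgebra F (Fin 2)) := by
  have e := (FreeAlgebra.equivMonoidAlgebraFreeMonoid (R := F) (X := Fin 2)).toEquiv
  have h1 : Countable (FreeMonoid (Fin 2)) := inferInstanceAs (Countable (List (Fin 2)))
  have h2 : Countable (FreeMonoid (Fin 2) →₀ F) := inferInstance
  have h3 : Countable (MonoidAlgebra F (FreeMonoid (Fin 2))) := by
    refine Function.Injective.countable (f := fun x => x.coeff) ?_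
    intro x y hxy
    cases x; cases y; simp_all
  exact e.countable_iff.2 h3

theorem exists_surj_words (F : Subfield U) [Countable F] [CentF F] :
    ∃ f : ℕ → FreeAlgebra F (Fin 2), Function.Surjective f := by
  haveI := countable_words F
  exact exists_surjective_nat _

/-- Adjoining a finite set to a countable subfield. -/
theorem countable_sup_closure (F : Subfield U) [Countable F] (s : Finset U) :
    Countable (F ⊔ Subfield.closure (s : Set U) : Subfield U) := by
  have hc : (F ⊔ Subfield.closure (s : Set U) : Subfield U) = Subfield.closure ((F : Set U) ∪ s) := by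
    rw [Subfield.closure_union, Subfield.closure_eq]
  rw [hc]
  have h0 : Cardinal.mk (↥((F : Set U) ∪ (s : Set U))) ≤ Cardinal.aleph0 := by
    rw [Cardinal.le_aleph0_iff_set_countable]
    exact (Set.countable_coe_iff.1 (inferInstanceAs (Countable F))).union s.countable_toSet
  have h1 := Subfield.cardinalMk_closure_le_max ((F : Set U) ∪ (s : Set U))
  rw [max_eq_right h0] at h1
  exact Cardinal.mk_le_aleph0_iff.1 h1

/-! ### The residue relation -/

namespace TwLim

variable (L : TwLim)

/-- `w` is the residue at level `n` of `u`. -/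
def Rel (n : ℕ) (u w : U) : Prop := ∃ h : u ∈ L.O n, ((L.res n ⟨u, h⟩ : An n) : U) = w

variable {L}

theorem Rel.of_mem {n : ℕ} {x : U} (hx : x ∈ An n) : L.Rel n x x :=
  ⟨L.A_le n ⟨x, hx⟩, by rw [show (⟨x, L.A_le n ⟨x, hx⟩⟩ : L.O n) = ⟨((⟨x, hx⟩ : An n) : U), L.A_le n ⟨x, hx⟩⟩ from rfl, L.res_coe]⟩

theorem Rel.add {n : ℕ} {u u' w w' : U} (h : L.Rel n u w) (h' : L.Rel n u' w') :
    L.Rel n (u + u') (w + w') := by
  obtain ⟨h1, rfl⟩ := h
  obtain ⟨h2, rfl⟩ := h'
  refine ⟨add_mem h1 h2, ?_⟩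
  have : (⟨u + u', add_mem h1 h2⟩ : L.O n) = ⟨u, h1⟩ + ⟨u', h2⟩ := rfl
  rw [this, map_add]
  rfl

theorem Rel.mul {n : ℕ} {u u' w w' : U} (h : L.Rel n u w) (h' : L.Rel n u' w') :
    L.Rel n (u * u') (w * w') := by
  obtain ⟨h1, rfl⟩ := h
  obtain ⟨h2, rfl⟩ := h'
  refine ⟨mul_mem h1 h2, ?_⟩
  have : (⟨u * u', mul_mem h1 h2⟩ : L.O n) = ⟨u, h1⟩ * ⟨u', h2⟩ := rfl
  rw [this, map_mul]
  rfl

/-- The residue of a word. -/
theorem Rel.ev {n : ℕ} {F : Subfield U} [CentF F] (hF : F ≤ Kn n) {p q : Fin 2 → U}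
    (h : ∀ v, L.Rel n (p v) (q v)) (b : FreeAlgebra F (Fin 2)) :
    L.Rel n (State.ev p b) (State.ev q b) := by
  induction b using FreeAlgebra.induction with
  | grade0 r =>
    rw [ev_algebraMap, ev_algebraMap]
    exact Rel.of_mem (Kn_le_An n _ (hF r.2))
  | grade1 i =>
    rw [ev_ι, ev_ι]
    exact h i
  | mul a b ha hb =>
    rw [map_mul, map_mul]
    exact ha.mul hb
  | add a b ha hb =>
    rw [map_add, map_add]
    exact ha.add hb

/-- The residue of a polynomial. -/
theorem Rel.aeval {n : ℕ} {F : Subfield U} [CentF F] (hF : F ≤ Kn n) {u w : U}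
    (h : L.Rel n u w) (P : Polynomial F) :
    L.Rel n (Polynomial.aeval u P) (Polynomial.aeval w P) := by
  induction P using Polynomial.induction_on' with
  | add p q hp hq =>
    rw [map_add, map_add]
    exact hp.add hq
  | monomial k a =>
    rw [Polynomial.aeval_monomial, Polynomial.aeval_monomial]
    refine Rel.mul (Rel.of_mem (Kn_le_An n _ (hF a.2))) ?_
    induction k with
    | zero =>
      rw [pow_zero, pow_zero]
      exact Rel.of_mem (one_mem _)
    | succ k ih =>
      rw [pow_succ, pow_succ]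
      exact ih.mul h

end TwLim

/-! ### The exploration theorem -/

/-- The statement of `Plan.explore`. -/
def ExploreStmt : Prop :=
  ∀ (F : Subfield U) [CentF F] (Ls : Lst F) (n : ℕ) [Fact (F ≤ Kn n)] (ρ : Stt n) (k : ℕ)
    (S : ℕ → Set (An n)) (TT : Submodule (Kn n) (Fin 2 → An n)) (_ : Ctx F Ls n ρ k k S TT)
    (b : FreeAlgebra F (Fin 2)),
    ∃ (F' : Subfield U) (_ : CentF F') (_ : Fact (F ≤ F')) (s : Finset U)
      (_ : F' = F ⊔ Subfield.closure (s : Set U))
      (Ls' : Lst F') (n' : ℕ) (_ : Fact (F' ≤ Kn n')) (ρ' : Stt n') (k' : ℕ)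
      (S' : ℕ → Set (An n')) (TT' : Submodule (Kn n') (Fin 2 → An n')),
      n < n' ∧ k ≤ k' ∧ Above ⟨n, ρ⟩ ⟨n', ρ'⟩ ∧ Ctx F' Ls' n' ρ' k' k' S' TT' ∧
      Transport.ListAgree Ls Ls' k ∧
      AlgLater F' n' ρ' k' Ls' (Transport.tr b)

/-! ### The states of the run -/

/-- A state of the run: a context, with a family of enumerations of words. -/
structure RS where
  F : Subfield U
  cF : CentF F
  cnt : Countable F
  Ls : Lst F
  n : ℕ
  fF : Fact (F ≤ Kn n)
  ρ : Stt n
  k : ℕ
  S : ℕ → Set (An n)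
  TT : Submodule (Kn n) (Fin 2 → An n)
  ctx : Ctx F Ls n ρ k k S TT
  fam : ℕ → ℕ → FreeAlgebra F (Fin 2)

attribute [instance] RS.cF RS.cnt RS.fF

/-- One step of the run at time `t`. -/
structure Next (t : ℕ) (s s' : RS) : Prop where
  le : Fact (s.F ≤ s'.F)
  n_lt : s.n < s'.n
  k_le : s.k ≤ s'.k
  above : Above ⟨s.n, s.ρ⟩ ⟨s'.n, s'.ρ⟩
  agree : Transport.ListAgree s.Ls s'.Ls s.k
  alg : AlgLater s'.F s'.n s'.ρ s'.k s'.Ls (Transport.tr (s.fam t.unpair.1 t.unpair.2))
  fam_old : ∀ i ≤ t, ∀ j, s'.fam i j = Transport.tr (s.fam i j)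
  fam_new : ∀ i, t < i → Function.Surjective (s'.fam i)

theorem exists_next (hex : ExploreStmt) (t : ℕ) (s : RS) : ∃ s', Next t s s' := by
  classical
  obtain ⟨F', i1, hle, fs, hF', Ls', n', i2, ρ', k', S', TT', hn, hk, hab, hctx, hag, halg⟩ :=
    hex s.F s.Ls s.n s.ρ s.k s.S s.TT s.ctx (s.fam t.unpair.1 t.unpair.2)
  have hcnt : Countable F' := by
    subst hF'
    exact countable_sup_closure s.F fs
  obtain ⟨surj, hsurj⟩ := exists_surj_words F'
  refine ⟨⟨F', i1, hcnt, Ls', n', i2, ρ', k', S', TT', hctx,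
    fun i j => if i ≤ t then Transport.tr (s.fam i j) else surj j⟩, ?_⟩
  refine ⟨hle, hn, hk, hab, hag, halg, ?_, ?_⟩
  · intro i hi j
    simp [hi]
  · intro i hi
    have : ¬ i ≤ t := by omega
    simpa [this] using hsurj

/-! ### The start -/

instance centBot : CentF (⊥ : Subfield U) :=
  ⟨fun x hx y => central 0 x (bot_le (a := Kn 0) hx) y⟩

instance factBot (n : ℕ) : Fact ((⊥ : Subfield U) ≤ Kn n) := ⟨bot_le⟩

theorem countable_bot : Countable (⊥ : Subfield U) := by
  have h : (⊥ : Subfield U) ≤ (Rat.castHom U).fieldRange := bot_le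
  have h2 : Countable ((Rat.castHom U).fieldRange) := by
    have : Function.Surjective ((Rat.castHom U).rangeRestrictField) := by
      rintro ⟨y, x, rfl⟩
      exact ⟨x, rfl⟩
    exact this.countable
  exact (Subfield.inclusion h).injective.countable

/-- The empty list. -/
noncomputable def startLst : Lst (⊥ : Subfield U) where
  a _ := 0
  Q _ := 0
  R _ := ⟨1, 1, 0⟩
  Z0 _ := ⟨0, ρ₀⟩

theorem finrank_start : finrank (Kn 0) (An 0) = 1 := by
  rw [finrank_eq, N_zero, one_pow]

theorem exists_alg_start (x : An 0) : ∃ c : Kn 0, x = algebraMap (Kn 0) (An 0) c := by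
  obtain ⟨c, hc⟩ := (finrank_eq_one_iff_of_nonzero' (1 : An 0) one_ne_zero).1 finrank_start x
  refine ⟨c, ?_⟩
  rw [← hc, Algebra.smul_def, mul_one]

theorem start_ctx : Ctx (⊥ : Subfield U) startLst 0 ρ₀ 0 0 (fun _ => ∅) ⊤ := by
  set P := pt (⊥ : Subfield U) 0 ρ₀ startLst.a with hP
  have hInn : Inn P = ⊥ := by
    rw [eq_bot_iff]
    rintro t ⟨w, rfl⟩
    rw [Submodule.mem_bot]
    funext v
    obtain ⟨c, hc⟩ := exists_alg_start (P.ρ v)
    simp only [LinearMap.pi_apply, adL_apply, hc]
    rw [Algebra.commutes, sub_self]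
    rfl
  refine ⟨?_, fun u hu => absurd hu (Nat.not_lt_zero _), fun u hu => absurd hu (Nat.not_lt_zero _)⟩
  refine
    { le := le_rfl
      one := (hτ 0).one
      frozen := fun u hu => absurd hu (Nat.not_lt_zero _)
      comm := fun x _ => exists_alg_start x
      dvd := fun u hu => absurd hu (Nat.not_lt_zero _)
      qbd := by simp [qS]
      q_small := fun u hu => absurd hu (Nat.not_lt_zero _)
      S_ne := fun u hu => absurd hu (Nat.not_lt_zero _)
      S_good := fun u hu => absurd hu (Nat.not_lt_zero _)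
      mov_le := fun u hu => absurd hu (Nat.not_lt_zero _)
      mov_codim := fun u hu => absurd hu (Nat.not_lt_zero _)
      rank := fun u hu => absurd hu (Nat.not_lt_zero _)
      lift := fun u hu => absurd hu (Nat.not_lt_zero _)
      big := fun u hu => absurd hu (Nat.not_lt_zero _)
      TT_le := fun t _ i hi => absurd hi (Nat.not_lt_zero _)
      TT_S := ?_
      TT_big := ?_ }
  · intro k hk t _ c hc t' _
    obtain rfl : k = 0 := Nat.le_zero.1 hk
    simp [Pt.SS, Pt.Gam]
  · rw [hInn, inf_bot_eq, finrank_bot, finrank_top]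
    have : finrank (Kn 0) (Fin 2 → An 0) = 2 := by
      rw [Module.finrank_pi_fintype]
      simp [finrank_start]
    simp [this, qS]

/-- The start of the run. -/
noncomputable def startRS (f : ℕ → FreeAlgebra (⊥ : Subfield U) (Fin 2)) : RS where
  F := ⊥
  cF := inferInstance
  cnt := countable_bot
  Ls := startLst
  n := 0
  fF := inferInstance
  ρ := ρ₀
  k := 0
  S _ := ∅
  TT := ⊤
  ctx := start_ctx
  fam _ := f

/-! ### Paths in `Above` -/

theorem above_path {x y : Σ n, Stt n} (h : Above x y) :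
    ∃ f : ∀ m, Stt m, f x.1 = x.2 ∧ f y.1 = y.2 ∧ x.1 ≤ y.1 ∧
      ∀ m, x.1 ≤ m → m < y.1 → UpStep ⟨m, f m⟩ ⟨m + 1, f (m + 1)⟩ := by
  classical
  induction h with
  | refl =>
    refine ⟨Function.update (fun m => (0 : Stt m)) x.1 x.2, by simp, by simp, le_rfl, ?_⟩
    intro m h1 h2
    omega
  | @tail y z _ hyz ih =>
    obtain ⟨f, h1, h2, h3, h4⟩ := ih
    cases hyz with
    | mk n₀ ρ' X hX =>
      simp only at h2 h3 h4
      refine ⟨Function.update f (n₀ + 1) X, ?_, by simp, by simp only; omega, ?_⟩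
      · rw [Function.update_of_ne (by omega), h1]
      · intro m hm1 hm2
        simp only at hm2
        rcases Nat.lt_succ_iff_lt_or_eq.1 hm2 with hlt | rfl
        · rw [Function.update_of_ne (by omega), Function.update_of_ne (by omega)]
          exact h4 m hm1 hlt
        · rw [Function.update_of_ne (by omega), Function.update_self, h2]
          exact UpStep.mk _ _ _ hX

/-! ### The run -/

/-- The run of the construction. -/
noncomputable def runRS (hex : ExploreStmt) (f : ℕ → FreeAlgebra (⊥ : Subfield U) (Fin 2)) : ℕ → RS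
  | 0 => startRS f
  | t + 1 => Classical.choose (exists_next hex t (runRS hex f t))

theorem run_next (hex : ExploreStmt) (f : ℕ → FreeAlgebra (⊥ : Subfield U) (Fin 2)) (t : ℕ) :
    Next t (runRS hex f t) (runRS hex f (t + 1)) :=
  Classical.choose_spec (exists_next hex t (runRS hex f t))

section Run

variable (hex : ExploreStmt) (f : ℕ → FreeAlgebra (⊥ : Subfield U) (Fin 2))

local notation "r" => runRS hex f

theorem run_F_mono {t t' : ℕ} (h : t ≤ t') : (r t).F ≤ (r t').F := by
  induction t', h using Nat.le_induction with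
  | base => exact le_rfl
  | succ m _ ih => exact ih.trans (run_next hex f m).le.out

theorem run_n_mono : StrictMono fun t => (r t).n :=
  strictMono_nat_of_lt_succ fun t => (run_next hex f t).n_lt

theorem run_le_n (t : ℕ) : t ≤ (r t).n := (run_n_mono hex f).le_apply

theorem run_n_zero : (r 0).n = 0 := rfl

theorem run_k_mono {t t' : ℕ} (h : t ≤ t') : (r t).k ≤ (r t').k := by
  induction t', h using Nat.le_induction with
  | base => exact le_rfl
  | succ m _ ih => exact ih.trans (run_next hex f m).k_le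

theorem run_above {t t' : ℕ} (h : t ≤ t') : Above ⟨(r t).n, (r t).ρ⟩ ⟨(r t').n, (r t').ρ⟩ := by
  induction t', h using Nat.le_induction with
  | base => exact Relation.ReflTransGen.refl
  | succ m _ ih => exact Relation.ReflTransGen.trans ih (run_next hex f m).above

theorem run_agree {t t' : ℕ} (h : t ≤ t') : ∀ (_ : Fact ((r t).F ≤ (r t').F)),
    Transport.ListAgree (r t).Ls (r t').Ls (r t).k := by
  induction t', h using Nat.le_induction with
  | base => exact fun _ => listAgree_refl (F := (r t).F) _ _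
  | succ m hm ih =>
    intro _
    haveI h1 : Fact ((r t).F ≤ (r m).F) := ⟨run_F_mono hex f hm⟩
    haveI h2 : Fact ((r m).F ≤ (r (m + 1)).F) := (run_next hex f m).le
    exact listAgree_trans (ih h1) ((run_next hex f m).agree.mono (run_k_mono hex f hm))

theorem run_surj (hf : Function.Surjective f) (t i : ℕ) (h : t ≤ i) :
    Function.Surjective ((r t).fam i) := by
  cases t with
  | zero => exact hf
  | succ t => exact (run_next hex f t).fam_new i (by omega)

theorem run_fam (i : ℕ) {t : ℕ} (h : i ≤ t) (j : ℕ) (p : Fin 2 → U) :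
    ev p ((r t).fam i j) = ev p ((r i).fam i j) := by
  induction t, h using Nat.le_induction with
  | base => rfl
  | succ m hm ih =>
    haveI : Fact ((r m).F ≤ (r (m + 1)).F) := (run_next hex f m).le
    rw [(run_next hex f m).fam_old i hm j, ev_tr', ih]

/-! ### The chain of all levels -/

theorem exists_pth : ∃ pth : ℕ → ∀ m, Stt m, ∀ t,
    pth t (r t).n = (r t).ρ ∧ pth t (r (t + 1)).n = (r (t + 1)).ρ ∧
      ∀ m, (r t).n ≤ m → m < (r (t + 1)).n → UpStep ⟨m, pth t m⟩ ⟨m + 1, pth t (m + 1)⟩ := by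
  have h := fun t => above_path (run_next hex f t).above
  choose pth h1 h2 _ h4 using h
  exact ⟨pth, fun t => ⟨h1 t, h2 t, h4 t⟩⟩

/-- The chain through all levels. -/
theorem exists_chain : ∃ X : ∀ n, Stt n, (∀ n, UpStep ⟨n, X n⟩ ⟨n + 1, X (n + 1)⟩) ∧
    ∀ t, X (r t).n = (r t).ρ := by
  classical
  obtain ⟨pth, h1, h2, h3⟩ : ∃ pth : ℕ → ∀ m, Stt m,
      (∀ t, pth t (r t).n = (r t).ρ) ∧ (∀ t, pth t (r (t + 1)).n = (r (t + 1)).ρ) ∧
      ∀ t m, (r t).n ≤ m → m < (r (t + 1)).n → UpStep ⟨m, pth t m⟩ ⟨m + 1, pth t (m + 1)⟩ := by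
    obtain ⟨pth, h⟩ := exists_pth hex f
    exact ⟨pth, fun t => (h t).1, fun t => (h t).2.1, fun t => (h t).2.2⟩
  have hex' : ∀ m, ∃ t, m < (r (t + 1)).n := fun m => ⟨m, by
    have := run_le_n hex f (m + 1)
    omega⟩
  let tm : ℕ → ℕ := fun m => Nat.find (hex' m)
  have htm1 : ∀ m, m < (r (tm m + 1)).n := fun m => Nat.find_spec (hex' m)
  have htm2 : ∀ m, (r (tm m)).n ≤ m := by
    intro m
    rcases h0 : tm m with _ | t
    · rw [run_n_zero]
      exact Nat.zero_le m
    · have := Nat.find_min (hex' m) (m := t) (by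
        show t < tm m
        omega)
      omega
  have htm3 : ∀ t m, (r t).n ≤ m → m < (r (t + 1)).n → tm m = t := by
    intro t m h1 h2
    have a := htm1 m
    have b := htm2 m
    have hmono := run_n_mono hex f
    apply le_antisymm
    · by_contra hc
      have : (r (t + 1)).n ≤ (r (tm m)).n := hmono.monotone (by omega)
      omega
    · by_contra hc
      have : (r (tm m + 1)).n ≤ (r t).n := hmono.monotone (by omega)
      omega
  let X : ∀ n, Stt n := fun m => pth (tm m) m
  have hX : ∀ t m, (r t).n ≤ m → m ≤ (r (t + 1)).n → X m = pth t m := by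
    intro t m ha hb
    rcases hb.lt_or_eq with hlt | rfl
    · show pth (tm m) m = _
      rw [htm3 t m ha hlt]
    · show pth (tm _) _ = _
      rw [htm3 (t + 1) _ le_rfl ((run_n_mono hex f) (Nat.lt_succ_self _)), h1 (t + 1), h2 t]
  refine ⟨X, fun n => ?_, fun t => ?_⟩
  · have a := htm1 n
    have b := htm2 n
    rw [hX (tm n) n b a.le, hX (tm n) (n + 1) (by omega) (by omega)]
    exact h3 _ _ b a
  · rw [hX t _ le_rfl ((run_n_mono hex f) (Nat.lt_succ_self _)).le, h1 t]

/-! ### The limit -/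

/-- The coefficient field of the limit. -/
noncomputable def Finf : Subfield U := ⨆ t, (r t).F

theorem mem_Finf {x : U} : x ∈ Finf hex f ↔ ∃ t, x ∈ (r t).F :=
  Subfield.mem_iSup_of_directed
    ((monotone_nat_of_le_succ fun t => (run_next hex f t).le.out).directed_le)

theorem le_Finf (t : ℕ) : (r t).F ≤ Finf hex f := le_iSup (fun t => (r t).F) t

theorem Finf_central : ∀ x ∈ Finf hex f, ∀ y : U, x * y = y * x := by
  intro x hx y
  obtain ⟨t, ht⟩ := (mem_Finf hex f).1 hx
  exact (r t).cF.central x ht y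

theorem Finf_countable : Countable (Finf hex f) := by
  have h : ((Finf hex f : Subfield U) : Set U) = ⋃ t, ((r t).F : Set U) := by
    ext x
    simp [mem_Finf]
  have h2 : ((Finf hex f : Subfield U) : Set U).Countable := by
    rw [h]
    exact Set.countable_iUnion fun t =>
      Set.countable_coe_iff.1 (inferInstanceAs (Countable (r t).F))
  exact Set.countable_coe_iff.2 h2

variable (L : TwLim) (X : ∀ n, Stt n) (hXr : ∀ t, X (runRS hex f t).n = (runRS hex f t).ρ) (x : Fin 2 → U)
  (hx : ∀ v n, ∃ h : x v ∈ L.O n, L.res n ⟨x v, h⟩ = X n v)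

include hXr hx

theorem rel_word (t : ℕ) {F : Subfield U} [CentF F] (hF : F ≤ (r t).F) (b : FreeAlgebra F (Fin 2)) :
    L.Rel (r t).n (ev x b) (evU (r t).ρ b) := by
  have h : ∀ v, L.Rel (r t).n (x v) (((r t).ρ v : An _) : U) := by
    intro v
    obtain ⟨h1, h2⟩ := hx v (r t).n
    refine ⟨h1, ?_⟩
    rw [h2, hXr]
  exact TwLim.Rel.ev (hF.trans (r t).fF.out) h b

/-- Every word over `F_∞`'s stages is algebraic at the limit. -/
theorem alg_word (hf : Function.Surjective f) (i : ℕ) (b : FreeAlgebra (r i).F (Fin 2)) :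
    AlgOver (Finf hex f : Set U) (ev x b) := by
  obtain ⟨j, rfl⟩ := run_surj hex f hf i i le_rfl b
  set t := Nat.pair i j with ht
  have hit : i ≤ t := Nat.left_le_pair i j
  have hnext := run_next hex f t
  have halg := hnext.alg
  have hun : t.unpair = (i, j) := Nat.unpair_pair i j
  rw [hun] at halg
  simp only at halg
  obtain ⟨P, hP, hh⟩ := halg
  haveI : Fact ((r t).F ≤ (r (t + 1)).F) := hnext.le
  set w : FreeAlgebra (r (t + 1)).F (Fin 2) := Transport.tr ((r t).fam i j) with hw
  have hval : ev x w = ev x ((r i).fam i j) := by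
    rw [hw, ev_tr', run_fam hex f i hit]
  have hzero : Polynomial.aeval (ev x w) P = 0 := by
    apply L.sep
    intro t0
    set T := max t0 (t + 1) with hT
    have hT1 : t + 1 ≤ T := le_max_right _ _
    refine ⟨(r T).n, (le_max_left t0 (t + 1)).trans (run_le_n hex f T), ?_⟩
    have h1 := TwLim.Rel.aeval ((run_F_mono hex f hT1).trans (r T).fF.out)
      (rel_word hex f L X hXr x hx T (run_F_mono hex f hT1) w) P
    haveI hFT : Fact ((r (t + 1)).F ≤ (r T).F) := ⟨run_F_mono hex f hT1⟩
    have h2 : Polynomial.aeval (evU (r T).ρ w) P = 0 :=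
      hh (r T).F (r T).cF hFT (r T).Ls (r T).n (r T).fF (r T).ρ (r T).k (r T).S
        (r T).TT (run_k_mono hex f hT1) (r T).ctx (run_agree hex f hT1 hFT) (run_above hex f hT1)
    rw [h2] at h1
    obtain ⟨h3, h4⟩ := h1
    refine ⟨h3, Subtype.ext h4⟩
  rw [← hval]
  refine ⟨P.natDegree, fun i => ((P.coeff i : (r (t + 1)).F) : U), fun i =>
    le_Finf hex f (t + 1) (P.coeff i).2, ?_, ?_⟩
  · intro h0
    exact hP (Polynomial.leadingCoeff_eq_zero.1 (Subtype.ext h0))
  · rw [Polynomial.aeval_eq_sum_range] at hzero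
    rw [← hzero]
    refine Finset.sum_congr rfl fun i _ => ?_
    rw [Algebra.smul_def]
    rfl

/-- The ring generated by `F_∞` and the limit consists of values of words. -/
theorem closure_word {a : U}
    (ha : a ∈ Subring.closure ((Finf hex f : Set U) ∪ {x 0, x 1})) :
    ∃ t, ∃ b : FreeAlgebra (r t).F (Fin 2), a = ev x b := by
  induction ha using Subring.closure_induction with
  | mem a ha =>
    rcases ha with ha | rfl | ha
    · obtain ⟨t, ht⟩ := (mem_Finf hex f).1 ha
      exact ⟨t, algebraMap (r t).F _ ⟨a, ht⟩, (ev_algebraMap (r t).F x ⟨a, ht⟩).symm⟩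
    · exact ⟨0, FreeAlgebra.ι _ 0, (ev_ι _ _).symm⟩
    · rw [Set.mem_singleton_iff] at ha
      subst ha
      exact ⟨0, FreeAlgebra.ι _ 1, (ev_ι _ _).symm⟩
  | zero => exact ⟨0, 0, (map_zero _).symm⟩
  | one => exact ⟨0, 1, (map_one _).symm⟩
  | add a a' _ _ h h' =>
    obtain ⟨t, b, rfl⟩ := h
    obtain ⟨t', b', rfl⟩ := h'
    refine ⟨max t t', trW (run_F_mono hex f (le_max_left _ _)) b +
      trW (run_F_mono hex f (le_max_right _ _)) b', ?_⟩
    rw [map_add, ev_trW, ev_trW]
  | neg a _ h =>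
    obtain ⟨t, b, rfl⟩ := h
    exact ⟨t, -b, (map_neg _ _).symm⟩
  | mul a a' _ _ h h' =>
    obtain ⟨t, b, rfl⟩ := h
    obtain ⟨t', b', rfl⟩ := h'
    refine ⟨max t t', trW (run_F_mono hex f (le_max_left _ _)) b *
      trW (run_F_mono hex f (le_max_right _ _)) b', ?_⟩
    rw [map_mul, ev_trW, ev_trW]

end Run

/-- **Main** (§M), given the limit interface of the tower and the exploration theorem. -/
theorem main_of (L : TwLim) (hex : ExploreStmt) :
    ∃ (D : Type) (_ : DivisionRing D), Countable D ∧ CharZero D ∧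
      Algebra.IsAlgebraic (Subring.center D) D ∧
      (∃ x y : D, Algebra.adjoin (Subring.center D) ({x, y} : Set D) = ⊤) ∧
      ¬ FiniteDimensional (Subring.center D) D := by
  haveI : Countable (⊥ : Subfield U) := countable_bot
  obtain ⟨f, hf⟩ := exists_surj_words (⊥ : Subfield U)
  obtain ⟨X, hX, hXr⟩ := exists_chain hex f
  choose x hx using L.lim X hX
  haveI := Finf_countable hex f
  refine kurosh_final (Finf hex f) (Finf_central hex f) (Finf_countable hex f) (x 0) (x 1) ?_ ?_
  · intro a ha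
    obtain ⟨t, b, rfl⟩ := closure_word hex f L X hXr x hx ha
    exact alg_word hex f L X hXr x hx hf t b
  · intro M
    obtain ⟨n₀, hn₀⟩ := L.plane M
    set s := runRS hex f n₀ with hs
    have hle : n₀ ≤ s.n := run_le_n hex f n₀
    obtain ⟨u, v, ζ, h1, h2, h3, h4⟩ := hn₀ s.n hle
    obtain ⟨hx0, hx0'⟩ := hx 0 s.n
    obtain ⟨hx1, hx1'⟩ := hx 1 s.n
    refine ⟨Kn s.n, An s.n, inferInstance, inferInstance, inferInstance, inferInstance,
      L.O s.n, L.res s.n, hx0, hx1, ?_, u, v, ζ, h1, h2, h3, h4⟩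
    intro a ha0 ha1
    refine s.ctx.valid.comm a ?_
    intro w
    have hw : (pt s.F s.n s.ρ s.Ls.a).ρ w = X s.n w := by
      rw [show X s.n = s.ρ from hXr n₀]
      rfl
    rw [hw]
    fin_cases w
    · simpa [hx0'] using ha0
    · simpa [hx1'] using ha1

end Abs

/-! ### The concrete tower -/

section Concrete

open Levels Levels.LevelData Tower

/-- The limit interface of the concrete tower. -/
noncomputable def towerLim : TwLim where
  O n := DD.O n
  res n := DD.resn n
  A_le n x := DD.A_le_O n x.2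
  res_coe n x := Subtype.ext (DD.resn_coe_of_mem n x.2)
  lim X hX v := by
    refine exists_limit_of_run (fun n => X n v) fun n => ?_
    have h := hX n
    generalize hx : (⟨n, X n⟩ : Σ n, Stt n) = x at h
    generalize hy : (⟨n + 1, X (n + 1)⟩ : Σ n, Stt n) = y at h
    cases h with
    | mk m ρ X' hh =>
      obtain ⟨rfl, hρ⟩ := Sigma.mk.inj_iff.1 hx
      obtain hρ := eq_of_heq hρ
      obtain ⟨_, hX'⟩ := Sigma.mk.inj_iff.1 hy
      obtain hX' := eq_of_heq hX'
      subst hρ
      subst hX'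
      exact hh v
  sep u hu := by
    refine (THS.ext fun g => ?_ : (u : DD.U) = (0 : DD.U))
    obtain ⟨n, hn, hO, h0⟩ := hu (lvl g)
    have h1 : g ∈ Gsub (Rg n) := Gsub_Rg_mono hn (mem_Gsub_lvl g)
    have h2 := congrArg Subtype.val h0
    have h3 := DD.coeff_resn_of_mem n ⟨u, hO⟩ h1
    rw [h2] at h3
    exact h3.symm
  plane M := by
    refine ⟨M, fun n hn => ?_⟩
    have hmem : n ∈ Rg n := Finset.self_mem_range_succ n
    have hpM : M ≤ DD.p n := le_trans hn (Data.le_p _ n)
    refine ⟨⟨_, DD.s_mem_A hmem⟩, ⟨_, DD.s'_mem_A hmem⟩,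
      algebraMap ℂ (DD.K (Rg n)) (DD.ζ n), ?_, ?_, ?_, ?_⟩
    · apply Subtype.ext
      show DD.s' n * DD.s n
        = ((algebraMap ℂ (DD.K (Rg n)) (DD.ζ n) : DD.K (Rg n)) : DD.U) * (DD.s n * DD.s' n)
      rw [DD.s'_mul_s, DD.algebraMap_kK_coe, ← Algebra.smul_def]
    · exact fun h => DD.s_ne_zero n (congrArg Subtype.val h)
    · exact fun h => DD.s'_ne_zero n (congrArg Subtype.val h)
    · intro i i' h
      have h1 : algebraMap ℂ (DD.K (Rg n)) (DD.ζ n ^ i.val) = algebraMap ℂ (DD.K (Rg n)) (DD.ζ n ^ i'.val) := by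
        simpa using h
      have h2 : DD.ζ n ^ i.val = DD.ζ n ^ i'.val := (algebraMap ℂ (DD.K (Rg n))).injective h1
      exact Fin.ext ((DD.prim n).pow_inj (lt_of_lt_of_le i.2 hpM) (lt_of_lt_of_le i'.2 hpM) h2)

/-- **Main** for the concrete tower, given the exploration theorem. -/
theorem main (hex : ExploreStmt) :
    ∃ (D : Type) (_ : DivisionRing D), Countable D ∧ CharZero D ∧
      Algebra.IsAlgebraic (Subring.center D) D ∧
      (∃ x y : D, Algebra.adjoin (Subring.center D) ({x, y} : Set D) = ⊤) ∧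
      ¬ FiniteDimensional (Subring.center D) D :=
  main_of towerLim hex

end Concrete

end Crest.Agent.Kurosh.Main
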