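/-
S0270 (Kurosh), §K: the outer logic of the exploration: the word `b` is put in the entry `k` of the list,
and the class of this entry decides the case (A: all moves vanish, B: a class state with a move).
-/
import Crest.Agent.Kurosh.ExploreDefs
import Crest.Agent.Kurosh.Main

set_option autoImplicit false
set_option linter.unusedSectionVars false

namespace Crest.Agent.Kurosh.Explore

open Hensel State Module LU LU.Tw0 LU.Tw Plan Transport
open _root_.Crest.Agent.Kurosh.Inv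
open _root_.Crest.Agent.Kurosh.Inv.St

variable [Tw0] [Tw] {F : Subfield U} [CentF F]

/-- The list with the word `b` in the entry `k`. -/
noncomputable def setW (Ls : Lst F) (k : ℕ) (b : FreeAlgebra F (Fin 2)) : Lst F :=
  { Ls with a := Function.update Ls.a k b }

@[simp] lemma setW_a_self (Ls : Lst F) (k : ℕ) (b : FreeAlgebra F (Fin 2)) :
    (setW Ls k b).a k = b := by
  simp [setW]

lemma setW_a_lt (Ls : Lst F) {k u : ℕ} (b : FreeAlgebra F (Fin 2)) (hu : u < k) :
    (setW Ls k b).a u = Ls.a u := by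
  simp [setW, Function.update_of_ne (ne_of_lt hu)]

/-- The states of `Ls` and of the new list agree below `k`. -/
theorem sameTo_setW (Ls : Lst F) (k : ℕ) (b : FreeAlgebra F (Fin 2)) (n : ℕ) [Fact (F ≤ Kn n)]
    (Z : Stt n) : SameTo (pt F n Z Ls.a) (pt F n Z (setW Ls k b).a) k where
  ρ := rfl
  τ := rfl
  β i hi := by
    show ev Z (Ls.a i) = ev Z ((setW Ls k b).a i)
    rw [setW_a_lt Ls b hi]
  dL i hi t := by
    show d1 Z t (Ls.a i) = d1 Z t ((setW Ls k b).a i)
    rw [setW_a_lt Ls b hi]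
  d2 i hi t t' := by
    show State.d2 Z t t' (Ls.a i) = State.d2 Z t t' ((setW Ls k b).a i)
    rw [setW_a_lt Ls b hi]

/-- `Valid` below `k` does not see the entry `k`, in both directions. -/
theorem valid_setW (Ls : Lst F) {k : ℕ} (b : FreeAlgebra F (Fin 2)) (n : ℕ) [Fact (F ≤ Kn n)]
    (Z : Stt n) {l r : ℕ} (hr : r ≤ k) {S : ℕ → Set (An n)} {TT : Submodule (Kn n) (Fin 2 → An n)}
    (hV : Valid (pt F n Z Ls.a) (N n) Ls.R Ls.Q l r S TT) :
    Valid (pt F n Z (setW Ls k b).a) (N n) (setW Ls k b).R (setW Ls k b).Q l r S TT := by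
  have hs := (sameTo_setW Ls k b n Z).mono hr
  refine Valid.transfer hs (fun _ _ => rfl) (fun u hu => ?_) (fun u hu => ?_) hV
  · rw [← hs.β u hu]; rfl
  · rw [← hs.β u hu]; rfl

theorem valid_setW' (Ls : Lst F) {k : ℕ} (b : FreeAlgebra F (Fin 2)) (n : ℕ) [Fact (F ≤ Kn n)]
    (Z : Stt n) {l r : ℕ} (hr : r ≤ k) {S : ℕ → Set (An n)} {TT : Submodule (Kn n) (Fin 2 → An n)}
    (hV : Valid (pt F n Z (setW Ls k b).a) (N n) (setW Ls k b).R (setW Ls k b).Q l r S TT) :
    Valid (pt F n Z Ls.a) (N n) Ls.R Ls.Q l r S TT := by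
  have hs := (sameTo_setW Ls k b n Z).mono hr
  refine Valid.transfer hs.symm (fun _ _ => rfl) (fun u hu => ?_) (fun u hu => ?_) hV
  · rw [hs.β u hu]; rfl
  · rw [hs.β u hu]; rfl

/-- The class bound of an older entry does not see the entry `k`. -/
theorem opt_setW (Ls : Lst F) {k u : ℕ} (b : FreeAlgebra F (Fin 2)) (hu : u < k)
    (hO : Opt F Ls u) : Opt F (setW Ls k b) u := by
  intro n _ Z S hab hV hSm
  have hs := (sameTo_setW Ls k b n Z).mono (Nat.succ_le_of_lt hu)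
  have hs' := hs.mono (Nat.le_succ u)
  have hV' : Valid (pt F n Z Ls.a) (N n) Ls.R Ls.Q u u S ((pt F n Z Ls.a).T u) := by
    rw [hs'.T_eq le_rfl]
    exact valid_setW' Ls b n Z hu.le hV
  have hSm' : Smooth (pt F n Z Ls.a) u := fun t ht => by
    rw [hs'.T_eq le_rfl] at ht
    obtain ⟨D, hD, hK, rfl⟩ := hSm t ht
    exact ⟨D, hD, hK, rfl⟩
  exact CB.transfer hs (fun _ _ => rfl) (hO n Z S hab hV' hSm')

/-- The context does not see the entry `k`. -/
theorem ctx_setW (Ls : Lst F) {k : ℕ} (b : FreeAlgebra F (Fin 2)) (n : ℕ) [Fact (F ≤ Kn n)]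
    (ρ : Stt n) {l r : ℕ} (hr : r ≤ k) {S : ℕ → Set (An n)} {TT : Submodule (Kn n) (Fin 2 → An n)}
    (h : Ctx F Ls n ρ l r S TT) : Ctx F (setW Ls k b) n ρ l r S TT where
  valid := valid_setW Ls b n ρ hr h.valid
  above u hu := h.above u hu
  opt u hu := opt_setW Ls b (lt_of_lt_of_le hu hr) (h.opt u hu)

/-- The conclusion for the new list is the conclusion for the old list and the word. -/
theorem concl_of_setW (Ls : Lst F) (n : ℕ) (ρ : Stt n) (k : ℕ) (b : FreeAlgebra F (Fin 2))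
    (h : ExploreConcl F (setW Ls k b) n ρ k ((setW Ls k b).a k)) : ExploreConcl F Ls n ρ k b := by
  obtain ⟨F', hc, hf, s, hs, Ls', n', hf', ρ', k', S', TT', h1, h2, h3, h4, h5, h6⟩ := h
  refine ⟨F', hc, hf, s, hs, Ls', n', hf', ρ', k', S', TT', h1, h2, h3, h4, ?_, ?_⟩
  · refine ⟨fun u hu => ?_, fun u hu => h5.Q u hu, fun u hu => h5.R u hu, fun u hu => h5.Z0 u hu⟩
    rw [h5.a u hu, setW_a_lt Ls b hu]
  · rw [setW_a_self] at h6
    exact h6

/-- **Case B** as a statement: `Ls.a k` is the new word, and a class state has a move. -/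
def CaseBS : Prop :=
  ∀ (F : Subfield U) [CentF F] (Ls : Lst F) (n : ℕ) [Fact (F ≤ Kn n)] (ρ : Stt n) (k : ℕ)
    (S : ℕ → Set (An n)) (TT : Submodule (Kn n) (Fin 2 → An n)),
    Ctx F Ls n ρ k k S TT →
    (∃ (n' : ℕ) (_ : Fact (F ≤ Kn n')) (Z : Stt n'), InC Ls k ⟨n, ρ⟩ n' Z ∧
      (pt F n' Z Ls.a).Mov k ≠ ⊥) →
    ExploreConcl F Ls n ρ k (Ls.a k)

/-- **The exploration**, from the two cases. -/
theorem explore_of (hA : CaseAS) (hB : CaseBS) : Main.ExploreStmt := by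
  intro F _ Ls n _ ρ k S TT h b
  apply concl_of_setW
  have h1 := ctx_setW Ls b n ρ (le_refl k) h
  by_cases hM : ∀ (n' : ℕ) [Fact (F ≤ Kn n')] (Z : Stt n'), InC (setW Ls k b) k ⟨n, ρ⟩ n' Z →
      (pt F n' Z (setW Ls k b).a).Mov k = ⊥
  · exact hA F _ n ρ k S TT h1 hM
  · push_neg at hM
    obtain ⟨n', hf, Z, hZ, hne⟩ := hM
    exact hB F _ n ρ k S TT h1 ⟨n', hf, Z, hZ, hne⟩

end Crest.Agent.Kurosh.Explore
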