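/-
S0270 (Kurosh), §K.1 (helper49): the class bound of the new entry.
* `cb_of_class`: every class state satisfies `CB` for the record `minRec` of the class.
* `opt_new`: `Opt` of the new entry, over a larger coefficient field.
-/
import Crest.Agent.Kurosh.ExploreDefs

set_option autoImplicit false
set_option linter.unusedSectionVars false

namespace Crest.Agent.Kurosh.Explore

open Hensel State Module LU LU.Tw0 LU.Tw Plan Transport
open _root_.Crest.Agent.Kurosh.Inv
open _root_.Crest.Agent.Kurosh.Inv.St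

variable [Tw0] [Tw] {F : Subfield U} [CentF F]

/-- Every class state satisfies the three optimality inequalities for `minRec`. -/
theorem cb_of_class {Ls : Lst F} {k : ℕ} {Z₀ : Σ n, Stt n} {n' : ℕ} [hn : Fact (F ≤ Kn n')]
    {Z : Stt n'} (h : InC Ls k Z₀ n' Z) :
    CB (pt F n' Z Ls.a) (N n') (Function.update Ls.R k (minRec Ls k Z₀)) k := by
  intro y hy hy0
  rw [Function.update_self]
  have h1 : minN Ls k Z₀ ≤ N n' / finrank (Kn n')
      (Algebra.adjoin (Kn n') {(pt F n' Z Ls.a).β k}) :=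
    Nat.sInf_le ⟨n', hn, Z, y, h, hy, hy0, rfl⟩
  refine ⟨(Nat.mul_le_mul_right _ h1).trans (Nat.div_mul_le_self _ _), fun h2 => ?_⟩
  have h3 : minS Ls k Z₀ ≤ N n' / finrank (Kn n') (Ly (pt F n' Z Ls.a) k y) :=
    Nat.sInf_le ⟨n', hn, Z, y, h, hy, hy0, h2, rfl⟩
  refine ⟨(Nat.mul_le_mul_right _ h3).trans (Nat.div_mul_le_self _ _), fun h4 hC => ?_⟩
  have hC' : RC (pt F n' Z Ls.a) (N n') Ls.R k (finrank (Kn n') (Ly (pt F n' Z Ls.a) k y)) := by
    refine ⟨hC.1, fun c hc hc' => ?_⟩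
    have e : qS Ls.R k = qS (Function.update Ls.R k (minRec Ls k Z₀)) k :=
      qS_congr fun u hu => (Function.update_of_ne (Nat.ne_of_lt hu) _ _).symm
    rw [e]
    exact hC.2 c hc hc'
  exact Nat.sInf_le ⟨n', hn, Z, y, h, hy, hy0, h2, h4, hC', rfl⟩

/-- The class bound of the new entry, over a larger coefficient field. -/
theorem opt_new {F' : Subfield U} [CentF F'] [Fact (F ≤ F')] {Ls : Lst F} {Ls' : Lst F'} {k : ℕ}
    {Z₀ : Σ n, Stt n} (hL : ListAgree Ls Ls' k) (ha : Ls'.a k = Transport.tr (Ls.a k))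
    (hZ : Ls'.Z0 k = Z₀) (hR : Ls'.R k = minRec Ls k Z₀) : Opt F' Ls' k := by
  intro n hn Z S hab hV hSm
  have hn0 : Fact (F ≤ Kn n) := ⟨(Fact.out : F ≤ F').trans hn.out⟩
  have ha' : ∀ i < k + 1, Ls'.a i = Transport.tr (Ls.a i) := fun i hi => by
    rcases Nat.lt_succ_iff_lt_or_eq.1 hi with hi | rfl
    · exact hL.a i hi
    · exact ha
  have hs := sameTo_pt (F := F) (F' := F') n Z (a := Ls.a) (a' := Ls'.a) ha'
  have hk : k ≤ k + 1 := Nat.le_succ k
  have hV' : Valid (pt F n Z Ls.a) (N n) Ls.R Ls.Q k k S ((pt F n Z Ls.a).T k) := by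
    rw [hs.T_eq hk]
    exact valid_down n Z hL hV
  have hSm' : Smooth (pt F n Z Ls.a) k := Smooth.down (hs.mono hk) hSm
  have hC : InC Ls k Z₀ n Z := ⟨hZ ▸ hab, ⟨S, hV'⟩, hSm'⟩
  refine CB.transfer hs (fun u hu => ?_) (cb_of_class hC)
  rcases Nat.lt_or_eq_of_le hu with hu | rfl
  · rw [Function.update_of_ne (Nat.ne_of_lt hu), hL.R u hu]
  · rw [Function.update_self, hR]

end Crest.Agent.Kurosh.Explore
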