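/-
S0270 (Kurosh), blueprint §K "V5 at creation" (helper19), first layer: the value lemma for `ad_H⁻¹`.

`Cr`: the data of the new entry `k` at a fresh level-up `X` over `Z`: `H = a_k(X)`, `β = a_k(Z)`,
a frame `u ≡ 1` with `H u - u β = mono y0 0 1 + mono (y0 μ) μ₁ 1 + fil 2`, `y0, μ ∈ K[β]`.
* `e_lower`: the projection to `C(H)` does not lower values (on lower sets);
* `Cr.w`: (W): `t ∈ T(k+1)(X)`, lead `τ₀` at `γ`, then `w_k t` has value `≥ γ - e₁`, lead
  `x ∈ C(β)` with `(ζ^κγ - 1) y0 x = - Π τ₀`.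
-/
import Crest.Agent.Kurosh.VLead

set_option autoImplicit false
set_option linter.unusedSectionVars false

namespace Crest.Agent.Kurosh.Pole

open Hensel State Module LU VLead

variable {K A K' R : Type*} [Field K] [DivisionRing A] [Algebra K A] [Field K'] [DivisionRing R]
  [Algebra K R] [Algebra K' R] [Algebra K K'] [IsScalarTower K K' R] {τ : A →ₗ[K] K}
  {L : Lv K A K' R τ}

/-- The monomial `s'`. -/
def e1 : GLv := idx (0 : CE) 1

lemma e1_pos : (0 : GLv) < e1 := by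
  apply lt_of_fst_lt
  show (0 : ℤ) < 1
  exact one_pos

@[simp] lemma fst_e1 : (ofLex e1).1 = 1 := rfl
@[simp] lemma snd_e1 : (ofLex e1).2 = 0 := rfl

/-- Coefficients below the filtration vanish. -/
lemma c_of_fil {x : R} {j : ℕ} (hx : x ∈ L.lev.Φ.fil j) {h : GLv} (hh : (ofLex h).1 < j) :
    L.c h x = 0 := by
  by_contra hne
  have := (L.lev_fil j x).1 hx h hne
  omega

lemma _root_.Crest.Agent.Kurosh.VLead.VL.of_fil {x : R} {j : ℕ} (hx : x ∈ L.lev.Φ.fil j) {g : GLv} (hg : (ofLex g).1 < j) :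
    VL L x g 0 := by
  refine ⟨fun h hh => c_of_fil hx ?_, c_of_fil hx hg⟩
  exact lt_of_le_of_lt (fst_mono hh.le) hg

lemma _root_.Crest.Agent.Kurosh.VLead.VL.mono_term (x : A) (n : CE) (j : ℕ) : VL L (L.lev.mono x n j) (idx n (j : ℤ)) x :=
  VL.of_phi (L.lev_mono x n j)

lemma _root_.Crest.Agent.Kurosh.VLead.VL.weaken {x : R} {g g' : GLv} {y : A} (h : VL L x g y) (hg : g' < g) : VL L x g' 0 :=
  ⟨fun a ha => h.lt a (lt_trans ha hg), h.lt g' hg⟩

/-- A series of value `≥ g` at all monomials of first coordinate `< j` lies in `fil j`. -/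
lemma mem_fil_of_VL {x : R} {g : GLv} {y : A} (h : VL L x g y) {j : ℕ} (hj : (j : ℤ) ≤ (ofLex g).1) :
    x ∈ L.lev.Φ.fil j := by
  rw [L.lev_fil]
  intro a ha
  by_contra hlt
  have h1 : a < g := lt_of_fst_lt (lt_of_lt_of_le (not_le.1 hlt) hj)
  exact ha (h.lt a h1)

/-- A unit `≡ 1` mod `fil 1` has lead `1` at `0`. -/
lemma vl_of_sub_one {u : R} (hu : u - 1 ∈ L.lev.Φ.fil 1) : VL L u 0 1 := by
  have h1 : VL L (u - 1) 0 0 := VL.of_fil hu (by simp)
  have h2 := h1.add VL.one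
  simpa using h2

/-- The inverse of a unit `≡ 1` is `≡ 1`. -/
lemma inv_sub_one_mem {u : R} (hu : u - 1 ∈ L.lev.Φ.fil 1) : u⁻¹ - 1 ∈ L.lev.Φ.fil 1 := by
  have hV := vl_of_sub_one (L := L) hu
  have hu0 : u ≠ 0 := hV.ne_zero one_ne_zero
  have hinv := vl_inv hV
  have hmem : u⁻¹ ∈ L.lev.Φ.fil 0 := mem_fil_of_VL hinv (by simp)
  have h1 : u⁻¹ - 1 = - (u⁻¹ * (u - 1)) := by
    rw [mul_sub, inv_mul_cancel₀ hu0, mul_one]
    abel
  rw [h1]
  have h2 := L.lev.Φ.mul_mem hmem hu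
  rw [zero_add] at h2
  exact neg_mem h2

/-- `ε(e₁, h) = ζ^κ(h)`. -/
lemma eps_e1_left (h : GLv) : eps L e1 h = L.ζ ^ (κ (ofLex h).2) := by
  show L.ζ ^ ((1 : ℤ) * κ (ofLex h).2) = _
  rw [one_mul]

/-- `ε(h, e₁) = 1`. -/
lemma eps_e1_right (h : GLv) : eps L h e1 = 1 := by
  show L.ζ ^ (((ofLex h).1 : ℤ) * κ (0 : CE)) = 1
  rw [map_zero, mul_zero, zpow_zero]

lemma c_zero_one : L.c 0 (1 : R) = 1 := VL.one.eq

lemma mu1_pos : (0 : CE) < mu1 := by
  refine Prod.Lex.lt_iff.2 (Or.inl ?_)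
  refine Finsupp.Lex.lt_iff.2 ⟨OrderDual.toDual 0, fun j hj => ?_, ?_⟩
  · have hj' : (0 : ℕ) < OrderDual.ofDual j := hj
    change (0 : ℤ) = (Finsupp.single (0 : ℕ) (1 : ℤ) : ℕ →₀ ℤ) (OrderDual.ofDual j) + 0
    rw [Finsupp.single_apply, if_neg (by omega), add_zero]
  · change (0 : ℤ) < (Finsupp.single (0 : ℕ) (1 : ℤ) : ℕ →₀ ℤ) 0 + 0
    simp

lemma zero_mem_centLat (m : ℕ) : (0 : GLv) ∈ centLat m := (centLat m).zero_mem

section Pt

variable {F : Type*} [Field F] [Algebra F K] [Algebra F A] [IsScalarTower F K A] [Algebra F R]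
  [IsScalarTower F K R] [Algebra F K'] [IsScalarTower F K' R]
  {P : Pt F K A (Fin 2)} {P' : Pt F K' R (Fin 2)} {k : ℕ}

/-- The data at the new entry `k`. -/
structure Cr (L : Lv K A K' R τ) (P : Pt F K A (Fin 2)) (P' : Pt F K' R (Fin 2)) (k : ℕ)
    (y0 μ : A) : Prop where
  ov : Over P P' L k
  τ' : ∀ x, P'.τ x = L.τ' x
  τ₀ : ∀ x, P.τ x = τ x
  τ1 : τ 1 = 1
  /-- `X ≡ Z` -/
  fil1 : ∀ v, P'.ρ v - L.lev.inc (P.ρ v) ∈ L.lev.Φ.fil 1
  /-- the frame at `k` -/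
  frame : ∃ u : R, u - 1 ∈ L.lev.Φ.fil 1 ∧
    P'.β k * u - u * L.lev.inc (P.β k) -
      (L.lev.mono y0 0 1 + L.lev.mono (y0 * μ) mu1 1) ∈ L.lev.Φ.fil 2
  y0_ne : y0 ≠ 0
  /-- `y0 ∈ K[β]`, `μ ∈ K[β]` -/
  y0_comm : ∀ c : A, P.β k * c = c * P.β k → y0 * c = c * y0
  μ_comm : ∀ c : A, P.β k * c = c * P.β k → μ * c = c * μ
  y0_β : P.β k * y0 = y0 * P.β k
  μ_β : P.β k * μ = μ * P.β k
  /-- leads of `C(H)`: every `x ∈ C(β)` at every monomial on the line `K ≡ 0` -/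
  cent_lead : ∀ (g : GLv), (L.m : ℤ) ∣ κ (ofLex g).2 → ∀ x : A, P.β k * x = x * P.β k →
    ∃ z : R, P'.β k * z = z * P'.β k ∧ VL L z g x

variable {y0 μ : A}

lemma Cr.τ'_one (h : Cr L P P' k y0 μ) : ∀ x : R, L.c 0 (algebraMap K' R (P'.τ x)) =
    algebraMap K A (τ (L.c 0 x)) := by
  intro x
  rw [h.τ', c_tau x (zero_mem_centLat L.m)]

/-- The value `τ'` has on a series of value `≥ G`. -/
lemma Cr.vl_tau (h : Cr L P P' k y0 μ) {x : R} {G : GLv} {x₀ : A} (hx : VL L x G x₀) :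
    VL L (algebraMap K' R (P'.τ x)) G
      (open Classical in if G ∈ centLat L.m then algebraMap K A (τ x₀) else 0) := by
  classical
  rw [h.τ']
  refine ⟨fun a ha => ?_, ?_⟩
  · rw [Lv.c, L.τ'_coeff]
    split_ifs
    · show algebraMap K A (τ (L.c a x)) = 0
      rw [hx.lt a ha, map_zero, map_zero]
    · rfl
  · rw [Lv.c, L.τ'_coeff]
    split_ifs with hG
    · show algebraMap K A (τ (L.c G x)) = _
      rw [hx.eq]
    · rfl

/-- The projection to `C(H)` does not lower values. -/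
theorem Cr.e_lower (h : Cr L P P' k y0 μ) {D : Set GLv} (hD : ∀ a ∈ D, ∀ b, b ≤ a → b ∈ D) {y : R}
    (hy : ∀ a ∈ D, L.c a y = 0) : ∀ a ∈ D, L.c a (P'.e k y) = 0 := by
  intro a ha
  by_contra hne
  set x := P'.e k y with hxdef
  have hx0 : x ≠ 0 := by
    rintro h0
    rw [h0] at hne
    exact hne (VL.c_zero a)
  have hφ : L.φ x ≠ 0 := fun h0 => hx0 ((map_eq_zero_iff L.φ L.φ.injective).1 h0)
  have hox : (L.φ x).ord ≤ a := THS.ord_le (x := L.φ x) hne
  set o := (L.φ x).ord with ho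
  have hoD : o ∈ D := hD a ha o hox
  -- the inverse has value `-o`
  have hxi : x⁻¹ ≠ 0 := inv_ne_zero hx0
  have hφi : L.φ x⁻¹ ≠ 0 := fun h0 => hxi ((map_eq_zero_iff L.φ L.φ.injective).1 h0)
  have hord : o + (L.φ x⁻¹).ord = 0 := by
    have h1 := THS.ord_mul hφ hφi
    rw [← map_mul, mul_inv_cancel₀ hx0, map_one] at h1
    have h2 : (1 : THS A (twist κ L.ζ L.ζ_ne)).ord = 0 := by
      have h3 : (1 : THS A (twist κ L.ζ L.ζ_ne)) ≠ 0 := one_ne_zero
      have h4 := THS.ord_mem h3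
      by_contra hne0
      apply h4
      show (1 : THS A (twist κ L.ζ L.ζ_ne)).coeff _ = 0
      rw [THS.coeff_one, if_neg hne0]
    rw [h2] at h1
    exact h1.symm
  have hxiV : ∀ b, b < -o → L.c b x⁻¹ = 0 := by
    intro b hb
    by_contra hne'
    have h1 : (L.φ x⁻¹).ord ≤ b := THS.ord_le (x := L.φ x⁻¹) hne'
    have h2 : (L.φ x⁻¹).ord = -o := by
      rw [eq_neg_iff_add_eq_zero, add_comm]
      exact hord
    rw [h2] at h1
    exact absurd h1 (not_le.2 hb)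
  -- the coefficient of `x⁻¹ y` at `0`
  have hc0 : L.c 0 (x⁻¹ * y) = 0 := by
    by_cases hy0 : y = 0
    · rw [hy0, mul_zero, VL.c_zero]
    have hφy : L.φ y ≠ 0 := fun h0 => hy0 ((map_eq_zero_iff L.φ L.φ.injective).1 h0)
    have hoy : o < (L.φ y).ord := by
      by_contra hle
      have hmem := hD o hoD _ (not_lt.1 hle)
      exact THS.ord_mem hφy (hy _ hmem)
    have hyV : ∀ b, b < (L.φ y).ord → L.c b y = 0 := by
      intro b hb
      by_contra hne'
      exact absurd (THS.ord_le (x := L.φ y) hne') (not_le.2 hb)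
    rw [Lv.c, map_mul]
    refine coeff_mul_of_lt hxiV hyV ?_
    have := sub_pos.2 hoy
    rwa [sub_eq_neg_add] at this
  have hcomm : P'.β k * x⁻¹ = x⁻¹ * P'.β k := by
    have h1 : P'.β k * x = x * P'.β k := P'.e_mem k y
    have h2 : x⁻¹ * P'.β k * x = P'.β k := by
      rw [mul_assoc, h1, ← mul_assoc, inv_mul_cancel₀ hx0, one_mul]
    calc P'.β k * x⁻¹ = x⁻¹ * P'.β k * x * x⁻¹ := by rw [h2]
      _ = x⁻¹ * P'.β k := by rw [mul_assoc, mul_inv_cancel₀ hx0, mul_one]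
  have h1 := P'.τ_cent_e hcomm y
  rw [← hxdef, inv_mul_cancel₀ hx0] at h1
  have h2 := h.τ'_one (1 : R)
  have h3 := h.τ'_one (x⁻¹ * y)
  rw [← h1, h2, c_zero_one, h.τ1, hc0, map_zero, map_zero, map_one] at h3
  exact one_ne_zero h3

/-- The frame in the normal form: `u⁻¹ H u = inc β + D`, `D ≡ Y` modulo `fil 2`. -/
lemma Cr.exists_frame' (h : Cr L P P' k y0 μ) : ∃ (u D : R), u - 1 ∈ L.lev.Φ.fil 1 ∧
    u⁻¹ * P'.β k * u = L.lev.inc (P.β k) + D ∧
    D - (L.lev.mono y0 0 1 + L.lev.mono (y0 * μ) mu1 1) ∈ L.lev.Φ.fil 2 := by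
  obtain ⟨u, hu, herr⟩ := h.frame
  have hV := vl_of_sub_one (L := L) hu
  have hu0 : u ≠ 0 := hV.ne_zero one_ne_zero
  set E := P'.β k * u - u * L.lev.inc (P.β k) with hE
  set Y := L.lev.mono y0 0 1 + L.lev.mono (y0 * μ) mu1 1 with hY
  refine ⟨u, u⁻¹ * E, hu, ?_, ?_⟩
  · rw [hE, mul_sub, ← mul_assoc, ← mul_assoc, inv_mul_cancel₀ hu0, one_mul]
    abel
  · have hY1 : Y ∈ L.lev.Φ.fil 1 := add_mem (L.lev.mono_mem _ _ _) (L.lev.mono_mem _ _ _)
    have hE1 : E ∈ L.lev.Φ.fil 1 := by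
      have h1 := add_mem (L.lev.Φ.anti (by omega : 1 ≤ 2) herr) hY1
      simpa using h1
    have h1 : u⁻¹ * E - Y = (u⁻¹ - 1) * E + (E - Y) := by noncomm_ring
    rw [h1]
    exact add_mem (L.lev.Φ.mul_mem (inv_sub_one_mem hu) hE1) herr

/-- The frame in the normal form: `u⁻¹ H u = inc β + D`, `D` of lead `y0` at `e₁`. -/
lemma Cr.exists_frame (h : Cr L P P' k y0 μ) : ∃ (u D : R), VL L u 0 1 ∧
    u⁻¹ * P'.β k * u = L.lev.inc (P.β k) + D ∧ VL L D e1 y0 := by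
  obtain ⟨u, D, hu, hHt, hD⟩ := h.exists_frame'
  refine ⟨u, D, vl_of_sub_one hu, hHt, ?_⟩
  have h1 : VL L (L.lev.mono y0 0 1) e1 y0 := VL.mono_term y0 0 1
  have h2 : VL L (L.lev.mono (y0 * μ) mu1 1) e1 0 := by
    refine (VL.mono_term (L := L) (y0 * μ) mu1 1).weaken ?_
    exact Prod.Lex.lt_iff.2 (Or.inr ⟨rfl, mu1_pos⟩)
  have h3 : VL L (D - (L.lev.mono y0 0 1 + L.lev.mono (y0 * μ) mu1 1)) e1 0 :=
    VL.of_fil hD (by simp)
  have h4 := h3.add (h1.add h2)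
  have h5 : VL L D e1 (0 + (y0 + 0)) := by simpa using h4
  exact h5.of_eq (by simp)

/-- The lead of the bracket with `inc β + D`. -/
lemma c_bracket {D w : R} {o : GLv} {x : A} (hD : VL L D e1 y0) (hw : VL L w o x) :
    VL L (D * w - w * D) (o + e1) (L.ζ ^ (κ (ofLex o).2) • (y0 * x) - x * y0) := by
  have h1 := hD.mul hw
  have h2 := hw.mul hD
  rw [add_comm e1 o, eps_e1_left] at h1
  rw [eps_e1_right, one_smul] at h2
  exact h1.sub h2

lemma c_inc_bracket {β : A} {w : R} (h : GLv) :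
    L.c h (L.lev.inc β * w - w * L.lev.inc β) = β * L.c h w - L.c h w * β := by
  rw [VL.c_sub, c_inc_mul, c_mul_inc]

/-- Commutator `≡` conjugation. -/
lemma conj_bracket {H u Ht : R} (hu : u ≠ 0) (hHt : u⁻¹ * H * u = Ht) (w : R) :
    u⁻¹ * (H * w - w * H) * u = Ht * (u⁻¹ * w * u) - (u⁻¹ * w * u) * Ht := by
  subst hHt
  have h1 : u⁻¹ * H * u * (u⁻¹ * w * u) = u⁻¹ * H * (u * u⁻¹) * w * u := by noncomm_ring
  have h2 : u⁻¹ * w * u * (u⁻¹ * H * u) = u⁻¹ * w * (u * u⁻¹) * H * u := by noncomm_ring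
  rw [h1, h2, mul_inv_cancel₀ hu, mul_one, mul_one]
  noncomm_ring

/-- **(W)** The value lemma for `ad_H⁻¹`. -/
theorem Cr.w (h : Cr L P P' k y0 μ) {t : Fin 2 → R} {τ₀ : Fin 2 → A} {γ : GLv}
    (htT : P'.e k (P'.dL k t) = 0) (ht : ∀ v, VL L (t v) γ (τ₀ v)) :
    ∃ x : A, VL L (P'.w k t) (γ - e1) x ∧ P.β k * x = x * P.β k ∧
      (L.ζ ^ (κ (ofLex γ).2) - 1) • (y0 * x) = - P.e k (P.dL k τ₀) := by
  obtain ⟨u, D, hu, hHt, hD⟩ := h.exists_frame
  have hu0 : u ≠ 0 := hu.ne_zero one_ne_zero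
  have huinv := vl_inv hu
  set H := P'.β k with hH
  set β := P.β k with hβ
  set w := P'.w k t with hw
  set w' := u⁻¹ * w * u with hw'
  have hbr : H * w - w * H = - P'.dL k t := by
    have h1 := P'.dL_add_comm_w k t
    rw [htT] at h1
    rw [eq_neg_iff_add_eq_zero, add_comm]
    exact h1
  have hy : VL L (u⁻¹ * (- P'.dL k t) * u) γ (- P.dL k τ₀) := by
    have h1 := (h.ov.dL ht k).neg
    have h2 := (huinv.mul_zero_left h1).mul_zero_right hu
    simpa using h2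
  have hbr' : L.lev.inc β * w' - w' * L.lev.inc β + (D * w' - w' * D) =
      u⁻¹ * (- P'.dL k t) * u := by
    rw [← hbr, conj_bracket hu0 hHt w, ← hw']
    noncomm_ring
  -- coefficient identity
  have hcoef : ∀ a : GLv, β * L.c a w' - L.c a w' * β + L.c a (D * w' - w' * D) =
      L.c a (u⁻¹ * (- P'.dL k t) * u) := by
    intro a
    rw [← hbr', VL.c_add, c_inc_bracket]
  have hsep : ∀ x : A, (∃ v, β * v - v * β = x) → β * x = x * β → x = 0 := sep_of_split k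
  -- the value
  have hlow : ∀ a, a < γ - e1 → L.c a w' = 0 := by
    intro a ha
    by_contra hne
    have hφ : L.φ w' ≠ 0 := by
      intro h0
      apply hne
      rw [Lv.c, h0]
      rfl
    set o := (L.φ w').ord with ho
    have hoa : o ≤ a := THS.ord_le (x := L.φ w') hne
    have hoγ : o < γ - e1 := lt_of_le_of_lt hoa ha
    have hx : L.c o w' ≠ 0 := THS.ord_mem hφ
    set x := L.c o w' with hxdef
    have hV : VL L w' o x := by
      refine ⟨fun b hb => ?_, rfl⟩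
      by_contra hne'
      exact absurd (THS.ord_le (x := L.φ w') hne') (not_le.2 hb)
    have hbr2 := c_bracket hD hV
    -- at `o`
    have ho1 : o < γ := lt_trans hoγ (sub_lt_self γ e1_pos)
    have hx1 : β * x = x * β := by
      have h1 := hcoef o
      rw [hy.lt o ho1, hbr2.lt o (lt_add_of_pos_right o e1_pos), add_zero] at h1
      exact sub_eq_zero.1 h1
    -- at `o + e1`
    have ho2 : o + e1 < γ := lt_sub_iff_add_lt.1 hoγ
    have h2 := hcoef (o + e1)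
    rw [hy.lt _ ho2, hbr2.eq, ← h.y0_comm x hx1] at h2
    have h3 : (L.ζ ^ (κ (ofLex o).2) - 1) • (y0 * x) = 0 := by
      have h4 := hsep (β * L.c (o + e1) w' - L.c (o + e1) w' * β) ⟨_, rfl⟩
      have hc1 : β * (y0 * x) = (y0 * x) * β := by
        rw [← mul_assoc, h.y0_β, mul_assoc, hx1, mul_assoc]
      have h5 : β * L.c (o + e1) w' - L.c (o + e1) w' * β =
          - ((L.ζ ^ (κ (ofLex o).2) - 1) • (y0 * x)) := by
        rw [sub_smul, one_smul]
        exact eq_neg_of_add_eq_zero_left h2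
      have h6 : β * (β * L.c (o + e1) w' - L.c (o + e1) w' * β) =
          (β * L.c (o + e1) w' - L.c (o + e1) w' * β) * β := by
        rw [h5, mul_neg, neg_mul, mul_smul_comm, smul_mul_assoc, hc1]
      have h7 := h4 h6
      rw [h5, neg_eq_zero] at h7
      exact h7
    have h8 : L.ζ ^ (κ (ofLex o).2) = 1 := by
      have h9 : y0 * x ≠ 0 := mul_ne_zero h.y0_ne hx
      have h10 := (smul_eq_zero.1 h3).resolve_right h9
      exact sub_eq_zero.1 h10
    have hdvd : (L.m : ℤ) ∣ κ (ofLex o).2 := (L.ζ_prim.zpow_eq_one_iff_dvd _).1 h8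
    -- the partner in `C(H)`
    obtain ⟨z, hzc, hzV⟩ := h.cent_lead o hdvd x hx1
    have hz0 : z ≠ 0 := hzV.ne_zero hx
    have hwV : VL L w o x := by
      have h1 := (hu.mul_zero_left hV).mul_zero_right huinv
      have h2 : u * w' * u⁻¹ = w := by
        rw [hw']
        calc u * (u⁻¹ * w * u) * u⁻¹ = (u * u⁻¹) * w * (u * u⁻¹) := by noncomm_ring
          _ = w := by rw [mul_inv_cancel₀ hu0, one_mul, mul_one]
      rw [h2, one_mul, mul_one] at h1
      exact h1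
    -- `z⁻¹` commutes with `H`
    have hzi : H * z⁻¹ = z⁻¹ * H := by
      have h2 : z⁻¹ * H * z = H := by
        rw [mul_assoc, hzc, ← mul_assoc, inv_mul_cancel₀ hz0, one_mul]
      calc H * z⁻¹ = z⁻¹ * H * z * z⁻¹ := by rw [h2]
        _ = z⁻¹ * H := by rw [mul_assoc, mul_inv_cancel₀ hz0, mul_one]
    -- lead of `z⁻¹`
    have hφz : L.φ z ≠ 0 := fun h0 => hz0 ((map_eq_zero_iff L.φ L.φ.injective).1 h0)
    have hord : (L.φ z).ord = o := by
      apply le_antisymm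
      · exact THS.ord_le (x := L.φ z) (by rw [← c_def, hzV.eq]; exact hx)
      · by_contra hlt
        exact THS.ord_mem hφz (hzV.lt _ (not_le.1 hlt))
    have hφzi : L.φ z⁻¹ ≠ 0 := fun h0 =>
      (inv_ne_zero hz0) ((map_eq_zero_iff L.φ L.φ.injective).1 h0)
    have hordi : (L.φ z⁻¹).ord = - o := by
      have h1 := THS.ord_mul hφz hφzi
      rw [← map_mul, mul_inv_cancel₀ hz0, map_one, hord] at h1
      have h2 : (1 : THS A (twist κ L.ζ L.ζ_ne)).ord = 0 := by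
        have h3 : (1 : THS A (twist κ L.ζ L.ζ_ne)) ≠ 0 := one_ne_zero
        have h4 := THS.ord_mem h3
        by_contra hne0
        apply h4
        show (1 : THS A (twist κ L.ζ L.ζ_ne)).coeff _ = 0
        rw [THS.coeff_one, if_neg hne0]
      rw [h2] at h1
      rw [eq_neg_iff_add_eq_zero, add_comm]
      exact h1.symm
    have hziV : VL L z⁻¹ (-o) (L.c (-o) z⁻¹) := by
      refine ⟨fun b hb => ?_, rfl⟩
      by_contra hne'
      have := THS.ord_le (x := L.φ z⁻¹) hne'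
      rw [hordi] at this
      exact absurd this (not_le.2 hb)
    have h1 := hzV.mul hziV
    rw [mul_inv_cancel₀ hz0, add_neg_cancel] at h1
    have h1e := h1.eq
    rw [c_zero_one] at h1e
    have h2 := hwV.mul hziV
    rw [add_neg_cancel] at h2
    have h3' : L.c 0 (w * z⁻¹) = 1 := by
      rw [h2.eq]
      exact h1e.symm
    -- the pairing
    obtain ⟨y', hy'⟩ := (mem_imAd (K := K')).1 (P'.w_mem k t)
    have h4 := P'.τ_cent_comm (c := z⁻¹) hzi y'
    rw [hy', ← hw, P'.τ_comm] at h4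
    have h5 := h.τ'_one (w * z⁻¹)
    rw [h4, map_zero, VL.c_zero, h3', h.τ1, map_one] at h5
    exact one_ne_zero h5.symm
  set x := L.c (γ - e1) w' with hxdef
  have hV : VL L w' (γ - e1) x := ⟨hlow, rfl⟩
  have hbr2 := c_bracket hD hV
  have hle : γ - e1 < γ := sub_lt_self γ e1_pos
  have hx1 : β * x = x * β := by
    have h1 := hcoef (γ - e1)
    rw [hy.lt _ hle, hbr2.lt _ (lt_add_of_pos_right _ e1_pos), add_zero] at h1
    exact sub_eq_zero.1 h1
  refine ⟨x, ?_, hx1, ?_⟩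
  · have h1 := (hu.mul_zero_left hV).mul_zero_right huinv
    have h2 : u * w' * u⁻¹ = w := by
      rw [hw']
      calc u * (u⁻¹ * w * u) * u⁻¹ = (u * u⁻¹) * w * (u * u⁻¹) := by noncomm_ring
        _ = w := by rw [mul_inv_cancel₀ hu0, one_mul, mul_one]
    rw [h2, one_mul, mul_one] at h1
    exact h1
  · have h2 := hcoef γ
    have hγe : γ - e1 + e1 = γ := sub_add_cancel γ e1
    rw [hγe] at hbr2
    rw [hy.eq, hbr2.eq, ← h.y0_comm x hx1] at h2
    have hκ : κ (ofLex (γ - e1)).2 = κ (ofLex γ).2 := by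
      show κ ((ofLex γ).2 - (ofLex e1).2) = _
      rw [snd_e1, sub_zero]
    rw [hκ] at h2
    -- apply the projection
    have h3 := congrArg (P.e k) h2
    rw [map_add, P.e_comm, zero_add, map_neg, map_sub, map_smul] at h3
    have hc1 : P.β k * (y0 * x) = (y0 * x) * P.β k := by
      rw [← mul_assoc, h.y0_β, mul_assoc, hx1, mul_assoc]
    rw [P.e_of_mem_cent k hc1] at h3
    rw [sub_smul, one_smul]
    exact h3

end Pt

end Crest.Agent.Kurosh.Pole
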