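/-
S0270 (Kurosh), blueprint §K "V5 at creation" (helper19), second layer: `Π_k` of a fresh move.

* `Cr.chain`, `Cr.pi_move`: for a move `t` with lead `τ₀` at `n0`, order `J`:
  `∂a_k[t] + [H,x] ≡ ρ₀ mono(μ^a z)(n0 + a μ₁) J` mod `fil (J+1)` (`z = Π τ₀`), as long as
  `κ n0 + b ≢ 0` for `b < a` (no `Ξ`: an explicit chain of commutators);
* `Cr.e_lead`: hence the value of `Π_k t`;
* `Cr.exists_K0`, `Cr.exists_K1`: leads of `Mov_k(X)` (moves at `K ≡ 0`, `K ≡ -1`);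
* `Cr.pre`: every element of `Mov_k(X)` has a preimage of controlled value;
* `Cr.corr`: (CORR): for `K ≢ 0,-1` and `τ₀ ∈ T0`, `T(k+1)(X)` has an element of lead `τ₀` at the
  class `(K,j)`.
-/
import Crest.Agent.Kurosh.PoleW
import Crest.Agent.Kurosh.LeadK
import Crest.Agent.Kurosh.ValH

set_option autoImplicit false
set_option linter.unusedSectionVars false

namespace Crest.Agent.Kurosh.Pole

open Hensel State Module LU VLead

variable {K A K' R : Type*} [Field K] [DivisionRing A] [Algebra K A] [Field K'] [DivisionRing R]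
  [Algebra K R] [Algebra K' R] [Algebra K K'] [IsScalarTower K K' R] {τ : A →ₗ[K] K}
  {L : Lv K A K' R τ}
  {F : Type*} [Field F] [Algebra F K] [Algebra F A] [IsScalarTower F K A] [Algebra F R]
  [IsScalarTower F K R] [Algebra F K'] [IsScalarTower F K' R]
  {P : Pt F K A (Fin 2)} {P' : Pt F K' R (Fin 2)} {k : ℕ} {y0 μ : A}

lemma vl_fil0 (x : A) : L.lev.inc x ∈ L.lev.Φ.fil 0 := L.lev.inc_mem x

/-- The point above is the point below modulo `fil 1`, in the form used by the Taylor lemmas. -/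
lemma Cr.ρ_eq (_h : Cr L P P' k y0 μ) :
    P'.ρ = (fun v => L.lev.inc (P.ρ v)) + (fun v => P'.ρ v - L.lev.inc (P.ρ v)) := by
  funext v
  simp

/-- `H ≡ inc β` mod `fil 1`. -/
lemma Cr.H_sub (h : Cr L P P' k y0 μ) : P'.β k - L.lev.inc (P.β k) ∈ L.lev.Φ.fil 1 := by
  have h1 := Calculus.taylor0 L.lev.Φ (L.lev.coef_mem (F := F)) (ρ := fun v => L.lev.inc (P.ρ v))
    (V := fun v => P'.ρ v - L.lev.inc (P.ρ v)) (fun v => vl_fil0 _) h.fil1 (P.a k)
  rw [← h.ρ_eq, L.lev.ev_inc] at h1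
  have e : P'.β k = Calculus.ev P'.ρ (P.a k) := by
    show State.ev P'.ρ (P'.a k) = _
    rw [h.ov.a]
    rfl
  rw [e]
  exact h1

/-- The first derivative at a move. -/
lemma Cr.dL_move (h : Cr L P P' k y0 μ) {t : Fin 2 → R} {τ₀ : Fin 2 → A} {n : CE} {J : ℕ}
    (ht : ∀ v, t v - L.lev.mono (τ₀ v) n J ∈ L.lev.Φ.fil (J + 1)) :
    P'.dL k t - L.lev.mono (P.dL k τ₀) n J ∈ L.lev.Φ.fil (J + 1) := by
  have hX0 : ∀ v, P'.ρ v ∈ L.lev.Φ.fil 0 := by
    intro v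
    have h1 := add_mem (L.lev.Φ.anti (Nat.zero_le 1) (h.fil1 v)) (vl_fil0 (L := L) (P.ρ v))
    simpa using h1
  set δ : Fin 2 → R := fun v => L.lev.mono (τ₀ v) n J with hδ
  have hδm : ∀ v, δ v ∈ L.lev.Φ.fil J := fun v => L.lev.mono_mem _ _ _
  have e0 : P'.dL k t = Calculus.pd P'.ρ t (P.a k) := by
    rw [Pt.dL_apply, h.ov.a, pd_eq_d1]
  have e1 : t = δ + (t - δ) := by abel
  have h1 : Calculus.pd P'.ρ (t - δ) (P.a k) ∈ L.lev.Φ.fil (J + 1) :=
    Calculus.pd_mem L.lev.Φ (L.lev.coef_mem (F := F)) hX0 ht (P.a k)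
  have h2 := Calculus.pd_taylor0 L.lev.Φ (L.lev.coef_mem (F := F))
    (ρ := fun v => L.lev.inc (P.ρ v)) (V := fun v => P'.ρ v - L.lev.inc (P.ρ v)) (t := δ)
    (fun v => vl_fil0 _) h.fil1 hδm (P.a k)
  rw [← h.ρ_eq, L.lev.pd_mono] at h2
  have e2 : Calculus.pd P'.ρ t (P.a k) = Calculus.pd P'.ρ δ (P.a k) +
      Calculus.pd P'.ρ (t - δ) (P.a k) := by
    rw [← Calculus.pd_dir_add]
    congr 1
  have e3 : P.dL k τ₀ = State.d1 P.ρ τ₀ (P.a k) := rfl
  rw [e0, e2, e3]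
  rw [add_comm 1 J] at h2
  have h3 := add_mem h2 h1
  convert h3 using 1
  abel

/-- The commutator with `inc β` modulo higher order. -/
lemma Cr.comm_move (h : Cr L P P' k y0 μ) (x : A) (n : CE) (J : ℕ) :
    (P'.β k * L.lev.mono x n J - L.lev.mono x n J * P'.β k) -
      L.lev.mono (P.β k * x - x * P.β k) n J ∈ L.lev.Φ.fil (J + 1) := by
  have h1 := L.lev.Φ.mul_mem h.H_sub (L.lev.mono_mem x n J)
  have h2 := L.lev.Φ.mul_mem (L.lev.mono_mem x n J) h.H_sub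
  rw [add_comm 1 J] at h1
  have h3 := sub_mem h1 h2
  convert h3 using 1
  rw [sub_mul, mul_sub, L.lev.mono_sub, ← L.lev.inc_mul_mono, ← L.lev.mono_mul_inc]
  abel

/-- The bracket with `Y`. -/
lemma bracket_Y (L : Lv K A K' R τ) {ξ : A} (hξ1 : ξ * y0 = y0 * ξ) (hξ2 : ξ * μ = μ * ξ) (n : CE) (J : ℕ) :
    (L.lev.mono y0 0 1 + L.lev.mono (y0 * μ) mu1 1) * L.lev.mono ξ n J
      - L.lev.mono ξ n J * (L.lev.mono y0 0 1 + L.lev.mono (y0 * μ) mu1 1) =
    (L.ζ ^ κ n - 1) • L.lev.mono (y0 * ξ) n (J + 1)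
      + (L.ζ ^ κ n - L.ζ ^ (J : ℤ)) • L.lev.mono (y0 * μ * ξ) (n + mu1) (J + 1) := by
  have hκ : L.lev.κ = κ := L.lev_κ
  have hζ : L.lev.ζ = L.ζ := L.lev_ζ
  rw [add_mul, mul_add, L.lev.mono_mul, L.lev.mono_mul, L.lev.mono_mul, L.lev.mono_mul]
  simp only [hκ, hζ, map_zero, κ_mu1, Nat.cast_one, one_mul, mul_zero, zpow_zero, one_smul, mul_one,
    zero_add, add_zero]
  have e1 : ξ * y0 = y0 * ξ := hξ1
  have e2 : ξ * (y0 * μ) = y0 * μ * ξ := by
    rw [← mul_assoc, hξ1, mul_assoc, hξ2, mul_assoc]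
  rw [e1, e2, add_comm mu1 n, add_comm 1 J, sub_smul, sub_smul, one_smul]
  abel

/-- One step of the chain. -/
lemma Cr.step (h : Cr L P P' k y0 μ) {ξ : A} (hξ0 : P.β k * ξ = ξ * P.β k) (hξ1 : ξ * y0 = y0 * ξ)
    (hξ2 : ξ * μ = μ * ξ) (n : CE) (J : ℕ) :
    ∃ x : R, (P'.β k * x - x * P'.β k) -
      ((L.ζ ^ κ n - 1) • L.lev.mono (y0 * ξ) n (J + 1)
        + (L.ζ ^ κ n - L.ζ ^ (J : ℤ)) • L.lev.mono (y0 * μ * ξ) (n + mu1) (J + 1))
      ∈ L.lev.Φ.fil (J + 2) := by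
  obtain ⟨u, D, hu, hHt, hD⟩ := h.exists_frame'
  have hV := vl_of_sub_one (L := L) hu
  have hu0 : u ≠ 0 := hV.ne_zero one_ne_zero
  have hui := inv_sub_one_mem (L := L) hu
  set x₀ := L.lev.mono ξ n J with hx₀
  set Y := L.lev.mono y0 0 1 + L.lev.mono (y0 * μ) mu1 1 with hY
  set Bexp := (L.ζ ^ κ n - 1) • L.lev.mono (y0 * ξ) n (J + 1)
        + (L.ζ ^ κ n - L.ζ ^ (J : ℤ)) • L.lev.mono (y0 * μ * ξ) (n + mu1) (J + 1) with hBexp
  have hBexp_mem : Bexp ∈ L.lev.Φ.fil (J + 1) :=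
    add_mem (L.lev.smul_mem _ (L.lev.mono_mem _ _ _)) (L.lev.smul_mem _ (L.lev.mono_mem _ _ _))
  have hx0m : x₀ ∈ L.lev.Φ.fil J := L.lev.mono_mem _ _ _
  -- the bracket with `Ht`
  set Ht := L.lev.inc (P.β k) + D with hHtd
  have h1 : Ht * x₀ - x₀ * Ht - Bexp ∈ L.lev.Φ.fil (J + 2) := by
    have e1 : Ht * x₀ - x₀ * Ht - Bexp = (L.lev.inc (P.β k) * x₀ - x₀ * L.lev.inc (P.β k))
        + ((D - Y) * x₀ - x₀ * (D - Y)) + (Y * x₀ - x₀ * Y - Bexp) := by
      rw [hHtd]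
      noncomm_ring
    have e2 : L.lev.inc (P.β k) * x₀ - x₀ * L.lev.inc (P.β k) = 0 := by
      rw [hx₀, L.lev.inc_mul_mono, L.lev.mono_mul_inc, ← hξ0, sub_self]
    have e3 : Y * x₀ - x₀ * Y - Bexp = 0 := by
      rw [hx₀, hY, bracket_Y L hξ1 hξ2, hBexp, sub_self]
    rw [e1, e2, e3, zero_add, add_zero]
    have h2 := L.lev.Φ.mul_mem hD hx0m
    have h3 := L.lev.Φ.mul_mem hx0m hD
    rw [add_comm 2 J] at h2
    exact sub_mem h2 h3
  have hB1 : Ht * x₀ - x₀ * Ht ∈ L.lev.Φ.fil (J + 1) := by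
    have := add_mem (L.lev.Φ.anti (by omega : J + 1 ≤ J + 2) h1) hBexp_mem
    simpa using this
  refine ⟨u * x₀ * u⁻¹, ?_⟩
  set B := Ht * x₀ - x₀ * Ht with hB
  have h2 : P'.β k * (u * x₀ * u⁻¹) - (u * x₀ * u⁻¹) * P'.β k = u * B * u⁻¹ := by
    have h3 := conj_bracket hu0 hHt (u * x₀ * u⁻¹)
    have h4 : u⁻¹ * (u * x₀ * u⁻¹) * u = x₀ := by
      calc u⁻¹ * (u * x₀ * u⁻¹) * u = (u⁻¹ * u) * x₀ * (u⁻¹ * u) := by noncomm_ring
        _ = x₀ := by rw [inv_mul_cancel₀ hu0, one_mul, mul_one]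
    rw [h4, ← hB] at h3
    calc P'.β k * (u * x₀ * u⁻¹) - (u * x₀ * u⁻¹) * P'.β k
        = (u * u⁻¹) * (P'.β k * (u * x₀ * u⁻¹) - (u * x₀ * u⁻¹) * P'.β k) * (u * u⁻¹) := by
            rw [mul_inv_cancel₀ hu0, one_mul, mul_one]
      _ = u * (u⁻¹ * (P'.β k * (u * x₀ * u⁻¹) - (u * x₀ * u⁻¹) * P'.β k) * u) * u⁻¹ := by
            noncomm_ring
      _ = u * B * u⁻¹ := by rw [h3]
  rw [h2]
  have e : u * B * u⁻¹ - Bexp = (u - 1) * B * u⁻¹ + B * (u⁻¹ - 1) + (B - Bexp) := by noncomm_ring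
  rw [e]
  have hu00 : u⁻¹ ∈ L.lev.Φ.fil 0 := by
    have := add_mem (L.lev.Φ.anti (Nat.zero_le 1) hui) L.lev.one_mem
    simpa using this
  refine add_mem (add_mem ?_ ?_) h1
  · have h3 := L.lev.Φ.mul_mem (L.lev.Φ.mul_mem hu hB1) hu00
    have e4 : 1 + (J + 1) + 0 = J + 2 := by omega
    rwa [e4] at h3
  · have h3 := L.lev.Φ.mul_mem hB1 hui
    have e4 : J + 1 + 1 = J + 2 := by omega
    rwa [e4] at h3

/-- The coefficient of the chain. -/
noncomputable def chainC (L : Lv K A K' R τ) (n : CE) (J : ℕ) : ℕ → K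
  | 0 => 1
  | a + 1 => - chainC L n J a * ((L.ζ ^ (κ n + (a : ℤ)) - L.ζ ^ (J : ℤ)) / (L.ζ ^ (κ n + (a : ℤ)) - 1))

lemma κ_add_nsmul (n : CE) (a : ℕ) : κ (n + a • mu1) = κ n + (a : ℤ) := by
  rw [map_add, map_nsmul, κ_mu1, nsmul_eq_mul, mul_one]

/-- `C(β)` is closed under products, inverses... -/
lemma comm_mul {β x y : A} (hx : β * x = x * β) (hy : β * y = y * β) :
    β * (x * y) = (x * y) * β := by
  rw [← mul_assoc, hx, mul_assoc, hy, mul_assoc]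

lemma comm_inv {β x : A} (hx : β * x = x * β) : β * x⁻¹ = x⁻¹ * β := by
  by_cases h0 : x = 0
  · simp [h0]
  have h2 : x⁻¹ * β * x = β := by
    rw [mul_assoc, hx, ← mul_assoc, inv_mul_cancel₀ h0, one_mul]
  calc β * x⁻¹ = x⁻¹ * β * x * x⁻¹ := by rw [h2]
    _ = x⁻¹ * β := by rw [mul_assoc, mul_inv_cancel₀ h0, mul_one]

lemma comm_pow {β x : A} (hx : β * x = x * β) (a : ℕ) : β * x ^ a = x ^ a * β :=
  (Commute.pow_right hx a)

lemma comm_smul {β x : A} (c : K) (hx : β * x = x * β) : β * (c • x) = (c • x) * β := by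
  rw [mul_smul_comm, smul_mul_assoc, hx]

/-- **The chain.** -/
theorem Cr.chain (h : Cr L P P' k y0 μ) {z : A} (hz : P.β k * z = z * P.β k) (n : CE) (J a : ℕ)
    (ha : ∀ b < a, ¬ (L.m : ℤ) ∣ κ n + (b : ℤ)) :
    ∃ x : R, L.lev.mono z n (J + 1) + (P'.β k * x - x * P'.β k)
      - chainC L n J a • L.lev.mono (μ ^ a * z) (n + a • mu1) (J + 1) ∈ L.lev.Φ.fil (J + 2) := by
  induction a with
  | zero =>
    refine ⟨0, ?_⟩
    have : L.lev.mono z n (J + 1) + (P'.β k * 0 - 0 * P'.β k)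
      - chainC L n J 0 • L.lev.mono (μ ^ 0 * z) (n + (0 : ℕ) • mu1) (J + 1) = 0 := by
      simp [chainC]
    rw [this]
    exact zero_mem _
  | succ a ih =>
    obtain ⟨x, hx⟩ := ih (fun b hb => ha b (by omega))
    have hne : L.ζ ^ (κ n + (a : ℤ)) - 1 ≠ 0 := by
      intro h0
      apply ha a (by omega)
      exact (L.ζ_prim.zpow_eq_one_iff_dvd _).1 (sub_eq_zero.1 h0)
    set d := L.ζ ^ (κ n + (a : ℤ)) - 1 with hd
    have hy0β := h.y0_β
    have hμβ := h.μ_β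
    have hμa : P.β k * (μ ^ a * z) = (μ ^ a * z) * P.β k := comm_mul (comm_pow hμβ a) hz
    set ξ : A := d⁻¹ • (y0⁻¹ * (μ ^ a * z)) with hξ
    have hξβ : P.β k * ξ = ξ * P.β k := comm_smul _ (comm_mul (comm_inv hy0β) hμa)
    have hξy : ξ * y0 = y0 * ξ := (h.y0_comm ξ hξβ).symm
    have hξμ : ξ * μ = μ * ξ := (h.μ_comm ξ hξβ).symm
    obtain ⟨x', hx'⟩ := h.step hξβ hξy hξμ (n + a • mu1) J
    rw [κ_add_nsmul] at hx'
    have e1 : y0 * ξ = d⁻¹ • (μ ^ a * z) := by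
      rw [hξ, mul_smul_comm, ← mul_assoc, mul_inv_cancel₀ h.y0_ne, one_mul]
    have e2 : y0 * μ * ξ = d⁻¹ • (μ ^ (a + 1) * z) := by
      have : y0 * μ * ξ = μ * (y0 * ξ) := by
        have h1 : y0 * μ = μ * y0 := h.μ_comm y0 hy0β |>.symm
        rw [h1, mul_assoc]
      rw [this, e1, mul_smul_comm, pow_succ', mul_assoc]
    have hd0 : d⁻¹ ≠ 0 := inv_ne_zero hne
    rw [e1, e2] at hx'
    set ρ₀ := chainC L n J a with hρ₀
    refine ⟨x - ρ₀ • x', ?_⟩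
    have e3 : chainC L n J (a + 1) = - ρ₀ * ((L.ζ ^ (κ n + (a : ℤ)) - L.ζ ^ (J : ℤ)) / d) := rfl
    set b := L.ζ ^ (κ n + (a : ℤ)) - L.ζ ^ (J : ℤ) with hb
    have e4 : n + (a + 1) • mu1 = n + a • mu1 + mu1 := by
      rw [add_smul, one_smul, add_assoc]
    rw [e3, e4]
    have hs1 : ∀ (c : K) (u : A) (n : CE) (j : ℕ), L.lev.mono (c • u) n j = c • L.lev.mono u n j :=
      fun c u n j => L.lev.mono_smul c u n j
    rw [hs1, hs1] at hx'
    rw [← hd] at hx'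
    set M0 := L.lev.mono (μ ^ a * z) (n + a • mu1) (J + 1) with hM0
    set M1 := L.lev.mono (μ ^ (a + 1) * z) (n + a • mu1 + mu1) (J + 1) with hM1
    set B' := P'.β k * x' - x' * P'.β k with hB'
    have hcomm : P'.β k * (x - ρ₀ • x') - (x - ρ₀ • x') * P'.β k
        = (P'.β k * x - x * P'.β k) - ρ₀ • B' := by
      rw [hB', mul_sub, sub_mul, mul_smul_comm, smul_mul_assoc, smul_sub]
      abel
    rw [hcomm]
    have h2 := L.lev.smul_mem ρ₀ hx'
    have h3 := sub_mem hx h2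
    clear_value B'
    convert h3 using 1
    have e6 : ρ₀ * d * d⁻¹ = ρ₀ := by
      rw [mul_assoc, mul_inv_cancel₀ hne, mul_one]
    have e7 : (- ρ₀ * (b / d)) = - (ρ₀ * b * d⁻¹) := by
      rw [div_eq_mul_inv]; ring
    rw [smul_sub, smul_add, smul_smul, smul_smul, smul_smul, smul_smul, e6, e7, neg_smul]
    abel

/-- The move: `∂a_k[t] + [H,x] ≡ ρ₀ mono(μ^a Πτ₀) (n0 + a μ₁) (J+1)`. -/
theorem Cr.pi_move (h : Cr L P P' k y0 μ) {t : Fin 2 → R} {τ₀ : Fin 2 → A} {n0 : CE} {J a : ℕ}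
    (ht : ∀ v, t v - L.lev.mono (τ₀ v) n0 (J + 1) ∈ L.lev.Φ.fil (J + 2))
    (ha : ∀ b < a, ¬ (L.m : ℤ) ∣ κ n0 + (b : ℤ)) :
    ∃ x : R, P'.dL k t + (P'.β k * x - x * P'.β k)
      - chainC L n0 J a • L.lev.mono (μ ^ a * P.e k (P.dL k τ₀)) (n0 + a • mu1) (J + 1)
        ∈ L.lev.Φ.fil (J + 2) := by
  set z := P.e k (P.dL k τ₀) with hz
  have hzc : P.β k * z = z * P.β k := P.e_mem k _
  obtain ⟨x, hx⟩ := h.chain hzc n0 J a ha
  have h1 := h.dL_move (n := n0) (J := J + 1) (τ₀ := τ₀) (t := t) ht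
  have h2 := h.comm_move (P.w k τ₀) n0 (J + 1)
  refine ⟨L.lev.mono (P.w k τ₀) n0 (J + 1) + x, ?_⟩
  have e : z = P.dL k τ₀ + (P.β k * P.w k τ₀ - P.w k τ₀ * P.β k) := (P.dL_add_comm_w k τ₀).symm
  have h3 := add_mem (add_mem h1 h2) hx
  convert h3 using 1
  rw [e, L.lev.mono_add, L.lev.mono_sub]
  rw [← e]
  noncomm_ring

/-- Value of `Π` from a congruence. -/
theorem Cr.e_low (h : Cr L P P' k y0 μ) {y x : R} {ρ₀ : K} {E : A} {n : CE} {J : ℕ}
    (hy : y + (P'.β k * x - x * P'.β k) - ρ₀ • L.lev.mono E n J ∈ L.lev.Φ.fil (J + 1)) :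
    ∀ a, a < idx n (J : ℤ) → L.c a (P'.e k y) = 0 := by
  have e0 : P'.e k y = P'.e k (y + (P'.β k * x - x * P'.β k)) := by
    rw [map_add, P'.e_of_mem_imAd k ((mem_imAd).2 ⟨x, rfl⟩), add_zero]
  rw [e0]
  refine h.e_lower (D := {a | a < idx n (J : ℤ)}) (fun a ha b hb => lt_of_le_of_lt hb ha) ?_
  intro a ha
  have h1 : VL L (y + (P'.β k * x - x * P'.β k) - ρ₀ • L.lev.mono E n J) (idx n (J : ℤ)) 0 :=
    VL.of_fil hy (by simp)
  have h2 : VL L (ρ₀ • L.lev.mono E n J) (idx n (J : ℤ)) (ρ₀ • E) := by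
    have h3 := ValH.vl_scalar ρ₀ (VL.mono_term (L := L) E n J)
    rwa [← Algebra.smul_def] at h3
  have h4 := h1.add h2
  rw [sub_add_cancel] at h4
  exact h4.lt a ha

/-- Lead of `Π` from a congruence at a central class. -/
theorem Cr.e_lead (h : Cr L P P' k y0 μ) {y x : R} {ρ₀ : K} {E : A} {n : CE} {J : ℕ}
    (hy : y + (P'.β k * x - x * P'.β k) - ρ₀ • L.lev.mono E n J ∈ L.lev.Φ.fil (J + 1))
    (hn : (L.m : ℤ) ∣ κ n) (hE : P.β k * E = E * P.β k) :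
    VL L (P'.e k y) (idx n (J : ℤ)) (ρ₀ • E) := by
  obtain ⟨z, hzc, hzV⟩ := h.cent_lead (idx n (J : ℤ)) hn E hE
  have e0 : P'.e k y = P'.e k (y + (P'.β k * x - x * P'.β k)) := by
    rw [map_add, P'.e_of_mem_imAd k ((mem_imAd).2 ⟨x, rfl⟩), add_zero]
  set y' := y + (P'.β k * x - x * P'.β k) with hy'
  -- the difference
  have hsc : ρ₀ • z = algebraMap K K' ρ₀ • z := (algebraMap_smul K' ρ₀ z).symm
  have hz' : P'.e k (ρ₀ • z) = ρ₀ • z := P'.e_of_mem_cent k (by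
    rw [mul_smul_comm, smul_mul_assoc, hzc])
  have h1 : VL L (ρ₀ • z) (idx n (J : ℤ)) (ρ₀ • E) := by
    have h3 := ValH.vl_scalar ρ₀ hzV
    rwa [← Algebra.smul_def] at h3
  have h2 : VL L (ρ₀ • L.lev.mono E n J) (idx n (J : ℤ)) (ρ₀ • E) := by
    have h3 := ValH.vl_scalar ρ₀ (VL.mono_term (L := L) E n J)
    rwa [← Algebra.smul_def] at h3
  have h3 : VL L (y' - ρ₀ • L.lev.mono E n J) (idx n (J : ℤ)) 0 := VL.of_fil hy (by simp)
  have h4 : VL L (y' - ρ₀ • z) (idx n (J : ℤ)) 0 := by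
    have h5 := (h3.add h2).sub h1
    rw [sub_add_cancel] at h5
    refine h5.of_eq ?_
    simp
  have h5 : ∀ a ∈ {a | a ≤ idx n (J : ℤ)}, L.c a (P'.e k (y' - ρ₀ • z)) = 0 := by
    refine h.e_lower (fun a ha b hb => le_trans hb ha) ?_
    intro a ha
    have ha' : a ≤ idx n (J : ℤ) := ha
    rcases lt_or_eq_of_le ha' with hlt | rfl
    · exact h4.lt a hlt
    · exact h4.eq
  have e1 : P'.e k (y' - ρ₀ • z) = P'.e k y - ρ₀ • z := by
    rw [map_sub, hz', ← e0]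
  rw [e1] at h5
  have h6 : VL L (P'.e k y - ρ₀ • z) (idx n (J : ℤ)) 0 := ⟨fun a ha => h5 a (le_of_lt ha), h5 _ (show idx n (J : ℤ) ≤ idx n (J : ℤ) from le_refl _)⟩
  have h7 := h6.add h1
  rw [sub_add_cancel, zero_add] at h7
  exact h7

/-- The shift `μ̂ = (μ₁, order 0)`. -/
noncomputable def muhat : GLv := idx mu1 0

lemma muhat_pos : (0 : GLv) < muhat := by
  refine Prod.Lex.lt_iff.2 (Or.inr ⟨rfl, mu1_pos⟩)

lemma idx_add (n n' : CE) (j j' : ℤ) : idx n j + idx n' j' = idx (n + n') (j + j') := rfl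

lemma idx_sub (n n' : CE) (j j' : ℤ) : idx n j - idx n' j' = idx (n - n') (j - j') := rfl

lemma mem_centLat_iff {g : GLv} :
    g ∈ centLat L.m ↔ (L.m : ℤ) ∣ (ofLex g).1 ∧ (L.m : ℤ) ∣ κ (ofLex g).2 := Iff.rfl

lemma fst_sub (g g' : GLv) : (ofLex (g - g')).1 = (ofLex g).1 - (ofLex g').1 := rfl

lemma κ_sub_snd (g g' : GLv) : κ (ofLex (g - g')).2 = κ (ofLex g).2 - κ (ofLex g').2 := by
  show κ ((ofLex g).2 - (ofLex g').2) = _
  rw [map_sub]

lemma fst_add (g g' : GLv) : (ofLex (g + g')).1 = (ofLex g).1 + (ofLex g').1 := rfl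

lemma κ_add_snd (g g' : GLv) : κ (ofLex (g + g')).2 = κ (ofLex g).2 + κ (ofLex g').2 := by
  show κ ((ofLex g).2 + (ofLex g').2) = _
  rw [map_add]

/-- The moves. -/
structure Mv (L : Lv K A K' R τ) (P : Pt F K A (Fin 2)) (P' : Pt F K' R (Fin 2)) (k : ℕ)
    (T0 : Submodule K (Fin 2 → A)) : Prop where
  move : ∀ (a j : ℤ), ∀ τ₀ ∈ T0, ∃ t ∈ P'.T k, ∃ (n0 : CE) (J : ℕ), (L.m : ℤ) ∣ κ n0 - a ∧
    (L.m : ℤ) ∣ ((J : ℤ) + 1) - j ∧ ∀ v, t v - L.lev.mono (τ₀ v) n0 (J + 1) ∈ L.lev.Φ.fil (J + 2)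

lemma vl_of_move {x : R} {y : A} {n0 : CE} {J : ℕ}
    (h : x - L.lev.mono y n0 (J + 1) ∈ L.lev.Φ.fil (J + 2)) :
    VL L x (idx n0 ((J + 1 : ℕ) : ℤ)) y := by
  have h1 : VL L (x - L.lev.mono y n0 (J + 1)) (idx n0 ((J + 1 : ℕ) : ℤ)) 0 :=
    VL.of_fil h (by simp)
  have h2 := h1.add (VL.mono_term (L := L) y n0 (J + 1))
  rw [sub_add_cancel, zero_add] at h2
  exact h2

lemma Pt_pi_smul (l : K') (t : Fin 2 → R) :
    P'.e k (P'.dL k (l • t)) = l • P'.e k (P'.dL k t) := by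
  rw [map_smul, map_smul]

/-- **Leads of `Mov` from `K ≡ 0`.** -/
theorem Cr.exists_K0 (h : Cr L P P' k y0 μ) {T0 : Submodule K (Fin 2 → A)} (hM : Mv L P P' k T0)
    {τ₀ : Fin 2 → A} (hτ₀ : τ₀ ∈ T0) {g : GLv} (hg : (L.m : ℤ) ∣ κ (ofLex g).2) :
    ∃ t ∈ P'.T k, VL L (P'.e k (P'.dL k t)) g (P.e k (P.dL k τ₀)) ∧ ∀ v, VL L (t v) g (τ₀ v) := by
  obtain ⟨t₀, ht₀, n0, J, h1, h2, hv⟩ := hM.move 0 (ofLex g).1 τ₀ hτ₀
  rw [sub_zero] at h1
  obtain ⟨x, hx⟩ := h.pi_move (a := 0) hv (by simp)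
  have e0 : chainC L n0 J 0 = 1 := rfl
  rw [e0, pow_zero, one_mul, zero_smul, add_zero] at hx
  have h3 := h.e_lead hx h1 (P.e_mem k _)
  rw [one_smul] at h3
  set g₀ := idx n0 ((J + 1 : ℕ) : ℤ) with hg₀
  have hc : g - g₀ ∈ centLat L.m := by
    refine ⟨?_, ?_⟩
    · rw [fst_sub]
      have h4 := dvd_neg.2 h2
      rw [neg_sub] at h4
      simpa [hg₀] using h4
    · rw [κ_sub_snd]
      exact dvd_sub hg h1
  obtain ⟨l, -, hl⟩ := ValH.exists_scalar_mono L hc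
  refine ⟨l • t₀, Submodule.smul_mem _ _ ht₀, ?_, fun v => ?_⟩
  · rw [Pt_pi_smul]
    have := ValH.VL.shift L h3 hl hc
    rwa [sub_add_cancel] at this
  · have := ValH.VL.shift L (vl_of_move (hv v)) hl hc
    rwa [sub_add_cancel] at this

/-- **Leads of `Mov` from `K ≡ -1`.** -/
theorem Cr.exists_K1 (h : Cr L P P' k y0 μ) {T0 : Submodule K (Fin 2 → A)} (hM : Mv L P P' k T0)
    {τ₀ : Fin 2 → A} (hτ₀ : τ₀ ∈ T0) {g : GLv} (hg : (L.m : ℤ) ∣ κ (ofLex g).2)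
    (hg1 : ¬ (L.m : ℤ) ∣ (ofLex g).1) :
    ∃ t ∈ P'.T k, VL L (P'.e k (P'.dL k t)) g (μ * P.e k (P.dL k τ₀)) ∧
      ∀ v, ∀ a, a < g - muhat → L.c a (t v) = 0 := by
  obtain ⟨t₀, ht₀, n0, J, h1, h2, hv⟩ := hM.move (-1) (ofLex g).1 τ₀ hτ₀
  have hm2 : 1 < (L.m : ℤ) := by exact_mod_cast L.m_prime.one_lt
  have h0 : ¬ (L.m : ℤ) ∣ κ n0 := by
    intro h3
    have h4 : (L.m : ℤ) ∣ 1 := by
      have h5 := dvd_sub h3 h1
      have e : κ n0 - (κ n0 - -1) = -1 := by ring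
      rw [e] at h5
      exact (dvd_neg).1 h5
    exact absurd (Int.le_of_dvd one_pos h4) (not_le.2 hm2)
  obtain ⟨x, hx⟩ := h.pi_move (a := 1) hv (by
    intro b hb
    have : b = 0 := by omega
    subst this
    simpa using h0)
  set ρ₀ := chainC L n0 J 1 with hρ₀
  have hρ : ρ₀ ≠ 0 := by
    have e0 : ρ₀ = - 1 * ((L.ζ ^ (κ n0 + ((0 : ℕ) : ℤ)) - L.ζ ^ (J : ℤ)) /
        (L.ζ ^ (κ n0 + ((0 : ℕ) : ℤ)) - 1)) := rfl
    rw [e0]
    have ha : L.ζ ^ (κ n0 + ((0 : ℕ) : ℤ)) - L.ζ ^ (J : ℤ) ≠ 0 := by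
      intro h3
      have h4 : L.ζ ^ (κ n0 + ((0 : ℕ) : ℤ) - (J : ℤ)) = 1 := by
        rw [zpow_sub₀ L.ζ_ne, sub_eq_zero.1 h3, div_self (zpow_ne_zero _ L.ζ_ne)]
      have h5 := (L.ζ_prim.zpow_eq_one_iff_dvd _).1 h4
      apply hg1
      have h6 := dvd_sub h5 h1
      have h8 : (L.m : ℤ) ∣ (J : ℤ) + 1 := by
        have e2 : (J : ℤ) + 1 = -(κ n0 + ((0 : ℕ) : ℤ) - (J : ℤ) - (κ n0 - -1)) := by
          push_cast
          ring
        rw [e2]
        exact dvd_neg.2 h6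
      have h9 := dvd_sub h8 h2
      have e3 : (J : ℤ) + 1 - ((J : ℤ) + 1 - (ofLex g).1) = (ofLex g).1 := by ring
      rwa [e3] at h9
    have hb : L.ζ ^ (κ n0 + ((0 : ℕ) : ℤ)) - 1 ≠ 0 := by
      intro h3
      apply h0
      have := (L.ζ_prim.zpow_eq_one_iff_dvd _).1 (sub_eq_zero.1 h3)
      simpa using this
    exact mul_ne_zero (neg_ne_zero.2 one_ne_zero) (div_ne_zero ha hb)
  have hn : (L.m : ℤ) ∣ κ (n0 + (1 : ℕ) • mu1) := by
    rw [κ_add_nsmul]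
    have h3 := h1
    have e : κ n0 - -1 = κ n0 + ((1 : ℕ) : ℤ) := by simp
    rwa [e] at h3
  have hE : P.β k * (μ ^ 1 * P.e k (P.dL k τ₀)) = (μ ^ 1 * P.e k (P.dL k τ₀)) * P.β k :=
    comm_mul (comm_pow h.μ_β 1) (P.e_mem k _)
  have h3 := h.e_lead hx hn hE
  rw [pow_one] at h3
  set g₀ := idx (n0 + (1 : ℕ) • mu1) ((J + 1 : ℕ) : ℤ) with hg₀
  have hc : g - g₀ ∈ centLat L.m := by
    refine ⟨?_, ?_⟩
    · rw [fst_sub]
      have h4 := dvd_neg.2 h2
      rw [neg_sub] at h4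
      simpa [hg₀] using h4
    · rw [κ_sub_snd]
      exact dvd_sub hg hn
  obtain ⟨l, -, hl⟩ := ValH.exists_scalar_mono L hc
  refine ⟨(l * algebraMap K K' ρ₀⁻¹) • t₀, Submodule.smul_mem _ _ ht₀, ?_, fun v a ha => ?_⟩
  · rw [Pt_pi_smul, mul_smul, algebraMap_smul]
    have h4 : VL L (ρ₀⁻¹ • P'.e k (P'.dL k t₀)) g₀ (μ * P.e k (P.dL k τ₀)) := by
      have h5 := ValH.vl_scalar ρ₀⁻¹ h3
      rw [← Algebra.smul_def, smul_smul, inv_mul_cancel₀ hρ, one_smul] at h5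
      exact h5
    have := ValH.VL.shift L h4 hl hc
    rwa [sub_add_cancel] at this
  · rw [mul_smul, algebraMap_smul]
    have h4 := ValH.vl_scalar ρ₀⁻¹ (vl_of_move (hv v))
    rw [← Algebra.smul_def] at h4
    have h5 := ValH.VL.shift L h4 hl hc
    have e : g - g₀ + idx n0 ((J + 1 : ℕ) : ℤ) = g - muhat := by
      rw [hg₀, muhat, sub_add_eq_add_sub]
      rw [sub_eq_sub_iff_add_eq_add]
      rw [add_assoc, idx_add, one_smul, add_zero]
    rw [e] at h5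
    exact h5.lt a ha

/-- Multiplication by a scalar of `K'`. -/
lemma VL_smul {l : K'} (hl : l ≠ 0) {x : R} {e : GLv} {y : A} (h : VL L x e y) :
    VL L (l • x) (e + L.lamK l) (L.lcK l • y) := by
  have hv : (e : WithTop GLv) ≤ L.vK x := L.le_vK_iff.2 h.lt
  refine ⟨?_, ?_⟩
  · have h1 : ((e + L.lamK l : GLv) : WithTop GLv) ≤ L.vK (l • x) :=
      by
        rw [Algebra.smul_def, L.vK_mul, L.vK_scal hl, add_comm, WithTop.coe_add]
        exact add_le_add_right hv _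
    exact L.le_vK_iff.1 h1
  · rw [L.c_smul hl hv, h.eq]

/-- **Valued independence.** -/
theorem vb {B : Type*} [Fintype B] (z : B → R) (g : B → GLv) (ν : B → A)
    (hV : ∀ b, VL L (z b) (g b) (ν b))
    (hind : ∀ (G : GLv) (c : B → K), (∀ b, c b ≠ 0 → G - g b ∈ centLat L.m) →
      ∑ b, c b • ν b = 0 → ∀ b, c b = 0)
    (a : B → K') {γ : GLv} (hγ : ∀ h, h < γ → L.c h (∑ b, a b • z b) = 0) :
    ∀ b, a b ≠ 0 → γ ≤ g b + L.lamK (a b) := by
  classical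
  intro b₁ hb₁
  by_contra hlt
  rw [not_le] at hlt
  set s := Finset.univ.filter (fun b => a b ≠ 0) with hs
  have hne : s.Nonempty := ⟨b₁, by simp [hs, hb₁]⟩
  obtain ⟨b₀, hb₀, hmin⟩ := s.exists_min_image (fun b => g b + L.lamK (a b)) hne
  set G := g b₀ + L.lamK (a b₀) with hG
  have hGγ : G < γ := lt_of_le_of_lt (hmin b₁ (by simp [hs, hb₁])) hlt
  have h0 := hγ G hGγ
  rw [c_sum] at h0
  set c : B → K := fun b => if a b ≠ 0 ∧ g b + L.lamK (a b) = G then L.lcK (a b) else 0 with hc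
  have hterm : ∀ b, L.c G (a b • z b) = c b • ν b := by
    intro b
    by_cases hab : a b = 0
    · simp [hc, hab, VL.c_zero]
    have hb : b ∈ s := by simp [hs, hab]
    have hVb := VL_smul hab (hV b)
    rcases lt_or_eq_of_le (hmin b hb) with hl | he
    · have h1 : c b = 0 := by
        simp only [hc]
        rw [if_neg]
        rintro ⟨-, h2⟩
        exact absurd h2 (ne_of_gt hl)
      rw [h1, zero_smul]
      exact hVb.lt G hl
    · have h1 : c b = L.lcK (a b) := by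
        simp only [hc]
        rw [if_pos ⟨hab, he.symm⟩]
      rw [h1, he]
      exact hVb.eq
  simp only [hterm] at h0
  have h1 := hind G c (fun b hb => by
    have h2 : a b ≠ 0 ∧ g b + L.lamK (a b) = G := by
      by_contra h3
      exact hb (by simp only [hc]; rw [if_neg h3])
    rw [← h2.2, add_sub_cancel_left]
    exact L.lamK_mem h2.1) h0 b₀
  have h2 : c b₀ = L.lcK (a b₀) := by
    simp only [hc]
    have hab : a b₀ ≠ 0 := by simpa [hs] using hb₀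
    rw [if_pos ⟨hab, rfl⟩]
  rw [h2] at h1
  have hab : a b₀ ≠ 0 := by simpa [hs] using hb₀
  exact L.lcK_ne hab h1

/-- A bound on the coefficients is shifted by a scalar. -/
lemma c_smul_lt {l : K'} {x : R} {e : GLv} (h : ∀ a, a < e → L.c a x = 0) {b : GLv}
    (hb : b < e + L.lamK l) : L.c b (l • x) = 0 := by
  by_cases hl : l = 0
  · rw [hl, zero_smul]
    exact VL.c_zero b
  · exact (VL_smul hl (⟨h, rfl⟩ : VL L x e (L.c e x))).lt b hb

/-- **Preimages of controlled value in `Mov_k(X)`.** -/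
theorem Cr.pre [FiniteDimensional K A] (h : Cr L P P' k y0 μ) {T0 : Submodule K (Fin 2 → A)}
    (hM : Mv L P P' k T0) (MZ : Submodule K A)
    (honto : ∀ z ∈ MZ, ∃ τ₀ ∈ T0, P.e k (P.dL k τ₀) = z)
    (hdim : finrank K' (P'.Mov k) ≤
      (L.m - 1) * finrank K ↥(MZ ⊔ MZ.map (LinearMap.mulLeft K μ)) + finrank K MZ)
    {z : R} (hz : z ∈ P'.Mov k) {γ : GLv} (hγ : ∀ a, a < γ → L.c a z = 0) :
    ∃ t ∈ P'.T k, P'.e k (P'.dL k t) = z ∧ ∀ v, ∀ a, a < γ - muhat → L.c a (t v) = 0 := by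
  classical
  have : FiniteDimensional K' R := L.finiteK
  set M2 := MZ ⊔ MZ.map (LinearMap.mulLeft K μ) with hM2
  set S : Set A := (MZ : Set A) ∪ (MZ.map (LinearMap.mulLeft K μ) : Set A) with hS
  have hspanS : Submodule.span K S = M2 := by
    rw [hS, Submodule.span_union, Submodule.span_eq, Submodule.span_eq]
  obtain ⟨b2, hb2S, hb2span, hb2ind⟩ := exists_linearIndependent K S
  letI : Fintype b2 := hb2ind.setFinite.fintype
  have hcard : Fintype.card b2 = finrank K M2 := by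
    rw [← hspanS, ← hb2span, finrank_span_set_eq_card hb2ind]
    exact (Set.toFinset_card b2).symm
  let b0 := Module.finBasis K MZ
  have hm0 : 0 < L.m := L.m_prime.pos
  let B := Fin (finrank K MZ) ⊕ (Fin (L.m - 1) × b2)
  let gb : B → GLv := Sum.elim (fun _ => 0) (fun p => idx 0 (((p.1 : ℕ) : ℤ) + 1))
  let νb : B → A := Sum.elim (fun i => ((b0 i : MZ) : A)) (fun p => (p.2 : A))
  have hnd : ∀ r : Fin (L.m - 1), ¬ (L.m : ℤ) ∣ ((r : ℕ) : ℤ) + 1 := by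
    intro r hr
    have h1 : ((r : ℕ) : ℤ) + 1 = (((r : ℕ) + 1 : ℕ) : ℤ) := by push_cast; rfl
    rw [h1, Int.natCast_dvd_natCast] at hr
    have h2 := Nat.le_of_dvd (Nat.succ_pos _) hr
    have h3 := r.2
    omega
  have hmuneg : ∀ {a g : GLv}, a < g - muhat → a < g := fun {a g} ha =>
    lt_trans ha (sub_lt_self g muhat_pos)
  have key : ∀ b : B, ∃ t ∈ P'.T k, VL L (P'.e k (P'.dL k t)) (gb b) (νb b) ∧
      ∀ v, ∀ a, a < gb b - muhat → L.c a (t v) = 0 := by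
    rintro (i | ⟨r, x⟩)
    · obtain ⟨τ₀, hτ₀, he⟩ := honto _ (b0 i).2
      obtain ⟨t, ht, h1, h2⟩ := h.exists_K0 hM hτ₀ (g := 0) (by simp)
      rw [he] at h1
      exact ⟨t, ht, h1, fun v a ha => (h2 v).lt a (hmuneg ha)⟩
    · have hκ : (L.m : ℤ) ∣ κ (ofLex (idx (0 : CE) (((r : ℕ) : ℤ) + 1))).2 := by simp
      rcases hb2S x.2 with hx | hx
      · obtain ⟨τ₀, hτ₀, he⟩ := honto _ hx
        obtain ⟨t, ht, h1, h2⟩ := h.exists_K0 hM hτ₀ hκ
        rw [he] at h1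
        exact ⟨t, ht, h1, fun v a ha => (h2 v).lt a (hmuneg ha)⟩
      · obtain ⟨z', hz', hzx⟩ := hx
        obtain ⟨τ₀, hτ₀, he⟩ := honto _ hz'
        obtain ⟨t, ht, h1, h2⟩ := h.exists_K1 hM hτ₀ hκ (hnd r)
        rw [he] at h1
        exact ⟨t, ht, h1.of_eq hzx, h2⟩
  choose t ht1 ht2 ht3 using key
  set zb : B → R := fun b => P'.e k (P'.dL k (t b)) with hzb
  have hind : ∀ (G : GLv) (c : B → K), (∀ b, c b ≠ 0 → G - gb b ∈ centLat L.m) →
      ∑ b, c b • νb b = 0 → ∀ b, c b = 0 := by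
    intro G c hc hsum
    rw [Fintype.sum_sum_type] at hsum
    by_cases hG : (L.m : ℤ) ∣ (ofLex G).1
    · have h0 : ∀ p : Fin (L.m - 1) × b2, c (Sum.inr p) = 0 := by
        intro p
        by_contra hne
        have h1 := (hc _ hne).1
        rw [fst_sub] at h1
        have h2 := dvd_sub hG h1
        have e : (ofLex G).1 - ((ofLex G).1 - (ofLex (gb (Sum.inr p))).1) =
            ((p.1 : ℕ) : ℤ) + 1 := by
          show (ofLex G).1 - ((ofLex G).1 - (((p.1 : ℕ) : ℤ) + 1)) = _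
          ring
        rw [e] at h2
        exact hnd _ h2
      have h1 : ∑ i, c (Sum.inl i) • ((b0 i : MZ) : A) = 0 := by
        rw [Finset.sum_congr rfl (fun p _ => show c (Sum.inr p) • νb (Sum.inr p) = 0 by
          rw [h0 p, zero_smul]), Finset.sum_const_zero, add_zero] at hsum
        exact hsum
      have h2 : ∑ i, c (Sum.inl i) • b0 i = 0 := by
        apply Subtype.ext
        rw [Submodule.coe_sum]
        simpa using h1
      have h3 := (Fintype.linearIndependent_iff.1 b0.linearIndependent) _ h2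
      rintro (i | p)
      · exact h3 i
      · exact h0 p
    · have h0 : ∀ i, c (Sum.inl i) = 0 := by
        intro i
        by_contra hne
        have h1 := (hc _ hne).1
        rw [fst_sub] at h1
        have h2 : (ofLex (gb (Sum.inl i))).1 = 0 := rfl
        rw [h2, sub_zero] at h1
        exact hG h1
      have h1 : ∀ p p' : Fin (L.m - 1) × b2, c (Sum.inr p) ≠ 0 → c (Sum.inr p') ≠ 0 →
          p.1 = p'.1 := by
        intro p p' hp hp'
        have h2 := (hc _ hp).1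
        have h3 := (hc _ hp').1
        rw [fst_sub] at h2 h3
        have h4 := dvd_sub h2 h3
        have e : (ofLex G).1 - (ofLex (gb (Sum.inr p))).1 -
            ((ofLex G).1 - (ofLex (gb (Sum.inr p'))).1) =
            ((p'.1 : ℕ) : ℤ) - ((p.1 : ℕ) : ℤ) := by
          show (ofLex G).1 - (((p.1 : ℕ) : ℤ) + 1) - ((ofLex G).1 - (((p'.1 : ℕ) : ℤ) + 1)) = _
          ring
        rw [e] at h4
        have h5 := p.1.2
        have h6 := p'.1.2
        have h7 : ((p'.1 : ℕ) : ℤ) - ((p.1 : ℕ) : ℤ) = 0 := by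
          apply Int.eq_zero_of_abs_lt_dvd h4
          rw [abs_lt]
          constructor <;> omega
        apply Fin.ext
        omega
      have h2 : ∀ p : Fin (L.m - 1) × b2, c (Sum.inr p) = 0 := by
        rintro ⟨r, x⟩
        by_contra hne
        have h3 : ∑ p : Fin (L.m - 1) × b2, c (Sum.inr p) • νb (Sum.inr p) = 0 := by
          rw [Finset.sum_congr rfl (fun i _ => show c (Sum.inl i) • νb (Sum.inl i) = 0 by
            rw [h0 i, zero_smul]), Finset.sum_const_zero, zero_add] at hsum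
          exact hsum
        rw [Fintype.sum_prod_type] at h3
        have h4 : ∑ y : b2, c (Sum.inr (r, y)) • (y : A) = 0 := by
          rw [Finset.sum_eq_single r] at h3
          · exact h3
          · intro r' _ hr'
            apply Finset.sum_eq_zero
            intro y _
            by_cases hy : c (Sum.inr (r', y)) = 0
            · rw [hy, zero_smul]
            · exact absurd (h1 _ _ hy hne) hr'
          · simp
        have h5 := (Fintype.linearIndependent_iff.1 hb2ind) _ h4 x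
        exact hne h5
      rintro (i | p)
      · exact h0 i
      · exact h2 p
  have hLI : LinearIndependent K' zb := by
    rw [Fintype.linearIndependent_iff]
    intro a ha b
    by_contra hab
    have h1 := vb zb gb νb ht2 hind a (γ := gb b + L.lamK (a b) + e1) (fun h' _ => by
      rw [ha]
      exact VL.c_zero h') b hab
    exact absurd h1 (not_le.2 (lt_add_of_pos_right _ e1_pos))
  have hle : Submodule.span K' (Set.range zb) ≤ P'.Mov k := by
    rw [Submodule.span_le]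
    rintro _ ⟨b, rfl⟩
    exact P'.mem_Mov.2 ⟨t b, ht1 b, rfl⟩
  have hfin : finrank K' (Submodule.span K' (Set.range zb)) = Fintype.card B :=
    finrank_span_eq_card hLI
  have hcB : Fintype.card B = finrank K MZ + (L.m - 1) * Fintype.card b2 := by
    simp only [B, Fintype.card_sum, Fintype.card_fin, Fintype.card_prod]
  have heq : Submodule.span K' (Set.range zb) = P'.Mov k := by
    refine Submodule.eq_of_le_of_finrank_le hle ?_
    rw [hfin, hcB, hcard]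
    omega
  rw [← heq] at hz
  obtain ⟨a, ha⟩ := (Submodule.mem_span_range_iff_exists_fun K').1 hz
  refine ⟨∑ b, a b • t b, Submodule.sum_mem _ fun b _ => Submodule.smul_mem _ _ (ht1 b), ?_,
    fun v h' hh' => ?_⟩
  · rw [map_sum, map_sum, ← ha]
    refine Finset.sum_congr rfl fun b _ => ?_
    rw [map_smul, map_smul]
  · have e : (∑ b, a b • t b) v = ∑ b, a b • t b v := by
      rw [Finset.sum_apply]
      rfl
    rw [e, c_sum]
    refine Finset.sum_eq_zero fun b _ => ?_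
    by_cases hab : a b = 0
    · rw [hab, zero_smul]
      exact VL.c_zero h'
    have h1 := vb zb gb νb ht2 hind a (γ := γ) (fun h₁ hh₁ => by
      rw [ha]
      exact hγ h₁ hh₁) b hab
    refine c_smul_lt (ht3 b v) ?_
    have h2 : γ - muhat ≤ gb b - muhat + L.lamK (a b) := by
      have : gb b - muhat + L.lamK (a b) = gb b + L.lamK (a b) - muhat := by abel
      rw [this]
      exact sub_le_sub_right h1 _
    exact lt_of_lt_of_le hh' h2

/-- `T(k+1) = ker Π` on `T(k)`. -/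
lemma mem_T_succ {P' : Pt F K' R (Fin 2)} {t : Fin 2 → R} (ht : t ∈ P'.T k)
    (h0 : P'.e k (P'.dL k t) = 0) : t ∈ P'.T (k + 1) := by
  intro i hi
  rcases Nat.lt_succ_iff_lt_or_eq.1 hi with h1 | rfl
  · exact ht i h1
  · exact h0

/-- **(CORR)** -/
theorem Cr.corr [FiniteDimensional K A] (h : Cr L P P' k y0 μ) {T0 : Submodule K (Fin 2 → A)}
    (hM : Mv L P P' k T0) (MZ : Submodule K A)
    (honto : ∀ z ∈ MZ, ∃ τ₀ ∈ T0, P.e k (P.dL k τ₀) = z)
    (hdim : finrank K' (P'.Mov k) ≤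
      (L.m - 1) * finrank K ↥(MZ ⊔ MZ.map (LinearMap.mulLeft K μ)) + finrank K MZ)
    {a j : ℤ} {τ₀ : Fin 2 → A} (hτ₀ : τ₀ ∈ T0)
    (ha : (¬ (L.m : ℤ) ∣ a ∧ ¬ (L.m : ℤ) ∣ a + 1) ∨ P.e k (P.dL k τ₀) = 0) :
    ∃ t ∈ P'.T (k + 1), ∃ g : GLv, (L.m : ℤ) ∣ κ (ofLex g).2 - a ∧ (L.m : ℤ) ∣ (ofLex g).1 - j ∧
      ∀ v, VL L (t v) g (τ₀ v) := by
  obtain ⟨t₀, ht₀, n0, J, h1, h2, hv⟩ := hM.move a j τ₀ hτ₀
  -- the value of `Π t₀`
  have hval : ∃ b : ℕ, ∀ c, c < idx (n0 + (b + 2) • mu1) ((J + 1 : ℕ) : ℤ) →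
      L.c c (P'.e k (P'.dL k t₀)) = 0 := by
    rcases ha with ⟨ha0, ha1⟩ | hz
    · have hm0 : (0 : ℤ) < L.m := by exact_mod_cast L.m_prime.pos
      set a₀ := (-a) % (L.m : ℤ) with ha₀
      have h3 : 0 ≤ a₀ := Int.emod_nonneg _ hm0.ne'
      have h4 : a₀ < L.m := Int.emod_lt_of_pos _ hm0
      have h5 : (L.m : ℤ) ∣ a₀ + a := by
        have h6 : (L.m : ℤ) ∣ (-a) - a₀ := Int.dvd_self_sub_emod
        have h7 := dvd_neg.2 h6
        have e : -(-a - a₀) = a₀ + a := by ring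
        rwa [e] at h7
      have h6 : a₀ ≠ 0 := by
        intro h0
        rw [h0, zero_add] at h5
        exact ha0 h5
      have h7 : a₀ ≠ 1 := by
        intro h0
        rw [h0, add_comm] at h5
        exact ha1 h5
      obtain ⟨b, hb⟩ : ∃ b : ℕ, a₀ = ((b + 2 : ℕ) : ℤ) := by
        refine ⟨(a₀ - 2).toNat, ?_⟩
        have : 2 ≤ a₀ := by omega
        push_cast
        rw [Int.toNat_of_nonneg (by omega)]
        ring
      refine ⟨b, ?_⟩
      obtain ⟨x, hx⟩ := h.pi_move (a := b + 2) hv (by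
        intro c hc hd
        have h8 : (L.m : ℤ) ∣ a + c := by
          have h9 := dvd_sub hd h1
          have e : κ n0 + (c : ℤ) - (κ n0 - a) = a + c := by ring
          rwa [e] at h9
        have h9 : (L.m : ℤ) ∣ a₀ - c := by
          have h10 := dvd_sub h5 h8
          have e : a₀ + a - (a + c) = a₀ - c := by ring
          rwa [e] at h10
        have h10 : a₀ - c = 0 := by
          apply Int.eq_zero_of_abs_lt_dvd h9
          rw [abs_lt]
          constructor <;> omega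
        omega)
      exact h.e_low hx
    · refine ⟨0, ?_⟩
      obtain ⟨x, hx⟩ := h.pi_move (a := 0) hv (by simp)
      rw [hz, mul_zero, L.lev.mono_zero, smul_zero, sub_zero] at hx
      have e : P'.dL k t₀ + (P'.β k * x - x * P'.β k) -
          (0 : K) • L.lev.mono (0 : A) (n0 + (0 + 2) • mu1) (J + 1) =
          P'.dL k t₀ + (P'.β k * x - x * P'.β k) := by simp
      exact h.e_low (y := P'.dL k t₀) (x := x) (ρ₀ := 0) (E := 0) (n := n0 + (0 + 2) • mu1)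
        (J := J + 1) (by rw [e]; exact hx)
  obtain ⟨b, hb⟩ := hval
  obtain ⟨t₁, ht₁, he, hc⟩ := h.pre hM MZ honto hdim (P'.mem_Mov.2 ⟨t₀, ht₀, rfl⟩) hb
  refine ⟨t₀ - t₁, ?_, idx n0 ((J + 1 : ℕ) : ℤ), ?_, ?_, fun v => ?_⟩
  · refine mem_T_succ (sub_mem ht₀ ht₁) ?_
    rw [map_sub, map_sub, he, sub_self]
  · simpa using h1
  · simpa using h2
  · have h3 := vl_of_move (hv v)
    have hlt : idx n0 ((J + 1 : ℕ) : ℤ) < idx (n0 + (b + 2) • mu1) ((J + 1 : ℕ) : ℤ) - muhat := by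
      have e : idx (n0 + (b + 2) • mu1) ((J + 1 : ℕ) : ℤ) - muhat =
          idx (n0 + (b + 1) • mu1) ((J + 1 : ℕ) : ℤ) := by
        rw [muhat, idx_sub, sub_zero]
        congr 1
        rw [add_sub_assoc]
        congr 1
        rw [show b + 2 = (b + 1) + 1 from rfl, add_smul, one_smul, add_sub_cancel_right]
      rw [e]
      refine Prod.Lex.lt_iff.2 (Or.inr ⟨rfl, ?_⟩)
      show n0 < n0 + (b + 1) • mu1
      exact lt_add_of_pos_right _ (nsmul_pos mu1_pos (by omega))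
    have h4 : VL L (t₁ v) (idx n0 ((J + 1 : ℕ) : ℤ)) 0 :=
      ⟨fun a ha => hc v a (lt_trans ha hlt), hc v _ hlt⟩
    have h5 := h3.sub h4
    rw [sub_zero] at h5
    exact h5

end Crest.Agent.Kurosh.Pole
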