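/-
S0270 (Kurosh), blueprint §K "V5 at creation" (helper19), third layer: the rank of `P_c` on
`T(k+1)(X)` by valued dominance.

* `rank_of_dominant`: a family with dominant diagonal has rank `≥` its size;
* `Cr.Gam_old`, `Cr.Gam_F`: the leads of the older part and of the pole term;
* `Cr.rank_O`: older lead of value `< -e₁` with nonzero form: rank `≥ m(m-4)`;
* `Cr.rank_P`: pole term dominates or ties: rank `≥ m(m-5)`;
* `Cr.lead_KK`: the older lead is in `𝕂(k)(Z)`.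
-/
import Crest.Agent.Kurosh.PoleCorr
import Crest.Agent.Kurosh.ValH2

set_option autoImplicit false
set_option linter.unusedSectionVars false

namespace Crest.Agent.Kurosh.Pole

open Hensel State Module LU VLead
open _root_.Crest.Agent.Kurosh.Inv
open _root_.Crest.Agent.Kurosh.Inv.St

variable {K A K' R : Type*} [Field K] [DivisionRing A] [Algebra K A] [Field K'] [DivisionRing R]
  [Algebra K R] [Algebra K' R] [Algebra K K'] [IsScalarTower K K' R] {τ : A →ₗ[K] K}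
  {L : Lv K A K' R τ}

/-- **Dominance.** -/
theorem rank_of_dominant {I : Type*} [Fintype I] {E : Type*} [AddCommGroup E] [Module K' E]
    [FiniteDimensional K' E] {V : Submodule K' E} (B : E →ₗ[K'] E →ₗ[K'] K')
    (t t' : I → E) (ht : ∀ α, t α ∈ V) (ht' : ∀ α, t' α ∈ V) (f f' : I → GLv)
    (hdiag : ∀ α, L.c (f α + f' α) (algebraMap K' R (B (t α) (t' α))) ≠ 0)
    (hlow : ∀ α β, ∀ g, g < f α + f' β → L.c g (algebraMap K' R (B (t α) (t' β))) = 0)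
    (hoff : ∀ α β, α ≠ β → L.c (f α + f' β) (algebraMap K' R (B (t α) (t' β))) = 0) :
    Fintype.card I ≤ finrank K' (LinearMap.range (B.domRestrict₁₂ V V)) := by
  classical
  set Φ : I → (V →ₗ[K'] K') := fun α => B.domRestrict₁₂ V V ⟨t α, ht α⟩ with hΦ
  have hLI : LinearIndependent K' Φ := by
    rw [Fintype.linearIndependent_iff]
    intro a ha b₁
    by_contra hb₁
    set s := Finset.univ.filter (fun b => a b ≠ 0) with hs
    have hne : s.Nonempty := ⟨b₁, by simp [hs, hb₁]⟩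
    obtain ⟨α, hα, hmin⟩ := s.exists_min_image (fun b => f b + L.lamK (a b)) hne
    have haα : a α ≠ 0 := by simpa [hs] using hα
    -- evaluate at `t' α`
    have h1 : ∑ β, a β * B (t β) (t' α) = 0 := by
      have h2 := LinearMap.congr_fun ha ⟨t' α, ht' α⟩
      simp only [LinearMap.sum_apply, LinearMap.smul_apply, LinearMap.zero_apply] at h2
      exact h2
    set G := f α + f' α + L.lamK (a α) with hG
    have h2 : L.c G (algebraMap K' R (∑ β, a β * B (t β) (t' α))) = 0 := by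
      rw [h1, map_zero]
      exact VL.c_zero _
    rw [map_sum, c_sum] at h2
    rw [Finset.sum_eq_single α] at h2
    · -- the main term
      have h3 : VL L (a α • algebraMap K' R (B (t α) (t' α))) G _ :=
        VL_smul haα ⟨hlow α α, rfl⟩
      rw [map_mul, ← Algebra.smul_def, h3.eq] at h2
      have h4 := (smul_eq_zero.1 h2).resolve_left (L.lcK_ne haα)
      exact hdiag α h4
    · intro β _ hβ
      by_cases haβ : a β = 0
      · rw [haβ, zero_mul, map_zero]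
        exact VL.c_zero _
      have hβs : β ∈ s := by simp [hs, haβ]
      have h3 : VL L (algebraMap K' R (B (t β) (t' α))) (f β + f' α) 0 :=
        ⟨hlow β α, hoff β α hβ⟩
      have h4 := VL_smul haβ h3
      rw [map_mul, ← Algebra.smul_def]
      have hle : G ≤ f β + f' α + L.lamK (a β) := by
        have h5 := hmin β hβs
        have e1 : G = f' α + (f α + L.lamK (a α)) := by rw [hG]; abel
        have e2 : f β + f' α + L.lamK (a β) = f' α + (f β + L.lamK (a β)) := by abel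
        rw [e1, e2]
        exact add_le_add_right h5 _
      rcases lt_or_eq_of_le hle with hl | he
      · exact h4.lt G hl
      · rw [he, h4.eq, smul_zero]
    · intro hn
      exact absurd (Finset.mem_univ α) hn
  have h1 : finrank K' (Submodule.span K' (Set.range Φ)) = Fintype.card I :=
    finrank_span_eq_card hLI
  rw [← h1]
  apply Submodule.finrank_mono
  rw [Submodule.span_le]
  rintro _ ⟨α, rfl⟩
  exact ⟨_, rfl⟩

variable {F : Type*} [Field F] [Algebra F K] [Algebra F A] [IsScalarTower F K A] [Algebra F R]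
  [IsScalarTower F K R] [Algebra F K'] [IsScalarTower F K' R]
  {P : Pt F K A (Fin 2)} {P' : Pt F K' R (Fin 2)} {k : ℕ} {y0 μ : A}

lemma vl_sum {α : Type*} (s : Finset α) (f : α → R) (y : α → A) {g : GLv}
    (h : ∀ a ∈ s, VL L (f a) g (y a)) : VL L (∑ a ∈ s, f a) g (∑ a ∈ s, y a) := by
  refine ⟨fun b hb => ?_, ?_⟩
  · rw [c_sum]
    exact Finset.sum_eq_zero fun a ha => (h a ha).lt b hb
  · rw [c_sum]
    exact Finset.sum_congr rfl fun a ha => (h a ha).eq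

/-- **The lead of the older part of `Γ`.** -/
theorem Cr.Gam_old (h : Cr L P P' k y0 μ) {t t' : Fin 2 → R} {τ₀ τ₁ : Fin 2 → A} {g g' g₀ : GLv}
    {c' : ℕ → R} {c₀ : ℕ → A}
    (ht : ∀ v, VL L (t v) g (τ₀ v)) (ht' : t' ∈ P'.T k) (ht'' : ∀ v, VL L (t' v) g' (τ₁ v))
    (hc : ∀ i < k, VL L (c' i) g₀ (c₀ i)) :
    VL L (algebraMap K' R (P'.Gam k c' t t')) (g₀ + (g + g'))
      (open Classical in if g₀ + (g + g') ∈ centLat L.m then
        algebraMap K A ((eps L g₀ (g + g') * eps L g g') * P.Gam k c₀ τ₀ τ₁) else 0) := by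
  classical
  have key : ∀ i ∈ Finset.range k, VL L (algebraMap K' R (P'.τ (c' i * (d2 P'.ρ t t' (P'.a i) +
      P'.dL i t * P'.w i t')))) (g₀ + (g + g'))
      (if g₀ + (g + g') ∈ centLat L.m then algebraMap K A ((eps L g₀ (g + g') * eps L g g') *
        P.τ (c₀ i * (d2 P.ρ τ₀ τ₁ (P.a i) + P.dL i τ₀ * P.w i τ₁))) else 0) := by
    intro i hi
    have hi' := Finset.mem_range.1 hi
    have h1 := h.vl_tau (h.ov.term ht ht' ht'' (hc i hi') hi')
    refine h1.of_eq ?_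
    split_ifs
    · rw [map_smul, smul_eq_mul, h.τ₀]
    · rfl
  have h2 := vl_sum _ _ _ key
  unfold Pt.Gam
  rw [map_sum]
  refine h2.of_eq ?_
  split_ifs
  · rw [Finset.mul_sum, map_sum]
  · simp

/-- The pole term. -/
noncomputable def Fterm (P' : Pt F K' R (Fin 2)) (k : ℕ) (c : R) (t t' : Fin 2 → R) : K' :=
  P'.τ (c * (d2 P'.ρ t t' (P'.a k) + P'.dL k t * P'.w k t'))

/-- `P` for the prefix `k+1`. -/
lemma PP_succ (P' : Pt F K' R (Fin 2)) (k : ℕ) (c : ℕ → R) (t t' : Fin 2 → R) :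
    P'.PP (k + 1) c t t' = (P'.Gam k c t t' + Fterm P' k (c k) t t') -
      (P'.Gam k c t' t + Fterm P' k (c k) t' t) := by
  simp only [Pt.PP, Pt.Gam, Finset.sum_range_succ, Fterm]

lemma P_PP_k_eq (P' : Pt F K' R (Fin 2)) (k : ℕ) (c : ℕ → R) (t t' : Fin 2 → R) :
    P'.PP k c t t' = P'.Gam k c t t' - P'.Gam k c t' t := rfl

lemma κ_e1 : κ (ofLex e1).2 = 0 := by
  show κ (0 : CE) = 0
  exact map_zero κ

/-- **The lead of the pole term.** -/
theorem Cr.Gam_F (h : Cr L P P' k y0 μ) {t t' : Fin 2 → R} {τ₀ τ₁ : Fin 2 → A} {g g' : GLv}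
    {c' : R} {F₀ : A}
    (ht : ∀ v, VL L (t v) g (τ₀ v)) (htT : t' ∈ P'.T (k + 1)) (ht'' : ∀ v, VL L (t' v) g' (τ₁ v))
    (hc : VL L c' 0 F₀) :
    ∃ x' : A, P.β k * x' = x' * P.β k ∧
      (L.ζ ^ κ (ofLex g').2 - 1) • (y0 * x') = - P.e k (P.dL k τ₁) ∧
      VL L (algebraMap K' R (Fterm P' k c' t t')) (g + (g' - e1))
        (open Classical in if g + (g' - e1) ∈ centLat L.m then
          algebraMap K A (eps L g (g' - e1) * τ (F₀ * (P.dL k τ₀ * x'))) else 0) := by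
  classical
  have h0 : P'.e k (P'.dL k t') = 0 := htT k (Nat.lt_succ_self k)
  obtain ⟨x', hx1, hx2, hx3⟩ := h.w h0 ht''
  refine ⟨x', hx2, hx3, ?_⟩
  have h1 := h.ov.dL ht k
  have h2 := h1.mul hx1
  have h3 : VL L (d2 P'.ρ t t' (P'.a k)) (g + (g' - e1)) 0 := by
    rw [h.ov.a]
    refine (vl_d2 h.ov.ρ ht ht'' _).weaken ?_
    exact add_lt_add_right (sub_lt_self g' e1_pos) g
  have h4 := h3.add h2
  rw [zero_add] at h4
  have h5 := hc.mul_zero_left h4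
  have h6 := h.vl_tau h5
  refine h6.of_eq ?_
  split_ifs
  · rw [mul_smul_comm, map_smul, smul_eq_mul]
  · rfl

/-- The value of the pole term against the multiplier. -/
theorem Cr.tau_pole (h : Cr L P P' k y0 μ) {F₀ x' dτ z₂ : A} (hF₀ : P.β k * F₀ = F₀ * P.β k)
    (hx' : P.β k * x' = x' * P.β k)
    (hz₂ : ∀ c, P.β k * c = c * P.β k → z₂ * c = c * z₂)
    (hz₂β : P.β k * z₂ = z₂ * P.β k)
    {d : K} (hd : d ≠ 0) (hx : d • (y0 * x') = - z₂) :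
    τ (F₀ * (dτ * x')) = - d⁻¹ * τ (F₀ * (y0⁻¹ * (P.e k dτ * z₂))) := by
  have hτ := h.τ₀
  have e1 : x' = (- d⁻¹) • (y0⁻¹ * z₂) := by
    have h1 : y0 * x' = (- d⁻¹) • z₂ := by
      have h2 := congrArg (fun u => d⁻¹ • u) hx
      simp only [smul_smul, inv_mul_cancel₀ hd, one_smul] at h2
      rw [h2, smul_neg, neg_smul]
    rw [← mul_smul_comm, ← h1, ← mul_assoc, inv_mul_cancel₀ h.y0_ne, one_mul]
  have hy0F : y0 * F₀ = F₀ * y0 := h.y0_comm F₀ hF₀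
  have hy0iF : y0⁻¹ * F₀ = F₀ * y0⁻¹ := (comm_inv hy0F.symm).symm
  have h1 : τ (F₀ * (dτ * x')) = τ ((x' * F₀) * dτ) := by
    rw [← hτ, ← hτ, ← mul_assoc, P.τ_comm, mul_assoc]
  have hcen : P.β k * (x' * F₀) = (x' * F₀) * P.β k := comm_mul hx' hF₀
  have h2 : τ ((x' * F₀) * dτ) = τ ((x' * F₀) * P.e k dτ) := by
    rw [← hτ, ← hτ, P.τ_cent_e hcen]
  rw [h1, h2, e1]
  have hzβ : P.β k * (P.e k dτ) = (P.e k dτ) * P.β k := P.e_mem k dτ
  have h3 : (- d⁻¹) • (y0⁻¹ * z₂) * F₀ * P.e k dτ =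
      (- d⁻¹) • (F₀ * (y0⁻¹ * (P.e k dτ * z₂))) := by
    rw [smul_mul_assoc, smul_mul_assoc]
    congr 1
    have h4 : z₂ * F₀ = F₀ * z₂ := hz₂ F₀ hF₀
    have h5 : z₂ * P.e k dτ = P.e k dτ * z₂ := hz₂ _ hzβ
    calc y0⁻¹ * z₂ * F₀ * P.e k dτ = y0⁻¹ * (z₂ * F₀) * P.e k dτ := by noncomm_ring
      _ = (y0⁻¹ * F₀) * (z₂ * P.e k dτ) := by rw [h4]; noncomm_ring
      _ = F₀ * (y0⁻¹ * (P.e k dτ * z₂)) := by rw [hy0iF, h5]; noncomm_ring
  rw [h3, map_smul, smul_eq_mul]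

/-- The value of `P_c(t,t')`: the pole term and a tie with the older part. -/
theorem Cr.PP_P (h : Cr L P P' k y0 μ) {t t' : Fin 2 → R} {τ₀ τ₁ : Fin 2 → A} {g g' : GLv}
    {c : ℕ → R} {c₀ : ℕ → A} {F₀ : A} (htT : t ∈ P'.T (k + 1)) (ht : ∀ v, VL L (t v) g (τ₀ v))
    (htT' : t' ∈ P'.T (k + 1)) (ht' : ∀ v, VL L (t' v) g' (τ₁ v))
    (hc : ∀ i < k, VL L (c i) (-e1) (c₀ i)) (hF : VL L (c k) 0 F₀) :
    ∃ x x' : A, P.β k * x = x * P.β k ∧ (L.ζ ^ κ (ofLex g).2 - 1) • (y0 * x) = - P.e k (P.dL k τ₀) ∧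
      P.β k * x' = x' * P.β k ∧ (L.ζ ^ κ (ofLex g').2 - 1) • (y0 * x') = - P.e k (P.dL k τ₁) ∧
      VL L (algebraMap K' R (P'.PP (k + 1) c t t')) (g + (g' - e1))
        (open Classical in if g + (g' - e1) ∈ centLat L.m then algebraMap K A
          ((eps L (-e1) (g + g') * eps L g g' * P.Gam k c₀ τ₀ τ₁ +
              eps L g (g' - e1) * τ (F₀ * (P.dL k τ₀ * x'))) -
            (eps L (-e1) (g' + g) * eps L g' g * P.Gam k c₀ τ₁ τ₀ +
              eps L g' (g - e1) * τ (F₀ * (P.dL k τ₁ * x)))) else 0) := by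
  classical
  have hT1 : t ∈ P'.T k := P'.T_anti (Nat.le_succ k) htT
  have hT2 : t' ∈ P'.T k := P'.T_anti (Nat.le_succ k) htT'
  have h1 := h.Gam_old ht hT2 ht' hc
  have h2 := h.Gam_old ht' hT1 ht hc
  obtain ⟨x', hx'1, hx'2, h3⟩ := h.Gam_F ht htT' ht' hF
  obtain ⟨x, hx1, hx2, h4⟩ := h.Gam_F ht' htT ht hF
  refine ⟨x, x', hx1, hx2, hx'1, hx'2, ?_⟩
  set G := g + (g' - e1) with hG
  have e₁ : -e1 + (g + g') = G := by rw [hG]; abel
  have e₂ : -e1 + (g' + g) = G := by rw [hG]; abel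
  have e₃ : g' + (g - e1) = G := by rw [hG]; abel
  rw [e₁] at h1
  rw [e₂] at h2
  rw [e₃] at h4
  have h5 := (h1.add h3).sub (h2.add h4)
  rw [PP_succ, map_sub, map_add, map_add]
  refine h5.of_eq ?_
  split_ifs
  · simp only [map_sub, map_add]
  · simp

lemma eps_apply (a b : GLv) : eps L a b = L.ζ ^ ((ofLex a).1 * κ (ofLex b).2) := rfl

/-- The formula of the coefficient at a central position. -/
theorem Cr.C_formula [CharZero K] (h : Cr L P P' k y0 μ) {g g' : GLv} (hG : g + (g' - e1) ∈ centLat L.m)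
    (hZ : ¬ (L.m : ℤ) ∣ κ (ofLex g).2) {F₀ x x' dτ dτ' Γ Γ' : _}
    (hF₀ : P.β k * F₀ = F₀ * P.β k)
    (hz₁ : ∀ c, P.β k * c = c * P.β k → P.e k dτ * c = c * P.e k dτ)
    (hz₂ : ∀ c, P.β k * c = c * P.β k → P.e k dτ' * c = c * P.e k dτ')
    (hx : P.β k * x = x * P.β k) (hx2 : (L.ζ ^ κ (ofLex g).2 - 1) • (y0 * x) = - P.e k dτ)
    (hx' : P.β k * x' = x' * P.β k) (hx'2 : (L.ζ ^ κ (ofLex g').2 - 1) • (y0 * x') = - P.e k dτ')
    (hΓ : Γ + Γ' = 0) :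
    (eps L (-e1) (g + g') * eps L g g' * Γ + eps L g (g' - e1) * τ (F₀ * (dτ * x'))) -
      (eps L (-e1) (g' + g) * eps L g' g * Γ' + eps L g' (g - e1) * τ (F₀ * (dτ' * x))) =
    eps L g g' * (Γ * (1 + L.ζ ^ κ (ofLex g).2) + 2 * L.ζ ^ κ (ofLex g).2 *
      τ (F₀ * (y0⁻¹ * (P.e k dτ * P.e k dτ'))) / (L.ζ ^ κ (ofLex g).2 - 1)) := by
  have hz := L.ζ_ne
  have hprim := L.ζ_prim
  set Z := L.ζ ^ κ (ofLex g).2 with hZdef
  have hZ0 : Z ≠ 0 := zpow_ne_zero _ hz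
  have hZ1 : Z - 1 ≠ 0 := by
    intro h0
    exact hZ ((hprim.zpow_eq_one_iff_dvd _).1 (sub_eq_zero.1 h0))
  have hd1 : (L.m : ℤ) ∣ (ofLex g).1 + (ofLex g').1 - 1 := by
    have := hG.1
    rw [fst_add, fst_sub, fst_e1] at this
    have e : (ofLex g).1 + ((ofLex g').1 - 1) = (ofLex g).1 + (ofLex g').1 - 1 := by ring
    rwa [e] at this
  have hd2 : (L.m : ℤ) ∣ κ (ofLex g).2 + κ (ofLex g').2 := by
    have := hG.2
    rw [κ_add_snd, κ_sub_snd, κ_e1, sub_zero] at this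
    exact this
  have hone : ∀ n : ℤ, (L.m : ℤ) ∣ n → L.ζ ^ n = 1 := fun n hn =>
    (hprim.zpow_eq_one_iff_dvd _).2 hn
  have hε1 : eps L (-e1) (g + g') = 1 := by
    rw [eps_apply]
    apply hone
    rw [κ_add_snd]
    exact Dvd.dvd.mul_left hd2 _
  have hε2 : eps L (-e1) (g' + g) = 1 := by
    rw [eps_apply]
    apply hone
    rw [κ_add_snd, add_comm]
    exact Dvd.dvd.mul_left hd2 _
  have hε3 : eps L g (g' - e1) = eps L g g' := by
    rw [eps_apply, eps_apply, κ_sub_snd, κ_e1, sub_zero]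
  have hε4 : eps L g' (g - e1) = eps L g' g := by
    rw [eps_apply, eps_apply, κ_sub_snd, κ_e1, sub_zero]
  have hε5 : eps L g' g = Z * eps L g g' := by
    rw [eps_apply, eps_apply, hZdef, ← zpow_add₀ hz]
    have h1 : (L.m : ℤ) ∣ (ofLex g').1 * κ (ofLex g).2 -
        (κ (ofLex g).2 + (ofLex g).1 * κ (ofLex g').2) := by
      have e : (ofLex g').1 * κ (ofLex g).2 - (κ (ofLex g).2 + (ofLex g).1 * κ (ofLex g').2) =
          ((ofLex g).1 + (ofLex g').1 - 1) * κ (ofLex g).2 -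
            (ofLex g).1 * (κ (ofLex g).2 + κ (ofLex g').2) := by ring
      rw [e]
      exact dvd_sub (Dvd.dvd.mul_right hd1 _) (Dvd.dvd.mul_left hd2 _)
    have h2 := hone _ h1
    rw [zpow_sub₀ hz, div_eq_one_iff_eq (zpow_ne_zero _ hz)] at h2
    exact h2
  have hZ' : L.ζ ^ κ (ofLex g').2 = Z⁻¹ := by
    have h1 := hone _ hd2
    rw [zpow_add₀ hz, ← hZdef] at h1
    exact eq_inv_of_mul_eq_one_right h1
  have hd' : Z⁻¹ - 1 ≠ 0 := by
    intro h0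
    have h1 : Z⁻¹ = 1 := sub_eq_zero.1 h0
    have h2 : Z = 1 := by
      have := inv_eq_one.1 h1
      exact this
    exact hZ1 (by rw [h2, sub_self])
  rw [hZ'] at hx'2
  have hzz : P.e k dτ' * P.e k dτ = P.e k dτ * P.e k dτ' := hz₂ _ (P.e_mem k dτ)
  have hp1 := h.tau_pole hF₀ hx' hz₂ (P.e_mem k dτ') hd' hx'2 (dτ := dτ)
  have hp2 := h.tau_pole hF₀ hx hz₁ (P.e_mem k dτ) hZ1 hx2 (dτ := dτ')
  rw [hzz] at hp2
  rw [hε1, hε2, hε3, hε4, hε5, hp1, hp2]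
  have hΓ' : Γ' = - Γ := eq_neg_of_add_eq_zero_right hΓ
  rw [hΓ']
  set φ := τ (F₀ * (y0⁻¹ * (P.e k dτ * P.e k dτ'))) with hφ
  set w := eps L g g' with hw
  have e4 : (Z⁻¹ - 1)⁻¹ = Z / (1 - Z) := by
    field_simp
  have hZ1' : 1 - Z ≠ 0 := by
    intro h0
    apply hZ1
    linear_combination -h0
  rw [e4]
  field_simp
  ring

/-- **Case P**: the pole term dominates. -/
theorem Cr.rank_P [CharZero K] [FiniteDimensional K A] (h : Cr L P P' k y0 μ)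
    {T0 : Submodule K (Fin 2 → A)} (hM : Mv L P P' k T0) (MZ : Submodule K A)
    (honto : ∀ z ∈ MZ, ∃ τ₀ ∈ T0, P.e k (P.dL k τ₀) = z)
    (hdim : finrank K' (P'.Mov k) ≤
      (L.m - 1) * finrank K ↥(MZ ⊔ MZ.map (LinearMap.mulLeft K μ)) + finrank K MZ)
    (hSS : ∀ τ₀ ∈ T0, ∀ c ∈ P.KK k, ∀ τ' ∈ P.T k, P.SS k c τ₀ τ' = 0) (hT0 : T0 ≤ P.T k)
    {c : ℕ → R} {c₀ : ℕ → A} {F₀ : A} (hc : ∀ i < k, VL L (c i) (-e1) (c₀ i)) (hc₀ : c₀ ∈ P.KK k)
    (hF : VL L (c k) 0 F₀) (hF₀ : P.β k * F₀ = F₀ * P.β k)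
    {τ₁ τ₂ : Fin 2 → A} (hτ₁ : τ₁ ∈ T0) (hτ₂ : τ₂ ∈ T0)
    (hz₁ : ∀ c, P.β k * c = c * P.β k → P.e k (P.dL k τ₁) * c = c * P.e k (P.dL k τ₁))
    (hz₂ : ∀ c, P.β k * c = c * P.β k → P.e k (P.dL k τ₂) * c = c * P.e k (P.dL k τ₂))
    (hφ : τ (F₀ * (y0⁻¹ * (P.e k (P.dL k τ₁) * P.e k (P.dL k τ₂)))) ≠ 0) :
    L.m * (L.m - 5) ≤ rkOn P' (k + 1) c (P'.T (k + 1)) := by
  classical
  have : FiniteDimensional K' R := L.finiteK
  have hm0 : 0 < L.m := L.m_prime.pos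
  set Γ := P.Gam k c₀ τ₁ τ₂ with hΓ
  set φ := τ (F₀ * (y0⁻¹ * (P.e k (P.dL k τ₁) * P.e k (P.dL k τ₂)))) with hφdef
  set f : ℕ → K := fun K₀ => Γ * (L.ζ ^ K₀) ^ 2 + 2 * φ * L.ζ ^ K₀ - Γ with hf
  set S₀ := Finset.Ico 2 (L.m - 1) with hS₀
  set good := S₀.filter (fun K₀ => f K₀ ≠ 0) with hgood
  have hbad : (S₀.filter (fun K₀ => ¬ f K₀ ≠ 0)).card ≤ 2 := by
    by_contra hlt
    rw [not_le, Finset.two_lt_card] at hlt
    obtain ⟨a, ha, b, hb, d, hd, hab, had, hbd⟩ := hlt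
    simp only [Finset.mem_filter, not_not, hS₀, Finset.mem_Ico] at ha hb hd
    have hinj : ∀ {a b : ℕ}, a < L.m → b < L.m → a ≠ b → L.ζ ^ a - L.ζ ^ b ≠ 0 := by
      intro a b ha hb hne h0
      exact hne (L.ζ_prim.pow_inj ha hb (sub_eq_zero.1 h0))
    have h1 : Γ * (L.ζ ^ a + L.ζ ^ b) + 2 * φ = 0 := by
      have h2 := hinj (by omega) (by omega) hab
      have h3 : (L.ζ ^ a - L.ζ ^ b) * (Γ * (L.ζ ^ a + L.ζ ^ b) + 2 * φ) = 0 := by
        have e1 := ha.2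
        have e2 := hb.2
        simp only [hf] at e1 e2
        linear_combination e1 - e2
      exact (mul_eq_zero.1 h3).resolve_left h2
    have h1' : Γ * (L.ζ ^ a + L.ζ ^ d) + 2 * φ = 0 := by
      have h2 := hinj (by omega) (by omega) had
      have h3 : (L.ζ ^ a - L.ζ ^ d) * (Γ * (L.ζ ^ a + L.ζ ^ d) + 2 * φ) = 0 := by
        have e1 := ha.2
        have e2 := hd.2
        simp only [hf] at e1 e2
        linear_combination e1 - e2
      exact (mul_eq_zero.1 h3).resolve_left h2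
    have h4 : Γ * (L.ζ ^ b - L.ζ ^ d) = 0 := by linear_combination h1 - h1'
    have h5 : Γ = 0 := (mul_eq_zero.1 h4).resolve_right (hinj (by omega) (by omega) hbd)
    rw [h5, zero_mul, zero_add] at h1
    exact hφ ((mul_eq_zero.1 h1).resolve_left two_ne_zero)
  have hcard : L.m - 5 ≤ good.card := by
    have h1 : good.card + (S₀.filter (fun K₀ => ¬ f K₀ ≠ 0)).card = S₀.card :=
      Finset.card_filter_add_card_filter_not (s := S₀) (fun K₀ => f K₀ ≠ 0)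
    have h2 : S₀.card = L.m - 1 - 2 := Nat.card_Ico _ _
    omega
  let I := ↥good × Fin L.m
  have hgmem : ∀ α : I, 2 ≤ (α.1 : ℕ) ∧ (α.1 : ℕ) < L.m - 1 ∧ f α.1 ≠ 0 := by
    rintro ⟨⟨K₀, hK₀⟩, j⟩
    simp only [hgood, Finset.mem_filter, hS₀, Finset.mem_Ico] at hK₀
    exact ⟨hK₀.1.1, hK₀.1.2, hK₀.2⟩
  have hnd : ∀ n : ℕ, 0 < n → n < L.m → ¬ (L.m : ℤ) ∣ (n : ℤ) := by
    intro n h0 h1 hd
    have := Int.natCast_dvd_natCast.1 hd
    have := Nat.le_of_dvd h0 this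
    omega
  have hcorr1 : ∀ α : I, ∃ t ∈ P'.T (k + 1), ∃ g : GLv,
      (L.m : ℤ) ∣ κ (ofLex g).2 - ((α.1 : ℕ) : ℤ) ∧ (L.m : ℤ) ∣ (ofLex g).1 - ((α.2 : ℕ) : ℤ) ∧
      ∀ v, VL L (t v) g (τ₁ v) := by
    intro α
    obtain ⟨h1, h2, -⟩ := hgmem α
    refine h.corr hM MZ honto hdim hτ₁ (Or.inl ⟨hnd _ (by omega) (by omega), ?_⟩)
    have := hnd ((α.1 : ℕ) + 1) (by omega) (by omega)
    push_cast at this
    exact this
  have hcorr2 : ∀ α : I, ∃ t ∈ P'.T (k + 1), ∃ g : GLv,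
      (L.m : ℤ) ∣ κ (ofLex g).2 - (-((α.1 : ℕ) : ℤ)) ∧
      (L.m : ℤ) ∣ (ofLex g).1 - (1 - ((α.2 : ℕ) : ℤ)) ∧
      ∀ v, VL L (t v) g (τ₂ v) := by
    intro α
    obtain ⟨h1, h2, -⟩ := hgmem α
    refine h.corr hM MZ honto hdim hτ₂ (Or.inl ⟨?_, ?_⟩)
    · rw [dvd_neg]
      exact hnd _ (by omega) (by omega)
    · have h3 := hnd ((α.1 : ℕ) - 1) (by omega) (by omega)
      intro hd
      apply h3
      have e : (((α.1 : ℕ) - 1 : ℕ) : ℤ) = -(-((α.1 : ℕ) : ℤ) + 1) := by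
        rw [Nat.cast_sub (by omega)]
        push_cast
        ring
      rw [e]
      exact dvd_neg.2 hd
  choose t ht g hg1 hg2 htv using hcorr1
  choose t' ht' g' hg'1 hg'2 ht'v using hcorr2
  have hS : Γ + P.Gam k c₀ τ₂ τ₁ = 0 := hSS τ₁ hτ₁ c₀ hc₀ τ₂ (hT0 hτ₂)
  have hval : ∀ α β : I, ∃ x x' : A, P.β k * x = x * P.β k ∧
      (L.ζ ^ κ (ofLex (g α)).2 - 1) • (y0 * x) = - P.e k (P.dL k τ₁) ∧
      P.β k * x' = x' * P.β k ∧ (L.ζ ^ κ (ofLex (g' β)).2 - 1) • (y0 * x') = - P.e k (P.dL k τ₂) ∧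
      VL L (algebraMap K' R (P'.PP (k + 1) c (t α) (t' β))) (g α + (g' β - e1))
        (open Classical in if g α + (g' β - e1) ∈ centLat L.m then algebraMap K A
          ((eps L (-e1) (g α + g' β) * eps L (g α) (g' β) * P.Gam k c₀ τ₁ τ₂ +
              eps L (g α) (g' β - e1) * τ (F₀ * (P.dL k τ₁ * x'))) -
            (eps L (-e1) (g' β + g α) * eps L (g' β) (g α) * P.Gam k c₀ τ₂ τ₁ +
              eps L (g' β) (g α - e1) * τ (F₀ * (P.dL k τ₂ * x)))) else 0) := fun α β =>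
    h.PP_P (ht α) (htv α) (ht' β) (ht'v β) hc hF
  have hnot : ∀ α β : I, α ≠ β → g α + (g' β - e1) ∉ centLat L.m := by
    intro α β hne hG
    apply hne
    have hd1 := hG.1
    have hd2 := hG.2
    rw [fst_add, fst_sub, fst_e1] at hd1
    rw [κ_add_snd, κ_sub_snd, κ_e1, sub_zero] at hd2
    have h1 : (L.m : ℤ) ∣ ((α.2 : ℕ) : ℤ) - ((β.2 : ℕ) : ℤ) := by
      have h2 := dvd_sub hd1 (dvd_add (hg2 α) (hg'2 β))
      have e : (ofLex (g α)).1 + ((ofLex (g' β)).1 - 1) - ((ofLex (g α)).1 - ((α.2 : ℕ) : ℤ) +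
          ((ofLex (g' β)).1 - (1 - ((β.2 : ℕ) : ℤ)))) = ((α.2 : ℕ) : ℤ) - ((β.2 : ℕ) : ℤ) := by ring
      rwa [e] at h2
    have h2 : (L.m : ℤ) ∣ ((α.1 : ℕ) : ℤ) - ((β.1 : ℕ) : ℤ) := by
      have h3 := dvd_sub hd2 (dvd_add (hg1 α) (hg'1 β))
      have e : κ (ofLex (g α)).2 + κ (ofLex (g' β)).2 - (κ (ofLex (g α)).2 - ((α.1 : ℕ) : ℤ) +
          (κ (ofLex (g' β)).2 - (-((β.1 : ℕ) : ℤ)))) = ((α.1 : ℕ) : ℤ) - ((β.1 : ℕ) : ℤ) := by ring
      rwa [e] at h3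
    obtain ⟨-, ha1, -⟩ := hgmem α
    obtain ⟨-, hb1, -⟩ := hgmem β
    have h3 : ((α.2 : ℕ) : ℤ) - ((β.2 : ℕ) : ℤ) = 0 := by
      apply Int.eq_zero_of_abs_lt_dvd h1
      have := α.2.2
      have := β.2.2
      rw [abs_lt]
      constructor <;> omega
    have h4 : ((α.1 : ℕ) : ℤ) - ((β.1 : ℕ) : ℤ) = 0 := by
      apply Int.eq_zero_of_abs_lt_dvd h2
      rw [abs_lt]
      constructor <;> omega
    refine Prod.ext (Subtype.ext ?_) (Fin.ext ?_) <;> omega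
  have hmain := rank_of_dominant (L := L) (I := I) (V := P'.T (k + 1)) (PPb P' (k + 1) c) t t' ht ht'
    g (fun α => g' α - e1) ?_ ?_ ?_
  · have hcI : Fintype.card I = good.card * L.m := by
      simp [I]
    rw [hcI] at hmain
    unfold rkOn
    calc L.m * (L.m - 5) = (L.m - 5) * L.m := mul_comm _ _
      _ ≤ good.card * L.m := Nat.mul_le_mul_right _ hcard
      _ ≤ _ := hmain
  · intro α
    obtain ⟨x, x', hx, hx2, hx', hx'2, hV⟩ := hval α α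
    have hG : g α + (g' α - e1) ∈ centLat L.m := by
      refine ⟨?_, ?_⟩
      · rw [fst_add, fst_sub, fst_e1]
        have h2 := dvd_add (hg2 α) (hg'2 α)
        have e : (ofLex (g α)).1 - ((α.2 : ℕ) : ℤ) + ((ofLex (g' α)).1 - (1 - ((α.2 : ℕ) : ℤ))) =
            (ofLex (g α)).1 + ((ofLex (g' α)).1 - 1) := by ring
        rwa [e] at h2
      · rw [κ_add_snd, κ_sub_snd, κ_e1, sub_zero]
        have h2 := dvd_add (hg1 α) (hg'1 α)
        have e : κ (ofLex (g α)).2 - ((α.1 : ℕ) : ℤ) + (κ (ofLex (g' α)).2 - (-((α.1 : ℕ) : ℤ))) =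
            κ (ofLex (g α)).2 + κ (ofLex (g' α)).2 := by ring
        rwa [e] at h2
    obtain ⟨hα1, hα2, hα3⟩ := hgmem α
    have hZ : ¬ (L.m : ℤ) ∣ κ (ofLex (g α)).2 := by
      intro hd
      have h2 := dvd_sub hd (hg1 α)
      have e : κ (ofLex (g α)).2 - (κ (ofLex (g α)).2 - ((α.1 : ℕ) : ℤ)) = ((α.1 : ℕ) : ℤ) := by ring
      rw [e] at h2
      exact hnd _ (by omega) (by omega) h2
    have hZe : L.ζ ^ κ (ofLex (g α)).2 = L.ζ ^ (α.1 : ℕ) := by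
      have h2 := (L.ζ_prim.zpow_eq_one_iff_dvd _).2 (hg1 α)
      rw [zpow_sub₀ L.ζ_ne, zpow_natCast, div_eq_one_iff_eq (pow_ne_zero _ L.ζ_ne)] at h2
      exact h2
    have hC := h.C_formula hG hZ hF₀ hz₁ hz₂ hx hx2 hx' hx'2 hS
    have hV2 := hV.eq
    rw [if_pos hG, hC, hZe] at hV2
    show L.c _ (algebraMap K' R (P'.PP (k + 1) c (t α) (t' α))) ≠ 0
    rw [hV2]
    rw [map_ne_zero_iff _ (algebraMap K A).injective]
    refine mul_ne_zero ((eps L).ne_zero _ _) ?_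
    have hZ1 : L.ζ ^ (α.1 : ℕ) - 1 ≠ 0 := by
      rw [← hZe]
      intro h0
      exact hZ ((L.ζ_prim.zpow_eq_one_iff_dvd _).1 (sub_eq_zero.1 h0))
    intro h0
    apply hα3
    field_simp at h0
    simp only [hf]
    linear_combination h0
  · intro α β g₁ hg₁
    obtain ⟨x, x', -, -, -, -, hV⟩ := hval α β
    exact hV.lt g₁ hg₁
  · intro α β hne
    obtain ⟨x, x', -, -, -, -, hV⟩ := hval α β
    have := hV.eq
    rw [if_neg (hnot α β hne)] at this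
    exact this

/-- The value of `P_c(t,t')`: the older part dominates. -/
theorem Cr.PP_O (h : Cr L P P' k y0 μ) {t t' : Fin 2 → R} {τ₀ τ₁ : Fin 2 → A} {g g' g₀ : GLv}
    {c : ℕ → R} {c₀ : ℕ → A} {F₀ : A} (hg₀ : g₀ < -e1) (htT : t ∈ P'.T (k + 1))
    (ht : ∀ v, VL L (t v) g (τ₀ v))
    (htT' : t' ∈ P'.T (k + 1)) (ht' : ∀ v, VL L (t' v) g' (τ₁ v))
    (hc : ∀ i < k, VL L (c i) g₀ (c₀ i)) (hF : VL L (c k) 0 F₀) :
    VL L (algebraMap K' R (P'.PP (k + 1) c t t')) (g + (g₀ + g'))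
        (open Classical in if g + (g₀ + g') ∈ centLat L.m then algebraMap K A
          (eps L g₀ (g + g') * (eps L g g' * P.Gam k c₀ τ₀ τ₁ - eps L g' g * P.Gam k c₀ τ₁ τ₀))
          else 0) := by
  classical
  have hT1 : t ∈ P'.T k := P'.T_anti (Nat.le_succ k) htT
  have hT2 : t' ∈ P'.T k := P'.T_anti (Nat.le_succ k) htT'
  have h1 := h.Gam_old ht hT2 ht' hc
  have h2 := h.Gam_old ht' hT1 ht hc
  obtain ⟨x', -, -, h3⟩ := h.Gam_F ht htT' ht' hF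
  obtain ⟨x, -, -, h4⟩ := h.Gam_F ht' htT ht hF
  set G := g + (g₀ + g') with hG
  have e₁ : g₀ + (g + g') = G := by rw [hG]; abel
  have e₂ : g₀ + (g' + g) = G := by rw [hG]; abel
  rw [e₁] at h1
  rw [e₂] at h2
  have hlt1 : G < g + (g' - e1) := by
    have e : g + (g' - e1) = -e1 + (g + g') := by abel
    rw [e, ← e₁]
    exact add_lt_add_left hg₀ _
  have hlt2 : G < g' + (g - e1) := by
    have e : g' + (g - e1) = g + (g' - e1) := by abel
    rw [e]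
    exact hlt1
  have h5 := (h1.add (h3.weaken hlt1)).sub (h2.add (h4.weaken hlt2))
  rw [PP_succ, map_sub, map_add, map_add]
  refine h5.of_eq ?_
  have e3 : eps L g₀ (g' + g) = eps L g₀ (g + g') := by rw [add_comm]
  split_ifs
  · rw [add_zero, add_zero, ← map_sub, e3]
    congr 1
    ring
  · simp

/-- **Case O**: the older part dominates. -/
theorem Cr.rank_O [CharZero K] [FiniteDimensional K A] (hm2 : L.m ≠ 2) (h : Cr L P P' k y0 μ)
    {T0 : Submodule K (Fin 2 → A)} (hM : Mv L P P' k T0) (MZ : Submodule K A)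
    (honto : ∀ z ∈ MZ, ∃ τ₀ ∈ T0, P.e k (P.dL k τ₀) = z)
    (hdim : finrank K' (P'.Mov k) ≤
      (L.m - 1) * finrank K ↥(MZ ⊔ MZ.map (LinearMap.mulLeft K μ)) + finrank K MZ)
    (hSS : ∀ τ₀ ∈ T0, ∀ c ∈ P.KK k, ∀ τ' ∈ P.T k, P.SS k c τ₀ τ' = 0) (hT0 : T0 ≤ P.T k)
    {c : ℕ → R} {c₀ : ℕ → A} {F₀ : A} {g₀ : GLv} (hg₀ : g₀ < -e1)
    (hc : ∀ i < k, VL L (c i) g₀ (c₀ i)) (hc₀ : c₀ ∈ P.KK k) (hF : VL L (c k) 0 F₀)
    {τ₁ τ₂ : Fin 2 → A} (hτ₁ : τ₁ ∈ T0) (hτ₂ : τ₂ ∈ T0) (hp : P.PP k c₀ τ₁ τ₂ ≠ 0) :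
    L.m * (L.m - 4) ≤ rkOn P' (k + 1) c (P'.T (k + 1)) := by
  classical
  have : FiniteDimensional K' R := L.finiteK
  have hm0 : (0 : ℤ) < L.m := by exact_mod_cast L.m_prime.pos
  set K₀ := κ (ofLex g₀).2 with hK₀
  set j₀ := (ofLex g₀).1 with hj₀
  -- the good classes
  set rep : ℤ → ℕ := fun a => (a % (L.m : ℤ)).toNat with hrep
  have hrep_lt : ∀ a, rep a < L.m := by
    intro a
    have h1 := Int.emod_lt_of_pos a hm0
    have h2 := Int.emod_nonneg a hm0.ne'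
    simp only [hrep]
    omega
  have hrep_eq : ∀ (a : ℤ) (n : ℕ), n < L.m → (L.m : ℤ) ∣ (n : ℤ) - a → n = rep a := by
    intro a n hn hd
    have h1 : ((n : ℤ) - a) % (L.m : ℤ) = 0 := Int.emod_eq_zero_of_dvd hd
    have h2 : (n : ℤ) % (L.m : ℤ) = a % (L.m : ℤ) := Int.emod_emod_of_dvd _ (dvd_refl _) ▸ (by
      exact (Int.emod_emod_of_dvd _ (dvd_refl _)).symm ▸ Int.ModEq.symm (Int.modEq_iff_dvd.2 (by
        simpa using hd)))
    have h3 : (n : ℤ) % (L.m : ℤ) = n := Int.emod_eq_of_lt (by omega) (by exact_mod_cast hn)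
    simp only [hrep]
    omega
  set S₀ := Finset.range L.m with hS₀
  set bad : Finset ℕ := {rep 0, rep (-1), rep (-K₀), rep (-K₀ - (-1))} with hbad
  set good := S₀ \ bad with hgood
  have hbadcard : bad.card ≤ 4 := Finset.card_le_four
  have hcard : L.m - 4 ≤ good.card := by
    have h1 : S₀.card - bad.card ≤ good.card := Finset.le_card_sdiff bad S₀
    have h2 : S₀.card = L.m := Finset.card_range _
    omega
  let I := ↥good × Fin L.m
  have hgmem : ∀ α : I, (α.1 : ℕ) < L.m ∧ ¬ (L.m : ℤ) ∣ ((α.1 : ℕ) : ℤ) ∧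
      ¬ (L.m : ℤ) ∣ ((α.1 : ℕ) : ℤ) + 1 ∧
      ¬ (L.m : ℤ) ∣ (-K₀ - ((α.1 : ℕ) : ℤ)) ∧ ¬ (L.m : ℤ) ∣ (-K₀ - ((α.1 : ℕ) : ℤ)) + 1 := by
    rintro ⟨⟨a, ha⟩, j⟩
    simp only [hgood, Finset.mem_sdiff, hS₀, Finset.mem_range, hbad, Finset.mem_insert,
      Finset.mem_singleton, not_or] at ha
    obtain ⟨h1, h2, h3, h4, h5⟩ := ha
    refine ⟨h1, fun hd => h2 ?_, fun hd => h3 ?_, fun hd => h4 ?_, fun hd => h5 ?_⟩
    · exact hrep_eq _ _ h1 (by simpa using hd)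
    · exact hrep_eq _ _ h1 (by simpa using hd)
    · refine hrep_eq _ _ h1 ?_
      have h6 := dvd_neg.2 hd
      have e : -(-K₀ - (a : ℤ)) = (a : ℤ) - -K₀ := by ring
      rwa [e] at h6
    · refine hrep_eq _ _ h1 ?_
      have h6 := dvd_neg.2 hd
      have e : -(-K₀ - (a : ℤ) + 1) = (a : ℤ) - (-K₀ - -1) := by ring
      rwa [e] at h6
  have hcorr1 : ∀ α : I, ∃ t ∈ P'.T (k + 1), ∃ g : GLv,
      (L.m : ℤ) ∣ κ (ofLex g).2 - ((α.1 : ℕ) : ℤ) ∧ (L.m : ℤ) ∣ (ofLex g).1 - ((α.2 : ℕ) : ℤ) ∧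
      ∀ v, VL L (t v) g (τ₁ v) := by
    intro α
    obtain ⟨-, h1, h2, -, -⟩ := hgmem α
    exact h.corr hM MZ honto hdim hτ₁ (Or.inl ⟨h1, h2⟩)
  have hcorr2 : ∀ α : I, ∃ t ∈ P'.T (k + 1), ∃ g : GLv,
      (L.m : ℤ) ∣ κ (ofLex g).2 - (-K₀ - ((α.1 : ℕ) : ℤ)) ∧
      (L.m : ℤ) ∣ (ofLex g).1 - (-j₀ - ((α.2 : ℕ) : ℤ)) ∧
      ∀ v, VL L (t v) g (τ₂ v) := by
    intro α
    obtain ⟨-, -, -, h1, h2⟩ := hgmem α
    exact h.corr hM MZ honto hdim hτ₂ (Or.inl ⟨h1, h2⟩)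
  choose t ht g hg1 hg2 htv using hcorr1
  choose t' ht' g' hg'1 hg'2 ht'v using hcorr2
  have hS : P.Gam k c₀ τ₁ τ₂ + P.Gam k c₀ τ₂ τ₁ = 0 := hSS τ₁ hτ₁ c₀ hc₀ τ₂ (hT0 hτ₂)
  have hval := fun (α β : I) => h.PP_O hg₀ (ht α) (htv α) (ht' β) (ht'v β) hc hF
  have hnot : ∀ α β : I, α ≠ β → g α + (g₀ + g' β) ∉ centLat L.m := by
    intro α β hne hG
    apply hne
    have hd1 := hG.1
    have hd2 := hG.2
    rw [fst_add, fst_add] at hd1
    rw [κ_add_snd, κ_add_snd] at hd2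
    have h1 : (L.m : ℤ) ∣ ((α.2 : ℕ) : ℤ) - ((β.2 : ℕ) : ℤ) := by
      have h2 := dvd_sub hd1 (dvd_add (hg2 α) (hg'2 β))
      have e : (ofLex (g α)).1 + (j₀ + (ofLex (g' β)).1) - ((ofLex (g α)).1 - ((α.2 : ℕ) : ℤ) +
          ((ofLex (g' β)).1 - (-j₀ - ((β.2 : ℕ) : ℤ)))) = ((α.2 : ℕ) : ℤ) - ((β.2 : ℕ) : ℤ) := by ring
      rwa [e] at h2
    have h2 : (L.m : ℤ) ∣ ((α.1 : ℕ) : ℤ) - ((β.1 : ℕ) : ℤ) := by
      have h3 := dvd_sub hd2 (dvd_add (hg1 α) (hg'1 β))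
      have e : κ (ofLex (g α)).2 + (K₀ + κ (ofLex (g' β)).2) - (κ (ofLex (g α)).2 - ((α.1 : ℕ) : ℤ) +
          (κ (ofLex (g' β)).2 - (-K₀ - ((β.1 : ℕ) : ℤ)))) = ((α.1 : ℕ) : ℤ) - ((β.1 : ℕ) : ℤ) := by ring
      rwa [e] at h3
    obtain ⟨ha1, -, -, -, -⟩ := hgmem α
    obtain ⟨hb1, -, -, -, -⟩ := hgmem β
    have h3 : ((α.2 : ℕ) : ℤ) - ((β.2 : ℕ) : ℤ) = 0 := by
      apply Int.eq_zero_of_abs_lt_dvd h1
      have := α.2.2
      have := β.2.2
      rw [abs_lt]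
      constructor <;> omega
    have h4 : ((α.1 : ℕ) : ℤ) - ((β.1 : ℕ) : ℤ) = 0 := by
      apply Int.eq_zero_of_abs_lt_dvd h2
      rw [abs_lt]
      constructor <;> omega
    refine Prod.ext (Subtype.ext ?_) (Fin.ext ?_) <;> omega
  have hmain := rank_of_dominant (L := L) (I := I) (V := P'.T (k + 1)) (PPb P' (k + 1) c) t t' ht ht'
    g (fun α => g₀ + g' α) ?_ ?_ ?_
  · have hcI : Fintype.card I = good.card * L.m := by
      simp [I]
    rw [hcI] at hmain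
    unfold rkOn
    calc L.m * (L.m - 4) = (L.m - 4) * L.m := mul_comm _ _
      _ ≤ good.card * L.m := Nat.mul_le_mul_right _ hcard
      _ ≤ _ := hmain
  · intro α
    have hV := hval α α
    have hG : g α + (g₀ + g' α) ∈ centLat L.m := by
      refine ⟨?_, ?_⟩
      · rw [fst_add, fst_add]
        have h2 := dvd_add (hg2 α) (hg'2 α)
        have e : (ofLex (g α)).1 - ((α.2 : ℕ) : ℤ) + ((ofLex (g' α)).1 - (-j₀ - ((α.2 : ℕ) : ℤ))) =
            (ofLex (g α)).1 + (j₀ + (ofLex (g' α)).1) := by ring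
        rwa [e] at h2
      · rw [κ_add_snd, κ_add_snd]
        have h2 := dvd_add (hg1 α) (hg'1 α)
        have e : κ (ofLex (g α)).2 - ((α.1 : ℕ) : ℤ) + (κ (ofLex (g' α)).2 - (-K₀ - ((α.1 : ℕ) : ℤ))) =
            κ (ofLex (g α)).2 + (K₀ + κ (ofLex (g' α)).2) := by ring
        rwa [e] at h2
    have hV2 := hV.eq
    rw [if_pos hG] at hV2
    show L.c _ (algebraMap K' R (P'.PP (k + 1) c (t α) (t' α))) ≠ 0
    rw [hV2, map_ne_zero_iff _ (algebraMap K A).injective]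
    refine mul_ne_zero ((eps L).ne_zero _ _) ?_
    have e : P.Gam k c₀ τ₂ τ₁ = - P.Gam k c₀ τ₁ τ₂ := eq_neg_of_add_eq_zero_right hS
    rw [e]
    have e2 : eps L (g α) (g' α) * P.Gam k c₀ τ₁ τ₂ -
        eps L (g' α) (g α) * - P.Gam k c₀ τ₁ τ₂ =
        (eps L (g α) (g' α) + eps L (g' α) (g α)) * P.Gam k c₀ τ₁ τ₂ := by ring
    rw [e2]
    refine mul_ne_zero (eps_add_ne hm2 _ _) ?_
    intro h0
    apply hp
    rw [Pt.PP, e, h0]
    ring
  · intro α β g₁ hg₁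
    exact (hval α β).lt g₁ hg₁
  · intro α β hne
    have := (hval α β).eq
    rw [if_neg (hnot α β hne)] at this
    exact this

/-- Commutation passes to leads. -/
lemma Cr.comm_lead (h : Cr L P P' k y0 μ) {i : ℕ} (hi : i < k) {x : R} {g : GLv} {x₀ : A}
    (hx : VL L x g x₀) (hc : P'.β i * x = x * P'.β i) : P.β i * x₀ = x₀ * P.β i := by
  obtain ⟨u, hu, hH⟩ := h.ov.frame i hi
  have hu0 : u ≠ 0 := hu.ne_zero one_ne_zero
  have hui := vl_inv hu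
  set x' := u⁻¹ * x * u with hx'
  have hV : VL L x' g x₀ := by
    have := (hui.mul_zero_left hx).mul_zero_right hu
    simpa using this
  have hH' : u⁻¹ * P'.β i = L.lev.inc (P.β i) * u⁻¹ := by
    calc u⁻¹ * P'.β i = u⁻¹ * P'.β i * (u * u⁻¹) := by rw [mul_inv_cancel₀ hu0, mul_one]
      _ = u⁻¹ * (P'.β i * u) * u⁻¹ := by noncomm_ring
      _ = u⁻¹ * (u * L.lev.inc (P.β i)) * u⁻¹ := by rw [hH]
      _ = (u⁻¹ * u) * L.lev.inc (P.β i) * u⁻¹ := by noncomm_ring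
      _ = L.lev.inc (P.β i) * u⁻¹ := by rw [inv_mul_cancel₀ hu0, one_mul]
  have hcomm : L.lev.inc (P.β i) * x' = x' * L.lev.inc (P.β i) := by
    calc L.lev.inc (P.β i) * x' = (L.lev.inc (P.β i) * u⁻¹) * x * u := by rw [hx']; noncomm_ring
      _ = u⁻¹ * (P'.β i * x) * u := by rw [← hH']; noncomm_ring
      _ = u⁻¹ * x * (P'.β i * u) := by rw [hc]; noncomm_ring
      _ = u⁻¹ * x * (u * L.lev.inc (P.β i)) := by rw [hH]
      _ = x' * L.lev.inc (P.β i) := by rw [hx']; noncomm_ring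
  have h1 := congrArg (L.c g) hcomm
  rw [c_inc_mul, c_mul_inc, hV.eq] at h1
  exact h1

/-- **The older lead is in `𝕂(k)(Z)`.** -/
theorem Cr.lead_KK (h : Cr L P P' k y0 μ) {c : ℕ → R} (hc : c ∈ P'.KK (k + 1)) {F₀ : A}
    (hF : VL L (c k) 0 F₀) {g₀ : GLv} (hg₀ : g₀ < 0) {c₀ : ℕ → A}
    (hold : ∀ i < k, VL L (c i) g₀ (c₀ i)) (hz : ∀ i, k ≤ i → c₀ i = 0) : c₀ ∈ P.KK k := by
  refine ⟨hz, fun i => ?_, fun τ₀ => ?_⟩
  · by_cases hi : i < k
    · exact h.comm_lead hi (hold i hi) (hc.2.1 i)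
    · rw [hz i (not_lt.1 hi), mul_zero, zero_mul]
  · -- the test vector
    have hj : 0 ≤ (ofLex (-g₀)).1 := by
      have h1 : (ofLex g₀).1 ≤ 0 := by
        have := fst_mono hg₀.le
        simpa using this
      show 0 ≤ - (ofLex g₀).1
      omega
    obtain ⟨j, hj'⟩ := Int.eq_ofNat_of_zero_le hj
    set t : Fin 2 → R := fun v => L.lev.mono (τ₀ v) (ofLex (-g₀)).2 j with ht
    have htV : ∀ v, VL L (t v) (-g₀) (τ₀ v) := by
      intro v
      have := VL.mono_term (L := L) (τ₀ v) (ofLex (-g₀)).2 j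
      rw [← hj'] at this
      exact this
    have hk := hc.2.2 t
    rw [Finset.sum_range_succ] at hk
    have h1 := congrArg (fun u : K' => L.c 0 (algebraMap K' R u)) hk
    simp only [map_add, map_sum, VL.c_add, c_sum, map_zero, VL.c_zero] at h1
    have h2 : ∀ i ∈ Finset.range k, L.c 0 (algebraMap K' R (P'.τ (c i * P'.dL i t))) =
        algebraMap K A (eps L g₀ (-g₀) * τ (c₀ i * P.dL i τ₀)) := by
      intro i hi
      have hi' := Finset.mem_range.1 hi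
      have h3 := (hold i hi').mul (h.ov.dL htV i)
      rw [add_neg_cancel] at h3
      have h4 := (h.vl_tau h3).eq
      rw [if_pos (zero_mem_centLat L.m)] at h4
      rw [h4, map_smul, smul_eq_mul]
    have h3 : L.c 0 (algebraMap K' R (P'.τ (c k * P'.dL k t))) = 0 := by
      have h4 := hF.mul_zero_left (h.ov.dL htV k)
      have h5 := (h.vl_tau h4)
      have hpos : (0 : GLv) < -g₀ := Left.neg_pos_iff.2 hg₀
      exact h5.lt 0 hpos
    rw [h3, add_zero, Finset.sum_congr rfl h2, ← map_sum, ← Finset.mul_sum] at h1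
    have h4 := (algebraMap K A).injective (h1.trans (map_zero _).symm)
    have h5 := (mul_eq_zero.1 h4).resolve_left ((eps L).ne_zero _ _)
    rw [← h5]
    refine Finset.sum_congr rfl fun i _ => ?_
    rw [h.τ₀]

/-- Leads of a space of sequences in a fixed subspace: the dimension bound (`helper83`'s
`finrank_le_of_leads`, for sequences vanishing from `k` on). -/
theorem finrank_le_of_leads' [FiniteDimensional K A] [FiniteDimensional K' R] {k : ℕ}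
    {W : Submodule K' (ℕ → R)} (hW : ∀ c' ∈ W, ∀ i, k ≤ i → c' i = 0) (Z : Submodule K (ℕ → A))
    [Module.Finite K Z]
    (h : ∀ c' ∈ W, ∀ g : GLv, (∀ i, ∀ h, h < g → L.c h (c' i) = 0) →
      (fun i => L.c g (c' i)) ∈ Z) :
    finrank K' W ≤ L.m ^ 2 * finrank K Z := by
  classical
  set W' : Submodule K' (Fin k → R) := W.map (ValC.res K' R k) with hW'
  have h1 : finrank K' W' = finrank K' W := by
    have hinj : Function.Injective ((ValC.res K' R k).domRestrict W) := by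
      intro a b hab
      apply Subtype.ext
      funext i
      by_cases hi : i < k
      · exact congrFun hab ⟨i, hi⟩
      · rw [hW _ a.2 i (not_lt.1 hi), hW _ b.2 i (not_lt.1 hi)]
    have h2 := LinearMap.finrank_range_of_inj hinj
    have h3 : LinearMap.range ((ValC.res K' R k).domRestrict W) = W' := by
      ext y
      simp [hW', Submodule.mem_map]
    rw [h3] at h2
    exact h2
  rw [← h1, L.gaussK_pi W']
  have h4 : ∀ e : Fin L.m × Fin L.m,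
      finrank K ((L.leadK.pi (Fin k)).lead (L.eK e) W') ≤ finrank K Z := by
    intro e
    refine le_trans (Submodule.finrank_mono ?_) (Submodule.finrank_map_le (ValC.res K A k) Z)
    intro a ha
    obtain ⟨t, ⟨c', hc', rfl⟩, h5, h6⟩ := L.mem_leadK_pi.1 ha
    refine ⟨_, h c' hc' (L.eK e) fun i => ?_, ?_⟩
    · by_cases hi : i < k
      · exact L.le_vK_iff.1 (h5 ⟨i, hi⟩)
      · intro h0 _
        rw [hW _ hc' i (not_lt.1 hi)]
        exact VL.c_zero h0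
    · funext i
      exact h6 i
  calc ∑ e, finrank K ((L.leadK.pi (Fin k)).lead (L.eK e) W')
      ≤ ∑ _e : Fin L.m × Fin L.m, finrank K Z := Finset.sum_le_sum fun e _ => h4 e
    _ = L.m ^ 2 * finrank K Z := by
      rw [Finset.sum_const, Finset.card_univ, Fintype.card_prod, Fintype.card_fin, smul_eq_mul,
        pow_two]

/-- The pair of test leads with `φ ≠ 0`. -/
theorem Cr.exists_pair (h : Cr L P P' k y0 μ) {T0 : Submodule K (Fin 2 → A)} (MZ : Submodule K A)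
    (honto : ∀ z ∈ MZ, ∃ τ₀ ∈ T0, P.e k (P.dL k τ₀) = z)
    (hMZc : ∀ z ∈ MZ, ∀ c, P.β k * c = c * P.β k → z * c = c * z)
    (hy0 : y0 ∈ MZ) (hy0μ : y0 * μ ∈ MZ) {F₀ z : A}
    (hz : z ∈ MZ ⊔ MZ.map (LinearMap.mulLeft K μ)) (hφ : τ (F₀ * z) ≠ 0) :
    ∃ τ₁ ∈ T0, ∃ τ₂ ∈ T0, P.e k (P.dL k τ₁) ∈ MZ ∧ P.e k (P.dL k τ₂) ∈ MZ ∧
      τ (F₀ * (y0⁻¹ * (P.e k (P.dL k τ₁) * P.e k (P.dL k τ₂)))) ≠ 0 := by
  obtain ⟨z₁, hz₁, w, hw, rfl⟩ := Submodule.mem_sup.1 hz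
  obtain ⟨z₂, hz₂, rfl⟩ := hw
  have e : (LinearMap.mulLeft K μ) z₂ = μ * z₂ := rfl
  rw [e, mul_add, map_add] at hφ
  by_cases h1 : τ (F₀ * z₁) = 0
  · rw [h1, zero_add] at hφ
    obtain ⟨τ₁, hτ₁, he₁⟩ := honto _ hy0μ
    obtain ⟨τ₂, hτ₂, he₂⟩ := honto _ hz₂
    refine ⟨τ₁, hτ₁, τ₂, hτ₂, he₁ ▸ hy0μ, he₂ ▸ hz₂, ?_⟩
    rw [he₁, he₂]
    have e2 : y0⁻¹ * (y0 * μ * z₂) = μ * z₂ := by
      rw [mul_assoc, ← mul_assoc, inv_mul_cancel₀ h.y0_ne, one_mul]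
    rw [e2]
    exact hφ
  · obtain ⟨τ₁, hτ₁, he₁⟩ := honto _ hz₁
    obtain ⟨τ₂, hτ₂, he₂⟩ := honto _ hy0
    refine ⟨τ₁, hτ₁, τ₂, hτ₂, he₁ ▸ hz₁, he₂ ▸ hy0, ?_⟩
    rw [he₁, he₂]
    have e2 : y0⁻¹ * (z₁ * y0) = z₁ := by
      rw [hMZc z₁ hz₁ y0 h.y0_β, ← mul_assoc, inv_mul_cancel₀ h.y0_ne, one_mul]
    rw [e2]
    exact h1

/-- **The rank of `P_c` on `T(k+1)(X)`**, given the normalised lead `F₀` of the pole part. -/
theorem Cr.rank_main [CharZero K] [FiniteDimensional K A] (hm2 : L.m ≠ 2) (h : Cr L P P' k y0 μ)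
    {T0 : Submodule K (Fin 2 → A)} (hM : Mv L P P' k T0) (MZ : Submodule K A)
    (honto : ∀ z ∈ MZ, ∃ τ₀ ∈ T0, P.e k (P.dL k τ₀) = z)
    (hdim : finrank K' (P'.Mov k) ≤
      (L.m - 1) * finrank K ↥(MZ ⊔ MZ.map (LinearMap.mulLeft K μ)) + finrank K MZ)
    (hSS : ∀ τ₀ ∈ T0, ∀ c ∈ P.KK k, ∀ τ' ∈ P.T k, P.SS k c τ₀ τ' = 0) (hT0 : T0 ≤ P.T k)
    (hMZc : ∀ z ∈ MZ, ∀ c, P.β k * c = c * P.β k → z * c = c * z)
    (hy0 : y0 ∈ MZ) (hy0μ : y0 * μ ∈ MZ)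
    (hdimI : L.m ^ 2 * finrank K (IIT P k (P.T k)) ≤ finrank K' (IIT P' k (P'.T k)))
    (hleadI : ∀ c' ∈ IIT P' k (P'.T k), ∀ g : GLv, (∀ i, ∀ h, h < g → L.c h (c' i) = 0) →
      (fun i => L.c g (c' i)) ∈ IIT P k (P.T k))
    (hT0ne : ∀ c ∈ P.KK k, c ∉ IIT P k (P.T k) → ∃ τ₁ ∈ T0, ∃ τ₂ ∈ T0, P.PP k c τ₁ τ₂ ≠ 0)
    {c : ℕ → R} (hc : c ∈ P'.KK (k + 1)) {F₀ : A} (hF : VL L (c k) 0 F₀)
    (hF₀ : P.β k * F₀ = F₀ * P.β k) {z : A} (hz : z ∈ MZ ⊔ MZ.map (LinearMap.mulLeft K μ))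
    (hφ : τ (F₀ * z) ≠ 0) :
    L.m * (L.m - 5) ≤ rkOn P' (k + 1) c (P'.T (k + 1)) := by
  classical
  have : FiniteDimensional K' R := L.finiteK
  obtain ⟨τ₁, hτ₁, τ₂, hτ₂, hz₁, hz₂, hφ'⟩ := h.exists_pair MZ honto hMZc hy0 hy0μ hz hφ
  set Y₀ := IIT P' k (P'.T k) with hY₀
  have hY₀K : Y₀ ≤ P'.KK k := fun _ hc => hc.1
  haveI : Module.Finite K' Y₀ := Submodule.finiteDimensional_of_le hY₀K
  haveI : Module.Finite K (IIT P k (P.T k)) :=
    Submodule.finiteDimensional_of_le (fun _ hc => hc.1 : IIT P k (P.T k) ≤ P.KK k)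
  -- modification of `c` by an element of `Y₀`
  have hmod : ∀ i' ∈ Y₀, rkOn P' (k + 1) (c + i') (P'.T (k + 1)) =
      rkOn P' (k + 1) c (P'.T (k + 1)) := by
    intro i' hi'
    have := ValH.rkOn_smul (P' := P') (k := k + 1) (c' := c) (i' := i') (V := P'.T (k + 1))
      (l := 1) one_ne_zero (fun t ht t' ht' => by
        rw [P'.PP_of_le (Nat.le_succ k) hi'.1]
        exact hi'.2 t (P'.T_anti (Nat.le_succ k) ht) t' (P'.T_anti (Nat.le_succ k) ht'))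
    rwa [one_smul] at this
  have hcK : ∀ i' ∈ Y₀, c + i' ∈ P'.KK (k + 1) := fun i' hi' =>
    add_mem hc (P'.KK_mono (Nat.le_succ k) hi'.1)
  have hk0 : ∀ i' ∈ Y₀, (c + i') k = c k := by
    intro i' hi'
    show c k + i' k = c k
    rw [hi'.1.1 k le_rfl, add_zero]
  set x₀ : ℕ → R := fun i => if i < k then c i else 0 with hx₀
  by_cases hx : x₀ ∈ Y₀
  · -- the older part is implied
    have hneg : -x₀ ∈ Y₀ := neg_mem hx
    rw [← hmod _ hneg]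
    have hF' : VL L ((c + -x₀) k) 0 F₀ := by rw [hk0 _ hneg]; exact hF
    refine h.rank_P hM MZ honto hdim hSS hT0 (c₀ := 0) (fun i hi => ?_) (zero_mem _) hF' hF₀ hτ₁ hτ₂
      (hMZc _ hz₁) (hMZc _ hz₂) hφ'
    have e : (c + -x₀) i = 0 := by
      show c i + - x₀ i = 0
      simp only [hx₀, if_pos hi]
      abel
    rw [e]
    exact VL.zero _
  · -- Gauss
    set W := Y₀ ⊔ Submodule.span K' {x₀} with hW
    have hWv : ∀ c' ∈ W, ∀ i, k ≤ i → c' i = 0 := by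
      intro c' hc' i hi
      obtain ⟨a, ha, b, hb, rfl⟩ := Submodule.mem_sup.1 hc'
      obtain ⟨l, rfl⟩ := Submodule.mem_span_singleton.1 hb
      show a i + l • x₀ i = 0
      rw [ha.1.1 i hi, zero_add]
      simp only [hx₀, if_neg (not_lt.2 hi), smul_zero]
    have hx0 : x₀ ≠ 0 := by
      intro h0
      rw [h0] at hx
      exact hx (zero_mem _)
    have hdimW : finrank K' W = finrank K' Y₀ + 1 := by
      have h1 := Submodule.finrank_sup_add_finrank_inf_eq Y₀ (Submodule.span K' {x₀})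
      have h2 : Y₀ ⊓ Submodule.span K' {x₀} = ⊥ := by
        rw [eq_bot_iff]
        rintro y ⟨hy1, hy2⟩
        obtain ⟨a, rfl⟩ := Submodule.mem_span_singleton.1 hy2
        by_cases ha : a = 0
        · simp [ha]
        · exfalso
          apply hx
          have := Y₀.smul_mem a⁻¹ hy1
          rwa [smul_smul, inv_mul_cancel₀ ha, one_smul] at this
      rw [h2, finrank_bot, finrank_span_singleton hx0] at h1
      omega
    have hlead : ∃ w ∈ W, ∃ g : GLv, (∀ i, ∀ h, h < g → L.c h (w i) = 0) ∧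
        (fun i => L.c g (w i)) ∉ IIT P k (P.T k) := by
      by_contra hcon
      push Not at hcon
      have := finrank_le_of_leads' (L := L) hWv (IIT P k (P.T k)) hcon
      omega
    obtain ⟨w, hw, g, hg, hwn⟩ := hlead
    obtain ⟨i', hi', y, hy, rfl⟩ := Submodule.mem_sup.1 hw
    obtain ⟨a, rfl⟩ := Submodule.mem_span_singleton.1 hy
    have ha : a ≠ 0 := by
      rintro rfl
      rw [zero_smul, add_zero] at hg hwn
      exact hwn (hleadI i' hi' g hg)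
    -- normalise
    set i'' : ℕ → R := a⁻¹ • i' with hi''
    have hi''m : i'' ∈ Y₀ := Y₀.smul_mem _ hi'
    have ha' : a⁻¹ ≠ 0 := inv_ne_zero ha
    set g₁ := g + L.lamK a⁻¹ with hg₁
    set y₀ : ℕ → A := fun i => L.lcK a⁻¹ • L.c g ((i' + a • x₀) i) with hy₀
    have hyV : ∀ i < k, VL L ((c + i'') i) g₁ (y₀ i) := by
      intro i hi
      have h1 := VL_smul (L := L) ha' (⟨hg i, rfl⟩ : VL L ((i' + a • x₀) i) g (L.c g ((i' + a • x₀) i)))
      have e : a⁻¹ • (i' + a • x₀) i = (c + i'') i := by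
        show a⁻¹ • (i' i + a • x₀ i) = c i + a⁻¹ • i' i
        rw [smul_add, smul_smul, inv_mul_cancel₀ ha, one_smul, add_comm]
        simp only [hx₀, if_pos hi]
      rwa [e] at h1
    have hy₀n : y₀ ∉ IIT P k (P.T k) := by
      intro hmem
      apply hwn
      have h1 := Submodule.smul_mem _ (L.lcK a⁻¹)⁻¹ hmem
      have h2 := L.lcK_ne ha'
      have e : (L.lcK a⁻¹)⁻¹ • y₀ = fun i => L.c g ((i' + a • x₀) i) := by
        funext i
        show (L.lcK a⁻¹)⁻¹ • (L.lcK a⁻¹ • L.c g ((i' + a • x₀) i)) = _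
        rw [smul_smul, inv_mul_cancel₀ h2, one_smul]
      rwa [e] at h1
    have hy₀z : ∀ i, k ≤ i → y₀ i = 0 := by
      intro i hi
      show L.lcK a⁻¹ • L.c g ((i' + a • x₀) i) = 0
      rw [hWv _ hw i hi, VL.c_zero, smul_zero]
    rw [← hmod _ hi''m]
    have hF' : VL L ((c + i'') k) 0 F₀ := by rw [hk0 _ hi''m]; exact hF
    by_cases hlt : g₁ < -e1
    · -- Case O
      have hg0 : g₁ < 0 := lt_trans hlt (neg_lt_zero.2 e1_pos)
      have hK := h.lead_KK (hcK _ hi''m) hF' hg0 hyV hy₀z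
      obtain ⟨τ₃, hτ₃, τ₄, hτ₄, hp⟩ := hT0ne _ hK hy₀n
      have h1 := h.rank_O hm2 hM MZ honto hdim hSS hT0 hlt hyV hK hF' hτ₃ hτ₄ hp
      refine le_trans ?_ h1
      exact Nat.mul_le_mul_left _ (by omega)
    · -- Case P
      rw [not_lt] at hlt
      set c₀ : ℕ → A := if g₁ = -e1 then y₀ else 0 with hc₀
      have hV : ∀ i < k, VL L ((c + i'') i) (-e1) (c₀ i) := by
        intro i hi
        by_cases he : g₁ = -e1
        · have e2 : c₀ i = y₀ i := by simp only [hc₀, if_pos he]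
          rw [e2, ← he]
          exact hyV i hi
        · have e2 : c₀ i = 0 := by simp only [hc₀, if_neg he]; rfl
          rw [e2]
          exact (hyV i hi).weaken (lt_of_le_of_ne hlt (Ne.symm he))
      have hz0 : ∀ i, k ≤ i → c₀ i = 0 := by
        intro i hi
        by_cases he : g₁ = -e1
        · simp only [hc₀, if_pos he]
          exact hy₀z i hi
        · simp only [hc₀, if_neg he]
          rfl
      have hK := h.lead_KK (hcK _ hi''m) hF' (neg_lt_zero.2 e1_pos) hV hz0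
      exact h.rank_P hM MZ honto hdim hSS hT0 hV hK hF' hF₀ hτ₁ hτ₂ (hMZc _ hz₁) (hMZc _ hz₂) hφ'

end Crest.Agent.Kurosh.Pole
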