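/-
S0270 (Kurosh), blueprint §K "V5 at creation" (helper19), fourth layer: from `c ∈ 𝕂(k+1)(X)` with
`c k ∉ 𝒫(y')` to the normalised pole lead of `Cr.rank_main`, by Gauss on `𝒫(y') + K' c k`.
-/
import Crest.Agent.Kurosh.PoleRank
import Crest.Agent.Kurosh.ValC

set_option autoImplicit false
set_option linter.unusedSectionVars false

namespace Crest.Agent.Kurosh.Pole

open Hensel State Module LU VLead
open _root_.Crest.Agent.Kurosh.Inv
open _root_.Crest.Agent.Kurosh.Inv.St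

variable {K A K' R : Type*} [Field K] [DivisionRing A] [Algebra K A] [Field K'] [DivisionRing R]
  [Algebra K R] [Algebra K' R] [Algebra K K'] [IsScalarTower K K' R] {τ : A →ₗ[K] K}
  {L : Lv K A K' R τ}
  {F : Type*} [Field F] [Algebra F K] [Algebra F A] [IsScalarTower F K A] [Algebra F R]
  [IsScalarTower F K R] [Algebra F K'] [IsScalarTower F K' R]
  {P : Pt F K A (Fin 2)} {P' : Pt F K' R (Fin 2)} {k : ℕ} {y0 μ : A}

/-- Inverse of a series of value `0`. -/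
lemma vl_inv' {x : R} {x₀ : A} (hx : VL L x 0 x₀) (h0 : x₀ ≠ 0) : VL L x⁻¹ 0 x₀⁻¹ := by
  have hne : x ≠ 0 := hx.ne_zero h0
  have h1 : VL L (L.lev.inc x₀⁻¹ * x) 0 1 := by
    have := (VL_inc L x₀⁻¹).mul_zero_left hx
    rwa [inv_mul_cancel₀ h0] at this
  have h2 := vl_inv h1
  have hi : L.lev.inc x₀⁻¹ * L.lev.inc x₀ = 1 := by
    rw [← map_mul, inv_mul_cancel₀ h0, map_one]
  have hi' : L.lev.inc x₀ * L.lev.inc x₀⁻¹ = 1 := by
    rw [← map_mul, mul_inv_cancel₀ h0, map_one]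
  have e : (L.lev.inc x₀⁻¹ * x)⁻¹ * L.lev.inc x₀⁻¹ = x⁻¹ := by
    rw [mul_inv_rev, mul_assoc]
    have hinv : (L.lev.inc x₀⁻¹)⁻¹ * L.lev.inc x₀⁻¹ = 1 :=
      inv_mul_cancel₀ (left_ne_zero_of_mul_eq_one hi)
    rw [hinv, mul_one]
  have h3 := h2.mul_zero_right (VL_inc L x₀⁻¹)
  rw [e, one_mul] at h3
  exact h3

/-- **Leads of `C(H)`.** -/
theorem Cr.lead_cent (h : Cr L P P' k y0 μ) {x : R} {g : GLv} {x₀ : A}
    (hc : P'.β k * x = x * P'.β k) (hV : VL L x g x₀) :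
    P.β k * x₀ = x₀ * P.β k ∧ (x₀ ≠ 0 → (L.m : ℤ) ∣ κ (ofLex g).2) := by
  obtain ⟨u, D, hu, hHt, hD⟩ := h.exists_frame
  have hu0 : u ≠ 0 := hu.ne_zero one_ne_zero
  have hui := vl_inv hu
  set x' := u⁻¹ * x * u with hx'
  have hV' : VL L x' g x₀ := by
    have := (hui.mul_zero_left hV).mul_zero_right hu
    simpa using this
  have hbr : L.lev.inc (P.β k) * x' - x' * L.lev.inc (P.β k) + (D * x' - x' * D) = 0 := by
    have h1 := conj_bracket hu0 hHt x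
    rw [hc, sub_self, mul_zero, zero_mul, ← hx'] at h1
    rw [eq_comm] at h1
    calc _ = (L.lev.inc (P.β k) + D) * x' - x' * (L.lev.inc (P.β k) + D) := by noncomm_ring
      _ = 0 := h1
  have hcoef : ∀ a : GLv, P.β k * L.c a x' - L.c a x' * P.β k + L.c a (D * x' - x' * D) = 0 := by
    intro a
    rw [← c_inc_bracket, ← VL.c_add, hbr]
    exact VL.c_zero a
  have hD2 := c_bracket hD hV'
  have h1 : P.β k * x₀ = x₀ * P.β k := by
    have h2 := hcoef g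
    rw [hD2.lt g (lt_add_of_pos_right g e1_pos), add_zero, hV'.eq] at h2
    exact sub_eq_zero.1 h2
  refine ⟨h1, fun h0 => ?_⟩
  have h2 := hcoef (g + e1)
  rw [hD2.eq, ← h.y0_comm x₀ h1] at h2
  set a := L.c (g + e1) x' with ha
  have hc1 : P.β k * (y0 * x₀) = (y0 * x₀) * P.β k := comm_mul h.y0_β h1
  have h3 : P.β k * a - a * P.β k = - ((L.ζ ^ κ (ofLex g).2 - 1) • (y0 * x₀)) := by
    rw [sub_smul, one_smul]
    exact eq_neg_of_add_eq_zero_left h2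
  have h4 := sep_of_split (P := P) k _ ⟨a, rfl⟩ (by
    rw [h3, mul_neg, neg_mul, mul_smul_comm, smul_mul_assoc, hc1])
  rw [h3, neg_eq_zero] at h4
  have h5 := (smul_eq_zero.1 h4).resolve_right (mul_ne_zero h.y0_ne h0)
  exact (L.ζ_prim.zpow_eq_one_iff_dvd _).1 (sub_eq_zero.1 h5)

/-- The pairing of two leads. -/
lemma Cr.pair_lead (h : Cr L P P' k y0 μ) {p z : R} {g : GLv} {a b : A} (hp : VL L p g a)
    (hz : VL L z (-g) b) (h0 : P'.τ (p * z) = 0) : τ (a * b) = 0 := by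
  have h1 := hp.mul hz
  rw [add_neg_cancel] at h1
  have h2 := (h.vl_tau h1).eq
  rw [if_pos (zero_mem_centLat L.m), h0, map_zero, VL.c_zero] at h2
  have h3 : τ (eps L g (-g) • (a * b)) = eps L g (-g) * τ (a * b) := by
    rw [map_smul, smul_eq_mul]
  rw [h3] at h2
  have h5 := (algebraMap K A).injective (h2.symm.trans (map_zero _).symm)
  exact (mul_eq_zero.1 h5).resolve_left ((eps L).ne_zero _ _)

/-- **Every element of `M₂` is a lead of `y' 𝔏'` on the line `K ≡ 0`.** -/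
theorem Cr.exists_ML (h : Cr L P P' k y0 μ) {T0 : Submodule K (Fin 2 → A)} (hM : Mv L P P' k T0)
    (MZ : Submodule K A) (honto : ∀ z ∈ MZ, ∃ τ₀ ∈ T0, P.e k (P.dL k τ₀) = z)
    (hy0μ : y0 * μ ∈ MZ) {y' : R} (hy'V : VL L y' 0 y0)
    (hMovF : P'.Mov k ≤ Subalgebra.toSubmodule (Fy P' k y'))
    {a : A} (ha : a ∈ MZ ⊔ MZ.map (LinearMap.mulLeft K μ)) {g : GLv}
    (hg : (L.m : ℤ) ∣ κ (ofLex g).2) :
    ∃ f ∈ Ly P' k y', VL L (y' * f) g a := by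
  have hy'0 : y' ≠ 0 := hy'V.ne_zero h.y0_ne
  have hgen : ∀ z ∈ P'.Mov k, y'⁻¹ * z ∈ Ly P' k y' := by
    intro z hz
    exact Algebra.subset_adjoin ⟨z, ⟨hMovF hz, z, hz, fun _ _ => rfl⟩, rfl⟩
  obtain ⟨z₁, hz₁, w, hw, rfl⟩ := Submodule.mem_sup.1 ha
  obtain ⟨z₂, hz₂, rfl⟩ := hw
  have e : (LinearMap.mulLeft K μ) z₂ = μ * z₂ := rfl
  rw [e]
  -- the part `z₁`
  obtain ⟨τ₁, hτ₁, he₁⟩ := honto _ hz₁
  obtain ⟨t₁, ht₁, hV₁, -⟩ := h.exists_K0 hM hτ₁ hg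
  rw [he₁] at hV₁
  have hf₁ := hgen _ (P'.mem_Mov.2 ⟨t₁, ht₁, rfl⟩)
  have e₁ : y' * (y'⁻¹ * P'.e k (P'.dL k t₁)) = P'.e k (P'.dL k t₁) := by
    rw [← mul_assoc, mul_inv_cancel₀ hy'0, one_mul]
  obtain ⟨τ₂, hτ₂, he₂⟩ := honto _ hz₂
  by_cases hg1 : (L.m : ℤ) ∣ (ofLex g).1
  · -- products
    obtain ⟨τ₃, hτ₃, he₃⟩ := honto _ hy0μ
    obtain ⟨t₃, ht₃, hV₃, -⟩ := h.exists_K0 hM hτ₃ hg
    rw [he₃] at hV₃
    obtain ⟨t₄, ht₄, hV₄, -⟩ := h.exists_K0 hM hτ₂ (g := 0) (by simp)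
    rw [he₂] at hV₄
    have hf₃ := hgen _ (P'.mem_Mov.2 ⟨t₃, ht₃, rfl⟩)
    have hf₄ := hgen _ (P'.mem_Mov.2 ⟨t₄, ht₄, rfl⟩)
    refine ⟨y'⁻¹ * P'.e k (P'.dL k t₁) + (y'⁻¹ * P'.e k (P'.dL k t₃)) * (y'⁻¹ * P'.e k (P'.dL k t₄)),
      add_mem hf₁ (mul_mem hf₃ hf₄), ?_⟩
    have e3 : y' * ((y'⁻¹ * P'.e k (P'.dL k t₃)) * (y'⁻¹ * P'.e k (P'.dL k t₄))) =
        P'.e k (P'.dL k t₃) * (y'⁻¹ * P'.e k (P'.dL k t₄)) := by
      rw [← mul_assoc y', ← mul_assoc y', mul_inv_cancel₀ hy'0, one_mul]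
    rw [mul_add, e₁, e3]
    have h1 := vl_inv' hy'V h.y0_ne
    have h2 := h1.mul_zero_left hV₄
    have h3 := hV₃.mul_zero_right h2
    have e2 : y0 * μ * (y0⁻¹ * z₂) = μ * z₂ := by
      have h4 : y0 * μ = μ * y0 := h.μ_comm y0 h.y0_β |>.symm
      rw [h4, mul_assoc, ← mul_assoc y0, mul_inv_cancel₀ h.y0_ne, one_mul]
    rw [e2] at h3
    exact hV₁.add h3
  · obtain ⟨t₂, ht₂, hV₂, -⟩ := h.exists_K1 hM hτ₂ hg hg1
    rw [he₂] at hV₂
    have hf₂ := hgen _ (P'.mem_Mov.2 ⟨t₂, ht₂, rfl⟩)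
    refine ⟨y'⁻¹ * P'.e k (P'.dL k t₁) + y'⁻¹ * P'.e k (P'.dL k t₂), add_mem hf₁ hf₂, ?_⟩
    rw [mul_add, e₁, ← mul_assoc, mul_inv_cancel₀ hy'0, one_mul]
    exact hV₁.add hV₂

/-- A bound of the sum over classes. -/
lemma sum_classes_le (L : Lv K A K' R τ) (f : Fin L.m × Fin L.m → ℕ) (d : ℕ)
    (h : ∀ r, f r ≤ if ((r.1 : Fin L.m) : ℕ) = 0 then d else 0) : ∑ r, f r ≤ L.m * d := by
  classical
  have h0 : 0 < L.m := L.m_prime.pos
  calc ∑ r, f r ≤ ∑ r : Fin L.m × Fin L.m, (if ((r.1 : Fin L.m) : ℕ) = 0 then d else 0) :=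
        Finset.sum_le_sum fun r _ => h r
    _ = ∑ K₀ : Fin L.m, ∑ _j : Fin L.m, (if (K₀ : ℕ) = 0 then d else 0) := by
        rw [Fintype.sum_prod_type]
    _ = ∑ K₀ : Fin L.m, L.m * (if (K₀ : ℕ) = 0 then d else 0) := by
        refine Finset.sum_congr rfl fun K₀ _ => ?_
        rw [Finset.sum_const, Finset.card_univ, Fintype.card_fin, smul_eq_mul]
    _ = L.m * d := by
        rw [Finset.sum_eq_single (⟨0, h0⟩ : Fin L.m)]
        · simp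
        · intro b _ hb
          rw [if_neg, mul_zero]
          intro h1
          exact hb (Fin.ext h1)
        · intro hn
          exact absurd (Finset.mem_univ _) hn

/-- **V5 at creation.** -/
theorem Cr.rank_of_F [CharZero K] [FiniteDimensional K A] (hm2 : L.m ≠ 2) (h : Cr L P P' k y0 μ)
    {T0 : Submodule K (Fin 2 → A)} (hM : Mv L P P' k T0) (MZ : Submodule K A)
    (honto : ∀ z ∈ MZ, ∃ τ₀ ∈ T0, P.e k (P.dL k τ₀) = z)
    (hdim : finrank K' (P'.Mov k) ≤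
      (L.m - 1) * finrank K ↥(MZ ⊔ MZ.map (LinearMap.mulLeft K μ)) + finrank K MZ)
    (hSS : ∀ τ₀ ∈ T0, ∀ c ∈ P.KK k, ∀ τ' ∈ P.T k, P.SS k c τ₀ τ' = 0) (hT0 : T0 ≤ P.T k)
    (hMZβ : ∀ z ∈ MZ, P.β k * z = z * P.β k)
    (hMZc : ∀ z ∈ MZ, ∀ c, P.β k * c = c * P.β k → z * c = c * z)
    (hy0 : y0 ∈ MZ) (hy0μ : y0 * μ ∈ MZ)
    (hdimI : L.m ^ 2 * finrank K (IIT P k (P.T k)) ≤ finrank K' (IIT P' k (P'.T k)))
    (hleadI : ∀ c' ∈ IIT P' k (P'.T k), ∀ g : GLv, (∀ i, ∀ h, h < g → L.c h (c' i) = 0) →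
      (fun i => L.c g (c' i)) ∈ IIT P k (P.T k))
    (hT0ne : ∀ c ∈ P.KK k, c ∉ IIT P k (P.T k) → ∃ τ₁ ∈ T0, ∃ τ₂ ∈ T0, P.PP k c τ₁ τ₂ ≠ 0)
    {y' : R} (hy'V : VL L y' 0 y0)
    (hMovF : P'.Mov k ≤ Subalgebra.toSubmodule (Fy P' k y'))
    (hdimP : L.m * (finrank K (cent (K := K) (P.β k)) -
      finrank K ↥(MZ ⊔ MZ.map (LinearMap.mulLeft K μ))) ≤ finrank K' (PPy P' k y'))
    (hlift : ∀ p ∈ PPy P' k y', ∃ i ∈ IIT P' (k + 1) (P'.T (k + 1)), i k = p)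
    {c : ℕ → R} (hc : c ∈ P'.KK (k + 1)) (hcF : c k ∉ PPy P' k y') :
    L.m * (L.m - 5) ≤ rkOn P' (k + 1) c (P'.T (k + 1)) := by
  classical
  have : FiniteDimensional K' R := L.finiteK
  set M2 := MZ ⊔ MZ.map (LinearMap.mulLeft K μ) with hM2
  have hy'0 : y' ≠ 0 := hy'V.ne_zero h.y0_ne
  have hM2c : M2 ≤ Cl P k := by
    refine sup_le (fun z hz => mem_cent.2 (hMZβ z hz)) ?_
    rintro _ ⟨z, hz, rfl⟩
    exact mem_cent.2 (comm_mul h.μ_β (hMZβ z hz))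
  set Z := ValC.orthC P k M2 with hZ
  have hdZ : finrank K Z + finrank K M2 = finrank K (cent (K := K) (P.β k)) :=
    ValC.finrank_orthC (P := P) k hM2c
  set F₁ := c k with hF₁
  set W₀ := PPy P' k y' with hW₀
  have hF₁c : P'.β k * F₁ = F₁ * P'.β k := hc.2.1 k
  set W := W₀ ⊔ Submodule.span K' {F₁} with hW
  have hWc : ∀ x ∈ W, P'.β k * x = x * P'.β k := by
    intro x hx
    obtain ⟨a, ha, b, hb, rfl⟩ := Submodule.mem_sup.1 hx
    obtain ⟨l, rfl⟩ := Submodule.mem_span_singleton.1 hb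
    have h1 : P'.β k * a = a * P'.β k := ha.1.symm
    rw [mul_add, add_mul, h1, mul_smul_comm, smul_mul_assoc, hF₁c]
  have hF₁0 : F₁ ≠ 0 := by
    intro h0
    rw [h0] at hcF
    exact hcF (zero_mem _)
  have hdimW : finrank K' W = finrank K' W₀ + 1 := by
    have h1 := Submodule.finrank_sup_add_finrank_inf_eq W₀ (Submodule.span K' {F₁})
    have h2 : W₀ ⊓ Submodule.span K' {F₁} = ⊥ := by
      rw [eq_bot_iff]
      rintro y ⟨hy1, hy2⟩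
      obtain ⟨a, rfl⟩ := Submodule.mem_span_singleton.1 hy2
      by_cases ha : a = 0
      · simp [ha]
      · exfalso
        apply hcF
        have := W₀.smul_mem a⁻¹ hy1
        rwa [smul_smul, inv_mul_cancel₀ ha, one_smul] at this
    rw [h2, finrank_bot, finrank_span_singleton hF₁0] at h1
    omega
  -- a lead outside `Z`
  have hlead : ∃ w ∈ W, ∃ (g : GLv) (a : A), VL L w g a ∧ (L.m : ℤ) ∣ κ (ofLex g).2 ∧ a ∉ Z := by
    by_contra hcon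
    push Not at hcon
    have hsum := L.gaussK W
    have hle : ∑ r, finrank K (L.leadK.lead (L.eK r) W) ≤ L.m * finrank K Z := by
      apply sum_classes_le
      intro r
      split_ifs with hr
      · apply Submodule.finrank_mono
        intro a ha
        obtain ⟨x, hx, hv, hca⟩ := L.mem_leadK.1 ha
        refine hcon x hx (L.eK r) a ⟨L.le_vK_iff.1 hv, hca⟩ ?_
        rw [L.eK_κ, hr]
        simp
      · have : L.leadK.lead (L.eK r) W = ⊥ := by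
          rw [eq_bot_iff]
          intro a ha
          obtain ⟨x, hx, hv, hca⟩ := L.mem_leadK.1 ha
          rw [Submodule.mem_bot]
          by_contra h0
          have h1 := (h.lead_cent (hWc x hx) (⟨L.le_vK_iff.1 hv, hca⟩ : VL L x (L.eK r) a)).2 h0
          rw [L.eK_κ] at h1
          have h2 := Int.natCast_dvd_natCast.1 h1
          have h3 := Nat.le_of_dvd (Nat.pos_of_ne_zero hr) h2
          have h4 := r.1.2
          omega
        rw [this, finrank_bot]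
    rw [← hsum] at hle
    have h5 : finrank K Z = finrank K (cent (K := K) (P.β k)) - finrank K M2 := by omega
    rw [h5] at hle
    omega
  obtain ⟨w, hw, g, a, hV, hg, haZ⟩ := hlead
  have hac : P.β k * a = a * P.β k := (h.lead_cent (hWc w hw) hV).1
  -- a partner in `M₂`
  obtain ⟨z, hz, hτz⟩ : ∃ z ∈ M2, τ (a * z) ≠ 0 := by
    by_contra hcon
    push Not at hcon
    apply haZ
    refine ⟨mem_cent.2 hac, fun y hy => ?_⟩
    rw [h.τ₀, ← hcon y hy]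
    exact (h.τ₀ _ ▸ h.τ₀ _ ▸ P.τ_comm y a)
  obtain ⟨p, hp, b, hb, rfl⟩ := Submodule.mem_sup.1 hw
  obtain ⟨κ₀, rfl⟩ := Submodule.mem_span_singleton.1 hb
  have hg' : (L.m : ℤ) ∣ κ (ofLex (-g)).2 := by
    have : κ (ofLex (-g)).2 = - κ (ofLex g).2 := by
      show κ (-(ofLex g).2) = _
      rw [map_neg]
    rw [this]
    exact (dvd_neg).2 hg
  have hκ₀ : κ₀ ≠ 0 := by
    rintro rfl
    rw [zero_smul, add_zero] at hV
    obtain ⟨f, hf, hVf⟩ := h.exists_ML hM MZ honto hy0μ hy'V hMovF hz hg'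
    exact hτz (h.pair_lead hV hVf (hp.2.2 f hf))
  -- normalisation by `κ₀`
  have hκi : κ₀⁻¹ ≠ 0 := inv_ne_zero hκ₀
  set g₁ := g + L.lamK κ₀⁻¹ with hg₁
  set a₁ := L.lcK κ₀⁻¹ • a with ha₁
  have hlc : L.lcK κ₀⁻¹ ≠ 0 := L.lcK_ne hκi
  have hV₁ : VL L (κ₀⁻¹ • p + F₁) g₁ a₁ := by
    have h1 := VL_smul hκi hV
    have e : κ₀⁻¹ • (p + κ₀ • F₁) = κ₀⁻¹ • p + F₁ := by
      rw [smul_add, smul_smul, inv_mul_cancel₀ hκ₀, one_smul]
    rwa [e] at h1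
  have hg₁κ : (L.m : ℤ) ∣ κ (ofLex g₁).2 := by
    rw [hg₁, κ_add_snd]
    exact dvd_add hg (L.lamK_mem hκi).2
  have hg₁κ' : (L.m : ℤ) ∣ κ (ofLex (-g₁)).2 := by
    have : κ (ofLex (-g₁)).2 = - κ (ofLex g₁).2 := by
      show κ (-(ofLex g₁).2) = _
      rw [map_neg]
    rw [this]
    exact (dvd_neg).2 hg₁κ
  have hτa₁ : τ (a₁ * z) ≠ 0 := by
    rw [ha₁, smul_mul_assoc, map_smul, smul_eq_mul]
    exact mul_ne_zero hlc hτz
  -- the class is central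
  have hg₁1 : (L.m : ℤ) ∣ (ofLex g₁).1 := by
    by_contra hnd
    have hnd' : ¬ (L.m : ℤ) ∣ (ofLex (-g₁)).1 := by
      have : (ofLex (-g₁)).1 = - (ofLex g₁).1 := rfl
      rw [this, dvd_neg]
      exact hnd
    -- a partner in `Mov_k(X)`
    obtain ⟨z₁, hz₁, w', hw', rfl⟩ := Submodule.mem_sup.1 hz
    obtain ⟨z₂, hz₂, rfl⟩ := hw'
    obtain ⟨τ₁, hτ₁, he₁⟩ := honto _ hz₁
    obtain ⟨τ₂, hτ₂, he₂⟩ := honto _ hz₂
    obtain ⟨t₁, ht₁, hV₁', -⟩ := h.exists_K0 hM hτ₁ hg₁κ'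
    obtain ⟨t₂, ht₂, hV₂', -⟩ := h.exists_K1 hM hτ₂ hg₁κ' hnd'
    rw [he₁] at hV₁'
    rw [he₂] at hV₂'
    have hmem : P'.e k (P'.dL k t₁) + P'.e k (P'.dL k t₂) ∈ P'.Mov k :=
      add_mem (P'.mem_Mov.2 ⟨t₁, ht₁, rfl⟩) (P'.mem_Mov.2 ⟨t₂, ht₂, rfl⟩)
    set z' := P'.e k (P'.dL k t₁) + P'.e k (P'.dL k t₂) with hz'
    have hVz := hV₁'.add hV₂'
    have h0 : P'.τ ((κ₀⁻¹ • p + F₁) * z') = 0 := by
      have h1 : P'.τ (F₁ * z') = 0 := (P'.exists_lift_iff k hF₁c).1 ⟨c, hc, rfl⟩ z' hmem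
      have h2 : P'.τ (p * z') = 0 := by
        have h3 : y'⁻¹ * z' ∈ Ly P' k y' :=
          Algebra.subset_adjoin ⟨z', ⟨hMovF hmem, z', hmem, fun _ _ => rfl⟩, rfl⟩
        have h4 := hp.2.2 _ h3
        rwa [← mul_assoc y', mul_inv_cancel₀ hy'0, one_mul] at h4
      rw [add_mul, map_add, smul_mul_assoc, map_smul, h1, h2, smul_zero, add_zero]
    exact hτa₁ (h.pair_lead hV₁ hVz h0)
  have hcent : -g₁ ∈ centLat L.m := by
    refine ⟨?_, hg₁κ'⟩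
    have : (ofLex (-g₁)).1 = - (ofLex g₁).1 := rfl
    rw [this, dvd_neg]
    exact hg₁1
  obtain ⟨l, hl0, hl⟩ := ValH.exists_scalar_mono L hcent
  -- the lift
  have hplift : (l * κ₀⁻¹) • p ∈ W₀ := W₀.smul_mem _ hp
  obtain ⟨i, hi, hik⟩ := hlift _ hplift
  set cc : ℕ → R := l • c + i with hcc
  have hccK : cc ∈ P'.KK (k + 1) := add_mem (Submodule.smul_mem _ _ hc) hi.1
  have hcck : cc k = l • (κ₀⁻¹ • p + F₁) := by
    show l • c k + i k = _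
    rw [hik, smul_add, smul_smul, add_comm]
  have hVcc : VL L (cc k) 0 a₁ := by
    have h1 := ValH.VL.shift L hV₁ hl hcent
    rw [neg_add_cancel] at h1
    rw [hcck]
    exact h1
  have hrk : rkOn P' (k + 1) cc (P'.T (k + 1)) = rkOn P' (k + 1) c (P'.T (k + 1)) :=
    ValH.rkOn_smul hl0 fun t ht t' ht' => hi.2 t ht t' ht'
  rw [← hrk]
  exact h.rank_main hm2 hM MZ honto hdim hSS hT0 hMZc hy0 hy0μ hdimI hleadI hT0ne hccK hVcc
    (comm_smul _ hac) hz hτa₁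

end Crest.Agent.Kurosh.Pole
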