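/-
S0270 (Kurosh), blueprint §K "V5 at creation" (helper19), last layer: the data `Cr` from a fresh
exact level-up, `Cr.v5`: `c ∈ 𝕂(k+1)(X)`, `c k ∉ 𝒫(y')` for all `y' ∈ Mov_k(X)∖0` ⇒ rank `≥ m(m-5)`.
-/
import Crest.Agent.Kurosh.PoleF
import Crest.Agent.Kurosh.ValD
import Crest.Agent.Kurosh.ValA

set_option autoImplicit false
set_option linter.unusedSectionVars false

namespace Crest.Agent.Kurosh.Pole

open Hensel State Module LU VLead
open _root_.Crest.Agent.Kurosh.Inv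
open _root_.Crest.Agent.Kurosh.Inv.St

variable {K A K' R : Type*} [Field K] [DivisionRing A] [Algebra K A] [Field K'] [DivisionRing R]
  [Algebra K R] [Algebra K' R] [Algebra K K'] [IsScalarTower K K' R] {τ : A →ₗ[K] K}
  {L : Lv K A K' R τ}
  {F : Type*} [Field F] [Algebra F K] [Algebra F A] [IsScalarTower F K A] [Algebra F R]
  [IsScalarTower F K R] [Algebra F K'] [IsScalarTower F K' R]
  {P : Pt F K A (Fin 2)} {P' : Pt F K' R (Fin 2)} {k : ℕ} {y0 μ : A}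

/-- What commutes with `β` commutes with `K[β]`. -/
lemma comm_of_mem_adjoin {β x b : A} (hx : β * x = x * β) (hb : b ∈ Algebra.adjoin K ({β} : Set A)) :
    b * x = x * b := by
  induction hb using Algebra.adjoin_induction with
  | mem a ha =>
    rw [Set.mem_singleton_iff.1 ha]
    exact hx
  | algebraMap r => exact Algebra.commutes r x
  | add a b _ _ ha hb => rw [add_mul, mul_add, ha, hb]
  | mul a b _ _ ha hb => rw [mul_assoc, hb, ← mul_assoc, ha, mul_assoc]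

lemma cent_eq_centDiv (β : A) : cent (K := K) β =
    Subalgebra.toSubmodule (DoubleCent.centDiv (Algebra.adjoin K ({β} : Set A))) := by
  ext x
  rw [mem_cent, Subalgebra.mem_toSubmodule, DoubleCent.mem_centDiv]
  constructor
  · intro h b hb
    exact comm_of_mem_adjoin h hb
  · intro h
    exact h β (Algebra.subset_adjoin rfl)

/-- The frame at the new entry, from the first order expansion. -/
theorem frame_first {t1 t2 : Fin 2 → A} (ha : P'.a = P.a)
    (hX : ∀ v, P'.ρ v - (L.lev.inc (P.ρ v) + L.lev.mono (t1 v) 0 1 + L.lev.mono (t2 v) L.lev.μ₁ 1)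
      ∈ L.lev.Φ.fil 2) (k : ℕ) :
    ∃ u : R, u - 1 ∈ L.lev.Φ.fil 1 ∧ P'.β k * u - u * L.lev.inc (P.β k) -
      (L.lev.mono (P.e k (P.dL k t1)) 0 1 + L.lev.mono (P.e k (P.dL k t2)) mu1 1) ∈ L.lev.Φ.fil 2 := by
  have hμ : L.lev.μ₁ = mu1 := L.lev_μ₁
  have h1 := ValA.ev_lead (F := F) L (ρ := P.ρ) (t1 := t1) (t2 := t2) (X := P'.ρ) hX (P.a k)
  rw [hμ] at h1
  have eH : Calculus.ev P'.ρ (P.a k) = P'.β k := by
    show _ = State.ev P'.ρ (P'.a k)
    rw [ha]
    rfl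
  have eβ : State.ev P.ρ (P.a k) = P.β k := rfl
  have ed : ∀ t, State.d1 P.ρ t (P.a k) = P.dL k t := fun t => rfl
  rw [eH, eβ, ed, ed] at h1
  set W := L.lev.mono (P.w k t1) 0 1 + L.lev.mono (P.w k t2) mu1 1 with hW
  have hW1 : W ∈ L.lev.Φ.fil 1 := add_mem (L.lev.mono_mem _ _ _) (L.lev.mono_mem _ _ _)
  set E := P'.β k - L.lev.inc (P.β k) with hE
  have hE1 : E ∈ L.lev.Φ.fil 1 := by
    have h2 := add_mem (add_mem (L.lev.Φ.anti (by omega : 1 ≤ 2) h1) (L.lev.mono_mem (P.dL k t1) 0 1))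
      (L.lev.mono_mem (P.dL k t2) mu1 1)
    convert h2 using 1
    rw [hE]
    abel
  refine ⟨1 + W, by simpa using hW1, ?_⟩
  have hEW : E * W ∈ L.lev.Φ.fil 2 := by
    have := L.lev.Φ.mul_mem hE1 hW1
    simpa using this
  have hbr : L.lev.inc (P.β k) * W - W * L.lev.inc (P.β k) =
      L.lev.mono (P.β k * P.w k t1 - P.w k t1 * P.β k) 0 1 +
      L.lev.mono (P.β k * P.w k t2 - P.w k t2 * P.β k) mu1 1 := by
    rw [hW, mul_add, add_mul, L.lev.inc_mul_mono, L.lev.inc_mul_mono, L.lev.mono_mul_inc,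
      L.lev.mono_mul_inc, L.lev.mono_sub, L.lev.mono_sub]
    abel
  have hd : ∀ t, P.e k (P.dL k t) = P.dL k t + (P.β k * P.w k t - P.w k t * P.β k) :=
    fun t => (P.dL_add_comm_w k t).symm
  have h3 := add_mem h1 hEW
  convert h3 using 1
  rw [hd t1, hd t2, L.lev.mono_add, L.lev.mono_add]
  have e2 : P'.β k * (1 + W) - (1 + W) * L.lev.inc (P.β k) =
      E + E * W + (L.lev.inc (P.β k) * W - W * L.lev.inc (P.β k)) := by
    rw [hE]
    noncomm_ring
  rw [e2, hbr, hE]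
  abel

/-- The normal form of the frame, and the leads of `C(H)`, from the frame alone. -/
theorem lead_cent_of_frame
    (hframe : ∃ u : R, u - 1 ∈ L.lev.Φ.fil 1 ∧
      P'.β k * u - u * L.lev.inc (P.β k) -
        (L.lev.mono y0 0 1 + L.lev.mono (y0 * μ) mu1 1) ∈ L.lev.Φ.fil 2)
    (hy0c : ∀ c : A, P.β k * c = c * P.β k → y0 * c = c * y0)
    (hy0β : P.β k * y0 = y0 * P.β k) (hy0 : y0 ≠ 0)
    {x : R} {g : GLv} {x₀ : A}
    (hc : P'.β k * x = x * P'.β k) (hV : VL L x g x₀) :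
    P.β k * x₀ = x₀ * P.β k ∧ (x₀ ≠ 0 → (L.m : ℤ) ∣ κ (ofLex g).2) := by
  obtain ⟨u, hu1, herr⟩ := hframe
  have hu := vl_of_sub_one (L := L) hu1
  have hu0 : u ≠ 0 := hu.ne_zero one_ne_zero
  have hui := vl_inv hu
  set E := P'.β k * u - u * L.lev.inc (P.β k) with hE
  set Y := L.lev.mono y0 0 1 + L.lev.mono (y0 * μ) mu1 1 with hY
  set D := u⁻¹ * E with hDd
  have hHt : u⁻¹ * P'.β k * u = L.lev.inc (P.β k) + D := by
    rw [hDd, hE, mul_sub, ← mul_assoc, ← mul_assoc, inv_mul_cancel₀ hu0, one_mul]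
    abel
  have hDY : D - Y ∈ L.lev.Φ.fil 2 := by
    have hY1 : Y ∈ L.lev.Φ.fil 1 := add_mem (L.lev.mono_mem _ _ _) (L.lev.mono_mem _ _ _)
    have hE1 : E ∈ L.lev.Φ.fil 1 := by
      have h1 := add_mem (L.lev.Φ.anti (by omega : 1 ≤ 2) herr) hY1
      simpa using h1
    have h1 : u⁻¹ * E - Y = (u⁻¹ - 1) * E + (E - Y) := by noncomm_ring
    rw [hDd, h1]
    exact add_mem (L.lev.Φ.mul_mem (inv_sub_one_mem hu1) hE1) herr
  have hD : VL L D e1 y0 := by
    have h1 : VL L (L.lev.mono y0 0 1) e1 y0 := VL.mono_term y0 0 1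
    have h2 : VL L (L.lev.mono (y0 * μ) mu1 1) e1 0 := by
      refine (VL.mono_term (L := L) (y0 * μ) mu1 1).weaken ?_
      exact Prod.Lex.lt_iff.2 (Or.inr ⟨rfl, mu1_pos⟩)
    have h3 : VL L (D - Y) e1 0 := VL.of_fil hDY (by simp)
    have h4 := h3.add (h1.add h2)
    have e : D - Y + (L.lev.mono y0 0 1 + L.lev.mono (y0 * μ) mu1 1) = D := by
      rw [hY]
      abel
    rw [e] at h4
    exact h4.of_eq (by simp)
  set x' := u⁻¹ * x * u with hx'
  have hV' : VL L x' g x₀ := by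
    have := (hui.mul_zero_left hV).mul_zero_right hu
    simpa using this
  have hbr : L.lev.inc (P.β k) * x' - x' * L.lev.inc (P.β k) + (D * x' - x' * D) = 0 := by
    have h1 := conj_bracket hu0 hHt x
    rw [hc, sub_self, mul_zero, zero_mul, ← hx'] at h1
    rw [eq_comm] at h1
    calc _ = (L.lev.inc (P.β k) + D) * x' - x' * (L.lev.inc (P.β k) + D) := by noncomm_ring
      _ = 0 := h1
  have hcoef : ∀ a : GLv, P.β k * L.c a x' - L.c a x' * P.β k + L.c a (D * x' - x' * D) = 0 := by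
    intro a
    rw [← c_inc_bracket, ← VL.c_add, hbr]
    exact VL.c_zero a
  have hD2 := c_bracket hD hV'
  have h1 : P.β k * x₀ = x₀ * P.β k := by
    have h2 := hcoef g
    rw [hD2.lt g (lt_add_of_pos_right g e1_pos), add_zero, hV'.eq] at h2
    exact sub_eq_zero.1 h2
  refine ⟨h1, fun h0 => ?_⟩
  have h2 := hcoef (g + e1)
  rw [hD2.eq, ← hy0c x₀ h1] at h2
  set a := L.c (g + e1) x' with ha
  have hc1 : P.β k * (y0 * x₀) = (y0 * x₀) * P.β k := comm_mul hy0β h1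
  have h3 : P.β k * a - a * P.β k = - ((L.ζ ^ κ (ofLex g).2 - 1) • (y0 * x₀)) := by
    rw [sub_smul, one_smul]
    exact eq_neg_of_add_eq_zero_left h2
  have h4 := sep_of_split (P := P) k _ ⟨a, rfl⟩ (by
    rw [h3, mul_neg, neg_mul, mul_smul_comm, smul_mul_assoc, hc1])
  rw [h3, neg_eq_zero] at h4
  have h5 := (smul_eq_zero.1 h4).resolve_right (mul_ne_zero hy0 h0)
  exact (L.ζ_prim.zpow_eq_one_iff_dvd _).1 (sub_eq_zero.1 h5)

/-- Dimension of a centraliser, from the degree. -/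
lemma finrank_cent_ge [FiniteDimensional K A] [FiniteDimensional K' R]
    (hC : ∀ a : A, (∀ x, a * x = x * a) → ∃ c : K, a = algebraMap K A c)
    (hC' : ∀ a : R, (∀ x, a * x = x * a) → ∃ c : K', a = algebraMap K' R c)
    (B : Subalgebra K A) (B' : Subalgebra K' R) (hd : finrank K' B' ≤ L.m * finrank K B) :
    L.m * finrank K (DoubleCent.centDiv B) ≤ finrank K' (DoubleCent.centDiv B') := by
  have h1 := DoubleCent.finrank_centralizer_mul hC' B'
  have h2 := DoubleCent.finrank_centralizer_mul hC B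
  have h3 := L.finrank_R
  have hD : 0 < finrank K B := Module.finrank_pos
  have hm := L.m_pos
  have h4 : 0 < L.m * finrank K B := Nat.mul_pos hm hD
  refine Nat.le_of_mul_le_mul_right ?_ h4
  calc L.m * finrank K (DoubleCent.centDiv B) * (L.m * finrank K B)
      = L.m ^ 2 * (finrank K (DoubleCent.centDiv B) * finrank K B) := by ring
    _ = finrank K' (DoubleCent.centDiv B') * finrank K' B' := by rw [h2, h1, h3]
    _ ≤ finrank K' (DoubleCent.centDiv B') * (L.m * finrank K B) := Nat.mul_le_mul_left _ hd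

/-- A bound of the sum over classes, with equality. -/
lemma sum_classes_eq (L : Lv K A K' R τ) (d : ℕ) :
    ∑ r : Fin L.m × Fin L.m, (if ((r.1 : Fin L.m) : ℕ) = 0 then d else 0) = L.m * d := by
  classical
  have h0 : 0 < L.m := L.m_prime.pos
  rw [Fintype.sum_prod_type]
  calc ∑ K₀ : Fin L.m, ∑ _j : Fin L.m, (if (K₀ : ℕ) = 0 then d else 0)
      = ∑ K₀ : Fin L.m, L.m * (if (K₀ : ℕ) = 0 then d else 0) := by
        refine Finset.sum_congr rfl fun K₀ _ => ?_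
        rw [Finset.sum_const, Finset.card_univ, Fintype.card_fin, smul_eq_mul]
    _ = L.m * d := by
        rw [Finset.sum_eq_single (⟨0, h0⟩ : Fin L.m)]
        · simp
        · intro b _ hb
          rw [if_neg, mul_zero]
          intro h1
          exact hb (Fin.ext h1)
        · intro hn
          exact absurd (Finset.mem_univ _) hn

/-- **The leads of `C(H)`**: all of `C(β)` at every monomial of the line `K ≡ 0`, if
`deg H ≤ m deg β`. -/
theorem cent_lead_of_deg [FiniteDimensional K A]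
    (hframe : ∃ u : R, u - 1 ∈ L.lev.Φ.fil 1 ∧
      P'.β k * u - u * L.lev.inc (P.β k) -
        (L.lev.mono y0 0 1 + L.lev.mono (y0 * μ) mu1 1) ∈ L.lev.Φ.fil 2)
    (hy0c : ∀ c : A, P.β k * c = c * P.β k → y0 * c = c * y0)
    (hy0β : P.β k * y0 = y0 * P.β k) (hy0 : y0 ≠ 0)
    (hC : ∀ a : A, (∀ x, a * x = x * a) → ∃ c : K, a = algebraMap K A c)
    (hC' : ∀ a : R, (∀ x, a * x = x * a) → ∃ c : K', a = algebraMap K' R c)
    (hdeg : finrank K' (Algebra.adjoin K' ({P'.β k} : Set R)) ≤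
      L.m * finrank K (Algebra.adjoin K ({P.β k} : Set A))) :
    ∀ (g : GLv), (L.m : ℤ) ∣ κ (ofLex g).2 → ∀ x : A, P.β k * x = x * P.β k →
      ∃ z : R, P'.β k * z = z * P'.β k ∧ VL L z g x := by
  classical
  have : FiniteDimensional K' R := L.finiteK
  intro g hg x hx
  set C₀ := cent (K := K) (P.β k) with hC₀
  set C' := cent (K := K') (P'.β k) with hC'd
  have hdim : L.m * finrank K C₀ ≤ finrank K' C' := by
    rw [hC₀, hC'd, cent_eq_centDiv, cent_eq_centDiv]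
    exact finrank_cent_ge (L := L) hC hC' _ _ hdeg
  have hle : ∀ r : Fin L.m × Fin L.m, finrank K (L.leadK.lead (L.eK r) C') ≤
      if ((r.1 : Fin L.m) : ℕ) = 0 then finrank K C₀ else 0 := by
    intro r
    split_ifs with hr
    · apply Submodule.finrank_mono
      intro a ha
      obtain ⟨z, hz, hv, hca⟩ := L.mem_leadK.1 ha
      exact mem_cent.2 (lead_cent_of_frame hframe hy0c hy0β hy0 (mem_cent.1 hz)
        (⟨L.le_vK_iff.1 hv, hca⟩ : VL L z (L.eK r) a)).1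
    · have : L.leadK.lead (L.eK r) C' = ⊥ := by
        rw [eq_bot_iff]
        intro a ha
        obtain ⟨z, hz, hv, hca⟩ := L.mem_leadK.1 ha
        rw [Submodule.mem_bot]
        by_contra h0
        have h1 := (lead_cent_of_frame hframe hy0c hy0β hy0 (mem_cent.1 hz)
          (⟨L.le_vK_iff.1 hv, hca⟩ : VL L z (L.eK r) a)).2 h0
        rw [L.eK_κ] at h1
        have h2 := Int.natCast_dvd_natCast.1 h1
        have h3 := Nat.le_of_dvd (Nat.pos_of_ne_zero hr) h2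
        have h4 := r.1.2
        omega
      rw [this, finrank_bot]
  have hsum : ∑ r, finrank K (L.leadK.lead (L.eK r) C') =
      ∑ r : Fin L.m × Fin L.m, (if ((r.1 : Fin L.m) : ℕ) = 0 then finrank K C₀ else 0) := by
    refine le_antisymm (Finset.sum_le_sum fun r _ => hle r) ?_
    rw [sum_classes_eq, ← L.gaussK C']
    exact hdim
  have heq := (Finset.sum_eq_sum_iff_of_le fun r _ => hle r).1 hsum
  set r := L.classK g with hr
  have hcl := L.sub_eK_classK_mem g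
  rw [← hr] at hcl
  have hr0 : ((r.1 : Fin L.m) : ℕ) = 0 := by
    have h1 := hcl.2
    rw [κ_sub_snd, L.eK_κ] at h1
    have h2 := dvd_sub hg h1
    have e : κ (ofLex g).2 - (κ (ofLex g).2 - (((r.1 : Fin L.m) : ℕ) : ℤ)) =
        (((r.1 : Fin L.m) : ℕ) : ℤ) := by ring
    rw [e] at h2
    have h3 := Int.natCast_dvd_natCast.1 h2
    have h4 := r.1.2
    by_contra h5
    have h6 := Nat.le_of_dvd (Nat.pos_of_ne_zero h5) h3
    omega
  have h5 := heq r (Finset.mem_univ r)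
  rw [if_pos hr0] at h5
  have hleC : L.leadK.lead (L.eK r) C' ≤ C₀ := by
    intro a ha
    obtain ⟨z, hz, hv, hca⟩ := L.mem_leadK.1 ha
    exact mem_cent.2 (lead_cent_of_frame hframe hy0c hy0β hy0 (mem_cent.1 hz)
      (⟨L.le_vK_iff.1 hv, hca⟩ : VL L z (L.eK r) a)).1
  have heqC := Submodule.eq_of_le_of_finrank_le hleC (le_of_eq h5.symm)
  have hxC : x ∈ L.leadK.lead (L.eK r) C' := by
    rw [heqC]
    exact mem_cent.2 hx
  obtain ⟨z, hz, hv, hca⟩ := L.mem_leadK.1 hxC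
  obtain ⟨l, -, hl⟩ := ValH.exists_scalar_mono L hcl
  refine ⟨l • z, ?_, ?_⟩
  · rw [mul_smul_comm, smul_mul_assoc, mem_cent.1 hz]
  · have := ValH.VL.shift L (⟨L.le_vK_iff.1 hv, hca⟩ : VL L z (L.eK r) x) hl hcl
    rwa [sub_add_cancel] at this

/-- **The data `Cr`** of a fresh exact level-up at the new entry `k`. -/
theorem Cr.of_data [FiniteDimensional K A] {t1 t2 : Fin 2 → A}
    (hov : Over P P' L k) (hτ' : ∀ x, P'.τ x = L.τ' x) (hτ₀ : ∀ x, P.τ x = τ x) (hτ1 : τ 1 = 1)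
    (hX : ∀ v, P'.ρ v - (L.lev.inc (P.ρ v) + L.lev.mono (t1 v) 0 1 + L.lev.mono (t2 v) L.lev.μ₁ 1)
      ∈ L.lev.Φ.fil 2)
    (hy0 : P.e k (P.dL k t1) ≠ 0)
    (hMov : P.Mov k ≤ Subalgebra.toSubmodule (Algebra.adjoin K ({P.β k} : Set A)))
    (ht1 : t1 ∈ P.T k) (ht2 : t2 ∈ P.T k)
    (hC : ∀ a : A, (∀ x, a * x = x * a) → ∃ c : K, a = algebraMap K A c)
    (hC' : ∀ a : R, (∀ x, a * x = x * a) → ∃ c : K', a = algebraMap K' R c)
    (hdeg : finrank K' (Algebra.adjoin K' ({P'.β k} : Set R)) ≤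
      L.m * finrank K (Algebra.adjoin K ({P.β k} : Set A))) :
    Cr L P P' k (P.e k (P.dL k t1)) ((P.e k (P.dL k t1))⁻¹ * P.e k (P.dL k t2)) := by
  set y := P.e k (P.dL k t1) with hy
  set y₂ := P.e k (P.dL k t2) with hy₂
  have hyβ : P.β k * y = y * P.β k := P.e_mem k _
  have hy₂β : P.β k * y₂ = y₂ * P.β k := P.e_mem k _
  have hyc : ∀ c : A, P.β k * c = c * P.β k → y * c = c * y := fun c hc =>
    comm_of_mem_adjoin hc (hMov (P.mem_Mov.2 ⟨t1, ht1, rfl⟩))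
  have hy₂c : ∀ c : A, P.β k * c = c * P.β k → y₂ * c = c * y₂ := fun c hc =>
    comm_of_mem_adjoin hc (hMov (P.mem_Mov.2 ⟨t2, ht2, rfl⟩))
  have hframe : ∃ u : R, u - 1 ∈ L.lev.Φ.fil 1 ∧
      P'.β k * u - u * L.lev.inc (P.β k) -
        (L.lev.mono y 0 1 + L.lev.mono (y * (y⁻¹ * y₂)) mu1 1) ∈ L.lev.Φ.fil 2 := by
    have h1 := frame_first (L := L) (P := P) (P' := P') hov.a hX k
    rw [← mul_assoc, mul_inv_cancel₀ hy0, one_mul]
    exact h1
  refine ⟨hov, hτ', hτ₀, hτ1, ?_, hframe, hy0, hyc, ?_, hyβ, ?_, ?_⟩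
  · intro v
    have h1 := add_mem (add_mem (L.lev.Φ.anti (by omega : 1 ≤ 2) (hX v))
      (L.lev.mono_mem (t1 v) 0 1)) (L.lev.mono_mem (t2 v) L.lev.μ₁ 1)
    convert h1 using 1
    abel
  · intro c hc
    have h1 := hy₂c c hc
    have h2 : y⁻¹ * c = c * y⁻¹ := (comm_inv (hyc c hc).symm).symm
    rw [mul_assoc, h1, ← mul_assoc, h2, mul_assoc]
  · exact comm_mul (comm_inv hyβ) hy₂β
  · exact cent_lead_of_deg hframe hyc hyβ hy0 hC hC' hdeg

/-- **V5 at creation**, from the data of a level-up. -/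
theorem Cr.v5 [CharZero K] [FiniteDimensional K A] (hm2 : L.m ≠ 2) (h : Cr L P P' k y0 μ)
    {T0 : Submodule K (Fin 2 → A)} (hM : Mv L P P' k T0)
    (honto : ∀ z ∈ P.Mov k, ∃ τ₀ ∈ T0, P.e k (P.dL k τ₀) = z)
    (hdim : finrank K' (P'.Mov k) ≤
      (L.m - 1) * finrank K ↥(P.Mov k ⊔ (P.Mov k).map (LinearMap.mulLeft K μ)) + finrank K (P.Mov k))
    (hSS : ∀ τ₀ ∈ T0, ∀ c ∈ P.KK k, ∀ τ' ∈ P.T k, P.SS k c τ₀ τ' = 0) (hT0 : T0 ≤ P.T k)
    (hMov : P.Mov k ≤ Subalgebra.toSubmodule (Algebra.adjoin K ({P.β k} : Set A)))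
    (hy0 : y0 ∈ P.Mov k) (hy0μ : y0 * μ ∈ P.Mov k)
    (hdimI : L.m ^ 2 * finrank K (IIT P k (P.T k)) ≤ finrank K' (IIT P' k (P'.T k)))
    (hleadI : ∀ c' ∈ IIT P' k (P'.T k), ∀ g : GLv, (∀ i, ∀ h, h < g → L.c h (c' i) = 0) →
      (fun i => L.c g (c' i)) ∈ IIT P k (P.T k))
    (hT0ne : ∀ c ∈ P.KK k, c ∉ IIT P k (P.T k) → ∃ τ₁ ∈ T0, ∃ τ₂ ∈ T0, P.PP k c τ₁ τ₂ ≠ 0)
    (hC : ∀ a : A, (∀ x, a * x = x * a) → ∃ c : K, a = algebraMap K A c)
    (hC' : ∀ a : R, (∀ x, a * x = x * a) → ∃ c : K', a = algebraMap K' R c)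
    (h1' : P'.τ 1 = 1)
    (hdeg : finrank K' (Algebra.adjoin K' ({P'.β k} : Set R)) ≤
      L.m * finrank K (Algebra.adjoin K ({P.β k} : Set A)))
    (hMovX : P'.Mov k ≤ Subalgebra.toSubmodule (Algebra.adjoin K' ({P'.β k} : Set R)))
    (hLy : ∀ y' ∈ P'.Mov k, y' ≠ 0 → finrank K' (Ly P' k y') ≤
      L.m * finrank K ↥(P.Mov k ⊔ (P.Mov k).map (LinearMap.mulLeft K μ)))
    (hlift : ∀ y' ∈ P'.Mov k, y' ≠ 0 → ∀ p ∈ PPy P' k y',
      ∃ i ∈ IIT P' (k + 1) (P'.T (k + 1)), i k = p)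
    {c : ℕ → R} (hc : c ∈ P'.KK (k + 1)) (hcF : ∀ y' ∈ P'.Mov k, y' ≠ 0 → c k ∉ PPy P' k y') :
    L.m * (L.m - 5) ≤ rkOn P' (k + 1) c (P'.T (k + 1)) := by
  have : FiniteDimensional K' R := L.finiteK
  have hMZβ : ∀ z ∈ P.Mov k, P.β k * z = z * P.β k := fun z hz => by
    obtain ⟨t, -, rfl⟩ := P.mem_Mov.1 hz
    exact P.e_mem k _
  have hMZc : ∀ z ∈ P.Mov k, ∀ c, P.β k * c = c * P.β k → z * c = c * z := fun z hz c hc' =>
    comm_of_mem_adjoin hc' (hMov hz)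
  -- the witness
  obtain ⟨τ₀, hτ₀, he₀⟩ := honto _ hy0
  obtain ⟨t, ht, hV, -⟩ := h.exists_K0 hM hτ₀ (g := 0) (by simp)
  rw [he₀] at hV
  set y' := P'.e k (P'.dL k t) with hy'
  have hy'm : y' ∈ P'.Mov k := P'.mem_Mov.2 ⟨t, ht, rfl⟩
  have hy'0 : y' ≠ 0 := hV.ne_zero h.y0_ne
  have hHy' : P'.β k * y' = y' * P'.β k := P'.e_mem k _
  have hFy : Algebra.adjoin K' ({P'.β k} : Set R) ≤ Fy P' k y' :=
    Algebra.adjoin_mono (Set.singleton_subset_iff.2 (Set.mem_insert _ _))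
  have hFy' : Fy P' k y' ≤ Algebra.adjoin K' ({P'.β k} : Set R) := by
    refine Algebra.adjoin_le ?_
    rintro x (rfl | rfl)
    · exact Algebra.subset_adjoin rfl
    · exact hMovX hy'm
  have hFeq : Fy P' k y' = Algebra.adjoin K' ({P'.β k} : Set R) := le_antisymm hFy' hFy
  have hMovF : P'.Mov k ≤ Subalgebra.toSubmodule (Fy P' k y') := by
    rw [hFeq]
    exact hMovX
  have hdimP : L.m * (finrank K (cent (K := K) (P.β k)) -
      finrank K ↥(P.Mov k ⊔ (P.Mov k).map (LinearMap.mulLeft K μ))) ≤ finrank K' (PPy P' k y') := by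
    have h2 := ValD.finrank_PPy_add P' h1' hy'0 hHy'
    have h3 : L.m * finrank K (DoubleCent.centDiv (Algebra.adjoin K ({P.β k} : Set A))) ≤
        finrank K' (DoubleCent.centDiv (Fy P' k y')) :=
      finrank_cent_ge (L := L) hC hC' _ _ (by rw [hFeq]; exact hdeg)
    have h4 := hLy y' hy'm hy'0
    have e : finrank K (cent (K := K) (P.β k)) =
        finrank K (DoubleCent.centDiv (Algebra.adjoin K ({P.β k} : Set A))) := by
      rw [cent_eq_centDiv]
      rfl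
    rw [e, Nat.mul_sub]
    omega
  exact h.rank_of_F hm2 hM (P.Mov k) honto hdim hSS hT0 hMZβ hMZc hy0 hy0μ hdimI hleadI hT0ne hV
    hMovF hdimP (hlift y' hy'm hy'0) hc (hcF y' hy'm hy'0)

end Crest.Agent.Kurosh.Pole
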