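/-
S0270 (Kurosh), §K "V5 at creation" (helper19): the rank clause at the creation of the entry `k`, at the
level of the tower.

* `Pole.rank_abs`: abstract form over one level-up.
* `Pole.rank_old`, `Pole.rank_new`: `X` a fresh exact level-up of the class state `Z` by an admissible
  pair `t1,t2` with `Π t1 ≠ 0`, with `T0 = {τ ∈ T(k) : P(t1,τ) = P(t2,τ) = 0 on 𝕂(k)}` onto `Mov_k(Z)`; `X`
  valid for the indices `< k`. Given the numbers at `X` (`hdeg`, `hdim`, `hLy`) and the lifts `hlift` of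
  `𝒫(y')`: the rank on `T(k+1)(X)` of all non implied `c` is `≥ 5 (q#(k) + q)`, for the older indices
  (`rank_old`, no lifts needed) and for the new one (`rank_new`).
-/
import Crest.Agent.Kurosh.PoleMain
import Crest.Agent.Kurosh.ValSucc
import Crest.Agent.Kurosh.ExploreLin

set_option autoImplicit false
set_option linter.unusedSectionVars false

namespace Crest.Agent.Kurosh.Pole

open Hensel State Module LU VLead ValH AdmExist
open _root_.Crest.Agent.Kurosh.Inv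
open _root_.Crest.Agent.Kurosh.Inv.St

section Abs

variable {K A K' R : Type*} [Field K] [DivisionRing A] [Algebra K A] [Field K'] [DivisionRing R]
  [Algebra K R] [Algebra K' R] [Algebra K K'] [IsScalarTower K K' R] {τ : A →ₗ[K] K}
  {L : Lv K A K' R τ}
  {F : Type*} [Field F] [Algebra F K] [Algebra F A] [IsScalarTower F K A] [Algebra F R]
  [IsScalarTower F K R] [Algebra F K'] [IsScalarTower F K' R]
  {P : Pt F K A (Fin 2)} {P' : Pt F K' R (Fin 2)}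
  {N N' : ℕ} {Rc : ℕ → Rec} {Q Q' : ℕ → Polynomial F} {S : ℕ → Set A} {S' : ℕ → Set R} {k : ℕ}
  {t1 t2 : Fin 2 → A} {g : ℕ → R}

/-- `T0`. -/
lemma mem_T00 {τ₀ : Fin 2 → A} : τ₀ ∈ allowed P k t1 t2 False True ↔ τ₀ ∈ P.T k ∧
    ∀ c ∈ P.KK k, P.PP k c t1 τ₀ = 0 ∧ P.PP k c t2 τ₀ = 0 := by
  constructor
  · rintro ⟨h1, h2, h3⟩
    exact ⟨h1, fun c hc => ⟨h2 not_false c hc, h3 trivial c hc⟩⟩
  · rintro ⟨h1, h2⟩
    exact ⟨h1, fun _ c hc => (h2 c hc).1, fun _ c hc => (h2 c hc).2⟩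

/-- `T0` has codimension `≤ 2 q#`, so a non implied form does not vanish on it. -/
theorem T0_ne [FiniteDimensional K A] (hV : Valid P N Rc Q k k S (P.T k))
    (hA : Adm P k (P.T k) t1 t2) {c : ℕ → A} (hc : c ∈ P.KK k) (hn : c ∉ IIT P k (P.T k)) :
    ∃ τ₁ ∈ allowed P k t1 t2 False True, ∃ τ₂ ∈ allowed P k t1 t2 False True,
      P.PP k c τ₁ τ₂ ≠ 0 := by
  by_contra hcon
  push Not at hcon
  have h1 := rkOn_ge_of_not_IIT (k := k) hV le_rfl hc hn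
  have hadd := P.finrank_MMN_add (IIT_le_KK P k (P.T k))
  have hq := finrank_MMT_le P hV
  change finrank K (MMT P k (P.T k)) + _ = _ at hadd
  have hq1 : 0 < qS Rc k := by
    by_contra h0
    have h2 : finrank K (P.KK k) ≤ finrank K (IIT P k (P.T k)) := by omega
    have h3 := Submodule.eq_of_le_of_finrank_le (IIT_le_KK P k (P.T k)) h2
    exact hn (h3 ▸ hc)
  have h3 := finrank_allowed_ge (t1 := t1) (t2 := t2) (P.T k) (IIT P k (P.T k))
    (IIT_le_KK P k (P.T k))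
    (fun c hc τ hτ => ⟨hc.2 _ hA.mem1 _ hτ, hc.2 _ hA.mem2 _ hτ⟩)
    (q := qS Rc k) (by omega) le_rfl False True
  have hle : allowed P k t1 t2 False True ≤ P.T k := fun τ h => h.1
  rw [inf_eq_left.2 hle] at h3
  have h5 := rk_restrict (PPb P k c) hle hle
  have h6 : (PPb P k c).domRestrict₁₂ (allowed P k t1 t2 False True)
      (allowed P k t1 t2 False True) = 0 := by
    ext a b
    exact hcon a a.2 b b.2
  rw [h6, LinearMap.range_zero, finrank_bot] at h5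
  have h7 : finrank K (LinearMap.range ((PPb P k c).domRestrict₁₂ (P.T k) (P.T k))) =
      rkOn P k c (P.T k) := rfl
  have h8 := Submodule.finrank_mono hle
  omega

/-- Leads of `𝕀(k)(X)`. -/
theorem lead_IIT_of [CharZero K] [FiniteDimensional K A] [FiniteDimensional K' R] (hm : L.m ≠ 2)
    (hPτ : P.τ = τ) (hP'τ : P'.τ = L.τ') (ha : P'.a = P.a)
    (hPS : ∀ J, L.lev.PSol P k J t1 t2 P'.ρ g)
    (hV : Valid P N Rc Q k k S (P.T k)) (hA : Adm P k (P.T k) t1 t2)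
    (hlead : ∀ (a j : ℤ), ∀ τ₁ ∈ allowed P k t1 t2 ((L.m : ℤ) ∣ a)
        ((L.m : ℤ) ∣ a + 1 ∧ ¬ (L.m : ℤ) ∣ j + 1) ⊓ P.T k, ∃ t ∈ P'.T k, ∃ g : GLv,
        (L.m : ℤ) ∣ κ (ofLex g).2 - a ∧ (L.m : ℤ) ∣ (ofLex g).1 - j ∧ ∀ v, VL L (t v) g (τ₁ v))
    (c' : ℕ → R) (hc' : c' ∈ IIT P' k (P'.T k)) (g' : GLv)
    (hg : ∀ i, ∀ h, h < g' → L.c h (c' i) = 0) :
    (fun i => L.c g' (c' i)) ∈ IIT P k (P.T k) := by
  have hFrm : ValA.Frm L P P' k t1 t2 g := ValA.Frm.of_PSol ha hP'τ hPτ hPS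
  have hO : Over P P' L k := Over.of_PSol ha rfl hPS
  cases k with
  | zero =>
    have h0 : c' = 0 := by
      have := hc'.1
      rwa [Pt.KK_zero, Submodule.mem_bot] at this
    have h1 : (fun i => L.c g' (c' i)) = 0 := by
      funext i
      rw [h0]
      exact VL.c_zero g'
    rw [h1]
    exact zero_mem _
  | succ l =>
    have J : JH L P P' (l + 1) l (P.T (l + 1)) (P'.T (l + 1)) (qS Rc (l + 1)) :=
      JH.of_valid hm (Nat.lt_succ_self l) hO (fun x => by rw [hP'τ]) (fun x => by rw [hPτ]) hV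
        hA.mem1 hA.mem2 le_rfl hlead (fun c' hc' g' hg' => hFrm.KK_lead le_rfl hc' g' hg')
    exact J.lead_IIT hc' hg

/-- The older indices: a bound on `T(k)(X)` gives a bound on `T(k+1)(X)`. -/
theorem older_rank [FiniteDimensional K' R] (hV' : Valid P' N' Rc Q' k k S' (P'.T k)) {u : ℕ}
    (hu : u < k) {c : ℕ → R} (hc : c ∈ P'.KK (u + 1)) (hn : c u ∉ PPl P' S' u) :
    1 ≤ qS Rc k ∧ rkOn P' k c (P'.T k) ≤ rkOn P' (k + 1) c (P'.T (k + 1)) + 2 * finrank K' (P'.Mov k) := by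
  have hck : c ∈ P'.KK k := P'.KK_mono hu hc
  constructor
  · by_contra h0
    have hq0 : qS Rc k = 0 := by omega
    have hadd := P'.finrank_MMN_add (IIT_le_KK P' k (P'.T k))
    have hq := finrank_MMT_le P' hV'
    change finrank K' (MMT P' k (P'.T k)) + _ = _ at hadd
    have h2 : finrank K' (P'.KK k) ≤ finrank K' (IIT P' k (P'.T k)) := by omega
    have h3 := Submodule.eq_of_le_of_finrank_le (IIT_le_KK P' k (P'.T k)) h2
    have hcI : c ∈ IIT P' k (P'.T k) := h3 ▸ hck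
    have hcu : c ∈ IIT P' (u + 1) (P'.T k) := by
      refine mem_IIT_of_rank_zero P' hV' hu hc fun t ht t' ht' => ?_
      rw [← P'.PP_of_le hu hc]
      exact hcI.2 t ht t' ht'
    exact hn (top_mem_PPl P' hV' hu hcu)
  · have hle : P'.T (k + 1) ≤ P'.T k := P'.T_anti (Nat.le_succ k)
    have h5 := rk_restrict (PPb P' k c) hle hle
    have h6 : rkOn P' (k + 1) c (P'.T (k + 1)) = finrank K'
        (LinearMap.range ((PPb P' k c).domRestrict₁₂ (P'.T (k + 1)) (P'.T (k + 1)))) := by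
      unfold rkOn
      have : (PPb P' (k + 1) c).domRestrict₁₂ (P'.T (k + 1)) (P'.T (k + 1)) =
          (PPb P' k c).domRestrict₁₂ (P'.T (k + 1)) (P'.T (k + 1)) := by
        ext a b
        exact P'.PP_of_le (Nat.le_succ k) hck _ _
      rw [this]
    have h7 : rkOn P' k c (P'.T k) = finrank K'
        (LinearMap.range ((PPb P' k c).domRestrict₁₂ (P'.T k) (P'.T k))) := rfl
    have h8 := ExploreLin.finrank_sub_ker_piK P' k
    have h9 : finrank K' (LinearMap.ker (ExploreLin.piK P' k)) = finrank K' (P'.T (k + 1)) := by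
      have hker : (P'.T (k + 1)).comap (P'.T k).subtype = LinearMap.ker (ExploreLin.piK P' k) := by
        ext t
        rw [Submodule.mem_comap, LinearMap.mem_ker]
        constructor
        · intro h
          exact (P'.mem_T_succ.1 h).2
        · intro h
          exact P'.mem_T_succ.2 ⟨t.2, h⟩
      rw [← hker]
      exact (Submodule.comapSubtypeEquivOfLe hle).finrank_eq
    rw [h9] at h8
    have h10 := Submodule.finrank_mono hle
    rw [h6, h7]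
    omega

/-- **V5 at creation**, abstract form. -/
theorem rank_abs [CharZero K] [FiniteDimensional K A] [FiniteDimensional K' R] (hm : L.m ≠ 2)
    (hPτ : P.τ = τ) (hP'τ : P'.τ = L.τ') (ha : P'.a = P.a)
    (hPS : ∀ J, L.lev.PSol P k J t1 t2 P'.ρ g)
    (hV : Valid P N Rc Q k k S (P.T k)) (hA : Adm P k (P.T k) t1 t2)
    (hy0 : P.e k (P.dL k t1) ≠ 0) (hSm : Smooth P k)
    (honto : ∀ z ∈ P.Mov k, ∃ τ₀ ∈ P.T k, P.e k (P.dL k τ₀) = z ∧
      ∀ c ∈ P.KK k, P.PP k c t1 τ₀ = 0 ∧ P.PP k c t2 τ₀ = 0)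
    (hM : Mv L P P' k (allowed P k t1 t2 False True))
    (hlead : ∀ (a j : ℤ), ∀ τ₁ ∈ allowed P k t1 t2 ((L.m : ℤ) ∣ a)
        ((L.m : ℤ) ∣ a + 1 ∧ ¬ (L.m : ℤ) ∣ j + 1) ⊓ P.T k, ∃ t ∈ P'.T k, ∃ g : GLv,
        (L.m : ℤ) ∣ κ (ofLex g).2 - a ∧ (L.m : ℤ) ∣ (ofLex g).1 - j ∧ ∀ v, VL L (t v) g (τ₁ v))
    (hV' : Valid P' N' Rc Q' k k S' (P'.T k)) (hSm' : Smooth P' k)
    (hPP : ∀ u < k, L.m ^ 2 * finrank K (PPl P S u) ≤ finrank K' (PPl P' S' u))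
    (hdeg : finrank K' (Algebra.adjoin K' ({P'.β k} : Set R)) ≤
      L.m * finrank K (Algebra.adjoin K ({P.β k} : Set A)))
    (hdim : finrank K' (P'.Mov k) ≤
      (L.m - 1) * finrank K ↥(P.Mov k ⊔ (P.Mov k).map (LinearMap.mulLeft K
        ((P.e k (P.dL k t1))⁻¹ * P.e k (P.dL k t2)))) + finrank K (P.Mov k))
    (hLy : ∀ y' ∈ P'.Mov k, y' ≠ 0 → finrank K' (Ly P' k y') ≤
      L.m * finrank K ↥(P.Mov k ⊔ (P.Mov k).map (LinearMap.mulLeft K
        ((P.e k (P.dL k t1))⁻¹ * P.e k (P.dL k t2)))))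
    (hlift : ∀ y' ∈ P'.Mov k, y' ≠ 0 → ∀ p ∈ PPy P' k y',
      ∃ i ∈ IIT P' (k + 1) (P'.T (k + 1)), i k = p)
    {c : ℕ → R} (hc : c ∈ P'.KK (k + 1)) (hcF : ∀ y' ∈ P'.Mov k, y' ≠ 0 → c k ∉ PPy P' k y') :
    L.m * (L.m - 5) ≤ rkOn P' (k + 1) c (P'.T (k + 1)) := by
  have : CharZero K' := charZero_of_injective_algebraMap (algebraMap K K').injective
  have hO : Over P P' L k := Over.of_PSol ha rfl hPS
  have h1 : τ 1 = 1 := by
    have := hV.one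
    rwa [hPτ] at this
  have hMov : P.Mov k ≤ Subalgebra.toSubmodule (Algebra.adjoin K ({P.β k} : Set A)) :=
    Mov_le_adjoin P hV.one hSm
  have hMovX : P'.Mov k ≤ Subalgebra.toSubmodule (Algebra.adjoin K' ({P'.β k} : Set R)) :=
    Mov_le_adjoin P' hV'.one hSm'
  have hC : ∀ a : A, (∀ x, a * x = x * a) → ∃ c : K, a = algebraMap K A c :=
    fun a ha' => hV.comm a fun v => ha' _
  have hC' : ∀ a : R, (∀ x, a * x = x * a) → ∃ c : K', a = algebraMap K' R c :=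
    fun a ha' => hV'.comm a fun v => ha' _
  have hCr : Cr L P P' k (P.e k (P.dL k t1)) ((P.e k (P.dL k t1))⁻¹ * P.e k (P.dL k t2)) :=
    Cr.of_data hO (fun x => by rw [hP'τ]) (fun x => by rw [hPτ]) h1 (hPS 0).leadX hy0 hMov
      hA.mem1 hA.mem2 hC hC' hdeg
  have hT0 : allowed P k t1 t2 False True ≤ P.T k := fun τ₀ h => h.1
  refine hCr.v5 hm hM ?_ hdim ?_ hT0 hMov (P.mem_Mov.2 ⟨t1, hA.mem1, rfl⟩) ?_ ?_ ?_ ?_ hC hC' hV'.one
    hdeg hMovX hLy hlift hc hcF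
  · intro z hz
    obtain ⟨τ₀, h0, h2, h3⟩ := honto z hz
    exact ⟨τ₀, mem_T00.2 ⟨h0, h3⟩, h2⟩
  · intro τ₀ hτ₀ c hc τ' hτ'
    exact hV.TT_S k le_rfl τ₀ (hT0 hτ₀) c hc τ' hτ'
  · rw [← mul_assoc, mul_inv_cancel₀ hy0, one_mul]
    exact P.mem_Mov.2 ⟨t2, hA.mem2, rfl⟩
  · rw [finrank_IIT_eq P hV le_rfl, finrank_IIT_eq P' hV' le_rfl, Finset.mul_sum]
    exact Finset.sum_le_sum fun u hu => hPP u (Finset.mem_range.1 hu)
  · exact fun c' hc' g' hg' => lead_IIT_of hm hPτ hP'τ ha hPS hV hA hlead c' hc' g' hg'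
  · exact fun c hc hn => T0_ne hV hA hc hn

end Abs

section Top

open Plan LU.Tw0 LU.Tw

variable [Tw0] [Tw] {F : Subfield U} [CentF F]

lemma arith_old {m M q s a : ℕ} (hm : 100 * M + 100 ≤ m) (hq : q ≤ M) (hs : 1 ≤ s)
    (h : m ^ 2 * s ≤ a + 2 * (m * M)) : 5 * (s + q) ≤ a := by
  have h1 : 2 * (m * M) + 5 * M + 5 ≤ m ^ 2 := by
    have h2 : m * (100 * M + 100) ≤ m * m := Nat.mul_le_mul_left _ hm
    have h3 : 100 ≤ m := by omega
    have h4 : 100 * M ≤ m * M := Nat.mul_le_mul_right _ h3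
    nlinarith
  have h5 : (2 * (m * M) + 5 * M + 5) * s ≤ m ^ 2 * s := Nat.mul_le_mul_right _ h1
  have h6 : (2 * (m * M) + 5 * M) * 1 ≤ (2 * (m * M) + 5 * M) * s := Nat.mul_le_mul_left _ hs
  nlinarith

lemma arith_new {m M q s : ℕ} (hm : 100 * M + 100 ≤ m) (hq : q ≤ M) (hs : s ≤ M) :
    5 * (s + q) ≤ m * (m - 5) := by
  have h1 : 95 * M + 95 ≤ m - 5 := by omega
  have h2 : m * (95 * M + 95) ≤ m * (m - 5) := Nat.mul_le_mul_left _ h1
  have h3 : 100 ≤ m := by omega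
  nlinarith

/-- **V5 at the creation of the entry `k`, the older indices** (does not use the lifts of `𝒫(y')`, so it
comes before `PropI.lift_good` at `X`). `hold` is the rank clause of `Val k k`. -/
theorem rank_old (Ls : Lst F) (n : ℕ) [Fact (F ≤ Kn n)] (Z : Stt n) (k : ℕ)
    (t1 t2 : Fin 2 → An n) (X : Stt (n + 1)) (S' : ℕ → Set (An (n + 1)))
    (hV' : Valid (pt F (n + 1) X Ls.a) (N (n + 1)) Ls.R Ls.Q k k S' ((pt F (n + 1) X Ls.a).T k))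
    (hold : ∀ u < k, ∀ c ∈ (pt F (n + 1) X Ls.a).KK (u + 1), c u ∉ PPl (pt F (n + 1) X Ls.a) S' u →
      (lv n).m ^ 2 * qS Ls.R k ≤ rkOn (pt F (n + 1) X Ls.a) k c ((pt F (n + 1) X Ls.a).T k))
    (hdim : finrank (Kn (n + 1)) ((pt F (n + 1) X Ls.a).Mov k) ≤
      ((lv n).m - 1) * finrank (Kn n) ↥((pt F n Z Ls.a).Mov k ⊔
        ((pt F n Z Ls.a).Mov k).map (LinearMap.mulLeft (Kn n)
          (((pt F n Z Ls.a).e k ((pt F n Z Ls.a).dL k t1))⁻¹ *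
            (pt F n Z Ls.a).e k ((pt F n Z Ls.a).dL k t2)))) +
      finrank (Kn n) ((pt F n Z Ls.a).Mov k))
    (q : ℕ) (hq : q ≤ N n ^ 2) :
    ∀ u < k, ∀ c ∈ (pt F (n + 1) X Ls.a).KK (u + 1), c u ∉ PPl (pt F (n + 1) X Ls.a) S' u →
      5 * (qS Ls.R k + q) ≤ rkOn (pt F (n + 1) X Ls.a) (k + 1) c ((pt F (n + 1) X Ls.a).T (k + 1)) := by
  intro u hu c hc hn
  have hmb := m_big n
  obtain ⟨h1, h2⟩ := older_rank hV' hu hc hn
  have h3 := hold u hu c hc hn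
  have hdimA : finrank (Kn n) (An n) = N n ^ 2 := finrank_eq n
  have h4 : finrank (Kn n) ↥((pt F n Z Ls.a).Mov k ⊔
      ((pt F n Z Ls.a).Mov k).map (LinearMap.mulLeft (Kn n)
        (((pt F n Z Ls.a).e k ((pt F n Z Ls.a).dL k t1))⁻¹ *
          (pt F n Z Ls.a).e k ((pt F n Z Ls.a).dL k t2)))) ≤ N n ^ 2 :=
    hdimA ▸ Submodule.finrank_le _
  have h5 : finrank (Kn n) ((pt F n Z Ls.a).Mov k) ≤ N n ^ 2 :=
    hdimA ▸ Submodule.finrank_le _
  have h6 : finrank (Kn (n + 1)) ((pt F (n + 1) X Ls.a).Mov k) ≤ (lv n).m * N n ^ 2 := by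
    have h7 := Nat.mul_le_mul_left ((lv n).m - 1) h4
    have h8 : ((lv n).m - 1) * N n ^ 2 + N n ^ 2 = (lv n).m * N n ^ 2 := by
      have hm1 : 1 ≤ (lv n).m := by omega
      obtain ⟨m', hm'⟩ : ∃ m', (lv n).m = m' + 1 := ⟨(lv n).m - 1, by omega⟩
      rw [hm']
      simp only [Nat.add_sub_cancel]
      ring
    omega
  refine arith_old hmb hq h1 ?_
  omega

/-- **V5 at the creation of the entry `k`, the new index**, at a fresh exact level-up `X` of `Z` (see the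
head of the file). The numbers `hdeg`, `hdim`, `hLy` come from the lead analysis and the minimality in the
class, `hlift` from `PropI.lift_good` at `X` (using `rank_old` for `Valid` with `r = k + 1`). -/
theorem rank_new (Ls : Lst F) (n : ℕ) [Fact (F ≤ Kn n)] (Z : Stt n) (k : ℕ)
    (S : ℕ → Set (An n)) (t1 t2 : Fin 2 → An n) (X : Stt (n + 1)) (g : ℕ → An (n + 1))
    (S' : ℕ → Set (An (n + 1)))
    (hV : Valid (pt F n Z Ls.a) (N n) Ls.R Ls.Q k k S ((pt F n Z Ls.a).T k))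
    (hSm : Smooth (pt F n Z Ls.a) k)
    (hA : Adm (pt F n Z Ls.a) k ((pt F n Z Ls.a).T k) t1 t2)
    (hy0 : (pt F n Z Ls.a).e k ((pt F n Z Ls.a).dL k t1) ≠ 0)
    (honto : ∀ z ∈ (pt F n Z Ls.a).Mov k, ∃ τ₀ ∈ (pt F n Z Ls.a).T k,
      (pt F n Z Ls.a).e k ((pt F n Z Ls.a).dL k τ₀) = z ∧ ∀ c ∈ (pt F n Z Ls.a).KK k,
        (pt F n Z Ls.a).PP k c t1 τ₀ = 0 ∧ (pt F n Z Ls.a).PP k c t2 τ₀ = 0)
    (hPS : ∀ J, (lv n).lev.PSol (pt F n Z Ls.a) k J t1 t2 X g)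
    (hFr : Fresh F Ls n Z k t1 t2 ((pt F n Z Ls.a).T k) X ((pt F (n + 1) X Ls.a).T k))
    (hV' : Valid (pt F (n + 1) X Ls.a) (N (n + 1)) Ls.R Ls.Q k k S' ((pt F (n + 1) X Ls.a).T k))
    (hSm' : Smooth (pt F (n + 1) X Ls.a) k)
    (hPP : ∀ u < k, (lv n).m ^ 2 * finrank (Kn n) (PPl (pt F n Z Ls.a) S u) ≤
      finrank (Kn (n + 1)) (PPl (pt F (n + 1) X Ls.a) S' u))
    (hdeg : finrank (Kn (n + 1)) (Algebra.adjoin (Kn (n + 1)) {(pt F (n + 1) X Ls.a).β k}) ≤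
      (lv n).m * finrank (Kn n) (Algebra.adjoin (Kn n) {(pt F n Z Ls.a).β k}))
    (hdim : finrank (Kn (n + 1)) ((pt F (n + 1) X Ls.a).Mov k) ≤
      ((lv n).m - 1) * finrank (Kn n) ↥((pt F n Z Ls.a).Mov k ⊔
        ((pt F n Z Ls.a).Mov k).map (LinearMap.mulLeft (Kn n)
          (((pt F n Z Ls.a).e k ((pt F n Z Ls.a).dL k t1))⁻¹ *
            (pt F n Z Ls.a).e k ((pt F n Z Ls.a).dL k t2)))) +
      finrank (Kn n) ((pt F n Z Ls.a).Mov k))
    (hLy : ∀ y' ∈ (pt F (n + 1) X Ls.a).Mov k, y' ≠ 0 →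
      finrank (Kn (n + 1)) (Ly (pt F (n + 1) X Ls.a) k y') ≤
      (lv n).m * finrank (Kn n) ↥((pt F n Z Ls.a).Mov k ⊔
        ((pt F n Z Ls.a).Mov k).map (LinearMap.mulLeft (Kn n)
          (((pt F n Z Ls.a).e k ((pt F n Z Ls.a).dL k t1))⁻¹ *
            (pt F n Z Ls.a).e k ((pt F n Z Ls.a).dL k t2)))))
    (hlift : ∀ y' ∈ (pt F (n + 1) X Ls.a).Mov k, y' ≠ 0 → ∀ p ∈ PPy (pt F (n + 1) X Ls.a) k y',
      ∃ i ∈ IIT (pt F (n + 1) X Ls.a) (k + 1) ((pt F (n + 1) X Ls.a).T (k + 1)), i k = p)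
    (q : ℕ) (hq : q ≤ N n ^ 2) :
    ∀ c ∈ (pt F (n + 1) X Ls.a).KK (k + 1),
      (∀ y' ∈ (pt F (n + 1) X Ls.a).Mov k, y' ≠ 0 → c k ∉ PPy (pt F (n + 1) X Ls.a) k y') →
      5 * (qS Ls.R k + q) ≤ rkOn (pt F (n + 1) X Ls.a) (k + 1) c ((pt F (n + 1) X Ls.a).T (k + 1)) := by
  intro c hc hcF
  have hmb := m_big n
  have hNpos := N_pos n
  have hqS : qS Ls.R k ≤ N n ^ 2 := hV.qbd
  have hτ' : (pt F (n + 1) X Ls.a).τ = (lv n).τ' := (τ_succ n).symm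
  have hlead : ∀ (a j : ℤ), ∀ τ₁ ∈ allowed (pt F n Z Ls.a) k t1 t2 (((lv n).m : ℤ) ∣ a)
      (((lv n).m : ℤ) ∣ a + 1 ∧ ¬ ((lv n).m : ℤ) ∣ j + 1) ⊓ (pt F n Z Ls.a).T k,
      ∃ t ∈ (pt F (n + 1) X Ls.a).T k, ∃ g : GLv, ((lv n).m : ℤ) ∣ κ (ofLex g).2 - a ∧
        ((lv n).m : ℤ) ∣ (ofLex g).1 - j ∧ ∀ v, VL (lv n) (t v) g (τ₁ v) := by
    intro a j τ₁ hτ₁
    obtain ⟨t', ht', n0, j0, τ', h7, h8, -, -, -, h9⟩ := hFr.lead a j τ₁ hτ₁.2 hτ₁.1
    exact ⟨t', hFr.le ht', idx n0 (j0 : ℤ), h7, h8, fun v => ValSucc.vl_of_fresh (h9 v)⟩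
  have hM : Mv (lv n) (pt F n Z Ls.a) (pt F (n + 1) X Ls.a) k
      (allowed (pt F n Z Ls.a) k t1 t2 False True) := by
    refine ⟨fun a j τ₀ hτ₀ => ?_⟩
    obtain ⟨h0, h1⟩ := mem_T00.1 hτ₀
    obtain ⟨t', ht', n0, j0, τ', h7, h8, h2, -, h10, h9⟩ := hFr.lead a j τ₀ h0
      ⟨h0, fun _ c hc => (h1 c hc).1, fun _ c hc => (h1 c hc).2⟩
    have hτ'0 : τ' = 0 := h10 fun c hc => (h1 c hc).2
    obtain ⟨J, rfl⟩ : ∃ J, j0 = J + 1 := ⟨j0 - 1, by omega⟩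
    refine ⟨t', hFr.le ht', n0, J, h7, ?_, fun v => ?_⟩
    · have : ((J + 1 : ℕ) : ℤ) = (J : ℤ) + 1 := by push_cast; ring
      rwa [this] at h8
    · have := h9 v
      rw [hτ'0] at this
      simpa [LinearMap.map_zero] using this
  have hm2 : (lv n).m ≠ 2 := by nlinarith
  exact (arith_new hmb hq hqS).trans
    (rank_abs (L := lv n) (g := g) (S := S) (S' := S') hm2 rfl hτ' rfl hPS hV hA hy0 hSm honto hM hlead
      hV' hSm' hPP hdeg hdim hLy hlift hc hcF)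

end Top

end Crest.Agent.Kurosh.Pole
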