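/-
S0270 (Kurosh), helper53: the big clause at a level-up (helper65 #1444, for helper72's G4).

* `finrank_cent_inc_le`: `dim_{K'} C_R(inc β) ≤ m² dim_K C_A(β)`.
* `finrank_cent_conj_le`: conjugate elements have centralisers of the same dimension.
* `finrank_Inn_add_one`: `dim Inn + 1 = dim A` when the commutant of the state is `K`.
* `Inn_le_T`: inner directions lie in `T(r)` at a state with frozen values.
* `finrank_T_sub_Inn`: over the hypotheses of `Val k k` with `TT0 = T k`, from the conclusion of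
  `Val` at `X` and `Valid` at `ρ` with `TT = T k`: `m² (q#(k)+1) ≤ dim T(k)(X) - dim Inn(X)`.
-/
import Crest.Agent.Kurosh.ValZero
import Crest.Agent.Kurosh.AdmExist

set_option autoImplicit false

namespace Crest.Agent.Kurosh.ValBig

open Hensel State Module LU LU.Tw0 LU.Tw
open _root_.Crest.Agent.Kurosh.ValZero
open _root_.Crest.Agent.Kurosh.Inv
open _root_.Crest.Agent.Kurosh.Inv.St

section Abstract

variable {K A K' R : Type*} [Field K] [DivisionRing A] [Algebra K A] [Field K'] [DivisionRing R]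
  [Algebra K R] [Algebra K' R] [Algebra K K'] [IsScalarTower K K' R] {τ : A →ₗ[K] K}
  (L : Lv K A K' R τ)

/-- The coefficients of an element commuting with `inc β` commute with `β`. -/
lemma coeff_mem_cent {β : A} {x : R} (hx : x ∈ cent (K := K') (L.lev.inc β)) (g : GLv) :
    (L.φ x).coeff g ∈ cent (K := K) β := by
  rw [mem_cent] at hx ⊢
  have h1 := congrArg L.φ hx
  rw [map_mul, map_mul, phi_inc] at h1
  have h2 := comm_mono_coeff (0 : GLv) β (L.φ x) g
  rw [h1, sub_self, THS.coeff_zero] at h2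
  have e0 : lvl (0 : GLv) = 0 := rfl
  have k0 : kap (0 : GLv) = 0 := by simp [kap]
  simp only [e0, k0, sub_zero, zero_mul, mul_zero, zpow_zero, one_smul] at h2
  exact (sub_eq_zero.mp h2.symm)

/-- `dim_{K'} C_R(inc β) ≤ m² dim_K C_A(β)`. -/
theorem finrank_cent_inc_le [FiniteDimensional K A] [FiniteDimensional K' R]
    (hτ : Valued.IsTraceForm τ) (hR : finrank K' R = L.m ^ 2 * finrank K A) (β : A) :
    finrank K' (cent (K := K') (L.lev.inc β)) ≤ L.m ^ 2 * finrank K (cent (K := K) β) := by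
  classical
  set C := cent (K := K) β with hC
  set D := imAd (K := K) β with hD
  have hcompl : IsCompl C D := by
    have h := Valued.isCompl_cent_range_ad hτ β
    have h1 : cent (K := K) β = Valued.cent K β := by
      ext x
      simp only [mem_cent]
      exact ⟨fun h => h.symm, fun h => h.symm⟩
    have h2 : imAd (K := K) β = LinearMap.range (Valued.ad K β) := by
      ext x
      simp only [mem_imAd, LinearMap.mem_range, Valued.ad_apply]
    rw [hC, hD, h1, h2]
    exact h
  have hdim : finrank K C + finrank K D = finrank K A := Submodule.finrank_add_eq_of_isCompl hcompl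
  let b := Module.finBasis K D
  let n0 : Fin L.m × Fin L.m × Fin (finrank K D) → CE := fun i => ((i.1 : ℕ) • sExp)
  let j0 : Fin L.m × Fin L.m × Fin (finrank K D) → ℕ := fun i => (i.2.1 : ℕ)
  let y : Fin L.m × Fin L.m × Fin (finrank K D) → R :=
    fun i => L.lev.mono ((b i.2.2 : D) : A) (n0 i) (j0 i)
  have hκ : ∀ i, (L.m : ℤ) ∣ κ (n0 i) - ((i.1 : ℕ) : ℤ) := by
    intro i
    have : κ (n0 i) = ((i.1 : ℕ) : ℤ) := by
      show κ ((i.1 : ℕ) • sExp) = _
      rw [map_nsmul, κ_sExp]
      simp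
    rw [this, sub_self]
    exact dvd_zero _
  have hj : ∀ i, (L.m : ℤ) ∣ (j0 i : ℤ) - ((i.2.1 : ℕ) : ℤ) := by
    intro i
    show (L.m : ℤ) ∣ ((i.2.1 : ℕ) : ℤ) - ((i.2.1 : ℕ) : ℤ)
    rw [sub_self]
    exact dvd_zero _
  have htail : ∀ i (v : Unit), Tail L (y i) ((b i.2.2 : D) : A) (n0 i) (j0 i) := by
    intro i _ g hg
    exfalso
    apply hg
    show (L.φ (y i - y i)).coeff g = 0
    rw [sub_self, map_zero]
    rfl
  have hkey := card_le_of_family (K := K') (V := R) ⊤ (cent (K := K') (L.lev.inc β)) y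
    (fun _ => trivial) (by
      intro x hx
      by_contra hx0
      obtain ⟨p, s, c, ⟨β₀, hβ₀⟩, hc, hv⟩ := combo_class L
        (fun (β : Fin (finrank K D)) (_ : Unit) => ((b β : D) : A)) (fun i _ => y i) n0 j0 hκ hj
        htail x hx0
      have hp := (hv ()).2
      have hz1 : ∑ β ∈ s, c β • ((b β : D) : A) ∈ C := by
        rw [← hp]
        exact coeff_mem_cent L hx p
      have hz2 : ∑ β ∈ s, c β • ((b β : D) : A) ∈ D :=
        sum_mem fun β _ => Submodule.smul_mem _ _ (b β).2
      have hz3 : ∑ β ∈ s, c β • ((b β : D) : A) = 0 :=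
        (Submodule.disjoint_def.mp hcompl.disjoint) _ hz1 hz2
      have hz4 : ∑ β ∈ s, c β • b β = 0 := by
        apply Subtype.ext
        rw [Submodule.coe_sum]
        simpa using hz3
      exact hc β₀ hβ₀ (linearIndependent_iff'.mp b.linearIndependent _ _ hz4 β₀ hβ₀))
  rw [Fintype.card_prod, Fintype.card_prod, Fintype.card_fin, Fintype.card_fin, finrank_top,
    hR, ← hdim] at hkey
  have h5 : finrank K' ↥(⊤ ⊓ cent (K := K') (L.lev.inc β)) =
      finrank K' (cent (K := K') (L.lev.inc β)) := by rw [top_inf_eq]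
  rw [h5] at hkey
  have h6 : finrank K' (cent (K := K') (L.lev.inc β)) ≤ finrank K' R :=
    Submodule.finrank_le _
  rw [hR, ← hdim] at h6
  have h7 : L.m ^ 2 * (finrank K C + finrank K D) =
      L.m ^ 2 * finrank K C + L.m * (L.m * finrank K D) := by ring
  rw [h7] at hkey h6
  omega

/-- Conjugate elements have centralisers of the same dimension. -/
lemma finrank_cent_conj_le [FiniteDimensional K' R] {a b g : R} (hg : g ≠ 0) (h : a * g = g * b) :
    finrank K' (cent (K := K') a) ≤ finrank K' (cent (K := K') b) := by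
  let ψ : R →ₗ[K'] R := LinearMap.mulLeft K' g⁻¹ ∘ₗ LinearMap.mulRight K' g
  have hψ : ∀ x, ψ x = g⁻¹ * (x * g) := fun x => rfl
  have hinj : Function.Injective ψ := by
    intro x x' e
    rw [hψ, hψ] at e
    have h1 := mul_left_cancel₀ (inv_ne_zero hg) e
    exact mul_right_cancel₀ hg h1
  have hb : b = g⁻¹ * (a * g) := by
    rw [h, inv_mul_cancel_left₀ hg]
  have hle : (cent (K := K') a).map ψ ≤ cent (K := K') b := by
    rintro _ ⟨x, hx, rfl⟩
    rw [SetLike.mem_coe, mem_cent] at hx
    rw [mem_cent, hψ, hb]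
    calc g⁻¹ * (a * g) * (g⁻¹ * (x * g)) = g⁻¹ * (a * x * g) := by
          rw [mul_assoc, mul_assoc, mul_inv_cancel_left₀ hg]
          simp only [mul_assoc]
      _ = g⁻¹ * (x * a * g) := by rw [hx]
      _ = g⁻¹ * (x * g) * (g⁻¹ * (a * g)) := by
          simp only [mul_assoc, mul_inv_cancel_left₀ hg]
  calc finrank K' (cent (K := K') a)
      = finrank K' ((cent (K := K') a).map ψ) :=
        (LinearEquiv.finrank_eq (Submodule.equivMapOfInjective ψ hinj _))
    _ ≤ _ := Submodule.finrank_mono hle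

end Abstract

section Pt

variable {F K A : Type*} [Field F] [Field K] [DivisionRing A] [Algebra F K] [Algebra K A]
  [Algebra F A] [IsScalarTower F K A] (P : State.Pt F K A (Fin 2))

/-- `dim Inn + 1 = dim A` when the commutant of the state is `K`. -/
lemma finrank_Inn_add_one [FiniteDimensional K A]
    (hcomm : ∀ x : A, (∀ v, x * P.ρ v = P.ρ v * x) → ∃ c : K, x = algebraMap K A c) :
    finrank K (Inn P) + 1 = finrank K A := by
  have h := LinearMap.finrank_range_add_finrank_ker
    (LinearMap.pi fun v => adL (K := K) (P.ρ v) : A →ₗ[K] Fin 2 → A)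
  have hk : LinearMap.ker (LinearMap.pi fun v => adL (K := K) (P.ρ v) : A →ₗ[K] Fin 2 → A) =
      K ∙ (1 : A) := by
    ext x
    rw [LinearMap.mem_ker, Submodule.mem_span_singleton]
    constructor
    · intro hx
      obtain ⟨c, hc⟩ := hcomm x (fun v => by
        have h1 := congrFun hx v
        simp only [LinearMap.pi_apply, adL_apply, Pi.zero_apply] at h1
        exact (sub_eq_zero.mp h1).symm)
      exact ⟨c, by rw [hc, Algebra.algebraMap_eq_smul_one]⟩
    · rintro ⟨c, rfl⟩
      funext v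
      simp only [LinearMap.pi_apply, adL_apply, Pi.zero_apply]
      rw [← Algebra.algebraMap_eq_smul_one, Algebra.commutes, sub_self]
  rw [hk, finrank_span_singleton (one_ne_zero)] at h
  exact h

/-- Inner directions lie in `T(r)` at a state with frozen values. -/
lemma Inn_le_T {r : ℕ} (Q : ℕ → Polynomial F)
    (hQ : ∀ i < r, Polynomial.aeval (P.β i) (Q i) = 0)
    (hQ' : ∀ i < r, IsUnit (Polynomial.aeval (P.β i) (Polynomial.derivative (Q i)))) :
    Inn P ≤ P.T r := by
  rintro t ⟨u, rfl⟩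
  have hD : IsDer (F := F) (fun x : A => x * u - u * x) :=
    ⟨fun x y => by noncomm_ring, fun x y => by noncomm_ring, fun c => by
      simp only [Algebra.commutes, sub_self]⟩
  have := P.der_mem_T hD Q hQ hQ'
  convert this using 1
  funext v
  simp

end Pt

section Main

open Tw0 Tw Plan

variable [Tw0] [Tw] {F : Subfield U} [CentF F]

/-- **The big clause**: over the hypotheses of `Val k k` with `TT0 = T k`, from the conclusion of `Val`
at `X` (the `m²`-inequality for `𝒫_u` and the tight clause) and `Valid` at `ρ` with `TT = T k`. -/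
theorem finrank_T_sub_Inn (Ls : Lst F) (n : ℕ) [Fact (F ≤ Kn n)] (ρ : Stt n) (k : ℕ)
    (S : ℕ → Set (An n))
    (hV : Valid (pt F n ρ Ls.a) (N n) Ls.R Ls.Q k k S ((pt F n ρ Ls.a).T k))
    (t1 t2 : Fin 2 → An n) (X : Stt (n + 1)) (g : ℕ → An (n + 1))
    (hsol : ∀ J, (lv n).lev.PSol (pt F n ρ Ls.a) k J t1 t2 X g)
    (hcomm' : ∀ x : An (n + 1), (∀ v, x * X v = X v * x) →
      ∃ c : Kn (n + 1), x = algebraMap (Kn (n + 1)) (An (n + 1)) c)
    (S' : ℕ → Set (An (n + 1)))
    (hP : ∀ u < k, (lv n).m ^ 2 * finrank (Kn n) (PPl (pt F n ρ Ls.a) S u) ≤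
      finrank (Kn (n + 1)) (PPl (pt F (n + 1) X Ls.a) S' u))
    (htight : ∀ u < k, finrank (Kn (n + 1)) (RR (pt F (n + 1) X Ls.a) S' u) =
      finrank (Kn (n + 1)) ((pt F (n + 1) X Ls.a).Mov u) + (Ls.R u).q) :
    (lv n).m ^ 2 * (qS Ls.R k + 1) ≤
      finrank (Kn (n + 1)) ((pt F (n + 1) X Ls.a).T k) -
        finrank (Kn (n + 1)) (Inn (pt F (n + 1) X Ls.a)) := by
  set P := pt F n ρ Ls.a with hPd
  set P' := pt F (n + 1) X Ls.a with hP'd
  set m := (lv n).m with hm
  set q := qS Ls.R k with hq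
  -- centralisers
  have hR : finrank (Kn (n + 1)) (An (n + 1)) = m ^ 2 * finrank (Kn n) (An n) := by
    rw [finrank_eq, finrank_eq, N_succ]
    ring
  have hCu : ∀ u < k, finrank (Kn (n + 1)) (cent (K := Kn (n + 1)) (P'.β u)) ≤
      m ^ 2 * finrank (Kn n) (cent (K := Kn n) (P.β u)) := by
    intro u hu
    have hex : ev X (Ls.a u) * g u = g u * (lv n).lev.inc (P.β u) := Lev.exact_of_PSol hsol hu
    have hg0 : g u ≠ 0 := ne_zero_of_lead (lv n) ((hsol 0).leadg u hu)
    exact (finrank_cent_conj_le hg0 hex).trans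
      (finrank_cent_inc_le (lv n) (hτ n) hR (P.β u))
  -- the formula at `ρ`
  have h1 := P.finrank_T_add k
  have h1' := P'.finrank_T_add k
  rw [Fin.sum_univ_eq_sum_range (fun i => finrank (Kn n) (cent (K := Kn n) (P.β i))) k,
    finrank_pi2, P.finrank_KK_eq_sum k] at h1
  rw [Fin.sum_univ_eq_sum_range (fun i => finrank (Kn (n + 1)) (cent (K := Kn (n + 1)) (P'.β i))) k,
    finrank_pi2, P'.finrank_KK_eq_sum k] at h1'
  -- `Ann`
  have hA : ∑ u ∈ Finset.range k, finrank (Kn n) (P.Ann u) ≤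
      ∑ u ∈ Finset.range k, finrank (Kn n) (PPl P S u) + q := by
    rw [hq, qS, ← Finset.sum_add_distrib]
    exact Finset.sum_le_sum fun u hu =>
      AdmExist.finrank_Ann_le P hV (Finset.mem_range.mp hu)
  have hA' : ∑ u ∈ Finset.range k, finrank (Kn (n + 1)) (P'.Ann u) =
      ∑ u ∈ Finset.range k, finrank (Kn (n + 1)) (PPl P' S' u) + q := by
    rw [hq, qS, ← Finset.sum_add_distrib]
    refine Finset.sum_congr rfl fun u hu => ?_
    have h2 := P'.finrank_Ann_add u
    have h3 := AdmExist.finrank_RR_add P' S' u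
    have h4 := htight u (Finset.mem_range.mp hu)
    omega
  have hPP : m ^ 2 * ∑ u ∈ Finset.range k, finrank (Kn n) (PPl P S u) ≤
      ∑ u ∈ Finset.range k, finrank (Kn (n + 1)) (PPl P' S' u) := by
    rw [Finset.mul_sum]
    exact Finset.sum_le_sum fun u hu => hP u (Finset.mem_range.mp hu)
  have hCC : ∑ u ∈ Finset.range k, finrank (Kn (n + 1)) (cent (K := Kn (n + 1)) (P'.β u)) ≤
      m ^ 2 * ∑ u ∈ Finset.range k, finrank (Kn n) (cent (K := Kn n) (P.β u)) := by
    rw [Finset.mul_sum]
    exact Finset.sum_le_sum fun u hu => hCu u (Finset.mem_range.mp hu)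
  -- `Inn`
  have hI := finrank_Inn_add_one P hV.comm
  have hI' := finrank_Inn_add_one P' hcomm'
  rw [finrank_eq] at hI hI'
  have hle : Inn P ≤ P.T k := Inn_le_T P Ls.Q (fun i hi => (hV.frozen i hi).1)
    (fun i hi => (hV.frozen i hi).2)
  have hbig := hV.TT_big
  rw [inf_eq_right.mpr hle] at hbig
  -- the arithmetic
  have hNs : N (n + 1) ^ 2 = m ^ 2 * N n ^ 2 := by
    rw [N_succ]
    ring
  rw [hNs] at h1' hI'
  generalize finrank (Kn n) (P.T k) = a at *
  generalize finrank (Kn (n + 1)) (P'.T k) = a' at *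
  generalize finrank (Kn n) (Inn P) = I at *
  generalize finrank (Kn (n + 1)) (Inn P') = I' at *
  generalize ∑ u ∈ Finset.range k, finrank (Kn n) (cent (K := Kn n) (P.β u)) = C at *
  generalize ∑ u ∈ Finset.range k, finrank (Kn (n + 1)) (cent (K := Kn (n + 1)) (P'.β u)) = C' at *
  generalize ∑ u ∈ Finset.range k, finrank (Kn n) (P.Ann u) = An1 at *
  generalize ∑ u ∈ Finset.range k, finrank (Kn (n + 1)) (P'.Ann u) = An2 at *
  generalize ∑ u ∈ Finset.range k, finrank (Kn n) (PPl P S u) = p at *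
  generalize ∑ u ∈ Finset.range k, finrank (Kn (n + 1)) (PPl P' S' u) = p' at *
  generalize N n ^ 2 = N2 at *
  -- `C + q + 1 ≤ N2 + p`
  have hC0 : C + q + 1 ≤ N2 + p := by
    have hq' : qS Ls.R k = q := hq.symm
    omega
  have hM := Nat.mul_le_mul_left (m ^ 2) hC0
  simp only [mul_add, mul_one] at hM hI' h1' ⊢
  omega

end Main

end Crest.Agent.Kurosh.ValBig
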