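/-
S0270 (Kurosh), §K "Freeze" (helper19): `Valid` at the frozen state `X` for the new entry `k`.

* abstract part: `Sk P k = Mov_k ∖ 0` as the witnesses when `Mov_k ⊂ K[β_k]`: `good_of`, `mov_le_RR`,
  `finrank_RR_le`, `big_of`;
* `freeze_valid`: from the fresh exact level-up `X` of `Z`, with the numbers of the class at `X`.
-/
import Crest.Agent.Kurosh.PoleTop
import Crest.Agent.Kurosh.ValBig
import Crest.Agent.Kurosh.LyFacts
import Crest.Agent.Kurosh.Transport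

set_option autoImplicit false
set_option linter.unusedSectionVars false

namespace Crest.Agent.Kurosh.Freeze

open Hensel State Module LU VLead ValH AdmExist
open _root_.Crest.Agent.Kurosh.Inv
open _root_.Crest.Agent.Kurosh.Inv.St

section Abs

variable {F K A : Type*} [Field F] [Field K] [DivisionRing A] [Algebra F K] [Algebra K A]
  [Algebra F A] [IsScalarTower F K A] [FiniteDimensional K A] (P : Pt F K A (Fin 2)) {k : ℕ}

/-- The witnesses of the frozen entry. -/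
def Sk (P : Pt F K A (Fin 2)) (k : ℕ) : Set A := {y | y ∈ P.Mov k ∧ y ≠ 0}

variable {P}

lemma comm_of_mem_Mov {z : A} (hz : z ∈ P.Mov k) : P.β k * z = z * P.β k := by
  obtain ⟨t, -, rfl⟩ := P.mem_Mov.1 hz
  exact P.e_mem k _

/-- `𝔏_y ⊂ K[β]`. -/
lemma Ly_le_adjoin (h1 : P.τ 1 = 1)
    (hM : P.Mov k ≤ Subalgebra.toSubmodule (Algebra.adjoin K {P.β k})) {y : A} (hy : y ∈ P.Mov k) :
    Ly P k y ≤ Algebra.adjoin K {P.β k} := by
  rw [Ly_eq_adjoin P h1 hM hy]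
  refine Algebra.adjoin_le ?_
  rintro _ ⟨w, hw, rfl⟩
  exact mul_mem (inv_mem_sub _ (hM hy)) (hM hw)

/-- The class `y 𝔏_y` does not depend on `y`. -/
lemma mul_Ly_mem (h1 : P.τ 1 = 1)
    (hM : P.Mov k ≤ Subalgebra.toSubmodule (Algebra.adjoin K {P.β k})) {y y' f : A}
    (hy : y ∈ P.Mov k) (hy0 : y ≠ 0) (hy' : y' ∈ P.Mov k) (hy'0 : y' ≠ 0) (hf : f ∈ Ly P k y) :
    y'⁻¹ * (y * f) ∈ Ly P k y' := by
  rw [← mul_assoc]
  have h2 : y'⁻¹ * y ∈ Ly P k y' := inv_mul_mem_Ly P h1 hM hy' hy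
  rw [Ly_indep P h1 hM hy hy' hy0 hy'0] at hf
  exact mul_mem h2 hf

/-- `𝒫_k ⊥ y 𝔏_y`. -/
lemma PPl_perp (h1 : P.τ 1 = 1)
    (hM : P.Mov k ≤ Subalgebra.toSubmodule (Algebra.adjoin K {P.β k})) {S : ℕ → Set A}
    (hS : S k = Sk P k) {y f p : A} (hy : y ∈ P.Mov k) (hy0 : y ≠ 0) (hf : f ∈ Ly P k y)
    (hp : p ∈ PPl P S k) : P.τ (p * (y * f)) = 0 := by
  let φ : A →ₗ[K] K := P.τ ∘ₗ LinearMap.mulRight K (y * f)
  have hφ : ∀ x, φ x = P.τ (x * (y * f)) := fun _ => rfl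
  have hle : PPl P S k ≤ LinearMap.ker φ := by
    unfold PPl
    refine iSup₂_le fun y' hy' p' hp' => ?_
    rw [hS] at hy'
    rw [LinearMap.mem_ker, hφ]
    have h2 := hp'.2.2 _ (mul_Ly_mem h1 hM hy hy0 hy'.1 hy'.2 hf)
    rwa [mul_inv_cancel_left₀ hy'.2] at h2
  have := hle hp
  rwa [LinearMap.mem_ker, hφ] at this

/-- `y 𝔏_y ⊂ R_k`. -/
lemma mul_Ly_mem_RR (h1 : P.τ 1 = 1)
    (hM : P.Mov k ≤ Subalgebra.toSubmodule (Algebra.adjoin K {P.β k})) {S : ℕ → Set A}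
    (hS : S k = Sk P k) {y f : A} (hy : y ∈ P.Mov k) (hy0 : y ≠ 0) (hf : f ∈ Ly P k y) :
    y * f ∈ RR P S k := by
  refine ⟨?_, fun p hp => PPl_perp h1 hM hS hy hy0 hf hp⟩
  have h2 : y * f ∈ Algebra.adjoin K {P.β k} := mul_mem (hM hy) (Ly_le_adjoin h1 hM hy hf)
  rw [Cl, mem_cent]
  exact Pole.comm_of_mem_adjoin (K := K) (x := P.β k) (b := y * f) rfl h2 |>.symm

/-- **V4**, first half. -/
theorem mov_le_RR (h1 : P.τ 1 = 1)
    (hM : P.Mov k ≤ Subalgebra.toSubmodule (Algebra.adjoin K {P.β k})) {S : ℕ → Set A}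
    (hS : S k = Sk P k) : P.Mov k ≤ RR P S k := by
  intro z hz
  by_cases hz0 : z = 0
  · rw [hz0]
    exact zero_mem _
  have h2 := mul_Ly_mem_RR h1 hM hS hz hz0 (one_mem (Ly P k z))
  rwa [mul_one] at h2

/-- `dim R_k ≤ dim 𝔏_y`. -/
theorem finrank_RR_le (h1 : P.τ 1 = 1)
    (hM : P.Mov k ≤ Subalgebra.toSubmodule (Algebra.adjoin K {P.β k})) {S : ℕ → Set A}
    (hS : S k = Sk P k) {y : A} (hy : y ∈ P.Mov k) (hy0 : y ≠ 0) :
    finrank K (RR P S k) ≤ finrank K (Ly P k y) := by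
  have h2 := finrank_RR_add P S k
  have h3 := ValD.finrank_PPy_add P h1 hy0 (comm_of_mem_Mov hy)
  rw [Fy_eq_adjoin P hM hy] at h3
  have h4 : finrank K (DoubleCent.centDiv (Algebra.adjoin K {P.β k})) =
      finrank K (cent (K := K) (P.β k)) := by
    rw [Pole.cent_eq_centDiv]
    rfl
  have hle : PPy P k y ≤ PPl P S k := by
    unfold PPl
    refine le_iSup₂_of_le y ?_ le_rfl
    rw [hS]
    exact ⟨hy, hy0⟩
  have h5 := Submodule.finrank_mono hle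
  omega

/-- **V7**. -/
theorem big_of (h1 : P.τ 1 = 1)
    (hM : P.Mov k ≤ Subalgebra.toSubmodule (Algebra.adjoin K {P.β k})) {S : ℕ → Set A}
    (hS : S k = Sk P k) {y : A} (hy : y ∈ P.Mov k) (hy0 : y ≠ 0) :
    finrank K (Ly P k y) ≤
      finrank K (eIm P (Subalgebra.toSubmodule (Fy P k y)) (RR P S k)) := by
  let f : A →ₗ[K] A := LinearMap.mulLeft K y
  have hf : Function.Injective f := fun a b hab => mul_left_cancel₀ hy0 hab
  have e : finrank K (Ly P k y) = finrank K ((Subalgebra.toSubmodule (Ly P k y)).map f) := by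
    show finrank K (Subalgebra.toSubmodule (Ly P k y)) = _
    exact LinearEquiv.finrank_eq (Submodule.equivMapOfInjective f hf _)
  rw [e]
  refine Submodule.finrank_mono ?_
  rintro _ ⟨a, ha, rfl⟩
  have h2 : f a = y * a := rfl
  rw [h2]
  refine ⟨?_, y * a, mul_Ly_mem_RR h1 hM hS hy hy0 ha, fun _ _ => rfl⟩
  rw [Fy_eq_adjoin P hM hy]
  have h3 : y ∈ Algebra.adjoin K {P.β k} := hM hy
  have h4 : y * a ∈ Algebra.adjoin K {P.β k} := mul_mem h3 (Ly_le_adjoin h1 hM hy ha)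
  exact h4

/-- The goodness of the elements of `Sk`. -/
theorem good_of (h1 : P.τ 1 = 1)
    (hM : P.Mov k ≤ Subalgebra.toSubmodule (Algebra.adjoin K {P.β k})) {N : ℕ} (hN : 0 < N) {r : Rec}
    (hn : r.n * finrank K (Algebra.adjoin K {P.β k}) = N)
    {y : A} (hy : y ∈ P.Mov k) (hy0 : y ≠ 0) (hσ : r.σ * finrank K (Ly P k y) = N)
    (hq : finrank K (Ly P k y) ≤ finrank K (P.Mov k) + r.q) : Good P N r k y := by
  have hnp : 0 < r.n := by
    rcases Nat.eq_zero_or_pos r.n with h0 | h0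
    · rw [h0, zero_mul] at hn
      omega
    · exact h0
  have hσp : 0 < r.σ := by
    rcases Nat.eq_zero_or_pos r.σ with h0 | h0
    · rw [h0, zero_mul] at hσ
      omega
    · exact h0
  have e1 : N / r.n = finrank K (Algebra.adjoin K {P.β k}) := by
    rw [← hn]
    exact Nat.mul_div_cancel_left _ hnp
  have e2 : N / r.σ = finrank K (Ly P k y) := by
    rw [← hσ]
    exact Nat.mul_div_cancel_left _ hσp
  refine ⟨hy, hy0, ?_, ?_, e2.symm⟩
  · rw [Fy_eq_adjoin P hM hy, e1]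
  · rw [Ay_eq_Mov P h1 hM hy, e2]
    exact hq

omit [FiniteDimensional K A] in
/-- `dim T(k) = dim T(k+1) + dim Mov_k`. -/
lemma finrank_T_eq [FiniteDimensional K A] (P : Pt F K A (Fin 2)) (k : ℕ) :
    finrank K (P.T k) = finrank K (P.T (k + 1)) + finrank K (P.Mov k) := by
  have hle : P.T (k + 1) ≤ P.T k := P.T_anti (Nat.le_succ k)
  have h8 := ExploreLin.finrank_sub_ker_piK P k
  have h9 : finrank K (LinearMap.ker (ExploreLin.piK P k)) = finrank K (P.T (k + 1)) := by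
    have hker : (P.T (k + 1)).comap (P.T k).subtype = LinearMap.ker (ExploreLin.piK P k) := by
      ext t
      rw [Submodule.mem_comap, LinearMap.mem_ker]
      constructor
      · intro h
        exact (P.mem_T_succ.1 h).2
      · intro h
        exact P.mem_T_succ.2 ⟨t.2, h⟩
    rw [← hker]
    exact (Submodule.comapSubtypeEquivOfLe hle).finrank_eq
  rw [h9] at h8
  have h10 := Submodule.finrank_mono hle
  omega

end Abs

section Top

open Plan LU.Tw0 LU.Tw Transport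

variable [Tw0] [Tw] {F F' : Subfield U} [CentF F] [CentF F'] [Fact (F ≤ F')]

lemma qS_succ' {R R' : ℕ → Rec} {k : ℕ} (h : ∀ u < k, R' u = R u) :
    qS R' (k + 1) = qS R k + (R' k).q := by
  unfold qS
  rw [Finset.sum_range_succ]
  congr 1
  exact Finset.sum_congr rfl fun u hu => by rw [h u (Finset.mem_range.1 hu)]

lemma arith_big {m M q s a b c I d : ℕ} (hm : 100 * M + 100 ≤ m) (hq : q ≤ M) (hs : s ≤ M)
    (hd : d ≤ m * M) (h1 : m ^ 2 * (s + 1) ≤ a - I) (h2 : a = b + d) (h3 : c ≤ I) :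
    2 * (s + q) + 2 ≤ b - c := by
  have h4 : 2 * (s + q) + 2 + m * M ≤ m ^ 2 * (s + 1) := by
    have h5 : m * (100 * M + 100) ≤ m * m := Nat.mul_le_mul_left _ hm
    have h6 : 100 ≤ m := by omega
    have h7 : 100 * M ≤ m * M := Nat.mul_le_mul_right _ h6
    nlinarith
  omega

/-- **Freeze**: `Valid` at the fresh exact level-up `X` of `Z` for the new entry `k`, over the new
coefficient field and list, from the numbers of the class at `X`. -/
theorem freeze_valid (k : ℕ) (hVal : Val F k k) (hO' : Orc F' k) (hK' : KeyS F' k)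
    (Ls : Lst F) (Ls' : Lst F') (hL : ListAgree Ls Ls' k) (hak : Ls'.a k = Transport.tr (Ls.a k))
    (n : ℕ) [Fact (F ≤ Kn n)] [Fact (F' ≤ Kn (n + 1))] (Z : Stt n) (S : ℕ → Set (An n))
    (hC : Ctx F Ls n Z k k S ((pt F n Z Ls.a).T k))
    (hSm : Smooth (pt F n Z Ls.a) k)
    (t1 t2 : Fin 2 → An n)
    (hA : Adm (pt F n Z Ls.a) k ((pt F n Z Ls.a).T k) t1 t2)
    (hy0 : (pt F n Z Ls.a).e k ((pt F n Z Ls.a).dL k t1) ≠ 0)
    (honto : ∀ z ∈ (pt F n Z Ls.a).Mov k, ∃ τ₀ ∈ (pt F n Z Ls.a).T k,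
      (pt F n Z Ls.a).e k ((pt F n Z Ls.a).dL k τ₀) = z ∧ ∀ c ∈ (pt F n Z Ls.a).KK k,
        (pt F n Z Ls.a).PP k c t1 τ₀ = 0 ∧ (pt F n Z Ls.a).PP k c t2 τ₀ = 0)
    (X : Stt (n + 1)) (g : ℕ → An (n + 1)) (TTX : Submodule (Kn (n + 1)) (Fin 2 → An (n + 1)))
    (hPS : ∀ J, (lv n).lev.PSol (pt F n Z Ls.a) k J t1 t2 X g)
    (hFr : Fresh F Ls n Z k t1 t2 ((pt F n Z Ls.a).T k) X TTX)
    -- the numbers at `X`
    (hdeg : finrank (Kn (n + 1)) (Algebra.adjoin (Kn (n + 1)) {(pt F (n + 1) X Ls.a).β k}) ≤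
      (lv n).m * finrank (Kn n) (Algebra.adjoin (Kn n) {(pt F n Z Ls.a).β k}))
    (hdim : finrank (Kn (n + 1)) ((pt F (n + 1) X Ls.a).Mov k) ≤
      ((lv n).m - 1) * finrank (Kn n) ↥((pt F n Z Ls.a).Mov k ⊔
        ((pt F n Z Ls.a).Mov k).map (LinearMap.mulLeft (Kn n)
          (((pt F n Z Ls.a).e k ((pt F n Z Ls.a).dL k t1))⁻¹ *
            (pt F n Z Ls.a).e k ((pt F n Z Ls.a).dL k t2)))) +
      finrank (Kn n) ((pt F n Z Ls.a).Mov k))
    (hLy : ∀ y' ∈ (pt F (n + 1) X Ls.a).Mov k, y' ≠ 0 →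
      finrank (Kn (n + 1)) (Ly (pt F (n + 1) X Ls.a) k y') ≤
      (lv n).m * finrank (Kn n) ↥((pt F n Z Ls.a).Mov k ⊔
        ((pt F n Z Ls.a).Mov k).map (LinearMap.mulLeft (Kn n)
          (((pt F n Z Ls.a).e k ((pt F n Z Ls.a).dL k t1))⁻¹ *
            (pt F n Z Ls.a).e k ((pt F n Z Ls.a).dL k t2)))))
    (hne : (pt F (n + 1) X Ls.a).Mov k ≠ ⊥)
    (hn : (Ls'.R k).n * finrank (Kn (n + 1))
      (Algebra.adjoin (Kn (n + 1)) {(pt F (n + 1) X Ls.a).β k}) = N (n + 1))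
    (hσ : ∀ y' ∈ (pt F (n + 1) X Ls.a).Mov k, y' ≠ 0 →
      (Ls'.R k).σ * finrank (Kn (n + 1)) (Ly (pt F (n + 1) X Ls.a) k y') = N (n + 1))
    (hq : ∀ y' ∈ (pt F (n + 1) X Ls.a).Mov k, y' ≠ 0 →
      finrank (Kn (n + 1)) (Ly (pt F (n + 1) X Ls.a) k y') ≤
        finrank (Kn (n + 1)) ((pt F (n + 1) X Ls.a).Mov k) + (Ls'.R k).q)
    (hqs : 3 * (Ls'.R k).q < N (n + 1) / (Ls'.R k).σ)
    (hqb : (Ls'.R k).q ≤ N n ^ 2)
    -- the frozen polynomial and `B5`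
    (hQ : Polynomial.aeval ((pt F' (n + 1) X Ls'.a).β k) (Ls'.Q k) = 0 ∧
      IsUnit (Polynomial.aeval ((pt F' (n + 1) X Ls'.a).β k) (Polynomial.derivative (Ls'.Q k))))
    (hSmF : Smooth (pt F' (n + 1) X Ls'.a) (k + 1))
    -- the context
    (habove : ∀ u < k + 1, Above (Ls'.Z0 u) ⟨n + 1, X⟩)
    (hopt : ∀ u < k + 1, Opt F' Ls' u) :
    ∃ S'' : ℕ → Set (An (n + 1)),
      Valid (pt F' (n + 1) X Ls'.a) (N (n + 1)) Ls'.R Ls'.Q (k + 1) (k + 1) S''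
        ((pt F' (n + 1) X Ls'.a).T (k + 1)) := by
  classical
  have hm := m_big n
  have hNpos := N_pos n
  have hNs : N (n + 1) = N n * (lv n).m := N_succ n
  have hN'pos := N_pos (n + 1)
  -- the output of `Val k k`
  obtain ⟨S', hV', hPP, hold, htight, hlast⟩ := hVal Ls n Z k S _ _ hC t1 t2 hA le_rfl le_rfl X g TTX
    hPS hFr
  obtain ⟨hSm', hTX⟩ := hlast rfl rfl
  subst hTX
  set P := pt F n Z Ls.a with hPdef
  set P' := pt F (n + 1) X Ls.a with hP'def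
  set P'' := pt F' (n + 1) X Ls'.a with hP''def
  have hk1 : k < k + 1 := Nat.lt_succ_self k
  have hs : SameTo P' P'' (k + 1) := sameTo_pt (n + 1) X (a := Ls.a) (a' := Ls'.a) fun i hi => by
    rcases Nat.lt_succ_iff_lt_or_eq.1 hi with hi | rfl
    · exact hL.a i hi
    · exact hak
  have hqS1 : qS Ls'.R (k + 1) = qS Ls.R k + (Ls'.R k).q := qS_succ' hL.R
  have hqS0 : qS Ls.R k ≤ N n ^ 2 := hC.valid.qbd
  have hT1 : P'.T (k + 1) = P''.T (k + 1) := hs.T_eq le_rfl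
  have hTk : P'.T k = P''.T k := hs.T_eq hk1.le
  have hV'' : Valid P'' (N (n + 1)) Ls'.R Ls'.Q k k S' (P'.T k) := valid_up (n + 1) X hL hV'
  -- `Mov_X` is small
  have hdimA : finrank (Kn n) (An n) = N n ^ 2 := finrank_eq n
  have hMsmall : finrank (Kn (n + 1)) (P'.Mov k) ≤ (lv n).m * N n ^ 2 := by
    have h4 : finrank (Kn n) ↥(P.Mov k ⊔ (P.Mov k).map (LinearMap.mulLeft (Kn n)
        ((P.e k (P.dL k t1))⁻¹ * P.e k (P.dL k t2)))) ≤ N n ^ 2 := hdimA ▸ Submodule.finrank_le _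
    have h5 : finrank (Kn n) (P.Mov k) ≤ N n ^ 2 := hdimA ▸ Submodule.finrank_le _
    have h7 := Nat.mul_le_mul_left ((lv n).m - 1) h4
    have h8 : ((lv n).m - 1) * N n ^ 2 + N n ^ 2 = (lv n).m * N n ^ 2 := by
      obtain ⟨m', hm'⟩ : ∃ m', (lv n).m = m' + 1 := ⟨(lv n).m - 1, by omega⟩
      rw [hm']
      simp only [Nat.add_sub_cancel]
      ring
    omega
  -- `Valid` with `r = k + 1`
  have hV₁ : Valid P'' (N (n + 1)) Ls'.R Ls'.Q k (k + 1) S' (P''.T (k + 1)) := by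
    refine
      { le := Nat.le_succ k
        one := hV''.one
        frozen := fun u hu => ?_
        comm := hV''.comm
        dvd := fun u hu => ?_
        qbd := ?_
        q_small := fun u hu => ?_
        S_ne := hV''.S_ne
        S_good := hV''.S_good
        mov_le := hV''.mov_le
        mov_codim := hV''.mov_codim
        rank := fun u hu c hc hn => ?_
        lift := fun u hu p hp => ?_
        big := hV''.big
        TT_le := le_rfl
        TT_S := fun k' hk' t ht c hc t' ht' => ?_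
        TT_big := ?_ }
    · rcases Nat.lt_succ_iff_lt_or_eq.1 hu with hu | rfl
      · exact hV''.frozen u hu
      · exact hQ
    · rcases Nat.lt_succ_iff_lt_or_eq.1 hu with hu | rfl
      · exact hV''.dvd u hu
      · obtain ⟨y', hy', hy'0⟩ := Submodule.exists_mem_ne_zero_of_ne_bot hne
        exact ⟨⟨_, hn.symm⟩, ⟨_, (hσ y' hy' hy'0).symm⟩⟩
    · rw [hqS1, hNs]
      have h3 : N n ^ 2 * 2 ≤ (N n * (lv n).m) ^ 2 := by
        rw [mul_pow]
        refine Nat.mul_le_mul_left _ ?_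
        nlinarith
      omega
    · rcases Nat.lt_succ_iff_lt_or_eq.1 hu with hu | rfl
      · exact hV''.q_small u hu
      · exact hqs
    · have hu1 : u + 1 < k + 1 := by omega
      have h1 := Pole.rank_old Ls n Z k t1 t2 X S' hV' hold hdim (Ls'.R k).q hqb u hu c
        (by rwa [hs.KK_eq hu1.le]) (by rwa [hs.PPl_eq (by omega)])
      rw [hqS1, ← hs.rkOn_eq le_rfl, ← hT1]
      exact h1
    · obtain ⟨c, hc, hcu⟩ := hV''.lift u hu p hp
      refine ⟨c, ⟨hc.1, fun t ht τ' hτ' => hc.2 t ?_ τ' hτ'⟩, hcu⟩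
      rw [hTk]
      exact P''.T_anti (Nat.le_succ k) ht
    · obtain ⟨D, hD, -, hDt⟩ := hSmF t ht
      exact Pt.S_identity _ hD hc hDt (P''.T_anti hk' ht) ht'
    · have h1 := ValBig.finrank_T_sub_Inn Ls n Z k S hC.valid t1 t2 X g hPS hV'.comm S' hPP htight
      have h2 := finrank_T_eq P' k
      have h3 : finrank (Kn (n + 1)) ↥(P'.T (k + 1) ⊓ Inn P') ≤ finrank (Kn (n + 1)) (Inn P') :=
        Submodule.finrank_mono inf_le_right
      rw [hqS1, ← hT1, ← hs.Inn_eq]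
      exact arith_big hm hqb hqS0 hMsmall h1 h2 h3
  -- the witnesses
  have hh1 : P''.τ 1 = 1 := hV''.one
  have hMX : P'.Mov k ≤ Subalgebra.toSubmodule (Algebra.adjoin (Kn (n + 1)) {P'.β k}) :=
    Mov_le_adjoin P' hV'.one hSm'
  have hM'' : P''.Mov k ≤ Subalgebra.toSubmodule (Algebra.adjoin (Kn (n + 1)) {P''.β k}) := by
    rw [← hs.Mov_eq hk1, ← hs.β k hk1]
    exact hMX
  have hn'' : (Ls'.R k).n * finrank (Kn (n + 1)) (Algebra.adjoin (Kn (n + 1)) {P''.β k}) =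
      N (n + 1) := by
    rw [← hs.β k hk1]
    exact hn
  have hσ'' : ∀ y' ∈ P''.Mov k, y' ≠ 0 →
      (Ls'.R k).σ * finrank (Kn (n + 1)) (Ly P'' k y') = N (n + 1) := fun y' hy' h0 => by
    rw [← hs.Ly_eq hk1]
    exact hσ y' (by rwa [hs.Mov_eq hk1]) h0
  have hq'' : ∀ y' ∈ P''.Mov k, y' ≠ 0 →
      finrank (Kn (n + 1)) (Ly P'' k y') ≤ finrank (Kn (n + 1)) (P''.Mov k) + (Ls'.R k).q :=
    fun y' hy' h0 => by
      rw [← hs.Ly_eq hk1, ← hs.Mov_eq hk1]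
      exact hq y' (by rwa [hs.Mov_eq hk1]) h0
  have hgood : ∀ y ∈ Sk P'' k, Good P'' (N (n + 1)) (Ls'.R k) k y := fun y hy =>
    good_of hh1 hM'' hN'pos hn'' hy.1 hy.2 (hσ'' y hy.1 hy.2) (hq'' y hy.1 hy.2)
  set S₁ : ℕ → Set (An (n + 1)) := Function.update S' k (Sk P'' k) with hS₁def
  have hS₁ : S₁ k = Sk P'' k := Function.update_self _ _ _
  have hV₂ : Valid P'' (N (n + 1)) Ls'.R Ls'.Q k (k + 1) S₁ (P''.T (k + 1)) :=
    Valid.congrS hV₁ fun u hu => Function.update_of_ne (Nat.ne_of_lt hu) _ _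
  have hC₁ : Ctx F' Ls' (n + 1) X k (k + 1) S₁ (P''.T (k + 1)) := ⟨hV₂, habove, hopt⟩
  obtain ⟨y₁, hy₁, hy₁0⟩ : ∃ y₁, y₁ ∈ P''.Mov k ∧ y₁ ≠ 0 := by
    obtain ⟨y', hy', hy'0⟩ := Submodule.exists_mem_ne_zero_of_ne_bot hne
    exact ⟨y', by rwa [← hs.Mov_eq hk1], hy'0⟩
  have hcod : finrank (Kn (n + 1)) (RR P'' S₁ k) ≤ finrank (Kn (n + 1)) (P''.Mov k) + (Ls'.R k).q :=
    (finrank_RR_le hh1 hM'' hS₁ hy₁ hy₁0).trans (hq'' y₁ hy₁ hy₁0)
  have hg' : ∀ y ∈ S₁ k, Good P'' (N (n + 1)) (Ls'.R k) k y := fun y hy =>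
    hgood y (hS₁ ▸ hy)
  -- the lifts
  have hlift'' : ∀ y' ∈ P''.Mov k, y' ≠ 0 → ∀ p ∈ PPy P'' k y',
      ∃ i ∈ IIT P'' (k + 1) (P''.T (k + 1)), i k = p := fun y' hy' h0 p hp =>
    PropI.lift_good hO' hK' hC₁ hk1 hg' hcod (hgood y' ⟨hy', h0⟩) hp
  -- the rank
  have hrank : ∀ c ∈ P''.KK (k + 1), c k ∉ PPl P'' S₁ k →
      5 * qS Ls'.R (k + 1) ≤ rkOn P'' (k + 1) c (P''.T (k + 1)) := by
    intro c hc hcn
    have h1 := Pole.rank_new Ls n Z k S t1 t2 X g S' hC.valid hSm hA hy0 honto hPS hFr hV' hSm' hPP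
      hdeg hdim hLy (fun y' hy' h0 p hp => ?_) (Ls'.R k).q hqb c (by rwa [hs.KK_eq le_rfl])
      (fun y' hy' h0 hp => ?_)
    · rw [hqS1, ← hs.rkOn_eq le_rfl, ← hT1]
      exact h1
    · obtain ⟨i, hi, hik⟩ := hlift'' y' (by rwa [← hs.Mov_eq hk1]) h0 p (by rwa [← hs.PPy_eq hk1])
      refine ⟨i, ?_, hik⟩
      rw [hs.IIT_eq le_rfl, hT1]
      exact hi
    · apply hcn
      unfold PPl
      refine (le_iSup₂_of_le y' ?_ le_rfl : PPy P'' k y' ≤ _) ?_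
      · rw [hS₁]
        exact ⟨by rwa [← hs.Mov_eq hk1], h0⟩
      · rwa [← hs.PPy_eq hk1]
  have hup : Function.update S' k (Sk P'' k) = S₁ := rfl
  refine ⟨Function.update S' k (Sk P'' k), ValH.Valid.succ hV₁ hk1 (Sk P'' k) ⟨y₁, hy₁, hy₁0⟩ hgood
    (mov_le_RR hh1 hM'' hS₁) hcod hrank ?_ ?_⟩
  · exact PropI.lift_PPl hO' hK' hC₁ hk1 hg' hcod
  · intro y hy
    have h1 := big_of hh1 hM'' hS₁ hy.1 hy.2
    have h2 : N (n + 1) / (Ls'.R k).σ = finrank (Kn (n + 1)) (Ly P'' k y) := by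
      rw [← hσ'' y hy.1 hy.2]
      refine Nat.mul_div_cancel_left _ ?_
      rcases Nat.eq_zero_or_pos (Ls'.R k).σ with h0 | h0
      · have := hσ'' y hy.1 hy.2
        rw [h0, zero_mul] at this
        omega
      · exact h0
    rw [h2]
    exact h1

end Top

end Crest.Agent.Kurosh.Freeze
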