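/-
S0270 (Kurosh), §K "Freeze" (helper19), part 2: the new coefficient field (B5), the new list, Case B of the
exploration from the numbers of the class at `X`.

* `newF F n x`: `F` and the coefficients of the minimal polynomial of `x ∈ A n` over `K n`.
* `smooth_new`: `T(k+1)(X) ⊂ T_int(newF)` (B5).
* `case_B`: the conclusion of the exploration.
-/
import Crest.Agent.Kurosh.Freeze
import Crest.Agent.Kurosh.ExploreOpt

set_option autoImplicit false
set_option linter.unusedSectionVars false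

namespace Crest.Agent.Kurosh.Freeze

open Hensel State Module LU LU.Tw0 LU.Tw Plan Transport Polynomial Explore
open _root_.Crest.Agent.Kurosh.Inv
open _root_.Crest.Agent.Kurosh.Inv.St

variable [Tw0] [Tw] {F : Subfield U} [CentF F]

/-- The coefficients of the minimal polynomial. -/
noncomputable def coefS {n : ℕ} (x : An n) : Finset U := by
  classical
  exact (Finset.range ((minpoly (Kn n) x).natDegree + 1)).image
    fun i => (((minpoly (Kn n) x).coeff i : Kn n) : U)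

/-- The new coefficient field. -/
noncomputable def newF (F : Subfield U) {n : ℕ} (x : An n) : Subfield U :=
  F ⊔ Subfield.closure (coefS x : Set U)

lemma newF_le {n : ℕ} [Fact (F ≤ Kn n)] (x : An n) : newF F x ≤ Kn n := by
  refine sup_le (Fact.out : F ≤ Kn n) (Subfield.closure_le.2 ?_)
  intro y hy
  classical
  obtain ⟨i, -, rfl⟩ := Finset.mem_image.1 (Finset.mem_coe.1 hy)
  exact ((minpoly (Kn n) x).coeff i).2

instance cent_newF {n : ℕ} [Fact (F ≤ Kn n)] (x : An n) : CentF (newF F x) :=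
  ⟨fun y hy z => central n y (newF_le x hy) z⟩

instance fact_newF {n : ℕ} (x : An n) : Fact (F ≤ newF F x) := ⟨le_sup_left⟩

instance fact_newF' {n : ℕ} [Fact (F ≤ Kn n)] (x : An n) : Fact (newF F x ≤ Kn n) := ⟨newF_le x⟩

lemma coeff_mem_newF {n : ℕ} (x : An n) (i : ℕ) :
    (((minpoly (Kn n) x).coeff i : Kn n) : U) ∈ newF F x := by
  by_cases hi : i ≤ (minpoly (Kn n) x).natDegree
  · classical
    exact (le_sup_right : Subfield.closure (coefS x : Set U) ≤ newF F x) (Subfield.subset_closure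
      (Finset.mem_coe.2 (Finset.mem_image.2 ⟨i, Finset.mem_range.2 (Nat.lt_succ_of_le hi), rfl⟩)))
  · rw [coeff_eq_zero_of_natDegree_lt (not_le.1 hi)]
    exact zero_mem _

/-- The frozen polynomial over `newF`. -/
lemma exists_Q {n : ℕ} [Fact (F ≤ Kn n)] (x : An n) :
    ∃ Q : Polynomial (newF F x), Q.map (Subfield.inclusion (newF_le x)) = minpoly (Kn n) x := by
  have hl : minpoly (Kn n) x ∈ lifts (Subfield.inclusion (newF_le (F := F) x)) :=
    (lifts_iff_coeff_lifts _).2 fun i => ⟨⟨_, coeff_mem_newF x i⟩, rfl⟩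
  exact mem_lifts _ |>.1 hl

lemma aeval_frozen {n : ℕ} [Fact (F ≤ Kn n)] {x : An n} {Q : Polynomial (newF F x)}
    (hQ : Q.map (Subfield.inclusion (newF_le x)) = minpoly (Kn n) x) :
    aeval x Q = 0 ∧ IsUnit (aeval x (derivative Q)) := by
  have hint : IsIntegral (Kn n) x := IsIntegral.of_finite _ _
  have e1 : ∀ p : Polynomial (newF F x),
      aeval x p = aeval x (p.map (Subfield.inclusion (newF_le x))) := fun p =>
    (aeval_map_algebraMap (A := Kn n) x p).symm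
  refine ⟨by rw [e1, hQ, minpoly.aeval], IsUnit.mk0 _ ?_⟩
  rw [e1, ← derivative_map, hQ]
  intro h0
  have hne : derivative (minpoly (Kn n) x) ≠ 0 := by
    intro hd
    have h1 := Polynomial.derivative_eq_zero.1 hd
    exact (minpoly.natDegree_pos hint).ne' h1
  have h2 := minpoly.degree_le_of_ne_zero (Kn n) x hne h0
  have h3 := degree_derivative_lt (minpoly.ne_zero hint)
  exact absurd h2 (not_le.2 h3)

/-- A derivation killing `F` and the coefficients kills `newF`. -/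
lemma der_newF {n : ℕ} [Fact (F ≤ Kn n)] {x : An n} {D : An n → An n} (hD : IsDer (F := F) D)
    {d : Kn n →+ Kn n} (hd : ∀ c, D (algebraMap (Kn n) (An n) c) = algebraMap (Kn n) (An n) (d c))
    (hc : ∀ i, d ((minpoly (Kn n) x).coeff i) = 0) : IsDer (F := newF F x) D := by
  have hz : ∀ c : Kn n, d c = 0 → D (algebraMap (Kn n) (An n) c) = 0 := fun c h => by
    rw [hd, h, map_zero]
  let W : Subfield U :=
    { carrier := {y | ∃ h : y ∈ Kn n, D (algebraMap (Kn n) (An n) ⟨y, h⟩) = 0}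
      mul_mem' := by
        rintro a b ⟨ha, ha'⟩ ⟨hb, hb'⟩
        refine ⟨mul_mem ha hb, ?_⟩
        have e : (⟨a * b, mul_mem ha hb⟩ : Kn n) = ⟨a, ha⟩ * ⟨b, hb⟩ := rfl
        rw [e, map_mul, hD.mul, ha', hb', zero_mul, mul_zero, add_zero]
      one_mem' := by
        refine ⟨one_mem _, ?_⟩
        have e : (⟨1, one_mem _⟩ : Kn n) = 1 := rfl
        have := hD.mul 1 1
        rw [e, map_one]
        simpa using this
      add_mem' := by
        rintro a b ⟨ha, ha'⟩ ⟨hb, hb'⟩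
        refine ⟨add_mem ha hb, ?_⟩
        have e : (⟨a + b, add_mem ha hb⟩ : Kn n) = ⟨a, ha⟩ + ⟨b, hb⟩ := rfl
        rw [e, map_add, hD.add, ha', hb', add_zero]
      zero_mem' := by
        refine ⟨zero_mem _, ?_⟩
        have e : (⟨0, zero_mem _⟩ : Kn n) = 0 := rfl
        rw [e, map_zero]
        exact hD.zero
      neg_mem' := by
        rintro a ⟨ha, ha'⟩
        refine ⟨neg_mem ha, ?_⟩
        have e : (⟨-a, neg_mem ha⟩ : Kn n) = -⟨a, ha⟩ := rfl
        have h1 := hD.sub 0 (algebraMap (Kn n) (An n) ⟨a, ha⟩)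
        rw [zero_sub, ha', hD.zero, sub_zero] at h1
        rw [e, map_neg, h1]
      inv_mem' := by
        rintro a ⟨ha, ha'⟩
        refine ⟨inv_mem ha, ?_⟩
        by_cases ha0 : a = 0
        · subst ha0
          have e : (⟨(0 : U)⁻¹, inv_mem ha⟩ : Kn n) = 0 := Subtype.ext (inv_zero)
          rw [e, map_zero]
          exact hD.zero
        · set c : Kn n := ⟨a, ha⟩ with hc0
          have hc1 : c ≠ 0 := fun h => ha0 (congrArg Subtype.val h)
          have e : (⟨a⁻¹, inv_mem ha⟩ : Kn n) = c⁻¹ := rfl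
          rw [e]
          have h1 := hD.mul (algebraMap (Kn n) (An n) c) (algebraMap (Kn n) (An n) c⁻¹)
          rw [← map_mul, mul_inv_cancel₀ hc1, map_one, ha', zero_mul, zero_add] at h1
          have h2 : D 1 = 0 := by
            have := hD.mul 1 1
            simpa using this
          rw [h2] at h1
          have h3 : algebraMap (Kn n) (An n) c ≠ 0 := by
            rwa [Ne, map_eq_zero]
          exact (mul_eq_zero.1 h1.symm).resolve_left h3 }
  have hle : newF F x ≤ W := by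
    refine sup_le (fun y hy => ⟨(Fact.out : F ≤ Kn n) hy, hD.alg ⟨y, hy⟩⟩) (Subfield.closure_le.2 ?_)
    intro y hy
    classical
    obtain ⟨i, -, rfl⟩ := Finset.mem_image.1 (Finset.mem_coe.1 hy)
    exact ⟨((minpoly (Kn n) x).coeff i).2, hz _ (hc i)⟩
  refine ⟨hD.add, hD.mul, fun r => ?_⟩
  obtain ⟨h, h'⟩ := hle r.2
  exact h'

/-- **B5**: `T(k+1)(X) ⊂ T_int(newF)`. -/
theorem smooth_new {n : ℕ} [Fact (F ≤ Kn n)] (X : Stt n) {a : ℕ → FreeAlgebra F (Fin 2)} {k : ℕ}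
    (h1 : (pt F n X a).τ 1 = 1) (hSm : Smooth (pt F n X a) k)
    {a' : ℕ → FreeAlgebra (newF F ((pt F n X a).β k)) (Fin 2)}
    (ha : ∀ i < k + 1, a' i = Transport.tr (a i)) :
    Smooth (pt (newF F ((pt F n X a).β k)) n X a') (k + 1) := by
  intro t ht
  have hs : SameTo (pt F n X a) (pt (newF F ((pt F n X a).β k)) n X a') (k + 1) := sameTo_pt n X ha
  rw [← hs.T_eq le_rfl] at ht
  obtain ⟨htk, ht0⟩ := (pt F n X a).mem_T_succ.1 ht
  obtain ⟨D, hD, hK, rfl⟩ := hSm _ htk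
  obtain ⟨d, hd⟩ := exists_derCoef hD.add hK
  have hc := (e_der_eq_zero_iff (pt F n X a) h1 hD hd k).1 ht0
  exact ⟨D, der_newF hD hd hc, hK, rfl⟩

/-- The value in `U` of a word at a state. -/
lemma coe_ev' {n : ℕ} [Fact (F ≤ Kn n)] (Z : Stt n) (a : FreeAlgebra F (Fin 2)) :
    ((State.ev Z a : An n) : U) = evU Z a := by
  unfold evU
  induction a using FreeAlgebra.induction with
  | grade0 r =>
    simp only [AlgHom.commutes]
    rfl
  | grade1 i => simp
  | mul a b ha hb => simp only [map_mul, ← ha, ← hb]; rfl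
  | add a b ha hb => simp only [map_add, ← ha, ← hb]; rfl

lemma above_le {a b : Σ n, Stt n} (h : Above a b) : a.1 ≤ b.1 := by
  induction h with
  | refl => exact le_rfl
  | tail _ hs ih =>
    cases hs
    exact Nat.le_succ_of_le ih

/-- `aeval` in `A n` and in `U`. -/
lemma coe_aeval_F {n : ℕ} [Fact (F ≤ Kn n)] (P : Polynomial F) (x : An n) :
    ((aeval x P : An n) : U) = aeval (x : U) P := by
  rw [aeval_eq_sum_range, aeval_eq_sum_range]
  have : ((∑ i ∈ Finset.range (P.natDegree + 1), P.coeff i • x ^ i : An n) : U) =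
      (An n).subtype (∑ i ∈ Finset.range (P.natDegree + 1), P.coeff i • x ^ i) := rfl
  rw [this, map_sum]
  refine Finset.sum_congr rfl fun i _ => ?_
  rw [Algebra.smul_def, map_mul, map_pow, Algebra.smul_def]
  rfl

/-- The frozen word is algebraic at all later states. -/
theorem algLater_of_frozen {F' : Subfield U} [CentF F'] {Ls' : Lst F'} {k₀ k : ℕ} (hk : k < k₀)
    {n₀ : ℕ} (ρ₀ : Stt n₀) {Q : Polynomial F'} (hQ0 : Q ≠ 0) (hQk : Ls'.Q k = Q)
    {b : FreeAlgebra F' (Fin 2)} (hab : Ls'.a k = b) : AlgLater F' n₀ ρ₀ k₀ Ls' b := by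
  refine ⟨Q, hQ0, fun F'' _ _ Ls'' m _ W k'' S₂ TT₂ hk' hC₂ hL₂ _ => ?_⟩
  have hkk : k < k'' := lt_of_lt_of_le hk hk'
  have hfr := (hC₂.valid.frozen k hkk).1
  have e1 : Ls''.Q k = Q.map (algebraMap F' F'') := by
    rw [hL₂.Q k hk, hQk]
  have e2 : Ls''.a k = Transport.tr b := by
    rw [hL₂.a k hk, hab]
  have e3 : (((pt F'' m W Ls''.a).β k : An m) : U) = evU W (Ls''.a k) := coe_ev' W (Ls''.a k)
  have h1 := congrArg (fun x : An m => (x : U)) hfr
  simp only [ZeroMemClass.coe_zero] at h1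
  rw [coe_aeval_F, e3, e1, e2, evU_tr] at h1
  have : @IsScalarTower F' F'' U (Algebra.toSMul) (Algebra.toSMul) (Algebra.toSMul) :=
    IsScalarTower.of_algebraMap_eq fun _ => rfl
  rwa [aeval_map_algebraMap] at h1

/-- **Case B of the exploration**: from a class state `Z`, an admissible pair with `Π t1 ≠ 0`, a fresh
exact level-up `X` and the numbers of the class at `X`. -/
theorem case_B (hS : AllS) (hK : KeyAll) (Ls : Lst F) (nρ : ℕ) [Fact (F ≤ Kn nρ)] (ρ : Stt nρ) (k : ℕ)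
    (Sρ : ℕ → Set (An nρ)) (TTρ : Submodule (Kn nρ) (Fin 2 → An nρ)) (h : Ctx F Ls nρ ρ k k Sρ TTρ)
    (n : ℕ) [Fact (F ≤ Kn n)] (Z : Stt n) (hZ : InC Ls k ⟨nρ, ρ⟩ n Z)
    (t1 t2 : Fin 2 → An n)
    (hA : Adm (pt F n Z Ls.a) k ((pt F n Z Ls.a).T k) t1 t2)
    (hy0 : (pt F n Z Ls.a).e k ((pt F n Z Ls.a).dL k t1) ≠ 0)
    (honto : ∀ z ∈ (pt F n Z Ls.a).Mov k, ∃ τ₀ ∈ (pt F n Z Ls.a).T k,
      (pt F n Z Ls.a).e k ((pt F n Z Ls.a).dL k τ₀) = z ∧ ∀ c ∈ (pt F n Z Ls.a).KK k,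
        (pt F n Z Ls.a).PP k c t1 τ₀ = 0 ∧ (pt F n Z Ls.a).PP k c t2 τ₀ = 0)
    (X : Stt (n + 1)) (g : ℕ → An (n + 1)) (TTX : Submodule (Kn (n + 1)) (Fin 2 → An (n + 1)))
    (hPS : ∀ J, (lv n).lev.PSol (pt F n Z Ls.a) k J t1 t2 X g)
    (hFr : Fresh F Ls n Z k t1 t2 ((pt F n Z Ls.a).T k) X TTX)
    -- the numbers at `X`
    (hdeg : finrank (Kn (n + 1)) (Algebra.adjoin (Kn (n + 1)) {(pt F (n + 1) X Ls.a).β k}) ≤
      (lv n).m * finrank (Kn n) (Algebra.adjoin (Kn n) {(pt F n Z Ls.a).β k}))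
    (hdim : finrank (Kn (n + 1)) ((pt F (n + 1) X Ls.a).Mov k) ≤
      ((lv n).m - 1) * finrank (Kn n) ↥((pt F n Z Ls.a).Mov k ⊔
        ((pt F n Z Ls.a).Mov k).map (LinearMap.mulLeft (Kn n)
          (((pt F n Z Ls.a).e k ((pt F n Z Ls.a).dL k t1))⁻¹ *
            (pt F n Z Ls.a).e k ((pt F n Z Ls.a).dL k t2)))) +
      finrank (Kn n) ((pt F n Z Ls.a).Mov k))
    (hLy : ∀ y' ∈ (pt F (n + 1) X Ls.a).Mov k, y' ≠ 0 →
      finrank (Kn (n + 1)) (Ly (pt F (n + 1) X Ls.a) k y') ≤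
      (lv n).m * finrank (Kn n) ↥((pt F n Z Ls.a).Mov k ⊔
        ((pt F n Z Ls.a).Mov k).map (LinearMap.mulLeft (Kn n)
          (((pt F n Z Ls.a).e k ((pt F n Z Ls.a).dL k t1))⁻¹ *
            (pt F n Z Ls.a).e k ((pt F n Z Ls.a).dL k t2)))))
    (hne : (pt F (n + 1) X Ls.a).Mov k ≠ ⊥)
    (hn : minN Ls k ⟨nρ, ρ⟩ * finrank (Kn (n + 1))
      (Algebra.adjoin (Kn (n + 1)) {(pt F (n + 1) X Ls.a).β k}) = N (n + 1))
    (hσ : ∀ y' ∈ (pt F (n + 1) X Ls.a).Mov k, y' ≠ 0 →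
      minS Ls k ⟨nρ, ρ⟩ * finrank (Kn (n + 1)) (Ly (pt F (n + 1) X Ls.a) k y') = N (n + 1))
    (hq : ∀ y' ∈ (pt F (n + 1) X Ls.a).Mov k, y' ≠ 0 →
      finrank (Kn (n + 1)) (Ly (pt F (n + 1) X Ls.a) k y') ≤
        finrank (Kn (n + 1)) ((pt F (n + 1) X Ls.a).Mov k) + minQ Ls k ⟨nρ, ρ⟩)
    (hqs : 3 * minQ Ls k ⟨nρ, ρ⟩ < N (n + 1) / minS Ls k ⟨nρ, ρ⟩)
    (hqb : minQ Ls k ⟨nρ, ρ⟩ ≤ N n ^ 2) :
    ExploreConcl F Ls nρ ρ k (Ls.a k) := by
  classical
  obtain ⟨S, hC⟩ := hZ.ctx h.above h.opt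
  have hVal := (hS F k).2 k le_rfl
  obtain ⟨S', hV', -, -, -, hlast⟩ := hVal Ls n Z k S _ _ hC t1 t2 hA le_rfl le_rfl X g TTX hPS hFr
  obtain ⟨hSm', -⟩ := hlast rfl rfl
  set β := (pt F (n + 1) X Ls.a).β k with hβ
  obtain ⟨Q, hQ⟩ := exists_Q (F := F) β
  let Ls' : Lst (newF F β) :=
    { a := fun u => Transport.tr (Ls.a u)
      Q := Function.update (fun u => (Ls.Q u).map (algebraMap F (newF F β))) k Q
      R := Function.update Ls.R k (minRec Ls k ⟨nρ, ρ⟩)
      Z0 := Function.update Ls.Z0 k ⟨nρ, ρ⟩ }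
  have hL : ListAgree Ls Ls' k :=
    ⟨fun _ _ => rfl,
      fun u hu => Function.update_of_ne (Nat.ne_of_lt hu) Q
        (fun u => (Ls.Q u).map (algebraMap F (newF F β))),
      fun u hu => Function.update_of_ne (Nat.ne_of_lt hu) (minRec Ls k ⟨nρ, ρ⟩) Ls.R,
      fun u hu => Function.update_of_ne (Nat.ne_of_lt hu) ⟨nρ, ρ⟩ Ls.Z0⟩
  have hQk : Ls'.Q k = Q :=
    Function.update_self k Q (fun u => (Ls.Q u).map (algebraMap F (newF F β)))
  have hRk : Ls'.R k = minRec Ls k ⟨nρ, ρ⟩ := Function.update_self k _ Ls.R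
  have hZk : Ls'.Z0 k = ⟨nρ, ρ⟩ := Function.update_self k _ Ls.Z0
  have hs : SameTo (pt F (n + 1) X Ls.a) (pt (newF F β) (n + 1) X Ls'.a) (k + 1) :=
    sameTo_pt (n + 1) X (a := Ls.a) (a' := Ls'.a) fun _ _ => rfl
  have hSmF : Smooth (pt (newF F β) (n + 1) X Ls'.a) (k + 1) :=
    smooth_new X hV'.one hSm' (a' := Ls'.a) fun _ _ => rfl
  have hfr := aeval_frozen hQ
  have hβ' : (pt (newF F β) (n + 1) X Ls'.a).β k = β := (hs.β k (Nat.lt_succ_self k)).symm
  have hup : UpStep ⟨n, Z⟩ ⟨n + 1, X⟩ := by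
    refine UpStep.mk n Z X fun v => ?_
    have a1 := (lv n).lev.Φ.anti (Nat.le_succ 1) ((hPS 0).leadX v)
    have a2 := (lv n).lev.mono_mem (t1 v) 0 1
    have a3 := (lv n).lev.mono_mem (t2 v) (lv n).lev.μ₁ 1
    have := add_mem (add_mem a1 a2) a3
    convert this using 1
    abel
  have hab : Above ⟨nρ, ρ⟩ ⟨n + 1, X⟩ := Relation.ReflTransGen.tail hZ.above hup
  have habove : ∀ u < k + 1, Above (Ls'.Z0 u) ⟨n + 1, X⟩ := by
    intro u hu
    rcases Nat.lt_succ_iff_lt_or_eq.1 hu with hu | rfl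
    · rw [hL.Z0 u hu]
      exact (h.above u hu).trans hab
    · rw [hZk]
      exact hab
  have hopt : ∀ u < k + 1, Opt (newF F β) Ls' u := by
    intro u hu
    rcases Nat.lt_succ_iff_lt_or_eq.1 hu with hu | rfl
    · exact opt_up (hL.mono hu) (h.opt u hu)
    · exact opt_new hL rfl hZk hRk
  obtain ⟨S'', hV''⟩ := freeze_valid k hVal (hS (newF F β) k).1 (hK (newF F β) k) Ls Ls' hL rfl n Z S hC
    hZ.smooth t1 t2 hA hy0 honto X g TTX hPS hFr hdeg hdim hLy hne (by rw [hRk]; exact hn)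
    (by rw [hRk]; exact hσ) (by rw [hRk]; exact hq) (by rw [hRk]; exact hqs) (by rw [hRk]; exact hqb)
    (by rw [hβ', hQk]; exact hfr) hSmF habove hopt
  have hlt : nρ < n + 1 := Nat.lt_succ_of_le (above_le hZ.above)
  have hQ0 : Q ≠ 0 := by
    rintro rfl
    rw [Polynomial.map_zero] at hQ
    exact minpoly.ne_zero (IsIntegral.of_finite _ _) hQ.symm
  exact ⟨newF F β, inferInstance, inferInstance, coefS β, rfl, Ls', n + 1, inferInstance, X, k + 1, S'',
    _, hlt, Nat.le_succ k, hab, ⟨hV'', habove, hopt⟩, hL,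
    algLater_of_frozen (Nat.lt_succ_self k) X hQ0 hQk rfl⟩

end Crest.Agent.Kurosh.Freeze
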