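/-
S0270 (helper41): leaf (I) of the lifting test: the multiplier `μ` of (E4) and (K1), the pairings of
`Mov_l` with `C(F_y)`.
-/
import Crest.Agent.Kurosh.Inv
import Crest.Agent.Kurosh.CentFactsB
import Crest.Agent.Kurosh.StateII

set_option autoImplicit false
set_option linter.unusedSectionVars false

namespace Crest.Agent.Kurosh.LiftE4

open Module
open _root_.Crest.Agent.Kurosh.Inv
open _root_.Crest.Agent.Kurosh.Inv.St
open _root_.Crest.Agent.Kurosh.CentFactsB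
open _root_.Crest.Agent.Kurosh.DoubleCent

section Abstract

variable {K A : Type*} [Field K] [DivisionRing A] [Algebra K A] [FiniteDimensional K A]

/-- The multiplier lemma for a subspace of a commutative subalgebra of `A`. -/
theorem multiplier_sub [Infinite K] (L : Subalgebra K A) (hL : ∀ x ∈ L, ∀ x' ∈ L, x * x' = x' * x)
    (A0 : Submodule K A) (hA0 : A0 ≤ Subalgebra.toSubmodule L)
    (h : 2 * (finrank K L - finrank K A0) < finrank K A0) :
    ∃ μ ∈ A0, ∀ ℓ ∈ L, ∃ a ∈ A0, ∃ b ∈ A0, ℓ = a + μ * b := by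
  let FL : Field L := fieldOfSubalgebra L hL
  let A1 : Submodule K L := A0.comap (Subalgebra.toSubmodule L).subtype
  have hd : finrank K A1 = finrank K A0 := (Submodule.comapSubtypeEquivOfLe hA0).finrank_eq
  obtain ⟨⟨μ, hμ⟩, hsup⟩ := Rank.exists_multiplier A1 (by rw [hd]; exact h)
  refine ⟨(μ : A), hμ, fun ℓ hℓ => ?_⟩
  have hm : (⟨ℓ, hℓ⟩ : L) ∈ A1 ⊔ A1.map (LinearMap.mulLeft K μ) := by rw [hsup]; trivial
  obtain ⟨a, ha, b, ⟨c, hc, rfl⟩, hab⟩ := Submodule.mem_sup.1 hm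
  refine ⟨(a : A), ha, (c : A), hc, ?_⟩
  exact (congrArg Subtype.val hab).symm

end Abstract

variable {F K A : Type*} [Field F] [Field K] [DivisionRing A] [Algebra F K] [Algebra K A]
  [Algebra F A] [IsScalarTower F K A] [FiniteDimensional K A] (P : State.Pt F K A (Fin 2))

/-- `F_y` is commutative. -/
lemma Fy_comm {l : ℕ} {y : A} (hy : y ∈ P.Mov l) :
    ∀ x ∈ Fy P l y, ∀ x' ∈ Fy P l y, x * x' = x' * x := by
  have hβy : P.β l * y = y * P.β l := State.mem_cent.1 (P.Mov_le_cent l hy)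
  have hgen : ∀ a ∈ ({P.β l, y} : Set A), ∀ b ∈ ({P.β l, y} : Set A), a * b = b * a := by
    rintro a (rfl | rfl) b (rfl | rfl)
    · rfl
    · exact hβy
    · exact hβy.symm
    · rfl
  have := Algebra.isMulCommutative_adjoin K hgen
  intro x hx x' hx'
  exact congrArg Subtype.val (mul_comm' (⟨x, hx⟩ : Algebra.adjoin K {P.β l, y}) ⟨x', hx'⟩)

lemma y_mem_Fy (l : ℕ) (y : A) : y ∈ Fy P l y := Algebra.subset_adjoin (by simp)

lemma beta_mem_Fy (l : ℕ) (y : A) : P.β l ∈ Fy P l y := Algebra.subset_adjoin (by simp)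

lemma Ay_le_Fy (l : ℕ) (y : A) : Ay P l y ≤ Subalgebra.toSubmodule (Fy P l y) := fun _ hf => hf.1

/-- `𝔏_y ≤ F_y`. -/
lemma Ly_le_Fy (l : ℕ) (y : A) : Ly P l y ≤ Fy P l y := by
  refine Algebra.adjoin_le ?_
  rintro _ ⟨x, hx, rfl⟩
  exact (Fy P l y).mul_mem (inv_mem_subalgebra _ (y_mem_Fy P l y)) (Ay_le_Fy P l y hx)

/-- (E4) the multiplier. -/
theorem exists_mu [Infinite K] (h1 : P.τ 1 = 1) {N : ℕ} {r : Rec} {l : ℕ} {y : A}
    (hg : Good P N r l y) (hq : 3 * r.q < N / r.σ) :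
    ∃ μ ∈ Ly P l y, y * μ ∈ Ay P l y ∧
      ∀ ℓ ∈ Ly P l y, ∃ a ∈ Ay P l y, ∃ a' ∈ Ay P l y, y * ℓ = a + a' * μ := by
  have hy0 : y ≠ 0 := hg.ne
  have hcF := Fy_comm P hg.mem
  have hcL : ∀ x ∈ Ly P l y, ∀ x' ∈ Ly P l y, x * x' = x' * x := fun x hx x' hx' =>
    hcF x (Ly_le_Fy P l y hx) x' (Ly_le_Fy P l y hx')
  let A0 : Submodule K A := (Ay P l y).map (LinearMap.mulLeft K y⁻¹)
  have hinj : Function.Injective (LinearMap.mulLeft K y⁻¹ : A →ₗ[K] A) := by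
    intro a b hab
    have hab' : y⁻¹ * a = y⁻¹ * b := hab
    exact mul_left_cancel₀ (inv_ne_zero hy0) hab'
  have hd : finrank K A0 = finrank K (Ay P l y) :=
    (Submodule.equivMapOfInjective _ hinj (Ay P l y)).finrank_eq.symm
  have hA0 : A0 ≤ Subalgebra.toSubmodule (Ly P l y) := by
    rintro _ ⟨x, hx, rfl⟩
    exact Algebra.subset_adjoin ⟨x, hx, rfl⟩
  have hdL := hg.dimL
  have hdA := hg.dimA
  obtain ⟨μ, hμ, hsp⟩ := multiplier_sub (Ly P l y) hcL A0 hA0 (by rw [hd, hdL]; omega)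
  refine ⟨μ, hA0 hμ, ?_, fun ℓ hℓ => ?_⟩
  · obtain ⟨x, hx, rfl⟩ := hμ
    show y * (y⁻¹ * x) ∈ Ay P l y
    rwa [mul_inv_cancel_left₀ hy0]
  · obtain ⟨a, ⟨x, hx, rfl⟩, b, ⟨x', hx', rfl⟩, rfl⟩ := hsp ℓ hℓ
    refine ⟨x, hx, x', hx', ?_⟩
    show y * (y⁻¹ * x + μ * (y⁻¹ * x')) = x + x' * μ
    have hx'L : y⁻¹ * x' ∈ Ly P l y := Algebra.subset_adjoin ⟨x', hx', rfl⟩
    rw [hcL μ (hA0 hμ) _ hx'L, mul_add, mul_inv_cancel_left₀ hy0, mul_assoc, mul_inv_cancel_left₀ hy0]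

/-- (K1) pairings of `Mov_l` with `C(F_y)`. `hK` is the first clause of `KeyS`. -/
theorem pair_centralizer (h1 : P.τ 1 = 1) {N : ℕ} {r : Rec} {l : ℕ} {y : A} (hg : Good P N r l y)
    (hK : ∀ p ∈ PPy P l y, ∀ z ∈ P.Mov l, P.τ (p * z) = 0)
    {a z : A} (ha : a ∈ Fy P l y) (hz : z ∈ P.Mov l) (hp : ∀ f ∈ Fy P l y, P.τ (a * f) = P.τ (z * f))
    (q : A) (hq : q ∈ Subalgebra.centralizer K (Fy P l y : Set A)) : P.τ (a * q) = P.τ (z * q) := by
  have hc := P.τ_comm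
  have hcF := Fy_comm P hg.mem
  set C : Subalgebra K A := Subalgebra.centralizer K (Fy P l y : Set A) with hC
  have hmemC : ∀ {s : A}, s ∈ C → ∀ f ∈ Fy P l y, f * s = s * f := by
    intro s hs f hf
    exact (Subalgebra.mem_centralizer_iff K).1 hs f hf
  have hFC : Fy P l y ≤ C := by
    intro x hx
    refine (Subalgebra.mem_centralizer_iff K).2 fun f hf => ?_
    exact hcF f hf x hx
  set z' : A := proj h1 hc C z with hz'def
  let V : Submodule K A := (Subalgebra.toSubmodule (Ly P l y)).map (LinearMap.mulLeft K y)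
  have hVF : V ≤ Subalgebra.toSubmodule (Fy P l y) := by
    rintro _ ⟨x, hx, rfl⟩
    exact (Fy P l y).mul_mem (y_mem_Fy P l y) (Ly_le_Fy P l y hx)
  have hV : V ≤ Subalgebra.toSubmodule C := fun x hx => hFC (hVF hx)
  have hz'm : z' ∈ orth P.τ (orth P.τ V ⊓ Subalgebra.toSubmodule C) ⊓ Subalgebra.toSubmodule C := by
    refine ⟨(mem_orth P.τ).2 fun s hs => ?_, proj_mem h1 hc C z⟩
    have hsC : s ∈ C := hs.2
    rw [hz'def, tau_mul_proj h1 hc C hsC z]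
    refine hK s ⟨?_, ?_, fun f hf => ?_⟩ z hz
    · exact (hmemC hsC _ (beta_mem_Fy P l y)).symm
    · exact (hmemC hsC _ (y_mem_Fy P l y)).symm
    · have := (mem_orth P.τ).1 hs.1 (y * f) ⟨f, hf, rfl⟩
      rw [hc]
      exact this
  rw [perp_in_perp_in h1 hc C V hV] at hz'm
  have hz'F : z' ∈ Fy P l y := hVF hz'm
  have hz'a : z' = a := by
    refine sub_eq_zero.1 (eq_zero_of_orth h1 (Fy P l y) (sub_mem hz'F ha) fun f hf => ?_)
    rw [mul_sub, map_sub, hz'def, tau_mul_proj h1 hc C (hFC hf) z, hc f z, hc f a, hp f hf, sub_self]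
  rw [← hz'a, hz'def]
  exact tau_proj_mul h1 hc C hq z

end Crest.Agent.Kurosh.LiftE4
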