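/-
S0270 (Kurosh), §K, Case B of the exploration (helper19): `caseB : CaseBS`.
`exists_A3` gives `Z*`; (E4) `exists_mu_indep` the multiplier; (E3) `exists_adm_presc` the pair; `A2_step` the
fresh level-up `X`; the numbers at `X` from `LeadOut.count` and the class bound; `Freeze.case_B` concludes.
-/
import Crest.Agent.Kurosh.ExClass
import Crest.Agent.Kurosh.Freeze2
import Crest.Agent.Kurosh.LiftE4
import Crest.Agent.Kurosh.ExploreFinal

set_option autoImplicit false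
set_option linter.unusedSectionVars false

namespace Crest.Agent.Kurosh.Explore

open Hensel State Module LU LU.Tw0 LU.Tw Plan Transport
open _root_.Crest.Agent.Kurosh.Inv
open _root_.Crest.Agent.Kurosh.Inv.St

section Abs

variable {F₀ K A : Type*} [Field F₀] [Field K] [DivisionRing A] [Algebra F₀ K] [Algebra K A]
  [Algebra F₀ A] [IsScalarTower F₀ K A] [FiniteDimensional K A] {P : Pt F₀ K A (Fin 2)} {k : ℕ}

/-- `dim Mov ≤ dim 𝔏`. -/
lemma finrank_Mov_le_Ly (h1 : P.τ 1 = 1)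
    (hM : P.Mov k ≤ Subalgebra.toSubmodule (Algebra.adjoin K {P.β k})) {y : A} (hy : y ∈ P.Mov k)
    (hy0 : y ≠ 0) : finrank K (P.Mov k) ≤ finrank K (Ly P k y) := by
  have hinj : Function.Injective (LinearMap.mulLeft K y⁻¹ : A →ₗ[K] A) := fun a b hab =>
    mul_left_cancel₀ (inv_ne_zero hy0) hab
  have e := (Submodule.equivMapOfInjective _ hinj (P.Mov k)).finrank_eq
  rw [e]
  refine Submodule.finrank_mono (t := Subalgebra.toSubmodule (Ly P k y)) ?_
  rintro _ ⟨z, hz, rfl⟩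
  exact inv_mul_mem_Ly P h1 hM hy hz

/-- (E4) The multiplier, non scalar when `dim Mov ≥ 2`. -/
theorem exists_mu_indep [Infinite K] (h1 : P.τ 1 = 1)
    (hM : P.Mov k ≤ Subalgebra.toSubmodule (Algebra.adjoin K {P.β k})) {y : A} (hy : y ∈ P.Mov k)
    (hy0 : y ≠ 0) (hq : 3 * (finrank K (Ly P k y) - finrank K (P.Mov k)) < finrank K (Ly P k y)) :
    ∃ μ, y * μ ∈ P.Mov k ∧
      finrank K (Ly P k y) ≤ finrank K ↥(P.Mov k ⊔ (P.Mov k).map (LinearMap.mulLeft K μ)) ∧
      ((∀ a b : K, a • y + b • (y * μ) = 0 → a = 0 ∧ b = 0) ∨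
        (y * μ = 0 ∧ finrank K (P.Mov k) = 1)) := by
  classical
  have hd := finrank_Mov_le_Ly h1 hM hy hy0
  have hle : ∀ μ : A, finrank K (P.Mov k) ≤
      finrank K ↥(P.Mov k ⊔ (P.Mov k).map (LinearMap.mulLeft K μ)) := fun μ =>
    Submodule.finrank_mono le_sup_left
  have hpos : 0 < finrank K (P.Mov k) := by
    refine Nat.pos_of_ne_zero fun h0 => hy0 ?_
    have h2 := Submodule.finrank_eq_zero.1 h0
    rw [h2, Submodule.mem_bot] at hy
    exact hy
  by_cases hd1 : finrank K (P.Mov k) = 1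
  · refine ⟨0, by rw [mul_zero]; exact zero_mem _, ?_, Or.inr ⟨mul_zero y, hd1⟩⟩
    have := hle 0
    omega
  -- the multiplier lemma
  have hcL : ∀ x ∈ Ly P k y, ∀ x' ∈ Ly P k y, x * x' = x' * x := fun x hx x' hx' =>
    LiftE4.Fy_comm P hy x (LiftE4.Ly_le_Fy P k y hx) x' (LiftE4.Ly_le_Fy P k y hx')
  let A0 : Submodule K A := (P.Mov k).map (LinearMap.mulLeft K y⁻¹)
  have hinj : Function.Injective (LinearMap.mulLeft K y⁻¹ : A →ₗ[K] A) := fun a b hab =>
    mul_left_cancel₀ (inv_ne_zero hy0) hab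
  have hA0d : finrank K A0 = finrank K (P.Mov k) :=
    (Submodule.equivMapOfInjective _ hinj (P.Mov k)).finrank_eq.symm
  have hA0 : A0 ≤ Subalgebra.toSubmodule (Ly P k y) := by
    rintro _ ⟨z, hz, rfl⟩
    exact inv_mul_mem_Ly P h1 hM hy hz
  obtain ⟨μ₀, hμ₀, hsp⟩ := LiftE4.multiplier_sub (Ly P k y) hcL A0 hA0 (by rw [hA0d]; omega)
  by_cases hsc : ∃ c : K, μ₀ = algebraMap K A c
  · -- a scalar multiplier: `Mov = y 𝔏`
    obtain ⟨c, rfl⟩ := hsc
    have hall : Subalgebra.toSubmodule (Ly P k y) ≤ A0 := by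
      intro ℓ hℓ
      obtain ⟨a, ha, b, hb, e⟩ := hsp ℓ hℓ
      rw [e, ← Algebra.smul_def]
      exact add_mem ha (A0.smul_mem _ hb)
    have hdim : finrank K (Ly P k y) ≤ finrank K (P.Mov k) := by
      rw [← hA0d]
      exact Submodule.finrank_mono hall
    -- a second element
    have hlt : Submodule.span K {y} < P.Mov k := by
      refine lt_of_le_of_ne ((Submodule.span_singleton_le_iff_mem _ _).2 hy) fun he => hd1 ?_
      rw [← he]
      exact finrank_span_singleton hy0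
    obtain ⟨z, hz, hzn⟩ := SetLike.exists_of_lt hlt
    refine ⟨y⁻¹ * z, by rwa [mul_inv_cancel_left₀ hy0], hdim.trans (hle _), Or.inl ?_⟩
    intro a b hab
    rw [mul_inv_cancel_left₀ hy0] at hab
    by_cases hb : b = 0
    · subst hb
      rw [zero_smul, add_zero] at hab
      exact ⟨(smul_eq_zero.1 hab).resolve_right hy0, rfl⟩
    · exfalso
      apply hzn
      have h2 : z = (-(b⁻¹ * a)) • y := by
        have h3 : b • z = (-a) • y := by
          rw [neg_smul]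
          exact eq_neg_of_add_eq_zero_right hab
        have := congrArg (fun w => b⁻¹ • w) h3
        simp only [smul_smul, inv_mul_cancel₀ hb, one_smul] at this
        rw [this, mul_neg, neg_smul]
      rw [h2]
      exact Submodule.smul_mem _ _ (Submodule.mem_span_singleton_self y)
  · -- a non scalar multiplier
    have hμL : μ₀ ∈ Ly P k y := hA0 hμ₀
    have hyF : y ∈ Fy P k y := LiftE4.y_mem_Fy P k y
    have hμF : μ₀ ∈ Fy P k y := LiftE4.Ly_le_Fy P k y hμL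
    have hyμ : y * μ₀ = μ₀ * y := LiftE4.Fy_comm P hy y hyF μ₀ hμF
    obtain ⟨x₀, hx₀, rfl⟩ := hμ₀
    have hx₀' : y⁻¹ * x₀ = (LinearMap.mulLeft K y⁻¹ : A →ₗ[K] A) x₀ := rfl
    refine ⟨(LinearMap.mulLeft K y⁻¹ : A →ₗ[K] A) x₀, ?_, ?_, Or.inl ?_⟩
    · rw [← hx₀', mul_inv_cancel_left₀ hy0]
      exact hx₀
    · -- `y 𝔏 ⊂ Mov + μ Mov`
      have e := (Submodule.equivMapOfInjective (LinearMap.mulLeft K y)
        (fun a b hab => mul_left_cancel₀ hy0 hab) (Subalgebra.toSubmodule (Ly P k y))).finrank_eq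
      have e' : finrank K (Subalgebra.toSubmodule (Ly P k y)) = finrank K (Ly P k y) := rfl
      rw [← e', e]
      refine Submodule.finrank_mono ?_
      rintro _ ⟨ℓ, hℓ, rfl⟩
      obtain ⟨_, ⟨x, hx, rfl⟩, _, ⟨x', hx', rfl⟩, e2⟩ := hsp ℓ hℓ
      have hℓe : (LinearMap.mulLeft K y : A →ₗ[K] A) ℓ = y * ℓ := rfl
      rw [hℓe, e2, mul_add]
      refine add_mem (Submodule.mem_sup_left ?_) (Submodule.mem_sup_right ?_)
      · show y * (y⁻¹ * x) ∈ _
        rwa [mul_inv_cancel_left₀ hy0]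
      · refine ⟨x', hx', ?_⟩
        show ((LinearMap.mulLeft K y⁻¹ : A →ₗ[K] A) x₀) * x' =
          y * (((LinearMap.mulLeft K y⁻¹ : A →ₗ[K] A) x₀) * ((LinearMap.mulLeft K y⁻¹ : A →ₗ[K] A) x'))
        rw [← mul_assoc, hyμ, mul_assoc]
        congr 1
        show x' = y * (y⁻¹ * x')
        rw [mul_inv_cancel_left₀ hy0]
    · intro a b hab
      by_cases hb : b = 0
      · subst hb
        rw [zero_smul, add_zero] at hab
        exact ⟨(smul_eq_zero.1 hab).resolve_right hy0, rfl⟩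
      · exfalso
        apply hsc
        refine ⟨b⁻¹ * -a, ?_⟩
        have h3 : b • (y * (LinearMap.mulLeft K y⁻¹ : A →ₗ[K] A) x₀) = (-a) • y := by
          rw [neg_smul]
          exact eq_neg_of_add_eq_zero_right hab
        have h4 := congrArg (fun w => b⁻¹ • w) h3
        simp only [smul_smul, inv_mul_cancel₀ hb, one_smul] at h4
        have h5 := congrArg (fun w => y⁻¹ * w) h4
        simp only [inv_mul_cancel_left₀ hy0, mul_smul_comm, inv_mul_cancel₀ hy0] at h5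
        rw [h5, Algebra.smul_def, mul_one]

end Abs

section Main

variable [Tw0] [Tw]

/-- **Case B of the exploration.** -/
theorem caseB (hS : AllS) (hK : KeyAll) (hF : FreshS) : CaseBS := by
  intro F _ Ls n _ ρ k S TT h hex
  classical
  have hZ0 : ∀ u < k, Above (Ls.Z0 u) ⟨n, ρ⟩ := h.above
  have hO : ∀ u < k, Opt F Ls u := h.opt
  obtain ⟨n', hn', Z, y, hA2, hy, hy0, hRC, hmin⟩ := exists_A3 hS hF hZ0 hO hex
  obtain ⟨S0, hV0⟩ := hA2.inC.valid
  have hMZ := hA2.inC.mov_le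
  have h1Z := hA2.inC.h1
  obtain ⟨μ, hμ1, hD, hind⟩ := exists_mu_indep h1Z hMZ hy hy0 hRC.1
  obtain ⟨t1, t2, hA, e1, e2, hs⟩ := ExploreLin.exists_adm_presc _ hV0 hRC.2 hy hμ1 hy0 hind
  have hy1 : (pt F n' Z Ls.a).e k ((pt F n' Z Ls.a).dL k t1) ≠ 0 := by rw [e1]; exact hy0
  have honto : ∀ z ∈ (pt F n' Z Ls.a).Mov k, ∃ τ₀ ∈ (pt F n' Z Ls.a).T k,
      (pt F n' Z Ls.a).e k ((pt F n' Z Ls.a).dL k τ₀) = z ∧ ∀ c ∈ (pt F n' Z Ls.a).KK k,
        (pt F n' Z Ls.a).PP k c t1 τ₀ = 0 ∧ (pt F n' Z Ls.a).PP k c t2 τ₀ = 0 := fun z hz =>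
    ExploreLin.exists_T0_presc _ hA.mem1 hA.mem2 hs hz
  obtain ⟨X, g, S', hOut, hVO⟩ := A2_step hS hF hZ0 hO hA2 hV0 hA hy1
  have eμ : ((pt F n' Z Ls.a).e k ((pt F n' Z Ls.a).dL k t1))⁻¹ *
      (pt F n' Z Ls.a).e k ((pt F n' Z Ls.a).dL k t2) = μ := by
    rw [e1, e2, inv_mul_cancel_left₀ hy0]
  -- the numbers
  set m := (lv n').m with hm
  set l := finrank (Kn n') (Ly (pt F n' Z Ls.a) k y) with hl
  set d := finrank (Kn n') ((pt F n' Z Ls.a).Mov k) with hd
  set D := finrank (Kn n') ↥((pt F n' Z Ls.a).Mov k ⊔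
    ((pt F n' Z Ls.a).Mov k).map (LinearMap.mulLeft (Kn n') μ)) with hDdef
  have hdl : d ≤ l := finrank_Mov_le_Ly h1Z hMZ hy hy0
  have hlN : l ≤ N n' := Nat.le_of_dvd (N_pos n') (hA2.inC.ly_dvd hy)
  have hmbig : 100 * N n' ^ 2 + 100 ≤ m := m_big n'
  have hm1 : 1 ≤ m := by omega
  have hq3 : 3 * (l - d) < l := hRC.1
  have hl1 : 1 ≤ l := by
    have := Module.finrank_pos (R := Kn n') (M := Ly (pt F n' Z Ls.a) k y)
    exact this
  -- the lower bound for `Mov_X`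
  obtain ⟨V, hsum, hV0r, hT0⟩ := hOut.lead.count hOut.deg_eq.le
  have hT := hT0 honto
  rw [eμ] at hT
  rw [← hm] at hsum
  have hlow : (m - 1) * D + d ≤ finrank (Kn (n' + 1)) ((pt F (n' + 1) X Ls.a).Mov k) := by
    refine le_trans ?_ hsum
    obtain ⟨m', hm'⟩ : ∃ m', m = m' + 1 := ⟨m - 1, by omega⟩
    rw [hm', Finset.sum_range_succ', Nat.add_sub_cancel]
    have hV00 : d ≤ finrank (Kn n') (V 0) :=
      Submodule.finrank_mono (hV0r 0 (by omega) (by omega))
    have hVr : ∀ r ∈ Finset.range m', D ≤ finrank (Kn n') (V (r + 1)) := by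
      intro r hr
      have hr' := Finset.mem_range.1 hr
      refine Submodule.finrank_mono (sup_le (fun z hz => ?_) ?_)
      · have := hT (r + 1) (by omega) 0 (Nat.zero_le _) (by omega) z hz
        rwa [pow_zero, mul_one] at this
      · rintro _ ⟨z, hz, rfl⟩
        have h2 := hT (r + 1) (by omega) 1 (by omega) (by omega) z hz
        rw [pow_one] at h2
        have hμF : μ ∈ Algebra.adjoin (Kn n') {(pt F n' Z Ls.a).β k} := by
          have e3 : μ = y⁻¹ * (y * μ) := by rw [inv_mul_cancel_left₀ hy0]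
          rw [e3]
          exact mul_mem (inv_mem_sub _ (hMZ hy)) (hMZ hμ1)
        have h3 := ExLead.E_comm (K := Kn n') _ hμF _ (hMZ hz)
        show μ * z ∈ _
        rwa [h3]
    have h5 := Finset.sum_le_sum hVr
    rw [Finset.sum_const, Finset.card_range, smul_eq_mul] at h5
    omega
  have hDl : l ≤ D := hD
  have hlow' : (m - 1) * l + d ≤ finrank (Kn (n' + 1)) ((pt F (n' + 1) X Ls.a).Mov k) :=
    le_trans (Nat.add_le_add_right (Nat.mul_le_mul_left _ hDl) _) hlow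
  have hml : (m - 1) * l + l = m * l := by
    obtain ⟨m', hm'⟩ : ∃ m', m = m' + 1 := ⟨m - 1, by omega⟩
    rw [hm', Nat.add_sub_cancel]
    ring
  -- `𝔏` at `X`
  have hdimL : ∀ y' ∈ (pt F (n' + 1) X Ls.a).Mov k, y' ≠ 0 →
      finrank (Kn (n' + 1)) (Ly (pt F (n' + 1) X Ls.a) k y') = m * l := by
    intro y' hy' hy'0
    have h1 := hOut.a2.ly y' hy' hy'0
    have h2 := hA2.ly y hy hy0
    have hpos : 0 < minS Ls k ⟨n, ρ⟩ := by
      have h0 := N_pos n'
      rw [← h2] at h0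
      exact Nat.pos_of_mul_pos_right h0 |> fun h => h
    refine Nat.eq_of_mul_eq_mul_left hpos ?_
    rw [h1, N_succ, ← h2]
    ring
  have hq' : ∀ y' ∈ (pt F (n' + 1) X Ls.a).Mov k, y' ≠ 0 →
      finrank (Kn (n' + 1)) (Ly (pt F (n' + 1) X Ls.a) k y') ≤
        finrank (Kn (n' + 1)) ((pt F (n' + 1) X Ls.a).Mov k) + minQ Ls k ⟨n, ρ⟩ := by
    intro y' hy' hy'0
    rw [hdimL y' hy' hy'0, hmin, ← hml]
    omega
  -- the upper bound for `Mov_X`
  have hup : finrank (Kn (n' + 1)) ((pt F (n' + 1) X Ls.a).Mov k) ≤ (m - 1) * D + d := by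
    obtain ⟨y', hy', hy'0⟩ := Submodule.exists_mem_ne_zero_of_ne_bot hOut.a2.ne
    have hCB := (cb_of_class hOut.a2.inC) y' hy' hy'0
    rw [Function.update_self] at hCB
    have h3 := (hCB.2 hOut.a2.deg).2 (hOut.a2.ly y' hy' hy'0)
    have hRCX : RC (pt F (n' + 1) X Ls.a) (N (n' + 1)) (Function.update Ls.R k (minRec Ls k ⟨n, ρ⟩)) k
        (finrank (Kn (n' + 1)) (Ly (pt F (n' + 1) X Ls.a) k y')) := by
      refine ⟨?_, fun c hc hc' => ?_⟩
      · rw [hdimL y' hy' hy'0]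
        have h4 : m * l - finrank (Kn (n' + 1)) ((pt F (n' + 1) X Ls.a).Mov k) ≤ l - d := by
          omega
        have h5 : l ≤ m * l := Nat.le_mul_of_pos_left _ (by omega)
        omega
      · rw [qS_congr (R := Ls.R) (fun u hu => Function.update_of_ne (Nat.ne_of_lt hu) _ _)]
        exact rc_rank_step hA2 hV0 hOut hVO c hc hc'
    have h6 := h3 hRCX
    have h7 : minQ Ls k ⟨n, ρ⟩ ≤ finrank (Kn (n' + 1)) (Ly (pt F (n' + 1) X Ls.a) k y') -
        finrank (Kn (n' + 1)) ((pt F (n' + 1) X Ls.a).Mov k) := h6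
    rw [hdimL y' hy' hy'0, hmin] at h7
    have h8 := finrank_Mov_le_Ly hOut.a2.inC.h1 hOut.a2.inC.mov_le hy' hy'0
    rw [hdimL y' hy' hy'0] at h8
    have h9 : (m - 1) * l ≤ (m - 1) * D := Nat.mul_le_mul_left _ hDl
    omega
  refine Freeze.case_B hS hK Ls n ρ k S TT h n' Z hA2.inC t1 t2 hA hy1 honto X g _ hOut.sol hOut.fresh
    hOut.deg_eq.le ?_ ?_ hOut.a2.ne hOut.a2.deg hOut.a2.ly hq' ?_ ?_
  · rw [eμ]
    exact hup
  · intro y' hy' hy'0
    rw [eμ, hdimL y' hy' hy'0]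
    exact Nat.mul_le_mul_left _ hDl
  · obtain ⟨y', hy', hy'0⟩ := Submodule.exists_mem_ne_zero_of_ne_bot hOut.a2.ne
    have h1 := hOut.a2.ly y' hy' hy'0
    rw [hdimL y' hy' hy'0] at h1
    have hpos : 0 < minS Ls k ⟨n, ρ⟩ := by
      have h0 := N_pos (n' + 1)
      rw [← h1] at h0
      exact Nat.pos_of_mul_pos_right h0 |> fun h => h
    have h2 : N (n' + 1) / minS Ls k ⟨n, ρ⟩ = m * l := by
      rw [← h1]
      exact Nat.mul_div_cancel_left _ hpos
    rw [h2, hmin]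
    have h5 : l ≤ m * l := Nat.le_mul_of_pos_left _ (by omega)
    omega
  · rw [hmin]
    have h6 : N n' ≤ N n' ^ 2 := by
      have := N_pos n'
      nlinarith
    omega

end Main

end Crest.Agent.Kurosh.Explore
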