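/-
S0270 (Kurosh): the final glue. `final_of`: the statement from `tight_of`, `lift_of` and `caseB`.
-/
import Crest.Agent.Kurosh.Assemble
import Crest.Agent.Kurosh.CaseA
import Crest.Agent.Kurosh.ExploreFinal
set_option autoImplicit false
namespace Crest.Agent.Kurosh.Final
open Hensel State Module LU LU.Tw0 LU.Tw Plan Explore
attribute [local instance] Tower.tw0 Tower.tw

theorem final_of
    (htight : ∀ (F : Subfield U) [CentF F] (l : ℕ), Orc F l → Val F l l → KeyS F l → TightS F l)
    (hlift : ∀ (F : Subfield U) [CentF F] (l : ℕ), Orc F l → Val F l l → KeyS F l → LiftS F l)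
    (hB : AllS → KeyAll → FreshS → CaseBS) :
    ∃ (D : Type) (_ : DivisionRing D), Countable D ∧ CharZero D ∧
      Algebra.IsAlgebraic (Subring.center D) D ∧
      (∃ x y : D, Algebra.adjoin (Subring.center D) ({x, y} : Set D) = ⊤) ∧
      ¬ FiniteDimensional (Subring.center D) D := by
  have hS : AllS := fun F _ l => Assemble.all_S_of (htight F) (hlift F) l
  have hK : KeyAll := fun F _ l => KeyV3.key_of l (hS F l).1 ((hS F l).2 l le_rfl)
  have hF : FreshS := fun F _ Ls n _ ρ r' r S TT TT0 h t1 t2 hA hT hT0 hO J hJ X0 g0 h0 =>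
    FreshEx.exists_fresh Ls n ρ r' r S TT TT0 h t1 t2 hA hT hT0 hO J hJ X0 g0 h0
  exact Main.main (explore_of (caseA hS hF) (hB hS hK hF))

end Crest.Agent.Kurosh.Final
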