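/-
S0270 (helper89): calculus of leading terms for `v_w` on a level-up `L : Lv K A K' R τ`.

* `mh L w t a` : the monomial `a e_t` of the residue ring `Rh L w`;
* `HasL L w x γ t a`: `x` has value `≥ γ` and its coefficient at `γ` is `a e_t`;
  `HasL.mul`, `HasL.add`, `HasL.inc`, `HasL.of_sub_fil`, `HasL.shift`, `HasL.inv`, `pair_coeff`;
* `coSub L w V S`: the coefficient subspace `{ξ ∈ Rh : ξ_h ∈ V, ξ_h ≠ 0 ⇒ κ(h) mod m ∈ S}`, with
  `finrank_coSub : dim = |S| · dim_K V`, `coSub_le`;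
* `Tl`: the line through a nonzero class `(j₀,k₀)` and `sum_card_Tl`.
-/
import Crest.Agent.Kurosh.LeadVN
import Crest.Agent.Kurosh.VLead

set_option autoImplicit false
set_option linter.unusedSectionVars false

namespace Crest.Agent.Kurosh.LeadVN

open THS THSLead Hensel LU Module

/-! ### Coordinates with respect to a `K`-independent family -/

section Coord

open Classical

variable {G : Type*} [AddCommGroup G] [LinearOrder G] [IsOrderedAddMonoid G]
variable {K : Type*} [Field K] {A : Type*} [DivisionRing A] [Algebra K A] {e : Bichar G K}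
variable (S : SymSub e)

/-- The coordinate series of `x` at the coset `t + Γ` for the functional `f`. -/
noncomputable def serF (f : A →ₗ[K] K) (t : G) (x : THS A e) : THS A e := ofH
  { coeff := fun γ => if γ ∈ S.Γ then (e γ t)⁻¹ • algebraMap K A (f (x.coeff (γ + t))) else 0
    isPWO_support' := by
      have hmono : Monotone (fun g : G => g - t) := fun a c h => sub_le_sub_right h t
      refine (x.isPWO_supp.image_of_monotone hmono).mono ?_
      intro γ hγ
      refine ⟨γ + t, ?_, by simp⟩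
      intro h0
      apply hγ
      show (if γ ∈ S.Γ then (e γ t)⁻¹ • algebraMap K A (f (x.coeff (γ + t))) else 0) = 0
      have h0' : x.coeff (γ + t) = 0 := h0
      rw [h0']
      simp }

lemma coeff_serF (f : A →ₗ[K] K) (t : G) (x : THS A e) (γ : G) :
    (serF S f t x).coeff γ =
      if γ ∈ S.Γ then (e γ t)⁻¹ • algebraMap K A (f (x.coeff (γ + t))) else 0 := rfl

lemma serF_mem (f : A →ₗ[K] K) (t : G) (x : THS A e) : serF S f t x ∈ scalSub A S := by
  constructor
  · intro g hg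
    by_contra h
    apply hg
    rw [coeff_serF, if_neg h]
  · intro g
    rw [coeff_serF]
    split_ifs
    · exact Subalgebra.smul_mem _ (Subalgebra.algebraMap_mem _ _) _
    · exact Subalgebra.zero_mem _

/-- The coordinate of `x`. -/
noncomputable def coordF (f : A →ₗ[K] K) (t : G) (x : THS A e) : Scal A S :=
  ⟨serF S f t x, serF_mem S f t x⟩

lemma coeff_coordF_smul (f : A →ₗ[K] K) (t : G) (v : A) (x : THS A e) (g : G) :
    (coordF S f t x • (mono t v : THS A e)).coeff g =
      if g - t ∈ S.Γ then f (x.coeff g) • v else 0 := by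
  rw [Scal.smul_def]
  have h1 := coeff_mul_mono t v (coordF S f t x).1 (g - t)
  rw [sub_add_cancel] at h1
  rw [h1]
  show e (g - t) t • ((serF S f t x).coeff (g - t) * v) = _
  rw [coeff_serF]
  split_ifs with h
  · rw [sub_add_cancel, smul_mul_assoc, smul_smul, mul_inv_cancel₀ (e.ne_zero _ _), one_smul,
      Algebra.smul_def]
  · rw [zero_mul, smul_zero]

lemma coeff_sum' {ι : Type*} (s : Finset ι) (f : ι → THS A e) (g : G) :
    (∑ i ∈ s, f i).coeff g = ∑ i ∈ s, (f i).coeff g := by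
  induction s using Finset.induction_on with
  | empty => simp
  | insert i s hi ih => rw [Finset.sum_insert hi, Finset.sum_insert hi, coeff_add, ih]

/-- Decomposition of a series supported on finitely many cosets with coefficients in the span of
the `v i`. -/
lemma sum_coordF {ι : Type*} [Fintype ι] (T : Finset G)
    (hT' : ∀ t ∈ T, ∀ t' ∈ T, t - t' ∈ S.Γ → t = t') (v : ι → A) (f : ι → A →ₗ[K] K) (x : THS A e)
    (hx : ∀ g, x.coeff g ≠ 0 → ∃ t ∈ T, g - t ∈ S.Γ)
    (hxv : ∀ g, ∑ i, f i (x.coeff g) • v i = x.coeff g) :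
    x = ∑ t ∈ T, ∑ i, coordF S (f i) t x • (mono t (v i) : THS A e) := by
  ext g
  rw [coeff_sum']
  by_cases hg : ∃ t ∈ T, g - t ∈ S.Γ
  · obtain ⟨t₀, ht₀, hg₀⟩ := hg
    rw [Finset.sum_eq_single t₀]
    · rw [coeff_sum']
      simp only [coeff_coordF_smul, if_pos hg₀]
      exact (hxv g).symm
    · intro t ht hne
      rw [coeff_sum']
      simp only [coeff_coordF_smul]
      rw [Finset.sum_eq_zero]
      intro i _
      rw [if_neg]
      intro h
      apply hne
      apply hT' t ht t₀ ht₀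
      have := S.Γ.sub_mem hg₀ h
      have e2 : g - t₀ - (g - t) = t - t₀ := by abel
      rwa [e2] at this
    · intro h
      exact absurd ht₀ h
  · have hx0 : x.coeff g = 0 := by
      by_contra h
      exact hg (hx g h)
    rw [hx0]
    symm
    refine Finset.sum_eq_zero fun t ht => ?_
    rw [coeff_sum']
    refine Finset.sum_eq_zero fun i _ => ?_
    rw [coeff_coordF_smul, hx0, if_neg (fun h => hg ⟨t, ht, h⟩)]

/-- Independence. -/
lemma coordF_of_sum {ι : Type*} [Fintype ι] (T : Finset G)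
    (hT' : ∀ t ∈ T, ∀ t' ∈ T, t - t' ∈ S.Γ → t = t') (v : ι → A) (f : ι → A →ₗ[K] K)
    (hfv : ∀ i i', f i (v i') = if i = i' then 1 else 0)
    (c : G → ι → Scal A S) (t₀ : G) (ht₀ : t₀ ∈ T) (i₀ : ι) :
    coordF S (f i₀) t₀ (∑ t ∈ T, ∑ i, c t i • (mono t (v i) : THS A e)) = c t₀ i₀ := by
  have hcoef : ∀ (t : G) (i : ι) (γ : G),
      (c t i • (mono t (v i) : THS A e)).coeff (γ + t) = e γ t • ((c t i).1.coeff γ * v i) := by
    intro t i γ
    rw [Scal.smul_def]
    exact coeff_mul_mono t _ _ γ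
  apply Subtype.ext
  ext γ
  show (serF S (f i₀) t₀ _).coeff γ = _
  rw [coeff_serF]
  by_cases hγ : γ ∈ S.Γ
  · rw [if_pos hγ, coeff_sum', Finset.sum_eq_single t₀]
    · rw [coeff_sum']
      simp only [hcoef]
      have hscal : ∀ i, ∃ κ : K, algebraMap K A κ = (c t₀ i).1.coeff γ := fun i =>
        Algebra.mem_bot.1 ((c t₀ i).2.2 γ)
      choose κ' hκ using hscal
      have h1 : ∀ i, e γ t₀ • ((c t₀ i).1.coeff γ * v i) = (e γ t₀ * κ' i) • v i := by
        intro i
        rw [← hκ, ← Algebra.smul_def, smul_smul]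
      simp only [h1]
      rw [map_sum]
      simp only [map_smul, hfv, smul_eq_mul, mul_ite, mul_one, mul_zero]
      rw [Finset.sum_ite_eq]
      rw [if_pos (Finset.mem_univ _)]
      have h2 : (e γ t₀)⁻¹ • algebraMap K A (e γ t₀ * κ' i₀) = algebraMap K A (κ' i₀) := by
        rw [map_mul, ← Algebra.smul_def, smul_smul, inv_mul_cancel₀ (e.ne_zero _ _), one_smul]
      exact h2.trans (hκ i₀)
    · intro t ht hne
      rw [coeff_sum']
      refine Finset.sum_eq_zero fun i _ => ?_
      have h3 := hcoef t i (γ + t₀ - t)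
      rw [sub_add_cancel] at h3
      rw [h3]
      have h4 : (c t i).1.coeff (γ + t₀ - t) = 0 := by
        by_contra h5
        have h6 := (c t i).2.1 _ h5
        have h7 := S.Γ.sub_mem h6 hγ
        have h8 : γ + t₀ - t - γ = t₀ - t := by abel
        rw [h8] at h7
        exact hne (hT' t₀ ht₀ t ht h7).symm
      rw [h4, zero_mul, smul_zero]
    · intro h
      exact absurd ht₀ h
  · rw [if_neg hγ]
    symm
    by_contra h
    exact hγ ((c t₀ i₀).2.1 γ h)

end Coord

/-! ### The line through a class -/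

section Line

variable {m : ℕ} [Fact m.Prime]

/-- The fibre at `a` of the line through `(j₀,k₀)`. -/
noncomputable def Tl (j₀ k₀ a : ZMod m) : Finset (ZMod m) := by
  classical
  exact (Finset.univ : Finset (ZMod m)).filter (fun k => ∃ r : ZMod m, a = r * j₀ ∧ k = r * k₀)

lemma mem_Tl {j₀ k₀ a k : ZMod m} : k ∈ Tl j₀ k₀ a ↔ ∃ r : ZMod m, a = r * j₀ ∧ k = r * k₀ := by
  classical
  unfold Tl
  simp

lemma mem_Tl_of_det {j₀ k₀ a k : ZMod m} (h0 : j₀ ≠ 0 ∨ k₀ ≠ 0) (h : a * k₀ = j₀ * k) :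
    k ∈ Tl j₀ k₀ a := by
  rw [mem_Tl]
  rcases h0 with h1 | h1
  · refine ⟨a * j₀⁻¹, by rw [mul_assoc, inv_mul_cancel₀ h1, mul_one], ?_⟩
    field_simp
    linear_combination -h
  · refine ⟨k * k₀⁻¹, ?_, by rw [mul_assoc, inv_mul_cancel₀ h1, mul_one]⟩
    field_simp
    linear_combination h

theorem sum_card_Tl {j₀ k₀ : ZMod m} (h0 : j₀ ≠ 0 ∨ k₀ ≠ 0) :
    ∑ a : ZMod m, (Tl j₀ k₀ a).card = m := by
  classical
  -- the line as an image
  let φ : ZMod m → ZMod m × ZMod m := fun r => (r * j₀, r * k₀)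
  have hφ : Function.Injective φ := by
    intro r r' h
    have h1 : r * j₀ = r' * j₀ := congrArg Prod.fst h
    have h2 : r * k₀ = r' * k₀ := congrArg Prod.snd h
    rcases h0 with h3 | h3
    · exact mul_right_cancel₀ h3 h1
    · exact mul_right_cancel₀ h3 h2
  have h1 : ∀ a, (Tl j₀ k₀ a).card =
      ((Finset.univ.image φ).filter (fun p => p.1 = a)).card := by
    intro a
    apply Finset.card_bij (fun k _ => (a, k))
    · intro k hk
      obtain ⟨r, hr1, hr2⟩ := mem_Tl.1 hk
      simp only [Finset.mem_filter, Finset.mem_image, Finset.mem_univ, true_and, and_true]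
      exact ⟨r, by simp only [φ, hr1, hr2]⟩
    · intro k _ k' _ h
      exact congrArg Prod.snd h
    · intro p hp
      simp only [Finset.mem_filter, Finset.mem_image, Finset.mem_univ, true_and] at hp
      obtain ⟨⟨r, hr⟩, hp1⟩ := hp
      refine ⟨p.2, ?_, Prod.ext hp1.symm rfl⟩
      rw [mem_Tl]
      refine ⟨r, ?_, ?_⟩
      · rw [← hp1, ← hr]
      · rw [← hr]
  simp only [h1]
  have h2 := Finset.card_eq_sum_card_fiberwise (s := Finset.univ.image φ)
    (t := (Finset.univ : Finset (ZMod m))) (f := Prod.fst) (fun _ _ => Finset.mem_coe.2 (Finset.mem_univ _))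
  rw [← h2, Finset.card_image_of_injective _ hφ, Finset.card_univ, ZMod.card]

end Line

namespace LvData

variable {K A K' R : Type*} [Field K] [DivisionRing A] [Algebra K A] [Field K'] [DivisionRing R]
  [Algebra K R] [Algebra K' R] [Algebra K K'] [IsScalarTower K K' R] {τ : A →ₗ[K] K}
  (L : Lv K A K' R τ) (w : ℕ)

/-- The `s'`-order. -/
abbrev jG (g : GLv) : ℤ := (ofLex g).1

/-- The `s`-degree. -/
noncomputable abbrev kG (g : GLv) : ℤ := κ (ofLex g).2

lemma jG_ker (t : (piN w).ker) : jG t.1 = 0 := (mem_ker_piN.1 t.2).1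

lemma tw_apply (g h : GLv) : (tw L) g h = L.ζ ^ (jG g * kG h) := rfl

lemma tw_ker (t : (piN w).ker) (h : GLv) : (tw L) t.1 h = 1 := by
  rw [tw_apply, jG_ker, zero_mul, zpow_zero]

lemma tw_sec (γ : GV) (h : GLv) : (tw L) h (secN w γ) = 1 := by
  rw [tw_apply]
  have : kG (secN w γ) = 0 := secN_κ w γ
  rw [this, mul_zero, zpow_zero]

/-- The monomial `a e_t` of the residue ring. -/
noncomputable def mh (t : (piN w).ker) (a : A) : Rh L w := ⟨mono t.1 a, mono_mem_subS t.2 a⟩

lemma mh_coe (t : (piN w).ker) (a : A) : (mh L w t a).1 = mono t.1 a := rfl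

lemma mh_mul (t u : (piN w).ker) (a b : A) : mh L w t a * mh L w u b = mh L w (t + u) (a * b) := by
  apply Subtype.ext
  show (mono t.1 a * mono u.1 b : THS A (tw L)) = mono (t.1 + u.1) (a * b)
  rw [mono_mul_mono, tw_ker, one_smul]

lemma mh_zero_right (t : (piN w).ker) : mh L w t 0 = 0 := by
  apply Subtype.ext
  exact mono_zero' _

lemma mh_add_right (t : (piN w).ker) (a b : A) :
    mh L w t (a + b) = mh L w t a + mh L w t b := by
  apply Subtype.ext
  exact mono_add _ _ _

lemma coeff_mh (t : (piN w).ker) (a : A) (h : GLv) [Decidable (h = t.1)] :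
    (mh L w t a).1.coeff h = if h = t.1 then a else 0 := by
  rw [mh_coe, coeff_mono]
  congr

/-- The residue ring element `1`. -/
lemma mh_zero_one : mh L w 0 (1 : A) = 1 := rfl

/-- Conjugation by the chosen monomial. -/
lemma coeff_theta (γ : GV) (ξ : Rh L w) (g : GLv) :
    ((gr L w).θ γ ξ).1.coeff g = (L.ζ ^ ((ofLex γ).1 * kG g)) • ξ.1.coeff g := by
  show (thetaM (secN w) γ ξ.1).coeff g = _
  rw [coeff_thetaM, tw_sec, inv_one, mul_one]
  rfl

lemma theta_mh (γ : GV) (t : (piN w).ker) (a : A) :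
    (gr L w).θ γ (mh L w t a) = mh L w t ((L.ζ ^ ((ofLex γ).1 * kG t.1)) • a) := by
  classical
  apply Subtype.ext
  ext g
  rw [coeff_theta, coeff_mh, coeff_mh]
  by_cases hg : g = t.1
  · rw [if_pos hg, if_pos hg, hg]
  · rw [if_neg hg, if_neg hg, smul_zero]

/-- The raw coefficient formula: `(c_γ x)_h = x_{h + σ γ}` for `h ∈ ker π`. -/
lemma coeff_gr_c (γ : GV) (x : R) (t : (piN w).ker) :
    ((gr L w).c γ x).1.coeff t.1 = (L.φ x).coeff (t.1 + secN w γ) := by
  classical
  show (coef (secN w) (piN w) γ (L.φ x)).coeff t.1 = _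
  unfold coef
  rw [eM_inv]
  have h1 := coeff_mul_mono (secN w (-γ)) (((tw L) (secN w γ) (secN w (-γ)))⁻¹ • (1 : A))
    (layer (piN w) γ (L.φ x)) (t.1 + secN w γ)
  have h2 : t.1 + secN w γ + secN w (-γ) = t.1 := by
    rw [map_neg, add_neg_cancel_right]
  rw [h2] at h1
  rw [h1, tw_sec, one_smul]
  have hpi : piN w (t.1 + secN w γ) = γ := by
    rw [map_add, piN_secN, (AddMonoidHom.mem_ker.1 t.2), zero_add]
  rw [coeff_layer_of_eq _ _ hpi, tw_sec, inv_one, one_smul, mul_one]

lemma coeff_gr_c_of_not_mem (γ : GV) (x : R) {h : GLv} (hh : h ∉ (piN w).ker) :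
    ((gr L w).c γ x).1.coeff h = 0 := by
  by_contra h0
  exact hh (((gr L w).c γ x).2 h0)

lemma gr_c_eq_of_coeff {γ : GV} {x : R} {ξ : Rh L w}
    (h : ∀ t : (piN w).ker, (L.φ x).coeff (t.1 + secN w γ) = ξ.1.coeff t.1) : (gr L w).c γ x = ξ := by
  apply Subtype.ext
  ext g
  by_cases hg : g ∈ (piN w).ker
  · have := h ⟨g, hg⟩
    rw [← coeff_gr_c] at this
    exact this
  · rw [coeff_gr_c_of_not_mem L w γ x hg]
    by_contra h0
    exact hg (ξ.2 (fun h1 => h0 h1.symm))

/-- Product rule for the coefficients. -/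
lemma gr_c_mul {γ δ : GV} {x y : R} (hx : (γ : WithTop GV) ≤ (gr L w).val x)
    (hy : (δ : WithTop GV) ≤ (gr L w).val y) :
    (gr L w).c (γ + δ) (x * y) = (gr L w).c γ x * (gr L w).θ γ ((gr L w).c δ y) := by
  have h := (gr L w).c_mul γ δ x y hx hy
  rw [h]
  exact one_smul _ _

/-- `x` has value `≥ γ` and coefficient `a e_t` at `γ`. -/
def HasL (x : R) (γ : GV) (t : (piN w).ker) (a : A) : Prop :=
  (γ : WithTop GV) ≤ (gr L w).val x ∧ (gr L w).c γ x = mh L w t a

variable {L w}

namespace HasL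

lemma mul {x y : R} {γ δ : GV} {t u : (piN w).ker} {a b : A} (hx : HasL L w x γ t a)
    (hy : HasL L w y δ u b) :
    HasL L w (x * y) (γ + δ) (t + u) ((L.ζ ^ ((ofLex γ).1 * kG u.1)) • (a * b)) := by
  refine ⟨(gr L w).le_val_mul hx.1 hy.1, ?_⟩
  rw [gr_c_mul L w hx.1 hy.1, hx.2, hy.2, theta_mh, mh_mul, mul_smul_comm]

lemma add {x y : R} {γ : GV} {t : (piN w).ker} {a b : A} (hx : HasL L w x γ t a)
    (hy : HasL L w y γ t b) : HasL L w (x + y) γ t (a + b) := by
  refine ⟨le_trans (le_min hx.1 hy.1) ((gr L w).val_add x y), ?_⟩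
  rw [map_add, hx.2, hy.2, mh_add_right]

lemma of_eq {x : R} {γ : GV} {t : (piN w).ker} {a b : A} (hx : HasL L w x γ t a) (h : a = b) :
    HasL L w x γ t b := h ▸ hx

/-- Value `> γ`: zero coefficient. -/
lemma of_lt {x : R} {γ : GV} (t : (piN w).ker) (h : (γ : WithTop GV) < (gr L w).val x) :
    HasL L w x γ t 0 := by
  refine ⟨h.le, ?_⟩
  rw [mh_zero_right]
  exact ((gr L w).c_eq_zero_iff γ x h.le).2 h

/-- Adding an element of larger value does not change the lead. -/
lemma add_lt {x y : R} {γ : GV} {t : (piN w).ker} {a : A} (hx : HasL L w x γ t a)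
    (hy : (γ : WithTop GV) < (gr L w).val y) : HasL L w (x + y) γ t a := by
  have := hx.add (of_lt t hy)
  rwa [add_zero] at this

end HasL

/-- The pairing at value `0`, on coefficients: if `τ'(x f) = 0`, `f` of lead `b e_u` at `-γ`, then
`τ((c_γ x)_{-u} b) = 0`. -/
theorem pair_coeff {γ δ : GV} (hγδ : γ + δ = 0) {x f : R} (hx : (γ : WithTop GV) ≤ (gr L w).val x)
    {u : (piN w).ker} {b : A} (hf : HasL L w f δ u b) (h0 : L.τ' (x * f) = 0) :
    τ (((gr L w).c γ x).1.coeff (-u.1) * b) = 0 := by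
  have h1 := (gr L w).pair_zero hγδ hx hf.1 h0
  rw [hf.2, theta_mh] at h1
  have h2 := congrArg (fun c : Kh L w => c.1.coeff 0) h1
  have h3 : ((gr L w).τR ((gr L w).c γ x * mh L w u ((L.ζ ^ ((ofLex γ).1 * kG u.1)) • b))).1.coeff 0
      = algebraMap K A (τ ((((gr L w).c γ x).1 * mono u.1 ((L.ζ ^ ((ofLex γ).1 * kG u.1)) • b)).coeff 0)) := by
    show (traceSeries (S0 (cS L) (piN w)) τ _).coeff 0 = _
    rw [coeff_traceSeries, if_pos (AddSubgroup.zero_mem _)]
    rfl
  have h4 := coeff_mul_mono u.1 ((L.ζ ^ ((ofLex γ).1 * kG u.1)) • b) ((gr L w).c γ x).1 (-u.1)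
  rw [neg_add_cancel] at h4
  have h5 : (tw L) (-u.1) u.1 = 1 := by
    have := tw_ker L w (-u) u.1
    exact this
  rw [h4, h5, one_smul, mul_smul_comm, map_smul] at h3
  replace h2 : ((gr L w).τR ((gr L w).c γ x * mh L w u ((L.ζ ^ ((ofLex γ).1 * kG u.1)) • b))).1.coeff 0 = 0 := h2
  rw [h3] at h2
  have h6 : algebraMap K A ((L.ζ ^ ((ofLex γ).1 * kG u.1)) • τ (((gr L w).c γ x).1.coeff (-u.1) * b)) = 0 := h2
  have h7 : (L.ζ ^ ((ofLex γ).1 * kG u.1)) • τ (((gr L w).c γ x).1.coeff (-u.1) * b) = 0 :=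
    (map_eq_zero _).1 h6
  exact (smul_eq_zero.1 h7).resolve_left (zpow_ne_zero _ L.ζ_ne)


variable (L w)

/-- The kernel part of a monomial. -/
noncomputable def kerOf (g : GLv) : (piN w).ker := ⟨g - secN w (piN w g), by
  rw [AddMonoidHom.mem_ker, map_sub, piN_secN, sub_self]⟩

lemma kerOf_coe (g : GLv) : (kerOf w g).1 = g - secN w (piN w g) := rfl

lemma kerOf_zero : kerOf w 0 = 0 := by
  apply Subtype.ext
  show (0 : GLv) - secN w (piN w 0) = 0
  rw [map_zero, map_zero, sub_zero]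

variable [FiniteDimensional K A]

lemma le_val_iff {x : R} {γ : GV} :
    (γ : WithTop GV) ≤ (gr L w).val x ↔ ∀ g, (L.φ x).coeff g ≠ 0 → γ ≤ piN w g := by
  rw [gr_val, le_vΓ_iff (piN_mono w)]
  exact forall₂_congr fun _ _ => WithTop.coe_le_coe

lemma hasL_of_coeff {x : R} {γ : GV} {t : (piN w).ker} {a : A}
    (h1 : ∀ g, (L.φ x).coeff g ≠ 0 → γ ≤ piN w g)
    (h2 : ∀ u : (piN w).ker, (L.φ x).coeff (u.1 + secN w γ) = (mh L w t a).1.coeff u.1) :
    HasL L w x γ t a :=
  ⟨(le_val_iff L w).2 h1, gr_c_eq_of_coeff L w h2⟩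

/-- The coefficients of `x` with `HasL`. -/
lemma HasL.coeff {L : Lv K A K' R τ} {w : ℕ} {x : R} {γ : GV} {t : (piN w).ker} {a : A}
    (h : HasL L w x γ t a) (u : (piN w).ker) :
    (L.φ x).coeff (u.1 + secN w γ) = (mh L w t a).1.coeff u.1 := by
  rw [← coeff_gr_c, h.2]

variable {L w}

/-- A monomial. -/
lemma HasL.of_phi_mono {x : R} {g : GLv} {a : A} (h : L.φ x = mono g a) :
    HasL L w x (piN w g) (kerOf w g) a := by
  classical
  refine hasL_of_coeff L w (fun g' hg' => ?_) (fun u => ?_)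
  · rw [h, coeff_mono] at hg'
    by_cases hgg : g' = g
    · rw [hgg]
    · rw [if_neg hgg] at hg'
      exact absurd rfl hg'
  · rw [h, coeff_mono, mh_coe, coeff_mono, kerOf_coe]
    by_cases hu : u.1 = g - secN w (piN w g)
    · rw [if_pos hu, if_pos (by rw [hu]; abel)]
    · rw [if_neg hu, if_neg (fun h' => hu (eq_sub_of_add_eq h'))]

lemma HasL.inc (a : A) : HasL L w (L.lev.inc a) 0 0 a := by
  have h := HasL.of_phi_mono (L := L) (w := w) (VLead.phi_inc L a)
  rwa [map_zero, kerOf_zero] at h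

lemma HasL.one : HasL L w (1 : R) 0 0 1 := by
  have h := HasL.inc (L := L) (w := w) (1 : A)
  rwa [map_one] at h

lemma HasL.algebraMap_K (c : K) : HasL L w (algebraMap K R c) 0 0 (algebraMap K A c) := by
  have h := HasL.of_phi_mono (L := L) (w := w) (L.φ_alg c)
  rwa [map_zero, kerOf_zero] at h

/-- Elements of higher order. -/
lemma lt_val_of_fil {x : R} {j : ℕ} (hx : x ∈ L.lev.Φ.fil (j + 1)) {γ : GV} (hγ : (ofLex γ).1 ≤ j) :
    (γ : WithTop GV) < (gr L w).val x := by
  have h1 := (L.lev_fil (j + 1) x).1 hx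
  by_cases h0 : x = 0
  · subst h0
    rw [(gr L w).val_zero]
    exact WithTop.coe_lt_top _
  have hφ : L.φ x ≠ 0 := fun h => h0 ((map_eq_zero_iff L.φ L.φ.injective).1 h)
  rw [gr_val, vΓ_of_ne _ hφ]
  have h2 := h1 _ (THS.ord_mem hφ)
  apply WithTop.coe_lt_coe.2
  apply Prod.Lex.lt_iff.2
  left
  have h3 : (ofLex (piN w (L.φ x).ord)).1 = (ofLex (L.φ x).ord).1 := rfl
  rw [h3]
  push_cast at h2
  omega

/-- A monomial modulo higher order. -/
lemma HasL.of_sub_fil {x : R} {a : A} {n : CE} {j : ℕ} (h : x - L.lev.mono a n j ∈ L.lev.Φ.fil (j + 1)) :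
    HasL L w x (piN w (idx n (j : ℤ))) (kerOf w (idx n (j : ℤ))) a := by
  have h1 := HasL.of_phi_mono (L := L) (w := w) (L.lev_mono a n j)
  have h2 : (((piN w (idx n (j : ℤ))) : GV) : WithTop GV) < (gr L w).val (x - L.lev.mono a n j) :=
    lt_val_of_fil h (by show ((j : ℤ)) ≤ j; exact le_rfl)
  have h3 := h1.add_lt h2
  rwa [add_sub_cancel] at h3

/-- Multiplication by a central monomial. -/
lemma HasL.shift {x : R} {γ : GV} {t : (piN w).ker} {a : A} (h : HasL L w x γ t a) (γ' : GV)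
    (t' : (piN w).ker) (hj : (L.m : ℤ) ∣ (ofLex γ').1 - (ofLex γ).1)
    (hk : (L.m : ℤ) ∣ kG t'.1 - kG t.1) :
    ∃ l : K', l ≠ 0 ∧ HasL L w (algebraMap K' R l * x) γ' t' a := by
  classical
  set g : GLv := secN w (γ' - γ) + (t'.1 - t.1) with hg
  have hg1 : (ofLex g).1 = (ofLex γ').1 - (ofLex γ).1 := by
    have ht' : (ofLex t'.1).1 = 0 := jG_ker w t'
    have ht : (ofLex t.1).1 = 0 := jG_ker w t
    show (ofLex (secN w (γ' - γ))).1 + ((ofLex t'.1).1 - (ofLex t.1).1) = _
    rw [ht', ht, secN_fst]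
    show (ofLex γ').1 - (ofLex γ).1 + (0 - 0) = _
    ring
  have hg2 : kG g = kG t'.1 - kG t.1 := by
    show κ ((ofLex (secN w (γ' - γ))).2 + ((ofLex t'.1).2 - (ofLex t.1).2)) = _
    rw [map_add κ, map_sub κ, secN_κ, zero_add]
  have hgc : g ∈ centLat L.m := ⟨by rw [hg1]; exact hj, by
    show (L.m : ℤ) ∣ kG g
    rw [hg2]; exact hk⟩
  refine ⟨scalMono L g hgc, scalMono_ne L g hgc, ?_⟩
  have hφ : L.φ (algebraMap K' R (scalMono L g hgc)) = mono g 1 := psi_scalMono L g hgc
  have h1 := HasL.of_phi_mono (L := L) (w := w) hφ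
  have h2 := h1.mul h
  have hπ : piN w g = γ' - γ := by
    rw [hg, map_add, piN_secN, map_sub, AddMonoidHom.mem_ker.1 t'.2, AddMonoidHom.mem_ker.1 t.2]
    simp
  have h3 : piN w g + γ = γ' := by rw [hπ]; abel
  have h4 : kerOf w g + t = t' := by
    apply Subtype.ext
    show g - secN w (piN w g) + t.1 = t'.1
    rw [hπ, hg]
    abel
  rw [h3, h4, one_mul] at h2
  refine h2.of_eq ?_
  have h5 : L.ζ ^ ((ofLex (piN w g)).1 * kG t.1) = 1 := by
    rw [piN_fst]
    apply zpow_of_dvd L.ζ L.m (zeta_pow L)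
    exact Dvd.dvd.mul_right hgc.1 _
  rw [h5, one_smul]

/-- The inverse of an element of value `0` with a monomial lead at `0`. -/
lemma HasL.inv {x : R} {a : A} (h : HasL L w x 0 0 a) (ha : a ≠ 0) : HasL L w x⁻¹ 0 0 a⁻¹ := by
  classical
  have hmh0 : mh L w 0 a ≠ 0 := by
    intro h0
    have h1 := congrArg (fun ξ : Rh L w => ξ.1.coeff 0) h0
    have h2 : (mh L w 0 a).1.coeff 0 = a := by
      rw [mh_coe, coeff_mono]
      simp
    simp only [h2] at h1
    exact ha h1
  have hc0 : (gr L w).c 0 x ≠ 0 := by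
    rw [h.2]
    exact hmh0
  have hx0 : x ≠ 0 := by
    rintro rfl
    exact hc0 (map_zero _)
  have hv : (gr L w).val x = ((0 : GV) : WithTop GV) := by
    apply le_antisymm _ h.1
    by_contra hlt
    exact hc0 (((gr L w).c_eq_zero_iff 0 x h.1).2 (not_le.1 hlt))
  have hvi : (gr L w).val x⁻¹ = ((0 : GV) : WithTop GV) := by
    have h1 := (gr L w).val_mul x x⁻¹
    rw [mul_inv_cancel₀ hx0, (gr L w).val_one, hv, WithTop.coe_zero, zero_add] at h1
    rw [← h1]
    rfl
  refine ⟨le_of_eq hvi.symm, ?_⟩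
  have h1 := gr_c_mul L w h.1 (le_of_eq hvi.symm)
  rw [add_zero, mul_inv_cancel₀ hx0, HasL.one.2, h.2] at h1
  have hθ : ∀ ξ : Rh L w, (gr L w).θ 0 ξ = ξ := by
    intro ξ
    apply Subtype.ext
    ext g
    rw [coeff_theta]
    show L.ζ ^ ((0 : ℤ) * kG g) • _ = _
    rw [zero_mul, zpow_zero, one_smul]
  rw [hθ] at h1
  have h2 : mh L w 0 a⁻¹ * mh L w 0 a = 1 := by
    rw [mh_mul, add_zero, inv_mul_cancel₀ ha, mh_zero_one]
  have h3 : (gr L w).c 0 x⁻¹ = mh L w 0 a⁻¹ := by
    have h4 : mh L w 0 (1 : A) = 1 := mh_zero_one L w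
    calc (gr L w).c 0 x⁻¹ = (mh L w 0 a⁻¹ * mh L w 0 a) * (gr L w).c 0 x⁻¹ := by rw [h2, one_mul]
      _ = mh L w 0 a⁻¹ * (mh L w 0 a * (gr L w).c 0 x⁻¹) := mul_assoc _ _ _
      _ = mh L w 0 a⁻¹ := by rw [← h1, h4, mul_one]
  exact h3

/-- Conjugation by an element of value `0` with lead `1`. -/
lemma HasL.conj {x u : R} {γ : GV} {t : (piN w).ker} {a : A} (h : HasL L w x γ t a)
    (hu : HasL L w u 0 0 1) : HasL L w (u * x * u⁻¹) γ t a := by
  have h1 := HasL.inv hu one_ne_zero
  have h2 := (hu.mul h).mul h1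
  rw [zero_add, zero_add, add_zero, add_zero, inv_one, mul_one] at h2
  refine h2.of_eq ?_
  have h3 : kG (0 : (piN w).ker).1 = 0 := by
    show κ (0 : CE) = 0
    exact map_zero κ
  have h4 : (ofLex (0 : GV)).1 = 0 := rfl
  rw [h3, h4, mul_zero, zero_mul, zpow_zero, one_smul, one_smul, one_mul]

/-! ### Coefficient subspaces of the residue ring -/

variable (L w)

/-- The subspace of the residue ring of the series with coefficients in `V` and `s`-degrees in
`S` modulo `m`. -/
noncomputable def coSub (V : Submodule K A) (S : Finset (ZMod L.m)) :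
    Submodule (Kh L w) (Rh L w) where
  carrier := {ξ | ∀ h, ξ.1.coeff h ∈ V ∧ (ξ.1.coeff h ≠ 0 → ((kG h : ℤ) : ZMod L.m) ∈ S)}
  add_mem' := by
    rintro ξ ξ' h1 h2 h
    refine ⟨?_, fun h0 => ?_⟩
    · show (ξ.1 + ξ'.1).coeff h ∈ V
      rw [coeff_add]
      exact V.add_mem (h1 h).1 (h2 h).1
    · by_cases h3 : ξ.1.coeff h = 0
      · have h4 : ξ'.1.coeff h ≠ 0 := by
          intro h5
          apply h0
          show (ξ.1 + ξ'.1).coeff h = 0
          rw [coeff_add, h3, h5, add_zero]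
        exact (h2 h).2 h4
      · exact (h1 h).2 h3
  zero_mem' := by
    intro h
    refine ⟨?_, fun h0 => absurd rfl h0⟩
    show (0 : THS A (tw L)).coeff h ∈ V
    rw [coeff_zero]
    exact V.zero_mem
  smul_mem' := by
    intro c ξ hξ h
    have hcoe : (c • ξ).1 = c.1 * ξ.1 := rfl
    rw [hcoe, coeff_mul]
    constructor
    · refine Submodule.sum_mem _ fun ij _ => ?_
      obtain ⟨l, hl⟩ := Algebra.mem_bot.1 (c.2.2 ij.1)
      rw [← hl, ← Algebra.smul_def]
      exact V.smul_mem _ (V.smul_mem _ (hξ ij.2).1)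
    · intro h0
      obtain ⟨ij, hij, h1⟩ := Finset.exists_ne_zero_of_sum_ne_zero h0
      obtain ⟨h2, h3, h4⟩ := Finset.mem_antidiagonal.1 hij
      have h5 : ξ.1.coeff ij.2 ≠ 0 := h3
      have h6 := (hξ ij.2).2 h5
      have h7 : ij.1 ∈ centLat L.m := (c.2.1 _ h2).1
      have h8 : ((kG ij.1 : ℤ) : ZMod L.m) = 0 := (ZMod.intCast_zmod_eq_zero_iff_dvd _ _).2 h7.2
      have h9 : kG h = kG ij.1 + kG ij.2 := by
        rw [← h4]
        exact map_add κ _ _
      rw [h9, Int.cast_add, h8, zero_add]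
      exact h6

variable {L w}

lemma mem_coSub {V : Submodule K A} {S : Finset (ZMod L.m)} {ξ : Rh L w} :
    ξ ∈ coSub L w V S ↔ ∀ h, ξ.1.coeff h ∈ V ∧ (ξ.1.coeff h ≠ 0 → ((kG h : ℤ) : ZMod L.m) ∈ S) :=
  Iff.rfl

/-- The representative monomial of `s`-degree `k`. -/
noncomputable def rK (w : ℕ) (k : ZMod L.m) : (piN w).ker := ⟨repG L.m 0 k, repG_zero_mem_ker L.m w k⟩

lemma rK_coe (k : ZMod L.m) : (rK w k : (piN w).ker).1 = repG L.m 0 k := rfl

lemma kG_rK (k : ZMod L.m) : ((kG (rK w k : (piN w).ker).1 : ℤ) : ZMod L.m) = k := by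
  show (((k.val : ℕ) : ℤ) : ZMod L.m) = k
  exact intCast_val L.m k

lemma mh_mem_coSub {V : Submodule K A} {S : Finset (ZMod L.m)} {t : (piN w).ker} {a : A}
    (ha : a ∈ V) (ht : ((kG t.1 : ℤ) : ZMod L.m) ∈ S) : mh L w t a ∈ coSub L w V S := by
  classical
  intro h
  rw [mh_coe, coeff_mono]
  by_cases hh : h = t.1
  · rw [if_pos hh]
    exact ⟨ha, fun _ => by rw [hh]; exact ht⟩
  · rw [if_neg hh]
    exact ⟨V.zero_mem, fun h0 => absurd rfl h0⟩

/-- `coSub` is spanned by monomials. -/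
theorem coSub_eq_span (V : Submodule K A) (S : Finset (ZMod L.m)) :
    coSub L w V S = Submodule.span (Kh L w)
      (Set.range (fun p : ↥S × Fin (finrank K V) =>
        mh L w (rK w p.1.1) ((finBasis K V p.2 : V) : A))) := by
  classical
  apply le_antisymm
  · intro ξ hξ
    -- the functionals
    have hf : ∀ i : Fin (finrank K V), ∃ f : A →ₗ[K] K,
        f ∘ₗ V.subtype = (finBasis K V).coord i := fun i =>
      LinearMap.exists_extend _
    choose f hf using hf
    have hfv : ∀ (a : A), a ∈ V → ∑ i, f i a • ((finBasis K V i : V) : A) = a := by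
      intro a ha
      have h1 := (finBasis K V).sum_repr ⟨a, ha⟩
      have h2 := congrArg (Subtype.val) h1
      rw [AddSubmonoidClass.coe_finsetSum] at h2
      have h2' : ∑ i, (((finBasis K V).repr ⟨a, ha⟩ i • finBasis K V i : V) : A) = a := h2
      refine Eq.trans ?_ h2'
      refine Finset.sum_congr rfl fun i _ => ?_
      have h3 : f i a = (finBasis K V).coord i ⟨a, ha⟩ := by
        rw [← hf]
        rfl
      rw [h3]
      rfl
    set T : Finset GLv := S.image (fun k => repG L.m 0 k) with hT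
    have hT' : ∀ t ∈ T, ∀ t' ∈ T, t - t' ∈ (S0 (cS L) (piN w)).Γ → t = t' := by
      intro t ht t' ht' h
      obtain ⟨k, -, rfl⟩ := Finset.mem_image.1 ht
      obtain ⟨k', -, rfl⟩ := Finset.mem_image.1 ht'
      obtain ⟨-, h2⟩ := repG_sub_mem_imp L.m h.1
      rw [h2]
    have h1 := sum_coordF (S0 (cS L) (piN w)) T hT' (fun i => ((finBasis K V i : V) : A)) f ξ.1
      (by
        intro g hg
        have hg1 : g ∈ (piN w).ker := ξ.2 hg
        have hg2 := (hξ g).2 hg
        refine ⟨repG L.m 0 ((kG g : ℤ) : ZMod L.m), Finset.mem_image.2 ⟨_, hg2, rfl⟩, ?_, ?_⟩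
        · apply sub_repG_mem L.m _ rfl
          rw [(mem_ker_piN.1 hg1).1]
          simp
        · exact (piN w).ker.sub_mem hg1 (repG_zero_mem_ker L.m w _))
      (fun g => hfv _ (hξ g).1)
    have h2 : ξ = ∑ k ∈ S, ∑ i, coordF (S0 (cS L) (piN w)) (f i) (repG L.m 0 k) ξ.1 •
        mh L w (rK w k) ((finBasis K V i : V) : A) := by
      apply Subtype.ext
      rw [AddSubmonoidClass.coe_finsetSum]
      refine h1.trans ?_
      rw [hT, Finset.sum_image]
      · refine Finset.sum_congr rfl fun k _ => ?_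
        rw [AddSubmonoidClass.coe_finsetSum]
        rfl
      · intro k _ k' _ h
        have h1 : repG L.m 0 k - repG L.m 0 k' ∈ centLat L.m := by
          have h' : repG L.m 0 k = repG L.m 0 k' := h
          rw [h', sub_self]
          exact (centLat L.m).zero_mem
        exact (repG_sub_mem_imp L.m h1).2
    rw [h2]
    refine Submodule.sum_mem _ fun k hk => Submodule.sum_mem _ fun i _ =>
      Submodule.smul_mem _ _ (Submodule.subset_span ⟨(⟨k, hk⟩, i), rfl⟩)
  · rw [Submodule.span_le]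
    rintro _ ⟨p, rfl⟩
    exact mh_mem_coSub (finBasis K V p.2).2 (by rw [kG_rK]; exact p.1.2)

/-- Membership in `W` is checked on monomials. -/
theorem coSub_le {V : Submodule K A} {S : Finset (ZMod L.m)} {W : Submodule (Kh L w) (Rh L w)}
    (h : ∀ k ∈ S, ∀ a ∈ V, mh L w (rK w k) a ∈ W) : coSub L w V S ≤ W := by
  rw [coSub_eq_span, Submodule.span_le]
  rintro _ ⟨p, rfl⟩
  exact h _ p.1.2 _ (finBasis K V p.2).2

/-- The dimension of `coSub`. -/
theorem finrank_coSub (V : Submodule K A) (S : Finset (ZMod L.m)) :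
    finrank (Kh L w) (coSub L w V S) = S.card * finrank K V := by
  classical
  have hli : LinearIndependent (Kh L w) (fun p : ↥S × Fin (finrank K V) =>
      mh L w (rK w p.1.1) ((finBasis K V p.2 : V) : A)) := by
    -- the functionals
    have hf : ∀ i : Fin (finrank K V), ∃ f : A →ₗ[K] K,
        f ∘ₗ V.subtype = (finBasis K V).coord i := fun i =>
      LinearMap.exists_extend _
    choose f hf using hf
    have hfv : ∀ i i', f i ((finBasis K V i' : V) : A) =
        @ite K (i = i') (Classical.propDecidable (i = i')) 1 0 := by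
      intro i i'
      have h3 : f i ((finBasis K V i' : V) : A) = (finBasis K V).coord i (finBasis K V i') := by
        rw [← hf]
        rfl
      rw [h3, Module.Basis.coord_apply, Module.Basis.repr_self, Finsupp.single_apply]
      by_cases hi : i = i'
      · rw [if_pos hi, if_pos hi.symm]
      · rw [if_neg hi, if_neg (fun h => hi h.symm)]
    set T : Finset GLv := S.image (fun k => repG L.m 0 k) with hT
    have hT' : ∀ t ∈ T, ∀ t' ∈ T, t - t' ∈ (S0 (cS L) (piN w)).Γ → t = t' := by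
      intro t ht t' ht' h
      obtain ⟨k, -, rfl⟩ := Finset.mem_image.1 ht
      obtain ⟨k', -, rfl⟩ := Finset.mem_image.1 ht'
      obtain ⟨-, h2⟩ := repG_sub_mem_imp L.m h.1
      rw [h2]
    have hinj : Set.InjOn (fun k => repG L.m 0 k) (S : Set (ZMod L.m)) := by
      intro k _ k' _ h
      have h1 : repG L.m 0 k - repG L.m 0 k' ∈ centLat L.m := by
        have h' : repG L.m 0 k = repG L.m 0 k' := h
        rw [h', sub_self]
        exact (centLat L.m).zero_mem
      exact (repG_sub_mem_imp L.m h1).2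
    rw [Fintype.linearIndependent_iff]
    intro c hc p
    obtain ⟨⟨k₀, hk₀⟩, i₀⟩ := p
    -- the coefficients as a function of the monomial
    let c' : GLv → Fin (finrank K V) → Kh L w := fun t i =>
      if h : ∃ k, ∃ hk : k ∈ S, repG L.m 0 k = t then c (⟨h.choose, h.choose_spec.choose⟩, i) else 0
    have hc' : ∀ (k : ZMod L.m) (hk : k ∈ S) i, c' (repG L.m 0 k) i = c (⟨k, hk⟩, i) := by
      intro k hk i
      have h0 : ∃ k', ∃ hk' : k' ∈ S, repG L.m 0 k' = repG L.m 0 k := ⟨k, hk, rfl⟩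
      have h1 : h0.choose = k := hinj h0.choose_spec.choose hk h0.choose_spec.choose_spec
      simp only [c', dif_pos h0]
      congr 2
      exact Subtype.ext h1
    have h1 := coordF_of_sum (S0 (cS L) (piN w)) T hT' (fun i => ((finBasis K V i : V) : A)) f hfv c'
      (repG L.m 0 k₀) (Finset.mem_image.2 ⟨_, hk₀, rfl⟩) i₀
    have h2 : (∑ t ∈ T, ∑ i, c' t i • (mono t ((finBasis K V i : V) : A) : THS A (tw L))) = 0 := by
      have h3 := congrArg Subtype.val hc
      rw [Fintype.sum_prod_type] at h3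
      rw [hT, Finset.sum_image hinj, ← Finset.sum_coe_sort S]
      rw [AddSubmonoidClass.coe_finsetSum] at h3
      refine Eq.trans ?_ h3
      refine Finset.sum_congr rfl fun k _ => ?_
      rw [AddSubmonoidClass.coe_finsetSum]
      refine Finset.sum_congr rfl fun i _ => ?_
      rw [hc' k.1 k.2]
      rfl
    rw [h2] at h1
    have h3 : coordF (S0 (cS L) (piN w)) (f i₀) (repG L.m 0 k₀) (0 : THS A (tw L)) = 0 := by
      apply Subtype.ext
      ext γ
      show (serF (S0 (cS L) (piN w)) (f i₀) (repG L.m 0 k₀) 0).coeff γ = 0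
      rw [coeff_serF]
      simp
    rw [h3, hc' k₀ hk₀] at h1
    exact h1.symm
  rw [coSub_eq_span, finrank_span_eq_card hli]
  simp

end LvData

end Crest.Agent.Kurosh.LeadVN
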