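/-
S0270 (helper89): the test core of the Key Lemma (blueprint §I), abstract over a level-up `L`.

`TD L w`: the data `β, H, g, y` with `H g - g β` of lead `y e_{t₀}` at the value `γ₀ > 0` for `v_w`.
* `hasL_H`, `hasL_w`, `taylor`, `hasL_Pi`: `Π = P_β(H)` has lead `P_β'(β) y` at `γ₀`;
* `Q0`, `E_le_Q0`: `E = K[β,y]` is the residue of `F' = K'[H]` (Kummer);
* `lift_line`: for every `f ∈ E` and every point `(γ,t)` of the line through `(γ₀,t₀)` (modulo `m`)
  there is `x ∈ F'` with `HasL x γ t f`;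
* `finrank_le_of_lift`: `m dim_K V ≤ dim_K' W` for `V`-valued leads of `W` on the line;
* `lead_eq_of_lift`: equality case;
* `H3`: leads of the orthogonal projections to `F'`.
-/
import Crest.Agent.Kurosh.LeadRh
import Crest.Agent.Kurosh.CentFactsB

set_option autoImplicit false
set_option linter.unusedSectionVars false

namespace Crest.Agent.Kurosh.LeadVN.LvData

open THS THSLead Hensel LU Module Polynomial

variable {K A K' R : Type*} [Field K] [DivisionRing A] [Algebra K A] [Field K'] [DivisionRing R]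
  [Algebra K R] [Algebra K' R] [Algebra K K'] [IsScalarTower K K' R] {τ : A →ₗ[K] K}
  {L : Lv K A K' R τ} {w : ℕ} [FiniteDimensional K A]

namespace HasL

lemma mul_zero_left {x y : R} {δ : GV} {u : (piN w).ker} {a b : A} (hx : HasL L w x 0 0 a)
    (hy : HasL L w y δ u b) : HasL L w (x * y) δ u (a * b) := by
  have h := hx.mul hy
  rw [zero_add, zero_add] at h
  refine h.of_eq ?_
  have h4 : (ofLex (0 : GV)).1 = 0 := rfl
  rw [h4, zero_mul, zpow_zero, one_smul]

lemma mul_zero_right {x y : R} {γ : GV} {t : (piN w).ker} {a b : A} (hx : HasL L w x γ t a)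
    (hy : HasL L w y 0 0 b) : HasL L w (x * y) γ t (a * b) := by
  have h := hx.mul hy
  rw [add_zero, add_zero] at h
  refine h.of_eq ?_
  have h3 : kG (0 : (piN w).ker).1 = 0 := by
    show κ (0 : CE) = 0
    exact map_zero κ
  rw [h3, mul_zero, zpow_zero, one_smul]

lemma neg {x : R} {γ : GV} {t : (piN w).ker} {a : A} (hx : HasL L w x γ t a) :
    HasL L w (-x) γ t (-a) := by
  refine ⟨by rw [(gr L w).val_neg]; exact hx.1, ?_⟩
  rw [map_neg, hx.2]
  have h := mh_add_right L w t a (-a)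
  rw [add_neg_cancel, mh_zero_right] at h
  exact neg_eq_of_add_eq_zero_right h.symm

lemma sub {x y : R} {γ : GV} {t : (piN w).ker} {a b : A} (hx : HasL L w x γ t a)
    (hy : HasL L w y γ t b) : HasL L w (x - y) γ t (a - b) := by
  rw [sub_eq_add_neg, sub_eq_add_neg]
  exact hx.add hy.neg

lemma zero (γ : GV) (t : (piN w).ker) : HasL L w (0 : R) γ t 0 := by
  refine ⟨?_, ?_⟩
  · rw [(gr L w).val_zero]
    exact le_top
  · rw [mh_zero_right]
    exact map_zero _

lemma pow {x : R} {γ : GV} {t : (piN w).ker} {a : A} (hx : HasL L w x γ t a) (r : ℕ) :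
    ∃ c : K, c ≠ 0 ∧ HasL L w (x ^ r) (r • γ) (r • t) (c • a ^ r) := by
  induction r with
  | zero =>
    refine ⟨1, one_ne_zero, ?_⟩
    rw [pow_zero, zero_smul, zero_smul, pow_zero, one_smul]
    exact HasL.one
  | succ r ih =>
    obtain ⟨c, hc, h⟩ := ih
    refine ⟨L.ζ ^ ((ofLex (r • γ)).1 * kG t.1) * c, mul_ne_zero (zpow_ne_zero _ L.ζ_ne) hc, ?_⟩
    have h2 := h.mul hx
    rw [pow_succ, succ_nsmul, succ_nsmul, pow_succ]
    refine h2.of_eq ?_
    rw [smul_mul_assoc, smul_smul]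

/-- The coefficient `(c_γ x)` at `t` of a monomial lead. -/
lemma coeff_self {x : R} {γ : GV} {t : (piN w).ker} {a : A} (hx : HasL L w x γ t a) :
    ((gr L w).c γ x).1.coeff t.1 = a := by
  classical
  rw [hx.2, coeff_mh, if_pos rfl]

end HasL

/-- Pairing with a monomial lead on the left. -/
theorem pair_coeff' {γ δ : GV} (hγδ : γ + δ = 0) {x f : R} {t : (piN w).ker} {a : A}
    (hx : HasL L w x γ t a) (hf : (δ : WithTop GV) ≤ (gr L w).val f) (h0 : L.τ' (x * f) = 0) :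
    τ (a * ((gr L w).c δ f).1.coeff (-t.1)) = 0 := by
  have h1 := (gr L w).pair_zero hγδ hx.1 hf h0
  rw [hx.2] at h1
  have h2 := congrArg (fun c : Kh L w => c.1.coeff 0) h1
  have h3 : ((gr L w).τR (mh L w t a * (gr L w).θ γ ((gr L w).c δ f))).1.coeff 0
      = algebraMap K A (τ ((mono t.1 a * ((gr L w).θ γ ((gr L w).c δ f)).1 : THS A (tw L)).coeff 0)) := by
    show (traceSeries (S0 (cS L) (piN w)) τ _).coeff 0 = _
    rw [coeff_traceSeries, if_pos (AddSubgroup.zero_mem _)]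
    rfl
  have h4 := coeff_mono_mul t.1 a ((gr L w).θ γ ((gr L w).c δ f)).1 (-t.1)
  rw [add_neg_cancel] at h4
  have h5 : (tw L) t.1 (-t.1) = 1 := tw_ker L w t _
  rw [h4, h5, one_smul, coeff_theta, mul_smul_comm, map_smul] at h3
  replace h2 : ((gr L w).τR (mh L w t a * (gr L w).θ γ ((gr L w).c δ f))).1.coeff 0 = 0 := h2
  rw [h3] at h2
  have h6 := (map_eq_zero (algebraMap K A)).1 h2
  exact (smul_eq_zero.1 h6).resolve_left (zpow_ne_zero _ L.ζ_ne)

/-- `aeval` and conjugation. -/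
lemma aeval_conj (g x : R) (hg : g ≠ 0) (p : K[X]) :
    aeval (g * x * g⁻¹) p = g * aeval x p * g⁻¹ := by
  induction p using Polynomial.induction_on with
  | C a =>
    rw [aeval_C, aeval_C, ← Algebra.commutes a g, mul_assoc, mul_inv_cancel₀ hg, mul_one]
  | add p q hp hq =>
    rw [map_add, map_add, hp, hq, mul_add, add_mul]
  | monomial n a h =>
    have e : C a * X ^ (n + 1) = C a * X ^ n * X := by rw [pow_succ, mul_assoc]
    rw [e, map_mul, map_mul (aeval x), aeval_X, aeval_X, h]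
    calc g * (aeval x) (C a * X ^ n) * g⁻¹ * (g * x * g⁻¹)
        = g * (aeval x) (C a * X ^ n) * (g⁻¹ * g) * x * g⁻¹ := by noncomm_ring
      _ = _ := by rw [inv_mul_cancel₀ hg, mul_one, mul_assoc g, mul_assoc g]

/-- **Taylor**. -/
theorem taylor {β y : A} {v : R} {γ : GV} {t : (piN w).ker} (hv : HasL L w v γ t y) (hγ : 0 < γ)
    (hyβ : β * y = y * β) (p : K[X]) :
    HasL L w (aeval (L.lev.inc β + v) p - L.lev.inc (aeval β p)) γ t
      (aeval β (derivative p) * y) := by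
  have hb := HasL.inc (L := L) (w := w) β
  set x := L.lev.inc β + v with hx
  induction p using Polynomial.induction_on with
  | C a =>
    rw [aeval_C, aeval_C, AlgHom.commutes, sub_self, derivative_C, map_zero, zero_mul]
    exact HasL.zero γ t
  | add p q hp hq =>
    have h := hp.add hq
    have e1 : aeval x (p + q) - L.lev.inc (aeval β (p + q)) =
        (aeval x p - L.lev.inc (aeval β p)) + (aeval x q - L.lev.inc (aeval β q)) := by
      rw [map_add, map_add, map_add]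
      abel
    rw [e1, derivative_add, map_add, add_mul]
    exact h
  | monomial n a h =>
    have hp : C a * X ^ (n + 1) = (C a * X ^ n) * X := by rw [pow_succ, mul_assoc]
    rw [hp]
    generalize C a * X ^ n = p at h
    set u := aeval x p - L.lev.inc (aeval β p) with hu
    have e : aeval x (p * X) - L.lev.inc (aeval β (p * X)) =
        (u * L.lev.inc β + L.lev.inc (aeval β p) * v) + u * v := by
      rw [map_mul, map_mul, aeval_X, aeval_X, map_mul, hu, hx]
      noncomm_ring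
    have h1 := h.mul_zero_right hb
    have h2 := (HasL.inc (L := L) (w := w) (aeval β p)).mul_zero_left hv
    have h3 : (γ : WithTop GV) < (gr L w).val (u * v) := by
      refine lt_of_lt_of_le ?_ ((gr L w).le_val_mul h.1 hv.1)
      exact WithTop.coe_lt_coe.2 (lt_add_of_pos_left γ hγ)
    have h4 := (h1.add h2).add_lt h3
    rw [e]
    refine h4.of_eq ?_
    rw [derivative_mul, derivative_X, mul_one, map_add, map_mul, aeval_X, add_mul, mul_assoc,
      mul_assoc, hyβ]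

lemma aeval_mem_sub {k B : Type*} [Field k] [Ring B] [Algebra k B] (S : Subalgebra k B) {x : B}
    (hx : x ∈ S) (p : k[X]) : aeval x p ∈ S := by
  have h := Polynomial.aeval_algHom_apply S.val (⟨x, hx⟩ : S) p
  have h2 : S.val (⟨x, hx⟩ : S) = x := rfl
  rw [h2] at h
  rw [h]
  exact (aeval (⟨x, hx⟩ : S) p).2

lemma fst_nsmul (n : ℕ) (γ : GV) : (ofLex (n • γ)).1 = (n : ℤ) * (ofLex γ).1 := by
  induction n with
  | zero =>
    rw [zero_smul]
    simp
  | succ n ih =>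
    rw [succ_nsmul]
    show (ofLex (n • γ)).1 + (ofLex γ).1 = _
    rw [ih]
    push_cast
    ring

lemma kG_add (a b : GLv) : kG (a + b) = kG a + kG b := map_add κ _ _

lemma kG_nsmul (n : ℕ) (t : (piN w).ker) : kG ((n • t : (piN w).ker) : GLv) = (n : ℤ) * kG t.1 := by
  induction n with
  | zero =>
    rw [zero_smul]
    simp
  | succ n ih =>
    rw [succ_nsmul]
    show kG (((n • t : (piN w).ker) : GLv) + t.1) = _
    rw [kG_add, ih]
    push_cast
    ring

/-- The data of the test. -/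
structure TD (L : Lv K A K' R τ) (w : ℕ) where
  /-- the value of the word at the old state -/
  β : A
  /-- the value of the word at the new state -/
  H : R
  /-- the frame -/
  g : R
  /-- the leading term of the error -/
  y : A
  /-- the value of the error -/
  γ₀ : GV
  /-- the `s`-part of the monomial of the error -/
  t₀ : (piN w).ker
  hg : HasL L w g 0 0 1
  hE : HasL L w (H * g - g * L.lev.inc β) γ₀ t₀ y
  hγ₀ : 0 < γ₀
  hy : y ≠ 0
  hyβ : β * y = y * β
  hcl : ¬ ((L.m : ℤ) ∣ (ofLex γ₀).1 ∧ (L.m : ℤ) ∣ kG t₀.1)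

namespace TD

variable (D : TD L w)

/-- `F' = K'[H]`. -/
noncomputable def F' : Subalgebra K' R := Algebra.adjoin K' {D.H}

/-- `E = K[β,y]`. -/
noncomputable def E : Subalgebra K A := Algebra.adjoin K {D.β, D.y}

lemma H_mem : D.H ∈ D.F' := Algebra.subset_adjoin rfl

lemma β_mem : D.β ∈ D.E := Algebra.subset_adjoin (by simp)
lemma y_mem : D.y ∈ D.E := Algebra.subset_adjoin (by simp)

lemma g_ne : D.g ≠ 0 := by
  rintro h
  have h1 := D.hg.2
  rw [h, map_zero, mh_zero_one] at h1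
  exact zero_ne_one h1

/-- `w̃ = g⁻¹ E`. -/
noncomputable def v : R := D.g⁻¹ * (D.H * D.g - D.g * L.lev.inc D.β)

lemma hasL_v : HasL L w D.v D.γ₀ D.t₀ D.y := by
  have h := (HasL.inv D.hg one_ne_zero).mul_zero_left D.hE
  rwa [inv_one, one_mul] at h

lemma H_eq : D.H = D.g * (L.lev.inc D.β + D.v) * D.g⁻¹ := by
  have hg0 := D.g_ne
  unfold v
  rw [mul_add, mul_inv_cancel_left₀ hg0, add_sub_cancel, mul_inv_cancel_right₀ hg0]

/-- The lead of `H`. -/
lemma hasL_H : HasL L w D.H 0 0 D.β := by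
  have h1 := (HasL.inc (L := L) (w := w) D.β)
  have h2 : ((0 : GV) : WithTop GV) < (gr L w).val D.v :=
    lt_of_lt_of_le (WithTop.coe_lt_coe.2 D.hγ₀) D.hasL_v.1
  have h3 := (h1.add_lt h2).conj D.hg
  rwa [← D.H_eq] at h3

/-- The minimal polynomial of `β`. -/
noncomputable def Pβ : K[X] := minpoly K D.β

/-- `Π = P_β(H)`. -/
noncomputable def Pi : R := aeval D.H D.Pβ

/-- `y₀ = P_β'(β) y`. -/
noncomputable def y0 : A := aeval D.β (derivative D.Pβ) * D.y

lemma Pi_mem : D.Pi ∈ D.F' := by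
  have h : D.Pi = aeval D.H (D.Pβ.map (algebraMap K K')) := by
    unfold Pi
    rw [aeval_map_algebraMap]
  rw [h]
  exact aeval_mem_sub _ D.H_mem _

lemma hasL_Pi : HasL L w D.Pi D.γ₀ D.t₀ D.y0 := by
  have h := taylor D.hasL_v D.hγ₀ D.hyβ D.Pβ
  have h0 : aeval D.β D.Pβ = 0 := minpoly.aeval K D.β
  rw [h0, map_zero, sub_zero] at h
  have h2 := h.conj D.hg
  rw [← aeval_conj _ _ D.g_ne, ← D.H_eq] at h2
  exact h2

lemma y0_mem : D.y0 ∈ D.E :=
  mul_mem (aeval_mem_sub _ D.β_mem _) D.y_mem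

/-- The residue of `F'` at value `0`. -/
noncomputable def Q0 : Subalgebra K A where
  carrier := {f | ∃ x ∈ D.F', HasL L w x 0 0 f}
  mul_mem' := by
    rintro a b ⟨x, hx, h⟩ ⟨x', hx', h'⟩
    exact ⟨x * x', mul_mem hx hx', h.mul_zero_left h'⟩
  add_mem' := by
    rintro a b ⟨x, hx, h⟩ ⟨x', hx', h'⟩
    exact ⟨x + x', add_mem hx hx', h.add h'⟩
  algebraMap_mem' := by
    intro c
    refine ⟨algebraMap K R c, ?_, HasL.algebraMap_K c⟩
    rw [IsScalarTower.algebraMap_apply K K' R]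
    exact Subalgebra.algebraMap_mem _ _

lemma mem_Q0 {f : A} : f ∈ D.Q0 ↔ ∃ x ∈ D.F', HasL L w x 0 0 f := Iff.rfl

variable [CharZero K]

lemma dβ_ne : aeval D.β (derivative D.Pβ) ≠ 0 := CentFactsB.aeval_derivative_minpoly_ne_zero D.β

lemma y0_ne : D.y0 ≠ 0 := mul_ne_zero D.dβ_ne D.hy

/-- **Kummer**: `E` is the residue of `F'`. -/
theorem E_le_Q0 (hC : ∀ a : A, (∀ x, a * x = x * a) → ∃ c : K, a = algebraMap K A c)
    {N : ℕ} (hN : finrank K A = N ^ 2) (hmN : ¬ L.m ∣ N) : D.E ≤ D.Q0 := by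
  have hβ : D.β ∈ D.Q0 := ⟨D.H, D.H_mem, D.hasL_H⟩
  -- `y₀^m`
  have hpow : D.y0 ^ L.m ∈ D.Q0 := by
    obtain ⟨c, hc, h⟩ := D.hasL_Pi.pow L.m
    obtain ⟨l, hl, h2⟩ := h.shift 0 0
      (by
        show (L.m : ℤ) ∣ (0 : ℤ) - (ofLex (L.m • D.γ₀)).1
        rw [fst_nsmul]
        exact dvd_sub (dvd_zero _) (dvd_mul_right _ _))
      (by
        show (L.m : ℤ) ∣ kG (0 : GLv) - kG ((L.m • D.t₀ : (piN w).ker) : GLv)
        rw [kG_nsmul]
        exact dvd_sub (by simp) (dvd_mul_right _ _))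
    have h3 : c • D.y0 ^ L.m ∈ D.Q0 :=
      ⟨_, mul_mem (Subalgebra.algebraMap_mem _ _) (pow_mem D.Pi_mem _), h2⟩
    have h4 := Subalgebra.smul_mem D.Q0 h3 c⁻¹
    rwa [smul_smul, inv_mul_cancel₀ hc, one_smul] at h4
  -- commutativity
  have hβy0 : D.β * D.y0 = D.y0 * D.β := by
    have h1 : D.β * aeval D.β (derivative D.Pβ) = aeval D.β (derivative D.Pβ) * D.β :=
      CentFactsB.aeval_comm _ _ 
    unfold y0
    rw [← mul_assoc, h1, mul_assoc, D.hyβ, mul_assoc]
  set E1 : Subalgebra K A := Algebra.adjoin K {D.β, D.y0 ^ L.m} with hE1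
  have hgen : ∀ a ∈ ({D.β, D.y0 ^ L.m} : Set A), ∀ b ∈ ({D.β, D.y0 ^ L.m} : Set A),
      a * b = b * a := by
    have h1 : D.β * D.y0 ^ L.m = D.y0 ^ L.m * D.β := (Commute.pow_right hβy0 _).eq
    rintro a (rfl | rfl) b (rfl | rfl)
    · rfl
    · exact h1
    · exact h1.symm
    · rfl
  have hE1c : ∀ x ∈ E1, ∀ y ∈ E1, x * y = y * x := by
    have := Algebra.isMulCommutative_adjoin K hgen
    intro x hx y hy
    exact congrArg Subtype.val (mul_comm' (⟨x, hx⟩ : E1) ⟨y, hy⟩)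
  have hy0c : ∀ e ∈ E1, e * D.y0 = D.y0 * e := by
    intro e he
    have hc : E1 ≤ Subalgebra.centralizer K ({D.y0} : Set A) := by
      apply Algebra.adjoin_le
      rintro a (rfl | rfl)
      · rw [SetLike.mem_coe, Subalgebra.mem_centralizer_iff]
        rintro _ rfl
        exact hβy0.symm
      · rw [SetLike.mem_coe, Subalgebra.mem_centralizer_iff]
        rintro _ rfl
        exact (Commute.pow_right (Commute.refl _) _).eq
    have := (Subalgebra.mem_centralizer_iff K).1 (hc he) D.y0 rfl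
    exact this.symm
  have hy0 : D.y0 ∈ E1 := CentFactsB.mem_of_pow_mem hC hN E1 hE1c L.m_prime hmN L.ζ_prim hy0c
    (Algebra.subset_adjoin (by simp))
  have hE1Q : E1 ≤ D.Q0 := by
    apply Algebra.adjoin_le
    rintro a (rfl | rfl)
    · exact hβ
    · exact hpow
  have hy0Q := hE1Q hy0
  have hyQ : D.y ∈ D.Q0 := by
    have h1 : D.y = (aeval D.β (derivative D.Pβ))⁻¹ * D.y0 := by
      unfold y0
      rw [inv_mul_cancel_left₀ D.dβ_ne]
    rw [h1]
    exact mul_mem (DoubleCent.inv_mem_subalgebra _ (aeval_mem_sub _ hβ _)) hy0Q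
  apply Algebra.adjoin_le
  rintro a (rfl | rfl)
  · exact hβ
  · exact hyQ

/-- Elements of `E` lift to all multiples of `(γ₀,t₀)`. -/
theorem lift_mul (hQ : D.E ≤ D.Q0) (r : ℕ) {f : A} (hf : f ∈ D.E) :
    ∃ x ∈ D.F', HasL L w x (r • D.γ₀) (r • D.t₀) f := by
  induction r generalizing f with
  | zero =>
    obtain ⟨x, hx, h⟩ := hQ hf
    refine ⟨x, hx, ?_⟩
    rw [zero_smul, zero_smul]
    exact h
  | succ r ih =>
    set c : K := L.ζ ^ ((ofLex (r • D.γ₀)).1 * kG D.t₀.1) with hc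
    have hc0 : c ≠ 0 := zpow_ne_zero _ L.ζ_ne
    have hf' : c⁻¹ • (f * D.y0⁻¹) ∈ D.E :=
      Subalgebra.smul_mem _ (mul_mem hf (DoubleCent.inv_mem_subalgebra _ D.y0_mem)) _
    obtain ⟨x, hx, h⟩ := ih hf'
    refine ⟨x * D.Pi, mul_mem hx D.Pi_mem, ?_⟩
    have h2 := h.mul D.hasL_Pi
    rw [succ_nsmul, succ_nsmul]
    refine h2.of_eq ?_
    rw [← hc, smul_mul_assoc, smul_smul, mul_inv_cancel₀ hc0, one_smul, mul_assoc,
      inv_mul_cancel₀ D.y0_ne, mul_one]

/-- The class of `γ₀`. -/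
noncomputable def j₀ : ZMod L.m := ((ofLex D.γ₀).1 : ℤ)

/-- The class of `t₀`. -/
noncomputable def k₀ : ZMod L.m := (kG D.t₀.1 : ℤ)

lemma cl_ne : D.j₀ ≠ 0 ∨ D.k₀ ≠ 0 := by
  by_contra h
  push Not at h
  apply D.hcl
  exact ⟨(ZMod.intCast_zmod_eq_zero_iff_dvd _ _).1 h.1, (ZMod.intCast_zmod_eq_zero_iff_dvd _ _).1 h.2⟩

/-- Points of the line through the class of `(γ₀,t₀)`. -/
def lineP (γ : GV) (t : (piN w).ker) : Prop :=
  ∃ r : ZMod L.m, (((ofLex γ).1 : ℤ) : ZMod L.m) = r * D.j₀ ∧ ((kG t.1 : ℤ) : ZMod L.m) = r * D.k₀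

lemma lineP_neg {γ : GV} {t : (piN w).ker} (h : D.lineP γ t) : D.lineP (-γ) (-t) := by
  obtain ⟨r, h1, h2⟩ := h
  refine ⟨-r, ?_, ?_⟩
  · show (((ofLex (-γ)).1 : ℤ) : ZMod L.m) = _
    have : (ofLex (-γ)).1 = -(ofLex γ).1 := rfl
    rw [this, Int.cast_neg, h1, neg_mul]
  · show ((κ (ofLex (-t.1)).2 : ℤ) : ZMod L.m) = _
    have : κ (ofLex (-t.1)).2 = -kG t.1 := map_neg κ _
    rw [this, Int.cast_neg, h2, neg_mul]

lemma lineP_self : D.lineP D.γ₀ D.t₀ := ⟨1, by rw [one_mul]; rfl, by rw [one_mul]; rfl⟩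

lemma lineP_zero : D.lineP 0 0 := ⟨0, by
  rw [zero_mul]
  simp, by
  rw [zero_mul]
  show ((κ (0 : CE) : ℤ) : ZMod L.m) = 0
  simp⟩

/-- The leads of `F'` on the line. -/
theorem lift_line (hQ : D.E ≤ D.Q0) {γ : GV} {t : (piN w).ker} (hl : D.lineP γ t) {f : A}
    (hf : f ∈ D.E) : ∃ x ∈ D.F', HasL L w x γ t f := by
  obtain ⟨r, h1, h2⟩ := hl
  obtain ⟨x, hx, h⟩ := D.lift_mul hQ r.val hf
  obtain ⟨l, hl, h3⟩ := h.shift γ t
    (by
      rw [← ZMod.intCast_zmod_eq_zero_iff_dvd]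
      rw [fst_nsmul, Int.cast_sub, Int.cast_mul, h1, intCast_val L.m r, sub_eq_zero]
      rfl)
    (by
      rw [← ZMod.intCast_zmod_eq_zero_iff_dvd]
      rw [kG_nsmul, Int.cast_sub, Int.cast_mul, h2, intCast_val L.m r, sub_eq_zero]
      rfl)
  exact ⟨_, mul_mem (Subalgebra.algebraMap_mem _ _) hx, h3⟩

lemma eV_cast (a : ZMod L.m) : (((ofLex (eV L.m a)).1 : ℤ) : ZMod L.m) = a := intCast_val L.m a

/-- Lifts on the line give subspaces of the leading spaces. -/
theorem coSub_le_lead_of {W : Submodule K' R} {V : Submodule K A}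
    (h : ∀ γ t, D.lineP γ t → ∀ f ∈ V, ∃ x ∈ W, HasL L w x γ t f) (a : ZMod L.m) :
    coSub L w V (Tl D.j₀ D.k₀ a) ≤ (gr L w).toLeadData.lead (eV L.m a) W := by
  apply coSub_le
  intro k hk f hf
  obtain ⟨r, h1, h2⟩ := mem_Tl.1 hk
  have hl : D.lineP (eV L.m a) (rK w k) :=
    ⟨r, by rw [eV_cast]; exact h1, by rw [kG_rK]; exact h2⟩
  obtain ⟨x, hx, hh⟩ := h _ _ hl f hf
  exact ⟨x, hx, hh.1, hh.2⟩

/-- **The count**. -/
theorem finrank_le_of_lift {W : Submodule K' R} {V : Submodule K A}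
    (h : ∀ γ t, D.lineP γ t → ∀ f ∈ V, ∃ x ∈ W, HasL L w x γ t f) :
    L.m * finrank K V ≤ finrank K' W := by
  rw [gauss L w W]
  calc L.m * finrank K V = ∑ a : ZMod L.m, (Tl D.j₀ D.k₀ a).card * finrank K V := by
        rw [← Finset.sum_mul, sum_card_Tl D.cl_ne]
    _ = ∑ a : ZMod L.m, finrank (Kh L w) (coSub L w V (Tl D.j₀ D.k₀ a)) :=
        Finset.sum_congr rfl fun a _ => (finrank_coSub V _).symm
    _ ≤ _ := Finset.sum_le_sum fun a _ => Submodule.finrank_mono (D.coSub_le_lead_of h a)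

lemma sum_finrank_coSub (V : Submodule K A) :
    ∑ a : ZMod L.m, finrank (Kh L w) (coSub L w V (Tl D.j₀ D.k₀ a)) = L.m * finrank K V := by
  calc ∑ a : ZMod L.m, finrank (Kh L w) (coSub L w V (Tl D.j₀ D.k₀ a))
      = ∑ a : ZMod L.m, (Tl D.j₀ D.k₀ a).card * finrank K V :=
        Finset.sum_congr rfl fun a _ => finrank_coSub V _
    _ = _ := by rw [← Finset.sum_mul, sum_card_Tl D.cl_ne]

/-- **The equality case of the count**. -/
theorem lead_eq_of_lift {W : Submodule K' R} {V : Submodule K A}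
    (h : ∀ γ t, D.lineP γ t → ∀ f ∈ V, ∃ x ∈ W, HasL L w x γ t f)
    (hdim : finrank K' W ≤ L.m * finrank K V) (a : ZMod L.m) :
    coSub L w V (Tl D.j₀ D.k₀ a) = (gr L w).toLeadData.lead (eV L.m a) W :=
  TestCore.lead_eq_of_le_of_sum (gr L w) (eV L.m) (gauss L w W) (D.coSub_le_lead_of h)
    (by rw [D.sum_finrank_coSub]; exact hdim) a

/-- Leading spaces at all values, if the leading spaces at the representatives are known. -/
theorem lead_le_of_forall {W : Submodule K' R} {V : Submodule K A}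
    (h : ∀ a : ZMod L.m, (gr L w).toLeadData.lead (eV L.m a) W ≤ coSub L w V (Tl D.j₀ D.k₀ a))
    (γ : GV) : (gr L w).toLeadData.lead γ W ≤ coSub L w V (Tl D.j₀ D.k₀ (((ofLex γ).1 : ℤ) : ZMod L.m)) := by
  obtain ⟨a, l, hl, he⟩ := gr_hcl L w γ
  have ha : (((ofLex γ).1 : ℤ) : ZMod L.m) = a := by
    have h1 : (ofLex γ).1 + (ofLex ((gr L w).lam l)).1 = (ofLex (eV L.m a)).1 :=
      congrArg (fun z : GV => (ofLex z).1) he
    have h2 := congrArg (fun z : ℤ => (z : ZMod L.m)) h1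
    simp only [Int.cast_add] at h2
    rw [eV_cast, (ZMod.intCast_zmod_eq_zero_iff_dvd _ _).2 (gr_lam_dvd L w hl), add_zero] at h2
    exact h2
  rw [ha, ← (gr L w).lead_add_lam γ hl W, he]
  exact h a

include D in
lemma finiteR : FiniteDimensional K' R := Module.Finite.of_basis (basisR L)

lemma c_one : (gr L w).c 0 (1 : R) = 1 := by
  rw [(HasL.one (L := L) (w := w)).2]
  rfl

/-- A lift of `b ∈ E` pairs nontrivially. -/
theorem exists_pair_ne (hQ : D.E ≤ D.Q0) {x : R} {γ : GV} {t : (piN w).ker} {d b : A}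
    (hx : HasL L w x γ t d) (hl : D.lineP γ t) (hb : b ∈ D.E) (h : τ (d * b) ≠ 0) :
    ∃ f ∈ D.F', L.τ' (x * f) ≠ 0 := by
  obtain ⟨f, hf, hfl⟩ := D.lift_line hQ (D.lineP_neg hl) hb
  refine ⟨f, hf, fun h0 => h ?_⟩
  have h1 := pair_coeff (add_neg_cancel γ) hx.1 hfl h0
  have h2 : -((-t : (piN w).ker) : GLv) = t.1 := neg_neg _
  rw [h2, hx.coeff_self] at h1
  exact h1

/-- **H3**: the lead of the orthogonal projection on `F'` in the equality case. -/
theorem H3 (hQ : D.E ≤ D.Q0) (hτ1 : τ 1 = 1) (hτ'1 : L.τ' 1 = 1)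
    (heq : finrank K' (Subalgebra.toSubmodule D.F') ≤ L.m * finrank K (Subalgebra.toSubmodule D.E))
    {u x : R} (hu : u ∈ D.F') {γ : GV} {t : (piN w).ker} {d f₀ : A} (hx : HasL L w x γ t d)
    (hl : D.lineP γ t) (hf₀ : f₀ ∈ D.E) (h1 : ∀ f ∈ D.E, τ (f₀ * f) = τ (d * f))
    (h2 : ∀ f ∈ D.F', L.τ' (u * f) = L.τ' (x * f)) : HasL L w u γ t f₀ := by
  classical
  haveI := D.finiteR
  obtain ⟨u', hu', hul⟩ := D.lift_line hQ hl hf₀
  set ω := u - u' with hω
  have hωF : ω ∈ D.F' := sub_mem hu hu'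
  have hxu := hx.sub hul
  suffices main : HasL L w ω γ t 0 by
    have := main.add hul
    rwa [zero_add, hω, sub_add_cancel] at this
  by_cases hω0 : ω = 0
  · rw [hω0]
    exact HasL.zero γ t
  have hinv : ω⁻¹ ∈ D.F' := DoubleCent.inv_mem_subalgebra _ hωF
  have hpair : ∀ f ∈ D.F', L.τ' (ω * f) = L.τ' ((x - u') * f) := by
    intro f hf
    rw [hω, sub_mul, sub_mul, map_sub, map_sub, h2 f hf]
  have h3 := (gr L w).not_val_lt_of_pair c_one hτ'1 (mul_inv_cancel₀ hω0) (hpair _ hinv)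
  have hγω : (γ : WithTop GV) ≤ (gr L w).val ω := le_trans hxu.1 (not_lt.1 h3)
  have hξ : (gr L w).c γ ω ∈ coSub L w (Subalgebra.toSubmodule D.E)
      (Tl D.j₀ D.k₀ (((ofLex γ).1 : ℤ) : ZMod L.m)) := by
    refine D.lead_le_of_forall (W := Subalgebra.toSubmodule D.F') (fun a => ?_) γ
      ⟨ω, hωF, hγω, rfl⟩
    rw [D.lead_eq_of_lift (fun γ t hl f hf => D.lift_line hQ hl hf) heq a]
  refine ⟨hγω, ?_⟩
  rw [mh_zero_right]
  apply Subtype.ext
  ext h
  show ((gr L w).c γ ω).1.coeff h = 0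
  by_contra hne
  have hker : h ∈ (piN w).ker := ((gr L w).c γ ω).2 hne
  obtain ⟨hE, hcl⟩ := hξ h
  obtain ⟨r, hr1, hr2⟩ := mem_Tl.1 (hcl hne)
  have hl' : D.lineP γ ⟨h, hker⟩ := ⟨r, hr1, hr2⟩
  obtain ⟨f, hf, hfl⟩ := D.lift_line hQ (D.lineP_neg hl')
    (DoubleCent.inv_mem_subalgebra _ hE)
  have h5 : L.τ' ((ω - (x - u')) * f) = 0 := by
    rw [sub_mul, map_sub, hpair f hf, sub_self]
  have hval : (γ : WithTop GV) ≤ (gr L w).val (ω - (x - u')) := by
    rw [sub_eq_add_neg]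
    refine le_trans (le_min hγω ?_) ((gr L w).val_add _ _)
    rw [(gr L w).val_neg]
    exact hxu.1
  have h6 := pair_coeff (add_neg_cancel γ) hval hfl h5
  have h7 : -((-(⟨h, hker⟩ : (piN w).ker) : (piN w).ker) : GLv) = h := neg_neg _
  rw [h7, map_sub] at h6
  have h8 : (((gr L w).c γ ω - (gr L w).c γ (x - u'))).1.coeff h =
      ((gr L w).c γ ω).1.coeff h - ((gr L w).c γ (x - u')).1.coeff h := coeff_sub _ _ _
  rw [h8, hxu.2, sub_mul, map_sub, mul_inv_cancel₀ hne, hτ1, sub_eq_zero] at h6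
  have h9 : τ ((mh L w t (d - f₀)).1.coeff h * (((gr L w).c γ ω).1.coeff h)⁻¹) = 0 := by
    rw [coeff_mh]
    by_cases hht : h = t.1
    · rw [if_pos hht, sub_mul, map_sub, h1 _ (DoubleCent.inv_mem_subalgebra _ hE), sub_self]
    · rw [if_neg hht, zero_mul, map_zero]
  rw [h9] at h6
  exact one_ne_zero h6

end TD

end Crest.Agent.Kurosh.LeadVN.LvData
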