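/-
S0270 (helper89): the test core of the Key Lemma (blueprint §I), at the level of points.

`TP L P P' l D`: `D : TD L w` is the test for the word `l` between `P` and `P'`, with fresh moves.
* `exists_Mov_ne`: `Mov_l(P') ≠ 0`;
* `Mov_lead`: in the equality case `dim F' = m dim E`, for `f ∈ A_y` every point of the line carries
  a lead `f` of an element of `Mov_l(P')`;
* `Ly_lift`, `finrank_Ly_le`: `m dim 𝔏_y ≤ dim 𝖫'`;
* `ub_core`: the class bounds at `P` from the class bounds at `P'`;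
* `W_lift`: the centraliser of `F'` orthogonal to `Mov_l(P')` has all leads `p ∈ 𝒫(y)`.
-/
import Crest.Agent.Kurosh.KeyTest
import Crest.Agent.Kurosh.InvFacts

set_option autoImplicit false
set_option linter.unusedSectionVars false

namespace Crest.Agent.Kurosh.LeadVN.LvData

open THS THSLead Hensel LU Module Polynomial
open _root_.Crest.Agent.Kurosh.Inv
open _root_.Crest.Agent.Kurosh.Inv.St
open State (Pt)

variable {K A K' R : Type*} [Field K] [DivisionRing A] [Algebra K A] [Field K'] [DivisionRing R]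
  [Algebra K R] [Algebra K' R] [Algebra K K'] [IsScalarTower K K' R] {τ : A →ₗ[K] K}
  {L : Lv K A K' R τ} {w : ℕ} [FiniteDimensional K A]
variable {F : Type*} [Field F] [Algebra F K] [Algebra F A] [IsScalarTower F K A] [Algebra F R]
  [IsScalarTower F K R] [Algebra F K'] [IsScalarTower F K' R]

lemma comm_of_mem_adjoin {k B : Type*} [Field k] [Ring B] [Algebra k B] {a x : B}
    (hx : x ∈ Algebra.adjoin k ({a} : Set B)) : a * x = x * a := by
  have h : Algebra.adjoin k ({a} : Set B) ≤ Subalgebra.centralizer k ({a} : Set B) := by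
    apply Algebra.adjoin_le
    rintro _ rfl
    rw [SetLike.mem_coe, Subalgebra.mem_centralizer_iff]
    rintro _ rfl
    rfl
  exact (Subalgebra.mem_centralizer_iff k).1 (h hx) a rfl

/-- The test between `P` and `P'`. -/
structure TP (L : Lv K A K' R τ) (P : Pt F K A (Fin 2)) (P' : Pt F K' R (Fin 2)) (l : ℕ)
    (D : TD L w) : Prop where
  hβ : D.β = P.β l
  hH : D.H = P'.β l
  hτ : ∀ x, P.τ x = τ x
  hτ' : ∀ x, P'.τ x = L.τ' x
  hτ1 : τ 1 = 1
  hτ'1 : L.τ' 1 = 1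
  hQ : D.E ≤ D.Q0
  hym : D.y ∈ P.Mov l
  hFr : ∀ z ∈ P.Mov l, ∀ a k : ZMod L.m, ∃ t' ∈ P'.T l, ∃ (d : A) (γ : GV) (t₁ : (piN w).ker),
    P.e l d = z ∧ (((ofLex γ).1 : ℤ) : ZMod L.m) = a ∧ ((kG t₁.1 : ℤ) : ZMod L.m) = k ∧
      HasL L w (P'.dL l t') γ t₁ d

namespace TD

variable (D : TD L w)

lemma comm_F' {f : R} (hf : f ∈ D.F') : D.H * f = f * D.H := comm_of_mem_adjoin hf

lemma E_comm {a b : A} (ha : a ∈ D.E) (hb : b ∈ D.E) : a * b = b * a := by
  have hgen : ∀ a ∈ ({D.β, D.y} : Set A), ∀ b ∈ ({D.β, D.y} : Set A), a * b = b * a := by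
    rintro a (rfl | rfl) b (rfl | rfl)
    · rfl
    · exact D.hyβ
    · exact D.hyβ.symm
    · rfl
  have : IsMulCommutative ↥D.E := Algebra.isMulCommutative_adjoin K hgen
  exact congrArg Subtype.val (mul_comm' (⟨a, ha⟩ : D.E) ⟨b, hb⟩)

/-- `E` is contained in its centraliser. -/
lemma E_le_cent : D.E ≤ DoubleCent.centDiv D.E := by
  intro a ha
  rw [DoubleCent.mem_centDiv]
  intro b hb
  exact D.E_comm hb ha

end TD

namespace TP

variable {P : Pt F K A (Fin 2)} {P' : Pt F K' R (Fin 2)} {l : ℕ} {D : TD L w}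
  (T : TP L P P' l D)

include T

lemma τ_e_F' (x : R) {f : R} (hf : f ∈ D.F') : L.τ' (P'.e l x * f) = L.τ' (x * f) := by
  have hc : P'.β l * f = f * P'.β l := by
    rw [← T.hH]
    exact D.comm_F' hf
  rw [← T.hτ', ← T.hτ', P'.τ_comm, P'.τ_cent_e hc, P'.τ_comm]

lemma τ_e_E (d : A) {f : A} (hf : f ∈ D.E) : τ (P.e l d * f) = τ (d * f) := by
  have hc : P.β l * f = f * P.β l := by
    rw [← T.hβ]
    exact D.E_comm D.β_mem hf
  rw [← T.hτ, ← T.hτ, P.τ_comm, P.τ_cent_e hc, P.τ_comm]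

/-- `Mov_l(P') ≠ 0`. -/
theorem exists_Mov_ne [CharZero K] : ∃ u ∈ P'.Mov l, u ≠ 0 := by
  obtain ⟨t', ht', d, γ, t₁, hd, h1, h2, hl⟩ := T.hFr D.y T.hym 0 0
  have hline : D.lineP γ t₁ := ⟨0, by rw [h1, zero_mul], by rw [h2, zero_mul]⟩
  have hb : D.y⁻¹ ∈ D.E := DoubleCent.inv_mem_subalgebra _ D.y_mem
  have hne : τ (d * D.y⁻¹) ≠ 0 := by
    rw [← T.τ_e_E d hb, hd, mul_inv_cancel₀ D.hy, T.hτ1]
    exact one_ne_zero
  obtain ⟨f, hf, hfne⟩ := D.exists_pair_ne T.hQ hl hline hb hne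
  refine ⟨P'.e l (P'.dL l t'), P'.mem_Mov.2 ⟨t', ht', rfl⟩, fun h0 => hfne ?_⟩
  rw [← T.τ_e_F' _ hf, h0, zero_mul, map_zero]

variable [CharZero K]

/-- **Leads of `Mov_l(P')`**. -/
theorem Mov_lead (heq : finrank K' (Subalgebra.toSubmodule D.F') ≤
      L.m * finrank K (Subalgebra.toSubmodule D.E))
    (hSm : P'.Mov l ≤ Subalgebra.toSubmodule D.F') {f : A} (hf : f ∈ Ay P l D.y) {γ : GV}
    {t : (piN w).ker} (hl : D.lineP γ t) : ∃ u ∈ P'.Mov l, HasL L w u γ t f := by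
  have hFy : Fy P l D.y = D.E := by
    unfold Fy TD.E
    rw [T.hβ]
  obtain ⟨hfE, z, hz, hfz⟩ := hf
  rw [Subalgebra.mem_toSubmodule, hFy] at hfE
  obtain ⟨r, hr1, hr2⟩ := hl
  obtain ⟨t', ht', d, γ', t₁, hd, h1, h2, hlt⟩ := T.hFr z hz ((ofLex γ).1 : ℤ) (kG t.1 : ℤ)
  have hl' : D.lineP γ' t₁ := ⟨r, by rw [h1, hr1], by rw [h2, hr2]⟩
  have hu : P'.e l (P'.dL l t') ∈ P'.Mov l := P'.mem_Mov.2 ⟨t', ht', rfl⟩
  have h3 := D.H3 T.hQ T.hτ1 T.hτ'1 heq (hSm hu) hlt hl' hfE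
    (fun f' hf' => by
      have hf'' : f' ∈ Fy P l D.y := by rw [hFy]; exact hf'
      have := hfz f' hf''
      rw [T.hτ, T.hτ] at this
      rw [this, ← hd, T.τ_e_E d hf'])
    (fun f' hf' => T.τ_e_F' _ hf')
  obtain ⟨c, hc, h4⟩ := h3.shift γ t
    (by
      rw [← ZMod.intCast_zmod_eq_zero_iff_dvd, Int.cast_sub, h1, sub_self])
    (by
      rw [← ZMod.intCast_zmod_eq_zero_iff_dvd, Int.cast_sub, h2, sub_self])
  refine ⟨_, ?_, h4⟩
  rw [← Algebra.smul_def]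
  exact Submodule.smul_mem _ _ hu

/-- The lead `y` at value `0`. -/
lemma y_mem_Ay : D.y ∈ Ay P l D.y := by
  have hFy : Fy P l D.y = D.E := by
    unfold Fy TD.E
    rw [T.hβ]
  refine ⟨?_, D.y, T.hym, fun _ _ => rfl⟩
  rw [Subalgebra.mem_toSubmodule, hFy]
  exact D.y_mem

omit T in
lemma gen_mem_Ly (D : TD L w) (T : TP L P P' l D) (hSm : P'.Mov l ≤ Subalgebra.toSubmodule D.F') {u₀ u : R}
    (hu : u ∈ P'.Mov l) : u₀⁻¹ * u ∈ Ly P' l u₀ := by
  refine Algebra.subset_adjoin ⟨u, ⟨?_, u, hu, fun _ _ => rfl⟩, rfl⟩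
  have h1 : (D.F' : Subalgebra K' R) ≤ Fy P' l u₀ := by
    unfold TD.F' Fy
    apply Algebra.adjoin_mono
    rw [T.hH]
    simp
  exact h1 (hSm hu)

/-- **The second class bound**: `𝔏_y` is the residue of `𝖫' = Ly P' l u₀`. -/
theorem Ly_lift (heq : finrank K' (Subalgebra.toSubmodule D.F') ≤
      L.m * finrank K (Subalgebra.toSubmodule D.E))
    (hSm : P'.Mov l ≤ Subalgebra.toSubmodule D.F') {u₀ : R}
    (hu₀l : HasL L w u₀ 0 0 D.y) {γ : GV} {t : (piN w).ker} (hl : D.lineP γ t) {b : A}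
    (hb : b ∈ Ly P l D.y) : ∃ x ∈ Ly P' l u₀, HasL L w x γ t b := by
  -- the generators
  have hgen : ∀ u ∈ P'.Mov l, u₀⁻¹ * u ∈ Ly P' l u₀ := fun u hu => gen_mem_Ly D T hSm hu
  have hinv := HasL.inv hu₀l D.hy
  -- the residue algebra
  let Q1 : Subalgebra K A :=
    { carrier := {f | ∃ x ∈ Ly P' l u₀, HasL L w x 0 0 f}
      mul_mem' := by
        rintro a b ⟨x, hx, h⟩ ⟨x', hx', h'⟩
        exact ⟨x * x', mul_mem hx hx', h.mul_zero_left h'⟩
      add_mem' := by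
        rintro a b ⟨x, hx, h⟩ ⟨x', hx', h'⟩
        exact ⟨x + x', add_mem hx hx', h.add h'⟩
      algebraMap_mem' := by
        intro c
        refine ⟨algebraMap K R c, ?_, HasL.algebraMap_K c⟩
        rw [IsScalarTower.algebraMap_apply K K' R]
        exact Subalgebra.algebraMap_mem _ _ }
  have hQ1 : Ly P l D.y ≤ Q1 := by
    apply Algebra.adjoin_le
    rintro _ ⟨f, hf, rfl⟩
    obtain ⟨u, hu, hul⟩ := T.Mov_lead heq hSm hf D.lineP_zero
    exact ⟨u₀⁻¹ * u, hgen u hu, hinv.mul_zero_left hul⟩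
  obtain ⟨x, hx, hxl⟩ := hQ1 hb
  obtain ⟨u, hu, hul⟩ := T.Mov_lead heq hSm T.y_mem_Ay hl
  have h1 := hinv.mul_zero_left hul
  rw [inv_mul_cancel₀ D.hy] at h1
  have h2 := hxl.mul_zero_left h1
  rw [mul_one] at h2
  exact ⟨x * (u₀⁻¹ * u), mul_mem hx (hgen u hu), h2⟩

/-- The existence of `u₀`. -/
theorem exists_u0 (heq : finrank K' (Subalgebra.toSubmodule D.F') ≤
      L.m * finrank K (Subalgebra.toSubmodule D.E))
    (hSm : P'.Mov l ≤ Subalgebra.toSubmodule D.F') :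
    ∃ u₀ ∈ P'.Mov l, HasL L w u₀ 0 0 D.y ∧ u₀ ≠ 0 := by
  obtain ⟨u, hu, hul⟩ := T.Mov_lead heq hSm T.y_mem_Ay D.lineP_zero
  refine ⟨u, hu, hul, ?_⟩
  rintro rfl
  have h1 := hul.coeff_self
  rw [map_zero] at h1
  exact D.hy h1.symm

/-- The dimension of `𝔏_y` in the equality case. -/
theorem finrank_Ly_le (heq : finrank K' (Subalgebra.toSubmodule D.F') ≤
      L.m * finrank K (Subalgebra.toSubmodule D.E))
    (hSm : P'.Mov l ≤ Subalgebra.toSubmodule D.F') {u₀ : R} (hu₀l : HasL L w u₀ 0 0 D.y) :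
    L.m * finrank K (Ly P l D.y) ≤ finrank K' (Ly P' l u₀) :=
  D.finrank_le_of_lift (V := Subalgebra.toSubmodule (Ly P l D.y))
    (W := Subalgebra.toSubmodule (Ly P' l u₀))
    (fun _ _ hl _ hb => T.Ly_lift heq hSm hu₀l hl hb)

/-- **The class bounds at `P` from the class bounds at `P'`.** -/
theorem ub_core {n σ N : ℕ} (hN0 : 0 < N)
    (hSm : P'.Mov l ≤ Subalgebra.toSubmodule D.F')
    (hCB : ∀ u ∈ P'.Mov l, u ≠ 0 → n * finrank K' D.F' ≤ N * L.m ∧
      (n * finrank K' D.F' = N * L.m → σ * finrank K' (Ly P' l u) ≤ N * L.m)) :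
    n * finrank K D.E ≤ N ∧ (n * finrank K D.E = N → σ * finrank K (Ly P l D.y) ≤ N) := by
  have hm := L.m_prime.pos
  obtain ⟨u, hu, hne⟩ := T.exists_Mov_ne
  have h1 : L.m * finrank K D.E ≤ finrank K' D.F' :=
    D.finrank_le_of_lift (V := Subalgebra.toSubmodule D.E) (W := Subalgebra.toSubmodule D.F')
      (fun _ _ hl _ hb => D.lift_line T.hQ hl hb)
  have h2 := (hCB u hu hne).1
  have h3 : n * finrank K D.E ≤ N := by
    have h4 : n * (L.m * finrank K D.E) ≤ N * L.m := le_trans (Nat.mul_le_mul_left _ h1) h2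
    have h5 : (n * finrank K D.E) * L.m ≤ N * L.m := by
      calc _ = n * (L.m * finrank K D.E) := by ring
        _ ≤ _ := h4
    exact Nat.le_of_mul_le_mul_right h5 hm
  refine ⟨h3, fun h4 => ?_⟩
  have hn : 0 < n := by
    rcases Nat.eq_zero_or_pos n with h0 | h0
    · rw [h0, zero_mul] at h4
      omega
    · exact h0
  have heq : finrank K' D.F' ≤ L.m * finrank K D.E := by
    have h5 : n * finrank K' D.F' ≤ n * (L.m * finrank K D.E) := by
      calc n * finrank K' D.F' ≤ N * L.m := h2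
        _ = n * (L.m * finrank K D.E) := by rw [← h4]; ring
    exact Nat.le_of_mul_le_mul_left h5 hn
  have heq2 : n * finrank K' D.F' = N * L.m := by
    apply le_antisymm h2
    calc N * L.m = n * (L.m * finrank K D.E) := by rw [← h4]; ring
      _ ≤ n * finrank K' D.F' := Nat.mul_le_mul_left _ h1
  obtain ⟨u₀, hu₀, hu₀l, hu₀n⟩ := T.exists_u0 heq hSm
  have h6 := (hCB u₀ hu₀ hu₀n).2 heq2
  have h7 := T.finrank_Ly_le heq hSm hu₀l
  have h8 : (σ * finrank K (Ly P l D.y)) * L.m ≤ N * L.m := by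
    calc _ = σ * (L.m * finrank K (Ly P l D.y)) := by ring
      _ ≤ σ * finrank K' (Ly P' l u₀) := Nat.mul_le_mul_left _ h7
      _ ≤ _ := h6
  exact Nat.le_of_mul_le_mul_right h8 hm

end TP

lemma coeff_mul_mh (ξ : Rh L w) (t : (piN w).ker) (a : A) (h : GLv) :
    (ξ * mh L w t a).1.coeff (h + t.1) = (tw L) h t.1 • (ξ.1.coeff h * a) :=
  coeff_mul_mono t.1 a ξ.1 h

lemma coeff_mh_mul (ξ : Rh L w) (t : (piN w).ker) (a : A) (h : GLv) :
    (mh L w t a * ξ).1.coeff (t.1 + h) = (tw L) t.1 h • (a * ξ.1.coeff h) :=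
  coeff_mono_mul t.1 a ξ.1 h

namespace TP

variable {P : Pt F K A (Fin 2)} {P' : Pt F K' R (Fin 2)} {l : ℕ} {D : TD L w}
  (T : TP L P P' l D)

include T

lemma theta_zero (ξ : Rh L w) : (gr L w).θ 0 ξ = ξ := by
  apply Subtype.ext
  ext g
  rw [coeff_theta]
  show L.ζ ^ ((0 : ℤ) * kG g) • _ = _
  rw [zero_mul, zpow_zero, one_smul]

variable [CharZero K]

/-- **The lead of an element of the centraliser of `F'` orthogonal to `Sp`.** -/
theorem lead_W {x : R} (hx : x ∈ DoubleCent.centDiv D.F') {γ : GV}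
    (hγ : (γ : WithTop GV) ≤ (gr L w).val x)
    (hSp : ∀ (γ' : GV) (t' : (piN w).ker), D.lineP γ' t' → ∀ f ∈ Ly P l D.y, ∃ s : R,
      L.τ' (x * s) = 0 ∧ HasL L w s γ' t' (D.y * f)) (h : GLv) :
    ((gr L w).c γ x).1.coeff h ∈ PPy P l D.y ∧
      (((gr L w).c γ x).1.coeff h ≠ 0 →
        ((kG h : ℤ) : ZMod L.m) ∈ Tl D.j₀ D.k₀ (((ofLex γ).1 : ℤ) : ZMod L.m)) := by
  classical
  set ξ := (gr L w).c γ x with hξ
  by_cases h0 : ξ.1.coeff h = 0
  · rw [h0]
    exact ⟨Submodule.zero_mem _, fun h1 => absurd rfl h1⟩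
  have hker : h ∈ (piN w).ker := ξ.2 h0
  have hxc := DoubleCent.mem_centDiv.1 hx
  -- (i) `ξ_h` commutes with `E`
  have hcomm : ∀ b ∈ D.E, ξ.1.coeff h * b = b * ξ.1.coeff h := by
    intro b hb
    obtain ⟨f, hf, hfl⟩ := T.hQ hb
    have h1 := gr_c_mul L w hγ hfl.1
    have h2 := gr_c_mul L w hfl.1 hγ
    rw [hfl.2, theta_mh] at h1
    rw [hfl.2, T.theta_zero] at h2
    have h3 : x * f = f * x := (hxc f hf).symm
    rw [h3, add_zero] at h1
    rw [zero_add] at h2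
    rw [h1] at h2
    have hk0 : kG (0 : (piN w).ker).1 = 0 := map_zero κ
    rw [hk0, mul_zero, zpow_zero, one_smul] at h2
    have h4 := congrArg (fun z : Rh L w => z.1.coeff h) h2
    beta_reduce at h4
    have h5 := coeff_mul_mh ξ 0 b h
    have h6 := coeff_mh_mul ξ 0 b h
    have e1 : h + ((0 : (piN w).ker) : GLv) = h := add_zero h
    have e2 : ((0 : (piN w).ker) : GLv) + h = h := zero_add h
    rw [e1] at h5
    rw [e2] at h6
    rw [h5, h6] at h4
    have e3 : (tw L) h ((0 : (piN w).ker) : GLv) = 1 := Bichar.zero_right _ _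
    have e4 : (tw L) ((0 : (piN w).ker) : GLv) h = 1 := Bichar.zero_left _ _
    rw [e3, e4, one_smul, one_smul] at h4
    exact h4
  -- (ii) the class
  have hcl : ((kG h : ℤ) : ZMod L.m) ∈ Tl D.j₀ D.k₀ (((ofLex γ).1 : ℤ) : ZMod L.m) := by
    have hPi := D.hasL_Pi
    have h1 := gr_c_mul L w hγ hPi.1
    have h2 := gr_c_mul L w hPi.1 hγ
    rw [hPi.2, theta_mh] at h1
    rw [hPi.2] at h2
    have h3 : x * D.Pi = D.Pi * x := (hxc _ D.Pi_mem).symm
    rw [h3, add_comm γ] at h1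
    rw [h1] at h2
    have h4 := congrArg (fun z : Rh L w => z.1.coeff (h + D.t₀.1)) h2
    beta_reduce at h4
    have h5 := coeff_mul_mh ξ D.t₀ ((L.ζ ^ ((ofLex γ).1 * kG D.t₀.1)) • D.y0) h
    have h6 := coeff_mh_mul ((gr L w).θ D.γ₀ ξ) D.t₀ D.y0 h
    rw [add_comm D.t₀.1 h] at h6
    have e1 : (tw L) h D.t₀.1 = 1 := tw_ker L w ⟨h, hker⟩ _
    have e2 : (tw L) D.t₀.1 h = 1 := tw_ker L w D.t₀ _
    rw [h5, h6, e1, e2, one_smul, one_smul, coeff_theta, mul_smul_comm, mul_smul_comm,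
      ← hcomm _ D.y0_mem] at h4
    have hq : ξ.1.coeff h * D.y0 ≠ 0 := mul_ne_zero h0 D.y0_ne
    have h7 : (L.ζ ^ ((ofLex γ).1 * kG D.t₀.1) - L.ζ ^ ((ofLex D.γ₀).1 * kG h)) •
        (ξ.1.coeff h * D.y0) = 0 := by
      rw [sub_smul, h4, sub_self]
    have h8 := (smul_eq_zero.1 h7).resolve_right hq
    have h9 : L.ζ ^ ((ofLex γ).1 * kG D.t₀.1 - (ofLex D.γ₀).1 * kG h) = 1 := by
      rw [zpow_sub₀ L.ζ_ne, sub_eq_zero.1 h8, div_self (zpow_ne_zero _ L.ζ_ne)]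
    have h10 := (L.ζ_prim.zpow_eq_one_iff_dvd _).1 h9
    rw [← ZMod.intCast_zmod_eq_zero_iff_dvd, Int.cast_sub, Int.cast_mul, Int.cast_mul,
      sub_eq_zero] at h10
    exact mem_Tl_of_det D.cl_ne h10
  refine ⟨⟨?_, ?_, ?_⟩, fun _ => hcl⟩
  · rw [← T.hβ]
    exact hcomm _ D.β_mem
  · exact hcomm _ D.y_mem
  · intro f hf
    obtain ⟨r, hr1, hr2⟩ := mem_Tl.1 hcl
    have hl : D.lineP γ ⟨h, hker⟩ := ⟨r, hr1, hr2⟩
    obtain ⟨s, hs0, hsl⟩ := hSp _ _ (D.lineP_neg hl) f hf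
    have h1 := pair_coeff (add_neg_cancel γ) hγ hsl hs0
    have h7 : -((-(⟨h, hker⟩ : (piN w).ker) : (piN w).ker) : GLv) = h := neg_neg _
    rw [h7] at h1
    rw [T.hτ]
    exact h1

/-- The dimension of `𝒫(y)`. -/
theorem finrank_PPy :
    finrank K (PPy P l D.y) + finrank K (Ly P l D.y) ≤ finrank K (DoubleCent.centDiv D.E) := by
  have hFy : Fy P l D.y = D.E := by
    unfold Fy TD.E
    rw [T.hβ]
  -- `𝔏_y ⊂ E`
  have hLE : Ly P l D.y ≤ D.E := by
    apply Algebra.adjoin_le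
    rintro _ ⟨f, hf, rfl⟩
    have hf' : f ∈ D.E := by
      have := hf.1
      rwa [Subalgebra.mem_toSubmodule, hFy] at this
    exact mul_mem (DoubleCent.inv_mem_subalgebra _ D.y_mem) hf'
  -- `y 𝔏_y`
  have hinj : Function.Injective (LinearMap.mulLeft K D.y) := fun a b h =>
    mul_left_cancel₀ D.hy h
  set V₁ : Submodule K A := (Subalgebra.toSubmodule (Ly P l D.y)).map (LinearMap.mulLeft K D.y)
    with hV₁
  have hV₁d : finrank K V₁ = finrank K (Ly P l D.y) :=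
    (Submodule.equivMapOfInjective _ hinj _).finrank_eq.symm
  have hV₁C : V₁ ≤ Subalgebra.toSubmodule (DoubleCent.centDiv D.E) := by
    rintro _ ⟨b, hb, rfl⟩
    exact D.E_le_cent (mul_mem D.y_mem (hLE hb))
  have h1 := TestCore.finrank_perpR (τ := τ) (fun x y => by rw [← T.hτ, ← T.hτ, P.τ_comm]) T.hτ1
    (DoubleCent.centDiv D.E) hV₁C
  have h2 : PPy P l D.y ≤ TestCore.perpR τ (Subalgebra.toSubmodule (DoubleCent.centDiv D.E)) V₁ := by
    intro p hp
    obtain ⟨hp1, hp2, hp3⟩ := hp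
    refine ⟨?_, ?_⟩
    · rw [Subalgebra.mem_toSubmodule, DoubleCent.mem_centDiv]
      intro b hb
      have hc : D.E ≤ Subalgebra.centralizer K ({p} : Set A) := by
        apply Algebra.adjoin_le
        rintro a (rfl | rfl)
        · rw [SetLike.mem_coe, Subalgebra.mem_centralizer_iff]
          rintro _ rfl
          rw [T.hβ]
          exact hp1
        · rw [SetLike.mem_coe, Subalgebra.mem_centralizer_iff]
          rintro _ rfl
          exact hp2
      exact ((Subalgebra.mem_centralizer_iff K).1 (hc hb) p rfl).symm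
    · rintro _ ⟨b, hb, rfl⟩
      rw [← T.hτ]
      exact hp3 b hb
  have h3 := Submodule.finrank_mono h2
  rw [hV₁d] at h1
  omega

/-- The dimension of the centraliser of `F'`. -/
theorem finrank_cent
    (hC : ∀ a : A, (∀ x, a * x = x * a) → ∃ c : K, a = algebraMap K A c)
    (hC' : ∀ a : R, (∀ x, a * x = x * a) → ∃ c : K', a = algebraMap K' R c)
    (heq : finrank K' D.F' = L.m * finrank K D.E) :
    finrank K' (DoubleCent.centDiv D.F') = L.m * finrank K (DoubleCent.centDiv D.E) := by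
  have := D.finiteR
  have h1 := DoubleCent.finrank_centralizer_mul hC D.E
  have h2 := DoubleCent.finrank_centralizer_mul hC' D.F'
  rw [finrank_R L, heq, ← h1] at h2
  have hm := L.m_prime.pos
  have hd : 0 < finrank K D.E := Module.finrank_pos
  apply Nat.eq_of_mul_eq_mul_right (Nat.mul_pos hm hd)
  rw [h2]
  ring

/-- **The leads of the centraliser of `F'` orthogonal to `Mov_l(P')`.** -/
theorem W_lift
    (hC : ∀ a : A, (∀ x, a * x = x * a) → ∃ c : K, a = algebraMap K A c)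
    (hC' : ∀ a : R, (∀ x, a * x = x * a) → ∃ c : K', a = algebraMap K' R c)
    (heq : finrank K' D.F' = L.m * finrank K D.E)
    (hSm : P'.Mov l ≤ Subalgebra.toSubmodule D.F') {u₀ : R} (hu₀l : HasL L w u₀ 0 0 D.y)
    (hu₀ : u₀ ≠ 0) (hdim : finrank K' (Ly P' l u₀) ≤ L.m * finrank K (Ly P l D.y))
    {p : A} (hp : p ∈ PPy P l D.y) {γ : GV} {t : (piN w).ker} (hl : D.lineP γ t) :
    ∃ x ∈ DoubleCent.centDiv D.F', (∀ u ∈ P'.Mov l, L.τ' (x * u) = 0) ∧ HasL L w x γ t p := by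
  have := D.finiteR
  have heq' : finrank K' (Subalgebra.toSubmodule D.F') ≤
      L.m * finrank K (Subalgebra.toSubmodule D.E) := le_of_eq heq
  set Sp : Submodule K' R := (Subalgebra.toSubmodule (Ly P' l u₀)).map (LinearMap.mulLeft K' u₀)
    with hSpd
  set C' : Submodule K' R := Subalgebra.toSubmodule (DoubleCent.centDiv D.F') with hC'd
  set W := (gr L w).perp C' Sp with hW
  have hSpMov : P'.Mov l ≤ Sp := by
    intro u hu
    refine ⟨u₀⁻¹ * u, gen_mem_Ly D T hSm hu, ?_⟩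
    show u₀ * (u₀⁻¹ * u) = u
    rw [mul_inv_cancel_left₀ hu₀]
  have hSpLift : ∀ (γ' : GV) (t' : (piN w).ker), D.lineP γ' t' → ∀ f ∈ Ly P l D.y, ∃ s ∈ Sp,
      HasL L w s γ' t' (D.y * f) := by
    intro γ' t' hl' f hf
    obtain ⟨x, hx, hxl⟩ := T.Ly_lift heq' hSm hu₀l hl' hf
    exact ⟨u₀ * x, ⟨x, hx, rfl⟩, hu₀l.mul_zero_left hxl⟩
  have hB : ∀ a : ZMod L.m, (gr L w).toLeadData.lead (eV L.m a) W ≤
      coSub L w (PPy P l D.y) (Tl D.j₀ D.k₀ a) := by
    rintro a _ ⟨x, hx, hxg, rfl⟩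
    have h1 : ∀ h, _ := T.lead_W (x := x) hx.1 hxg (fun γ' t' hl' f hf => by
      obtain ⟨s, hs, hsl⟩ := hSpLift γ' t' hl' f hf
      exact ⟨s, hx.2 s hs, hsl⟩)
    rw [TD.eV_cast] at h1
    exact mem_coSub.2 h1
  have hdim' : ∑ a : ZMod L.m, finrank (Kh L w) (coSub L w (PPy P l D.y) (Tl D.j₀ D.k₀ a)) +
      finrank K' Sp ≤ finrank K' C' := by
    rw [D.sum_finrank_coSub]
    have h1 : finrank K' Sp ≤ finrank K' (Ly P' l u₀) := Submodule.finrank_map_le _ _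
    have h2 := T.finrank_PPy
    have h3 : finrank K' C' = L.m * finrank K (DoubleCent.centDiv D.E) := T.finrank_cent hC hC' heq
    rw [h3]
    calc L.m * finrank K (PPy P l D.y) + finrank K' Sp
        ≤ L.m * finrank K (PPy P l D.y) + L.m * finrank K (Ly P l D.y) := by omega
      _ = L.m * (finrank K (PPy P l D.y) + finrank K (Ly P l D.y)) := by ring
      _ ≤ _ := Nat.mul_le_mul_left _ h2
  have hlead := fun a => TestCore.lead_perp_eq (gr L w) (eV L.m) (C := C') (S := Sp)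
    (gauss L w W) hB hdim' a
  obtain ⟨r, hr1, hr2⟩ := hl
  have hm : mh L w (rK w ((kG t.1 : ℤ) : ZMod L.m)) p ∈
      coSub L w (PPy P l D.y) (Tl D.j₀ D.k₀ (((ofLex γ).1 : ℤ) : ZMod L.m)) :=
    mh_mem_coSub hp (by rw [kG_rK, mem_Tl]; exact ⟨r, hr1, hr2⟩)
  rw [← hlead] at hm
  obtain ⟨x, hx, hxg, hxc⟩ := hm
  have hxl : HasL L w x (eV L.m ((ofLex γ).1 : ℤ)) (rK w ((kG t.1 : ℤ) : ZMod L.m)) p := ⟨hxg, hxc⟩
  obtain ⟨c, hc, h4⟩ := hxl.shift γ t
    (by
      rw [← ZMod.intCast_zmod_eq_zero_iff_dvd, Int.cast_sub, TD.eV_cast, sub_self])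
    (by
      rw [← ZMod.intCast_zmod_eq_zero_iff_dvd, Int.cast_sub, kG_rK, sub_self])
  have hx' : algebraMap K' R c * x ∈ W := by
    rw [← Algebra.smul_def]
    exact W.smul_mem _ hx
  exact ⟨_, hx'.1, fun u hu => hx'.2 u (hSpMov hu), h4⟩

end TP

end Crest.Agent.Kurosh.LeadVN.LvData
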