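/-
S0270 (Kurosh), blueprint v3 §L (helper94): the interface of the lifting test at the level of `K`.

`L : Lv K A K' R τ`.  The test state `X̃` has a class-`s'` element `Ξ` in `K'[a_l(X̃)]`.  `TestLeads`
records what the pairings with `Mov_l(X̃)` need from `Ft = K'[a_l(X̃)]`.
-/
import Crest.Agent.Kurosh.LeadK
import Crest.Agent.Kurosh.VLead

set_option autoImplicit false

namespace Crest.Agent.Kurosh.LiftDefs

open Hensel State Module LU VLead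

variable {K A K' R : Type*} [Field K] [DivisionRing A] [Algebra K A] [Field K'] [DivisionRing R]
  [Algebra K R] [Algebra K' R] [Algebra K K'] [IsScalarTower K K' R] {τ : A →ₗ[K] K}
  (L : Lv K A K' R τ)

/-- `x` is supported on the monomials with `m ∣ K`. -/
def KZ (x : R) : Prop := ∀ g, L.c g x ≠ 0 → (L.m : ℤ) ∣ κ (ofLex g).2

/-- `c_t = ∑_{i<t} ζ^i`. -/
noncomputable def cc (t : ℕ) : K := ∑ i ∈ Finset.range t, L.ζ ^ i

/-- The value of the `t`-th power of the class-`s'` element: `η^{-2t} s'^t`. -/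
noncomputable def gt (ηe : CE) (t : ℕ) : GLv := idx ((-(2 * (t : ℤ))) • ηe) (t : ℤ)

/-- What the pairing argument needs from `Ft = K'[a_l(X̃)]`, before the class bound. `F0` is a field
containing `y₀`, `ηe` is the exponent of the fresh `η`. -/
structure TestLifts (Ft : Subalgebra K' R) (F0 : Subalgebra K A) (y₀ r₁ : A) (ηe : CE) : Prop where
  y_mem : y₀ ∈ F0
  y_ne : y₀ ≠ 0
  inv_mem : ∀ f ∈ F0, f⁻¹ ∈ F0
  κη : κ ηe = 0
  posη : 0 < ηe + sExp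
  /-- `f ∈ F0` lifts to `Ft`, modulo order `1` an element of value `0`, lead `f`, `K ≡ 0`. -/
  lift : ∀ f ∈ F0, ∃ fh ∈ Ft, ∃ v0 : R, VL L v0 0 f ∧ KZ L v0 ∧ fh - v0 ∈ L.lev.Φ.fil 1
  /-- The powers of `Ξ = (η⁻² a₀ + η⁻¹ a₁ s + a₂) s'`. -/
  pow : ∀ t : ℕ, ∃ b ∈ Ft, ∃ A₀ A₁ : R,
    b - (A₀ + A₁) * L.lev.mon 0 t ∈ L.lev.Φ.fil (t + 1) ∧ KZ L A₀ ∧
    VL L A₀ (idx ((-(2 * (t : ℤ))) • ηe) 0) (y₀ ^ t) ∧
    VL L A₁ (idx ((-(2 * (t : ℤ)) + 1) • ηe + sExp) 0) (cc L t • (y₀ ^ (t - 1) * r₁))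

/-- The upper bound of the leads of `Ft` (after the class bound). -/
structure TestLeads (Ft : Subalgebra K' R) (F0 : Subalgebra K A) (y₀ r₁ : A) (ηe : CE) : Prop
    extends TestLifts L Ft F0 y₀ r₁ ηe where
  lead_mem : ∀ (g : GLv) (x : R), x ∈ Ft → (g : WithTop GLv) ≤ L.vK x → L.c g x ∈ F0
  lead_class : ∀ (g : GLv) (x : R), x ∈ Ft → (g : WithTop GLv) ≤ L.vK x → L.c g x ≠ 0 →
    (L.m : ℤ) ∣ κ (ofLex g).2

end Crest.Agent.Kurosh.LiftDefs
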