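/-
S0270 (Kurosh), §L (helper94): polynomial calculus modulo the `s'`-filtration.
* `taylor_fil`: `Q(x+t) ≡ Q(x) + ∂Q[x;t]` modulo `fil (2i)`;
* `dPoly_of_root`: `∂Q[H;t] = Q'(H) e(t)` if `Q(H)=0`.
-/
import Crest.Agent.Kurosh.LiftDefs
import Crest.Agent.Kurosh.CentFactsB

set_option autoImplicit false

namespace Crest.Agent.Kurosh.LiftAlg

open Polynomial Module
open CentFactsB Calculus

section Calc

variable {k R : Type*} [Field k] [DivisionRing R] [Algebra k R]

/-- The inner sum of `∂`. -/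
noncomputable def dS (x t : R) (n : ℕ) : R := ∑ a ∈ Finset.range n, x ^ a * t * x ^ (n - 1 - a)

lemma dS_zero (x t : R) : dS x t 0 = 0 := by simp [dS]

lemma dS_succ (x t : R) (n : ℕ) : dS x t (n + 1) = dS x t n * x + x ^ n * t := by
  unfold dS
  rw [Finset.sum_range_succ, Finset.sum_mul]
  have h1 : x ^ n * t * x ^ (n + 1 - 1 - n) = x ^ n * t := by simp
  rw [h1]
  congr 1
  refine Finset.sum_congr rfl fun a ha => ?_
  have ha' := Finset.mem_range.1 ha
  have e : n + 1 - 1 - a = (n - 1 - a) + 1 := by omega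
  rw [e, pow_succ]
  noncomm_ring

lemma dPoly_eq_sum (x t : R) (Q : k[X]) : dPoly x t Q = Q.sum fun i c => c • dS x t i := rfl

variable (Φ : Filt R)

lemma mul_mem_left {x y : R} {i : ℕ} (hx : x ∈ Φ.fil 0) (hy : y ∈ Φ.fil i) : x * y ∈ Φ.fil i := by
  simpa using Φ.mul_mem hx hy

lemma mul_mem_right {x y : R} {i : ℕ} (hx : x ∈ Φ.fil i) (hy : y ∈ Φ.fil 0) : x * y ∈ Φ.fil i := by
  simpa using Φ.mul_mem hx hy

variable (h1 : (1 : R) ∈ Φ.fil 0)
include h1

lemma pow_mem {x : R} (hx : x ∈ Φ.fil 0) (a : ℕ) : x ^ a ∈ Φ.fil 0 := by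
  induction a with
  | zero => simpa using h1
  | succ a ih =>
    rw [pow_succ]
    exact mul_mem_left Φ ih hx

lemma dS_mem {x t : R} (hx : x ∈ Φ.fil 0) {i : ℕ} (ht : t ∈ Φ.fil i) (n : ℕ) :
    dS x t n ∈ Φ.fil i := by
  refine sum_mem fun a _ => ?_
  exact mul_mem_right Φ (mul_mem_left Φ (pow_mem Φ h1 hx a) ht) (pow_mem Φ h1 hx _)

lemma pow_taylor {x t : R} (hx : x ∈ Φ.fil 0) {i : ℕ} (ht : t ∈ Φ.fil i) (n : ℕ) :
    (x + t) ^ n - x ^ n - dS x t n ∈ Φ.fil (2 * i) := by
  have hxt : t ∈ Φ.fil 0 := Φ.anti (Nat.zero_le i) ht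
  induction n with
  | zero => simp [dS_zero]
  | succ n ih =>
    set u := (x + t) ^ n - x ^ n - dS x t n with hu
    have e : (x + t) ^ (n + 1) - x ^ (n + 1) - dS x t (n + 1) = dS x t n * t + u * (x + t) := by
      rw [dS_succ, pow_succ, pow_succ]
      have e2 : (x + t) ^ n = u + x ^ n + dS x t n := by rw [hu]; abel
      rw [e2]
      noncomm_ring
    rw [e]
    refine add_mem ?_ ?_
    · have := Φ.mul_mem (dS_mem Φ h1 hx ht n) ht
      rwa [← two_mul] at this
    · exact mul_mem_right Φ ih (add_mem hx hxt)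

lemma aeval_mem {Q : k[X]} (hQ : ∀ i, algebraMap k R (Q.coeff i) ∈ Φ.fil 0) {x : R}
    (hx : x ∈ Φ.fil 0) : aeval x Q ∈ Φ.fil 0 := by
  rw [aeval_eq_sum_range]
  refine sum_mem fun a _ => ?_
  rw [Algebra.smul_def]
  exact mul_mem_left Φ (hQ a) (pow_mem Φ h1 hx a)

/-- **Taylor modulo the filtration.** -/
theorem taylor_fil {Q : k[X]} (hQ : ∀ i, algebraMap k R (Q.coeff i) ∈ Φ.fil 0) {x t : R}
    (hx : x ∈ Φ.fil 0) {i : ℕ} (ht : t ∈ Φ.fil i) :
    aeval (x + t) Q - aeval x Q - dPoly x t Q ∈ Φ.fil (2 * i) := by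
  classical
  have e : aeval (x + t) Q - aeval x Q - dPoly x t Q =
      ∑ a ∈ Q.support, algebraMap k R (Q.coeff a) * ((x + t) ^ a - x ^ a - dS x t a) := by
    rw [dPoly_eq_sum, Polynomial.sum, aeval_def, eval₂_eq_sum, aeval_def, eval₂_eq_sum,
      Polynomial.sum, Polynomial.sum, ← Finset.sum_sub_distrib, ← Finset.sum_sub_distrib]
    refine Finset.sum_congr rfl fun a _ => ?_
    simp only [Algebra.smul_def]
    noncomm_ring
  rw [e]
  refine sum_mem fun a _ => ?_
  exact mul_mem_left Φ (hQ a) (pow_taylor Φ h1 hx ht a)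

lemma dPoly_mem {Q : k[X]} (hQ : ∀ i, algebraMap k R (Q.coeff i) ∈ Φ.fil 0) {x t : R}
    (hx : x ∈ Φ.fil 0) {i : ℕ} (ht : t ∈ Φ.fil i) : dPoly x t Q ∈ Φ.fil i := by
  classical
  rw [dPoly_eq_sum, Polynomial.sum]
  refine sum_mem fun a _ => ?_
  rw [Algebra.smul_def]
  exact mul_mem_left Φ (hQ a) (dS_mem Φ h1 hx ht a)

omit h1

lemma dS_add (x t t' : R) (n : ℕ) : dS x (t + t') n = dS x t n + dS x t' n := by
  simp only [dS, mul_add, add_mul, Finset.sum_add_distrib]

lemma dS_sub (x t t' : R) (n : ℕ) : dS x (t - t') n = dS x t n - dS x t' n := by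
  simp only [dS, mul_sub, sub_mul, Finset.sum_sub_distrib]

lemma dPoly_add_t (x t t' : R) (Q : k[X]) : dPoly x (t + t') Q = dPoly x t Q + dPoly x t' Q := by
  classical
  simp only [dPoly_eq_sum, Polynomial.sum, dS_add, smul_add, Finset.sum_add_distrib]

lemma dPoly_sub_t (x t t' : R) (Q : k[X]) : dPoly x (t - t') Q = dPoly x t Q - dPoly x t' Q := by
  classical
  simp only [dPoly_eq_sum, Polynomial.sum, dS_sub, smul_sub, Finset.sum_sub_distrib]

lemma dS_of_comm {x c : R} (hc : x * c = c * x) (n : ℕ) : dS x c n = (n : ℕ) • (x ^ (n - 1) * c) := by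
  unfold dS
  have h : ∀ a ∈ Finset.range n, x ^ a * c * x ^ (n - 1 - a) = x ^ (n - 1) * c := by
    intro a ha
    have ha' := Finset.mem_range.1 ha
    have hcomm : Commute c (x ^ (n - 1 - a)) := (Commute.pow_left (show Commute x c from hc) _).symm
    rw [mul_assoc, hcomm.eq, ← mul_assoc, ← pow_add]
    congr 2
    omega
  rw [Finset.sum_congr rfl h, Finset.sum_const, Finset.card_range]

/-- `∂P[x;c] = P'(x) c` if `c` commutes with `x`. -/
lemma dPoly_of_comm {x c : R} (hc : x * c = c * x) (P : k[X]) :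
    dPoly x c P = aeval x (derivative P) * c := by
  classical
  induction P using Polynomial.induction_on' with
  | add p q hp hq => rw [dPoly_add, hp, hq, derivative_add, map_add, add_mul]
  | monomial n a =>
    rw [dPoly_monomial, derivative_monomial, aeval_monomial]
    have : ∑ b ∈ Finset.range n, x ^ b * c * x ^ (n - 1 - b) = dS x c n := rfl
    rw [this, dS_of_comm hc, Algebra.smul_def]
    simp only [map_mul, map_natCast, nsmul_eq_mul, mul_assoc]

lemma dS_ad (x v : R) (n : ℕ) : dS x (x * v - v * x) n = x ^ n * v - v * x ^ n := by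
  induction n with
  | zero => simp [dS_zero]
  | succ n ih =>
    rw [dS_succ, ih, pow_succ]
    noncomm_ring

/-- `∂P[x;[x,v]] = [P(x),v]`. -/
lemma dPoly_ad (x v : R) (P : k[X]) :
    dPoly x (x * v - v * x) P = aeval x P * v - v * aeval x P := by
  classical
  induction P using Polynomial.induction_on' with
  | add p q hp hq =>
    rw [dPoly_add, hp, hq, map_add]
    noncomm_ring
  | monomial n a =>
    rw [dPoly_monomial, aeval_monomial]
    have : ∑ b ∈ Finset.range n, x ^ b * (x * v - v * x) * x ^ (n - 1 - b) = dS x (x * v - v * x) n := rfl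
    have h3 : v * algebraMap k R a = algebraMap k R a * v := (Algebra.commutes a v).symm
    rw [this, dS_ad, Algebra.smul_def, mul_sub, mul_assoc, ← mul_assoc v, h3, mul_assoc]

/-- `∂P[H;t] = P'(H) e(t)` if `P(H) = 0`. -/
theorem dPoly_of_root {H : R} (S : State.Split (K := k) H) {P : k[X]} (hP : aeval H P = 0) (t : R) :
    dPoly H t P = aeval H (derivative P) * S.e t := by
  have h1 : t = S.e t + (H * S.inv t - S.inv t * H) := by rw [S.ad_inv]; abel
  conv_lhs => rw [h1]
  rw [dPoly_add_t, dPoly_ad, hP, zero_mul, mul_zero, sub_self, add_zero]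
  exact dPoly_of_comm (State.mem_cent.mp (S.e_mem t)) P

lemma dS_mul_right {x y : R} (hy : x * y = y * x) (t : R) (n : ℕ) : dS x (t * y) n = dS x t n * y := by
  unfold dS
  rw [Finset.sum_mul]
  refine Finset.sum_congr rfl fun a _ => ?_
  have hcomm : Commute y (x ^ (n - 1 - a)) := (Commute.pow_left (show Commute x y from hy) _).symm
  calc x ^ a * (t * y) * x ^ (n - 1 - a) = x ^ a * t * (y * x ^ (n - 1 - a)) := by noncomm_ring
    _ = x ^ a * t * (x ^ (n - 1 - a) * y) := by rw [hcomm.eq]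
    _ = _ := by noncomm_ring

/-- A right multiplier commuting with `x` moves out of `∂`. -/
lemma dPoly_mul_right {x y : R} (hy : x * y = y * x) (t : R) (Q : k[X]) :
    dPoly x (t * y) Q = dPoly x t Q * y := by
  classical
  simp only [dPoly_eq_sum, Polynomial.sum, dS_mul_right hy, Finset.sum_mul, smul_mul_assoc]

/-- The projection `e` is linear over the centraliser, on the left. -/
lemma split_e_mul_left {H : R} (S : State.Split (K := k) H) {y : R} (hy : H * y = y * H) (x : R) :
    S.e (y * x) = y * S.e x := by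
  have h1 : x = S.e x + (H * S.inv x - S.inv x * H) := by rw [S.ad_inv]; abel
  have h2 : y * x = y * S.e x + (H * (y * S.inv x) - (y * S.inv x) * H) := by
    conv_lhs => rw [h1]
    rw [mul_add, mul_sub, ← mul_assoc y H, ← hy]
    noncomm_ring
  rw [h2, map_add, S.e_imAd _ (State.mem_imAd.mpr ⟨_, rfl⟩), add_zero]
  refine S.e_cent _ (State.mem_cent.mpr ?_)
  have := State.mem_cent.mp (S.e_mem x)
  rw [← mul_assoc, hy, mul_assoc, this, mul_assoc]

/-- The projection `e` is linear over the centraliser, on the right. -/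
lemma split_e_mul_right {H : R} (S : State.Split (K := k) H) {y : R} (hy : H * y = y * H) (x : R) :
    S.e (x * y) = S.e x * y := by
  have h1 : x = S.e x + (H * S.inv x - S.inv x * H) := by rw [S.ad_inv]; abel
  have h2 : x * y = S.e x * y + (H * (S.inv x * y) - (S.inv x * y) * H) := by
    conv_lhs => rw [h1]
    rw [add_mul, sub_mul, mul_assoc (S.inv x) H, hy]
    noncomm_ring
  rw [h2, map_add, S.e_imAd _ (State.mem_imAd.mpr ⟨_, rfl⟩), add_zero]
  refine S.e_cent _ (State.mem_cent.mpr ?_)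
  have := State.mem_cent.mp (S.e_mem x)
  rw [← mul_assoc, this, mul_assoc, hy, mul_assoc]

end Calc

end Crest.Agent.Kurosh.LiftAlg
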