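/-
S0270 (Kurosh), §L (helper94): supports, order-zero series, the minimal polynomial of an element of
order zero.
-/
import Crest.Agent.Kurosh.LiftAlg1
import Crest.Agent.Kurosh.THahnEuler

set_option autoImplicit false

namespace Crest.Agent.Kurosh.LiftAlg

open Hensel State Module LU VLead Polynomial Calculus CentFactsB LiftDefs

variable {K A K' R : Type*} [Field K] [DivisionRing A] [Algebra K A] [Field K'] [DivisionRing R]
  [Algebra K R] [Algebra K' R] [Algebra K K'] [IsScalarTower K K' R] {τ : A →ₗ[K] K}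
  (L : Lv K A K' R τ)

/-- Series with support in a subgroup of the monomials. -/
noncomputable def SS (Γ : AddSubgroup GLv) : Subring R :=
  (THS.supportedIn (R := A) (ε := L.ε) Γ).comap (L.φ : R →+* _)

lemma mem_SS {Γ : AddSubgroup GLv} {x : R} : x ∈ SS L Γ ↔ ∀ g, L.c g x ≠ 0 → g ∈ Γ := by
  constructor
  · intro h g hg
    exact h hg
  · intro h g hg
    exact h g hg

/-- The monomials of `s'`-order `0`. -/
def jK : AddSubgroup GLv where
  carrier := {g | (ofLex g).1 = 0}
  add_mem' := by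
    intro a b ha hb
    have ha' : (ofLex a).1 = 0 := ha
    have hb' : (ofLex b).1 = 0 := hb
    show (ofLex (a + b)).1 = 0
    simp [ha', hb']
  zero_mem' := rfl
  neg_mem' := by
    intro a ha
    have ha' : (ofLex a).1 = 0 := ha
    show (ofLex (-a)).1 = 0
    simp [ha']

lemma mem_jK {g : GLv} : g ∈ jK ↔ (ofLex g).1 = 0 := Iff.rfl

/-- The monomials with `m ∣ K`. -/
def kK (m : ℕ) : AddSubgroup GLv where
  carrier := {g | (m : ℤ) ∣ κ (ofLex g).2}
  add_mem' := by
    intro a b ha hb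
    show (m : ℤ) ∣ κ (ofLex (a + b)).2
    have : κ (ofLex (a + b)).2 = κ (ofLex a).2 + κ (ofLex b).2 := by
      rw [← map_add]; rfl
    rw [this]
    exact dvd_add ha hb
  zero_mem' := by
    show (m : ℤ) ∣ κ (ofLex (0 : GLv)).2
    have : κ (ofLex (0 : GLv)).2 = 0 := map_zero κ
    rw [this]
    exact dvd_zero _
  neg_mem' := by
    intro a ha
    show (m : ℤ) ∣ κ (ofLex (-a)).2
    have : κ (ofLex (-a)).2 = - κ (ofLex a).2 := by
      rw [← map_neg]; rfl
    rw [this]
    exact (dvd_neg).2 ha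

lemma mem_kK {m : ℕ} {g : GLv} : g ∈ kK m ↔ (m : ℤ) ∣ κ (ofLex g).2 := Iff.rfl

lemma centLat_le_kK (m : ℕ) : centLat m ≤ kK m := fun _ h => h.2

lemma KZ_iff {x : R} : KZ L x ↔ x ∈ SS L (kK L.m) := by
  rw [mem_SS]
  exact Iff.rfl

lemma mem_fil {j : ℕ} {x : R} : x ∈ L.lev.Φ.fil j ↔ ∀ g, L.c g x ≠ 0 → (j : ℤ) ≤ (ofLex g).1 := by
  rw [L.lev_fil]
  exact Iff.rfl

lemma fil_of_mem_jK {x : R} (h : x ∈ SS L jK) : x ∈ L.lev.Φ.fil 0 := by
  rw [mem_fil]
  intro g hg
  have := (mem_SS L).1 h g hg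
  rw [mem_jK] at this
  simp [this]

lemma c_of_fil {j : ℕ} {x : R} (h : x ∈ L.lev.Φ.fil j) {g : GLv} (hg : (ofLex g).1 < j) :
    L.c g x = 0 := by
  by_contra hne
  have := (mem_fil L).1 h g hne
  omega

lemma c_eq_of_sub_fil {j : ℕ} {x y : R} (h : x - y ∈ L.lev.Φ.fil j) {g : GLv}
    (hg : (ofLex g).1 < j) : L.c g x = L.c g y := by
  have := c_of_fil L h hg
  rw [L.c_sub, sub_eq_zero] at this
  exact this

lemma one_mem_fil : (1 : R) ∈ L.lev.Φ.fil 0 := L.lev.one_mem

lemma phi_mon (n : CE) (j : ℕ) : L.φ (L.lev.mon n j) = THS.mono (idx n (j : ℤ)) 1 := by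
  have h := L.lev_mono 1 n j
  rwa [Lev.mono, map_one, one_mul] at h

lemma vl_mon (n : CE) (j : ℕ) : VL L (L.lev.mon n j) (idx n (j : ℤ)) 1 :=
  VL.of_phi (phi_mon L n j)

lemma c_mon {n : CE} {j : ℕ} {g : GLv} (h : L.c g (L.lev.mon n j) ≠ 0) : g = idx n (j : ℤ) := by
  classical
  by_contra hne
  apply h
  rw [Lv.c, phi_mon, THS.coeff_mono, if_neg hne]

lemma mon_mem_SS {Γ : AddSubgroup GLv} {n : CE} {j : ℕ} (h : idx n (j : ℤ) ∈ Γ) :
    L.lev.mon n j ∈ SS L Γ := by
  rw [mem_SS]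
  intro g hg
  rw [c_mon L hg]
  exact h

lemma c_inc {x : A} {g : GLv} (h : L.c g (L.lev.inc x) ≠ 0) : g = 0 := by
  classical
  by_contra hne
  apply h
  rw [Lv.c, phi_inc, THS.coeff_mono, if_neg hne]

lemma inc_mem_SS (Γ : AddSubgroup GLv) (x : A) : L.lev.inc x ∈ SS L Γ := by
  rw [mem_SS]
  intro g hg
  rw [c_inc L hg]
  exact Γ.zero_mem

lemma alg_mem_cen (l : K') : algebraMap K' R l ∈ SS L (centLat L.m) := by
  rw [mem_SS]
  intro g hg
  exact ((L.mem_K' _).1 ⟨l, rfl⟩ g hg).1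

lemma alg_mem_kK (l : K') : algebraMap K' R l ∈ SS L (kK L.m) := by
  rw [mem_SS]
  intro g hg
  exact centLat_le_kK _ ((mem_SS L).1 (alg_mem_cen L l) g hg)

lemma c_scal {g h : GLv} (hg : g ∈ centLat L.m) (hh : L.c h (algebraMap K' R (L.scal g hg)) ≠ 0) :
    h = g := by
  classical
  by_contra hne
  apply hh
  rw [Lv.c, L.φ_scal, THS.coeff_mono, if_neg hne]

lemma scal_mem_jK {g : GLv} (hg : g ∈ centLat L.m) (h0 : (ofLex g).1 = 0) :
    algebraMap K' R (L.scal g hg) ∈ SS L jK := by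
  rw [mem_SS]
  intro h hh
  rw [c_scal L hg hh]
  exact h0

/-- Multiplication by a central monomial of order `-o` shifts the filtration. -/
lemma scal_mul_fil {g : GLv} (hg : g ∈ centLat L.m) {o i : ℕ} (h0 : (ofLex g).1 = -(o : ℤ))
    {x : R} (hx : x ∈ L.lev.Φ.fil (o + i)) : algebraMap K' R (L.scal g hg) * x ∈ L.lev.Φ.fil i := by
  rw [mem_fil]
  intro h hh
  have e : h = g + (h - g) := by abel
  rw [e, L.c_scal_mul] at hh
  have h1 := (mem_fil L).1 hx _ hh
  have h2 : (ofLex (h - g)).1 = (ofLex h).1 - (ofLex g).1 := rfl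
  rw [h2, h0] at h1
  push_cast at h1
  omega

/-- The inverse of an element of order exactly `0`. -/
lemma inv_mem_fil {x : R} (h : x ∈ L.lev.Φ.fil 0) {g : GLv} (hg : (ofLex g).1 = 0)
    (hc : L.c g x ≠ 0) : x⁻¹ ∈ L.lev.Φ.fil 0 := by
  have hx : x ≠ 0 := by
    rintro rfl
    exact hc (L.c_zero g)
  have hφ : L.φ x ≠ 0 := fun h0 => hx ((map_eq_zero_iff L.φ L.φ.injective).1 h0)
  set o := (L.φ x).ord with ho
  have ho1 : L.vK x = (o : WithTop GLv) := THSLead.vΓ_of_ne _ hφ
  have ho2 : L.c o x ≠ 0 := THS.ord_mem hφ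
  have ho3 : o ≤ g := L.le_of_c_ne (le_of_eq ho1.symm) hc
  have ho4 : (ofLex o).1 = 0 := by
    have h1 := (mem_fil L).1 h o ho2
    have h2 := fst_mono ho3
    rw [hg] at h2
    push_cast at h1
    omega
  have hv : L.vK x⁻¹ = ((-o : GLv) : WithTop GLv) := by
    have h1 := L.vK_mul x x⁻¹
    rw [mul_inv_cancel₀ hx, L.vK_one, ho1] at h1
    have hxi : x⁻¹ ≠ 0 := inv_ne_zero hx
    have hφi : L.φ x⁻¹ ≠ 0 := fun h0 => hxi ((map_eq_zero_iff L.φ L.φ.injective).1 h0)
    have h2 : L.vK x⁻¹ = (((L.φ x⁻¹).ord : GLv) : WithTop GLv) := THSLead.vΓ_of_ne _ hφi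
    rw [h2] at h1 ⊢
    have h3 : o + (L.φ x⁻¹).ord = 0 := by exact_mod_cast h1
    congr 1
    rw [eq_neg_iff_add_eq_zero, add_comm]
    exact h3
  rw [mem_fil]
  intro h' hh'
  have h1 := L.le_of_c_ne (le_of_eq hv.symm) hh'
  have h2 := fst_mono h1
  have h3 : (ofLex (-o)).1 = - (ofLex o).1 := rfl
  rw [h3, ho4] at h2
  simpa using h2

/-! ### The order-zero part -/

/-- The part of order `0`. -/
noncomputable def pr0 (x : R) : R :=
  L.φ.symm (THS.restrict {g : GLv | (ofLex g).1 = 0} (L.φ x))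

lemma c_pr0 (x : R) (g : GLv) :
    L.c g (pr0 L x) = if (ofLex g).1 = 0 then L.c g x else 0 := by
  classical
  rw [Lv.c, pr0, RingEquiv.apply_symm_apply]
  by_cases h : (ofLex g).1 = 0
  · rw [if_pos h]
    exact THS.coeff_restrict_of_mem _ h
  · rw [if_neg h]
    exact THS.coeff_restrict_of_not_mem _ h

lemma ext_c {x y : R} (h : ∀ g, L.c g x = L.c g y) : x = y := by
  apply L.φ.injective
  ext g
  exact h g

lemma pr0_add (x y : R) : pr0 L (x + y) = pr0 L x + pr0 L y := by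
  apply ext_c L
  intro g
  rw [L.c_add, c_pr0, c_pr0, c_pr0, L.c_add]
  split_ifs <;> simp

lemma pr0_zero : pr0 L (0 : R) = 0 := by
  apply ext_c L
  intro g
  rw [c_pr0, L.c_zero]
  split_ifs <;> rfl

lemma pr0_mem (x : R) : pr0 L x ∈ SS L jK := by
  rw [mem_SS]
  intro g hg
  rw [c_pr0] at hg
  by_contra h
  rw [mem_jK] at h
  rw [if_neg h] at hg
  exact hg rfl

lemma pr0_of_mem {x : R} (hx : x ∈ SS L jK) : pr0 L x = x := by
  apply ext_c L
  intro g
  rw [c_pr0]
  by_cases h : (ofLex g).1 = 0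
  · rw [if_pos h]
  · rw [if_neg h]
    by_contra hne
    exact h ((mem_SS L).1 hx g (Ne.symm hne))

lemma pr0_sum {ι : Type*} (s : Finset ι) (f : ι → R) :
    pr0 L (∑ i ∈ s, f i) = ∑ i ∈ s, pr0 L (f i) := by
  classical
  induction s using Finset.induction_on with
  | empty => simp [pr0_zero]
  | insert a s ha ih => rw [Finset.sum_insert ha, Finset.sum_insert ha, pr0_add, ih]

/-- If `y` has order `0`: the part of order `0` of `x y` is `(pr0 x) y`. -/
lemma pr0_mul {x y : R} (hy : y ∈ SS L jK) : pr0 L (x * y) = pr0 L x * y := by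
  apply ext_c L
  intro g
  have hsupp : ∀ (u v : R) (h : GLv), L.c h (u * v) ≠ 0 →
      ∃ a b, L.c a u ≠ 0 ∧ L.c b v ≠ 0 ∧ a + b = h := by
    intro u v h hh
    have h1 : h ∈ (L.φ u * L.φ v).supp := by
      have : (L.φ (u * v)).coeff h ≠ 0 := hh
      rwa [map_mul] at this
    obtain ⟨a, ha, b, hb, rfl⟩ := Set.mem_add.mp (THS.supp_mul_subset _ _ h1)
    exact ⟨a, b, ha, hb, rfl⟩
  rw [c_pr0]
  by_cases h : (ofLex g).1 = 0
  · rw [if_pos h]
    -- `x = pr0 x + x'`
    have e : x = pr0 L x + (x - pr0 L x) := by abel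
    conv_lhs => rw [e, add_mul, L.c_add]
    have h1 : L.c g ((x - pr0 L x) * y) = 0 := by
      by_contra hne
      obtain ⟨a, b, ha, hb, rfl⟩ := hsupp _ _ _ hne
      have hb0 := (mem_SS L).1 hy b hb
      rw [mem_jK] at hb0
      have ha0 : (ofLex a).1 = 0 := by
        have : (ofLex (a + b)).1 = (ofLex a).1 + (ofLex b).1 := rfl
        rw [this, hb0, add_zero] at h
        exact h
      apply ha
      rw [L.c_sub, c_pr0, if_pos ha0, sub_self]
    rw [h1, add_zero]
  · rw [if_neg h]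
    by_contra hne
    obtain ⟨a, b, ha, hb, rfl⟩ := hsupp _ _ _ (Ne.symm hne)
    have ha0 := (mem_SS L).1 (pr0_mem L x) a ha
    have hb0 := (mem_SS L).1 hy b hb
    apply h
    show (ofLex a).1 + (ofLex b).1 = 0
    rw [mem_jK] at ha0 hb0
    rw [ha0, hb0, add_zero]

/-- The part of order `0` of a scalar is a scalar. -/
lemma exists_pr0_scal (l : K') : ∃ l' : K', algebraMap K' R l' = pr0 L (algebraMap K' R l) := by
  have h : pr0 L (algebraMap K' R l) ∈ (algebraMap K' R).range := by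
    rw [L.mem_K']
    intro g hg
    have hg' : L.c g (pr0 L (algebraMap K' R l)) ≠ 0 := hg
    rw [c_pr0] at hg'
    by_cases h0 : (ofLex g).1 = 0
    · rw [if_pos h0] at hg'
      have h1 := (L.mem_K' _).1 ⟨l, rfl⟩ g hg'
      refine ⟨h1.1, ?_⟩
      have : (L.φ (pr0 L (algebraMap K' R l))).coeff g = L.c g (algebraMap K' R l) := by
        have := c_pr0 L (algebraMap K' R l) g
        rw [if_pos h0] at this
        exact this
      rw [this]
      exact h1.2
    · rw [if_neg h0] at hg'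
      exact absurd rfl hg'
  exact h

lemma aeval_mem_SS {Γ : AddSubgroup GLv} {k : Type*} [Field k] [Algebra k R] {Q : k[X]}
    (hQ : ∀ i, algebraMap k R (Q.coeff i) ∈ SS L Γ) {x : R} (hx : x ∈ SS L Γ) :
    aeval x Q ∈ SS L Γ := by
  rw [aeval_eq_sum_range]
  refine sum_mem fun a _ => ?_
  rw [Algebra.smul_def]
  exact mul_mem (hQ a) (_root_.pow_mem hx a)

variable [FiniteDimensional K A]

/-- **The minimal polynomial of an element of order `0` has coefficients of order `0`.** -/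
theorem minpoly_coeff_mem {H : R} (hH : H ∈ SS L jK) (i : ℕ) :
    algebraMap K' R ((minpoly K' H).coeff i) ∈ SS L jK := by
  classical
  have : FiniteDimensional K' R := L.finiteK
  set q := minpoly K' H with hq
  have hint : IsIntegral K' H := IsIntegral.of_finite K' H
  have hmon : q.Monic := minpoly.monic hint
  choose pl hpl using fun l : K' => exists_pr0_scal L l
  let Q₁ : K'[X] := ∑ a ∈ Finset.range (q.natDegree + 1), monomial a (pl (q.coeff a))
  have hcoef : ∀ a, Q₁.coeff a = if a < q.natDegree + 1 then pl (q.coeff a) else 0 := by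
    intro a
    simp only [Q₁, finsetSum_coeff, coeff_monomial]
    rw [Finset.sum_ite_eq' (Finset.range (q.natDegree + 1)) a]
    simp only [Finset.mem_range]
  have hone : pl 1 = 1 := by
    apply (algebraMap K' R).injective
    rw [hpl, map_one]
    exact pr0_of_mem L (one_mem _)
  have hQ₁deg : Q₁.natDegree ≤ q.natDegree := by
    apply Polynomial.natDegree_sum_le_of_forall_le
    intro a ha
    refine (natDegree_monomial_le _).trans ?_
    have := Finset.mem_range.1 ha
    omega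
  have hlead : Q₁.coeff q.natDegree = 1 := by
    rw [hcoef, if_pos (by omega), hmon.coeff_natDegree, hone]
  have hmonQ : Q₁.Monic := by
    have h1 : Q₁.natDegree = q.natDegree := by
      apply le_antisymm hQ₁deg
      apply le_natDegree_of_ne_zero
      rw [hlead]
      exact one_ne_zero
    rw [Monic, leadingCoeff, h1, hlead]
  have heval : aeval H Q₁ = 0 := by
    have h0 : aeval H q = 0 := minpoly.aeval K' H
    have h1 : pr0 L (aeval H q) = 0 := by rw [h0, pr0_zero]
    rw [aeval_eq_sum_range, pr0_sum] at h1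
    rw [← h1]
    simp only [Q₁, map_sum, aeval_monomial]
    refine Finset.sum_congr rfl fun a _ => ?_
    rw [Algebra.smul_def, pr0_mul L (_root_.pow_mem hH a), hpl]
  have hEq : Q₁ = q := by
    refine minpoly.unique_of_degree_le_degree_minpoly K' H hmonQ heval ?_
    rw [degree_eq_natDegree hmonQ.ne_zero, degree_eq_natDegree hmon.ne_zero]
    exact_mod_cast hQ₁deg
  rw [← hEq, hcoef]
  split_ifs
  · rw [hpl]
    exact pr0_mem L _
  · rw [map_zero]
    exact zero_mem _

end Crest.Agent.Kurosh.LiftAlg
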