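/-
S0270 (Kurosh), §L (helper94): the class-`s'` element `Ξ` of `K'[H]`.
-/
import Crest.Agent.Kurosh.LiftAlg2

set_option autoImplicit false

namespace Crest.Agent.Kurosh.LiftAlg

open Hensel State Module LU VLead Polynomial Calculus CentFactsB LiftDefs

variable {K A K' R : Type*} [Field K] [DivisionRing A] [Algebra K A] [Field K'] [DivisionRing R]
  [Algebra K R] [Algebra K' R] [Algebra K K'] [IsScalarTower K K' R] {τ : A →ₗ[K] K}
  (L : Lv K A K' R τ)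

lemma aeval_sub_mem {k : Type*} [Field k] [Algebra k R] (Φ : Filt R) (h1 : (1 : R) ∈ Φ.fil 0) {Q : k[X]}
    (hQ : ∀ i, algebraMap k R (Q.coeff i) ∈ Φ.fil 0) {x t : R} (hx : x ∈ Φ.fil 0) {i : ℕ}
    (ht : t ∈ Φ.fil i) : aeval (x + t) Q - aeval x Q ∈ Φ.fil i := by
  have h2 := taylor_fil Φ h1 hQ hx ht
  have h3 := dPoly_mem Φ h1 hQ hx ht
  have h4 := add_mem (Φ.anti (by omega : i ≤ 2 * i) h2) h3
  simpa using h4

lemma aeval_mem_adjoin {k B : Type*} [Field k] [Ring B] [Algebra k B] (S : Subalgebra k B) {x : B}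
    (hx : x ∈ S) (p : k[X]) : aeval x p ∈ S := by
  have h := Polynomial.aeval_algHom_apply S.val (⟨x, hx⟩ : S) p
  have h2 : S.val (⟨x, hx⟩ : S) = x := rfl
  rw [h2] at h
  rw [h]
  exact (aeval (⟨x, hx⟩ : S) p).2

lemma aeval_commute {k B : Type*} [Field k] [Ring B] [Algebra k B] {x y : B} (h : x * y = y * x)
    (p : k[X]) : aeval x p * y = y * aeval x p := by
  induction p using Polynomial.induction_on' with
  | add p q hp hq => rw [map_add, add_mul, mul_add, hp, hq]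
  | monomial n a =>
    rw [aeval_monomial, mul_assoc, (Commute.pow_left (show Commute x y from h) n).eq, ← mul_assoc,
      Algebra.commutes a y, mul_assoc]

lemma alg_mem_fil_K (c : K) : algebraMap K R c ∈ L.lev.Φ.fil 0 := by
  have h : algebraMap K R c = L.lev.inc (algebraMap K A c) := (L.lev.inc.commutes c).symm
  rw [h]
  exact L.lev.inc_mem _

lemma scal_mul_mon (j : ℕ) (hc : idx (0 : CE) (-(j : ℤ)) ∈ centLat L.m) :
    algebraMap K' R (L.scal _ hc) * L.lev.mon 0 j = 1 := by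
  apply L.φ.injective
  rw [map_mul, L.φ_scal, phi_mon, THS.mono_mul_mono, map_one, mul_one]
  have h1 : idx (0 : CE) (-(j : ℤ)) + idx (0 : CE) (j : ℤ) = 0 := by
    rw [idx_add]
    simp [idx_zero]
  rw [h1]
  have h2 : (twist κ L.ζ L.ζ_ne) (idx (0 : CE) (-(j : ℤ))) (idx (0 : CE) (j : ℤ)) = 1 := by
    show L.ζ ^ (_ * κ (0 : CE)) = 1
    simp
  rw [h2, one_smul]
  rfl

lemma scal_mul_mon_succ (j : ℕ) (hc : idx (0 : CE) (-(j : ℤ)) ∈ centLat L.m) :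
    algebraMap K' R (L.scal _ hc) * L.lev.mon 0 (j + 1) = L.lev.mon 0 1 := by
  apply L.φ.injective
  rw [map_mul, L.φ_scal, phi_mon, phi_mon, THS.mono_mul_mono, mul_one]
  have h1 : idx (0 : CE) (-(j : ℤ)) + idx (0 : CE) ((j + 1 : ℕ) : ℤ) = idx (0 : CE) ((1 : ℕ) : ℤ) := by
    rw [idx_add]
    congr 1
    · simp
  rw [h1]
  have h2 : (twist κ L.ζ L.ζ_ne) (idx (0 : CE) (-(j : ℤ))) (idx (0 : CE) ((j + 1 : ℕ) : ℤ)) = 1 := by
    show L.ζ ^ (_ * κ (0 : CE)) = 1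
    simp
  rw [h2, one_smul]

variable [FiniteDimensional K A] [CharZero K]

lemma inc_ne {x : A} (hx : x ≠ 0) : L.lev.inc x ≠ 0 := by
  intro h
  have := (VL_inc L x).eq
  rw [h, L.c_zero] at this
  exact hx this.symm

/-- **The element `Ξ`.** `H ≡ β + W s'^j + Z s'^{j+1}` with `λ W` of order `0`. Modulo order `1`,
`λ s'^{-j} P_β(H)` is `H₀ = P_β'(β) λ W`, and `K'[H]` contains an element `≡ e_{C(H₀)}(Z) s'` modulo
order `2`. -/
theorem exists_Xi {β dp : A} {W Z H H₀ : R} {lam : K'} (hlam : lam ≠ 0) {j : ℕ} (hj : 2 ≤ j)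
    (hdp : dp = aeval β (derivative (minpoly K β)))
    (hH₀ : H₀ = L.lev.inc dp * (algebraMap K' R lam * W))
    (hmj : L.m ∣ j) (hW : W ∈ SS L jK) (hlamj : algebraMap K' R lam ∈ SS L jK)
    (hWβ : L.lev.inc β * W = W * L.lev.inc β)
    (hWs : L.lev.mon 0 1 * (algebraMap K' R lam * W) = (algebraMap K' R lam * W) * L.lev.mon 0 1)
    (hZ : Z ∈ SS L jK) (hZβ : L.lev.inc β * Z = Z * L.lev.inc β)
    (hH : H - L.lev.inc β - (W * L.lev.mon 0 j + Z * L.lev.mon 0 (j + 1)) ∈ L.lev.Φ.fil (j + 2))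
    (S : Split (K := K') H₀) (hE : S.e Z ∈ L.lev.Φ.fil 0) :
    (∃ v ∈ Algebra.adjoin K' ({H} : Set R), v - H₀ ∈ L.lev.Φ.fil 1) ∧
    ∃ Ξ ∈ Algebra.adjoin K' ({H} : Set R), Ξ - S.e Z * L.lev.mon 0 1 ∈ L.lev.Φ.fil 2 := by
  classical
  have : FiniteDimensional K' R := L.finiteK
  have : CharZero K' := charZero_of_injective_algebraMap (algebraMap K K').injective
  have h1 : (1 : R) ∈ L.lev.Φ.fil 0 := one_mem_fil L
  obtain ⟨Φ, hΦ⟩ : ∃ Φ, Φ = L.lev.Φ := ⟨_, rfl⟩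
  rw [← hΦ] at h1 hH hE ⊢
  obtain ⟨inc, hinc⟩ : ∃ inc, inc = L.lev.inc := ⟨_, rfl⟩
  rw [← hinc] at hH hWβ hZβ hH₀
  obtain ⟨s1, hs1⟩ : ∃ s1, s1 = L.lev.mon (0 : CE) 1 := ⟨_, rfl⟩
  obtain ⟨sj, hsj⟩ : ∃ sj, sj = L.lev.mon (0 : CE) j := ⟨_, rfl⟩
  obtain ⟨sj1, hsj1⟩ : ∃ sj1, sj1 = L.lev.mon (0 : CE) (j + 1) := ⟨_, rfl⟩
  rw [← hs1] at hWs ⊢
  rw [← hsj, ← hsj1] at hH
  obtain ⟨ll, hll⟩ : ∃ ll, ll = algebraMap K' R lam := ⟨_, rfl⟩
  rw [← hll] at hH₀ hlamj hWs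
  obtain ⟨P0, hP0⟩ : ∃ P0, P0 = minpoly K β := ⟨_, rfl⟩
  rw [← hP0] at hdp
  have hdp0 : dp ≠ 0 := by
    rw [hdp, hP0]
    exact aeval_derivative_minpoly_ne_zero (K := K) β
  have hincf : ∀ x : A, inc x ∈ Φ.fil 0 := fun x => by
    rw [hinc, hΦ]
    exact L.lev.inc_mem x
  have hWf : W ∈ Φ.fil 0 := by rw [hΦ]; exact fil_of_mem_jK L hW
  have hZf : Z ∈ Φ.fil 0 := by rw [hΦ]; exact fil_of_mem_jK L hZ
  have hllf : ll ∈ Φ.fil 0 := by rw [hΦ]; exact fil_of_mem_jK L hlamj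
  have hs1f : s1 ∈ Φ.fil 1 := by rw [hs1, hΦ]; exact L.lev.mon_mem 0 1
  have hsjf : sj ∈ Φ.fil j := by rw [hsj, hΦ]; exact L.lev.mon_mem 0 j
  have hsj1f : sj1 ∈ Φ.fil (j + 1) := by rw [hsj1, hΦ]; exact L.lev.mon_mem 0 (j + 1)
  -- `δ`
  obtain ⟨δ₁, hδ₁⟩ : ∃ δ₁, δ₁ = W * sj + Z * sj1 := ⟨_, rfl⟩
  obtain ⟨δ, hδ⟩ : ∃ δ, δ = H - inc β := ⟨_, rfl⟩
  have hδ₁f : δ₁ ∈ Φ.fil j := by
    rw [hδ₁]
    exact add_mem (by simpa using Φ.mul_mem hWf hsjf)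
      (Φ.anti (Nat.le_succ j) (by simpa using Φ.mul_mem hZf hsj1f))
  have hdiff : δ - δ₁ ∈ Φ.fil (j + 2) := by rw [hδ, hδ₁]; exact hH
  have hδf : δ ∈ Φ.fil j := by
    have := add_mem (Φ.anti (by omega : j ≤ j + 2) hdiff) hδ₁f
    simpa using this
  have hHe : H = inc β + δ := by rw [hδ]; abel
  have hβf : inc β ∈ Φ.fil 0 := hincf β
  have hQ0 : ∀ (Q : K[X]) (i : ℕ), algebraMap K R (Q.coeff i) ∈ Φ.fil 0 := fun Q i => by
    rw [hΦ]; exact alg_mem_fil_K L _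
  have haev : ∀ Q : K[X], aeval (inc β) Q = inc (aeval β Q) := fun Q =>
    Polynomial.aeval_algHom_apply inc β Q
  have hmc : ∀ n i x, inc x * L.lev.mon n i = L.lev.mon n i * inc x := fun n i x => by
    rw [hinc]
    exact (L.lev.mon_comm n i x).eq.symm
  have hδ₁β : inc β * δ₁ = δ₁ * inc β := by
    rw [hδ₁, mul_add, add_mul, ← mul_assoc, hWβ, mul_assoc, hsj, hmc, ← mul_assoc, ← mul_assoc, hZβ,
      mul_assoc Z, hsj1, hmc]
    simp only [mul_assoc]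
  -- Step 1: `P_β(H) ≡ P_β'(β) δ₁`
  obtain ⟨v₀, hv₀⟩ : ∃ v₀, v₀ = aeval H P0 := ⟨_, rfl⟩
  have hstep1 : v₀ - inc dp * δ₁ ∈ Φ.fil (j + 2) := by
    have h2 := taylor_fil Φ h1 (hQ0 P0) hβf hδf
    rw [← hHe, haev, hP0, minpoly.aeval, map_zero, sub_zero, ← hP0, ← hv₀] at h2
    have h3 : dPoly (inc β) δ P0 = dPoly (inc β) (δ - δ₁) P0 + inc dp * δ₁ := by
      have h4 : δ = (δ - δ₁) + δ₁ := by abel
      conv_lhs => rw [h4]
      rw [dPoly_add_t, dPoly_of_comm hδ₁β, haev, hdp]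
    have h5 := dPoly_mem Φ h1 (hQ0 P0) hβf hdiff
    have h6 := add_mem (Φ.anti (by omega : j + 2 ≤ 2 * j) h2) h5
    rw [h3] at h6
    convert h6 using 1
    abel
  -- Step 2: scaling
  have hc : idx (0 : CE) (-(j : ℤ)) ∈ centLat L.m := by
    refine ⟨?_, ?_⟩
    · have : (L.m : ℤ) ∣ (j : ℤ) := by exact_mod_cast hmj
      simpa using this
    · show (L.m : ℤ) ∣ κ (0 : CE)
      simp
  obtain ⟨sc, hsc⟩ : ∃ sc, sc = algebraMap K' R (L.scal _ hc) := ⟨_, rfl⟩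
  have hscj : sc * sj = 1 := by rw [hsc, hsj]; exact scal_mul_mon L j hc
  have hscj1 : sc * sj1 = s1 := by rw [hsc, hsj1, hs1]; exact scal_mul_mon_succ L j hc
  have hsccom : ∀ x, sc * x = x * sc := fun x => by rw [hsc]; exact Algebra.commutes _ x
  have hllcom : ∀ x, ll * x = x * ll := fun x => by rw [hll]; exact Algebra.commutes _ x
  obtain ⟨v, hv⟩ : ∃ v, v = ll * (sc * v₀) := ⟨_, rfl⟩
  obtain ⟨t₁, ht₁⟩ : ∃ t₁, t₁ = inc dp * (ll * Z) * s1 := ⟨_, rfl⟩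
  have hvexp : ll * (sc * (inc dp * δ₁)) = H₀ + t₁ := by
    have e1 : sc * (inc dp * δ₁) = inc dp * W * (sc * sj) + inc dp * Z * (sc * sj1) := by
      calc sc * (inc dp * δ₁) = inc dp * (sc * δ₁) := by
            rw [← mul_assoc, hsccom, mul_assoc]
        _ = inc dp * (W * (sc * sj) + Z * (sc * sj1)) := by
            rw [hδ₁, mul_add]
            congr 2
            · rw [← mul_assoc, hsccom, mul_assoc]
            · rw [← mul_assoc, hsccom, mul_assoc]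
        _ = _ := by noncomm_ring
    rw [e1, hscj, hscj1, mul_one, hH₀, ht₁, mul_add]
    congr 1
    · rw [← mul_assoc, hllcom (inc dp), mul_assoc]
    · calc ll * (inc dp * Z * s1) = (ll * inc dp) * Z * s1 := by noncomm_ring
        _ = (inc dp * ll) * Z * s1 := by rw [hllcom]
        _ = _ := by noncomm_ring
  have hv2 : v - (H₀ + t₁) ∈ Φ.fil 2 := by
    have h2 : sc * (v₀ - inc dp * δ₁) ∈ Φ.fil 2 := by
      rw [hsc, hΦ]
      refine scal_mul_fil L hc rfl ?_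
      rw [← hΦ]
      exact hstep1
    have h3 := mul_mem_left Φ hllf h2
    rw [mul_sub, mul_sub, hvexp, ← hv] at h3
    exact h3
  have ht₁f : t₁ ∈ Φ.fil 1 := by
    have h2 : inc dp * (ll * Z) ∈ Φ.fil 0 := mul_mem_left Φ (hincf dp) (mul_mem_left Φ hllf hZf)
    rw [ht₁]
    exact mul_mem_left Φ h2 hs1f
  obtain ⟨t, ht⟩ : ∃ t, t = v - H₀ := ⟨_, rfl⟩
  have htt₁ : t - t₁ ∈ Φ.fil 2 := by
    convert hv2 using 1
    rw [ht]
    abel
  have htf : t ∈ Φ.fil 1 := by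
    have := add_mem (Φ.anti (by omega : 1 ≤ 2) htt₁) ht₁f
    simpa using this
  have hvH₀ : v = H₀ + t := by rw [ht]; abel
  -- `H₀` has order `0`
  have hincSS : ∀ x, inc x ∈ SS L jK := fun x => by rw [hinc]; exact inc_mem_SS L _ _
  have hH₀j : H₀ ∈ SS L jK := by
    rw [hH₀]
    exact mul_mem (hincSS _) (mul_mem hlamj hW)
  have hH₀f : H₀ ∈ Φ.fil 0 := by rw [hΦ]; exact fil_of_mem_jK L hH₀j
  have hH₀s1 : H₀ * s1 = s1 * H₀ := by
    have h2 : inc dp * s1 = s1 * inc dp := by rw [hs1]; exact hmc _ _ _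
    rw [hH₀, mul_assoc, ← hWs, ← mul_assoc, h2, mul_assoc]
  have hWdp : inc dp * (ll * W) = (ll * W) * inc dp := by
    have h2 : inc dp * W = W * inc dp := by
      rw [hdp, ← haev]
      exact aeval_commute hWβ _
    rw [← mul_assoc, ← hllcom, mul_assoc, h2, mul_assoc]
  have hH₀dp : H₀ * inc dp = inc dp * H₀ := by
    rw [hH₀, mul_assoc, ← hWdp]
  -- the minimal polynomial of `H₀`
  obtain ⟨Q₀, hQ₀⟩ : ∃ Q₀, Q₀ = minpoly K' H₀ := ⟨_, rfl⟩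
  have hQc : ∀ i, algebraMap K' R (Q₀.coeff i) ∈ SS L jK := by
    rw [hQ₀]
    exact minpoly_coeff_mem L hH₀j
  have hQf : ∀ i, algebraMap K' R (Q₀.coeff i) ∈ Φ.fil 0 := fun i => by
    rw [hΦ]; exact fil_of_mem_jK L (hQc i)
  have hQ'c : ∀ i, algebraMap K' R ((derivative Q₀).coeff i) ∈ SS L jK := by
    intro i
    rw [coeff_derivative, map_mul]
    refine mul_mem (hQc _) ?_
    have e : algebraMap K' R ((i : K') + 1) = ((i + 1 : ℕ) : R) := by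
      rw [map_add, map_natCast, map_one]
      push_cast
      rfl
    rw [e]
    exact natCast_mem _ _
  have hQ'f : ∀ i, algebraMap K' R ((derivative Q₀).coeff i) ∈ Φ.fil 0 := fun i => by
    rw [hΦ]; exact fil_of_mem_jK L (hQ'c i)
  -- Step 3: `Ξ'`
  obtain ⟨Xi', hXi'⟩ : ∃ Xi', Xi' = aeval v Q₀ := ⟨_, rfl⟩
  obtain ⟨Ee, hEe⟩ : ∃ Ee, Ee = S.e Z := ⟨_, rfl⟩
  rw [← hEe] at hE ⊢
  obtain ⟨A₀, hA₀⟩ : ∃ A₀, A₀ = aeval H₀ (derivative Q₀) := ⟨_, rfl⟩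
  have hA₀j : A₀ ∈ SS L jK := by rw [hA₀]; exact aeval_mem_SS L hQ'c hH₀j
  have hA₀ne : A₀ ≠ 0 := by
    rw [hA₀, hQ₀]
    exact aeval_derivative_minpoly_ne_zero (K := K') H₀
  obtain ⟨u₀, hu₀⟩ : ∃ u₀, u₀ = A₀ * (inc dp * ll) := ⟨_, rfl⟩
  have hXi'2 : Xi' - u₀ * Ee * s1 ∈ Φ.fil 2 := by
    have h2 := taylor_fil Φ h1 hQf hH₀f htf
    rw [← hvH₀, hQ₀, minpoly.aeval, sub_zero, ← hQ₀, ← hXi'] at h2
    have h3 : dPoly H₀ t Q₀ = dPoly H₀ (t - t₁) Q₀ + dPoly H₀ t₁ Q₀ := by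
      rw [← dPoly_add_t]
      congr 1
      abel
    have h4 := dPoly_mem Φ h1 hQf hH₀f htt₁
    have h5 : dPoly H₀ t₁ Q₀ = u₀ * Ee * s1 := by
      rw [ht₁, dPoly_mul_right hH₀s1, dPoly_of_root S (by rw [hQ₀]; exact minpoly.aeval K' H₀), ← hA₀]
      congr 1
      rw [split_e_mul_left S hH₀dp, hll, ← Algebra.smul_def, map_smul, Algebra.smul_def, ← hll,
        ← hEe, hu₀]
      noncomm_ring
    have h6 := add_mem h2 h4
    rw [h3, h5] at h2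
    convert h6 using 1
    rw [h3, h5]
    abel
  -- Step 4: the inverse of `w`
  have hHad : H ∈ Algebra.adjoin K' ({H} : Set R) := Algebra.subset_adjoin (Set.mem_singleton H)
  have hv₀ad : v₀ ∈ Algebra.adjoin K' ({H} : Set R) := by
    rw [hv₀, ← aeval_map_algebraMap K' H P0]
    exact aeval_mem_adjoin _ hHad _
  have hvad : v ∈ Algebra.adjoin K' ({H} : Set R) := by
    rw [hv]
    refine mul_mem ?_ (mul_mem ?_ hv₀ad)
    · rw [hll]; exact Subalgebra.algebraMap_mem _ _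
    · rw [hsc]; exact Subalgebra.algebraMap_mem _ _
  obtain ⟨w₁, hw₁⟩ : ∃ w₁, w₁ = aeval v (derivative Q₀) := ⟨_, rfl⟩
  obtain ⟨w₂, hw₂⟩ : ∃ w₂, w₂ = aeval H (derivative P0) := ⟨_, rfl⟩
  have hw₁ad : w₁ ∈ Algebra.adjoin K' ({H} : Set R) := by
    rw [hw₁]; exact aeval_mem_adjoin _ hvad _
  have hw₂ad : w₂ ∈ Algebra.adjoin K' ({H} : Set R) := by
    rw [hw₂, ← aeval_map_algebraMap K' H (derivative P0)]
    exact aeval_mem_adjoin _ hHad _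
  have hw₁1 : w₁ - A₀ ∈ Φ.fil 1 := by
    rw [hw₁, hA₀, hvH₀]
    exact aeval_sub_mem Φ h1 hQ'f hH₀f htf
  have hw₂1 : w₂ - inc dp ∈ Φ.fil 1 := by
    have h2 := aeval_sub_mem Φ h1 (hQ0 (derivative P0)) hβf hδf
    rw [← hHe, haev, ← hdp, ← hw₂] at h2
    exact Φ.anti (by omega) h2
  have hA₀f : A₀ ∈ Φ.fil 0 := by rw [hΦ]; exact fil_of_mem_jK L hA₀j
  have hdpf := hincf dp
  have hw₁f : w₁ ∈ Φ.fil 0 := by
    have := add_mem (Φ.anti (Nat.zero_le 1) hw₁1) hA₀f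
    simpa using this
  have hw₂f : w₂ ∈ Φ.fil 0 := by
    have := add_mem (Φ.anti (Nat.zero_le 1) hw₂1) hdpf
    simpa using this
  obtain ⟨w, hw⟩ : ∃ w, w = w₁ * (w₂ * ll) := ⟨_, rfl⟩
  have hwad : w ∈ Algebra.adjoin K' ({H} : Set R) := by
    rw [hw]
    refine mul_mem hw₁ad (mul_mem hw₂ad ?_)
    rw [hll]; exact Subalgebra.algebraMap_mem _ _
  have hwu : w - u₀ ∈ Φ.fil 1 := by
    have e : w - u₀ = (w₁ - A₀) * (w₂ * ll) + A₀ * ((w₂ - inc dp) * ll) := by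
      rw [hw, hu₀]; noncomm_ring
    rw [e]
    refine add_mem ?_ ?_
    · exact mul_mem_right Φ hw₁1 (mul_mem_left Φ hw₂f hllf)
    · exact mul_mem_left Φ hA₀f (mul_mem_right Φ hw₂1 hllf)
  have hu₀j : u₀ ∈ SS L jK := by
    rw [hu₀]
    exact mul_mem hA₀j (mul_mem (hincSS _) hlamj)
  have hllne : ll ≠ 0 := by
    rw [hll]
    exact (map_ne_zero_iff _ (algebraMap K' R).injective).2 hlam
  have hu₀ne : u₀ ≠ 0 := by
    rw [hu₀]
    exact mul_ne_zero hA₀ne (mul_ne_zero (by rw [hinc]; exact inc_ne L hdp0) hllne)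
  have hwf : w ∈ Φ.fil 0 := by
    rw [hw]; exact mul_mem_left Φ hw₁f (mul_mem_left Φ hw₂f hllf)
  have hwinv : w⁻¹ ∈ Φ.fil 0 := by
    obtain ⟨g₀, hg₀⟩ : ∃ g₀, L.c g₀ u₀ ≠ 0 := by
      by_contra hcon
      push_neg at hcon
      exact hu₀ne (ext_c L fun g => by rw [hcon g, L.c_zero])
    have hg₀j := (mem_SS L).1 hu₀j g₀ hg₀
    rw [mem_jK] at hg₀j
    have hcw : L.c g₀ w = L.c g₀ u₀ := by
      refine c_eq_of_sub_fil L (by rw [← hΦ]; exact hwu) ?_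
      rw [hg₀j]; omega
    rw [hΦ] at hwf ⊢
    exact inv_mem_fil L hwf hg₀j (by rw [hcw]; exact hg₀)
  refine ⟨⟨v, hvad, ?_⟩, w⁻¹ * Xi', mul_mem (DoubleCent.inv_mem_subalgebra _ hwad) ?_, ?_⟩
  · rw [← ht]; exact htf
  · rw [hXi']; exact aeval_mem_adjoin _ hvad _
  · have hwne : w ≠ 0 := by
      rintro h0
      rw [h0, zero_sub] at hwu
      have : u₀ ∈ Φ.fil 1 := by simpa using neg_mem hwu
      obtain ⟨g₀, hg₀⟩ : ∃ g₀, L.c g₀ u₀ ≠ 0 := by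
        by_contra hcon
        push_neg at hcon
        exact hu₀ne (ext_c L fun g => by rw [hcon g, L.c_zero])
      have hg₀j := (mem_SS L).1 hu₀j g₀ hg₀
      rw [mem_jK] at hg₀j
      exact hg₀ (c_of_fil L (by rw [← hΦ]; exact this) (by rw [hg₀j]; omega))
    have e : w⁻¹ * Xi' - Ee * s1 = w⁻¹ * (Xi' - u₀ * Ee * s1) + w⁻¹ * ((u₀ - w) * (Ee * s1)) := by
      have : w⁻¹ * (w * (Ee * s1)) = Ee * s1 := by
        rw [← mul_assoc, inv_mul_cancel₀ hwne, one_mul]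
      calc w⁻¹ * Xi' - Ee * s1 = w⁻¹ * Xi' - w⁻¹ * (w * (Ee * s1)) := by rw [this]
        _ = _ := by noncomm_ring
    rw [e]
    refine add_mem (mul_mem_left Φ hwinv hXi'2) (mul_mem_left Φ hwinv ?_)
    have h2 : u₀ - w ∈ Φ.fil 1 := by
      have := neg_mem hwu
      simpa using this
    have h3 : Ee * s1 ∈ Φ.fil 1 := mul_mem_left Φ hE hs1f
    simpa using Φ.mul_mem h2 h3

end Crest.Agent.Kurosh.LiftAlg
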