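/-
S0270 (Kurosh), blueprint v3 §L (helper41): the pairing lemmas `mov_a0`, `mov_a1` of helper94's
`LiftStubs`: an element `u ∈ Ft = K'[a_l(X̃)]` pairing with `Ft` as `x` does has the expected lead.
The test elements are `λ · fh · b_t`, `fh` a lift of `f ∈ F0`, `b_t` the `t`-th power of `Ξ`, `λ` a central
monomial.
-/
import Crest.Agent.Kurosh.LiftDefs

set_option autoImplicit false
set_option linter.unusedSectionVars false

namespace Crest.Agent.Kurosh.LiftDefs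

open Hensel State Module LU VLead

variable {K A K' R : Type*} [Field K] [DivisionRing A] [Algebra K A] [Field K'] [DivisionRing R]
  [Algebra K R] [Algebra K' R] [Algebra K K'] [IsScalarTower K K' R] {τ : A →ₗ[K] K}
  (L : Lv K A K' R τ)

/-- All coefficients of first coordinate `< j` vanish. -/
def Low (x : R) (j : ℤ) : Prop := ∀ g : GLv, (ofLex g).1 < j → L.c g x = 0

variable {L}

lemma exists_of_c_mul_ne {x y : R} {g : GLv} (h : L.c g (x * y) ≠ 0) :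
    ∃ a b : GLv, a + b = g ∧ L.c a x ≠ 0 ∧ L.c b y ≠ 0 := by
  unfold Lv.c at h
  rw [map_mul, THS.coeff_mul] at h
  obtain ⟨⟨i, j⟩, hij, -⟩ := Finset.exists_ne_zero_of_sum_ne_zero h
  obtain ⟨hi, hj, hsum⟩ := Finset.mem_antidiagonal.1 hij
  exact ⟨i, j, hsum, hi, hj⟩

lemma Low.mul {x y : R} {j j' : ℤ} (hx : Low L x j) (hy : Low L y j') : Low L (x * y) (j + j') := by
  intro g hg
  by_contra hne
  obtain ⟨a, b, rfl, ha, hb⟩ := exists_of_c_mul_ne hne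
  have h1 : j ≤ (ofLex a).1 := by
    by_contra hlt
    exact ha (hx a (not_le.1 hlt))
  have h2 : j' ≤ (ofLex b).1 := by
    by_contra hlt
    exact hb (hy b (not_le.1 hlt))
  have h3 : (ofLex (a + b)).1 = (ofLex a).1 + (ofLex b).1 := rfl
  omega

lemma Low.add {x y : R} {j : ℤ} (hx : Low L x j) (hy : Low L y j) : Low L (x + y) j := by
  intro g hg
  rw [Lv.c_add, hx g hg, hy g hg, add_zero]

lemma Low.sub {x y : R} {j : ℤ} (hx : Low L x j) (hy : Low L y j) : Low L (x - y) j := by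
  intro g hg
  rw [Lv.c_sub, hx g hg, hy g hg, sub_zero]

lemma Low.of_le {x : R} {j j' : ℤ} (hx : Low L x j) (h : j' ≤ j) : Low L x j' :=
  fun g hg => hx g (lt_of_lt_of_le hg h)

lemma Low.of_fil {x : R} {j : ℕ} (hx : x ∈ L.lev.Φ.fil j) : Low L x j := by
  intro g hg
  by_contra hne
  have := (L.lev_fil j x).1 hx g hne
  omega

lemma Low.of_VL {x : R} {g : GLv} {y : A} (h : VL L x g y) : Low L x (ofLex g).1 :=
  fun a ha => h.lt a (lt_of_fst_lt ha)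

lemma KZ.mul {x y : R} (hx : KZ L x) (hy : KZ L y) : KZ L (x * y) := by
  intro g hne
  obtain ⟨a, b, rfl, ha, hb⟩ := exists_of_c_mul_ne hne
  have h1 := hx a ha
  have h2 := hy b hb
  have h3 : κ (ofLex (a + b)).2 = κ (ofLex a).2 + κ (ofLex b).2 := by
    rw [← map_add]
    rfl
  rw [h3]
  exact dvd_add h1 h2

lemma VL_mon (n : CE) (j : ℕ) : VL L (L.lev.mon n j) (idx n (j : ℤ)) 1 := by
  have h := L.lev_mono 1 n j
  have h2 : L.lev.mono 1 n j = L.lev.mon n j := by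
    simp [Lev.mono, map_one]
  rw [h2] at h
  exact VL.of_phi h

lemma KZ_mon (j : ℕ) : KZ L (L.lev.mon 0 j) := by
  intro g hg
  have h := L.lev_mono 1 0 j
  have h2 : L.lev.mono 1 0 j = L.lev.mon 0 j := by
    simp [Lev.mono, map_one]
  rw [h2] at h
  unfold Lv.c at hg
  rw [h, THS.coeff_mono] at hg
  have hg' : g = idx 0 (j : ℤ) := by
    by_contra hne
    exact hg (if_neg hne)
  subst hg'
  simp

lemma VL.weaken' {x : R} {g g' : GLv} {y : A} (h : VL L x g y) (hg : g' < g) : VL L x g' 0 :=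
  ⟨fun a ha => h.lt a (lt_trans ha hg), h.lt g' hg⟩

/-- The value of the `A₁`-layer of the `t`-th power of `Ξ`. -/
noncomputable def g2 (ηe : CE) (t : ℕ) : GLv := idx ((-(2 * (t : ℤ)) + 1) • ηe + sExp) (t : ℤ)

lemma g2_sub_gt (ηe : CE) (t : ℕ) : g2 ηe t = gt ηe t + idx (ηe + sExp) 0 := by
  unfold g2 gt
  rw [idx_add, add_zero, add_smul, one_smul, add_assoc]

lemma gt_lt_g2 {ηe : CE} (h : 0 < ηe + sExp) (t : ℕ) : gt ηe t < g2 ηe t := by
  rw [g2_sub_gt]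
  refine lt_add_of_pos_right _ ?_
  exact Prod.Lex.lt_iff.2 (Or.inr ⟨rfl, h⟩)

lemma κ_fst_scal {h : GLv} (hh : h ∈ centLat L.m) : (L.m : ℤ) ∣ κ (ofLex h).2 := hh.2

lemma κ_add (a b : GLv) : κ (ofLex (a + b)).2 = κ (ofLex a).2 + κ (ofLex b).2 := by
  rw [← map_add]
  rfl

lemma κ_sub (a b : GLv) : κ (ofLex (a - b)).2 = κ (ofLex a).2 - κ (ofLex b).2 := by
  rw [← map_sub]
  rfl

lemma κ_neg (a : GLv) : κ (ofLex (-a)).2 = - κ (ofLex a).2 := by
  rw [← map_neg]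
  rfl

lemma fst_add (a b : GLv) : (ofLex (a + b)).1 = (ofLex a).1 + (ofLex b).1 := rfl
lemma fst_sub (a b : GLv) : (ofLex (a - b)).1 = (ofLex a).1 - (ofLex b).1 := rfl
lemma fst_neg (a : GLv) : (ofLex (-a)).1 = - (ofLex a).1 := rfl

lemma eps_idx_zero (n : CE) (g : GLv) : eps L (idx n 0) g = 1 := by
  show L.ζ ^ (((0 : ℤ)) * κ (ofLex g).2) = 1
  simp

lemma not_dvd_one_m : ¬ (L.m : ℤ) ∣ 1 := by
  intro h
  have h1 : (L.m : ℤ) = 1 ∨ (L.m : ℤ) = -1 := Int.isUnit_iff.1 (isUnit_of_dvd_one h)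
  have h2 := L.m_prime.one_lt
  omega

/-- **The test element.** -/
theorem test_elem {Ft : Subalgebra K' R} {F0 : Subalgebra K A} {y₀ r₁ : A} {ηe : CE}
    (TL : TestLifts L Ft F0 y₀ r₁ ηe) (t : ℕ) {f : A} (hf : f ∈ F0) (h : GLv)
    (hh : h ∈ centLat L.m) :
    ∃ b ∈ Ft, VL L b (h + gt ηe t) (f * y₀ ^ t) ∧
      (∀ g : GLv, (ofLex g).1 = (ofLex h).1 + t → ¬ (L.m : ℤ) ∣ κ (ofLex g).2 →
        g < h + g2 ηe t → L.c g b = 0) ∧
      L.c (h + g2 ηe t) b = cc L t • (f * (y₀ ^ (t - 1) * r₁)) := by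
  obtain ⟨fh, hfh, v0, hv0, hKZ0, hfil⟩ := TL.lift f hf
  obtain ⟨bt, hbt, A₀, A₁, hrest, hKZ, hA₀, hA₁⟩ := TL.pow t
  set M := L.lev.mon 0 t with hMdef
  have hM : VL L M (idx 0 (t : ℤ)) 1 := VL_mon 0 t
  have T0 : VL L (v0 * (A₀ * M)) (gt ηe t) (f * y₀ ^ t) := by
    have h1 := hA₀.mul hM
    rw [eps_idx_zero, one_smul, mul_one, idx_add, add_zero, zero_add] at h1
    exact hv0.mul_zero_left h1
  have T1 : VL L (v0 * (A₁ * M)) (g2 ηe t) (cc L t • (f * (y₀ ^ (t - 1) * r₁))) := by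
    have h1 := hA₁.mul hM
    rw [eps_idx_zero, one_smul, mul_one, idx_add, add_zero, zero_add] at h1
    have h2 := hv0.mul_zero_left h1
    rw [mul_smul_comm] at h2
    exact h2
  have T2 : KZ L (v0 * (A₀ * M)) := hKZ0.mul (hKZ.mul (KZ_mon t))
  -- the remainder
  set Rm := (fh - v0) * bt + v0 * (bt - (A₀ + A₁) * M) with hRm
  have hF : fh * bt = v0 * (A₀ * M) + v0 * (A₁ * M) + Rm := by
    rw [hRm]
    noncomm_ring
  have hLowA : Low L ((A₀ + A₁) * M) t := by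
    have h1 : Low L A₀ 0 := Low.of_VL hA₀
    have h2 : Low L A₁ 0 := Low.of_VL hA₁
    have h3 : Low L M t := Low.of_VL hM
    have := (h1.add h2).mul h3
    simpa using this
  have hLowbt : Low L bt t := by
    have h1 : Low L (bt - (A₀ + A₁) * M) ((t + 1 : ℕ) : ℤ) := Low.of_fil hrest
    have h2 := (h1.of_le (by push_cast; omega)).add hLowA
    simpa using h2
  have hLowR : Low L Rm ((t : ℤ) + 1) := by
    have h1 : Low L (fh - v0) ((1 : ℕ) : ℤ) := Low.of_fil hfil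
    have h2 := h1.mul hLowbt
    have h3 : Low L v0 0 := Low.of_VL hv0
    have h4 : Low L (bt - (A₀ + A₁) * M) ((t + 1 : ℕ) : ℤ) := Low.of_fil hrest
    have h5 := h3.mul h4
    refine Low.add (h2.of_le ?_) (h5.of_le ?_)
    · push_cast
      omega
    · push_cast
      omega
  -- the coefficients of `fh * bt`
  have hc : ∀ a : GLv, L.c a (fh * bt) =
      L.c a (v0 * (A₀ * M)) + L.c a (v0 * (A₁ * M)) + L.c a Rm := fun a => by
    rw [hF, Lv.c_add, Lv.c_add]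
  have hmem : algebraMap K' R (L.scal h hh) * (fh * bt) ∈ Ft :=
    Ft.mul_mem (Ft.algebraMap_mem _) (Ft.mul_mem hfh hbt)
  have hcb : ∀ a : GLv, L.c a (algebraMap K' R (L.scal h hh) * (fh * bt)) = L.c (a - h) (fh * bt) := by
    intro a
    have := L.c_scal_mul h hh (a - h) (fh * bt)
    rwa [add_sub_cancel] at this
  have hgt := gt_lt_g2 TL.posη t
  have hfst_gt : (ofLex (gt ηe t)).1 = t := rfl
  refine ⟨_, hmem, ⟨fun a ha => ?_, ?_⟩, fun g hg1 hg2 hg3 => ?_, ?_⟩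
  · rw [hcb, hc]
    have ha' : a - h < gt ηe t := by
      rw [sub_lt_iff_lt_add']
      exact ha
    rw [T0.lt _ ha', T1.lt _ (lt_trans ha' hgt), hLowR _ ?_, add_zero, add_zero]
    have := fst_mono ha'.le
    rw [hfst_gt] at this
    omega
  · rw [hcb, add_sub_cancel_left, hc, T0.eq, T1.lt _ hgt, hLowR _ ?_, add_zero, add_zero]
    rw [hfst_gt]
    omega
  · rw [hcb, hc]
    have ha' : g - h < g2 ηe t := by
      rw [sub_lt_iff_lt_add']
      exact hg3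
    have hT0 : L.c (g - h) (v0 * (A₀ * M)) = 0 := by
      by_contra hne
      have h1 := T2 _ hne
      apply hg2
      have h2 := dvd_add h1 hh.2
      rw [← κ_add, sub_add_cancel] at h2
      exact h2
    rw [hT0, T1.lt _ ha', hLowR _ ?_, add_zero, add_zero]
    rw [fst_sub, hg1]
    omega
  · rw [hcb, add_sub_cancel_left, hc]
    have hT0 : L.c (g2 ηe t) (v0 * (A₀ * M)) = 0 := by
      by_contra hne
      have h1 := T2 _ hne
      have h2 : κ (ofLex (g2 ηe t)).2 = 1 := by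
        show κ ((-(2 * (t : ℤ)) + 1) • ηe + sExp) = 1
        rw [map_add, map_zsmul, TL.κη, κ_sExp, smul_zero, zero_add]
      rw [h2] at h1
      exact not_dvd_one_m h1
    rw [hT0, T1.eq, hLowR _ ?_, add_zero, zero_add]
    show (t : ℤ) < t + 1
    omega

/-- The central monomial attached to a value and a power. -/
lemma mem_centLat_of {g : GLv} {ηe : CE} {t : ℕ} (hκη : κ ηe = 0) (h1 : (L.m : ℤ) ∣ (ofLex g).1 + t)
    (h2 : (L.m : ℤ) ∣ κ (ofLex g).2) : -g - gt ηe t ∈ centLat L.m := by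
  refine ⟨?_, ?_⟩
  · rw [fst_sub, fst_neg]
    have h3 : (ofLex (gt ηe t)).1 = t := rfl
    rw [h3]
    have h4 : -(ofLex g).1 - (t : ℤ) = -((ofLex g).1 + t) := by ring
    rw [h4]
    exact (dvd_neg).2 h1
  · rw [κ_sub, κ_neg]
    have h3 : κ (ofLex (gt ηe t)).2 = 0 := by
      show κ ((-(2 * (t : ℤ))) • ηe) = 0
      rw [map_zsmul, hκη, smul_zero]
    rw [h3, sub_zero]
    exact (dvd_neg).2 h2

lemma exists_nat_dvd (m : ℕ) (hm : 0 < m) (j : ℤ) : ∃ t : ℕ, (m : ℤ) ∣ j + t := by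
  have hm' : (m : ℤ) ≠ 0 := by exact_mod_cast hm.ne'
  refine ⟨((-j) % (m : ℤ)).toNat, ?_⟩
  rw [Int.toNat_of_nonneg (Int.emod_nonneg _ hm')]
  have h := Int.emod_add_mul_ediv (-j) m
  refine ⟨- ((-j) / m), ?_⟩
  have : (m : ℤ) * -(-j / m) = -((m : ℤ) * (-j / m)) := by ring
  rw [this]
  linarith

/-- The test element at a value `-g'`, with a prescribed lead. -/
theorem test_at {Ft : Subalgebra K' R} {F0 : Subalgebra K A} {y₀ r₁ : A} {ηe : CE}
    (TL : TestLifts L Ft F0 y₀ r₁ ηe) {g' : GLv} (hg' : (L.m : ℤ) ∣ κ (ofLex g').2) {f : A}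
    (hf : f ∈ F0) :
    ∃ b ∈ Ft, VL L b (-g') f ∧
      ∀ g : GLv, (ofLex g).1 = - (ofLex g').1 → ¬ (L.m : ℤ) ∣ κ (ofLex g).2 →
        g < -g' + idx (ηe + sExp) 0 → L.c g b = 0 := by
  obtain ⟨t, ht⟩ := exists_nat_dvd L.m L.m_pos (ofLex g').1
  have hh := mem_centLat_of (L := L) TL.κη ht hg'
  have hy : y₀ ^ t ≠ 0 := pow_ne_zero _ TL.y_ne
  have hyinv : (y₀ ^ t)⁻¹ ∈ F0 := TL.inv_mem _ (F0.pow_mem TL.y_mem t)
  obtain ⟨b, hb, h1, h2, -⟩ := test_elem TL t (F0.mul_mem hf hyinv) _ hh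
  refine ⟨b, hb, ?_, fun g hg1 hg2 hg3 => ?_⟩
  · rw [sub_add_cancel, mul_assoc, inv_mul_cancel₀ hy, mul_one] at h1
    exact h1
  · refine h2 g ?_ hg2 ?_
    · rw [hg1, fst_sub, fst_neg]
      have h3 : (ofLex (gt ηe t)).1 = t := rfl
      rw [h3]
      ring
    · rw [g2_sub_gt, ← add_assoc, sub_add_cancel]
      exact hg3

/-- The pairing at value `0`. -/
lemma pair_zero_coeff {u x b : R} (h : L.τ' (u * b) = L.τ' (x * b)) :
    τ (L.c 0 (u * b)) = τ (L.c 0 (x * b)) := by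
  have h0 : (0 : GLv) ∈ centLat L.m := (centLat L.m).zero_mem
  have h1 := L.c_τ' (u * b) h0
  have h2 := L.c_τ' (x * b) h0
  rw [h] at h1
  rw [h1] at h2
  by_contra hne
  apply hne
  have hinj : Function.Injective (algebraMap K A) := (algebraMap K A).injective
  exact hinj h2

lemma eps_neg_self {g : GLv} (hg : (L.m : ℤ) ∣ κ (ofLex g).2) : eps L g (-g) = 1 := by
  show L.ζ ^ ((ofLex g).1 * κ (ofLex (-g)).2) = 1
  rw [κ_neg]
  refine (L.ζ_prim.zpow_eq_one_iff_dvd _).2 ?_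
  exact Dvd.dvd.mul_left ((dvd_neg).2 hg) _

/-- No value below `Z`: if the pairing with `x` of the test elements of value `-g'`, `g' < Z`, is zero. -/
theorem le_vK_of_test {Ft : Subalgebra K' R} {F0 : Subalgebra K A} {y₀ r₁ : A} {ηe : CE}
    (TL : TestLeads L Ft F0 y₀ r₁ ηe) (h1 : τ 1 = 1) {u x : R} (hu : u ∈ Ft)
    (hp : ∀ b ∈ Ft, L.τ' (u * b) = L.τ' (x * b)) {Z : GLv}
    (hZ : ∀ g' : GLv, g' < Z → (L.m : ℤ) ∣ κ (ofLex g').2 → ∀ a ∈ F0,
      ∃ b ∈ Ft, VL L b (-g') a ∧ τ (L.c 0 (x * b)) = 0) :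
    (Z : WithTop GLv) ≤ L.vK u := by
  by_contra hcon
  have hu0 : u ≠ 0 := by
    rintro rfl
    apply hcon
    rw [L.vK_zero]
    exact le_top
  have hφ : L.φ u ≠ 0 := (map_ne_zero_iff L.φ L.φ.injective).2 hu0
  set g' : GLv := (L.φ u).ord with hg'
  have hv : L.vK u = (g' : WithTop GLv) := THSLead.vΓ_of_ne _ hφ
  have hg'Z : g' < Z := by
    rw [hv] at hcon
    exact WithTop.coe_lt_coe.1 (not_le.1 hcon)
  have hle : (g' : WithTop GLv) ≤ L.vK u := hv.ge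
  have hne : L.c g' u ≠ 0 := THS.ord_mem hφ
  have ha := TL.lead_mem g' u hu hle
  have hcl := TL.lead_class g' u hu hle hne
  obtain ⟨b, hb, hVb, h0⟩ := hZ g' hg'Z hcl _ (TL.inv_mem _ ha)
  have hVu : VL L u g' (L.c g' u) := ⟨fun a ha => (L.le_vK_iff.1 hle) a ha, rfl⟩
  have h2 := hVu.mul hVb
  rw [add_neg_cancel, eps_neg_self hcl, one_smul, mul_inv_cancel₀ hne] at h2
  have h3 := pair_zero_coeff (hp b hb)
  rw [h2.eq, h1, h0] at h3
  exact one_ne_zero h3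

variable (L)

/-- (M4 a=0) -/
theorem mov_a0 {Ft : Subalgebra K' R} {F0 : Subalgebra K A} {y₀ r₁ : A} {ηe : CE}
    (TL : TestLeads L Ft F0 y₀ r₁ ηe) (h1 : τ 1 = 1) {u x : R} (hu : u ∈ Ft)
    (hp : ∀ b ∈ Ft, L.τ' (u * b) = L.τ' (x * b)) {g₁ : GLv}
    (hg₁ : (L.m : ℤ) ∣ κ (ofLex g₁).2) (hx : (g₁ : WithTop GLv) ≤ L.vK x) :
    (g₁ : WithTop GLv) ≤ L.vK u ∧ L.c g₁ u ∈ F0 ∧ ∀ f ∈ F0, τ (L.c g₁ u * f) = τ (L.c g₁ x * f) := by
  have hu1 : (g₁ : WithTop GLv) ≤ L.vK u := by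
    refine le_vK_of_test TL h1 hu hp fun g' hg' hcl a ha => ?_
    obtain ⟨b, hb, hVb, -⟩ := test_at TL.toTestLifts hcl ha
    refine ⟨b, hb, hVb, ?_⟩
    have h2 : ((g₁ + -g' : GLv) : WithTop GLv) ≤ L.vK (x * b) :=
      L.le_vK_mul hx (L.le_vK_iff.2 hVb.lt)
    have h3 : (0 : GLv) < g₁ + -g' := by
      rw [← sub_eq_add_neg]
      exact sub_pos.2 hg'
    have h4 : ((0 : GLv) : WithTop GLv) < L.vK (x * b) :=
      lt_of_lt_of_le (WithTop.coe_lt_coe.2 h3) h2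
    rw [L.c_eq_zero_of_lt h4, map_zero]
  refine ⟨hu1, TL.lead_mem g₁ u hu hu1, fun f hf => ?_⟩
  obtain ⟨b, hb, hVb, -⟩ := test_at TL.toTestLifts hg₁ hf
  have h2 := L.pair_eqK (add_neg_cancel g₁) hu1 hx (L.le_vK_iff.2 hVb.lt) (hp b hb)
  rwa [hVb.eq] at h2

/-- (M4 a=1) `x` is alone at its order: monomial `n0` with `K ≡ -1`, order `j0 ≢ 0` -/
theorem mov_a1 {Ft : Subalgebra K' R} {F0 : Subalgebra K A} {y₀ r₁ : A} {ηe : CE}
    (TL : TestLeads L Ft F0 y₀ r₁ ηe) (h1 : τ 1 = 1) {u x : R} (hu : u ∈ Ft)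
    (hp : ∀ b ∈ Ft, L.τ' (u * b) = L.τ' (x * b)) {n0 : CE} {j0 : ℕ} {w : A}
    (hκ : (L.m : ℤ) ∣ κ n0 + 1)
    (hx : x - L.lev.mono w n0 j0 ∈ L.lev.Φ.fil (j0 + 1)) {t : ℕ} (ht : L.m ∣ j0 + t) :
    (idx (n0 + ηe + sExp) (j0 : ℤ) : WithTop GLv) ≤ L.vK u ∧ L.c (idx (n0 + ηe + sExp) (j0 : ℤ)) u ∈ F0 ∧
      ∀ f ∈ F0, τ (L.c (idx (n0 + ηe + sExp) (j0 : ℤ)) u * (f * y₀ ^ t)) =
        L.ζ ^ j0 * cc L t * τ (w * (f * (y₀ ^ (t - 1) * r₁))) := by
  classical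
  set gS : GLv := idx (n0 + ηe + sExp) (j0 : ℤ) with hgS
  set g₁ : GLv := idx n0 (j0 : ℤ) with hg₁
  have hgS1 : gS = g₁ + idx (ηe + sExp) 0 := by
    rw [hgS, hg₁, idx_add, add_zero, add_assoc]
  have hκS : (L.m : ℤ) ∣ κ (ofLex gS).2 := by
    show (L.m : ℤ) ∣ κ (n0 + ηe + sExp)
    rw [map_add, map_add, TL.κη, κ_sExp, add_zero]
    exact hκ
  -- the coefficient at `0` of `x b`
  have hxb : ∀ b : R, Low L b (-(j0 : ℤ)) → L.c 0 (x * b) = eps L g₁ (-g₁) • (w * L.c (-g₁) b) := by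
    intro b hb
    have e : x * b = (x - L.lev.mono w n0 j0) * b + L.lev.mono w n0 j0 * b := by noncomm_ring
    have h2 : Low L (x - L.lev.mono w n0 j0) (((j0 + 1 : ℕ)) : ℤ) := Low.of_fil hx
    have h3 := h2.mul hb
    have h4 : L.c 0 ((x - L.lev.mono w n0 j0) * b) = 0 := by
      refine h3 0 ?_
      show (0 : ℤ) < _
      push_cast
      omega
    rw [e, Lv.c_add, h4, zero_add]
    unfold Lv.c
    rw [map_mul, L.lev_mono]
    have h5 := THS.coeff_mono_mul (ε := twist κ L.ζ L.ζ_ne) g₁ w (L.φ b) (-g₁)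
    rw [add_neg_cancel] at h5
    exact h5
  have hg₁κ : ¬ (L.m : ℤ) ∣ κ (ofLex (-g₁)).2 := by
    rw [κ_neg]
    intro h2
    have h3 : (L.m : ℤ) ∣ κ n0 := (dvd_neg).1 h2
    have h4 := (dvd_add_right h3).1 hκ
    exact not_dvd_one_m h4
  have hu1 : (gS : WithTop GLv) ≤ L.vK u := by
    refine le_vK_of_test TL h1 hu hp fun g' hg' hcl a ha => ?_
    obtain ⟨b, hb, hVb, hb0⟩ := test_at TL.toTestLifts hcl ha
    refine ⟨b, hb, hVb, ?_⟩
    have hfst : (ofLex g').1 ≤ j0 := fst_mono hg'.le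
    have hLow : Low L b (-(j0 : ℤ)) := by
      refine (Low.of_VL hVb).of_le ?_
      rw [fst_neg]
      omega
    rw [hxb b hLow]
    have hzero : L.c (-g₁) b = 0 := by
      rcases lt_or_eq_of_le hfst with hlt | heq
      · refine hVb.lt _ (lt_of_fst_lt ?_)
        rw [fst_neg, fst_neg]
        show -(j0 : ℤ) < _
        omega
      · refine hb0 _ ?_ hg₁κ ?_
        · rw [fst_neg, heq]
          rfl
        · have h5 : -gS < -g' := neg_lt_neg hg'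
          have h6 := add_lt_add_left h5 (idx (ηe + sExp) 0)
          have h7 : -gS + idx (ηe + sExp) 0 = -g₁ := by
            rw [hgS1]
            abel
          rwa [h7] at h6
    rw [hzero, mul_zero, smul_zero, map_zero]
  refine ⟨hu1, TL.lead_mem gS u hu hu1, fun f hf => ?_⟩
  have hdvd : (L.m : ℤ) ∣ (ofLex gS).1 + t := by
    show (L.m : ℤ) ∣ (j0 : ℤ) + t
    exact_mod_cast ht
  have hh := mem_centLat_of (L := L) TL.κη hdvd hκS
  obtain ⟨b, hb, hVb, -, hb2⟩ := test_elem TL.toTestLifts t hf _ hh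
  rw [sub_add_cancel] at hVb
  have hb2' : L.c (-g₁) b = cc L t • (f * (y₀ ^ (t - 1) * r₁)) := by
    rw [← hb2, g2_sub_gt, ← add_assoc, sub_add_cancel, hgS1]
    congr 1
    abel
  have hVu : VL L u gS (L.c gS u) := ⟨fun a ha => (L.le_vK_iff.1 hu1) a ha, rfl⟩
  have h2 := hVu.mul hVb
  rw [add_neg_cancel, eps_neg_self hκS, one_smul] at h2
  have h3 := pair_zero_coeff (hp b hb)
  have hLow : Low L b (-(j0 : ℤ)) := by
    refine (Low.of_VL hVb).of_le ?_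
    rw [fst_neg]
    exact le_rfl
  rw [h2.eq, hxb b hLow, hb2'] at h3
  rw [h3]
  have hε : eps L g₁ (-g₁) = L.ζ ^ j0 := by
    show L.ζ ^ (((j0 : ℤ)) * κ (ofLex (-g₁)).2) = L.ζ ^ j0
    rw [κ_neg]
    have h5 : (ofLex g₁).2 = n0 := rfl
    rw [h5]
    obtain ⟨q, hq⟩ := hκ
    have h6 : κ n0 = (L.m : ℤ) * q - 1 := by linarith
    rw [h6]
    have h7 : (j0 : ℤ) * -((L.m : ℤ) * q - 1) = (L.m : ℤ) * (-(j0 : ℤ) * q) + (j0 : ℤ) := by ring
    rw [h7, zpow_add₀ L.ζ_ne, zpow_mul, L.ζ_prim.zpow_eq_one_iff_dvd (L.m : ℤ) |>.2 dvd_rfl]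
    simp
  rw [hε, mul_smul_comm, map_smul, map_smul, smul_eq_mul, smul_eq_mul, mul_assoc]

end Crest.Agent.Kurosh.LiftDefs
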