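/-
S0270 (Kurosh), §L (helper94): the powers of `Ξ`, from the shape of `Ξ` modulo order `2`.
-/
import Crest.Agent.Kurosh.LiftAlg3
import Crest.Agent.Kurosh.LiftMov

set_option autoImplicit false
set_option linter.unusedSectionVars false

namespace Crest.Agent.Kurosh.LiftAlg

open Hensel State Module LU VLead Polynomial Calculus CentFactsB LiftDefs

variable {K A K' R : Type*} [Field K] [DivisionRing A] [Algebra K A] [Field K'] [DivisionRing R]
  [Algebra K R] [Algebra K' R] [Algebra K K'] [IsScalarTower K K' R] {τ : A →ₗ[K] K}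
  (L : Lv K A K' R τ)

lemma c_mon_mul (n : CE) (j : ℕ) (x : R) (a : GLv) :
    L.c (idx n (j : ℤ) + a) (L.lev.mon n j * x) = eps L (idx n (j : ℤ)) a • L.c a x := by
  unfold Lv.c
  rw [map_mul, phi_mon, THS.coeff_mono_mul, one_mul]

lemma c_mul_mon (n : CE) (j : ℕ) (x : R) (a : GLv) :
    L.c (a + idx n (j : ℤ)) (x * L.lev.mon n j) = eps L a (idx n (j : ℤ)) • L.c a x := by
  unfold Lv.c
  rw [map_mul, phi_mon, THS.coeff_mul_mono, mul_one]

lemma eps_zero_ord {a : GLv} (h : (ofLex a).1 = 0) (g : GLv) : eps L a g = 1 := by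
  show L.ζ ^ ((ofLex a).1 * κ (ofLex g).2) = 1
  rw [h]
  simp

lemma eps_mon_zero (g : GLv) (j : ℕ) : eps L g (idx (0 : CE) (j : ℤ)) = 1 := by
  show L.ζ ^ ((ofLex g).1 * κ (0 : CE)) = 1
  simp

lemma eps_mon_left (j : ℕ) (g : GLv) : eps L (idx (0 : CE) (j : ℤ)) g = L.ζ ^ ((j : ℤ) * κ (ofLex g).2) := rfl

lemma mon_ne (n : CE) (j : ℕ) : L.lev.mon n j ≠ 0 := by
  intro h
  have := (vl_mon L n j).eq
  rw [h, L.c_zero] at this
  exact zero_ne_one this

lemma mon_zero_zero : L.lev.mon (0 : CE) 0 = 1 := by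
  apply L.φ.injective
  rw [phi_mon, map_one]
  rfl

lemma mon_succ (t : ℕ) : L.lev.mon (0 : CE) (t + 1) = L.lev.mon 0 t * L.lev.mon 0 1 := by
  apply L.φ.injective
  rw [map_mul, phi_mon, phi_mon, phi_mon, THS.mono_mul_mono, mul_one]
  have h1 : idx (0 : CE) (t : ℤ) + idx (0 : CE) ((1 : ℕ) : ℤ) = idx (0 : CE) ((t + 1 : ℕ) : ℤ) := by
    rw [idx_add]
    simp
  rw [h1, eps_mon_zero L _ 1, one_smul]

/-- Order-zero elements commute with `mon n 0`. -/
lemma mon_comm_jK (n : CE) {x : R} (hx : x ∈ SS L jK) : L.lev.mon n 0 * x = x * L.lev.mon n 0 := by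
  apply ext_c L
  intro g
  have e1 : g = idx n ((0 : ℕ) : ℤ) + (g - idx n ((0 : ℕ) : ℤ)) := by abel
  have e2 : g = (g - idx n ((0 : ℕ) : ℤ)) + idx n ((0 : ℕ) : ℤ) := by abel
  obtain ⟨a, ha⟩ : ∃ a, a = g - idx n ((0 : ℕ) : ℤ) := ⟨_, rfl⟩
  rw [← ha] at e1 e2
  conv_lhs => rw [e1]
  conv_rhs => rw [e2]
  rw [c_mon_mul, c_mul_mon, eps_zero_ord L (by simp) a]
  by_cases h0 : L.c a x = 0
  · rw [h0, smul_zero, smul_zero]
  · rw [eps_zero_ord L ((mem_SS L).1 hx a h0) _]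

/-- Commuting with `s'` means `K ≡ 0`. -/
lemma KZ_of_comm {x : R} (h : L.lev.mon 0 1 * x = x * L.lev.mon 0 1) : KZ L x := by
  intro g hg
  have h1 := congrArg (L.c (idx (0 : CE) ((1 : ℕ) : ℤ) + g)) h
  rw [c_mon_mul, add_comm (idx (0 : CE) ((1 : ℕ) : ℤ)) g, c_mul_mon, eps_mon_zero, one_smul,
    eps_mon_left] at h1
  have h2 : (L.ζ ^ (((1 : ℕ) : ℤ) * κ (ofLex g).2) - 1) • L.c g x = 0 := by
    rw [sub_smul, h1, one_smul, sub_self]
  have h3 := (smul_eq_zero.1 h2).resolve_right hg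
  have h4 := sub_eq_zero.1 h3
  have h5 := (L.ζ_prim.zpow_eq_one_iff_dvd _).1 h4
  simpa using h5

/-- `K ≡ 0` means commuting with `s'^t`. -/
lemma comm_of_KZ {x : R} (h : KZ L x) (t : ℕ) : L.lev.mon 0 t * x = x * L.lev.mon 0 t := by
  apply ext_c L
  intro g
  have e1 : g = idx (0 : CE) (t : ℤ) + (g - idx (0 : CE) (t : ℤ)) := by abel
  have e2 : g = (g - idx (0 : CE) (t : ℤ)) + idx (0 : CE) (t : ℤ) := by abel
  obtain ⟨a, ha⟩ : ∃ a, a = g - idx (0 : CE) (t : ℤ) := ⟨_, rfl⟩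
  rw [← ha] at e1 e2
  conv_lhs => rw [e1]
  conv_rhs => rw [e2]
  rw [c_mon_mul, c_mul_mon, eps_mon_zero, one_smul, eps_mon_left]
  by_cases h0 : L.c a x = 0
  · rw [h0, smul_zero]
  · have h1 : L.ζ ^ ((t : ℤ) * κ (ofLex a).2) = 1 :=
      (L.ζ_prim.zpow_eq_one_iff_dvd _).2 (Dvd.dvd.mul_left (h a h0) _)
    rw [h1, one_smul]

/-- Twisting by `s'^t`. -/
noncomputable def tw (t : ℕ) (x : R) : R := L.lev.mon 0 t * x * (L.lev.mon 0 t)⁻¹

lemma tw_mul_mon (t : ℕ) (x : R) : tw L t x * L.lev.mon 0 t = L.lev.mon 0 t * x := by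
  rw [tw, mul_assoc, inv_mul_cancel₀ (mon_ne L 0 t), mul_one]

lemma c_tw (t : ℕ) (x : R) (g : GLv) : L.c g (tw L t x) = L.ζ ^ ((t : ℤ) * κ (ofLex g).2) • L.c g x := by
  have h1 := congrArg (L.c (g + idx (0 : CE) (t : ℤ))) (tw_mul_mon L t x)
  rw [c_mul_mon, eps_mon_zero, one_smul, add_comm, c_mon_mul, eps_mon_left] at h1
  exact h1

lemma tw_add (t : ℕ) (x y : R) : tw L t (x + y) = tw L t x + tw L t y := by
  simp only [tw, mul_add, add_mul]

lemma tw_of_KZ {x : R} (h : KZ L x) (t : ℕ) : tw L t x = x := by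
  rw [tw, comm_of_KZ L h t, mul_assoc, mul_inv_cancel₀ (mon_ne L 0 t), mul_one]

lemma tw_mem_jK (t : ℕ) {x : R} (hx : x ∈ SS L jK) : tw L t x ∈ SS L jK := by
  rw [mem_SS]
  intro g hg
  rw [c_tw] at hg
  exact (mem_SS L).1 hx g (fun h0 => hg (by rw [h0, smul_zero]))

/-- `κ` on the second component -/
lemma VL_tw {x : R} {g : GLv} {y : A} (h : VL L x g y) (t : ℕ) :
    VL L (tw L t x) g (L.ζ ^ ((t : ℤ) * κ (ofLex g).2) • y) := by
  refine ⟨fun a ha => ?_, ?_⟩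
  · rw [c_tw, h.lt a ha, smul_zero]
  · rw [c_tw, h.eq]

lemma cc_succ (t : ℕ) : cc L (t + 1) = cc L t + L.ζ ^ t := by
  unfold cc
  rw [Finset.sum_range_succ]

lemma cc_zero : cc L 0 = 0 := by
  unfold cc
  simp

/-- The recursion of the `A₁`-layer. -/
noncomputable def layer (A₀' D : R) : ℕ → R
  | 0 => 0
  | t + 1 => A₀' ^ t * tw L t D + layer A₀' D t * (A₀' + tw L t D)

/-- **The powers of `Ξ`.** -/
theorem pow_of_Xi {Xi A₀' D : R} {y₀ r₁ : A} {ηe : CE}
    (hΞ : Xi - (A₀' + D) * L.lev.mon 0 1 ∈ L.lev.Φ.fil 2)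
    (hAj : A₀' ∈ SS L jK) (hDj : D ∈ SS L jK) (hAk : KZ L A₀')
    (hAV : VL L A₀' (idx (- (2 : ℤ) • ηe) 0) y₀)
    (hDV : VL L D (idx (- ηe + sExp) 0) r₁)
    (hcomm : y₀ * r₁ = r₁ * y₀) (hκη : κ ηe = 0) (hposη : 0 < ηe + sExp) (t : ℕ) :
    Xi ^ t - (A₀' ^ t + layer L A₀' D t) * L.lev.mon 0 t ∈ L.lev.Φ.fil (t + 1) ∧
    KZ L (A₀' ^ t) ∧
    VL L (A₀' ^ t) (idx ((-(2 * (t : ℤ))) • ηe) 0) (y₀ ^ t) ∧
    VL L (layer L A₀' D t) (idx ((-(2 * (t : ℤ)) + 1) • ηe + sExp) 0)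
      (cc L t • (y₀ ^ (t - 1) * r₁)) := by
  obtain ⟨Φ, hΦ⟩ : ∃ Φ, Φ = L.lev.Φ := ⟨_, rfl⟩
  rw [← hΦ] at hΞ ⊢
  obtain ⟨s1, hs1⟩ : ∃ s1, s1 = L.lev.mon (0 : CE) 1 := ⟨_, rfl⟩
  rw [← hs1] at hΞ
  have h0f : ∀ {x : R}, x ∈ SS L jK → x ∈ Φ.fil 0 := fun hx => by
    rw [hΦ]; exact fil_of_mem_jK L hx
  have hEj : A₀' + D ∈ SS L jK := add_mem hAj hDj
  have hs1f : s1 ∈ Φ.fil 1 := by rw [hs1, hΦ]; exact L.lev.mon_mem 0 1
  have hΞ1 : Xi ∈ Φ.fil 1 := by
    have h1 : (A₀' + D) * s1 ∈ Φ.fil 1 := mul_mem_left Φ (h0f hEj) hs1f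
    have := add_mem (Φ.anti (by omega : 1 ≤ 2) hΞ) h1
    simpa using this
  have hκb : κ (-ηe + sExp) = 1 := by
    rw [map_add, map_neg, hκη, κ_sExp]
    simp
  have hlayerj : ∀ t, layer L A₀' D t ∈ SS L jK := by
    intro t
    induction t with
    | zero => exact zero_mem _
    | succ t ih =>
      exact add_mem (mul_mem (_root_.pow_mem hAj t) (tw_mem_jK L t hDj))
        (mul_mem ih (add_mem hAj (tw_mem_jK L t hDj)))
  induction t with
  | zero =>
    refine ⟨?_, ?_, ?_, ?_⟩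
    · simp [layer, mon_zero_zero]
    · simp only [pow_zero]
      intro g hg
      have : L.c g (1 : R) ≠ 0 := hg
      have h1 : L.φ (1 : R) = THS.mono 0 1 := by rw [map_one]; rfl
      classical
      have hg0 : g = 0 := by
        by_contra hne
        apply this
        rw [Lv.c, h1, THS.coeff_mono, if_neg hne]
      subst hg0
      show (L.m : ℤ) ∣ κ (0 : CE)
      simp
    · have : idx ((-(2 * ((0 : ℕ) : ℤ))) • ηe) 0 = (0 : GLv) := by
        simp [idx_zero]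
      rw [this, pow_zero, pow_zero]
      exact VL.one
    · rw [cc_zero, zero_smul]
      exact VL.zero _
  | succ t ih =>
    obtain ⟨ih1, ih2, ih3, ih4⟩ := ih
    refine ⟨?_, ?_, ?_, ?_⟩
    · -- the congruence
      have hA : A₀' ^ (t + 1) + layer L A₀' D (t + 1) =
          (A₀' ^ t + layer L A₀' D t) * (A₀' + tw L t D) := by
        simp only [layer, pow_succ]
        noncomm_ring
      have htw : (A₀' + tw L t D) * L.lev.mon 0 t = L.lev.mon 0 t * (A₀' + D) := by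
        rw [add_mul, tw_mul_mon, mul_add, comm_of_KZ L hAk t]
      have e : Xi ^ (t + 1) - (A₀' ^ (t + 1) + layer L A₀' D (t + 1)) * L.lev.mon 0 (t + 1) =
          (Xi ^ t - (A₀' ^ t + layer L A₀' D t) * L.lev.mon 0 t) * Xi +
            (A₀' ^ t + layer L A₀' D t) * L.lev.mon 0 t * (Xi - (A₀' + D) * s1) := by
        rw [hA, mon_succ, ← hs1, pow_succ]
        have : (A₀' ^ t + layer L A₀' D t) * (A₀' + tw L t D) * (L.lev.mon 0 t * s1) =
            (A₀' ^ t + layer L A₀' D t) * L.lev.mon 0 t * ((A₀' + D) * s1) := by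
          rw [mul_assoc (A₀' ^ t + layer L A₀' D t), ← mul_assoc (A₀' + tw L t D), htw]
          noncomm_ring
        rw [this]
        noncomm_ring
      rw [e]
      refine add_mem ?_ ?_
      · have := Φ.mul_mem ih1 hΞ1
        simpa using this
      · have hP : A₀' ^ t + layer L A₀' D t ∈ Φ.fil 0 := h0f (add_mem (_root_.pow_mem hAj t) (hlayerj t))
        have h2 : (A₀' ^ t + layer L A₀' D t) * L.lev.mon 0 t ∈ Φ.fil t :=
          mul_mem_left Φ hP (by rw [hΦ]; exact L.lev.mon_mem 0 t)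
        have := Φ.mul_mem h2 hΞ
        simpa using this
    · rw [pow_succ]
      exact KZ.mul ih2 hAk
    · have h := VL.mul ih3 hAV
      rw [eps_zero_ord L (by simp), one_smul, ← pow_succ, idx_add, add_zero, ← pow_succ] at h
      convert h using 2
      push_cast
      module
    · have hg1 : idx ((-(2 * ((t + 1 : ℕ) : ℤ)) + 1) • ηe + sExp) 0 =
          idx ((-(2 * (t : ℤ))) • ηe) 0 + idx (- ηe + sExp) 0 := by
        rw [idx_add, add_zero]
        congr 1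
        push_cast
        module
      have hg2 : idx ((-(2 * ((t + 1 : ℕ) : ℤ)) + 1) • ηe + sExp) 0 =
          idx ((-(2 * (t : ℤ)) + 1) • ηe + sExp) 0 + idx (- (2 : ℤ) • ηe) 0 := by
        rw [idx_add, add_zero]
        congr 1
        push_cast
        module
      have hlt : idx ((-(2 * ((t + 1 : ℕ) : ℤ)) + 1) • ηe + sExp) 0 <
          idx ((-(2 * (t : ℤ)) + 1) • ηe + sExp) 0 + idx (- ηe + sExp) 0 := by
        rw [hg2]
        refine add_lt_add_right ?_ _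
        refine Prod.Lex.lt_iff.2 (Or.inr ⟨rfl, ?_⟩)
        show - (2 : ℤ) • ηe < - ηe + sExp
        have e : - ηe + sExp = - (2 : ℤ) • ηe + (ηe + sExp) := by module
        rw [e]
        exact lt_add_of_pos_right _ hposη
      have h1 := VL.mul ih3 (VL_tw L hDV t)
      rw [eps_zero_ord L (by simp), one_smul, ← hg1] at h1
      have h2 := VL.mul ih4 hAV
      rw [eps_zero_ord L (by simp), one_smul, ← hg2] at h2
      have h3 := LiftDefs.VL.weaken' (VL.mul ih4 (VL_tw L hDV t)) hlt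
      have h4 := (h1.add (h2.add h3))
      have e4 : A₀' ^ t * tw L t D + (layer L A₀' D t * A₀' + layer L A₀' D t * tw L t D) =
          layer L A₀' D (t + 1) := by
        simp only [layer]
        noncomm_ring
      rw [e4] at h4
      refine h4.of_eq ?_
      have hκ1 : κ (ofLex (idx (- ηe + sExp) 0 : GLv)).2 = 1 := hκb
      rw [hκ1, mul_one, zpow_natCast, add_zero, cc_succ]
      have e5 : cc L t • (y₀ ^ (t - 1) * r₁) * y₀ = cc L t • (y₀ ^ t * r₁) := by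
        cases t with
        | zero => simp [cc_zero]
        | succ k =>
          rw [smul_mul_assoc]
          congr 1
          simp only [Nat.add_sub_cancel]
          rw [mul_assoc, ← hcomm, ← mul_assoc, pow_succ]
      have e6 : (t + 1 - 1 : ℕ) = t := by omega
      rw [e5, e6, mul_smul_comm, add_smul, add_comm]

end Crest.Agent.Kurosh.LiftAlg
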