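/-
S0270 (helper31), blueprint §L, for helper94: leads of a central-support commutative subalgebra and of
its centraliser.

* `lead0 L V`: the `K`-subalgebra of leads at value `0` of a `K'`-subalgebra `V` of `R`;
* `finrank_of_central` (A1): central support ⇒ `dim_K' V = dim_K lead0 V`;
* `lead_centralizer` (A2): the leads of `C_R(V)` at every monomial are exactly `C_A(lead0 V)`;
* `lead_of_pair` (A3): the projection to `C_R(V)` has the expected value and lead.
-/
import Crest.Agent.Kurosh.LiftDefs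
import Crest.Agent.Kurosh.DoubleCent
import Crest.Agent.Kurosh.CentFactsB

set_option autoImplicit false

namespace Crest.Agent.Kurosh.LiftDefs

open Hensel State Module LU VLead

variable {K A K' R : Type*} [Field K] [DivisionRing A] [Algebra K A] [Field K'] [DivisionRing R]
  [Algebra K R] [Algebra K' R] [Algebra K K'] [IsScalarTower K K' R] {τ : A →ₗ[K] K}
  (L : Lv K A K' R τ)

/-- The `K`-subalgebra of leads at value `0` of a `K'`-subalgebra `V` of `R`. -/
noncomputable def lead0 (L : Lv K A K' R τ) (V : Subalgebra K' R) : Subalgebra K A where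
  carrier := {a | ∃ x ∈ V, (0 : WithTop GLv) ≤ L.vK x ∧ L.c 0 x = a}
  mul_mem' := by
    rintro a b ⟨x, hx, hx0, rfl⟩ ⟨y, hy, hy0, rfl⟩
    refine ⟨x * y, V.mul_mem hx hy, ?_, ?_⟩
    · have h := L.le_vK_mul (g := 0) (h := 0) (x := x) (y := y) hx0 hy0
      simpa using h
    · have h := L.c_mul (g := 0) (h := 0) (x := x) (y := y) hx0 hy0
      rw [add_zero, L.ε_central_left (centLat L.m).zero_mem, one_smul] at h
      exact h
  add_mem' := by
    rintro a b ⟨x, hx, hx0, rfl⟩ ⟨y, hy, hy0, rfl⟩
    exact ⟨x + y, V.add_mem hx hy, le_trans (le_min hx0 hy0) (L.vK_add x y), L.c_add 0 x y⟩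
  algebraMap_mem' := by
    intro k
    refine ⟨algebraMap K' R (algebraMap K K' k), V.algebraMap_mem _, ?_, L.c_algK_zero k⟩
    by_cases hk : k = 0
    · subst hk
      simp [L.vK_zero]
    · have h := L.vK_scal (l := algebraMap K K' k) ((map_ne_zero _).2 hk)
      rw [h, L.lamK_algK hk]
      exact le_rfl

variable {L}

theorem mem_lead0 {V : Subalgebra K' R} {a : A} :
    a ∈ lead0 L V ↔ ∃ x ∈ V, (0 : WithTop GLv) ≤ L.vK x ∧ L.c 0 x = a := Iff.rfl

/-- As a leading space. -/
theorem lead0_toSubmodule (V : Subalgebra K' R) :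
    Subalgebra.toSubmodule (lead0 L V) =
      L.leadK.lead 0 (Subalgebra.toSubmodule V) := by
  ext a
  rfl

lemma eK_zero_zero (L : Lv K A K' R τ) :
    L.eK (⟨0, L.m_pos⟩, ⟨0, L.m_pos⟩) = 0 := rfl

variable [FiniteDimensional K A]

/-- (A1) The dimension of a central-support subalgebra. -/
theorem finrank_of_central (V : Subalgebra K' R)
    (hV : ∀ x ∈ V, ∀ g, L.c g x ≠ 0 → g ∈ centLat L.m) :
    finrank K' V = finrank K (lead0 L V) := by
  classical
  have h1 := L.gaussK (Subalgebra.toSubmodule V)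
  have h2 : ∀ r, r ≠ (⟨0, L.m_pos⟩, ⟨0, L.m_pos⟩) →
      L.leadK.lead (L.eK r) (Subalgebra.toSubmodule V) = ⊥ := by
    intro r hr
    rw [eq_bot_iff]
    rintro a ⟨x, hx, -, rfl⟩
    rw [Submodule.mem_bot]
    by_contra h0
    have h3 := hV x hx _ h0
    apply hr
    apply L.eK_inj
    rw [eK_zero_zero, sub_zero]
    exact h3
  rw [Finset.sum_eq_single (⟨0, L.m_pos⟩, ⟨0, L.m_pos⟩)] at h1
  · rw [eK_zero_zero, ← lead0_toSubmodule] at h1
    exact h1
  · intro r _ hr
    rw [h2 r hr]
    exact finrank_bot _ _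
  · intro h
    exact absurd (Finset.mem_univ _) h

omit [FiniteDimensional K A] in
/-- The easy half of (A2): a lead of a centralising element commutes with `lead0 V`. -/
theorem lead_mem_centralizer (V : Subalgebra K' R) {g : GLv} {x : R}
    (hx : x ∈ Subalgebra.centralizer K' (V : Set R)) (hg : (g : WithTop GLv) ≤ L.vK x) :
    L.c g x ∈ Subalgebra.centralizer K (lead0 L V : Set A) := by
  rw [Subalgebra.mem_centralizer_iff]
  rintro a ⟨v, hv, hv0, rfl⟩
  have hcomm : v * x = x * v := (Subalgebra.mem_centralizer_iff K').1 hx v hv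
  have h1 := L.c_mul (g := 0) (h := g) (x := v) (y := x) hv0 hg
  have h2 := L.c_mul (g := g) (h := 0) (x := x) (y := v) hg hv0
  rw [zero_add, L.ε_central_left (centLat L.m).zero_mem, one_smul] at h1
  rw [add_zero, L.ε_central_right (centLat L.m).zero_mem, one_smul] at h2
  rw [← h1, ← h2, hcomm]

/-- (A2) The leads of the centraliser. -/
theorem lead_centralizer (hτ : Valued.IsTraceForm τ) (hτ' : Valued.IsTraceForm L.τ')
    (hC : ∀ a : A, (∀ x, a * x = x * a) → ∃ c : K, a = algebraMap K A c)
    (hC' : ∀ a : R, (∀ x, a * x = x * a) → ∃ c : K', a = algebraMap K' R c)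
    (V : Subalgebra K' R) (hcomm : ∀ x ∈ V, ∀ y ∈ V, x * y = y * x)
    (hV : ∀ x ∈ V, ∀ g, L.c g x ≠ 0 → g ∈ centLat L.m) (g : GLv) (p : A) :
    p ∈ L.leadK.lead g (Subalgebra.toSubmodule (Subalgebra.centralizer K' (V : Set R))) ↔
      p ∈ Subalgebra.centralizer K (lead0 L V : Set A) := by
  classical
  have : FiniteDimensional K' R := L.finiteK
  set S : Subalgebra K' R := Subalgebra.centralizer K' (V : Set R) with hS
  set C : Subalgebra K A := Subalgebra.centralizer K (lead0 L V : Set A) with hCdef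
  -- every leading space is inside `C`
  have hle : ∀ g, L.leadK.lead g (Subalgebra.toSubmodule S) ≤ Subalgebra.toSubmodule C := by
    rintro g a ⟨x, hx, hxg, rfl⟩
    exact lead_mem_centralizer V hx hxg
  -- dimensions
  have h1 := DoubleCent.finrank_centralizer_mul hC' V
  have h2 := DoubleCent.finrank_centralizer_mul hC (lead0 L V)
  have h3 := finrank_of_central V hV
  have h4 := L.finrank_R
  have hd : 0 < finrank K (lead0 L V) := by
    have hpos : 0 < finrank K A := Module.finrank_pos
    by_contra h0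
    have h0' : finrank K (lead0 L V) = 0 := by omega
    rw [h0', mul_zero] at h2
    omega
  have hS' : finrank K' S = L.m ^ 2 * finrank K C := by
    have e1 : finrank K' S * finrank K (lead0 L V) =
        (L.m ^ 2 * finrank K C) * finrank K (lead0 L V) := by
      have e2 : finrank K' (DoubleCent.centDiv V) = finrank K' S := rfl
      have e3 : finrank K (DoubleCent.centDiv (lead0 L V)) = finrank K C := rfl
      rw [e2, h3] at h1
      rw [e3] at h2
      rw [h1, h4, ← h2]
      ring
    exact Nat.eq_of_mul_eq_mul_right hd e1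
  -- count
  have hcount : ∑ r : Fin L.m × Fin L.m, finrank K (Subalgebra.toSubmodule C) ≤
      ∑ r, finrank K (L.leadK.lead (L.eK r) (Subalgebra.toSubmodule S)) := by
    rw [← L.gaussK (Subalgebra.toSubmodule S)]
    simp only [Finset.sum_const, Finset.card_univ, Fintype.card_prod, Fintype.card_fin, smul_eq_mul]
    have e4 : finrank K' (Subalgebra.toSubmodule S) = finrank K' S := rfl
    have e5 : finrank K (Subalgebra.toSubmodule C) = finrank K C := rfl
    rw [e4, e5, hS']
    exact le_of_eq (by ring)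
  have heq := TestCore.eq_of_le_of_sum_le
    (T := fun r => L.leadK.lead (L.eK r) (Subalgebra.toSubmodule S))
    (L := fun _ : Fin L.m × Fin L.m => Subalgebra.toSubmodule C)
    (fun r => hle _) hcount (L.classK g)
  rw [L.leadK_eq_class g]
  constructor
  · intro hp
    have := hle _ hp
    exact this
  · intro hp
    exact (SetLike.ext_iff.1 heq p).2 hp

/-- (A3) Projection to the centraliser: value and lead. -/
theorem lead_of_pair (hτ : Valued.IsTraceForm τ) (hτ' : Valued.IsTraceForm L.τ')
    (hC : ∀ a : A, (∀ x, a * x = x * a) → ∃ c : K, a = algebraMap K A c)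
    (hC' : ∀ a : R, (∀ x, a * x = x * a) → ∃ c : K', a = algebraMap K' R c)
    (V : Subalgebra K' R) (hcomm : ∀ x ∈ V, ∀ y ∈ V, x * y = y * x)
    (hV : ∀ x ∈ V, ∀ g, L.c g x ≠ 0 → g ∈ centLat L.m) {a x : R}
    (ha : a ∈ Subalgebra.centralizer K' (V : Set R))
    (hp : ∀ b ∈ Subalgebra.centralizer K' (V : Set R), L.τ' (a * b) = L.τ' (x * b))
    {g : GLv} (hx : (g : WithTop GLv) ≤ L.vK x) :
    (g : WithTop GLv) ≤ L.vK a ∧ L.c g a ∈ Subalgebra.centralizer K (lead0 L V : Set A) ∧
      ∀ q ∈ Subalgebra.centralizer K (lead0 L V : Set A), τ (L.c g a * q) = τ (L.c g x * q) := by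
  have hlead := lead_centralizer (L := L) hτ hτ' hC hC' V hcomm hV
  have hval : (g : WithTop GLv) ≤ L.vK a := by
    by_contra hlt
    rw [not_le] at hlt
    have hne : L.vK a ≠ ⊤ := ne_top_of_lt hlt
    obtain ⟨g', hg'⟩ := WithTop.ne_top_iff_exists.1 hne
    have hg'g : g' < g := by
      rw [← hg'] at hlt
      exact WithTop.coe_lt_coe.1 hlt
    have hp0 : L.c g' a ≠ 0 := by
      intro h0
      have := (L.c_eq_zero_iff (g := g') (x := a) (le_of_eq hg')).1 h0
      rw [← hg'] at this
      exact lt_irrefl _ this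
    have hpc : L.c g' a ∈ Subalgebra.centralizer K (lead0 L V : Set A) :=
      lead_mem_centralizer V ha (le_of_eq hg')
    have hinv : (L.c g' a)⁻¹ ∈ Subalgebra.centralizer K (lead0 L V : Set A) :=
      DoubleCent.inv_mem_centDiv hpc
    obtain ⟨b, hb, hbg, hbc⟩ := (hlead (-g') _).2 hinv
    have h1 := L.pair_eqK (g := g') (h := -g') (add_neg_cancel g') (x := a) (y := x) (f := b)
      (le_of_eq hg') (le_trans (WithTop.coe_le_coe.2 hg'g.le) hx) hbg (hp b hb)
    have hc0 : L.c g' x = 0 := L.c_eq_zero_of_lt (lt_of_lt_of_le (WithTop.coe_lt_coe.2 hg'g) hx)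
    rw [hc0, zero_mul, map_zero] at h1
    have hbc' : L.c (-g') b = (L.c g' a)⁻¹ := hbc
    rw [hbc', mul_inv_cancel₀ hp0, hτ.one] at h1
    exact one_ne_zero h1
  refine ⟨hval, lead_mem_centralizer V ha hval, ?_⟩
  intro q hq
  obtain ⟨b, hb, hbg, hbc⟩ := (hlead (-g) _).2 hq
  have h1 := L.pair_eqK (g := g) (h := -g) (add_neg_cancel g) (x := a) (y := x) (f := b)
    hval hx hbg (hp b hb)
  have hbc' : L.c (-g) b = q := hbc
  rwa [hbc'] at h1

end Crest.Agent.Kurosh.LiftDefs
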