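/-
S0270 (Kurosh), §L (helper94): (M2) `test_lifts`: the lifts and the powers of `Ξ` from the shape of `H`.
-/
import Crest.Agent.Kurosh.LiftAlg4
import Crest.Agent.Kurosh.LiftCent

set_option autoImplicit false
set_option linter.unusedSectionVars false

namespace Crest.Agent.Kurosh.LiftAlg

open Hensel State Module LU VLead Polynomial Calculus CentFactsB LiftDefs

variable {K A K' R : Type*} [Field K] [DivisionRing A] [Algebra K A] [Field K'] [DivisionRing R]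
  [Algebra K R] [Algebra K' R] [Algebra K K'] [IsScalarTower K K' R] {τ : A →ₗ[K] K}
  (L : Lv K A K' R τ)

lemma comm_of_adjoin {s : Set R} (hs : ∀ a ∈ s, ∀ b ∈ s, a * b = b * a) {x y : R}
    (hx : x ∈ Algebra.adjoin K' s) (hy : y ∈ Algebra.adjoin K' s) : x * y = y * x := by
  letI := Algebra.adjoinCommRingOfComm K' hs
  exact congrArg Subtype.val (mul_comm (⟨x, hx⟩ : Algebra.adjoin K' s) ⟨y, hy⟩)

lemma adjoin_le_SS {Γ : AddSubgroup GLv} (hΓ : ∀ l : K', algebraMap K' R l ∈ SS L Γ) {s : Set R}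
    (hs : ∀ a ∈ s, a ∈ SS L Γ) {x : R} (hx : x ∈ Algebra.adjoin K' s) : x ∈ SS L Γ := by
  induction hx using Algebra.adjoin_induction with
  | mem x hx => exact hs x hx
  | algebraMap r => exact hΓ r
  | add x y _ _ hx hy => exact add_mem hx hy
  | mul x y _ _ hx hy => exact mul_mem hx hy

lemma fil_of_vK {x : R} (h : (0 : WithTop GLv) ≤ L.vK x) : x ∈ L.lev.Φ.fil 0 := by
  rw [mem_fil]
  intro g hg
  have h1 := L.le_of_c_ne (g := 0) h hg
  have h2 := fst_mono h1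
  simpa using h2

lemma pr0_sub_fil {x : R} (h : x ∈ L.lev.Φ.fil 0) : x - pr0 L x ∈ L.lev.Φ.fil 1 := by
  rw [mem_fil]
  intro g hg
  rw [L.c_sub, c_pr0] at hg
  by_cases h0 : (ofLex g).1 = 0
  · rw [if_pos h0, sub_self] at hg
    exact absurd rfl hg
  · rw [if_neg h0, sub_zero] at hg
    have := (mem_fil L).1 h g hg
    push_cast at this ⊢
    omega

lemma VL_pr0 {x : R} (h : (0 : WithTop GLv) ≤ L.vK x) : VL L (pr0 L x) 0 (L.c 0 x) := by
  refine ⟨fun a ha => ?_, ?_⟩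
  · rw [c_pr0, L.le_vK_iff.1 h a ha]
    simp
  · rw [c_pr0, if_pos (show (ofLex (0 : GLv)).1 = 0 from rfl)]

lemma KZ_pr0 {x : R} (h : KZ L x) : KZ L (pr0 L x) := by
  intro g hg
  rw [c_pr0] at hg
  by_cases h0 : (ofLex g).1 = 0
  · rw [if_pos h0] at hg
    exact h g hg
  · rw [if_neg h0] at hg
    exact absurd rfl hg

lemma mono_eq (x : A) (n : CE) (j : ℕ) : L.lev.mono x n j = L.lev.inc x * L.lev.mon n j := rfl

lemma mono_mem_SS {Γ : AddSubgroup GLv} {x : A} {n : CE} {j : ℕ} (h : idx n (j : ℤ) ∈ Γ) :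
    L.lev.mono x n j ∈ SS L Γ :=
  mul_mem (inc_mem_SS L Γ x) (mon_mem_SS L h)

lemma idx_mem_jK (n : CE) : idx n ((0 : ℕ) : ℤ) ∈ (jK : AddSubgroup GLv) := by
  rw [mem_jK]
  simp

lemma mono_mul_mon (x : A) (n : CE) (j : ℕ) :
    L.lev.mono x n 0 * L.lev.mon 0 j = L.lev.mono x n j := by
  apply L.φ.injective
  rw [map_mul, L.lev_mono, phi_mon, L.lev_mono, THS.mono_mul_mono, mul_one, idx_add,
    eps_zero_ord L (by simp)]
  simp

lemma inc_comm_mono {β x : A} (h : β * x = x * β) (n : CE) (j : ℕ) :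
    L.lev.inc β * L.lev.mono x n j = L.lev.mono x n j * L.lev.inc β := by
  rw [L.lev.inc_mul_mono, L.lev.mono_mul_inc, h]

lemma VL_mono (x : A) (n : CE) (j : ℕ) : VL L (L.lev.mono x n j) (idx n (j : ℤ)) x :=
  VL.of_phi (L.lev_mono x n j)

lemma VL_sum {ι : Type*} (s : Finset ι) (f : ι → R) (g : GLv) (h : ∀ i ∈ s, VL L (f i) g 0) :
    VL L (∑ i ∈ s, f i) g 0 := by
  classical
  induction s using Finset.induction_on with
  | empty => simpa using VL.zero g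
  | insert a s ha ih =>
    rw [Finset.sum_insert ha]
    have := (h a (Finset.mem_insert_self a s)).add (ih fun i hi => h i (Finset.mem_insert_of_mem hi))
    simpa using this

variable [FiniteDimensional K A] [CharZero K]

/-- The lifts of the leads of `V' = K'[β̂, H₀]` to `Ft`, modulo order `1`. -/
theorem lift_part {β : A} {H₀ H v : R} (Ft : Subalgebra K' R) (hH₀ : H₀ ∈ SS L jK)
    (hHt : H ∈ Ft) (hvt : v ∈ Ft) (hH : H - L.lev.inc β ∈ L.lev.Φ.fil 1) (hv : v - H₀ ∈ L.lev.Φ.fil 1)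
    (hcen : ∀ x ∈ Algebra.adjoin K' ({L.lev.inc β, H₀} : Set R), x ∈ SS L (centLat L.m))
    {f : A} (hf : f ∈ lead0 L (Algebra.adjoin K' ({L.lev.inc β, H₀} : Set R))) :
    ∃ fh ∈ Ft, ∃ v0 : R, VL L v0 0 f ∧ KZ L v0 ∧ fh - v0 ∈ L.lev.Φ.fil 1 := by
  obtain ⟨Φ, hΦ⟩ : ∃ Φ, Φ = L.lev.Φ := ⟨_, rfl⟩
  rw [← hΦ] at hH hv
  have h0f : ∀ {x : R}, x ∈ SS L jK → x ∈ Φ.fil 0 := fun hx => by
    rw [hΦ]; exact fil_of_mem_jK L hx
  -- the elements of order `0` with a lift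
  have hB : ∀ x ∈ Submonoid.closure ({L.lev.inc β, H₀} : Set R), x ∈ SS L jK ∧
      ∃ xh ∈ Ft, xh - x ∈ Φ.fil 1 := by
    intro x hx
    induction hx using Submonoid.closure_induction with
    | mem x hx =>
      rcases hx with rfl | hx
      · exact ⟨inc_mem_SS L _ _, H, hHt, hH⟩
      · rw [Set.mem_singleton_iff] at hx
        subst hx
        exact ⟨hH₀, v, hvt, hv⟩
    | one =>
      refine ⟨one_mem _, 1, one_mem _, ?_⟩
      rw [sub_self]
      exact zero_mem _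
    | mul x y _ _ hx hy =>
      obtain ⟨hxj, xh, hxh, hx1⟩ := hx
      obtain ⟨hyj, yh, hyh, hy1⟩ := hy
      refine ⟨mul_mem hxj hyj, xh * yh, mul_mem hxh hyh, ?_⟩
      have e : xh * yh - x * y = (xh - x) * yh + x * (yh - y) := by noncomm_ring
      rw [e]
      have hyf : yh ∈ Φ.fil 0 := by
        have := add_mem (Φ.anti (Nat.zero_le 1) hy1) (h0f hyj)
        simpa using this
      exact add_mem (mul_mem_right Φ hx1 hyf) (mul_mem_left Φ (h0f hxj) hy1)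
  -- scalars
  have hQ : ∀ x ∈ Submodule.span K' (Submonoid.closure ({L.lev.inc β, H₀} : Set R) : Set R),
      ∀ l : K', ∃ xh ∈ Ft, xh - pr0 L (algebraMap K' R l * x) ∈ Φ.fil 1 := by
    intro x hx
    induction hx using Submodule.span_induction with
    | mem x hx =>
      intro l
      obtain ⟨hxj, xh, hxh, hx1⟩ := hB x hx
      obtain ⟨l', hl'⟩ := exists_pr0_scal L l
      refine ⟨algebraMap K' R l' * xh, mul_mem (Subalgebra.algebraMap_mem _ _) hxh, ?_⟩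
      rw [pr0_mul L hxj, ← hl', ← mul_sub]
      refine mul_mem_left Φ (h0f ?_) hx1
      rw [hl']
      exact pr0_mem L _
    | zero =>
      intro l
      refine ⟨0, zero_mem _, ?_⟩
      rw [mul_zero, pr0_zero, sub_zero]
      exact zero_mem _
    | add x y _ _ hx hy =>
      intro l
      obtain ⟨xh, hxh, hx1⟩ := hx l
      obtain ⟨yh, hyh, hy1⟩ := hy l
      refine ⟨xh + yh, add_mem hxh hyh, ?_⟩
      rw [mul_add, pr0_add]
      have e : xh + yh - (pr0 L (algebraMap K' R l * x) + pr0 L (algebraMap K' R l * y)) =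
          (xh - pr0 L (algebraMap K' R l * x)) + (yh - pr0 L (algebraMap K' R l * y)) := by abel
      rw [e]
      exact add_mem hx1 hy1
    | smul c x _ hx =>
      intro l
      obtain ⟨xh, hxh, hx1⟩ := hx (l * c)
      refine ⟨xh, hxh, ?_⟩
      rw [Algebra.smul_def, ← mul_assoc, ← map_mul]
      exact hx1
  obtain ⟨x, hx, hx0, rfl⟩ := mem_lead0.1 hf
  have hxs : x ∈ Submodule.span K' (Submonoid.closure ({L.lev.inc β, H₀} : Set R) : Set R) := by
    rw [← Algebra.adjoin_eq_span]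
    exact hx
  obtain ⟨xh, hxh, hx1⟩ := hQ x hxs 1
  rw [map_one, one_mul] at hx1
  refine ⟨xh, hxh, pr0 L x, VL_pr0 L hx0, KZ_pr0 L ?_, ?_⟩
  · intro g hg
    exact ((mem_SS L).1 (hcen x hx) g hg).2
  · rw [← hΦ]
    exact hx1

/-- The projection `a_x = e_{C(H₀)}(x̂)`. -/
theorem ax_facts (hτ : Valued.IsTraceForm τ) (hτ' : Valued.IsTraceForm L.τ')
    (hC : ∀ a : A, (∀ x, a * x = x * a) → ∃ c : K, a = algebraMap K A c)
    (hC' : ∀ a : R, (∀ x, a * x = x * a) → ∃ c : K', a = algebraMap K' R c)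
    {β x : A} {H₀ : R} (S : Split (K := K') H₀)
    (hβH : L.lev.inc β * H₀ = H₀ * L.lev.inc β)
    (hsH : L.lev.mon 0 1 * H₀ = H₀ * L.lev.mon 0 1)
    (hcen : ∀ x ∈ Algebra.adjoin K' ({L.lev.inc β, H₀} : Set R), x ∈ SS L (centLat L.m))
    (hx : β * x = x * β) :
    (0 : WithTop GLv) ≤ L.vK (S.e (L.lev.inc x)) ∧
    L.c 0 (S.e (L.lev.inc x)) ∈
      Subalgebra.centralizer K (lead0 L (Algebra.adjoin K' ({L.lev.inc β, H₀} : Set R)) : Set A) ∧
    (∀ q ∈ Subalgebra.centralizer K (lead0 L (Algebra.adjoin K' ({L.lev.inc β, H₀} : Set R)) : Set A),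
      τ (L.c 0 (S.e (L.lev.inc x)) * q) = τ (x * q)) ∧
    KZ L (S.e (L.lev.inc x)) := by
  have hfin : FiniteDimensional K' R := L.finiteK
  obtain ⟨V, hV⟩ : ∃ V, V = Algebra.adjoin K' ({L.lev.inc β, H₀} : Set R) := ⟨_, rfl⟩
  rw [← hV] at hcen ⊢
  have hcomm : ∀ x ∈ V, ∀ y ∈ V, x * y = y * x := by
    intro x hx y hy
    rw [hV] at hx hy
    refine comm_of_adjoin ?_ hx hy
    rintro a (rfl | ha) b (rfl | hb)
    · rfl
    · rw [Set.mem_singleton_iff] at hb; subst hb; exact hβH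
    · rw [Set.mem_singleton_iff] at ha; subst ha; exact hβH.symm
    · rw [Set.mem_singleton_iff] at ha hb; subst ha; subst hb; rfl
  have hV' : ∀ x ∈ V, ∀ g, L.c g x ≠ 0 → g ∈ centLat L.m := fun x hx g hg =>
    (mem_SS L).1 (hcen x hx) g hg
  have hcβ : L.lev.inc β * L.lev.inc x = L.lev.inc x * L.lev.inc β := by
    rw [← map_mul, ← map_mul, hx]
  have hae : H₀ * S.e (L.lev.inc x) = S.e (L.lev.inc x) * H₀ := State.mem_cent.1 (S.e_mem _)
  have haβ : L.lev.inc β * S.e (L.lev.inc x) = S.e (L.lev.inc x) * L.lev.inc β := by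
    rw [← split_e_mul_left S hβH.symm, ← split_e_mul_right S hβH.symm, hcβ]
  have has : L.lev.mon 0 1 * S.e (L.lev.inc x) = S.e (L.lev.inc x) * L.lev.mon 0 1 := by
    rw [← split_e_mul_left S hsH.symm, ← split_e_mul_right S hsH.symm]
    congr 1
    exact (L.lev.mon_comm 0 1 x).eq
  have hVa : V ≤ Subalgebra.centralizer K' ({S.e (L.lev.inc x)} : Set R) := by
    rw [hV]
    refine Algebra.adjoin_le ?_
    rintro g (rfl | hg)
    · rw [SetLike.mem_coe, Subalgebra.mem_centralizer_iff]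
      rintro y (rfl : y = _)
      exact haβ.symm
    · rw [Set.mem_singleton_iff] at hg
      subst hg
      rw [SetLike.mem_coe, Subalgebra.mem_centralizer_iff]
      rintro y (rfl : y = _)
      exact hae.symm
  have ha : S.e (L.lev.inc x) ∈ Subalgebra.centralizer K' (V : Set R) := by
    rw [Subalgebra.mem_centralizer_iff]
    intro g hg
    have h2 := (Subalgebra.mem_centralizer_iff K').1 (hVa hg) _ rfl
    exact h2.symm
  have hp : ∀ b ∈ Subalgebra.centralizer K' (V : Set R),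
      L.τ' (S.e (L.lev.inc x) * b) = L.τ' (L.lev.inc x * b) := by
    intro b hb
    have hbH : H₀ * b = b * H₀ := by
      refine (Subalgebra.mem_centralizer_iff K').1 hb H₀ ?_
      rw [hV]
      exact Algebra.subset_adjoin (Set.mem_insert_of_mem _ rfl)
    have h1 : L.lev.inc x = S.e (L.lev.inc x) + (H₀ * S.inv (L.lev.inc x) - S.inv (L.lev.inc x) * H₀) := by
      rw [S.ad_inv]; abel
    conv_rhs => rw [h1]
    rw [add_mul, map_add]
    have h2 : L.τ' ((H₀ * S.inv (L.lev.inc x) - S.inv (L.lev.inc x) * H₀) * b) = 0 := by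
      rw [sub_mul, map_sub, mul_assoc H₀, hτ'.comm H₀, mul_assoc (S.inv _), ← hbH, ← mul_assoc (S.inv _),
        sub_self]
    rw [h2, add_zero]
  have h0x : (0 : WithTop GLv) ≤ L.vK (L.lev.inc x) := L.le_vK_iff.2 (VL_inc L x).lt
  obtain ⟨h1, h2, h3⟩ := lead_of_pair hτ hτ' hC hC' V hcomm hV' ha hp h0x
  refine ⟨h1, h2, fun q hq => ?_, KZ_of_comm L has⟩
  rw [h3 q hq, (VL_inc L x).eq]

/-- `e(mono x n 0) = a_x * mon n 0`. -/
lemma e_mono {H₀ : R} (S : Split (K := K') H₀) (hH₀ : H₀ ∈ SS L jK) (x : A) (n : CE) :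
    S.e (L.lev.mono x n 0) = S.e (L.lev.inc x) * L.lev.mon n 0 := by
  rw [mono_eq]
  exact split_e_mul_right S (mon_comm_jK L n hH₀).symm _

/-- **(M2)** The lifts and the powers of `Ξ`. -/
theorem test_lifts (hτ : Valued.IsTraceForm τ) (hτ' : Valued.IsTraceForm L.τ')
    (hC : ∀ a : A, (∀ x, a * x = x * a) → ∃ c : K, a = algebraMap K A c)
    (hC' : ∀ a : R, (∀ x, a * x = x * a) → ∃ c : K', a = algebraMap K' R c)
    {β y₀ z : A} {H : R} {j : ℕ} (hj : 2 ≤ j) (hmj : L.m ∣ j)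
    (hy₀β : β * y₀ = y₀ * β) (hy₀ : y₀ ≠ 0) (hzβ : β * z = z * β)
    {νc ηe : CE} {s s' : Finset CE} {G Zf : CE → A} (hκν : κ νc = 0) (hκη : κ ηe = 0)
    (hposη : 0 < ηe + sExp)
    (hGβ : ∀ n ∈ s, β * G n = G n * β) (hGκ : ∀ n ∈ s, G n ≠ 0 → (L.m : ℤ) ∣ κ n) (hs : ∀ n ∈ s, - νc < n)
    (hZfβ : ∀ n ∈ s', β * Zf n = Zf n * β) (hs' : ∀ n ∈ s', - ηe + sExp < n)
    (hH : H - L.lev.inc β
        - (L.lev.mono y₀ (- νc) j + ∑ n ∈ s, L.lev.mono (G n) n j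
            + L.lev.mono y₀ (- (2 : ℤ) • ηe) (j + 1)
            + L.lev.mono z (- ηe + sExp) (j + 1)
            + ∑ n ∈ s', L.lev.mono (Zf n) n (j + 1)) ∈ L.lev.Φ.fil (j + 2)) :
    ∃ (F0 : Subalgebra K A) (r₁ : A), TestLifts L (Algebra.adjoin K' ({H} : Set R)) F0 y₀ r₁ ηe ∧
      β ∈ F0 ∧ r₁ ∈ Subalgebra.centralizer K (F0 : Set A) ∧
      ∀ q ∈ Subalgebra.centralizer K (F0 : Set A), τ (r₁ * q) = τ (z * q) := by
  classical
  have hfin : FiniteDimensional K' R := L.finiteK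
  have hchar : CharZero K' := charZero_of_injective_algebraMap (algebraMap K K').injective
  have hcν : idx νc 0 ∈ centLat L.m := by
    refine ⟨?_, ?_⟩
    · simp
    · show (L.m : ℤ) ∣ κ νc
      rw [hκν]
      exact dvd_zero _
  obtain ⟨lam, hlam⟩ : ∃ lam, lam = L.scal _ hcν := ⟨_, rfl⟩
  have hlamne : lam ≠ 0 := by rw [hlam]; exact L.scal_ne _ _
  have hlamj : algebraMap K' R lam ∈ SS L jK := by
    rw [hlam]
    exact scal_mem_jK L hcν rfl
  obtain ⟨W, hW⟩ : ∃ W, W = L.lev.mono y₀ (- νc) 0 + ∑ n ∈ s, L.lev.mono (G n) n 0 := ⟨_, rfl⟩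
  obtain ⟨Z, hZ⟩ : ∃ Z, Z = L.lev.mono y₀ (- (2 : ℤ) • ηe) 0 + L.lev.mono z (- ηe + sExp) 0
      + ∑ n ∈ s', L.lev.mono (Zf n) n 0 := ⟨_, rfl⟩
  have hWj : W ∈ SS L jK := by
    rw [hW]
    exact add_mem (mono_mem_SS L (idx_mem_jK _)) (sum_mem fun n _ => mono_mem_SS L (idx_mem_jK _))
  have hZj : Z ∈ SS L jK := by
    rw [hZ]
    exact add_mem (add_mem (mono_mem_SS L (idx_mem_jK _)) (mono_mem_SS L (idx_mem_jK _)))
      (sum_mem fun n _ => mono_mem_SS L (idx_mem_jK _))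
  have hWβ : L.lev.inc β * W = W * L.lev.inc β := by
    rw [hW, mul_add, add_mul, Finset.mul_sum, Finset.sum_mul, inc_comm_mono L hy₀β]
    congr 1
    exact Finset.sum_congr rfl fun n hn => inc_comm_mono L (hGβ n hn) _ _
  have hZβ : L.lev.inc β * Z = Z * L.lev.inc β := by
    rw [hZ, mul_add, add_mul, mul_add, add_mul, Finset.mul_sum, Finset.sum_mul, inc_comm_mono L hy₀β,
      inc_comm_mono L hzβ]
    congr 1
    exact Finset.sum_congr rfl fun n hn => inc_comm_mono L (hZfβ n hn) _ _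
  -- `𝐰 = λ W`
  obtain ⟨ww, hww⟩ : ∃ ww, ww = algebraMap K' R lam * W := ⟨_, rfl⟩
  have hWc : W ∈ SS L (centLat L.m) := by
    rw [hW]
    refine add_mem (mono_mem_SS L ?_) (sum_mem fun n hn => ?_)
    · refine ⟨by simp, ?_⟩
      show (L.m : ℤ) ∣ κ (- νc)
      rw [map_neg, hκν]
      simp
    · by_cases h0 : G n = 0
      · rw [h0, L.lev.mono_zero]
        exact zero_mem _
      · refine mono_mem_SS L ⟨by simp, ?_⟩
        exact hGκ n hn h0
  have hwwc : ww ∈ SS L (centLat L.m) := by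
    rw [hww]
    exact mul_mem (alg_mem_cen L _) hWc
  have hwwk : KZ L ww := fun g hg => ((mem_SS L).1 hwwc g hg).2
  have hwws : L.lev.mon 0 1 * ww = ww * L.lev.mon 0 1 := comm_of_KZ L hwwk 1
  have hwwj : ww ∈ SS L jK := by
    rw [hww]
    exact mul_mem hlamj hWj
  have hVll : VL L (algebraMap K' R lam) (idx νc 0) 1 := by
    rw [hlam]
    exact VL.of_phi (L.φ_scal _ _)
  have hwwV : VL L ww 0 y₀ := by
    have h1 : VL L (algebraMap K' R lam * L.lev.mono y₀ (- νc) 0) 0 y₀ := by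
      have h2 := VL.mul hVll (VL_mono L y₀ (- νc) 0)
      rw [eps_zero_ord L (by simp), one_smul, one_mul] at h2
      have h3 : idx νc 0 + idx (- νc) ((0 : ℕ) : ℤ) = (0 : GLv) := by
        rw [idx_add]
        simp [idx_zero]
      rwa [h3] at h2
    have h2 : VL L (∑ n ∈ s, algebraMap K' R lam * L.lev.mono (G n) n 0) 0 0 := by
      refine VL_sum L _ _ _ fun n hn => ?_
      have h3 := VL.mul hVll (VL_mono L (G n) n 0)
      refine LiftDefs.VL.weaken' h3 ?_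
      refine Prod.Lex.lt_iff.2 (Or.inr ⟨by simp [idx], ?_⟩)
      show (0 : CE) < νc + n
      have := hs n hn
      have h4 := add_lt_add_right this νc
      simpa [add_comm] using h4
    have h3 := h1.add h2
    rw [add_zero, ← Finset.mul_sum, ← mul_add, ← hW, ← hww] at h3
    exact h3
  -- `H₀`
  obtain ⟨dp, hdp⟩ : ∃ dp, dp = aeval β (derivative (minpoly K β)) := ⟨_, rfl⟩
  have hdp0 : dp ≠ 0 := by
    rw [hdp]
    exact aeval_derivative_minpoly_ne_zero (K := K) β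
  obtain ⟨H₀, hH₀⟩ : ∃ H₀, H₀ = L.lev.inc dp * ww := ⟨_, rfl⟩
  have hH₀j : H₀ ∈ SS L jK := by
    rw [hH₀]
    exact mul_mem (inc_mem_SS L _ _) hwwj
  have hH₀c : H₀ ∈ SS L (centLat L.m) := by
    rw [hH₀]
    exact mul_mem (inc_mem_SS L _ _) hwwc
  have hH₀V : VL L H₀ 0 (dp * y₀) := by
    rw [hH₀]
    exact VL.mul_zero_left (VL_inc L dp) hwwV
  have hβww : L.lev.inc β * ww = ww * L.lev.inc β := by
    rw [hww, ← mul_assoc, ← Algebra.commutes, mul_assoc, hWβ, mul_assoc]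
  have hdpβ : L.lev.inc dp * L.lev.inc β = L.lev.inc β * L.lev.inc dp := by
    rw [← map_mul, ← map_mul]
    congr 1
    rw [hdp]
    exact aeval_commute rfl _
  have hβH : L.lev.inc β * H₀ = H₀ * L.lev.inc β := by
    rw [hH₀, ← mul_assoc, ← hdpβ, mul_assoc, hβww, mul_assoc]
  have hsH : L.lev.mon 0 1 * H₀ = H₀ * L.lev.mon 0 1 := by
    rw [hH₀, ← mul_assoc, (L.lev.mon_comm 0 1 dp).eq, mul_assoc, hwws, mul_assoc]
  have hcen : ∀ x ∈ Algebra.adjoin K' ({L.lev.inc β, H₀} : Set R), x ∈ SS L (centLat L.m) := by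
    intro x hx
    refine adjoin_le_SS L (alg_mem_cen L) ?_ hx
    rintro a (rfl | ha)
    · exact inc_mem_SS L _ _
    · rw [Set.mem_singleton_iff] at ha
      subst ha
      exact hH₀c
  obtain ⟨S⟩ := nonempty_split (K := K') hτ'.one hτ'.comm H₀
  obtain ⟨V, hV⟩ : ∃ V, V = Algebra.adjoin K' ({L.lev.inc β, H₀} : Set R) := ⟨_, rfl⟩
  have hax := fun (x : A) (hx : β * x = x * β) => ax_facts L hτ hτ' hC hC' S hβH hsH hcen hx
  rw [← hV] at hax hcen
  have hcomm : ∀ x ∈ V, ∀ y ∈ V, x * y = y * x := by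
    intro x hx y hy
    rw [hV] at hx hy
    refine comm_of_adjoin ?_ hx hy
    rintro a (rfl | ha) b (rfl | hb)
    · rfl
    · rw [Set.mem_singleton_iff] at hb; subst hb; exact hβH
    · rw [Set.mem_singleton_iff] at ha; subst ha; exact hβH.symm
    · rw [Set.mem_singleton_iff] at ha hb; subst ha; subst hb; rfl
  have hβV : L.lev.inc β ∈ V := by
    rw [hV]
    exact Algebra.subset_adjoin (Set.mem_insert _ _)
  have hH₀Vm : H₀ ∈ V := by
    rw [hV]
    exact Algebra.subset_adjoin (Set.mem_insert_of_mem _ rfl)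
  -- `F0`
  obtain ⟨F0, hF0⟩ : ∃ F0, F0 = lead0 L V := ⟨_, rfl⟩
  rw [← hF0] at hax
  have hβF : β ∈ F0 := by
    rw [hF0]
    exact mem_lead0.2 ⟨_, hβV, L.le_vK_iff.2 (VL_inc L β).lt, (VL_inc L β).eq⟩
  have hdpF : dp ∈ F0 := by
    rw [hdp]
    exact aeval_mem_adjoin F0 hβF _
  have hy₀F : y₀ ∈ F0 := by
    have h1 : dp * y₀ ∈ F0 := by
      rw [hF0]
      exact mem_lead0.2 ⟨_, hH₀Vm, L.le_vK_iff.2 hH₀V.lt, hH₀V.eq⟩
    have h2 := mul_mem (DoubleCent.inv_mem_subalgebra F0 hdpF) h1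
    rwa [← mul_assoc, inv_mul_cancel₀ hdp0, one_mul] at h2
  have hFC : ∀ f ∈ F0, f ∈ Subalgebra.centralizer K (F0 : Set A) := by
    intro f hf
    rw [hF0] at hf ⊢
    obtain ⟨x, hx, hx0, rfl⟩ := mem_lead0.1 hf
    refine lead_mem_centralizer V ?_ hx0
    rw [Subalgebra.mem_centralizer_iff]
    intro g hg
    exact hcomm g hg x hx
  -- `a_x`
  obtain ⟨a, ha⟩ : ∃ a : A → R, a = fun x => S.e (L.lev.inc x) := ⟨_, rfl⟩
  have hax' : ∀ x : A, β * x = x * β → (0 : WithTop GLv) ≤ L.vK (a x) ∧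
      L.c 0 (a x) ∈ Subalgebra.centralizer K (F0 : Set A) ∧
      (∀ q ∈ Subalgebra.centralizer K (F0 : Set A), τ (L.c 0 (a x) * q) = τ (x * q)) ∧ KZ L (a x) := by
    rw [ha]
    exact hax
  have hay := hax' y₀ hy₀β
  have haz := hax' z hzβ
  have hay₀ : L.c 0 (a y₀) = y₀ := by
    have h1 : L.c 0 (a y₀) - y₀ ∈ Subalgebra.centralizer K (F0 : Set A) :=
      sub_mem hay.2.1 (hFC _ hy₀F)
    have h2 := eq_zero_of_orth hτ.one (Subalgebra.centralizer K (F0 : Set A)) h1 fun q hq => by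
      rw [hτ.comm, sub_mul, map_sub, hay.2.2.1 q hq, sub_self]
    exact sub_eq_zero.1 h2
  obtain ⟨r₁, hr₁⟩ : ∃ r₁, r₁ = L.c 0 (a z) := ⟨_, rfl⟩
  rw [← hr₁] at haz
  have he : ∀ x n, S.e (L.lev.mono x n 0) = a x * L.lev.mon n 0 := fun x n => by
    rw [ha]
    exact e_mono L S hH₀j x n
  have hafil : ∀ x, β * x = x * β → ∀ n, a x * L.lev.mon n 0 ∈ L.lev.Φ.fil 0 := fun x hx n =>
    mul_mem_left L.lev.Φ (fil_of_vK L (hax' x hx).1) (L.lev.mon_mem n 0)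
  have hEe : S.e Z = a y₀ * L.lev.mon (- (2 : ℤ) • ηe) 0 + a z * L.lev.mon (- ηe + sExp) 0
      + ∑ n ∈ s', a (Zf n) * L.lev.mon n 0 := by
    rw [hZ, map_add, map_add, map_sum, he, he]
    simp_rw [he]
  have hE : S.e Z ∈ L.lev.Φ.fil 0 := by
    rw [hEe]
    exact add_mem (add_mem (hafil _ hy₀β _) (hafil _ hzβ _)) (sum_mem fun n hn => hafil _ (hZfβ n hn) _)
  have hH' : H - L.lev.inc β - (W * L.lev.mon 0 j + Z * L.lev.mon 0 (j + 1)) ∈ L.lev.Φ.fil (j + 2) := by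
    convert hH using 2
    rw [hW, hZ, add_mul, add_mul, add_mul, Finset.sum_mul, Finset.sum_mul, mono_mul_mon, mono_mul_mon,
      mono_mul_mon]
    simp_rw [mono_mul_mon L]
    abel
  obtain ⟨⟨v, hvad, hv1⟩, Xi, hXiad, hXi2⟩ := exists_Xi L hlamne hj hdp (by rw [hH₀, hww]) hmj hWj hlamj
    hWβ (by rw [← hww]; exact hwws) hZj hZβ hH' S hE
  have hH1 : H - L.lev.inc β ∈ L.lev.Φ.fil 1 := by
    have h1 : W * L.lev.mon 0 j ∈ L.lev.Φ.fil j :=
      mul_mem_left _ (fil_of_mem_jK L hWj) (L.lev.mon_mem 0 j)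
    have h2 : Z * L.lev.mon 0 (j + 1) ∈ L.lev.Φ.fil (j + 1) :=
      mul_mem_left _ (fil_of_mem_jK L hZj) (L.lev.mon_mem 0 (j + 1))
    have h3 := add_mem (L.lev.Φ.anti (by omega : 1 ≤ j + 2) hH')
      (add_mem (L.lev.Φ.anti (by omega : 1 ≤ j) h1) (L.lev.Φ.anti (by omega : 1 ≤ j + 1) h2))
    simpa using h3
  -- the part of order `0` of `e(Z)`
  have hmj0 : ∀ n : CE, L.lev.mon n 0 ∈ SS L jK := fun n => mon_mem_SS L (idx_mem_jK n)
  obtain ⟨A₀', hA₀'⟩ : ∃ A₀', A₀' = pr0 L (a y₀) * L.lev.mon (- (2 : ℤ) • ηe) 0 := ⟨_, rfl⟩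
  obtain ⟨D, hD⟩ : ∃ D, D = pr0 L (a z) * L.lev.mon (- ηe + sExp) 0
      + ∑ n ∈ s', pr0 L (a (Zf n)) * L.lev.mon n 0 := ⟨_, rfl⟩
  have hpr : pr0 L (S.e Z) = A₀' + D := by
    rw [hEe, pr0_add, pr0_add, pr0_sum, pr0_mul L (hmj0 _), pr0_mul L (hmj0 _), hA₀', hD, add_assoc]
    congr 2
    exact Finset.sum_congr rfl fun n _ => pr0_mul L (hmj0 _)
  have hXi3 : Xi - (A₀' + D) * L.lev.mon 0 1 ∈ L.lev.Φ.fil 2 := by
    rw [← hpr]
    have e : Xi - pr0 L (S.e Z) * L.lev.mon 0 1 =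
        (Xi - S.e Z * L.lev.mon 0 1) + (S.e Z - pr0 L (S.e Z)) * L.lev.mon 0 1 := by noncomm_ring
    rw [e]
    refine add_mem hXi2 ?_
    simpa using L.lev.Φ.mul_mem (pr0_sub_fil L hE) (L.lev.mon_mem 0 1)
  have hvmon : ∀ n : CE, VL L (L.lev.mon n 0) (idx n 0) 1 := fun n => by
    simpa using vl_mon L n 0
  have hAj : A₀' ∈ SS L jK := by
    rw [hA₀']
    exact mul_mem (pr0_mem L _) (hmj0 _)
  have hDj : D ∈ SS L jK := by
    rw [hD]
    exact add_mem (mul_mem (pr0_mem L _) (hmj0 _)) (sum_mem fun n _ => mul_mem (pr0_mem L _) (hmj0 _))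
  have hAk : KZ L A₀' := by
    rw [hA₀']
    refine KZ.mul (KZ_pr0 L hay.2.2.2) ?_
    intro g hg
    rw [c_mon L hg]
    show (L.m : ℤ) ∣ κ (- (2 : ℤ) • ηe)
    rw [map_zsmul, hκη]
    simp
  have hAV : VL L A₀' (idx (- (2 : ℤ) • ηe) 0) y₀ := by
    rw [hA₀']
    have h1 := VL.mul_zero_left (VL_pr0 L hay.1) (hvmon (- (2 : ℤ) • ηe))
    rwa [mul_one, hay₀] at h1
  have hDV : VL L D (idx (- ηe + sExp) 0) r₁ := by
    rw [hD]
    have h1 := VL.mul_zero_left (VL_pr0 L haz.1) (hvmon (- ηe + sExp))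
    rw [mul_one, ← hr₁] at h1
    have h2 : VL L (∑ n ∈ s', pr0 L (a (Zf n)) * L.lev.mon n 0) (idx (- ηe + sExp) 0) 0 := by
      refine VL_sum L _ _ _ fun n hn => ?_
      have h3 := VL.mul_zero_left (VL_pr0 L (hax' _ (hZfβ n hn)).1) (hvmon n)
      exact LiftDefs.VL.weaken' h3 (Prod.Lex.lt_iff.2 (Or.inr ⟨rfl, hs' n hn⟩))
    simpa using h1.add h2
  have hyr : y₀ * r₁ = r₁ * y₀ :=
    (Subalgebra.mem_centralizer_iff K).1 haz.2.1 y₀ hy₀F
  refine ⟨F0, r₁, ⟨hy₀F, hy₀, fun f hf => DoubleCent.inv_mem_subalgebra F0 hf, hκη, hposη, ?_, ?_⟩,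
    hβF, haz.2.1, haz.2.2.1⟩
  · intro f hf
    rw [hF0, hV] at hf
    rw [hV] at hcen
    exact lift_part L _ hH₀j (Algebra.subset_adjoin (Set.mem_singleton H)) hvad hH1 hv1 hcen hf
  · intro t
    obtain ⟨h1, h2, h3, h4⟩ := pow_of_Xi L hXi3 hAj hDj hAk hAV hDV hyr hκη hposη t
    exact ⟨Xi ^ t, _root_.pow_mem hXiad t, _, _, h1, h2, h3, h4⟩

end Crest.Agent.Kurosh.LiftAlg
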