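/-
S0270 (Kurosh), blueprint v3 §L (helper41): Step 5 at the level of `K` (decomposition of `𝔸_l`) and
Step 0 (clearing the non-central coefficients of the first error).
-/
import Crest.Agent.Kurosh.AdmExist
import Crest.Agent.Kurosh.InvFacts
import Crest.Agent.Kurosh.CentFactsB
import Crest.Agent.Kurosh.OrcGlue
import Crest.Agent.Kurosh.TestRun

set_option autoImplicit false

namespace Crest.Agent.Kurosh.LiftClear

open State Module
open _root_.Crest.Agent.Kurosh.Inv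
open _root_.Crest.Agent.Kurosh.Inv.St

section Step5

variable {F K A : Type*} [Field F] [Field K] [DivisionRing A] [Algebra F K] [Algebra K A]
  [Algebra F A] [IsScalarTower F K A] (P : State.Pt F K A (Fin 2)) [FiniteDimensional K A]

variable {N : ℕ} {R : ℕ → Rec} {Q : ℕ → Polynomial F} {l r : ℕ} {S : ℕ → Set A}
  {TT : Submodule K (Fin 2 → A)}

/-- The `τ`-orthogonal of `W` in the subalgebra `E`. -/
noncomputable def orthIn (E : Subalgebra K A) (W : Submodule K A) : Submodule K A where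
  carrier := {f | f ∈ E ∧ ∀ a ∈ W, P.τ (f * a) = 0}
  add_mem' := by
    rintro x x' ⟨h1, h2⟩ ⟨h1', h2'⟩
    exact ⟨add_mem h1 h1', fun a ha => by rw [add_mul, map_add, h2 a ha, h2' a ha, add_zero]⟩
  zero_mem' := ⟨zero_mem _, fun a _ => by simp⟩
  smul_mem' := by
    rintro s x ⟨h1, h2⟩
    refine ⟨E.smul_mem h1 s, fun a ha => ?_⟩
    rw [smul_mul_assoc, map_smul, h2 a ha, smul_zero]

/-- `dim W^⊥ + dim W = dim E` in a division subalgebra `E`. -/
lemma finrank_orthIn_add (h1 : P.τ 1 = 1) (E : Subalgebra K A) (W : Submodule K A)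
    (hW : W ≤ Subalgebra.toSubmodule E) :
    finrank K (orthIn P E W) + finrank K W = finrank K E := by
  have h := CentFactsB.finrank_perp_in (τ := P.τ) h1 P.τ_comm E W hW
  have e : orthIn P E W = CentFactsB.orth P.τ W ⊓ Subalgebra.toSubmodule E := by
    ext x
    simp only [Submodule.mem_inf, CentFactsB.mem_orth]
    constructor
    · rintro ⟨h2, h3⟩
      exact ⟨fun a ha => by rw [P.τ_comm]; exact h3 a ha, h2⟩
    · rintro ⟨h2, h3⟩
      exact ⟨h3, fun a ha => by rw [P.τ_comm]; exact h2 a ha⟩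
  rw [e]
  exact h

/-- **Step 5 at the level of `K`.** At a state valid up to `l+1`, if `y ∈ S_l` has
`dim A_y + q_l ≤ Λ_l`, then every `c ∈ 𝔸_l` is `F + p`, `F ∈ F_y`, `F ⊥ A_y`, `p ∈ 𝒫_l`. -/
theorem decomp_Annl (hV : Valid P N R Q (l + 1) r S TT) {y : A} (hy : y ∈ S l)
    (hT : finrank K (Ay P l y) + (R l).q ≤ N / (R l).σ) :
    ∀ c ∈ Annl P l, ∃ p ∈ PPl P S l, ∃ f ∈ Fy P l y, (∀ a ∈ Ay P l y, P.τ (f * a) = 0) ∧ c = f + p := by
  classical
  have h1 : P.τ 1 = 1 := hV.one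
  have hτ := isTraceForm P h1
  have hlt : l < l + 1 := Nat.lt_succ_self l
  have hgood := hV.S_good l hlt y hy
  set E := Fy P l y with hE
  -- elements of `F_y` commute with `β`
  have hyc : P.β l * y = y * P.β l := mem_cent.1 (P.Mov_le_cent l hgood.mem)
  have hEC : ∀ f ∈ E, P.β l * f = f * P.β l := by
    intro f hf
    have hle : E ≤ Subalgebra.centralizer K ({P.β l} : Set A) := by
      refine Algebra.adjoin_le ?_
      rintro x (rfl | rfl)
      · rw [SetLike.mem_coe, Subalgebra.mem_centralizer_iff]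
        rintro g rfl
        rfl
      · rw [SetLike.mem_coe, Subalgebra.mem_centralizer_iff]
        rintro g rfl
        exact hyc
    have := hle hf
    rw [Subalgebra.mem_centralizer_iff] at this
    exact this _ rfl
  set Ay' := Ay P l y with hAy'
  set EE := eIm P (Subalgebra.toSubmodule E) (RR P S l) with hEE
  have hAyE : Ay' ≤ Subalgebra.toSubmodule E := fun x hx => hx.1
  have hEEE : EE ≤ Subalgebra.toSubmodule E := fun x hx => hx.1
  set G := orthIn P E Ay' with hG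
  set G' := orthIn P E EE with hG'
  have hG1 : finrank K G + finrank K Ay' = finrank K E := finrank_orthIn_add P h1 E Ay' hAyE
  have hG2 : finrank K G' + finrank K EE = finrank K E := finrank_orthIn_add P h1 E EE hEEE
  -- `G ≤ 𝔸_l`
  have hGA : G ≤ Annl P l := by
    rintro f ⟨hf, hfa⟩
    refine ⟨mem_cent.2 (hEC f hf), fun z hz => ?_⟩
    have h2 : CentFacts.eProj hτ E z ∈ Ay' := by
      show _ ∈ eIm P (Subalgebra.toSubmodule E) (P.Mov l)
      rw [eIm_eq_map P h1]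
      exact Submodule.mem_map_of_mem hz
    rw [← CentFacts.trace_mul_eProj hτ E hf z]
    exact hfa _ h2
  -- `𝒫_l ≤ 𝔸_l`
  have hPA : PPl P S l ≤ Annl P l := by
    intro p hp
    obtain ⟨c, hc, rfl⟩ := hV.lift l hlt p hp
    have h2 := (P.mem_Ann_iff_lift).2 ⟨c, hc.1, rfl⟩
    exact ⟨mem_cent.2 h2.1, h2.2⟩
  -- `G ∩ 𝒫_l ≤ G'`
  have hGP : G ⊓ PPl P S l ≤ G' := by
    rintro f ⟨⟨hf, -⟩, hfp⟩
    refine ⟨hf, fun a ha => ?_⟩
    obtain ⟨-, z, hz, hza⟩ := ha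
    rw [P.τ_comm, hza f hf, P.τ_comm]
    exact hz.2 f hfp
  -- the count
  have hdim1 := Submodule.finrank_sup_add_finrank_inf_eq G (PPl P S l)
  have hdim2 := Submodule.finrank_mono hGP
  have hbig : N / (R l).σ ≤ finrank K EE := hV.big l hlt y hy
  have hA := AdmExist.finrank_Ann_le P hV hlt
  have hAe : Annl P l = P.Ann l := by
    ext x
    exact ⟨fun h => ⟨mem_cent.1 h.1, h.2⟩, fun h => ⟨mem_cent.2 h.1, h.2⟩⟩
  have hsup : G ⊔ PPl P S l = Annl P l := by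
    refine Submodule.eq_of_le_of_finrank_le (sup_le hGA hPA) ?_
    rw [hAe]
    omega
  intro c hc
  rw [← hsup] at hc
  obtain ⟨f, hf, p, hp, rfl⟩ := Submodule.mem_sup.1 hc
  exact ⟨p, hp, f, hf.1, hf.2, rfl⟩

end Step5

/-! ### Step 0: clearing the non-central coefficients of the first error -/

section Clear

open Hensel

variable {M K A R : Type*} [AddCommGroup M] [DecidableEq M] [Field K] [Ring A] [Algebra K A] [Ring R]
  [Algebra K R] {L : Lev M K A R} {F : Type*} [Field F] [Algebra F K] [Algebra F A]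
  [IsScalarTower F K A] [Algebra F R] [IsScalarTower F K R] {ι : Type*} {P : Pt F K A ι}
  {k J : ℕ} {t1 t2 : ι → A} {X : ι → R} {g : ℕ → R} [FiniteDimensional K A] [CharZero K]

/-- **Clearing moves.** If `ζ^{J+1}=1`, moves `τ_m ∈ T` at order `J` make the obstruction at order
`J+1` vanish at the non-central monomials, and do not change it at the central monomials. -/
theorem moves_clear (h : L.PSol P k (J + 1) t1 t2 X g) (hJ : 2 ≤ J)
    (I' : Submodule K (ℕ → A))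
    (hS : ∀ c ∈ P.KK k, ∀ τ' ∈ P.T k, P.SS k c t1 τ' = 0 ∧ P.SS k c t2 τ' = 0)
    (hH2 : ∀ φ₁ φ₂ : (ℕ → A) →ₗ[K] K, (∀ c ∈ I', φ₁ c = 0) → (∀ c ∈ I', φ₂ c = 0) →
      ∃ τ' ∈ P.T k, ∀ c ∈ P.KK k, P.PP k c t1 τ' = φ₁ c ∧ P.PP k c t2 τ' = φ₂ c)
    (hI : ∀ m : M, L.ζ ^ L.κ m ≠ 1 → ∀ c ∈ I', L.Obs P k m (J + 1) X g c = 0) :
    ∃ (u : Finset M) (τ : M → ι → A), (∀ m, τ m ∈ P.T k) ∧
      ∀ m : M, ∀ c ∈ P.KK k,
        (L.ζ ^ L.κ m ≠ 1 → L.Obs P k m (J + 1) (L.addX X u τ J)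
          (L.addg g u (fun m i => P.w i (τ m)) J) c = 0) ∧
        (L.ζ ^ L.κ m = 1 → L.Obs P k m (J + 1) (L.addX X u τ J)
          (L.addg g u (fun m i => P.w i (τ m)) J) c = L.Obs P k m (J + 1) X g c) := by
  classical
  have h2ne : (2 : K)⁻¹ ≠ 0 := inv_ne_zero two_ne_zero
  set a : M → K := fun m => 2⁻¹ * (L.ζ ^ L.κ m - 1) with ha
  have hane : ∀ m, L.ζ ^ L.κ m ≠ 1 → a m ≠ 0 := fun m hm =>
    mul_ne_zero h2ne (sub_ne_zero.2 hm)
  have ha0 : ∀ m, L.ζ ^ L.κ m = 1 → a m = 0 := fun m hm => by simp [ha, hm]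
  have hch : ∀ m : M, ∃ τ' ∈ P.T k, ∀ c ∈ P.KK k,
      P.PP k c t1 τ' = (if L.ζ ^ L.κ m = 1 then (0 : (ℕ → A) →ₗ[K] K)
        else (-(a m)⁻¹) • L.Obs P k m (J + 1) X g) c ∧ P.PP k c t2 τ' = (0 : (ℕ → A) →ₗ[K] K) c := by
    intro m
    refine hH2 _ _ (fun c hc => ?_) (fun _ _ => rfl)
    split_ifs with hm
    · rfl
    · rw [LinearMap.smul_apply, hI m hm c hc, smul_zero]
  choose τ hτT hτ using hch
  have hfin := Lev.finite_coeff_E (L := L) (P := P) h.fsX h.fsg k (J + 1)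
  refine ⟨hfin.toFinset, τ, hτT, fun m c hc => ?_⟩
  have hadd := h.Obs_addT hJ τ hτT hS hfin.toFinset hc m
  have ht2 : P.PP k c t2 (τ (m - L.μ₁)) = 0 := (hτ _ c hc).2
  rw [ht2] at hadd
  simp only [mul_zero, ite_self, add_zero] at hadd
  constructor
  · intro hm
    rw [hadd]
    by_cases hu : m ∈ hfin.toFinset
    · rw [if_pos hu, (hτ m c hc).1, if_neg hm, LinearMap.smul_apply, smul_eq_mul]
      have := hane m hm
      show _ + a m * _ = 0
      field_simp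
      ring
    · rw [if_neg hu, add_zero]
      refine Lev.Obs_eq_zero_of_coeff (fun i hi => ?_) c
      by_contra hne
      exact hu ((Set.Finite.mem_toFinset hfin).2 ⟨i, hi, hne⟩)
  · intro hm
    rw [hadd]
    by_cases hu : m ∈ hfin.toFinset
    · rw [if_pos hu, (hτ m c hc).1, if_pos hm]
      simp
    · rw [if_neg hu, add_zero]

/-- The error of a frame element. -/
noncomputable def Eg (L : Lev M K A R) (P : Pt F K A ι) (l : ℕ) (X : ι → R) (gl : R) : R :=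
  Calculus.ev X (P.a l) * gl - gl * L.inc (P.β l)

omit [FiniteDimensional K A] [CharZero K] in
lemma E_update {l : ℕ} (X : ι → R) (g : ℕ → R) (gl : R) :
    L.E P X (Function.update g l gl) l = Eg L P l X gl := by
  simp [Lev.E, Eg]

omit [FiniteDimensional K A] [CharZero K] in
lemma E_update_ne {l i : ℕ} (h : i ≠ l) (X : ι → R) (g : ℕ → R) (gl : R) :
    L.E P X (Function.update g l gl) i = L.E P X g i := by
  simp [Lev.E, Function.update_of_ne h]

omit [FiniteDimensional K A] [CharZero K] in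
/-- Changing `g` at the index `l` does not change a partial solution for the prefix `l`. -/
lemma psol_update {l J' : ℕ} (h : L.PSol P l J' t1 t2 X g) {gl : R} (hgl : gl ∈ L.FS) :
    L.PSol P l J' t1 t2 X (Function.update g l gl) where
  fsX := h.fsX
  fsg := fun i => by
    by_cases hi : i = l
    · subst hi; simpa using hgl
    · rw [Function.update_of_ne hi]; exact h.fsg i
  leadX := h.leadX
  leadg := fun i hi => by
    rw [Function.update_of_ne (ne_of_lt hi)]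
    exact h.leadg i hi
  E_mem := fun i hi => by
    rw [E_update_ne (ne_of_lt hi)]
    exact h.E_mem i hi

omit [FiniteDimensional K A] [CharZero K] in
/-- The obstruction of a solution exact for the prefix `l`. -/
lemma Obs_of_exact {l : ℕ} (hex : ∀ i < l, L.E P X g i = 0) (m : M) (j : ℕ) (c : ℕ → A) :
    L.Obs P (l + 1) m j X g c = P.τ (c l * L.coeff m j (L.E P X g l)) := by
  rw [Lev.Obs_apply, Finset.sum_range_succ]
  rw [Finset.sum_eq_zero fun i hi => ?_, zero_add]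
  rw [hex i (Finset.mem_range.1 hi), map_zero, mul_zero, map_zero]

omit [FiniteDimensional K A] [CharZero K] in
/-- First order change of the coefficient of the error of a frame element. -/
lemma coeff_Eg_first_order {l J' : ℕ} (hJ' : 1 ≤ J') {X X' : ι → R} {gl gl' : R}
    (hX : ∀ v, X v - L.inc (P.ρ v) ∈ L.Φ.fil 1) (hg : gl - 1 ∈ L.Φ.fil 1)
    (hX' : ∀ v, X' v - X v ∈ L.Φ.fil J') (hg' : gl' - gl ∈ L.Φ.fil J') (m : M) :
    L.coeff m J' (Eg L P l X' gl') = L.coeff m J' (Eg L P l X gl)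
      + (P.dL l (fun v => L.coeff m J' (X' v - X v))
        + (P.β l * L.coeff m J' (gl' - gl) - L.coeff m J' (gl' - gl) * P.β l)) := by
  have h1 := L.coeff_fil (n := m) (j := J')
    (Lev.E_first_order (L := L) (ρ := P.ρ) (a := P.a l) hJ' hX hg hX' hg') (by omega)
  have h2 : L.coeff m J' (Calculus.pd (fun v => L.inc (P.ρ v)) (X' - X) (P.a l)) =
      P.dL l (fun v => L.coeff m J' (X' v - X v)) := by
    rw [L.coeff_pd]; rfl
  have h3 : L.coeff m J' (L.inc (Calculus.ev P.ρ (P.a l)) * (gl' - gl))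
      = P.β l * L.coeff m J' (gl' - gl) := by
    rw [L.coeff_inc_mul]; rfl
  have h4 : L.coeff m J' ((gl' - gl) * L.inc (Calculus.ev P.ρ (P.a l)))
      = L.coeff m J' (gl' - gl) * P.β l := by
    rw [L.coeff_mul_inc]; rfl
  have h1' : L.coeff m J' (Eg L P l X' gl' - Eg L P l X gl
      - (Calculus.pd (fun v => L.inc (P.ρ v)) (X' - X) (P.a l)
        + (L.inc (Calculus.ev P.ρ (P.a l)) * (gl' - gl)
          - (gl' - gl) * L.inc (Calculus.ev P.ρ (P.a l))))) = 0 := h1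
  rw [map_sub, map_sub, map_add, map_sub, h2, h3, h4] at h1'
  have h6 := sub_eq_zero.1 h1'
  rw [← h6]
  abel

/-- **Step 0 of the Lifting Lemma**, abstract form. `(X,g)` is exact for the prefix `l`, `gl` a frame
for the index `l` with first error at order `J+1`, `ζ^{J+1}=1`. Then `(X,g,gl)` can be replaced by
`(X₂,g₂,gl₂)`, exact for the prefix `l`, with a frame for the index `l` at the same order, such that the
first error has no coefficient at non-central monomials, and the pairings with `𝕂(l+1)` at the central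
monomials do not change. -/
theorem clear_abs {l : ℕ} {gl : R} (hJ : 2 ≤ J)
    (hex : ∀ J', L.PSol P l J' t1 t2 X g) (hfs : gl ∈ L.FS)
    (hlead : gl - (1 + L.mono (P.w l t1) 0 1 + L.mono (P.w l t2) L.μ₁ 1) ∈ L.Φ.fil 2)
    (herr : Eg L P l X gl ∈ L.Φ.fil (J + 1))
    (hS1 : ∀ c ∈ P.KK (l + 1), ∀ τ' ∈ P.T (l + 1),
      P.SS (l + 1) c t1 τ' = 0 ∧ P.SS (l + 1) c t2 τ' = 0)
    (hSl : ∀ c ∈ P.KK l, ∀ τ' ∈ P.T l, P.SS l c t1 τ' = 0 ∧ P.SS l c t2 τ' = 0)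
    (I' I : Submodule K (ℕ → A))
    (hH2' : ∀ φ₁ φ₂ : (ℕ → A) →ₗ[K] K, (∀ c ∈ I', φ₁ c = 0) → (∀ c ∈ I', φ₂ c = 0) →
      ∃ τ' ∈ P.T (l + 1), ∀ c ∈ P.KK (l + 1),
        P.PP (l + 1) c t1 τ' = φ₁ c ∧ P.PP (l + 1) c t2 τ' = φ₂ c)
    (hH2l : ∀ φ₁ φ₂ : (ℕ → A) →ₗ[K] K, (∀ c ∈ I, φ₁ c = 0) → (∀ c ∈ I, φ₂ c = 0) →
      ∃ τ' ∈ P.T l, ∀ c ∈ P.KK l, P.PP l c t1 τ' = φ₁ c ∧ P.PP l c t2 τ' = φ₂ c)
    (hI' : ∀ m : M, L.ζ ^ L.κ m ≠ 1 → ∀ c ∈ I',
      P.τ (c l * L.coeff m (J + 1) (Eg L P l X gl)) = 0)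
    (hO : ∀ J', 2 ≤ J' → ∀ (X : ι → R) (g : ℕ → R), L.PSol P l (J' + 1) t1 t2 X g →
      (∀ m : M, ∀ c ∈ I, L.Obs P l m (J' + 1) X g c = 0) ∧
      (∀ m : M, L.ζ ^ L.κ m = 1 → L.ζ ^ ((J' : ℤ) + 1) = 1 → ∀ c ∈ P.KK l,
        L.Obs P l m (J' + 1) X g c = 0))
    (hT0 : ∀ y ∈ P.Mov l, ∃ τ ∈ P.T l, P.e l (P.dL l τ) = y ∧
      ∀ c ∈ P.KK l, P.PP l c t1 τ = 0 ∧ P.PP l c t2 τ = 0) :
    ∃ (X₂ : ι → R) (g₂ : ℕ → R) (gl₂ : R), (∀ J', L.PSol P l J' t1 t2 X₂ g₂) ∧ gl₂ ∈ L.FS ∧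
      gl₂ - (1 + L.mono (P.w l t1) 0 1 + L.mono (P.w l t2) L.μ₁ 1) ∈ L.Φ.fil 2 ∧
      Eg L P l X₂ gl₂ ∈ L.Φ.fil (J + 1) ∧
      (∀ m : M, L.ζ ^ L.κ m ≠ 1 → L.coeff m (J + 1) (Eg L P l X₂ gl₂) = 0) ∧
      (∀ m : M, L.ζ ^ L.κ m = 1 → ∀ c ∈ P.KK (l + 1),
        P.τ (c l * L.coeff m (J + 1) (Eg L P l X₂ gl₂)) =
          P.τ (c l * L.coeff m (J + 1) (Eg L P l X gl))) := by
  classical
  -- the frame as a partial solution for the prefix `l+1`
  set g0 := Function.update g l gl with hg0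
  have hg0l : g0 l = gl := by simp [hg0]
  have hex0 : ∀ J', L.PSol P l J' t1 t2 X g0 := fun J' => psol_update (hex J') hfs
  have hE0 : ∀ i < l, L.E P X g0 i = 0 := fun i hi =>
    sub_eq_zero.mpr (Lev.exact_of_PSol hex0 hi)
  have hE0l : L.E P X g0 l = Eg L P l X gl := E_update X g gl
  have h0 : L.PSol P (l + 1) (J + 1) t1 t2 X g0 := by
    refine ⟨(hex0 0).fsX, (hex0 0).fsg, (hex0 0).leadX, fun i hi => ?_, fun i hi => ?_⟩
    · rcases Nat.lt_succ_iff_lt_or_eq.1 hi with h | rfl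
      · exact (hex0 0).leadg i h
      · rw [hg0l]; exact hlead
    · rcases Nat.lt_succ_iff_lt_or_eq.1 hi with h | rfl
      · exact (hex0 _).E_mem i h
      · rw [hE0l]; exact herr
  have hObs0 : ∀ (m : M) (c : ℕ → A), L.Obs P (l + 1) m (J + 1) X g0 c =
      P.τ (c l * L.coeff m (J + 1) (Eg L P l X gl)) := fun m c => by
    rw [Obs_of_exact hE0, hE0l]
  -- Step 1: moves at order `J`
  obtain ⟨u, τ, hτT, hu⟩ := moves_clear h0 hJ I' hS1 hH2'
    (fun m hm c hc => by rw [hObs0]; exact hI' m hm c hc)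
  set X₁ := L.addX X u τ J with hX₁
  set g₁ := L.addg g0 u (fun m i => P.w i (τ m)) J with hg₁
  have h₁ : L.PSol P (l + 1) (J + 1) t1 t2 X₁ g₁ := h0.addT hJ τ hτT u
  have h₁' : L.PSol P l (J + 1) t1 t2 X₁ g₁ := OrcGlue.PSol_of_succ h₁
  have hlast : ∀ c ∈ P.KK l, c l = 0 := fun c hc => hc.1 l le_rfl
  -- Step 2: order `J+1` for the prefix `l`
  obtain ⟨Sa, tt, ww, h₂, -⟩ := h₁'.solve_all (by omega) (fun m c hc => by
    rw [← OrcGlue.Obs_succ_of_last m _ X₁ g₁ (hlast c hc)]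
    have hc1 := P.KK_mono (Nat.le_succ l) hc
    by_cases hm : L.ζ ^ L.κ m = 1
    · rw [(hu m c hc1).2 hm, hObs0, hlast c hc, zero_mul, map_zero]
    · exact (hu m c hc1).1 hm)
  -- Step 3: exact for the prefix `l`
  obtain ⟨X₃, g₃, hex₃, hX₃, hg₃⟩ := Lev.exists_limit (L := L) (P := P) (J1 := J + 1) (by omega) h₂ I
    hSl hH2l (fun J' hJ' X' g' hs _ _ => hO J' (by omega) X' g' hs)
  have hX₁' : ∀ v, X₃ v - X₁ v ∈ L.Φ.fil (J + 1) := by
    intro v
    have h1 := hX₃ v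
    have h2 : L.addX X₁ Sa tt (J + 1) v - X₁ v ∈ L.Φ.fil (J + 1) := by
      simp only [Lev.addX, add_sub_cancel_left]
      exact L.sum_mono_mem _ _ _
    have := add_mem h1 h2
    simpa using this
  have hg₁' : ∀ i, g₃ i - g₁ i ∈ L.Φ.fil (J + 1) := by
    intro i
    have h1 := hg₃ i
    have h2 : L.addg g₁ Sa ww (J + 1) i - g₁ i ∈ L.Φ.fil (J + 1) := by
      simp only [Lev.addg, add_sub_cancel_left]
      exact L.sum_mono_mem _ _ _
    have := add_mem h1 h2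
    simpa using this
  have hX1f : ∀ v, X₁ v - L.inc (P.ρ v) ∈ L.Φ.fil 1 := by
    intro v
    have a1 := L.Φ.anti (Nat.le_succ 1) (h₁.leadX v)
    have a2 := L.mono_mem (t1 v) 0 1
    have a3 := L.mono_mem (t2 v) L.μ₁ 1
    have := add_mem (add_mem a1 a2) a3
    convert this using 1
    abel
  have hg1f : ∀ i < l + 1, g₁ i - 1 ∈ L.Φ.fil 1 := by
    intro i hi
    have a1 := L.Φ.anti (Nat.le_succ 1) (h₁.leadg i hi)
    have a2 := L.mono_mem (P.w i t1) 0 1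
    have a3 := L.mono_mem (P.w i t2) L.μ₁ 1
    have := add_mem (add_mem a1 a2) a3
    convert this using 1
    abel
  -- the frame at `X₃`
  set gl₃ := g₁ l with hgl₃
  have hfs₃ : gl₃ ∈ L.FS := h₁.fsg l
  set g₃' := Function.update g₃ l gl₃ with hg₃'
  have hg₃'l : g₃' l = gl₃ := by simp [hg₃']
  have hex₃' : ∀ J', L.PSol P l J' t1 t2 X₃ g₃' := fun J' => psol_update (hex₃ J') hfs₃
  have hE₃0 : ∀ i < l, L.E P X₃ g₃' i = 0 := fun i hi =>
    sub_eq_zero.mpr (Lev.exact_of_PSol hex₃' hi)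
  have hE₃l : L.E P X₃ g₃' l = Eg L P l X₃ gl₃ := E_update X₃ g₃ gl₃
  have hE₁l : L.E P X₁ g₁ l = Eg L P l X₁ gl₃ := rfl
  have hE₃mem : Eg L P l X₃ gl₃ ∈ L.Φ.fil (J + 1) :=
    OrcGlue.E_mem_of_close (by omega) hX1f (hg1f l (by omega)) hX₁' (by rw [hgl₃, sub_self]; exact zero_mem _)
      (h₁.E_mem l (by omega))
  have hObs₃ : ∀ (m : M), ∀ c ∈ P.KK (l + 1), L.Obs P (l + 1) m (J + 1) X₃ g₃' c =
      L.Obs P (l + 1) m (J + 1) X₁ g₁ c := fun m c hc => by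
    refine Lev.Obs_invariant (by omega) hc hX1f hg1f hX₁' (fun i hi => ?_) m
    by_cases hil : i = l
    · subst hil
      simp [hg₃'l, hgl₃]
    · rw [hg₃', Function.update_of_ne hil]
      exact hg₁' i
  set G' : M → A := fun m => L.coeff m (J + 1) (Eg L P l X₃ gl₃) with hG'
  have hObsG : ∀ (m : M) (c : ℕ → A), L.Obs P (l + 1) m (J + 1) X₃ g₃' c = P.τ (c l * G' m) :=
    fun m c => by rw [Obs_of_exact hE₃0, hE₃l]
  have hG0 : ∀ m : M, L.ζ ^ L.κ m ≠ 1 → ∀ c ∈ P.KK (l + 1), P.τ (c l * G' m) = 0 :=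
    fun m hm c hc => by rw [← hObsG, hObs₃ m c hc]; exact (hu m c hc).1 hm
  -- the non-central coefficients are in `Mov_l` modulo commutators
  have hMov : ∀ m : M, L.ζ ^ L.κ m ≠ 1 → P.e l (G' m) ∈ P.Mov l := by
    intro m hm
    have hs := (P.solvable_iff (l + 1) (fun i => if i = l then G' m else 0)).2 (fun c hc => by
      rw [Finset.sum_eq_single l]
      · simpa using hG0 m hm c hc
      · intro i _ hi
        simp [hi]
      · simp)
    obtain ⟨t, w, ht⟩ := hs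
    refine P.mem_Mov.2 ⟨t, fun i hi => ?_, ?_⟩
    · have h1 := ht i (by omega)
      rw [if_neg (ne_of_lt hi), add_eq_zero_iff_eq_neg] at h1
      rw [h1, map_neg, P.e_comm, neg_zero]
    · have h1 := ht l (by omega)
      rw [if_pos rfl] at h1
      have h2 : P.dL l t = G' m - (P.β l * w l - w l * P.β l) := eq_sub_of_add_eq h1
      rw [h2, map_sub, P.e_comm, sub_zero]
  -- the moves at order `J+1`
  have hch : ∀ m : M, ∃ τ' ∈ P.T l, (L.ζ ^ L.κ m ≠ 1 → P.e l (P.dL l τ') = - P.e l (G' m)) ∧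
      ∀ c ∈ P.KK l, P.PP l c t1 τ' = 0 ∧ P.PP l c t2 τ' = 0 := by
    intro m
    by_cases hm : L.ζ ^ L.κ m = 1
    · exact ⟨0, zero_mem _, fun h => absurd hm h, fun c _ =>
        ⟨Lev.PP_zero_right c t1, Lev.PP_zero_right c t2⟩⟩
    · obtain ⟨τ', h1, h2, h3⟩ := hT0 _ (neg_mem (hMov m hm))
      exact ⟨τ', h1, fun _ => h2, h3⟩
  choose τ₂ hτ₂T hτ₂e hτ₂0 using hch
  have hfin₃ := Lev.finite_coeff_E (L := L) (P := P) (hex₃' 0).fsX (hex₃' 0).fsg (l + 1) (J + 1)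
  set s : Finset M := hfin₃.toFinset.filter (fun m => L.ζ ^ L.κ m ≠ 1) with hs
  have hs_nc : ∀ m, L.ζ ^ L.κ m ≠ 1 → G' m ≠ 0 → m ∈ s := by
    intro m hm hne
    rw [hs, Finset.mem_filter, Set.Finite.mem_toFinset]
    refine ⟨⟨l, by omega, ?_⟩, hm⟩
    rw [hE₃l]
    exact hne
  have hs_c : ∀ m, m ∈ s → L.ζ ^ L.κ m ≠ 1 := fun m hm => (Finset.mem_filter.1 hm).2
  obtain ⟨Sa', tt', ww', h₄⟩ := TestRun.moves_T0 (j := J + 1) (by omega) (hex₃' _)
    (fun m c _ => TestRun.obs_eq_zero_of_exact hex₃' m _ c) hSl s τ₂ hτ₂T hτ₂0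
  -- exact again
  obtain ⟨X₅, g₅, hex₅, hX₅, hg₅⟩ := Lev.exists_limit (L := L) (P := P) (J1 := J + 1 + 1) (by omega) h₄
    I hSl hH2l (fun J' hJ' X' g' hs _ _ => hO J' (by omega) X' g' hs)
  -- the new frame element
  set y : M → A := fun m => P.w l (τ₂ m) - (P.split l).inv (G' m) with hy
  set gl₅ : R := gl₃ + ∑ m ∈ s, L.mono (y m) m (J + 1) with hgl₅
  have hgl₅mem : gl₅ - gl₃ ∈ L.Φ.fil (J + 1) := by
    simp only [hgl₅, add_sub_cancel_left]
    exact L.sum_mono_mem _ _ _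
  -- the differences of the points
  set X₄ := L.addX (L.addX X₃ s τ₂ (J + 1)) Sa' tt' (J + 1 + 1) with hX₄
  have hX₅₃ : ∀ v, X₅ v - X₃ v ∈ L.Φ.fil (J + 1) := by
    intro v
    have h1 : X₅ v - X₄ v ∈ L.Φ.fil (J + 1) := L.Φ.anti (Nat.le_succ _) (hX₅ v)
    have h2 : X₄ v - L.addX X₃ s τ₂ (J + 1) v ∈ L.Φ.fil (J + 1) := by
      simp only [hX₄, Lev.addX, add_sub_cancel_left]
      exact L.Φ.anti (Nat.le_succ _) (L.sum_mono_mem _ _ _)
    have h3 : L.addX X₃ s τ₂ (J + 1) v - X₃ v ∈ L.Φ.fil (J + 1) := by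
      simp only [Lev.addX, add_sub_cancel_left]
      exact L.sum_mono_mem _ _ _
    have := add_mem (add_mem h1 h2) h3
    simpa using this
  have hcoefX : ∀ (m : M) (v : ι), L.coeff m (J + 1) (X₅ v - X₃ v) = if m ∈ s then τ₂ m v else 0 := by
    intro m v
    have h1 : L.coeff m (J + 1) (X₅ v - X₄ v) = 0 := L.coeff_fil (hX₅ v) (by omega)
    have h2 : L.coeff m (J + 1) (X₄ v - L.addX X₃ s τ₂ (J + 1) v) = 0 := by
      simp only [hX₄, Lev.addX, add_sub_cancel_left]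
      exact L.coeff_sum_mono_of_ne _ _ _ (by omega)
    have h3 : L.coeff m (J + 1) (L.addX X₃ s τ₂ (J + 1) v - X₃ v) = if m ∈ s then τ₂ m v else 0 := by
      simp only [Lev.addX, add_sub_cancel_left]
      exact L.coeff_sum_mono _ _ _ _
    have e : X₅ v - X₃ v = (X₅ v - X₄ v) + (X₄ v - L.addX X₃ s τ₂ (J + 1) v)
        + (L.addX X₃ s τ₂ (J + 1) v - X₃ v) := by abel
    rw [e, map_add, map_add, h1, h2, h3, zero_add, zero_add]
  have hcoefg : ∀ m : M, L.coeff m (J + 1) (gl₅ - gl₃) = if m ∈ s then y m else 0 := by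
    intro m
    simp only [hgl₅, add_sub_cancel_left]
    exact L.coeff_sum_mono _ _ _ _
  have hX3f : ∀ v, X₃ v - L.inc (P.ρ v) ∈ L.Φ.fil 1 := by
    intro v
    have a1 := L.Φ.anti (Nat.le_succ 1) ((hex₃' 0).leadX v)
    have a2 := L.mono_mem (t1 v) 0 1
    have a3 := L.mono_mem (t2 v) L.μ₁ 1
    have := add_mem (add_mem a1 a2) a3
    convert this using 1
    abel
  have hgl3f : gl₃ - 1 ∈ L.Φ.fil 1 := hg1f l (by omega)
  have hcoef : ∀ m : M, L.coeff m (J + 1) (Eg L P l X₅ gl₅) = G' m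
      + if m ∈ s then P.dL l (τ₂ m) + (P.β l * y m - y m * P.β l) else 0 := by
    intro m
    rw [coeff_Eg_first_order (L := L) (P := P) (l := l) (by omega) hX3f hgl3f hX₅₃ hgl₅mem m, hcoefg m]
    by_cases hm : m ∈ s
    · rw [if_pos hm, if_pos hm]
      congr 2
      congr 1
      funext v
      rw [hcoefX m v, if_pos hm]
    · rw [if_neg hm, if_neg hm]
      have e : (fun v => L.coeff m (J + 1) (X₅ v - X₃ v)) = 0 := by
        funext v
        rw [hcoefX m v, if_neg hm]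
        rfl
      rw [e, map_zero, mul_zero, zero_mul, sub_zero, add_zero, add_zero]
  refine ⟨X₅, g₅, gl₅, hex₅, add_mem hfs₃ (L.sum_mono_mem_FS _ _ _), ?_,
    OrcGlue.E_mem_of_close (by omega) hX3f hgl3f hX₅₃ hgl₅mem hE₃mem, ?_, ?_⟩
  · have a1 := h₁.leadg l (by omega)
    have a2 := L.Φ.anti (show 2 ≤ J + 1 by omega) hgl₅mem
    have := add_mem a2 a1
    convert this using 1
    abel
  · intro m hm
    rw [hcoef m]
    by_cases hms : m ∈ s
    · rw [if_pos hms]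
      have a1 := P.dL_add_comm_w l (τ₂ m)
      have a2 := P.sub_e_eq l (G' m)
      have a3 := hτ₂e m hm
      have e : G' m + (P.dL l (τ₂ m) + (P.β l * y m - y m * P.β l)) =
          (P.dL l (τ₂ m) + (P.β l * P.w l (τ₂ m) - P.w l (τ₂ m) * P.β l))
            - (P.β l * (P.split l).inv (G' m) - (P.split l).inv (G' m) * P.β l) + G' m := by
        simp only [hy]
        noncomm_ring
      rw [e, a1, a3, ← a2]
      abel
    · rw [if_neg hms, add_zero]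
      by_contra hne
      exact hms (hs_nc m hm hne)
  · intro m hm c hc
    have hms : m ∉ s := fun h => hs_c m h hm
    rw [hcoef m, if_neg hms, add_zero]
    rw [← hObsG, hObs₃ m c hc, (hu m c hc).2 hm, hObs0]

end Clear

/-! ### Top level form -/

section Top

open LU LU.Tw0 LU.Tw Plan

variable [Tw0] [Tw] {F : Subfield U} [CentF F]

/-- **Step 0 of the Lifting Lemma** (`Orc F l`, `KeyS F l`; the pair is admissible for the prefix
`l+1`). The frame `(X,g,gl)` of the entry `l`, with first error at an order `j` divisible by `m`,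
can be replaced by a frame `(X₂,g₂,gl₂)` whose first error at order `j` vanishes at all non-central
monomials and has the same pairings with `𝔸_l` at the central monomials. -/
theorem clear_first_error {l : ℕ} (hO : Orc F l) (hK : KeyS F l) (Ls : Lst F) (n : ℕ)
    [Fact (F ≤ Kn n)] (ρ : Stt n) (r : ℕ) (S : ℕ → Set (An n))
    (TT : Submodule (Kn n) (Fin 2 → An n))
    (hC : Ctx F Ls n ρ (l + 1) r S TT) (t1 t2 : Fin 2 → An n)
    (hA : Adm (pt F n ρ Ls.a) (l + 1) TT t1 t2) (j : ℕ) (hj : 2 ≤ j) (hmj : (lv n).m ∣ j)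
    (X : Stt (n + 1)) (g : ℕ → An (n + 1)) (gl : An (n + 1))
    (hex : ∀ J, (lv n).lev.PSol (pt F n ρ Ls.a) l J t1 t2 X g)
    (hF : Frame F Ls n ρ l t1 t2 j X gl) :
    ∃ (X₂ : Stt (n + 1)) (g₂ : ℕ → An (n + 1)) (gl₂ : An (n + 1)),
      (∀ J, (lv n).lev.PSol (pt F n ρ Ls.a) l J t1 t2 X₂ g₂) ∧
      Frame F Ls n ρ l t1 t2 j X₂ gl₂ ∧
      (∀ n0 : CE, ¬ ((lv n).m : ℤ) ∣ κ n0 → (lv n).lev.coeff n0 j
        (ev X₂ (Ls.a l) * gl₂ - gl₂ * (lv n).lev.inc ((pt F n ρ Ls.a).β l)) = 0) ∧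
      (∀ n0 : CE, ((lv n).m : ℤ) ∣ κ n0 → ∀ c ∈ Annl (pt F n ρ Ls.a) l,
        (τ n) (c * (lv n).lev.coeff n0 j
          (ev X₂ (Ls.a l) * gl₂ - gl₂ * (lv n).lev.inc ((pt F n ρ Ls.a).β l))) =
        (τ n) (c * (lv n).lev.coeff n0 j
          (ev X (Ls.a l) * gl - gl * (lv n).lev.inc ((pt F n ρ Ls.a).β l)))) := by
  have hV := hC.valid
  have hr : l + 1 ≤ r := hV.le
  have hCl : Ctx F Ls n ρ l r S TT := ⟨hV.mono (Nat.le_succ l), hC.above, hC.opt⟩
  have hTT : TT ≤ (pt F n ρ Ls.a).T (l + 1) := hV.TT_le.trans ((pt F n ρ Ls.a).T_anti hr)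
  have hH2'' := fun φ₁ φ₂ hφ₁ hφ₂ => OrcGlue.H2_pred hV hA φ₁ φ₂ hφ₁ hφ₂
  have hAl : Adm (pt F n ρ Ls.a) l TT t1 t2 :=
    { mem1 := hA.mem1
      mem2 := hA.mem2
      S1 := hV.TT_S l (by omega) t1 hA.mem1
      S2 := hV.TT_S l (by omega) t2 hA.mem2
      H1 := fun c hc => by
        rw [← (pt F n ρ Ls.a).PP_of_le (Nat.le_succ l) hc]
        exact hA.H1 c ((pt F n ρ Ls.a).KK_mono (Nat.le_succ l) hc)
      H2 := fun φ₁ φ₂ hφ₁ hφ₂ => by
        obtain ⟨t', ht', hk⟩ := hH2'' φ₁ φ₂ hφ₁ hφ₂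
        refine ⟨t', ht', fun c hc => ?_⟩
        rw [← (pt F n ρ Ls.a).PP_of_le (Nat.le_succ l) hc,
          ← (pt F n ρ Ls.a).PP_of_le (Nat.le_succ l) hc]
        exact hk c hc
      indep := hA.indep }
  have hO' := hO Ls n ρ r S TT hCl t1 t2 hAl
  -- the order
  have hm0 : 3 ≤ (lv n).m := by
    have := Tw.m_big n
    nlinarith
  have hj0 : 0 < j := by omega
  have hm3 : (lv n).m ≤ j := Nat.le_of_dvd hj0 hmj
  obtain ⟨J, rfl⟩ : ∃ J, j = J + 1 := ⟨j - 1, by omega⟩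
  have hJ : 2 ≤ J := by omega
  have hζ := (lv n).ζ_prim
  have hcent : ∀ m : CE, (lv n).lev.ζ ^ (lv n).lev.κ m = 1 ↔ (((lv n).m : ℕ) : ℤ) ∣ κ m := by
    intro m
    rw [← hζ.zpow_eq_one_iff_dvd, ← (lv n).lev_ζ, ← (lv n).lev_κ]
  obtain ⟨X₂, g₂, gl₂, h1, h2, h3, h4, h5, h6⟩ := clear_abs (L := (lv n).lev) (P := pt F n ρ Ls.a)
    (l := l) (t1 := t1) (t2 := t2) (X := X) (g := g) (gl := gl) (J := J) hJ hex hF.fs hF.lead hF.err
    (fun c hc τ' hτ' => ⟨hA.S1 c hc τ' hτ', hA.S2 c hc τ' hτ'⟩)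
    (fun c hc τ' hτ' => ⟨hAl.S1 c hc τ' hτ', hAl.S2 c hc τ' hτ'⟩)
    (IIT (pt F n ρ Ls.a) (l + 1) TT) (IIT (pt F n ρ Ls.a) l TT)
    (fun φ₁ φ₂ hφ₁ hφ₂ => by
      obtain ⟨t', ht', hk⟩ := hA.H2 φ₁ φ₂ hφ₁ hφ₂
      exact ⟨t', hTT ht', hk⟩)
    (fun φ₁ φ₂ hφ₁ hφ₂ => by
      obtain ⟨t', ht', hk⟩ := hAl.H2 φ₁ φ₂ hφ₁ hφ₂
      exact ⟨t', (pt F n ρ Ls.a).T_anti (Nat.le_succ l) (hTT ht'), hk⟩)
    (fun m _ c hc => by
      have hcl := OrcGlue.last_mem_ppl_of_mem_IIT hV hc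
      set G := (lv n).lev.coeff m (J + 1) (Eg (lv n).lev (pt F n ρ Ls.a) l X gl) with hG
      have hle : PPl (pt F n ρ Ls.a) S l ≤
          LinearMap.ker ((τ n) ∘ₗ LinearMap.mulRight (Kn n) G) := by
        refine iSup₂_le fun y hy p hp => ?_
        have hgood := hV.S_good l (by omega) y hy
        exact (hK Ls n ρ r S TT (by omega) hCl t1 t2 hAl y hgood).2 (J + 1) (by omega) X g gl hex
          hF m p hp
      exact hle hcl)
    hO'
    (fun y hy => AdmExist.exists_T0_of_mem_Mov _ hAl hTT hy)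
  refine ⟨X₂, g₂, gl₂, h1, ⟨h2, h3, h4⟩, fun n0 hn0 => h5 n0 (fun h => hn0 ((hcent n0).1 h)),
    fun n0 hn0 c hc => ?_⟩
  have hc' : c ∈ (pt F n ρ Ls.a).Ann l := ⟨State.mem_cent.1 hc.1, hc.2⟩
  obtain ⟨c', hc'1, rfl⟩ := (pt F n ρ Ls.a).mem_Ann_iff_lift.1 hc'
  exact h6 n0 ((hcent n0).2 hn0) c' hc'1

end Top

end Crest.Agent.Kurosh.LiftClear
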