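/-
S0270 (Kurosh), blueprint v3 §L (M5), helper8: the count of the lifting test.
`Mov' = Mov_l(X̃)`, `y' ∈ Mov'` with central value `g₁` and lead `y₀`, `Lp` a `K'`-subalgebra of `R`
containing `y'⁻¹ Mov'`.
-/
import Crest.Agent.Kurosh.LiftDefs

set_option autoImplicit false
set_option linter.unusedSectionVars false

namespace Crest.Agent.Kurosh.LiftDefs

open Hensel State Module LU VLead

variable {K A K' R : Type*} [Field K] [DivisionRing A] [Algebra K A] [Field K'] [DivisionRing R]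
  [Algebra K R] [Algebra K' R] [Algebra K K'] [IsScalarTower K K' R] {τ : A →ₗ[K] K}
  (L : Lv K A K' R τ)

/-- The inverse of an element with central value. -/
lemma inv_lead {y' : R} {y₀ : A} {g₁ : GLv} (hg₁ : g₁ ∈ centLat L.m) (hy₀ : y₀ ≠ 0)
    (hV : VL L y' g₁ y₀) :
    ((-g₁ : GLv) : WithTop GLv) ≤ L.vK y'⁻¹ ∧ L.c (-g₁) y'⁻¹ = y₀⁻¹ := by
  have h1 : (g₁ : WithTop GLv) ≤ L.vK y' := L.le_vK_iff.2 hV.lt
  have h2 : L.vK y' = (g₁ : WithTop GLv) := by
    refine le_antisymm ?_ h1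
    by_contra hlt
    have h3 := L.c_eq_zero_of_lt (not_le.1 hlt)
    exact hy₀ (hV.eq.symm.trans h3)
  have hy'0 : y' ≠ 0 := by
    intro h0
    rw [h0, L.vK_zero] at h2
    exact WithTop.top_ne_coe h2
  have h3 : L.vK (y' * y'⁻¹) = 0 := by
    rw [mul_inv_cancel₀ hy'0, L.vK_one]
  rw [L.vK_mul, h2] at h3
  have h4 : L.vK y'⁻¹ = ((-g₁ : GLv) : WithTop GLv) := by
    cases hv : L.vK y'⁻¹ with
    | top =>
      rw [hv] at h3
      simp at h3
    | coe v =>
      rw [hv] at h3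
      have h5 : g₁ + v = 0 := by exact_mod_cast h3
      have h6 : v = -g₁ := by
        rw [eq_neg_iff_add_eq_zero, add_comm]
        exact h5
      rw [h6]
  have h5 : ((-g₁ : GLv) : WithTop GLv) ≤ L.vK y'⁻¹ := le_of_eq h4.symm
  refine ⟨h5, ?_⟩
  have h6 := L.c_mul h1 h5
  rw [mul_inv_cancel₀ hy'0, add_neg_cancel, L.ε_central_left hg₁, one_smul, hV.eq] at h6
  have h7 : L.c 0 (1 : R) = 1 := by
    have := L.c_algK_zero (1 : K)
    simpa using this
  rw [h7] at h6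
  exact eq_inv_of_mul_eq_one_right h6.symm

/-- Division by an element with central value, on leads. -/
lemma lead_div {y' : R} {y₀ : A} {g₁ : GLv} (hg₁ : g₁ ∈ centLat L.m) (hy₀ : y₀ ≠ 0)
    (hV : VL L y' g₁ y₀) {Lp : Subalgebra K' R} {e : GLv} {x : R} {ℓ : A} (hx : y'⁻¹ * x ∈ Lp)
    (he : (e : WithTop GLv) ≤ L.vK x) (hc : L.c e x = y₀ * ℓ) :
    ℓ ∈ L.leadK.lead e (Subalgebra.toSubmodule Lp) := by
  obtain ⟨h1, h2⟩ := inv_lead L hg₁ hy₀ hV
  have hmem : -g₁ ∈ centLat L.m := (centLat L.m).neg_mem hg₁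
  have h3 := L.c_mul h1 he
  rw [L.ε_central_left hmem, one_smul, h2, hc, inv_mul_cancel_left₀ hy₀] at h3
  have h4 : ℓ ∈ L.leadK.lead (-g₁ + e) (Subalgebra.toSubmodule Lp) :=
    ⟨y'⁻¹ * x, hx, L.le_vK_mul h1 he, h3⟩
  have e1 : L.leadK.lead (-g₁ + e) (Subalgebra.toSubmodule Lp) =
      L.leadK.lead e (Subalgebra.toSubmodule Lp) :=
    L.leadK_eq_of_sub_mem (by simpa using hmem) _
  rwa [e1] at h4

/-- (M5) the count. `Mov' = Mov_l(X̃)`, `y' ∈ Mov'` with central value `g₁` and lead `y₀`, `Lp` a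
`K'`-subalgebra of `R` containing `y'⁻¹ Mov'`. -/
theorem count_main [FiniteDimensional K A] (hm : 3 ≤ L.m) {Mov' : Submodule K' R} {Lp : Subalgebra K' R}
    {y' : R} {y₀ e : A} {g₁ : GLv} {Ay : Submodule K A} {LL : Subalgebra K A}
    (_hy' : y' ∈ Mov') (hg₁ : g₁ ∈ centLat L.m) (hy₀ : y₀ ≠ 0) (hV : VL L y' g₁ y₀)
    (hLp : ∀ x ∈ Mov', y'⁻¹ * x ∈ Lp)
    (hAy : Ay ≤ L.leadK.lead 0 Mov') (he : e ∈ L.leadK.lead 0 Mov')
    (hr : ∀ r : Fin L.m, (r : ℕ) ≠ 0 → ∀ ℓ ∈ LL, y₀ * ℓ ∈ L.leadK.lead (L.eK (⟨0, L.m_pos⟩, r)) Mov') :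
    L.m * finrank K LL ≤ finrank K' Lp ∧
      (L.m - 1) * finrank K LL + finrank K ↥(Ay ⊔ Submodule.span K {e}) ≤ finrank K' Mov' := by
  classical
  have hm0 : 0 < L.m := L.m_pos
  let z : Fin L.m := ⟨0, hm0⟩
  have hzero : L.eK (z, z) = 0 := rfl
  -- `LL` in a subspace
  have hdim : ∀ W : Submodule K A, (∀ ℓ ∈ LL, ℓ ∈ W) → finrank K LL ≤ finrank K W := by
    intro W hW
    have h0 : Subalgebra.toSubmodule LL ≤ W := hW
    exact Submodule.finrank_mono h0
  have hdim' : ∀ W : Submodule K A, (∀ ℓ ∈ LL, y₀ * ℓ ∈ W) → finrank K LL ≤ finrank K W := by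
    intro W hW
    have hf : Function.Injective (LinearMap.mulLeft K y₀) := fun a b h => mul_left_cancel₀ hy₀ h
    have h1 : finrank K ((Subalgebra.toSubmodule LL).map (LinearMap.mulLeft K y₀)) = finrank K LL :=
      (Submodule.equivMapOfInjective _ hf (Subalgebra.toSubmodule LL)).finrank_eq.symm
    rw [← h1]
    refine Submodule.finrank_mono ?_
    rintro _ ⟨ℓ, hℓ, rfl⟩
    exact hW ℓ hℓ
  -- Leads in `Lp`, classes `(0,r)`, `r ≠ 0`
  have h1 : ∀ r : Fin L.m, (r : ℕ) ≠ 0 → ∀ ℓ ∈ LL,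
      ℓ ∈ L.leadK.lead (L.eK (z, r)) (Subalgebra.toSubmodule Lp) := by
    intro r hr0 ℓ hℓ
    obtain ⟨x, hx, hxv, hxc⟩ := hr r hr0 ℓ hℓ
    exact lead_div L hg₁ hy₀ hV (hLp x hx) hxv hxc
  -- the class `(0,0)`
  let r1 : Fin L.m := ⟨1, by omega⟩
  let r2 : Fin L.m := ⟨L.m - 1, by omega⟩
  have h2 : ∀ ℓ ∈ LL, ℓ ∈ L.leadK.lead (L.eK (z, z)) (Subalgebra.toSubmodule Lp) := by
    intro ℓ hℓ
    obtain ⟨a, ha, hav, hac⟩ := h1 r1 (by simp [r1]) ℓ hℓ
    obtain ⟨b, hb, hbv, hbc⟩ := h1 r2 (by simp [r2]; omega) 1 LL.one_mem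
    have h3 := L.c_mul hav hbv
    have hphase : L.ε (L.eK (z, r1)) (L.eK (z, r2)) = 1 := by
      show L.ζ ^ ((ofLex (L.eK (z, r1))).1 * κ (ofLex (L.eK (z, r2))).2) = 1
      rw [L.eK_κ]
      simp [z]
    have hac' : L.c (L.eK (z, r1)) a = ℓ := hac
    have hbc' : L.c (L.eK (z, r2)) b = 1 := hbc
    rw [hphase, one_smul, hac', hbc', mul_one] at h3
    have h4 : ℓ ∈ L.leadK.lead (L.eK (z, r1) + L.eK (z, r2)) (Subalgebra.toSubmodule Lp) :=
      ⟨a * b, Lp.mul_mem ha hb, L.le_vK_mul hav hbv, h3⟩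
    have hcent : L.eK (z, r1) + L.eK (z, r2) - L.eK (z, z) ∈ centLat L.m := by
      constructor
      · have e1 : (ofLex (L.eK (z, r1) + L.eK (z, r2) - L.eK (z, z))).1 = ((L.m : ℕ) : ℤ) := by
          show (ofLex (L.eK (z, r1))).1 + (ofLex (L.eK (z, r2))).1 - (ofLex (L.eK (z, z))).1 = _
          rw [L.eK_fst, L.eK_fst, L.eK_fst]
          simp only [r1, r2, z]
          have : ((L.m - 1 : ℕ) : ℤ) = (L.m : ℤ) - 1 := by
            have : 1 ≤ L.m := hm0
            push_cast [this]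
            ring
          rw [this]
          push_cast
          ring
        rw [e1]
      · have e1 : κ (ofLex (L.eK (z, r1) + L.eK (z, r2) - L.eK (z, z))).2 = 0 := by
          show κ ((ofLex (L.eK (z, r1))).2 + (ofLex (L.eK (z, r2))).2 - (ofLex (L.eK (z, z))).2) = _
          rw [map_sub, map_add, L.eK_κ, L.eK_κ, L.eK_κ]
          simp [z]
        rw [e1]
        exact dvd_zero _
    rwa [L.leadK_eq_of_sub_mem hcent] at h4
  constructor
  · -- the dimension of `Lp`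
    have hG := L.gaussK (Subalgebra.toSubmodule Lp)
    have hsum : ∑ r : Fin L.m, finrank K (L.leadK.lead (L.eK (z, r)) (Subalgebra.toSubmodule Lp)) ≤
        finrank K' (Subalgebra.toSubmodule Lp) := by
      rw [hG, Fintype.sum_prod_type]
      exact Finset.single_le_sum
        (f := fun x : Fin L.m => ∑ y : Fin L.m,
          finrank K (L.leadK.lead (L.eK (x, y)) (Subalgebra.toSubmodule Lp)))
        (fun _ _ => Nat.zero_le _) (Finset.mem_univ z)
    have hlow : ∑ _r : Fin L.m, finrank K LL ≤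
        ∑ r : Fin L.m, finrank K (L.leadK.lead (L.eK (z, r)) (Subalgebra.toSubmodule Lp)) := by
      refine Finset.sum_le_sum fun r _ => hdim _ fun ℓ hℓ => ?_
      by_cases hr0 : (r : ℕ) = 0
      · have : r = z := Fin.ext hr0
        rw [this]
        exact h2 ℓ hℓ
      · exact h1 r hr0 ℓ hℓ
    have hconst : ∑ _r : Fin L.m, finrank K LL = L.m * finrank K LL := by
      simp
    have e0 : finrank K' Lp = finrank K' (Subalgebra.toSubmodule Lp) := rfl
    omega
  · -- the dimension of `Mov'`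
    have hG := L.gaussK Mov'
    have hsum : ∑ r : Fin L.m, finrank K (L.leadK.lead (L.eK (z, r)) Mov') ≤ finrank K' Mov' := by
      rw [hG, Fintype.sum_prod_type]
      exact Finset.single_le_sum
        (f := fun x : Fin L.m => ∑ y : Fin L.m, finrank K (L.leadK.lead (L.eK (x, y)) Mov'))
        (fun _ _ => Nat.zero_le _) (Finset.mem_univ z)
    have hsplit := Finset.add_sum_erase Finset.univ
      (fun r : Fin L.m => finrank K (L.leadK.lead (L.eK (z, r)) Mov')) (Finset.mem_univ z)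
    have hlow : ∑ _r ∈ Finset.univ.erase z, finrank K LL ≤
        ∑ r ∈ Finset.univ.erase z, finrank K (L.leadK.lead (L.eK (z, r)) Mov') := by
      refine Finset.sum_le_sum fun r hr' => hdim' _ fun ℓ hℓ => ?_
      have hr0 : (r : ℕ) ≠ 0 := fun h => (Finset.ne_of_mem_erase hr') (Fin.ext h)
      exact hr r hr0 ℓ hℓ
    have hconst : ∑ _r ∈ Finset.univ.erase z, finrank K LL = (L.m - 1) * finrank K LL := by
      rw [Finset.sum_const, Finset.card_erase_of_mem (Finset.mem_univ z), Finset.card_univ,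
        Fintype.card_fin, smul_eq_mul]
    have hz : finrank K ↥(Ay ⊔ Submodule.span K {e}) ≤
        finrank K (L.leadK.lead (L.eK (z, z)) Mov') := by
      refine Submodule.finrank_mono (sup_le ?_ ?_)
      · rw [hzero]
        exact hAy
      · rw [Submodule.span_singleton_le_iff_mem, hzero]
        exact he
    have hsplit' : finrank K (L.leadK.lead (L.eK (z, z)) Mov') +
        ∑ r ∈ Finset.univ.erase z, finrank K (L.leadK.lead (L.eK (z, r)) Mov') =
        ∑ r : Fin L.m, finrank K (L.leadK.lead (L.eK (z, r)) Mov') := hsplit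
    omega

end Crest.Agent.Kurosh.LiftDefs
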