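/-
S0270 (Kurosh), blueprint v3 §L (helper89): the statement of the main lifting test `MainTestS`, and
`tight_of`, `lift_of` from it (`Orc`, `Val`, `KeyS`, `MainTestS ⇒ TightS, LiftS`).
-/
import Crest.Agent.Kurosh.LiftClear
import Crest.Agent.Kurosh.Key
import Crest.Agent.Kurosh.LiftDefs

set_option autoImplicit false
set_option linter.unusedSectionVars false

namespace Crest.Agent.Kurosh.LiftGlue

open Hensel State Module LU VLead LiftDefs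
open _root_.Crest.Agent.Kurosh.Inv
open _root_.Crest.Agent.Kurosh.Inv.St
open LU.Tw0 LU.Tw Plan

section Def

variable [Tw0] [Tw] (F : Subfield U) [CentF F]

/-- **The main lifting test.** -/
def MainTestS (l : ℕ) : Prop :=
  ∀ (Ls : Lst F) (n : ℕ) [Fact (F ≤ Kn n)] (ρ : Stt n) (r : ℕ) (S : ℕ → Set (An n))
    (TT : Submodule (Kn n) (Fin 2 → An n)),
    l < r → Ctx F Ls n ρ l r S TT → ∀ t1 t2, Adm (pt F n ρ Ls.a) l TT t1 t2 →
    ∀ j, 2 ≤ j → (lv n).m ∣ j → ∀ (X : Stt (n + 1)) (g : ℕ → An (n + 1)) (gl : An (n + 1)),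
      (∀ J, (lv n).lev.PSol (pt F n ρ Ls.a) l J t1 t2 X g) →
      Frame F Ls n ρ l t1 t2 j X gl →
      -- the coefficients of the error at order `j` are in `C_l`, central monomials only
      (∀ n0 : CE, (pt F n ρ Ls.a).β l * (lv n).lev.coeff n0 j
          (ev X (Ls.a l) * gl - gl * (lv n).lev.inc ((pt F n ρ Ls.a).β l)) =
        (lv n).lev.coeff n0 j
          (ev X (Ls.a l) * gl - gl * (lv n).lev.inc ((pt F n ρ Ls.a).β l)) * (pt F n ρ Ls.a).β l) →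
      (∀ n0 : CE, (lv n).lev.coeff n0 j
          (ev X (Ls.a l) * gl - gl * (lv n).lev.inc ((pt F n ρ Ls.a).β l)) ≠ 0 →
        ((lv n).m : ℤ) ∣ κ n0) →
      -- `n0`: a central monomial below all the others
      ∀ n0 : CE, ((lv n).m : ℤ) ∣ κ n0 →
      (∀ n' : CE, (lv n).lev.coeff n' j
          (ev X (Ls.a l) * gl - gl * (lv n).lev.inc ((pt F n ρ Ls.a).β l)) ≠ 0 → n0 ≤ n') →
      ∀ y, Good (pt F n ρ Ls.a) (N n) (Ls.R l) l y →
        finrank (Kn n) (Ay (pt F n ρ Ls.a) l y) + (Ls.R l).q ≤ N n / (Ls.R l).σ ∧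
        ∀ f ∈ Fy (pt F n ρ Ls.a) l y, (∀ a ∈ Ay (pt F n ρ Ls.a) l y, (τ n) (f * a) = 0) →
          (τ n) (f * (lv n).lev.coeff n0 j
            (ev X (Ls.a l) * gl - gl * (lv n).lev.inc ((pt F n ρ Ls.a).β l))) = 0

end Def

/-! ### Effect-free moves of a frame -/

section Moves

open LiftClear

variable {M K A R : Type*} [AddCommGroup M] [DecidableEq M] [Field K] [Ring A] [Algebra K A] [Ring R]
  [Algebra K R] {L : Lev M K A R} {F : Type*} [Field F] [Algebra F K] [Algebra F A]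
  [IsScalarTower F K A] [Algebra F R] [IsScalarTower F K R] {ι : Type*} {P : Pt F K A ι}
  {l j : ℕ} {t1 t2 : ι → A} {X : ι → R} {g : ℕ → R} [FiniteDimensional K A] [CharZero K]

/-- **Moving a frame by effect-free moves at order `j`**: the coefficients of the error at order `j`
change by `e(dL τ_m)`. -/
theorem move_frame {gl : R} (hj : 2 ≤ j) (hex : ∀ J', L.PSol P l J' t1 t2 X g) (hfs : gl ∈ L.FS)
    (hlead : gl - (1 + L.mono (P.w l t1) 0 1 + L.mono (P.w l t2) L.μ₁ 1) ∈ L.Φ.fil 2)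
    (herr : Eg L P l X gl ∈ L.Φ.fil j)
    (hSl : ∀ c ∈ P.KK l, ∀ τ' ∈ P.T l, P.SS l c t1 τ' = 0 ∧ P.SS l c t2 τ' = 0)
    (I : Submodule K (ℕ → A))
    (hH2l : ∀ φ₁ φ₂ : (ℕ → A) →ₗ[K] K, (∀ c ∈ I, φ₁ c = 0) → (∀ c ∈ I, φ₂ c = 0) →
      ∃ τ' ∈ P.T l, ∀ c ∈ P.KK l, P.PP l c t1 τ' = φ₁ c ∧ P.PP l c t2 τ' = φ₂ c)
    (hO : ∀ J', 2 ≤ J' → ∀ (X : ι → R) (g : ℕ → R), L.PSol P l (J' + 1) t1 t2 X g →
      (∀ m : M, ∀ c ∈ I, L.Obs P l m (J' + 1) X g c = 0) ∧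
      (∀ m : M, L.ζ ^ L.κ m = 1 → L.ζ ^ ((J' : ℤ) + 1) = 1 → ∀ c ∈ P.KK l,
        L.Obs P l m (J' + 1) X g c = 0))
    (s : Finset M) (τ : M → ι → A) (hτ : ∀ m, τ m ∈ P.T l)
    (h0 : ∀ m, ∀ c ∈ P.KK l, P.PP l c t1 (τ m) = 0 ∧ P.PP l c t2 (τ m) = 0) :
    ∃ (X₅ : ι → R) (g₅ : ℕ → R) (gl₅ : R), (∀ J', L.PSol P l J' t1 t2 X₅ g₅) ∧ gl₅ ∈ L.FS ∧
      gl₅ - (1 + L.mono (P.w l t1) 0 1 + L.mono (P.w l t2) L.μ₁ 1) ∈ L.Φ.fil 2 ∧
      Eg L P l X₅ gl₅ ∈ L.Φ.fil j ∧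
      ∀ m : M, L.coeff m j (Eg L P l X₅ gl₅) = L.coeff m j (Eg L P l X gl)
        + if m ∈ s then P.e l (P.dL l (τ m)) else 0 := by
  classical
  obtain ⟨Sa', tt', ww', h₄⟩ := TestRun.moves_T0 (j := j) hj (hex _)
    (fun m c _ => TestRun.obs_eq_zero_of_exact hex m _ c) hSl s τ hτ h0
  obtain ⟨X₅, g₅, hex₅, hX₅, hg₅⟩ := Lev.exists_limit (L := L) (P := P) (J1 := j + 1) (by omega) h₄
    I hSl hH2l (fun J' hJ' X' g' hs _ _ => hO J' (by omega) X' g' hs)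
  set y : M → A := fun m => P.w l (τ m) with hy
  set gl₅ : R := gl + ∑ m ∈ s, L.mono (y m) m j with hgl₅
  have hgl₅mem : gl₅ - gl ∈ L.Φ.fil j := by
    simp only [hgl₅, add_sub_cancel_left]
    exact L.sum_mono_mem _ _ _
  set X₄ := L.addX (L.addX X s τ j) Sa' tt' (j + 1) with hX₄
  have hX₅₃ : ∀ v, X₅ v - X v ∈ L.Φ.fil j := by
    intro v
    have h1 : X₅ v - X₄ v ∈ L.Φ.fil j := L.Φ.anti (Nat.le_succ _) (hX₅ v)
    have h2 : X₄ v - L.addX X s τ j v ∈ L.Φ.fil j := by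
      simp only [hX₄, Lev.addX, add_sub_cancel_left]
      exact L.Φ.anti (Nat.le_succ _) (L.sum_mono_mem _ _ _)
    have h3 : L.addX X s τ j v - X v ∈ L.Φ.fil j := by
      simp only [Lev.addX, add_sub_cancel_left]
      exact L.sum_mono_mem _ _ _
    have := add_mem (add_mem h1 h2) h3
    simpa using this
  have hcoefX : ∀ (m : M) (v : ι), L.coeff m j (X₅ v - X v) = if m ∈ s then τ m v else 0 := by
    intro m v
    have h1 : L.coeff m j (X₅ v - X₄ v) = 0 := L.coeff_fil (hX₅ v) (by omega)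
    have h2 : L.coeff m j (X₄ v - L.addX X s τ j v) = 0 := by
      simp only [hX₄, Lev.addX, add_sub_cancel_left]
      exact L.coeff_sum_mono_of_ne _ _ _ (by omega)
    have h3 : L.coeff m j (L.addX X s τ j v - X v) = if m ∈ s then τ m v else 0 := by
      simp only [Lev.addX, add_sub_cancel_left]
      exact L.coeff_sum_mono _ _ _ _
    have e : X₅ v - X v = (X₅ v - X₄ v) + (X₄ v - L.addX X s τ j v)
        + (L.addX X s τ j v - X v) := by abel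
    rw [e, map_add, map_add, h1, h2, h3, zero_add, zero_add]
  have hcoefg : ∀ m : M, L.coeff m j (gl₅ - gl) = if m ∈ s then y m else 0 := by
    intro m
    simp only [hgl₅, add_sub_cancel_left]
    exact L.coeff_sum_mono _ _ _ _
  have hX3f : ∀ v, X v - L.inc (P.ρ v) ∈ L.Φ.fil 1 := by
    intro v
    have a1 := L.Φ.anti (Nat.le_succ 1) ((hex 0).leadX v)
    have a2 := L.mono_mem (t1 v) 0 1
    have a3 := L.mono_mem (t2 v) L.μ₁ 1
    have := add_mem (add_mem a1 a2) a3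
    convert this using 1
    abel
  have hgl3f : gl - 1 ∈ L.Φ.fil 1 := by
    have a1 := L.Φ.anti (Nat.le_succ 1) hlead
    have a2 := L.mono_mem (P.w l t1) 0 1
    have a3 := L.mono_mem (P.w l t2) L.μ₁ 1
    have := add_mem (add_mem a1 a2) a3
    convert this using 1
    abel
  have hcoef : ∀ m : M, L.coeff m j (Eg L P l X₅ gl₅) = L.coeff m j (Eg L P l X gl)
      + if m ∈ s then P.dL l (τ m) + (P.β l * y m - y m * P.β l) else 0 := by
    intro m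
    rw [coeff_Eg_first_order (L := L) (P := P) (l := l) (by omega) hX3f hgl3f hX₅₃ hgl₅mem m, hcoefg m]
    by_cases hm : m ∈ s
    · rw [if_pos hm, if_pos hm]
      congr 2
      congr 1
      funext v
      rw [hcoefX m v, if_pos hm]
    · rw [if_neg hm, if_neg hm]
      have e : (fun v => L.coeff m j (X₅ v - X v)) = 0 := by
        funext v
        rw [hcoefX m v, if_neg hm]
        rfl
      rw [e, map_zero, mul_zero, zero_mul, sub_zero, add_zero, add_zero]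
  refine ⟨X₅, g₅, gl₅, hex₅, add_mem hfs (L.sum_mono_mem_FS _ _ _), ?_,
    OrcGlue.E_mem_of_close (by omega) hX3f hgl3f hX₅₃ hgl₅mem herr, fun m => ?_⟩
  · have a2 := L.Φ.anti hj hgl₅mem
    have := add_mem a2 hlead
    convert this using 1
    abel
  · rw [hcoef m]
    by_cases hms : m ∈ s
    · rw [if_pos hms, if_pos hms, P.dL_add_comm_w]
    · rw [if_neg hms, if_neg hms]

end Moves

/-! ### The top level -/

section Top

open LiftClear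

variable [Tw0] [Tw] {F : Subfield U} [CentF F]
variable {Ls : Lst F} {n : ℕ} [Fact (F ≤ Kn n)] {ρ : Stt n} {l r : ℕ} {S : ℕ → Set (An n)}
  {TT : Submodule (Kn n) (Fin 2 → An n)} {t1 t2 : Fin 2 → An n}

lemma ctx_pred (hC : Ctx F Ls n ρ (l + 1) r S TT) : Ctx F Ls n ρ l r S TT :=
  ⟨hC.valid.mono (Nat.le_succ l), hC.above, hC.opt⟩

lemma adm_pred (hC : Ctx F Ls n ρ (l + 1) r S TT) (hA : Adm (pt F n ρ Ls.a) (l + 1) TT t1 t2) :
    Adm (pt F n ρ Ls.a) l TT t1 t2 :=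
  have hV := hC.valid
  have hr : l + 1 ≤ r := hV.le
  have hH2' := fun φ₁ φ₂ hφ₁ hφ₂ => OrcGlue.H2_pred hV hA φ₁ φ₂ hφ₁ hφ₂
  { mem1 := hA.mem1
    mem2 := hA.mem2
    S1 := hV.TT_S l (by omega) t1 hA.mem1
    S2 := hV.TT_S l (by omega) t2 hA.mem2
    H1 := fun c hc => by
      rw [← (pt F n ρ Ls.a).PP_of_le (Nat.le_succ l) hc]
      exact hA.H1 c ((pt F n ρ Ls.a).KK_mono (Nat.le_succ l) hc)
    H2 := fun φ₁ φ₂ hφ₁ hφ₂ => by
      obtain ⟨t', ht', hk⟩ := hH2' φ₁ φ₂ hφ₁ hφ₂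
      refine ⟨t', ht', fun c hc => ?_⟩
      rw [← (pt F n ρ Ls.a).PP_of_le (Nat.le_succ l) hc,
        ← (pt F n ρ Ls.a).PP_of_le (Nat.le_succ l) hc]
      exact hk c hc
    indep := hA.indep }

lemma hTT_succ (hC : Ctx F Ls n ρ (l + 1) r S TT) : TT ≤ (pt F n ρ Ls.a).T (l + 1) :=
  hC.valid.TT_le.trans ((pt F n ρ Ls.a).T_anti hC.valid.le)

/-- The first half of the oracle of the prefix `l+1` needs only the key lemma. -/
theorem orc_first (h1 : Orc F l) (h3 : KeyS F l) (hC : Ctx F Ls n ρ (l + 1) r S TT)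
    (hA : Adm (pt F n ρ Ls.a) (l + 1) TT t1 t2) {J : ℕ} (hJ : 2 ≤ J) {X : Stt (n + 1)}
    {g : ℕ → An (n + 1)} (hP : (lv n).lev.PSol (pt F n ρ Ls.a) (l + 1) (J + 1) t1 t2 X g) (m : CE)
    {c : ℕ → An n} (hc : c ∈ IIT (pt F n ρ Ls.a) (l + 1) TT) :
    (lv n).lev.Obs (pt F n ρ Ls.a) (l + 1) m (J + 1) X g c = 0 := by
  have hV := hC.valid
  have hr : l + 1 ≤ r := hV.le
  have hCl := ctx_pred hC
  have hTT := hTT_succ hC
  have hAl := adm_pred hC hA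
  have hH2' := fun φ₁ φ₂ hφ₁ hφ₂ => OrcGlue.H2_pred hV hA φ₁ φ₂ hφ₁ hφ₂
  have hO := h1 Ls n ρ r S TT hCl t1 t2 hAl
  obtain ⟨X', g', hex, hlead, hE, hPart1, -⟩ := OrcGlue.first_error (L := (lv n).lev)
    (P := pt F n ρ Ls.a) (l := l) (t1 := t1) (t2 := t2) (J := J)
    (fun c hc τ' hτ' => ⟨hA.S1 c hc τ' hτ', hA.S2 c hc τ' hτ'⟩)
    (fun c hc τ' hτ' => ⟨hAl.S1 c hc τ' hτ', hAl.S2 c hc τ' hτ'⟩)
    (IIT (pt F n ρ Ls.a) l TT) (fun c hc => hc.1)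
    (fun φ₁ φ₂ hφ₁ hφ₂ => by
      obtain ⟨t', ht', hk⟩ := hAl.H2 φ₁ φ₂ hφ₁ hφ₂
      exact ⟨t', (pt F n ρ Ls.a).T_anti (Nat.le_succ l) (hTT ht'), hk⟩)
    (fun φ₁ φ₂ hφ₁ hφ₂ => by
      obtain ⟨t', ht', hk⟩ := hH2' φ₁ φ₂ hφ₁ hφ₂
      exact ⟨t', hTT ht', hk⟩)
    hO hJ hP
  have hFrame : Frame F Ls n ρ l t1 t2 (J + 1) X' (g' l) :=
    ⟨(hex 0).fsg l, hlead, hE⟩
  rw [hPart1 c hc.1 (fun τ' hτ' => ⟨hc.2 t1 hA.mem1 τ' hτ', hc.2 t2 hA.mem2 τ' hτ'⟩) m]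
  have hcl := OrcGlue.last_mem_ppl_of_mem_IIT hV hc
  set G := (lv n).lev.coeff m (J + 1) ((lv n).lev.E (pt F n ρ Ls.a) X' g' l) with hG
  have hle : PPl (pt F n ρ Ls.a) S l ≤
      LinearMap.ker ((τ n) ∘ₗ LinearMap.mulRight (Kn n) G) := by
    refine iSup₂_le fun y hy p hp => ?_
    have hgood := hV.S_good l (by omega) y hy
    exact (h3 Ls n ρ r S TT (by omega) hCl t1 t2 hAl y hgood).2 (J + 1) (by omega) X' g' (g' l) hex
      hFrame m p hp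
  exact hle hcl

/-- Orders not divisible by `m` are passed: a partial solution of the prefix `l+1` of order `m`. -/
theorem exists_psol_m (h1 : Orc F l) (h3 : KeyS F l) (hC : Ctx F Ls n ρ (l + 1) r S TT)
    (hA : Adm (pt F n ρ Ls.a) (l + 1) TT t1 t2) (J : ℕ) (hJ : 2 ≤ J) (hJm : J + 1 ≤ (lv n).m) :
    ∃ (X : Stt (n + 1)) (g : ℕ → An (n + 1)),
      (lv n).lev.PSol (pt F n ρ Ls.a) (l + 1) (J + 1) t1 t2 X g := by
  have hTT := hTT_succ hC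
  induction J, hJ using Nat.le_induction with
  | base =>
    obtain ⟨Sa, tt, ww, -, h0⟩ := Lev.exists_start (L := (lv n).lev) (P := pt F n ρ Ls.a)
      (k := l + 1) (hTT hA.mem1) (hTT hA.mem2)
      (fun c hc τ' hτ' => ⟨hA.S1 c hc τ' hτ', hA.S2 c hc τ' hτ'⟩) hA.H1
    exact ⟨_, _, h0⟩
  | succ J hJ ih =>
    obtain ⟨X, g, h⟩ := ih (by omega)
    obtain ⟨u, τ, Sa, tt, ww, -, -, -, h2⟩ := h.pass hJ (IIT (pt F n ρ Ls.a) (l + 1) TT)
      (fun c hc τ' hτ' => ⟨hA.S1 c hc τ' hτ', hA.S2 c hc τ' hτ'⟩)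
      (fun φ₁ φ₂ hφ₁ hφ₂ => by
        obtain ⟨t', ht', hk⟩ := hA.H2 φ₁ φ₂ hφ₁ hφ₂
        exact ⟨t', hTT ht', hk⟩)
      (fun m c hc => orc_first h1 h3 hC hA hJ h m hc)
      (fun m _ hJ1 => by
        exfalso
        have hζ := (lv n).ζ_prim
        have h5 : (((lv n).m : ℕ) : ℤ) ∣ ((J : ℤ) + 1) := by
          rw [← hζ.zpow_eq_one_iff_dvd, ← (lv n).lev_ζ]
          exact hJ1
        have h6 : (lv n).m ∣ J + 1 := by exact_mod_cast h5
        have h7 := Nat.le_of_dvd (by omega) h6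
        omega)
    exact ⟨_, _, h2⟩

/-- A frame with first error at order `m`, for a pair admissible for the prefix `l+1`. -/
theorem exists_frame_m (h1 : Orc F l) (h3 : KeyS F l) (hC : Ctx F Ls n ρ (l + 1) r S TT)
    (hA : Adm (pt F n ρ Ls.a) (l + 1) TT t1 t2) :
    ∃ (X : Stt (n + 1)) (g : ℕ → An (n + 1)) (gl : An (n + 1)),
      (∀ J, (lv n).lev.PSol (pt F n ρ Ls.a) l J t1 t2 X g) ∧
      Frame F Ls n ρ l t1 t2 (lv n).m X gl := by
  have hV := hC.valid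
  have hCl := ctx_pred hC
  have hTT := hTT_succ hC
  have hAl := adm_pred hC hA
  have hH2' := fun φ₁ φ₂ hφ₁ hφ₂ => OrcGlue.H2_pred hV hA φ₁ φ₂ hφ₁ hφ₂
  have hO := h1 Ls n ρ r S TT hCl t1 t2 hAl
  have hm0 : 3 ≤ (lv n).m := by
    have := Tw.m_big n
    nlinarith
  obtain ⟨J, hJ⟩ : ∃ J, (lv n).m = J + 1 := ⟨(lv n).m - 1, by omega⟩
  obtain ⟨X, g, hP⟩ := exists_psol_m h1 h3 hC hA J (by omega) (by omega)
  obtain ⟨X', g', hex, hlead, hE, -, -⟩ := OrcGlue.first_error (L := (lv n).lev)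
    (P := pt F n ρ Ls.a) (l := l) (t1 := t1) (t2 := t2) (J := J)
    (fun c hc τ' hτ' => ⟨hA.S1 c hc τ' hτ', hA.S2 c hc τ' hτ'⟩)
    (fun c hc τ' hτ' => ⟨hAl.S1 c hc τ' hτ', hAl.S2 c hc τ' hτ'⟩)
    (IIT (pt F n ρ Ls.a) l TT) (fun c hc => hc.1)
    (fun φ₁ φ₂ hφ₁ hφ₂ => by
      obtain ⟨t', ht', hk⟩ := hAl.H2 φ₁ φ₂ hφ₁ hφ₂
      exact ⟨t', (pt F n ρ Ls.a).T_anti (Nat.le_succ l) (hTT ht'), hk⟩)
    (fun φ₁ φ₂ hφ₁ hφ₂ => by
      obtain ⟨t', ht', hk⟩ := hH2' φ₁ φ₂ hφ₁ hφ₂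
      exact ⟨t', hTT ht', hk⟩)
    hO (by omega) hP
  refine ⟨X', g', g' l, hex, ⟨(hex 0).fsg l, hlead, ?_⟩⟩
  rw [hJ]
  exact hE

/-- The projection of the coefficients of a frame to the centraliser. -/
theorem project_frame {j : ℕ} (hj : 2 ≤ j) {X : Stt (n + 1)} {g : ℕ → An (n + 1)} {gl : An (n + 1)}
    (hex : ∀ J, (lv n).lev.PSol (pt F n ρ Ls.a) l J t1 t2 X g)
    (hF : Frame F Ls n ρ l t1 t2 j X gl) :
    ∃ g2 : An (n + 1), Frame F Ls n ρ l t1 t2 j X g2 ∧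
      ∀ n' : CE, (lv n).lev.coeff n' j
          (ev X (Ls.a l) * g2 - g2 * (lv n).lev.inc ((pt F n ρ Ls.a).β l)) =
        (pt F n ρ Ls.a).e l ((lv n).lev.coeff n' j
          (ev X (Ls.a l) * gl - gl * (lv n).lev.inc ((pt F n ρ Ls.a).β l))) := by
  obtain ⟨g2, hfs2, hdiff, herr2, hcoef⟩ := (lv n).lev.exists_frame (P := pt F n ρ Ls.a) (i := l)
    (j := j) (by omega) hF.fs (hex 0).fsX (KeyV3.X_sub_inc hex) (KeyV3.Frame.sub_one hF) hF.err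
  refine ⟨g2, ⟨hfs2, ?_, herr2⟩, hcoef⟩
  have h3 := add_mem ((lv n).lev.Φ.anti hj hdiff) hF.lead
  convert h3 using 1
  abel

/-- The support of the error of a frame is finite. -/
lemma frame_finite {j : ℕ} {X : Stt (n + 1)} {g : ℕ → An (n + 1)} {gl : An (n + 1)}
    (hex : ∀ J, (lv n).lev.PSol (pt F n ρ Ls.a) l J t1 t2 X g)
    (hF : Frame F Ls n ρ l t1 t2 j X gl) :
    {n' : CE | (lv n).lev.coeff n' j
      (ev X (Ls.a l) * gl - gl * (lv n).lev.inc ((pt F n ρ Ls.a).β l)) ≠ 0}.Finite := by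
  have hEFS : ev X (Ls.a l) * gl - gl * (lv n).lev.inc ((pt F n ρ Ls.a).β l) ∈ (lv n).lev.FS :=
    sub_mem (mul_mem ((lv n).lev.ev_mem_FS (hex 0).fsX _) hF.fs)
      (mul_mem hF.fs ((lv n).lev.inc_mem_FS _))
  exact (((lv n).lev.FS_iff _).mp hEFS).2 j

/-- The two clearings: an arbitrary frame at an order divisible by `m` is replaced by a frame whose
coefficients lie in `C_l`, at central monomials only, with the same pairings with `𝔸_l`. -/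
theorem normal_frame (h1 : Orc F l) (h3 : KeyS F l) (hC : Ctx F Ls n ρ (l + 1) r S TT)
    (hA : Adm (pt F n ρ Ls.a) (l + 1) TT t1 t2) {j : ℕ} (hj : 2 ≤ j) (hmj : (lv n).m ∣ j)
    {X : Stt (n + 1)} {g : ℕ → An (n + 1)} {gl : An (n + 1)}
    (hex : ∀ J, (lv n).lev.PSol (pt F n ρ Ls.a) l J t1 t2 X g)
    (hF : Frame F Ls n ρ l t1 t2 j X gl) :
    ∃ (X₂ : Stt (n + 1)) (g₂ : ℕ → An (n + 1)) (gl₂ : An (n + 1)),
      (∀ J, (lv n).lev.PSol (pt F n ρ Ls.a) l J t1 t2 X₂ g₂) ∧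
      Frame F Ls n ρ l t1 t2 j X₂ gl₂ ∧
      (∀ n0 : CE, (pt F n ρ Ls.a).β l * (lv n).lev.coeff n0 j
          (ev X₂ (Ls.a l) * gl₂ - gl₂ * (lv n).lev.inc ((pt F n ρ Ls.a).β l)) =
        (lv n).lev.coeff n0 j
          (ev X₂ (Ls.a l) * gl₂ - gl₂ * (lv n).lev.inc ((pt F n ρ Ls.a).β l)) * (pt F n ρ Ls.a).β l) ∧
      (∀ n0 : CE, (lv n).lev.coeff n0 j
          (ev X₂ (Ls.a l) * gl₂ - gl₂ * (lv n).lev.inc ((pt F n ρ Ls.a).β l)) ≠ 0 →
        ((lv n).m : ℤ) ∣ κ n0) ∧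
      (∀ n0 : CE, ((lv n).m : ℤ) ∣ κ n0 → ∀ c ∈ Annl (pt F n ρ Ls.a) l,
        (τ n) (c * (lv n).lev.coeff n0 j
          (ev X₂ (Ls.a l) * gl₂ - gl₂ * (lv n).lev.inc ((pt F n ρ Ls.a).β l))) =
        (τ n) (c * (lv n).lev.coeff n0 j
          (ev X (Ls.a l) * gl - gl * (lv n).lev.inc ((pt F n ρ Ls.a).β l)))) := by
  obtain ⟨X₂, g₂, gl₂, hex₂, hF₂, hnc, hpair⟩ := clear_first_error h1 h3 Ls n ρ r S TT hC t1 t2 hA j hj
    hmj X g gl hex hF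
  obtain ⟨g3, hF3, hc3⟩ := project_frame (Ls := Ls) hj hex₂ hF₂
  refine ⟨X₂, g₂, g3, hex₂, hF3, fun n0 => ?_, fun n0 hn0 => ?_, fun n0 hn0 c hc => ?_⟩
  · rw [hc3 n0]
    exact (pt F n ρ Ls.a).e_mem l _
  · by_contra hne
    apply hn0
    rw [hc3 n0, hnc n0 hne, map_zero]
  · rw [← hpair n0 hn0 c hc, hc3 n0]
    exact (pt F n ρ Ls.a).τ_cent_e (State.mem_cent.1 hc.1) _

/-- **The tight test.** -/
theorem tight_of_main (l : ℕ) (h1 : Orc F l) (_h2 : Val F l l) (h3 : KeyS F l)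
    (hM : MainTestS F l) : TightS F l := by
  classical
  intro Ls n _ ρ r S TT hC t1 t2 hA y hy
  obtain ⟨X, g, gl, hex, hF⟩ := exists_frame_m h1 h3 hC hA
  have hm0 : 3 ≤ (lv n).m := by
    have := Tw.m_big n
    nlinarith
  obtain ⟨X₂, g₂, gl₂, hex₂, hF₂, hcomm, hcent, -⟩ := normal_frame h1 h3 hC hA (j := (lv n).m)
    (by omega) dvd_rfl hex hF
  have hlr : l < r := hC.valid.le
  have hfin := frame_finite (Ls := Ls) hex₂ hF₂
  -- the lowest monomial of the support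
  obtain ⟨n1, hn1, hn1'⟩ : ∃ n1 : CE, ((lv n).m : ℤ) ∣ κ n1 ∧
      ∀ n' : CE, (lv n).lev.coeff n' (lv n).m
        (ev X₂ (Ls.a l) * gl₂ - gl₂ * (lv n).lev.inc ((pt F n ρ Ls.a).β l)) ≠ 0 → n1 ≤ n' := by
    by_cases hemp : {n' : CE | (lv n).lev.coeff n' (lv n).m
        (ev X₂ (Ls.a l) * gl₂ - gl₂ * (lv n).lev.inc ((pt F n ρ Ls.a).β l)) ≠ 0}.Nonempty
    · obtain ⟨n1, hn1, hmin⟩ := Set.exists_min_image _ id hfin hemp
      exact ⟨n1, hcent n1 hn1, fun n' hn' => hmin n' hn'⟩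
    · refine ⟨0, by simp, fun n' hn' => ?_⟩
      exact absurd ⟨n', hn'⟩ hemp
  exact (hM Ls n ρ r S TT hlr (ctx_pred hC) t1 t2 (adm_pred hC hA) (lv n).m (by omega) dvd_rfl
    X₂ g₂ gl₂ hex₂ hF₂ hcomm hcent n1 hn1 hn1' y hy).1

/-- **The Lifting Lemma.** -/
theorem lift_of_main (l : ℕ) (h1 : Orc F l) (_h2 : Val F l l) (h3 : KeyS F l)
    (hM : MainTestS F l) : LiftS F l := by
  classical
  intro Ls n _ ρ r S TT hC t1 t2 hA j hj hmj X g gl hex hF n0 hn0 c hc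
  obtain ⟨X₂, g₂, gl₂, hex₂, hF₂, hcomm, hcent, hpair⟩ := normal_frame h1 h3 hC hA hj hmj hex hF
  rw [← hpair n0 hn0 c hc]
  have hV := hC.valid
  have hlr : l < r := hV.le
  have hCl := ctx_pred hC
  have hAl := adm_pred hC hA
  have hTT := hTT_succ hC
  have hSl : ∀ c ∈ (pt F n ρ Ls.a).KK l, ∀ τ' ∈ (pt F n ρ Ls.a).T l,
      (pt F n ρ Ls.a).SS l c t1 τ' = 0 ∧ (pt F n ρ Ls.a).SS l c t2 τ' = 0 :=
    fun c hc τ' hτ' => ⟨hAl.S1 c hc τ' hτ', hAl.S2 c hc τ' hτ'⟩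
  have hfin := frame_finite (Ls := Ls) hex₂ hF₂
  set Er := ev X₂ (Ls.a l) * gl₂ - gl₂ * (lv n).lev.inc ((pt F n ρ Ls.a).β l) with hEr
  -- the bad monomials
  by_contra hbad
  set B : Set CE := {n' | (lv n).lev.coeff n' j Er ≠ 0 ∧
    ∃ c ∈ Annl (pt F n ρ Ls.a) l, (τ n) (c * (lv n).lev.coeff n' j Er) ≠ 0} with hB
  have hBfin : B.Finite := hfin.subset fun n' hn' => hn'.1
  have hBne : B.Nonempty := by
    refine ⟨n0, ?_, c, hc, hbad⟩
    intro h0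
    apply hbad
    rw [h0, mul_zero, map_zero]
  obtain ⟨n1, hn1, hmin⟩ := Set.exists_min_image _ id hBfin hBne
  obtain ⟨hn1ne, c1, hc1, hc1ne⟩ := hn1
  -- the lower monomials are in `Mov_l`
  have hlow : ∀ n' : CE, n' < n1 → (lv n).lev.coeff n' j Er ∈ (pt F n ρ Ls.a).Mov l := by
    intro n' hn'
    by_cases hne : (lv n).lev.coeff n' j Er = 0
    · rw [hne]
      exact zero_mem _
    have hnB : n' ∉ B := fun h => absurd (hmin n' h) (not_le.2 hn')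
    have hpz : ∀ c ∈ Annl (pt F n ρ Ls.a) l, (τ n) (c * (lv n).lev.coeff n' j Er) = 0 := by
      intro c hc
      by_contra h
      exact hnB ⟨hne, c, hc, h⟩
    have hs := ((pt F n ρ Ls.a).solvable_iff (l + 1)
      (fun i => if i = l then (lv n).lev.coeff n' j Er else 0)).2 (fun c hc => by
        rw [Finset.sum_eq_single l]
        · rw [if_pos rfl]
          exact hpz _ (OrcGlue.last_mem_annl _ hc)
        · intro i _ hi
          simp [hi]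
        · simp)
    obtain ⟨t, w, ht⟩ := hs
    have hcomm' := hcomm n'
    have he := (pt F n ρ Ls.a).e_of_mem_cent l hcomm'
    refine (pt F n ρ Ls.a).mem_Mov.2 ⟨t, fun i hi => ?_, ?_⟩
    · have h1 := ht i (by omega)
      rw [if_neg (ne_of_lt hi), add_eq_zero_iff_eq_neg] at h1
      rw [h1, map_neg, (pt F n ρ Ls.a).e_comm, neg_zero]
    · have h1 := ht l (by omega)
      rw [if_pos rfl] at h1
      have h2 : (pt F n ρ Ls.a).dL l t = (lv n).lev.coeff n' j Er -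
          ((pt F n ρ Ls.a).β l * w l - w l * (pt F n ρ Ls.a).β l) := eq_sub_of_add_eq h1
      rw [h2, map_sub, (pt F n ρ Ls.a).e_comm, sub_zero, he]
  -- the moves
  have hch : ∀ n' : CE, ∃ τ' ∈ (pt F n ρ Ls.a).T l,
      (n' < n1 → (pt F n ρ Ls.a).e l ((pt F n ρ Ls.a).dL l τ') = - (lv n).lev.coeff n' j Er) ∧
      ∀ c ∈ (pt F n ρ Ls.a).KK l, (pt F n ρ Ls.a).PP l c t1 τ' = 0 ∧
        (pt F n ρ Ls.a).PP l c t2 τ' = 0 := by
    intro n'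
    by_cases hn' : n' < n1
    · obtain ⟨τ', h1, h2, h3⟩ := AdmExist.exists_T0_of_mem_Mov _ hAl hTT (neg_mem (hlow n' hn'))
      exact ⟨τ', h1, fun _ => h2, h3⟩
    · exact ⟨0, zero_mem _, fun h => absurd h hn', fun c _ =>
        ⟨Lev.PP_zero_right c t1, Lev.PP_zero_right c t2⟩⟩
  choose τ₂ hτ₂T hτ₂e hτ₂0 using hch
  set s : Finset CE := hfin.toFinset.filter (· < n1) with hs
  have hs_mem : ∀ n', n' ∈ s ↔ (lv n).lev.coeff n' j Er ≠ 0 ∧ n' < n1 := by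
    intro n'
    rw [hs, Finset.mem_filter, Set.Finite.mem_toFinset]
    rfl
  obtain ⟨X₅, g₅, gl₅, hex₅, hfs₅, hlead₅, herr₅, hcoef₅⟩ := move_frame (L := (lv n).lev)
    (P := pt F n ρ Ls.a) (l := l) (j := j) (X := X₂) (g := g₂) (gl := gl₂) (t1 := t1) (t2 := t2)
    hj hex₂ hF₂.fs hF₂.lead hF₂.err hSl (IIT (pt F n ρ Ls.a) l TT)
    (fun φ₁ φ₂ hφ₁ hφ₂ => by
      obtain ⟨t', ht', hk⟩ := hAl.H2 φ₁ φ₂ hφ₁ hφ₂
      exact ⟨t', (pt F n ρ Ls.a).T_anti (Nat.le_succ l) (hTT ht'), hk⟩)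
    (h1 Ls n ρ r S TT hCl t1 t2 hAl) s τ₂ hτ₂T hτ₂0
  have hF₅ : Frame F Ls n ρ l t1 t2 j X₅ gl₅ := ⟨hfs₅, hlead₅, herr₅⟩
  have hc₅ : ∀ n' : CE, (lv n).lev.coeff n' j
      (ev X₅ (Ls.a l) * gl₅ - gl₅ * (lv n).lev.inc ((pt F n ρ Ls.a).β l)) =
      if n' < n1 then 0 else (lv n).lev.coeff n' j Er := by
    intro n'
    have h5 : (lv n).lev.coeff n' j
        (ev X₅ (Ls.a l) * gl₅ - gl₅ * (lv n).lev.inc ((pt F n ρ Ls.a).β l)) = _ := hcoef₅ n'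
    rw [h5]
    show (lv n).lev.coeff n' j Er + _ = _
    by_cases hn' : n' < n1
    · rw [if_pos hn']
      by_cases hne : (lv n).lev.coeff n' j Er = 0
      · rw [if_neg (fun h => ((hs_mem n').1 h).1 hne), hne, add_zero]
      · rw [if_pos ((hs_mem n').2 ⟨hne, hn'⟩), hτ₂e n' hn', add_neg_cancel]
    · rw [if_neg hn', if_neg (fun h => hn' ((hs_mem n').1 h).2), add_zero]
  -- the witness
  obtain ⟨y, hy⟩ := hV.S_ne l (Nat.lt_succ_self l)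
  have hgood := hV.S_good l (Nat.lt_succ_self l) y hy
  obtain ⟨htight, hforth⟩ := hM Ls n ρ r S TT hlr hCl t1 t2 hAl j hj hmj X₅ g₅ gl₅ hex₅ hF₅
    (fun n' => by
      rw [hc₅ n']
      split_ifs
      · simp
      · exact hcomm n')
    (fun n' hn' => by
      rw [hc₅ n'] at hn'
      split_ifs at hn'
      · exact absurd rfl hn'
      · exact hcent n' hn')
    n1 (hcent n1 hn1ne)
    (fun n' hn' => by
      rw [hc₅ n'] at hn'
      split_ifs at hn' with h7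
      · exact absurd rfl hn'
      · exact not_lt.1 h7)
    y hgood
  -- the decomposition of `c1`
  obtain ⟨p, hp, f, hf, hfa, rfl⟩ := decomp_Annl (pt F n ρ Ls.a) hV hy htight c1 hc1
  have hval : (lv n).lev.coeff n1 j
      (ev X₅ (Ls.a l) * gl₅ - gl₅ * (lv n).lev.inc ((pt F n ρ Ls.a).β l)) =
      (lv n).lev.coeff n1 j Er := by
    rw [hc₅ n1, if_neg (lt_irrefl _)]
  have hfz := hforth f hf hfa
  rw [hval] at hfz
  have hle : PPl (pt F n ρ Ls.a) S l ≤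
      LinearMap.ker ((τ n) ∘ₗ LinearMap.mulRight (Kn n) ((lv n).lev.coeff n1 j
        (ev X₅ (Ls.a l) * gl₅ - gl₅ * (lv n).lev.inc ((pt F n ρ Ls.a).β l)))) := by
    refine iSup₂_le fun y hy p hp => ?_
    have hgood := hV.S_good l (Nat.lt_succ_self l) y hy
    exact (h3 Ls n ρ r S TT hlr hCl t1 t2 hAl y hgood).2 j hj X₅ g₅ gl₅ hex₅ hF₅ n1 p hp
  have hpz : (τ n) (p * (lv n).lev.coeff n1 j Er) = 0 := by
    rw [← hval]
    exact hle hp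
  apply hc1ne
  rw [add_mul, map_add, hfz, hpz, add_zero]

end Top

end Crest.Agent.Kurosh.LiftGlue
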