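/-
S0270 (Kurosh), blueprint v3 §L (helper41): (G), (G') of helper94's `LiftStubs3`.
`TestLifts.conj` (transport by a `U ≡ 1`), `TestLeads.of_lifts` (the class bound turns the lifts into an
upper bound of the leads), `TestLifts.finrank_le` (`m dim F0 ≤ dim Ft`), `TestLifts.ne_zero`.
-/
import Crest.Agent.Kurosh.LiftMov

set_option autoImplicit false
set_option linter.unusedSectionVars false

namespace Crest.Agent.Kurosh.LiftDefs

open Hensel State Module LU VLead

variable {K A K' R : Type*} [Field K] [DivisionRing A] [Algebra K A] [Field K'] [DivisionRing R]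
  [Algebra K R] [Algebra K' R] [Algebra K K'] [IsScalarTower K K' R] {τ : A →ₗ[K] K}
  {L : Lv K A K' R τ}

private lemma mem_fil_of_VL' {x : R} {g : GLv} {y : A} (h : VL L x g y) {j : ℕ}
    (hj : (j : ℤ) ≤ (ofLex g).1) : x ∈ L.lev.Φ.fil j := by
  rw [L.lev_fil]
  intro a ha
  by_contra hlt
  have h1 : a < g := lt_of_fst_lt (lt_of_lt_of_le (not_le.1 hlt) hj)
  exact ha (h.lt a h1)

private lemma c_of_fil' {x : R} {j : ℕ} (hx : x ∈ L.lev.Φ.fil j) {h : GLv} (hh : (ofLex h).1 < j) :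
    L.c h x = 0 := by
  by_contra hne
  have := (L.lev_fil j x).1 hx h hne
  omega

private lemma vl_of_sub_one' {u : R} (hu : u - 1 ∈ L.lev.Φ.fil 1) : VL L u 0 1 := by
  have h1 : VL L (u - 1) 0 0 := by
    refine ⟨fun h hh => c_of_fil' hu ?_, c_of_fil' hu ?_⟩
    · have h2 : (ofLex h).1 ≤ (ofLex (0 : GLv)).1 := fst_mono hh.le
      have h3 : (ofLex (0 : GLv)).1 = 0 := rfl
      rw [h3] at h2
      push_cast
      omega
    · show (0 : ℤ) < ((1 : ℕ) : ℤ)
      norm_num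
  have h2 := h1.add VL.one
  simpa using h2

/-- Conjugation by `U ≡ 1` modulo `fil (j + 1)`. -/
lemma conj_sub_mem {U x : R} {j : ℕ} (hU : U - 1 ∈ L.lev.Φ.fil 1) (hx : x ∈ L.lev.Φ.fil j) :
    U * x * U⁻¹ - x ∈ L.lev.Φ.fil (j + 1) := by
  have hV := vl_of_sub_one' (L := L) hU
  have hU0 : U ≠ 0 := hV.ne_zero one_ne_zero
  have hinv : VL L U⁻¹ 0 1 := vl_inv hV
  have hmem : U⁻¹ ∈ L.lev.Φ.fil 0 := mem_fil_of_VL' hinv (by simp)
  have e : U * x * U⁻¹ - x = ((U - 1) * x - x * (U - 1)) * U⁻¹ := by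
    have h1 : x * U * U⁻¹ = x := by rw [mul_assoc, mul_inv_cancel₀ hU0, mul_one]
    have h2 : ((U - 1) * x - x * (U - 1)) * U⁻¹ = U * x * U⁻¹ - x * U * U⁻¹ := by noncomm_ring
    rw [h2, h1]
  rw [e]
  have h1 := L.lev.Φ.mul_mem hU hx
  have h2 := L.lev.Φ.mul_mem hx hU
  have h3 : (U - 1) * x - x * (U - 1) ∈ L.lev.Φ.fil (j + 1) := by
    rw [add_comm] at h1
    exact sub_mem h1 h2
  have h4 := L.lev.Φ.mul_mem h3 hmem
  simpa using h4

/-- Transport by a `U ≡ 1`. -/
theorem TestLifts.conj {Ft Ft' : Subalgebra K' R} {F0 : Subalgebra K A} {y₀ r₁ : A} {ηe : CE}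
    (TL : TestLifts L Ft F0 y₀ r₁ ηe) {U : R} (hU : U - 1 ∈ L.lev.Φ.fil 1)
    (hFt : ∀ x ∈ Ft, U * x * U⁻¹ ∈ Ft') : TestLifts L Ft' F0 y₀ r₁ ηe := by
  refine ⟨TL.y_mem, TL.y_ne, TL.inv_mem, TL.κη, TL.posη, fun f hf => ?_, fun t => ?_⟩
  · obtain ⟨fh, hfh, v0, hv0, hKZ, hfil⟩ := TL.lift f hf
    refine ⟨U * fh * U⁻¹, hFt _ hfh, v0, hv0, hKZ, ?_⟩
    have hv : v0 ∈ L.lev.Φ.fil 0 := mem_fil_of_VL' hv0 (by simp)
    have hfh0 : fh ∈ L.lev.Φ.fil 0 := by
      have h1 : fh = (fh - v0) + v0 := by abel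
      rw [h1]
      exact add_mem (L.lev.Φ.anti (Nat.zero_le 1) hfil) hv
    have h2 := conj_sub_mem (L := L) hU hfh0
    have h3 : U * fh * U⁻¹ - v0 = (U * fh * U⁻¹ - fh) + (fh - v0) := by abel
    rw [h3]
    exact add_mem h2 hfil
  · obtain ⟨b, hb, A₀, A₁, hrest, hKZ, hA₀, hA₁⟩ := TL.pow t
    refine ⟨U * b * U⁻¹, hFt _ hb, A₀, A₁, ?_, hKZ, hA₀, hA₁⟩
    have hM : L.lev.mon 0 t ∈ L.lev.Φ.fil t := L.lev.mon_mem 0 t
    have h0 : A₀ ∈ L.lev.Φ.fil 0 := mem_fil_of_VL' hA₀ (by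
      show ((0 : ℕ) : ℤ) ≤ 0
      simp)
    have h1 : A₁ ∈ L.lev.Φ.fil 0 := mem_fil_of_VL' hA₁ (by
      show ((0 : ℕ) : ℤ) ≤ 0
      simp)
    have h2 : (A₀ + A₁) * L.lev.mon 0 t ∈ L.lev.Φ.fil t := by
      have := L.lev.Φ.mul_mem (add_mem h0 h1) hM
      simpa using this
    have hbt : b ∈ L.lev.Φ.fil t := by
      have e : b = (b - (A₀ + A₁) * L.lev.mon 0 t) + (A₀ + A₁) * L.lev.mon 0 t := by abel
      rw [e]
      exact add_mem (L.lev.Φ.anti (Nat.le_succ t) hrest) h2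
    have h3 := conj_sub_mem (L := L) hU hbt
    have h4 : U * b * U⁻¹ - (A₀ + A₁) * L.lev.mon 0 t =
        (U * b * U⁻¹ - b) + (b - (A₀ + A₁) * L.lev.mon 0 t) := by abel
    rw [h4]
    exact add_mem h3 hrest

/-- `F0` is in the lead of `Ft` at each class with `K ≡ 0`. -/
lemma TestLifts.le_lead {Ft : Subalgebra K' R} {F0 : Subalgebra K A} {y₀ r₁ : A} {ηe : CE}
    (TL : TestLifts L Ft F0 y₀ r₁ ηe) {f : A} (hf : f ∈ F0) (g : GLv)
    (hg : (L.m : ℤ) ∣ κ (ofLex g).2) : f ∈ L.leadK.lead g (Subalgebra.toSubmodule Ft) := by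
  have hg' : (L.m : ℤ) ∣ κ (ofLex (-g)).2 := by
    rw [κ_neg]
    exact (dvd_neg).2 hg
  obtain ⟨b, hb, hV, -⟩ := test_at TL hg' hf
  rw [neg_neg] at hV
  exact ⟨b, hb, L.le_vK_iff.2 hV.lt, hV.eq⟩

/-- `m dim F0 ≤ dim Ft`. -/
theorem TestLifts.finrank_le [FiniteDimensional K A] {Ft : Subalgebra K' R} {F0 : Subalgebra K A}
    {y₀ r₁ : A} {ηe : CE}
    (TL : TestLifts L Ft F0 y₀ r₁ ηe) : L.m * Module.finrank K F0 ≤ Module.finrank K' Ft := by
  classical
  have hm0 : 0 < L.m := L.m_pos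
  let z : Fin L.m := ⟨0, hm0⟩
  have hG := L.gaussK (Subalgebra.toSubmodule Ft)
  have e0 : finrank K' Ft = finrank K' (Subalgebra.toSubmodule Ft) := rfl
  have hsum : ∑ r : Fin L.m, finrank K (L.leadK.lead (L.eK (z, r)) (Subalgebra.toSubmodule Ft)) ≤
      finrank K' (Subalgebra.toSubmodule Ft) := by
    rw [hG, Fintype.sum_prod_type]
    exact Finset.single_le_sum
      (f := fun x : Fin L.m => ∑ y : Fin L.m,
        finrank K (L.leadK.lead (L.eK (x, y)) (Subalgebra.toSubmodule Ft)))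
      (fun _ _ => Nat.zero_le _) (Finset.mem_univ z)
  have hlow : ∑ _r : Fin L.m, finrank K F0 ≤
      ∑ r : Fin L.m, finrank K (L.leadK.lead (L.eK (z, r)) (Subalgebra.toSubmodule Ft)) := by
    refine Finset.sum_le_sum fun r _ => ?_
    have h0 : Subalgebra.toSubmodule F0 ≤ L.leadK.lead (L.eK (z, r)) (Subalgebra.toSubmodule Ft) := by
      intro f hf
      refine TL.le_lead hf _ ?_
      rw [L.eK_κ]
      simp [z]
    exact Submodule.finrank_mono h0
  have hconst : ∑ _r : Fin L.m, finrank K F0 = L.m * finrank K F0 := by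
    simp
  omega

/-- The class bound turns the lifts into an upper bound of the leads. -/
theorem TestLeads.of_lifts [FiniteDimensional K A] {Ft : Subalgebra K' R} {F0 : Subalgebra K A}
    {y₀ r₁ : A} {ηe : CE}
    (TL : TestLifts L Ft F0 y₀ r₁ ηe)
    (hdim : Module.finrank K' Ft ≤ L.m * Module.finrank K F0) : TestLeads L Ft F0 y₀ r₁ ηe := by
  classical
  have hm0 : 0 < L.m := L.m_pos
  let z : Fin L.m := ⟨0, hm0⟩
  set W := Subalgebra.toSubmodule Ft with hW
  have hG := L.gaussK W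
  have e0 : finrank K' Ft = finrank K' W := rfl
  -- the classes with `K ≡ 0`
  have hle : ∀ r : Fin L.m, finrank K F0 ≤ finrank K (L.leadK.lead (L.eK (z, r)) W) := by
    intro r
    have h0 : Subalgebra.toSubmodule F0 ≤ L.leadK.lead (L.eK (z, r)) W := by
      intro f hf
      refine TL.le_lead hf _ ?_
      rw [L.eK_κ]
      simp [z]
    exact Submodule.finrank_mono h0
  -- the sum over `K ≡ 0` is at least `m dim F0`
  set a : Fin L.m → ℕ := fun x => ∑ y : Fin L.m, finrank K (L.leadK.lead (L.eK (x, y)) W) with ha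
  have hsum : ∑ x, a x = finrank K' W := by
    rw [hG, Fintype.sum_prod_type]
  have hz : L.m * finrank K F0 ≤ a z := by
    have h1 : ∑ _r : Fin L.m, finrank K F0 ≤ a z := Finset.sum_le_sum fun r _ => hle r
    have hconst : ∑ _r : Fin L.m, finrank K F0 = L.m * finrank K F0 := by simp
    omega
  -- so all the other classes vanish
  have hother : ∀ x, x ≠ z → a x = 0 := by
    intro x hx
    have h1 : a z + a x ≤ ∑ x, a x := by
      have h2 := Finset.add_sum_erase Finset.univ a (Finset.mem_univ z)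
      have h3 : a x ≤ ∑ w ∈ Finset.univ.erase z, a w :=
        Finset.single_le_sum (f := a) (fun _ _ => Nat.zero_le _)
          (Finset.mem_erase.2 ⟨hx, Finset.mem_univ x⟩)
      omega
    omega
  have hzeq : a z = L.m * finrank K F0 := by
    have h1 : a z ≤ ∑ x, a x :=
      Finset.single_le_sum (f := a) (fun _ _ => Nat.zero_le _) (Finset.mem_univ z)
    omega
  -- and each class with `K ≡ 0` has dimension `dim F0`
  have heq : ∀ r : Fin L.m, finrank K (L.leadK.lead (L.eK (z, r)) W) = finrank K F0 := by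
    intro r
    have h1 : finrank K (L.leadK.lead (L.eK (z, r)) W) +
        ∑ w ∈ Finset.univ.erase r, finrank K (L.leadK.lead (L.eK (z, w)) W) = a z :=
      Finset.add_sum_erase Finset.univ (fun w => finrank K (L.leadK.lead (L.eK (z, w)) W))
        (Finset.mem_univ r)
    have h2 : ∑ _w ∈ Finset.univ.erase r, finrank K F0 ≤
        ∑ w ∈ Finset.univ.erase r, finrank K (L.leadK.lead (L.eK (z, w)) W) :=
      Finset.sum_le_sum fun w _ => hle w
    have h3 : ∑ _w ∈ Finset.univ.erase r, finrank K F0 = (L.m - 1) * finrank K F0 := by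
      rw [Finset.sum_const, Finset.card_erase_of_mem (Finset.mem_univ r), Finset.card_univ,
        Fintype.card_fin, smul_eq_mul]
    have h4 := hle r
    have h5 : L.m * finrank K F0 = (L.m - 1) * finrank K F0 + finrank K F0 := by
      have : L.m = (L.m - 1) + 1 := by omega
      conv_lhs => rw [this]
      ring
    omega
  have hlead : ∀ r : Fin L.m, L.leadK.lead (L.eK (z, r)) W = Subalgebra.toSubmodule F0 := by
    intro r
    symm
    refine Submodule.eq_of_le_of_finrank_le ?_ ?_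
    · intro f hf
      refine TL.le_lead hf _ ?_
      rw [L.eK_κ]
      simp [z]
    · exact (heq r).le
  have hzero : ∀ x, x ≠ z → ∀ y, L.leadK.lead (L.eK (x, y)) W = ⊥ := by
    intro x hx y
    have h1 : finrank K (L.leadK.lead (L.eK (x, y)) W) ≤ a x :=
      Finset.single_le_sum (f := fun y => finrank K (L.leadK.lead (L.eK (x, y)) W))
        (fun _ _ => Nat.zero_le _) (Finset.mem_univ y)
    rw [hother x hx] at h1
    exact Submodule.finrank_eq_zero.1 (by omega)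
  refine { TL with lead_mem := ?_, lead_class := ?_ }
  · intro g x hx hg
    have h1 : L.c g x ∈ L.leadK.lead g W := ⟨x, hx, hg, rfl⟩
    rw [L.leadK_eq_class g W] at h1
    rcases hc : L.classK g with ⟨c1, c2⟩
    rw [hc] at h1
    by_cases hc1 : c1 = z
    · subst hc1
      rw [hlead] at h1
      exact h1
    · rw [hzero c1 hc1] at h1
      rw [Submodule.mem_bot] at h1
      rw [h1]
      exact F0.zero_mem
  · intro g x hx hg hne
    have h1 : L.c g x ∈ L.leadK.lead g W := ⟨x, hx, hg, rfl⟩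
    rw [L.leadK_eq_class g W] at h1
    have hsub := L.sub_eK_classK_mem g
    rcases hc : L.classK g with ⟨c1, c2⟩
    rw [hc] at h1 hsub
    by_cases hc1 : c1 = z
    · subst hc1
      have h2 := hsub.2
      rw [κ_sub, L.eK_κ] at h2
      simpa [z] using h2
    · rw [hzero c1 hc1] at h1
      rw [Submodule.mem_bot] at h1
      exact absurd h1 hne

/-- a pairing partner of an element with central value and `τ(c x * y₀⁻¹) ≠ 0` is nonzero. -/
theorem TestLifts.ne_zero {Ft : Subalgebra K' R} {F0 : Subalgebra K A} {y₀ r₁ : A} {ηe : CE}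
    (TL : TestLifts L Ft F0 y₀ r₁ ηe) {u x : R}
    (hp : ∀ b ∈ Ft, L.τ' (u * b) = L.τ' (x * b)) {g₁ : GLv}
    (hg₁ : (L.m : ℤ) ∣ κ (ofLex g₁).2) (hx : (g₁ : WithTop GLv) ≤ L.vK x)
    (hne : τ (L.c g₁ x * y₀⁻¹) ≠ 0) : u ≠ 0 := by
  rintro rfl
  obtain ⟨b, hb, hVb, -⟩ := test_at TL hg₁ (TL.inv_mem _ TL.y_mem)
  have h1 := hp b hb
  rw [zero_mul, map_zero] at h1
  have h2 := L.pair_zeroK (add_neg_cancel g₁) hx (L.le_vK_iff.2 hVb.lt) h1.symm
  rw [hVb.eq] at h2
  exact hne h2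

end Crest.Agent.Kurosh.LiftDefs
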