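import Crest.Agent.Kurosh.TestRun
import Crest.Agent.Kurosh.LiftDefs
import Crest.Agent.Kurosh.KeyTest3
import Crest.Agent.Kurosh.Key
set_option autoImplicit false
set_option linter.unusedSectionVars false

namespace Crest.Agent.Kurosh.LiftTest
open Hensel State Module LU VLead LiftDefs
open _root_.Crest.Agent.Kurosh.Inv
open _root_.Crest.Agent.Kurosh.Inv.St
open LU.Tw0 LU.Tw Plan

/-! ### Filtration lemmas -/

section AbsLev

variable {M K A R : Type*} [AddCommGroup M] [DecidableEq M] [Field K] [Ring A] [Algebra K A] [Ring R]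
  [Algebra K R] (L : Lev M K A R)

/-- An element of order `≥ j` is, modulo order `j + 1`, the sum of its coefficients at order `j`. -/
lemma sub_sum_mono_coeff {x : R} {j : ℕ} (hx : x ∈ L.Φ.fil j) (s : Finset M)
    (hs : ∀ n, L.coeff n j x ≠ 0 → n ∈ s) :
    x - ∑ n ∈ s, L.mono (L.coeff n j x) n j ∈ L.Φ.fil (j + 1) := by
  refine L.mem_fil_succ (sub_mem hx (L.sum_mono_mem _ _ _)) fun n => ?_
  rw [map_sub, L.coeff_sum_mono]
  by_cases hn : n ∈ s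
  · rw [if_pos hn, sub_self]
  · rw [if_neg hn, sub_zero]
    by_contra h
    exact hn (hs n h)

end AbsLev

section Conj

variable {K A K' R : Type*} [Field K] [DivisionRing A] [Algebra K A] [Field K'] [DivisionRing R]
  [Algebra K R] [Algebra K' R] [Algebra K K'] [IsScalarTower K K' R] {τ : A →ₗ[K] K}
  (L : Lv K A K' R τ) [FiniteDimensional K A]

lemma ne_zero_of_sub_one {u : R} (hu : u - 1 ∈ L.lev.Φ.fil 1) : u ≠ 0 := by
  rintro rfl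
  have h1 := L.lev.coeff_fil (n := 0) (j := 0) hu (by norm_num)
  have h2 : L.lev.mono 1 0 0 = 1 := by rw [Lev.mono, map_one, one_mul, L.lev.mon_zero]
  have h3 : L.lev.coeff 0 0 (1 : R) = 1 := by
    rw [← h2]
    exact L.lev.coeff_mono_same 0 0 1
  rw [zero_sub, map_neg, h3] at h1
  exact one_ne_zero (neg_eq_zero.1 h1)

/-- `U⁻¹ E` modulo order `j + 2`. -/
lemma inv_mul_err {U1 U3 E1 E3 M : R} {j : ℕ} (hj : 1 ≤ j) (hU1 : U1 - 1 ∈ L.lev.Φ.fil 1)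
    (hU3 : U3 - U1 ∈ L.lev.Φ.fil (j + 1)) (hE1 : E1 ∈ L.lev.Φ.fil j) (hM : M ∈ L.lev.Φ.fil (j + 1))
    (hE : E3 - E1 - M ∈ L.lev.Φ.fil (j + 2)) :
    U3⁻¹ * E3 - (E1 - (U1 - 1) * E1 + M) ∈ L.lev.Φ.fil (j + 2) := by
  have hU3' : U3 - 1 ∈ L.lev.Φ.fil 1 := by
    have := add_mem (L.lev.Φ.anti (by omega : 1 ≤ j + 1) hU3) hU1
    rwa [sub_add_sub_cancel] at this
  have hU0 : U3 ≠ 0 := ne_zero_of_sub_one L hU3'
  have ha := LeadVN.LvData.inv_sub_one_mem hU3'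
  have hE31 : E3 - E1 ∈ L.lev.Φ.fil (j + 1) := by
    have := add_mem (L.lev.Φ.anti (Nat.le_succ _) hE) hM
    rwa [sub_add_cancel] at this
  have hE3 : E3 ∈ L.lev.Φ.fil j := by
    have := add_mem (L.lev.Φ.anti (Nat.le_succ _) hE31) hE1
    rwa [sub_add_cancel] at this
  have h1 : (U3⁻¹ - 1) * (U3 - 1) * E3 ∈ L.lev.Φ.fil (j + 2) := by
    have := L.lev.Φ.mul_mem (L.lev.Φ.mul_mem ha hU3') hE3
    rwa [show 1 + 1 + j = j + 2 by omega] at this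
  have h2 : (U3 - U1) * E3 ∈ L.lev.Φ.fil (j + 2) :=
    L.lev.Φ.anti (by omega) (L.lev.Φ.mul_mem hU3 hE3)
  have h3 : (U1 - 1) * (E3 - E1) ∈ L.lev.Φ.fil (j + 2) := by
    have := L.lev.Φ.mul_mem hU1 hE31
    rwa [show 1 + (j + 1) = j + 2 by omega] at this
  have h4 := sub_mem (sub_mem (sub_mem hE h1) h2) h3
  have e : (U3⁻¹ - 1) * (U3 - 1) = 1 + 1 - U3⁻¹ - U3 := by
    have h5 : U3⁻¹ * U3 = 1 := inv_mul_cancel₀ hU0
    calc (U3⁻¹ - 1) * (U3 - 1) = U3⁻¹ * U3 - U3⁻¹ - U3 + 1 := by noncomm_ring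
      _ = _ := by rw [h5]; abel
  rw [e] at h4
  convert h4 using 1
  noncomm_ring

/-- Conjugating by `1 + κ`, `κ` of order `≥ j + 1`. -/
lemma conj_one_add {H' b κ : R} {j : ℕ} (hj : 1 ≤ j) (hδ : H' - b ∈ L.lev.Φ.fil j)
    (hκ : κ ∈ L.lev.Φ.fil (j + 1)) (hb : b ∈ L.lev.Φ.fil 0) :
    (1 + κ)⁻¹ * H' * (1 + κ) - b - ((H' - b) + (b * κ - κ * b)) ∈ L.lev.Φ.fil (j + 2) := by
  set V : R := 1 + κ with hV
  have hV1 : V - 1 ∈ L.lev.Φ.fil 1 := by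
    rw [hV, add_sub_cancel_left]
    exact L.lev.Φ.anti (by omega) hκ
  have hV0 : V ≠ 0 := ne_zero_of_sub_one L hV1
  have hVi := LeadVN.LvData.inv_sub_one_mem hV1
  have hV' : V⁻¹ ∈ L.lev.Φ.fil 0 := by
    have := add_mem (L.lev.Φ.anti (Nat.zero_le 1) hVi) L.lev.one_mem
    rwa [sub_add_cancel] at this
  have hVm : V⁻¹ * V = 1 := inv_mul_cancel₀ hV0
  have hVκ : V⁻¹ - 1 = - (V⁻¹ * κ) := by
    have : V⁻¹ * (1 + κ) = 1 := hVm
    rw [mul_add, mul_one] at this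
    rw [← this]
    abel
  have hVκm : V⁻¹ - 1 ∈ L.lev.Φ.fil (j + 1) := by
    rw [hVκ]
    have := L.lev.Φ.mul_mem hV' hκ
    rw [zero_add] at this
    exact neg_mem this
  have hbκ : b * κ ∈ L.lev.Φ.fil (j + 1) := by
    have := L.lev.Φ.mul_mem hb hκ
    rwa [zero_add] at this
  have hκb : κ * b ∈ L.lev.Φ.fil (j + 1) := by
    have := L.lev.Φ.mul_mem hκ hb
    rwa [add_zero] at this
  have hδκ : (H' - b) * κ ∈ L.lev.Φ.fil (j + 2) :=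
    L.lev.Φ.anti (by omega) (L.lev.Φ.mul_mem hδ hκ)
  set T : R := (H' - b) + (H' - b) * κ + (b * κ - κ * b) with hT
  have hTm : T ∈ L.lev.Φ.fil j :=
    add_mem (add_mem hδ (L.lev.Φ.anti (by omega) hδκ)) (L.lev.Φ.anti (Nat.le_succ _) (sub_mem hbκ hκb))
  have h1 : (V⁻¹ - 1) * T ∈ L.lev.Φ.fil (j + 2) :=
    L.lev.Φ.anti (by omega) (L.lev.Φ.mul_mem hVκm hTm)
  have e1 : V⁻¹ * H' * V - b = V⁻¹ * T := by
    have e2 : H' * V - V * b = T := by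
      rw [hT, hV]
      noncomm_ring
    rw [← e2, mul_sub, mul_assoc, ← mul_assoc V⁻¹ V b, hVm, one_mul]
  rw [e1]
  have h2 := add_mem h1 hδκ
  convert h2 using 1
  rw [hT]
  noncomm_ring

/-- **The frame at order `j + 1`.** -/
theorem final_abs {β : A} {e inv : A → A} (hei : ∀ x, x - e x = β * inv x - inv x * β)
    {H U1 U3 E1 Pj M : R} {j : ℕ} (hj : 1 ≤ j) (hU1 : U1 - 1 ∈ L.lev.Φ.fil 1)
    (hU3 : U3 - U1 ∈ L.lev.Φ.fil (j + 1)) (hE1 : E1 ∈ L.lev.Φ.fil j) (hM : M ∈ L.lev.Φ.fil (j + 1))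
    (hE : (H * U3 - U3 * L.lev.inc β) - E1 - M ∈ L.lev.Φ.fil (j + 2))
    (hW : E1 - (U1 - 1) * E1 - Pj ∈ L.lev.Φ.fil (j + 1)) (s : Finset CE)
    (hs : ∀ n, L.lev.coeff n (j + 1) (E1 - (U1 - 1) * E1 - Pj) ≠ 0 → n ∈ s) :
    ∃ Uu : R, Uu - 1 ∈ L.lev.Φ.fil 1 ∧
      Uu⁻¹ * (H * Uu) - L.lev.inc β - (Pj + M +
        ∑ n ∈ s, L.lev.mono (e (L.lev.coeff n (j + 1) (E1 - (U1 - 1) * E1 - Pj))) n (j + 1))
        ∈ L.lev.Φ.fil (j + 2) := by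
  classical
  set W : R := E1 - (U1 - 1) * E1 - Pj with hWd
  set D : CE → A := fun n => L.lev.coeff n (j + 1) W with hD
  set b : R := L.lev.inc β with hb
  have hb0 : b ∈ L.lev.Φ.fil 0 := L.lev.inc_mem β
  set E3 : R := H * U3 - U3 * b with hE3
  have hU3' : U3 - 1 ∈ L.lev.Φ.fil 1 := by
    have := add_mem (L.lev.Φ.anti (by omega : 1 ≤ j + 1) hU3) hU1
    rwa [sub_add_sub_cancel] at this
  have hU30 : U3 ≠ 0 := ne_zero_of_sub_one L hU3'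
  have h1 := inv_mul_err L hj hU1 hU3 hE1 hM hE
  have h2 := sub_sum_mono_coeff L.lev hW s hs
  set H' : R := U3⁻¹ * (H * U3) with hH'
  have hδ : H' - b = U3⁻¹ * E3 := by
    rw [hE3, mul_sub, ← mul_assoc U3⁻¹ U3 b, inv_mul_cancel₀ hU30, one_mul]
  have hE3m : E3 ∈ L.lev.Φ.fil j := by
    have := add_mem (add_mem (L.lev.Φ.anti (by omega) hE) hE1) (L.lev.Φ.anti (Nat.le_succ _) hM)
    convert this using 1
    abel
  have hδm : H' - b ∈ L.lev.Φ.fil j := by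
    rw [hδ]
    exact LeadVN.LvData.inv_mul_mem hU3' hE3m
  set κ : R := ∑ n ∈ s, L.lev.mono (- inv (D n)) n (j + 1) with hκ
  have hκm : κ ∈ L.lev.Φ.fil (j + 1) := L.lev.sum_mono_mem _ _ _
  have h3 := conj_one_add L hj hδm hκm hb0
  have hcomm : b * κ - κ * b = ∑ n ∈ s, L.lev.mono (e (D n) - D n) n (j + 1) := by
    rw [hκ, Finset.mul_sum, Finset.sum_mul, ← Finset.sum_sub_distrib]
    refine Finset.sum_congr rfl fun n _ => ?_
    rw [hb, L.lev.inc_mul_mono, L.lev.mono_mul_inc, ← L.lev.mono_sub]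
    congr 1
    have := hei (D n)
    rw [mul_neg, neg_mul, sub_neg_eq_add, ← sub_eq_neg_add, ← neg_sub, ← this, neg_sub]
  set V : R := 1 + κ with hV
  have hV1 : V - 1 ∈ L.lev.Φ.fil 1 := by
    rw [hV, add_sub_cancel_left]
    exact L.lev.Φ.anti (by omega) hκm
  refine ⟨U3 * V, ?_, ?_⟩
  · have e1 : U3 * V - 1 = (U3 - 1) * V + (V - 1) := by noncomm_ring
    rw [e1]
    refine add_mem ?_ hV1
    have hV0 : V ∈ L.lev.Φ.fil 0 := by
      have := add_mem (L.lev.Φ.anti (Nat.zero_le 1) hV1) L.lev.one_mem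
      rwa [sub_add_cancel] at this
    have := L.lev.Φ.mul_mem hU3' hV0
    rwa [add_zero] at this
  · have e2 : (U3 * V)⁻¹ * (H * (U3 * V)) = V⁻¹ * H' * V := by
      rw [mul_inv_rev, hH']
      noncomm_ring
    rw [e2]
    have h4 := add_mem (add_mem h3 (by rw [← hδ] at h1; exact h1)) h2
    convert h4 using 1
    rw [hcomm]
    have e3 : ∑ n ∈ s, L.lev.mono (e (D n) - D n) n (j + 1) =
        ∑ n ∈ s, L.lev.mono (e (D n)) n (j + 1) - ∑ n ∈ s, L.lev.mono (D n) n (j + 1) := by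
      rw [← Finset.sum_sub_distrib]
      exact Finset.sum_congr rfl fun n _ => L.lev.mono_sub _ _ _ _
    rw [e3, hWd]
    abel

end Conj

/-! ### Order of the monomials -/

lemma nStar_lt {w : ℕ} {n0 : CE} (h : LeadVN.dropL w (ofLex n0).1 = 0) (r : ℤ) :
    LeadVN.LvData.nStar w r < n0 := by
  refine Prod.Lex.lt_iff.2 (Or.inl ?_)
  by_contra h1
  have h2 := LeadVN.dropL_mono w (not_lt.1 h1)
  rw [h] at h2
  exact absurd (LeadVN.LvData.dropL_nStar_lt w r) (not_lt.2 h2)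

lemma cw_eq_zero {w : ℕ} {n0 : CE} (h : LeadVN.dropL w (ofLex n0).1 = 0) :
    LeadVN.LvData.cw w (idx n0 0) = 0 := by
  have h3 := LeadVN.dropL_apply w (ofLex n0).1 0
  rw [h, zero_add] at h3
  exact h3.symm

lemma neg_cExp_lt {w : ℕ} {n0 : CE} (h : LeadVN.dropL w (ofLex n0).1 = 0) : - cExp w < n0 := by
  have := nStar_lt h 0
  simpa [LeadVN.LvData.nStar] using this

lemma neg_cExp_add_lt {w : ℕ} {n0 : CE} (h : LeadVN.dropL w (ofLex n0).1 = 0) :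
    - cExp w + sExp < n0 := by
  have := nStar_lt h 1
  simpa [LeadVN.LvData.nStar] using this

variable [Tw0] [Tw] {F : Subfield U} [CentF F]

/-- The output of `test_run`, as a package. -/
structure TestOut (Ls : Lst F) (n : ℕ) [Fact (F ≤ Kn n)] (ρ : Stt n) (l r : ℕ) (S : ℕ → Set (An n))
    (t1 t2 : Fin 2 → An n) (X : Stt (n + 1)) (g : ℕ → An (n + 1)) (S' : ℕ → Set (An (n + 1))) : Prop where
  sol : ∀ J', (lv n).lev.PSol (pt F n ρ Ls.a) l J' t1 t2 X g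
  fresh : Fresh F Ls n ρ l t1 t2 ((pt F n ρ Ls.a).T l) X ((pt F (n + 1) X Ls.a).T l)
  valid : Valid (pt F (n + 1) X Ls.a) (N (n + 1)) Ls.R Ls.Q l l S' ((pt F (n + 1) X Ls.a).T l)
  smooth : Smooth (pt F (n + 1) X Ls.a) l
  pp : ∀ u < l, (lv n).m ^ 2 * finrank (Kn n) (PPl (pt F n ρ Ls.a) S u) ≤
    finrank (Kn (n + 1)) (PPl (pt F (n + 1) X Ls.a) S' u)
  rank : ∀ u < l, ∀ c ∈ (pt F (n + 1) X Ls.a).KK (u + 1), c u ∉ PPl (pt F (n + 1) X Ls.a) S' u →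
    (lv n).m ^ 2 * qS Ls.R l ≤ rkOn (pt F (n + 1) X Ls.a) l c ((pt F (n + 1) X Ls.a).T l)
  tight : ∀ u < l, finrank (Kn (n + 1)) (RR (pt F (n + 1) X Ls.a) S' u) =
    finrank (Kn (n + 1)) ((pt F (n + 1) X Ls.a).Mov u) + (Ls.R u).q
  up : UpStep ⟨n, ρ⟩ ⟨n + 1, X⟩
  above : ∀ u < r, Above (Ls.Z0 u) ⟨n + 1, X⟩
  cb : CB (pt F (n + 1) X Ls.a) (N (n + 1)) Ls.R l
  mov_le : (pt F (n + 1) X Ls.a).Mov l ≤
    Subalgebra.toSubmodule (Algebra.adjoin (Kn (n + 1)) ({(pt F (n + 1) X Ls.a).β l} : Set _))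

/-- The first error of the entry `l`. -/
noncomputable abbrev Er (Ls : Lst F) (n : ℕ) [Fact (F ≤ Kn n)] (ρ : Stt n) (l : ℕ) (X : Stt (n + 1))
    (gl : An (n + 1)) : An (n + 1) :=
  ev X (Ls.a l) * gl - gl * (lv n).lev.inc ((pt F n ρ Ls.a).β l)


/-- One move, then an exact level-up. -/
theorem exists_step {l : ℕ} (h1 : Orc F l) (h2 : Val F l l) (Ls : Lst F) (n : ℕ) [Fact (F ≤ Kn n)]
    (ρ : Stt n) (r : ℕ) (S : ℕ → Set (An n)) (TT : Submodule (Kn n) (Fin 2 → An n))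
    (hlr : l < r) (hC : Ctx F Ls n ρ l r S TT) (t1 t2 : Fin 2 → An n)
    (hA : Adm (pt F n ρ Ls.a) l TT t1 t2) {j : ℕ} (hj : 2 ≤ j) {X : Stt (n + 1)}
    {g : ℕ → An (n + 1)} (hX : ∀ J, (lv n).lev.PSol (pt F n ρ Ls.a) l J t1 t2 X g)
    {τ₀ : Fin 2 → An n} (hτ₀ : τ₀ ∈ (pt F n ρ Ls.a).T l)
    (hP : ∀ c ∈ (pt F n ρ Ls.a).KK l, (pt F n ρ Ls.a).PP l c t1 τ₀ = 0 ∧
      (pt F n ρ Ls.a).PP l c t2 τ₀ = 0) (n1 : CE) :
    ∃ (X' : Stt (n + 1)) (g' : ℕ → An (n + 1)) (S' : ℕ → Set (An (n + 1))),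
      TestOut Ls n ρ l r S t1 t2 X' g' S' ∧
      ∀ v, X' v - (X v + (lv n).lev.mono (τ₀ v) n1 j) ∈ (lv n).lev.Φ.fil (j + 1) := by
  have hSS : ∀ c ∈ (pt F n ρ Ls.a).KK l, ∀ τ' ∈ (pt F n ρ Ls.a).T l,
      (pt F n ρ Ls.a).SS l c t1 τ' = 0 ∧ (pt F n ρ Ls.a).SS l c t2 τ' = 0 :=
    fun c hc τ' hτ' => ⟨hA.S1 c hc τ' hτ', hA.S2 c hc τ' hτ'⟩
  obtain ⟨S0, tt, ww, h0⟩ := KeyV3.moved_solve hX hj hτ₀ hSS hP n1
  obtain ⟨X', g', S', hex, hXc, -, hFr, hV', hSm, hPP, hR, hTi, hup, hAb, hCB, hM⟩ :=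
    TestRun.test_run h1 h2 Ls n ρ r S TT hlr hC t1 t2 hA (j + 1) (by omega) _ _ h0
  refine ⟨X', g', S', ⟨hex, hFr, hV', hSm, hPP, hR, hTi, hup, hAb, hCB, hM⟩, fun v => ?_⟩
  have a1 := hXc v
  have a2 := (lv n).lev.sum_mono_mem S0 (fun m => tt m v) (j + 1)
  have a3 := add_mem a1 a2
  convert a3 using 1
  simp only [Lev.addX, Lev.mvX]
  abel

/-- **The test state** (M1). From `(X,g,gl)` exact for `l` with frame at order `j`, `m ∣ j`, the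
coefficients of the error in `C_l`; `y₀, z ∈ Mov_l`.  Fresh indices `νl`, `νη`: the new state `Xt`
has first deviation `W s'^j + Z s'^{j+1}`, in a frame `U ≡ 1`:
`W = y₀ c_νl⁻¹ + ∑_{n ∈ s} G_n n`, `Z = y₀ c_νη⁻² + z c_νη⁻¹ s + ∑_{n ∈ s'} Zf_n n`. -/
theorem test_state {l : ℕ} (h1 : Orc F l) (h2 : Val F l l) (Ls : Lst F) (n : ℕ) [Fact (F ≤ Kn n)]
    (ρ : Stt n) (r : ℕ) (S : ℕ → Set (An n)) (TT : Submodule (Kn n) (Fin 2 → An n))
    (hlr : l < r) (hC : Ctx F Ls n ρ l r S TT) (t1 t2 : Fin 2 → An n)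
    (hA : Adm (pt F n ρ Ls.a) l TT t1 t2) {j : ℕ} (hj : 2 ≤ j) (X : Stt (n + 1))
    (g : ℕ → An (n + 1)) (gl : An (n + 1))
    (hex : ∀ J, (lv n).lev.PSol (pt F n ρ Ls.a) l J t1 t2 X g)
    (hF : Frame F Ls n ρ l t1 t2 j X gl)
    (hE : ∀ n0, (pt F n ρ Ls.a).β l * (lv n).lev.coeff n0 j (Er Ls n ρ l X gl) =
      (lv n).lev.coeff n0 j (Er Ls n ρ l X gl) * (pt F n ρ Ls.a).β l)
    (y₀ z : An n) (hy₀ : y₀ ∈ (pt F n ρ Ls.a).Mov l) (hz : z ∈ (pt F n ρ Ls.a).Mov l) :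
    ∃ (Xt : Stt (n + 1)) (gt : ℕ → An (n + 1)) (S' : ℕ → Set (An (n + 1))) (Uu : An (n + 1))
      (νl νη : ℕ) (s s' : Finset CE) (Zf : CE → An n),
      TestOut Ls n ρ l r S t1 t2 Xt gt S' ∧
      Uu - 1 ∈ (lv n).lev.Φ.fil 1 ∧
      -- `s` contains the support of the error at order `j`, it is above `-c_νl`, free of `c_νl`
      (∀ n0, (lv n).lev.coeff n0 j (Er Ls n ρ l X gl) ≠ 0 → n0 ∈ s) ∧
      (∀ n0 ∈ s, - cExp νl < n0 ∧ LeadVN.LvData.cw νl (idx n0 0) = 0) ∧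
      -- `Zf` in `C_l`, monomials above `-c_νη + s`
      (∀ n0 ∈ s', (pt F n ρ Ls.a).β l * Zf n0 = Zf n0 * (pt F n ρ Ls.a).β l ∧ - cExp νη + sExp < n0) ∧
      Uu⁻¹ * (ev Xt (Ls.a l) * Uu) - (lv n).lev.inc ((pt F n ρ Ls.a).β l)
        - ((lv n).lev.mono y₀ (- cExp νl) j
            + ∑ n0 ∈ s, (lv n).lev.mono ((lv n).lev.coeff n0 j (Er Ls n ρ l X gl)) n0 j
            + (lv n).lev.mono y₀ (- (2 : ℤ) • cExp νη) (j + 1)
            + (lv n).lev.mono z (- cExp νη + sExp) (j + 1)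
            + ∑ n0 ∈ s', (lv n).lev.mono (Zf n0) n0 (j + 1))
        ∈ (lv n).lev.Φ.fil (j + 2) := by

  classical
  set P := pt F n ρ Ls.a with hPd
  set b := (lv n).lev.inc (P.β l) with hb
  have hTT : TT ≤ P.T (l + 1) := hC.valid.TT_le.trans (P.T_anti hlr)
  obtain ⟨τy, hτy, hey, hPy⟩ := AdmExist.exists_T0_of_mem_Mov _ hA hTT hy₀
  obtain ⟨τz, hτz, hez, hPz⟩ := AdmExist.exists_T0_of_mem_Mov _ hA hTT hz
  have hFS : ∀ (X' : Stt (n + 1)) (U : An (n + 1)), (∀ v, X' v ∈ (lv n).lev.FS) → U ∈ (lv n).lev.FS →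
      ev X' (Ls.a l) * U - U * b ∈ (lv n).lev.FS := fun X' U hX' hU =>
    sub_mem (mul_mem ((lv n).lev.ev_mem_FS hX' _) hU) (mul_mem hU ((lv n).lev.inc_mem_FS _))
  set Er0 : An (n + 1) := Er Ls n ρ l X gl with hEr0
  have hEFS : Er0 ∈ (lv n).lev.FS := hFS X gl (hex 0).fsX hF.fs
  have hErm : Er0 ∈ (lv n).lev.Φ.fil j := hF.err
  have hfin := (((lv n).lev.FS_iff _).mp hEFS).2 j
  set s := hfin.toFinset with hs
  obtain ⟨νl, hνl⟩ := KeyV3.exists_w s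
  -- Stage A
  obtain ⟨X1, g1, S1, hT1, hX1⟩ := exists_step h1 h2 Ls n ρ r S TT hlr hC t1 t2 hA hj hex hτy hPy
    (- cExp νl)
  set U1 : An (n + 1) := gl + (lv n).lev.mono (P.w l τy) (- cExp νl) j with hU1d
  have hE1 : (ev X1 (Ls.a l) * U1 - U1 * b) - Er0 - (lv n).lev.mono y₀ (- cExp νl) j
      ∈ (lv n).lev.Φ.fil (j + 1) := by
    have := KeyV3.E_move (F := F) (lv n).lev (P := P) (i := l) (by omega : 1 ≤ j)
      (KeyV3.X_sub_inc hex) (KeyV3.Frame.sub_one hF) hX1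
    rw [hey] at this
    exact this
  have hU1 : U1 - 1 ∈ (lv n).lev.Φ.fil 1 := by
    have := add_mem (KeyV3.Frame.sub_one hF)
      ((lv n).lev.Φ.anti (by omega : 1 ≤ j) ((lv n).lev.mono_mem (P.w l τy) (- cExp νl) j))
    convert this using 1
    rw [hU1d]
    abel
  have hU1FS : U1 ∈ (lv n).lev.FS := add_mem hF.fs ((lv n).lev.mono_mem_FS _ _ _)
  set E1 : An (n + 1) := ev X1 (Ls.a l) * U1 - U1 * b with hE1d
  have hE1FS : E1 ∈ (lv n).lev.FS := hFS X1 U1 (hT1.sol 0).fsX hU1FS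
  have hE1m : E1 ∈ (lv n).lev.Φ.fil j := by
    have := add_mem (add_mem ((lv n).lev.Φ.anti (Nat.le_succ _) hE1) hErm)
      ((lv n).lev.mono_mem y₀ (- cExp νl) j)
    convert this using 1
    abel
  set Pj : An (n + 1) := (lv n).lev.mono y₀ (- cExp νl) j
    + ∑ n0 ∈ s, (lv n).lev.mono ((lv n).lev.coeff n0 j Er0) n0 j with hPj
  have hPjFS : Pj ∈ (lv n).lev.FS := add_mem ((lv n).lev.mono_mem_FS _ _ _) ((lv n).lev.sum_mono_mem_FS _ _ _)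
  set W : An (n + 1) := E1 - (U1 - 1) * E1 - Pj with hW
  have hWm : W ∈ (lv n).lev.Φ.fil (j + 1) := by
    have a1 := sub_sum_mono_coeff (lv n).lev hErm s (fun n0 hn0 => hfin.mem_toFinset.2 hn0)
    have a2 := (lv n).lev.Φ.mul_mem hU1 hE1m
    rw [add_comm 1 j] at a2
    have a3 := sub_mem (add_mem hE1 a1) a2
    convert a3 using 1
    rw [hW, hPj]
    abel
  have hWFS : W ∈ (lv n).lev.FS :=
    sub_mem (sub_mem hE1FS (mul_mem (sub_mem hU1FS (one_mem _)) hE1FS)) hPjFS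
  have hfin2 := (((lv n).lev.FS_iff _).mp hWFS).2 (j + 1)
  set s2 := hfin2.toFinset with hs2
  obtain ⟨νη, hνη⟩ := KeyV3.exists_w s2
  -- Stage B
  obtain ⟨X2, g2, S2, hT2, hX2⟩ := exists_step h1 h2 Ls n ρ r S TT hlr hC t1 t2 hA
    (show 2 ≤ j + 1 by omega) hT1.sol hτy hPy ((- (2 : ℤ)) • cExp νη)
  obtain ⟨X3, g3, S3, hT3, hX3⟩ := exists_step h1 h2 Ls n ρ r S TT hlr hC t1 t2 hA
    (show 2 ≤ j + 1 by omega) hT2.sol hτz hPz (- cExp νη + sExp)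
  set U2 : An (n + 1) := U1 + (lv n).lev.mono (P.w l τy) ((- (2 : ℤ)) • cExp νη) (j + 1) with hU2d
  set U3 : An (n + 1) := U2 + (lv n).lev.mono (P.w l τz) (- cExp νη + sExp) (j + 1) with hU3d
  have hU2 : U2 - 1 ∈ (lv n).lev.Φ.fil 1 := by
    have := add_mem hU1 ((lv n).lev.Φ.anti (by omega : 1 ≤ j + 1)
      ((lv n).lev.mono_mem (P.w l τy) ((- (2 : ℤ)) • cExp νη) (j + 1)))
    convert this using 1
    rw [hU2d]
    abel
  have hE2 : (ev X2 (Ls.a l) * U2 - U2 * b) - E1 - (lv n).lev.mono y₀ ((- (2 : ℤ)) • cExp νη) (j + 1)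
      ∈ (lv n).lev.Φ.fil (j + 2) := by
    have := KeyV3.E_move (F := F) (lv n).lev (P := P) (i := l) (by omega : 1 ≤ j + 1)
      (KeyV3.X_sub_inc hT1.sol) hU1 hX2
    rw [hey] at this
    exact this
  have hE3 : (ev X3 (Ls.a l) * U3 - U3 * b) - (ev X2 (Ls.a l) * U2 - U2 * b)
      - (lv n).lev.mono z (- cExp νη + sExp) (j + 1) ∈ (lv n).lev.Φ.fil (j + 2) := by
    have := KeyV3.E_move (F := F) (lv n).lev (P := P) (i := l) (by omega : 1 ≤ j + 1)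
      (KeyV3.X_sub_inc hT2.sol) hU2 hX3
    rw [hez] at this
    exact this
  set M : An (n + 1) := (lv n).lev.mono y₀ ((- (2 : ℤ)) • cExp νη) (j + 1)
    + (lv n).lev.mono z (- cExp νη + sExp) (j + 1) with hM
  have hMm : M ∈ (lv n).lev.Φ.fil (j + 1) := add_mem ((lv n).lev.mono_mem _ _ _) ((lv n).lev.mono_mem _ _ _)
  have hU31 : U3 - U1 ∈ (lv n).lev.Φ.fil (j + 1) := by
    have := add_mem ((lv n).lev.mono_mem (P.w l τy) ((- (2 : ℤ)) • cExp νη) (j + 1))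
      ((lv n).lev.mono_mem (P.w l τz) (- cExp νη + sExp) (j + 1))
    convert this using 1
    rw [hU3d, hU2d]
    abel
  have hE : (ev X3 (Ls.a l) * U3 - U3 * (lv n).lev.inc (P.β l)) - E1 - M ∈ (lv n).lev.Φ.fil (j + 2) := by
    have := add_mem hE2 hE3
    convert this using 1
    rw [hM]
    abel
  obtain ⟨Uu, hUu, hfinal⟩ := final_abs (lv n) (e := P.e l) (inv := (P.split l).inv) (β := P.β l)
    (fun x => P.sub_e_eq l x) (by omega : 1 ≤ j) hU1 hU31 hE1m hMm hE hWm s2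
    (fun n0 hn0 => hfin2.mem_toFinset.2 hn0)
  refine ⟨X3, g3, S3, Uu, νl, νη, s, s2, fun n0 => P.e l ((lv n).lev.coeff n0 (j + 1) W), hT3, hUu,
    fun n0 hn0 => hfin.mem_toFinset.2 hn0, fun n0 hn0 => ⟨neg_cExp_lt (hνl n0 hn0), cw_eq_zero (hνl n0 hn0)⟩,
    fun n0 hn0 => ⟨P.e_mem l _, neg_cExp_add_lt (hνη n0 hn0)⟩, ?_⟩
  convert hfinal using 2
  rw [hPj, hM]
  abel

end Crest.Agent.Kurosh.LiftTest
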