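/-
S0270 (helper31), blueprint v3 §L: `mov_leads`, `euler_lead` of helper94's `LiftStubs2`.

`TestOut` packages the output of the test run at `X̃`.

* `mov_leads`: the leads of `Mov_l(X̃)` from the fresh moves: `A_y ≤ lead_{(0,j')} Mov_l(X̃)`,
  and `A_y μ ≤ lead_{(0,j')} Mov_l(X̃)` for `j' ≠ 0`;
* `euler_lead`: `e_F(G_{n0}) ∈ lead₀ Mov_l(X̃)`, `n0` the lowest monomial of the error at order `j`.

The commutativity of `F0` is not a hypothesis: it follows from `TestLifts.lift` and the commutativity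
of `Ft`.
-/
import Crest.Agent.Kurosh.LiftTest
import Crest.Agent.Kurosh.LiftMov

set_option autoImplicit false
set_option linter.unusedSectionVars false
set_option linter.unusedVariables false

namespace Crest.Agent.Kurosh.LiftTest

open Hensel State Module LU VLead LiftDefs
open _root_.Crest.Agent.Kurosh.Inv
open _root_.Crest.Agent.Kurosh.Inv.St
open LU.Tw0 LU.Tw Plan

section Abstract

variable {K A K' R : Type*} [Field K] [DivisionRing A] [Algebra K A] [Field K'] [DivisionRing R]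
  [Algebra K R] [Algebra K' R] [Algebra K K'] [IsScalarTower K K' R] {τ : A →ₗ[K] K}
  {L : Lv K A K' R τ}

/-- `x ≡ mono w n j` modulo `fil (j+1)` has lead `w` at `(n,j)`. -/
lemma VL_of_sub_mono {x : R} {w : A} {n0 : CE} {j0 : ℕ}
    (hx : x - L.lev.mono w n0 j0 ∈ L.lev.Φ.fil (j0 + 1)) : VL L x (idx n0 (j0 : ℤ)) w := by
  have hm : VL L (L.lev.mono w n0 j0) (idx n0 (j0 : ℤ)) w := VL.of_phi (L.lev_mono w n0 j0)
  have hL : Low L (x - L.lev.mono w n0 j0) ((j0 + 1 : ℕ) : ℤ) := Low.of_fil hx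
  have h0 : ∀ g, g ≤ idx n0 (j0 : ℤ) → L.c g (x - L.lev.mono w n0 j0) = 0 := by
    intro g hg
    apply hL
    have h2 : (ofLex g).1 ≤ (j0 : ℤ) := fst_mono hg
    push_cast
    omega
  have h1 : x = (x - L.lev.mono w n0 j0) + L.lev.mono w n0 j0 := by abel
  refine ⟨fun g hg => ?_, ?_⟩
  · rw [h1, Lv.c_add, h0 g hg.le, hm.lt g hg, add_zero]
  · rw [h1, Lv.c_add, h0 _ le_rfl, hm.eq, zero_add]

/-- `u - 1 ∈ fil 1` gives `VL u 0 1`. -/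
lemma VL_one_of_sub {u : R} (hu : u - 1 ∈ L.lev.Φ.fil 1) : VL L u 0 1 := by
  have h1 : L.lev.mono (1 : A) 0 0 = 1 := by
    rw [Lev.mono, map_one, one_mul, L.lev.mon_zero]
  have h2 : u - L.lev.mono (1 : A) 0 (0 : ℕ) ∈ L.lev.Φ.fil (0 + 1) := by
    rw [h1]
    exact hu
  exact VL_of_sub_mono h2

/-- Adding an element of `fil 1` does not change the lead at value `0`. -/
lemma VL_of_sub_fil {a v : R} {f : A} (hv : VL L v 0 f) (h : a - v ∈ L.lev.Φ.fil 1) : VL L a 0 f := by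
  have hL : Low L (a - v) ((1 : ℕ) : ℤ) := Low.of_fil h
  have h0 : ∀ g : GLv, g ≤ 0 → L.c g (a - v) = 0 := by
    intro g hg
    apply hL
    have h2 : (ofLex g).1 ≤ (ofLex (0 : GLv)).1 := fst_mono hg
    have h3 : (ofLex (0 : GLv)).1 = 0 := rfl
    push_cast
    omega
  have h1 : a = (a - v) + v := by abel
  refine ⟨fun g hg => ?_, ?_⟩
  · rw [h1, Lv.c_add, h0 g hg.le, hv.lt g hg, add_zero]
  · rw [h1, Lv.c_add, h0 _ le_rfl, hv.eq, zero_add]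

/-- `F0` is commutative: the lifts live in the commutative `Ft`. -/
lemma comm_of_lifts {Ft : Subalgebra K' R} {F0 : Subalgebra K A} {y₀ r₁ : A} {ηe : CE}
    (TL : TestLifts L Ft F0 y₀ r₁ ηe) (hFt : ∀ a ∈ Ft, ∀ b ∈ Ft, a * b = b * a) {f f' : A}
    (hf : f ∈ F0) (hf' : f' ∈ F0) : f * f' = f' * f := by
  obtain ⟨a, ha, v, hv, -, hav⟩ := TL.lift f hf
  obtain ⟨a', ha', v', hv', -, hav'⟩ := TL.lift f' hf'
  have h1 := VL_of_sub_fil hv hav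
  have h1' := VL_of_sub_fil hv' hav'
  have h2 := h1.mul_zero_left h1'
  have h3 := h1'.mul_zero_left h1
  rw [hFt a ha a' ha'] at h2
  exact h2.eq.symm.trans h3.eq

/-- A field in `A` is nondegenerate for the trace. -/
lemma eq_of_pair {F0 : Subalgebra K A} (hinv : ∀ f ∈ F0, f⁻¹ ∈ F0) (h1 : τ 1 = 1) {a b : A}
    (ha : a ∈ F0) (hb : b ∈ F0) (h : ∀ f ∈ F0, τ (a * f) = τ (b * f)) : a = b := by
  by_contra hne
  have hd : a - b ≠ 0 := sub_ne_zero.2 hne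
  have hm := hinv _ (F0.sub_mem ha hb)
  have h2 := h _ hm
  have h3 : τ ((a - b) * (a - b)⁻¹) = 0 := by
    rw [sub_mul, map_sub, h2, sub_self]
  rw [mul_inv_cancel₀ hd, h1] at h3
  exact one_ne_zero h3

/-- (a = 0) The element `u` of `W ∩ Ft`, pairing with `Ft` as `x` does, where `x` has lead `w`
at `g₁`, `K(g₁) ≡ 0`, and `w` pairs with `F0` as `a ∈ F0`: `a ∈ lead_{g₁} W`. -/
theorem lead_of_a0 {Ft : Subalgebra K' R} {F0 : Subalgebra K A} {y₀ r₁ : A} {ηe : CE}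
    (TL : TestLeads L Ft F0 y₀ r₁ ηe) (h1 : τ 1 = 1) {W : Submodule K' R} {u x : R} (huW : u ∈ W)
    (hu : u ∈ Ft) (hp : ∀ b ∈ Ft, L.τ' (u * b) = L.τ' (x * b)) {g₁ : GLv}
    (hg₁ : (L.m : ℤ) ∣ κ (ofLex g₁).2) {w a : A} (hx : VL L x g₁ w) (ha : a ∈ F0)
    (hpair : ∀ f ∈ F0, τ (w * f) = τ (a * f)) : a ∈ L.leadK.lead g₁ W := by
  obtain ⟨h2, h3, h4⟩ := mov_a0 L TL h1 hu hp hg₁ (L.le_vK_iff.2 hx.lt)
  have h5 : L.c g₁ u = a := eq_of_pair TL.inv_mem h1 h3 ha (fun f hf => by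
    rw [h4 f hf, hx.eq, hpair f hf])
  exact L.mem_leadK.2 ⟨u, huW, h2, h5⟩

lemma cc_ne_zero {t : ℕ} (ht0 : 0 < t) (htm : t < L.m) : cc L t ≠ 0 := by
  intro h0
  have h1 := mul_geom_sum L.ζ t
  have h2 : ∑ i ∈ Finset.range t, L.ζ ^ i = 0 := h0
  rw [h2, mul_zero] at h1
  exact L.ζ_prim.pow_ne_one_of_pos_of_lt ht0.ne' htm (sub_eq_zero.1 h1.symm)

/-- (a = 1) -/
theorem lead_of_a1 {Ft : Subalgebra K' R} {F0 : Subalgebra K A} {y₀ r₁ : A} {ηe : CE}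
    (TL : TestLeads L Ft F0 y₀ r₁ ηe) (h1 : τ 1 = 1) {W : Submodule K' R} {u x : R} (huW : u ∈ W)
    (hu : u ∈ Ft) (hFt : ∀ a ∈ Ft, ∀ b ∈ Ft, a * b = b * a)
    (hp : ∀ b ∈ Ft, L.τ' (u * b) = L.τ' (x * b)) {n0 : CE} {j0 : ℕ} {w : A}
    (hκ : (L.m : ℤ) ∣ κ n0 + 1)
    (hx : x - L.lev.mono w n0 j0 ∈ L.lev.Φ.fil (j0 + 1)) {t : ℕ} (ht : L.m ∣ j0 + t) (ht0 : 0 < t)
    (htm : t < L.m) {μ a : A} (hμ : μ ∈ F0) (hr : r₁ = y₀ * μ) (ha : a ∈ F0)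
    (hpair : ∀ f ∈ F0, τ (w * f) = τ (a * f)) :
    a * μ ∈ L.leadK.lead (idx (n0 + ηe + sExp) (j0 : ℤ)) W := by
  obtain ⟨h2, h3, h4⟩ := mov_a1 L TL h1 hu hp hκ hx ht
  set g := idx (n0 + ηe + sExp) (j0 : ℤ) with hg
  set c0 : K := L.ζ ^ j0 * cc L t with hc0
  have hc0ne : c0 ≠ 0 := mul_ne_zero (pow_ne_zero _ L.ζ_ne) (cc_ne_zero ht0 htm)
  have hy : y₀ ^ t ∈ F0 := F0.pow_mem TL.y_mem t
  have hyne : y₀ ^ t ≠ 0 := pow_ne_zero _ TL.y_ne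
  have hcomm : ∀ {f f' : A}, f ∈ F0 → f' ∈ F0 → f * f' = f' * f := fun hf hf' =>
    comm_of_lifts TL.toTestLifts hFt hf hf'
  have h5 : L.c g u = c0 • (a * μ) := by
    refine eq_of_pair TL.inv_mem h1 h3 (F0.smul_mem (F0.mul_mem ha hμ) _) fun f' hf' => ?_
    have hf : f' * (y₀ ^ t)⁻¹ ∈ F0 := F0.mul_mem hf' (TL.inv_mem _ hy)
    have h6 := h4 _ hf
    have e1 : f' * (y₀ ^ t)⁻¹ * y₀ ^ t = f' := by
      rw [mul_assoc, inv_mul_cancel₀ hyne, mul_one]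
    have e2 : f' * (y₀ ^ t)⁻¹ * (y₀ ^ (t - 1) * r₁) = f' * μ := by
      have e3 : y₀ ^ (t - 1) * r₁ = y₀ ^ t * μ := by
        rw [hr, ← mul_assoc, ← pow_succ, Nat.sub_add_cancel ht0]
      rw [e3, ← mul_assoc, e1]
    rw [e1, e2, hpair _ (F0.mul_mem hf' hμ)] at h6
    rw [h6, smul_mul_assoc, map_smul, smul_eq_mul, hcomm hf' hμ, mul_assoc a μ f']
  have h7 : a * μ = c0⁻¹ • L.c g u := by
    rw [h5, smul_smul, inv_mul_cancel₀ hc0ne, one_smul]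
  rw [h7]
  exact Submodule.smul_mem _ _ (L.mem_leadK.2 ⟨u, huW, h2, rfl⟩)

lemma adjoin_comm (β : R) {a b : R} (ha : a ∈ Algebra.adjoin K' ({β} : Set R))
    (hb : b ∈ Algebra.adjoin K' ({β} : Set R)) : a * b = b * a := by
  have h := Algebra.isMulCommutative_adjoin K' (s := ({β} : Set R)) (fun x hx y hy => by
    rw [Set.mem_singleton_iff.1 hx, Set.mem_singleton_iff.1 hy])
  exact congrArg Subtype.val (h.is_comm.comm (⟨a, ha⟩ : Algebra.adjoin K' ({β} : Set R)) ⟨b, hb⟩)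

variable {F ι : Type*} [Field F] [Algebra F K'] [Algebra F R] [IsScalarTower F K' R]

/-- The pairing with `K'[β]` only sees `e`. -/
lemma pair_e (P' : Pt F K' R ι) (hτ' : ∀ x, P'.τ x = L.τ' x) {i : ℕ} {b : R}
    (hb : b ∈ Algebra.adjoin K' ({P'.β i} : Set R)) (x : R) :
    L.τ' (P'.e i x * b) = L.τ' (x * b) := by
  have h1 : P'.β i * b = b * P'.β i := adjoin_comm _ (Algebra.self_mem_adjoin_singleton _ _) hb
  rw [← hτ', ← hτ', P'.τ_comm, P'.τ_cent_e h1, P'.τ_comm]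

omit [Field K] [Algebra K A] in
/-- A derivation on a conjugate. -/
lemma der_conj (d : R → R) (hadd : ∀ x y, d (x + y) = d x + d y)
    (hmul : ∀ x y, d (x * y) = d x * y + x * d y) {H U βh δ : R} (hU : U ≠ 0)
    (hδ : U⁻¹ * (H * U) - βh = δ) (hβ : d βh = 0) :
    d H = (d U * U⁻¹) * H - H * (d U * U⁻¹) + U * d δ * U⁻¹ := by
  have hHg : H * U = U * (βh + δ) := by
    rw [← hδ, add_sub_cancel, mul_inv_cancel_left₀ hU]
  have h1 := congrArg d hHg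
  rw [hmul, hmul, hadd, hβ, zero_add] at h1
  have h3 : d H = (d U * (βh + δ) + U * d δ - H * d U) * U⁻¹ := by
    rw [← h1, add_sub_cancel_right, mul_inv_cancel_right₀ hU]
  have h4 : βh + δ = U⁻¹ * H * U := by
    rw [mul_assoc, ← hδ, add_sub_cancel]
  rw [h3, h4, sub_mul, add_mul]
  have h5 : d U * (U⁻¹ * H * U) * U⁻¹ = d U * U⁻¹ * H := by
    rw [mul_assoc, mul_assoc (U⁻¹ * H), mul_inv_cancel₀ hU, mul_one, mul_assoc]
  rw [h5, mul_assoc H]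
  abel

open LeadVN.LvData in
/-- The lead of an Euler derivative. -/
lemma VL_eul {δ E₀ : R} {j : ℕ} {φ : GLv →+ K} (hδ : δ - E₀ ∈ L.lev.Φ.fil (j + 1))
    (hE₀ : E₀ ∈ L.lev.Φ.fil j) {n0 : CE} {y : A}
    (hlow : ∀ n', n' < n0 → φ (idx n' (j : ℤ)) • L.lev.coeff n' j E₀ = 0)
    (heq : φ (idx n0 (j : ℤ)) • L.lev.coeff n0 j E₀ = y) : VL L (eulR L φ δ) (idx n0 (j : ℤ)) y := by
  have hc : ∀ g, L.c g (eulR L φ δ) = φ g • L.c g δ := fun g => coeff_eulR L φ δ g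
  have hcE : ∀ n', L.c (idx n' (j : ℤ)) δ = L.lev.coeff n' j E₀ := by
    intro n'
    have h1 := L.lev.coeff_fil (n := n') (j := j) hδ (by omega)
    rw [map_sub, sub_eq_zero] at h1
    rw [← h1, L.lev_coeff]
    rfl
  have hL : Low L δ (j : ℤ) := by
    have h1 : Low L (δ - E₀) (j : ℤ) := (Low.of_fil hδ).of_le (by push_cast; omega)
    have h2 : Low L E₀ (j : ℤ) := Low.of_fil hE₀
    have h3 := h1.add h2
    rwa [sub_add_cancel] at h3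
  refine ⟨fun g hg => ?_, ?_⟩
  · rw [hc]
    have hfst : (ofLex g).1 ≤ (j : ℤ) := fst_mono hg.le
    rcases lt_or_eq_of_le hfst with hlt | heq'
    · rw [hL g hlt, smul_zero]
    · have hg' : g = idx (ofLex g).2 (j : ℤ) := by
        rw [← heq']
        rfl
      have hlt : (ofLex g).2 < n0 := by
        rw [hg'] at hg
        have h2 := (Prod.Lex.toLex_lt_toLex.1 hg)
        rcases h2 with h2 | h2
        · exact absurd h2 (lt_irrefl _)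
        · exact h2.2
      rw [hg', hcE]
      exact hlow _ hlt
  · rw [hc, hcE, heq]

/-- A pairing partner of an element with central value and `τ(c x * f) ≠ 0`, `f ∈ F0`, is nonzero. -/
lemma ne_zero_of_pair {Ft : Subalgebra K' R} {F0 : Subalgebra K A} {y₀ r₁ : A} {ηe : CE}
    (TL : TestLifts L Ft F0 y₀ r₁ ηe) {u x : R} (hp : ∀ b ∈ Ft, L.τ' (u * b) = L.τ' (x * b))
    {g₁ : GLv} (hg₁ : (L.m : ℤ) ∣ κ (ofLex g₁).2) (hx : (g₁ : WithTop GLv) ≤ L.vK x) {f : A}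
    (hf : f ∈ F0) (hne : τ (L.c g₁ x * f) ≠ 0) : u ≠ 0 := by
  rintro rfl
  obtain ⟨b, hb, hVb, -⟩ := test_at TL hg₁ hf
  have h1 : (g₁ : WithTop GLv) ≤ L.vK 0 := by
    rw [L.vK_zero]
    exact le_top
  have h2 := L.pair_eqK (add_neg_cancel g₁) h1 hx (L.le_vK_iff.2 hVb.lt) (hp b hb)
  rw [hVb.eq, L.c_zero, zero_mul, map_zero] at h2
  exact hne h2.symm

end Abstract

variable [Tw0] [Tw] {F : Subfield U} [CentF F]

/-- `Mov_l(X̃)`. -/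
noncomputable abbrev MovX (Ls : Lst F) (n : ℕ) [Fact (F ≤ Kn n)] (l : ℕ) (X : Stt (n + 1)) :
    Submodule (Kn (n + 1)) (An (n + 1)) := (pt F (n + 1) X Ls.a).Mov l

/-- `K'[a_l(X̃)]`. -/
noncomputable abbrev FtX (Ls : Lst F) (n : ℕ) [Fact (F ≤ Kn n)] (l : ℕ) (X : Stt (n + 1)) :
    Subalgebra (Kn (n + 1)) (An (n + 1)) :=
  Algebra.adjoin (Kn (n + 1)) ({(pt F (n + 1) X Ls.a).β l} : Set _)

/-- The effect of a fresh move `τ₀ ∈ 𝕋₀`. -/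
theorem exists_move {l : ℕ} (Ls : Lst F) (n : ℕ) [Fact (F ≤ Kn n)] (ρ : Stt n) (r : ℕ)
    (S : ℕ → Set (An n)) (t1 t2 : Fin 2 → An n) (Xt : Stt (n + 1)) (gt : ℕ → An (n + 1))
    (S' : ℕ → Set (An (n + 1))) (hT : TestOut Ls n ρ l r S t1 t2 Xt gt S') (Kk jj : ℤ)
    {τ₀ : Fin 2 → An n} (hτ₀ : τ₀ ∈ (pt F n ρ Ls.a).T l)
    (hP : ∀ c ∈ (pt F n ρ Ls.a).KK l, (pt F n ρ Ls.a).PP l c t1 τ₀ = 0 ∧
      (pt F n ρ Ls.a).PP l c t2 τ₀ = 0) :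
    ∃ (u x : An (n + 1)) (n0 : CE) (j0 : ℕ), u ∈ MovX Ls n l Xt ∧ u ∈ FtX Ls n l Xt ∧
      (∀ b ∈ FtX Ls n l Xt, (lv n).τ' (u * b) = (lv n).τ' (x * b)) ∧
      ((lv n).m : ℤ) ∣ κ n0 - Kk ∧ ((lv n).m : ℤ) ∣ (j0 : ℤ) - jj ∧
      x - (lv n).lev.mono ((pt F n ρ Ls.a).dL l τ₀) n0 j0 ∈ (lv n).lev.Φ.fil (j0 + 1) := by
  obtain ⟨t', ht', n0, j0, τ', hκ, hjj, hj0, hτ', h0, hlead⟩ :=
    hT.fresh.lead Kk jj τ₀ hτ₀ ⟨hτ₀, fun _ c hc => (hP c hc).1, fun _ c hc => (hP c hc).2⟩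
  have hτ0 : τ' = 0 := h0 (fun c hc => (hP c hc).2)
  subst hτ0
  have hl : ∀ v, t' v - (lv n).lev.mono (τ₀ v) n0 j0 ∈ (lv n).lev.Φ.fil (j0 + 1) := by
    intro v
    have h1 := hlead v
    have h2 : (lv n).lev.mono ((0 : Fin 2 → An n) v) (n0 + mu1) j0 = 0 := by
      simp [Lev.mono]
    rwa [h2, sub_zero] at h1
  have h3 := KeyV3.d1_sub_mono (F := F) (lv n).lev (ρ := (pt F n ρ Ls.a).ρ) (X := Xt) (t := t')
    (τ₀ := τ₀) (n := n0) (j := j0) (KeyV3.X_sub_inc hT.sol) hl (Ls.a l)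
  have hM : (pt F (n + 1) Xt Ls.a).e l ((pt F (n + 1) Xt Ls.a).dL l t') ∈ MovX Ls n l Xt :=
    (pt F (n + 1) Xt Ls.a).mem_Mov.2 ⟨t', ht', rfl⟩
  refine ⟨_, (pt F (n + 1) Xt Ls.a).dL l t', n0, j0, hM, hT.mov_le hM, fun b hb => ?_, hκ, hjj, h3⟩
  exact pair_e (pt F (n + 1) Xt Ls.a)
    (fun x => (LinearMap.congr_fun (τ_succ n) x).symm) hb _

/-- The leads of `Mov_l(X̃)` from the fresh moves. -/
theorem mov_leads {l : ℕ} (Ls : Lst F) (n : ℕ) [Fact (F ≤ Kn n)] (ρ : Stt n) (r : ℕ)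
    (S : ℕ → Set (An n)) (t1 t2 : Fin 2 → An n) (Xt : Stt (n + 1)) (gt : ℕ → An (n + 1))
    (S' : ℕ → Set (An (n + 1))) (hT : TestOut Ls n ρ l r S t1 t2 Xt gt S') {y₀ μ : An n} {ηe : CE}
    (TL : TestLeads (lv n) (FtX Ls n l Xt) (Fy (pt F n ρ Ls.a) l y₀) y₀ (y₀ * μ) ηe)
    (hμ : μ ∈ Fy (pt F n ρ Ls.a) l y₀)
    (hT0 : ∀ z ∈ (pt F n ρ Ls.a).Mov l, ∃ τ₀ ∈ (pt F n ρ Ls.a).T l,
      (∀ c ∈ (pt F n ρ Ls.a).KK l, (pt F n ρ Ls.a).PP l c t1 τ₀ = 0 ∧ (pt F n ρ Ls.a).PP l c t2 τ₀ = 0) ∧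
      (pt F n ρ Ls.a).e l ((pt F n ρ Ls.a).dL l τ₀) = z)
    (j' : Fin (lv n).m) :
    (∀ a ∈ Ay (pt F n ρ Ls.a) l y₀, a ∈ (lv n).leadK.lead ((lv n).eK (⟨0, (lv n).m_pos⟩, j')) (MovX Ls n l Xt)) ∧
    ((j' : ℕ) ≠ 0 → ∀ a ∈ Ay (pt F n ρ Ls.a) l y₀,
      a * μ ∈ (lv n).leadK.lead ((lv n).eK (⟨0, (lv n).m_pos⟩, j')) (MovX Ls n l Xt)) := by
  classical
  set P := pt F n ρ Ls.a with hPd
  have h1 : τ n 1 = 1 := (hτ n).one
  have hFtc : ∀ a ∈ FtX Ls n l Xt, ∀ b ∈ FtX Ls n l Xt, a * b = b * a :=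
    fun a ha b hb => adjoin_comm _ ha hb
  have hcomm : ∀ {f f' : An n}, f ∈ Fy P l y₀ → f' ∈ Fy P l y₀ → f * f' = f' * f :=
    fun hf hf' => comm_of_lifts TL.toTestLifts hFtc hf hf'
  have hβ : P.β l ∈ Fy P l y₀ := Algebra.subset_adjoin (Set.mem_insert _ _)
  -- the pairing of `dL τ₀`
  have hpair : ∀ {τ₀ : Fin 2 → An n} {a z : An n}, P.e l (P.dL l τ₀) = z →
      (∀ f' ∈ Fy P l y₀, τ n (a * f') = τ n (z * f')) →
      ∀ f ∈ Fy P l y₀, τ n (P.dL l τ₀ * f) = τ n (a * f) := by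
    intro τ₀ a z hz hza f hf
    rw [hza f hf, ← hz]
    have hc : P.β l * f = f * P.β l := hcomm hβ hf
    have h2 := P.τ_cent_e hc (P.dL l τ₀)
    have h3 : ∀ x y, τ n (x * y) = τ n (y * x) := (hτ n).comm
    rw [h3 (P.dL l τ₀) f, h3 (P.e l (P.dL l τ₀)) f]
    exact h2.symm
  have hm0 : (0 : ℤ) < (lv n).m := by exact_mod_cast (lv n).m_pos
  refine ⟨?_, ?_⟩
  · rintro a ⟨haF, z, hz, hza⟩
    obtain ⟨τ₀, hτ₀, hP, hez⟩ := hT0 z hz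
    obtain ⟨u, x, n0, j0, huM, huF, hp, hκ, hjj, hx⟩ :=
      exists_move Ls n ρ r S t1 t2 Xt gt S' hT 0 ((j' : ℕ) : ℤ) hτ₀ hP
    have h2 := lead_of_a0 TL h1 huM huF hp (g₁ := idx n0 (j0 : ℤ))
      (by simpa using hκ) (VL_of_sub_mono hx) haF (hpair hez (fun f hf => hza f hf))
    have hsub : idx n0 (j0 : ℤ) - (lv n).eK (⟨0, (lv n).m_pos⟩, j') ∈ centLat (lv n).m := by
      refine ⟨?_, ?_⟩
      · show _ ∣ (j0 : ℤ) - ((j' : ℕ) : ℤ)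
        exact hjj
      · rw [κ_sub]
        show _ ∣ κ n0 - κ (ofLex ((lv n).eK (⟨0, (lv n).m_pos⟩, j'))).2
        rw [(lv n).eK_κ]
        simpa using hκ
    rwa [(lv n).leadK_eq_of_sub_mem hsub] at h2
  · rintro hj' a ⟨haF, z, hz, hza⟩
    obtain ⟨τ₀, hτ₀, hP, hez⟩ := hT0 z hz
    obtain ⟨u, x, n0, j0, huM, huF, hp, hκ, hjj, hx⟩ :=
      exists_move Ls n ρ r S t1 t2 Xt gt S' hT (-1) ((j' : ℕ) : ℤ) hτ₀ hP
    have hj'lt := j'.isLt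
    have hκ' : ((lv n).m : ℤ) ∣ κ n0 + 1 := by simpa using hκ
    have ht : (lv n).m ∣ j0 + ((lv n).m - (j' : ℕ)) := by
      have h3 : ((lv n).m : ℤ) ∣ ((j0 + ((lv n).m - (j' : ℕ)) : ℕ) : ℤ) := by
        have e : ((j0 + ((lv n).m - (j' : ℕ)) : ℕ) : ℤ) = ((j0 : ℤ) - ((j' : ℕ) : ℤ)) + (lv n).m := by
          push_cast [Nat.cast_sub hj'lt.le]
          ring
        rw [e]
        exact dvd_add hjj dvd_rfl
      exact_mod_cast h3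
    have h2 := lead_of_a1 TL h1 huM huF hFtc hp hκ' hx ht
      (by have := Nat.pos_of_ne_zero hj'; omega) (by have := Nat.pos_of_ne_zero hj'; omega) hμ rfl haF
      (hpair hez (fun f hf => hza f hf))
    have hsub : idx (n0 + ηe + sExp) (j0 : ℤ) - (lv n).eK (⟨0, (lv n).m_pos⟩, j') ∈ centLat (lv n).m := by
      refine ⟨?_, ?_⟩
      · show _ ∣ (j0 : ℤ) - ((j' : ℕ) : ℤ)
        exact hjj
      · rw [κ_sub]
        show _ ∣ κ (n0 + ηe + sExp) - κ (ofLex ((lv n).eK (⟨0, (lv n).m_pos⟩, j'))).2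
        rw [(lv n).eK_κ, map_add, map_add, TL.κη, κ_sExp, add_zero]
        simpa using hκ'
    rwa [(lv n).leadK_eq_of_sub_mem hsub] at h2

open LeadVN.LvData in
/-- The Euler element: `e_F(G_{n0}) ∈ lead₀ Mov_l(X̃)`, `n0` the lowest monomial of the error at order `j`. -/
theorem euler_lead {l : ℕ} (Ls : Lst F) (n : ℕ) [Fact (F ≤ Kn n)] (ρ : Stt n) (r : ℕ)
    (S : ℕ → Set (An n)) (t1 t2 : Fin 2 → An n) (Xt : Stt (n + 1)) (gt : ℕ → An (n + 1))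
    (S' : ℕ → Set (An (n + 1))) (hT : TestOut Ls n ρ l r S t1 t2 Xt gt S') {F0 : Subalgebra (Kn n) (An n)}
    {y₀ r₁ : An n} {ηe : CE} (TL : TestLeads (lv n) (FtX Ls n l Xt) F0 y₀ r₁ ηe)
    {j : ℕ} (hj : 2 ≤ j) (hmj : (lv n).m ∣ j) (Uu : An (n + 1)) (hU : Uu - 1 ∈ (lv n).lev.Φ.fil 1)
    (νl : ℕ) (s : Finset CE) (G : CE → An n) (n0 : CE) (hn0s : n0 ∈ s) (hκ : ((lv n).m : ℤ) ∣ κ n0)
    (hn0 : ∀ n' ∈ s, n' ≠ n0 → n0 < n' ∧ LeadVN.LvData.cw νl (idx n' 0) = 0)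
    (hn00 : LeadVN.LvData.cw νl (idx n0 0) = 0)
    (hH : Uu⁻¹ * (ev Xt (Ls.a l) * Uu) - (lv n).lev.inc ((pt F n ρ Ls.a).β l)
        - ((lv n).lev.mono (G (- cExp νl)) (- cExp νl) j + ∑ n' ∈ s, (lv n).lev.mono (G n') n' j)
        ∈ (lv n).lev.Φ.fil (j + 1))
    (e : An n) (he : e ∈ F0) (hτe : ∀ f ∈ F0, τ n (e * f) = τ n (G n0 * f)) (hjne : ((j : ℕ) : Kn n) ≠ 0) :
    e ∈ (lv n).leadK.lead 0 (MovX Ls n l Xt) := by
  classical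
  set P := pt F n ρ Ls.a with hPd
  set P' := pt F (n + 1) Xt Ls.a with hP'd
  set φ := eulerPhi (Kn n) νl j with hφ
  set D := eulR (lv n) φ with hD
  have h1 : τ n 1 = 1 := (hτ n).one
  have hτ' : ∀ x, P'.τ x = (lv n).τ' x := fun x => (LinearMap.congr_fun (τ_succ n) x).symm
  have hder : State.IsDer (F := F) D := isDer_eulR (lv n) φ
  have ht : (fun v => D (P'.ρ v)) ∈ P'.T l := P'.der_mem_T hder Ls.Q
    (fun i hi => (hT.valid.frozen i hi).1) (fun i hi => (hT.valid.frozen i hi).2)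
  have hM : P'.e l (P'.dL l (fun v => D (P'.ρ v))) ∈ MovX Ls n l Xt := P'.mem_Mov.2 ⟨_, ht, rfl⟩
  have hdβ : P'.dL l (fun v => D (P'.ρ v)) = D (P'.β l) :=
    (State.der_ev hder P'.ρ (P'.a l)).symm
  rw [hdβ] at hM
  set δ := Uu⁻¹ * (P'.β l * Uu) - (lv n).lev.inc (P.β l) with hδd
  have hUV : VL (lv n) Uu 0 1 := VL_one_of_sub hU
  have hUne : Uu ≠ 0 := hUV.ne_zero one_ne_zero
  have hconj := der_conj D hder.add hder.mul hUne hδd.symm (eulR_inc (lv n) φ (P.β l))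
  set x := Uu * D δ * Uu⁻¹ with hxd
  have hp : ∀ b ∈ FtX Ls n l Xt, (lv n).τ' (P'.e l (D (P'.β l)) * b) = (lv n).τ' (x * b) := by
    intro b hb
    rw [pair_e P' hτ' hb, hconj, add_mul, map_add]
    have hc : P'.β l * b = b * P'.β l := adjoin_comm _ (Algebra.self_mem_adjoin_singleton _ _) hb
    generalize D Uu * Uu⁻¹ = V
    have h6 : (lv n).τ' ((V * P'.β l - P'.β l * V) * b) = 0 := by
      rw [sub_mul, map_sub, sub_eq_zero]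
      rw [← hτ', ← hτ', mul_assoc, hc, ← mul_assoc, P'.τ_comm, mul_assoc]
    rw [h6, zero_add]
  -- the lead of `D δ`
  have hneg : idx (- cExp νl) (j : ℤ) = idx (nStar νl 0) (j : ℤ) := by
    simp [nStar]
  have hφ0 : φ (idx (- cExp νl) (j : ℤ)) = 0 := by
    rw [hneg]
    exact eulerPhi_nStar νl j 0
  have hφj : φ (idx n0 (j : ℤ)) = ((j : ℕ) : Kn n) := by
    rw [hφ, eulerPhi_apply]
    have h2 : cw νl (idx n0 (j : ℤ)) = 0 := hn00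
    rw [h2]
    simp [idx]
  have hne : n0 ≠ - cExp νl := by
    rintro rfl
    have h2 := cw_idx_nStar νl 0 0
    have h3 : nStar νl 0 = - cExp νl := by simp [nStar]
    rw [h3] at h2
    have h4 : cw νl (idx (- cExp νl) ((0 : ℕ) : ℤ)) = 0 := hn00
    rw [h4] at h2
    norm_num at h2
  have hE₀ : (lv n).lev.mono (G (- cExp νl)) (- cExp νl) j + ∑ n' ∈ s, (lv n).lev.mono (G n') n' j
      ∈ (lv n).lev.Φ.fil j :=
    add_mem ((lv n).lev.mono_mem _ _ _) ((lv n).lev.sum_mono_mem s G j)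
  have hcoef : ∀ n', (lv n).lev.coeff n' j ((lv n).lev.mono (G (- cExp νl)) (- cExp νl) j
      + ∑ n' ∈ s, (lv n).lev.mono (G n') n' j) =
      (if n' = - cExp νl then G (- cExp νl) else 0) + if n' ∈ s then G n' else 0 := by
    intro n'
    rw [map_add, (lv n).lev.coeff_sum_mono, Lev.coeff_mono']
    simp only [and_true]
  have hVL : VL (lv n) (D δ) (idx n0 (j : ℤ)) (((j : ℕ) : Kn n) • G n0) := by
    refine VL_eul hH hE₀ (fun n' hn' => ?_) ?_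
    · have hns : n' ∉ s := by
        intro hs
        by_cases h2 : n' = n0
        · exact absurd h2 hn'.ne
        · exact absurd hn' (not_lt.2 (hn0 n' hs h2).1.le)
      rw [hcoef, if_neg hns, add_zero]
      by_cases h2 : n' = - cExp νl
      · rw [h2, hφ0, zero_smul]
      · rw [if_neg h2, smul_zero]
    · rw [hcoef, if_neg hne, if_pos hn0s, zero_add, hφj]
  have hx : VL (lv n) x (idx n0 (j : ℤ)) (((j : ℕ) : Kn n) • G n0) := by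
    have h2 := (hUV.mul_zero_left hVL).mul_zero_right (vl_inv hUV)
    rwa [one_mul, mul_one] at h2
  have h2 := lead_of_a0 TL h1 hM (hT.mov_le hM) hp (g₁ := idx n0 (j : ℤ)) hκ hx
    (a := ((j : ℕ) : Kn n) • e) (F0.smul_mem he _)
    (fun f hf => by rw [smul_mul_assoc, map_smul, smul_mul_assoc, map_smul, hτe f hf])
  have hsub : idx n0 (j : ℤ) - 0 ∈ centLat (lv n).m := by
    rw [sub_zero]
    refine ⟨?_, hκ⟩
    show ((lv n).m : ℤ) ∣ (j : ℤ)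
    exact_mod_cast hmj
  rw [(lv n).leadK_eq_of_sub_mem hsub] at h2
  have h3 : e = ((j : ℕ) : Kn n)⁻¹ • (((j : ℕ) : Kn n) • e) := by
    rw [smul_smul, inv_mul_cancel₀ hjne, one_smul]
  rw [h3]
  exact Submodule.smul_mem _ _ h2

/-- `Mov_l(X̃) ≠ 0` from `TestLifts` alone. -/
theorem mov_ne {l : ℕ} (Ls : Lst F) (n : ℕ) [Fact (F ≤ Kn n)] (ρ : Stt n) (r : ℕ)
    (S : ℕ → Set (An n)) (t1 t2 : Fin 2 → An n) (Xt : Stt (n + 1)) (gt : ℕ → An (n + 1))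
    (S' : ℕ → Set (An (n + 1))) (hT : TestOut Ls n ρ l r S t1 t2 Xt gt S')
    {F0 : Subalgebra (Kn n) (An n)} {y₀ r₁ : An n} {ηe : CE}
    (TL : TestLifts (lv n) (FtX Ls n l Xt) F0 y₀ r₁ ηe) (hy₀ : y₀ ∈ (pt F n ρ Ls.a).Mov l)
    (hT0 : ∀ z ∈ (pt F n ρ Ls.a).Mov l, ∃ τ₀ ∈ (pt F n ρ Ls.a).T l,
      (∀ c ∈ (pt F n ρ Ls.a).KK l, (pt F n ρ Ls.a).PP l c t1 τ₀ = 0 ∧ (pt F n ρ Ls.a).PP l c t2 τ₀ = 0) ∧
      (pt F n ρ Ls.a).e l ((pt F n ρ Ls.a).dL l τ₀) = z) :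
    ∃ y' ∈ MovX Ls n l Xt, y' ≠ 0 := by
  set P := pt F n ρ Ls.a with hPd
  obtain ⟨τ₀, hτ₀, hP, hez⟩ := hT0 y₀ hy₀
  obtain ⟨u, x, n0, j0, huM, huF, hp, hκ, hjj, hx⟩ :=
    exists_move Ls n ρ r S t1 t2 Xt gt S' hT 0 0 hτ₀ hP
  have hV := VL_of_sub_mono hx
  refine ⟨u, huM, ne_zero_of_pair TL hp (g₁ := idx n0 (j0 : ℤ)) (by simpa using hκ)
    ((lv n).le_vK_iff.2 hV.lt) (TL.inv_mem _ TL.y_mem) ?_⟩
  rw [hV.eq]
  have hc0 : Commute (P.β l) y₀ := KeyV3.comm_of_mem_Mov P hy₀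
  have hc : P.β l * y₀⁻¹ = y₀⁻¹ * P.β l := hc0.inv_right₀.eq
  have h2 := P.τ_cent_e hc (P.dL l τ₀)
  have h3 : τ n (P.dL l τ₀ * y₀⁻¹) = 1 := by
    rw [(hτ n).comm]
    refine Eq.trans h2.symm ?_
    rw [hez, inv_mul_cancel₀ TL.y_ne]
    exact (hτ n).one
  rw [h3]
  exact one_ne_zero

end Crest.Agent.Kurosh.LiftTest
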