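/-
S0270 (Kurosh), §L: the rank clause of `RC` at the test state (helper31).
-/
import Crest.Agent.Kurosh.LiftTest
import Crest.Agent.Kurosh.ExploreLin
import Crest.Agent.Kurosh.OrcGlue
set_option autoImplicit false
set_option linter.unusedSectionVars false

namespace Crest.Agent.Kurosh.LiftTest
open Hensel State Module LU VLead LiftDefs
open _root_.Crest.Agent.Kurosh.Inv
open _root_.Crest.Agent.Kurosh.Inv.St
open LU.Tw0 LU.Tw Plan

variable [Tw0] [Tw] {F : Subfield U} [CentF F]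

/-- The rank clause of `RC` at the test state, for the index `l`. `hdim` is the bound
`dim Mov_l(X̃) ≤ m N`. If `q# = 0` every class is implied (`annl_le_ppl`), otherwise
`m² q# ≥ 5 q# + 2 m N + 2` since `m` is huge. -/
theorem rc_rank {l : ℕ} (Ls : Lst F) (n : ℕ) [Fact (F ≤ Kn n)] (ρ : Stt n) (r : ℕ)
    (S : ℕ → Set (An n)) (t1 t2 : Fin 2 → An n) (Xt : Stt (n + 1)) (gt : ℕ → An (n + 1))
    (S' : ℕ → Set (An (n + 1))) (hT : TestOut Ls n ρ l r S t1 t2 Xt gt S')
    (hdim : finrank (Kn (n + 1)) ((pt F (n + 1) Xt Ls.a).Mov l) ≤ (lv n).m * N n) :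
    ∀ c ∈ (pt F (n + 1) Xt Ls.a).KK l, c ∉ II (pt F (n + 1) Xt Ls.a) l →
      5 * qS Ls.R l + 2 * finrank (Kn (n + 1)) ((pt F (n + 1) Xt Ls.a).Mov l) + 2 ≤
        rkOn (pt F (n + 1) Xt Ls.a) l c ((pt F (n + 1) Xt Ls.a).T l) := by
  intro c hc hc0
  have hV := hT.valid
  by_cases hq : qS Ls.R l = 0
  · exfalso
    obtain ⟨u, hu, c', hc1, -, hc3⟩ := AdmExist.exists_top (pt F (n + 1) Xt Ls.a) hV le_rfl c hc
      (by rwa [AdmExist.IIT_self])
    have hqu : (Ls.R u).q = 0 := by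
      have : (Ls.R u).q ≤ qS Ls.R l :=
        Finset.single_le_sum (f := fun u => (Ls.R u).q) (fun _ _ => Nat.zero_le _)
          (Finset.mem_range.mpr hu)
      omega
    have hcod := hV.mov_codim u hu
    rw [hqu, add_zero] at hcod
    exact hc3 (OrcGlue.annl_le_ppl _ (hV.mov_le u hu) hcod (OrcGlue.last_mem_annl _ hc1))
  · have h := ExploreLin.rank_of_top (pt F (n + 1) Xt Ls.a) hV (M := (lv n).m ^ 2 * qS Ls.R l)
      hT.rank c hc hc0
    refine le_trans ?_ h
    have hm := m_big n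
    have hN := N_pos n
    have hq1 : 1 ≤ qS Ls.R l := Nat.one_le_iff_ne_zero.mpr hq
    set m := (lv n).m
    set q := qS Ls.R l
    set N0 := N n
    have hN2 : N0 ≤ N0 ^ 2 := by nlinarith
    have hm2 : 100 * N0 + 100 ≤ m := by omega
    have h1 : 7 + 2 * N0 ≤ m := by omega
    have h2 : (5 + 2 * N0) * m + 2 ≤ m ^ 2 := by nlinarith
    have h3 : 5 * q + 2 * (m * N0) + 2 ≤ m ^ 2 * q := by
      have h4 : 2 * (m * N0) + 2 + 5 ≤ m ^ 2 := by nlinarith
      nlinarith
    omega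

end Crest.Agent.Kurosh.LiftTest
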