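/-
S0270 (Kurosh), §L (helper94): the main lifting test.
-/
import Crest.Agent.Kurosh.LiftMovF
import Crest.Agent.Kurosh.LiftLeads
import Crest.Agent.Kurosh.LiftAlg5
import Crest.Agent.Kurosh.LiftCount
import Crest.Agent.Kurosh.AdmExist
import Crest.Agent.Kurosh.LyFacts
import Crest.Agent.Kurosh.ExploreLin
import Crest.Agent.Kurosh.LiftE4
import Crest.Agent.Kurosh.LiftRC
import Crest.Agent.Kurosh.LiftGlue

set_option autoImplicit false
set_option linter.unusedSectionVars false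
set_option linter.unusedVariables false

namespace Crest.Agent.Kurosh.LiftMain

open Hensel State Module LU VLead LiftDefs LiftTest LiftE4
open _root_.Crest.Agent.Kurosh.Inv
open _root_.Crest.Agent.Kurosh.Inv.St
open LU.Tw0 LU.Tw Plan

variable [Tw0] [Tw] {F : Subfield U} [CentF F]

lemma pos_eta (ν : ℕ) : 0 < cExp ν + sExp := by
  have h1 := LiftTest.nStar_lt (w := ν) (n0 := 0) (map_zero _) (-1)
  have h2 : LeadVN.LvData.nStar ν (-1) = - (cExp ν + sExp) := by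
    simp [LeadVN.LvData.nStar]
    abel
  rw [h2] at h1
  exact neg_lt_zero.1 h1

theorem main_test {l : ℕ} (h1 : Orc F l) (h2 : Val F l l) (h3 : KeyS F l) (Ls : Lst F) (n : ℕ)
    [Fact (F ≤ Kn n)] (ρ : Stt n) (r : ℕ) (S : ℕ → Set (An n)) (TT : Submodule (Kn n) (Fin 2 → An n))
    (hlr : l < r) (hC : Ctx F Ls n ρ l r S TT) (t1 t2 : Fin 2 → An n)
    (hA : Adm (pt F n ρ Ls.a) l TT t1 t2) {j : ℕ} (hj : 2 ≤ j) (hmj : (lv n).m ∣ j) (X : Stt (n + 1))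
    (g : ℕ → An (n + 1)) (gl : An (n + 1))
    (hex : ∀ J, (lv n).lev.PSol (pt F n ρ Ls.a) l J t1 t2 X g)
    (hF : Frame F Ls n ρ l t1 t2 j X gl)
    (hE : ∀ n0, (pt F n ρ Ls.a).β l * (lv n).lev.coeff n0 j (Er Ls n ρ l X gl) =
      (lv n).lev.coeff n0 j (Er Ls n ρ l X gl) * (pt F n ρ Ls.a).β l)
    (hκ : ∀ n0, (lv n).lev.coeff n0 j (Er Ls n ρ l X gl) ≠ 0 → ((lv n).m : ℤ) ∣ κ n0)
    (n0 : CE) (hn0 : ((lv n).m : ℤ) ∣ κ n0)
    (hlow : ∀ n', (lv n).lev.coeff n' j (Er Ls n ρ l X gl) ≠ 0 → n0 ≤ n')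
    (y₀ : An n) (hy₀ : Good (pt F n ρ Ls.a) (N n) (Ls.R l) l y₀) :
    finrank (Kn n) (Ay (pt F n ρ Ls.a) l y₀) + (Ls.R l).q ≤ N n / (Ls.R l).σ ∧
    ∀ f ∈ Fy (pt F n ρ Ls.a) l y₀, (∀ a ∈ Ay (pt F n ρ Ls.a) l y₀, (τ n) (f * a) = 0) →
      (τ n) (f * (lv n).lev.coeff n0 j (Er Ls n ρ l X gl)) = 0 := by
  classical
  set P := pt F n ρ Ls.a with hP
  have hV : Valid P (N n) Ls.R Ls.Q l r S TT := hC.valid
  have hq := hV.q_small l hlr
  have hτ1 : P.τ 1 = 1 := hV.one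
  obtain ⟨μ, hμL, hyμ, hμcov⟩ := exists_mu P hτ1 hy₀ hq
  obtain ⟨hyμF, z, hzM, hzp⟩ := hyμ
  have hTTl : TT ≤ P.T (l + 1) := hV.TT_le.trans (P.T_anti hlr)
  have hT0 : ∀ z ∈ P.Mov l, ∃ τ₀ ∈ P.T l,
      (∀ c ∈ P.KK l, P.PP l c t1 τ₀ = 0 ∧ P.PP l c t2 τ₀ = 0) ∧ P.e l (P.dL l τ₀) = z := by
    intro z hz
    obtain ⟨τ₀, h4, h5, h6⟩ := AdmExist.exists_T0_of_mem_Mov P hA hTTl hz
    exact ⟨τ₀, h4, h6, h5⟩
  -- the test state
  obtain ⟨Xt, gt, S', Uu, νl, νη, s, s', Zf, hT, hU, hs, hsl, hs', hH⟩ :=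
    test_state h1 h2 Ls n ρ r S TT hlr hC t1 t2 hA hj X g gl hex hF hE y₀ z hy₀.mem hzM
  have hτn : Valued.IsTraceForm (τ n) := Tw.hτ n
  have hτ' : Valued.IsTraceForm (lv n).τ' := by
    rw [Tw.τ_succ]
    exact Tw.hτ (n + 1)
  have hCn : ∀ a : An n, (∀ x, a * x = x * a) → ∃ c : Kn n, a = algebraMap (Kn n) (An n) c :=
    fun a ha => hV.comm a fun v => ha _
  have hCn' : ∀ a : An (n + 1), (∀ x, a * x = x * a) → ∃ c : Kn (n + 1), a = algebraMap (Kn (n + 1)) (An (n + 1)) c :=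
    fun a ha => hT.valid.comm a fun v => ha _
  have hβc : ∀ x ∈ P.Mov l, P.β l * x = x * P.β l := fun x hx => mem_cent.1 (P.Mov_le_cent l hx)
  obtain ⟨F0, r₁, TL₀, hβF, hr₁c, hr₁p⟩ := LiftAlg.test_lifts (lv n) hτn hτ' hCn hCn' hj hmj
    (hβc _ hy₀.mem) hy₀.ne (hβc _ hzM) (κ_cExp νl) (κ_cExp νη) (pos_eta νη)
    (fun n' _ => hE n') (fun n' _ hne => hκ n' hne) (fun n' hn' => (hsl n' hn').1)
    (fun n' hn' => (hs' n' hn').1) (fun n' hn' => (hs' n' hn').2) hH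
  -- transport to `FtX`
  have hUne : Uu ≠ 0 := LiftTest.ne_zero_of_sub_one (lv n) hU
  have hconj : ∀ x ∈ Algebra.adjoin (Kn (n + 1)) ({Uu⁻¹ * (ev Xt (Ls.a l) * Uu)} : Set (An (n + 1))),
      Uu * x * Uu⁻¹ ∈ FtX Ls n l Xt := by
    intro x hx
    induction hx using Algebra.adjoin_induction with
    | mem x hx =>
      rw [Set.mem_singleton_iff] at hx
      subst hx
      have e1 : Uu * (Uu⁻¹ * (ev Xt (Ls.a l) * Uu)) * Uu⁻¹ = ev Xt (Ls.a l) := by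
        rw [← mul_assoc, mul_inv_cancel₀ hUne, one_mul, mul_assoc, mul_inv_cancel₀ hUne, mul_one]
      rw [e1]
      exact Algebra.subset_adjoin (Set.mem_singleton _)
    | algebraMap c =>
      rw [← Algebra.commutes, mul_assoc, mul_inv_cancel₀ hUne, mul_one]
      exact Subalgebra.algebraMap_mem _ _
    | add x y _ _ hx hy =>
      rw [mul_add, add_mul]
      exact add_mem hx hy
    | mul x y _ _ hx hy =>
      have e1 : Uu * (x * y) * Uu⁻¹ = (Uu * x * Uu⁻¹) * (Uu * y * Uu⁻¹) := by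
        calc Uu * (x * y) * Uu⁻¹ = Uu * x * (Uu⁻¹ * Uu) * y * Uu⁻¹ := by
              rw [inv_mul_cancel₀ hUne, mul_one, mul_assoc Uu x y]
          _ = _ := by noncomm_ring
      rw [e1]
      exact mul_mem hx hy
  have TL : TestLifts (lv n) (FtX Ls n l Xt) F0 y₀ r₁ (cExp νη) := TL₀.conj hU hconj
  -- the class bound
  obtain ⟨y₁, hy₁, hy₁ne⟩ := mov_ne Ls n ρ r S t1 t2 Xt gt S' hT TL hy₀.mem hT0
  set P' := pt F (n + 1) Xt Ls.a with hP'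
  obtain ⟨hb1, -⟩ := hT.cb y₁ hy₁ hy₁ne
  obtain ⟨hdvd1, hdvd2⟩ := hV.dvd l hlr
  have hNpos : 0 < N n := Tw.N_pos n
  have hNs : N (n + 1) = N n * (lv n).m := Tw.N_succ n
  have hmpos : 0 < (lv n).m := (lv n).m_pos
  have hmbig : 100 * N n ^ 2 + 100 ≤ (lv n).m := Tw.m_big n
  obtain ⟨nl, hnl⟩ : ∃ nl, nl = (Ls.R l).n := ⟨_, rfl⟩
  obtain ⟨sg, hsg⟩ : ∃ sg, sg = (Ls.R l).σ := ⟨_, rfl⟩
  obtain ⟨qq, hqq⟩ : ∃ qq, qq = (Ls.R l).q := ⟨_, rfl⟩
  have hD : nl * finrank (Kn n) (Fy P l y₀) = N n := by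
    rw [hy₀.dimF, hnl]
    exact Nat.mul_div_cancel' hdvd1
  have hΛ : sg * finrank (Kn n) (Ly P l y₀) = N n := by
    rw [hy₀.dimL, hsg]
    exact Nat.mul_div_cancel' hdvd2
  have hnlpos : 0 < nl := by
    rcases Nat.eq_zero_or_pos nl with h0 | h0
    · rw [h0, zero_mul] at hD
      omega
    · exact h0
  have hsgpos : 0 < sg := by
    rcases Nat.eq_zero_or_pos sg with h0 | h0
    · rw [h0, zero_mul] at hΛ
      omega
    · exact h0
  obtain ⟨DD, hDD⟩ : ∃ DD, DD = finrank (Kn n) (Fy P l y₀) := ⟨_, rfl⟩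
  obtain ⟨Λ, hΛd⟩ : ∃ Λ, Λ = finrank (Kn n) (Ly P l y₀) := ⟨_, rfl⟩
  rw [← hDD] at hD
  rw [← hΛd] at hΛ
  obtain ⟨dFt, hdFt⟩ : ∃ dFt, dFt = finrank (Kn (n + 1)) (FtX Ls n l Xt) := ⟨_, rfl⟩
  have hdFt' : dFt = finrank (Kn (n + 1)) (Algebra.adjoin (Kn (n + 1)) ({P'.β l} : Set _)) := hdFt
  rw [← hnl, ← hdFt', hNs] at hb1
  have hFt1 : dFt ≤ DD * (lv n).m := by
    refine Nat.le_of_mul_le_mul_left ?_ hnlpos
    calc nl * dFt ≤ N n * (lv n).m := hb1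
      _ = nl * (DD * (lv n).m) := by rw [← hD]; ring
  have hF0ge := TL.finrank_le
  rw [← hdFt] at hF0ge
  have hyF0 : y₀ ∈ F0 := TL.y_mem
  have hFyF0 : Fy P l y₀ ≤ F0 := by
    refine Algebra.adjoin_le ?_
    rintro x (rfl | hx)
    · exact hβF
    · rw [Set.mem_singleton_iff] at hx
      subst hx
      exact hyF0
  have hF0le : finrank (Kn n) F0 ≤ DD := by
    refine Nat.le_of_mul_le_mul_left ?_ hmpos
    calc (lv n).m * finrank (Kn n) F0 ≤ dFt := hF0ge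
      _ ≤ DD * (lv n).m := hFt1
      _ = (lv n).m * DD := Nat.mul_comm _ _
  have hFyeq : Fy P l y₀ = F0 := by
    apply Subalgebra.toSubmodule_injective
    refine Submodule.eq_of_le_of_finrank_le hFyF0 ?_
    have h4 := hF0le
    rw [hDD] at h4
    exact h4
  subst hFyeq
  have hFyF : ∀ {x}, x ∈ Fy P l y₀ → x ∈ (Fy P l y₀ : Subalgebra (Kn n) (An n)) := fun hx => hx
  have hFt2 : dFt = DD * (lv n).m := by
    refine le_antisymm hFt1 ?_
    rw [hDD, Nat.mul_comm]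
    exact hF0ge
  have TLd : TestLeads (lv n) (FtX Ls n l Xt) (Fy P l y₀) y₀ r₁ (cExp νη) := by
    refine TestLeads.of_lifts TL ?_
    rw [← hdFt, hFt2, ← hDD, Nat.mul_comm]
  -- `r₁ = y₀ μ`
  have hcommF : ∀ a ∈ Fy P l y₀, ∀ b ∈ Fy P l y₀, a * b = b * a := by
    intro a ha b hb
    refine LiftAlg.comm_of_adjoin ?_ ha hb
    rintro x (rfl | hx) w (rfl | hw)
    · rfl
    · rw [Set.mem_singleton_iff] at hw; subst hw; exact hβc _ hy₀.mem
    · rw [Set.mem_singleton_iff] at hx; subst hx; exact (hβc _ hy₀.mem).symm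
    · rw [Set.mem_singleton_iff] at hx hw; subst hx; subst hw; rfl
  have hFC : ∀ a ∈ Fy P l y₀, a ∈ Subalgebra.centralizer (Kn n) (Fy P l y₀ : Set (An n)) := by
    intro a ha
    rw [Subalgebra.mem_centralizer_iff]
    intro b hb
    exact hcommF b hb a ha
  have hKk := (h3 Ls n ρ r S TT hlr hC t1 t2 hA y₀ hy₀).1
  have hr₁eq : r₁ = y₀ * μ := by
    have h4 : r₁ - y₀ * μ ∈ Subalgebra.centralizer (Kn n) (Fy P l y₀ : Set (An n)) :=
      sub_mem hr₁c (hFC _ hyμF)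
    have h5 := CentFactsB.eq_zero_of_orth hτ1 (Subalgebra.centralizer (Kn n) (Fy P l y₀ : Set (An n))) h4
      fun q hq => by
        rw [P.τ_comm, sub_mul, map_sub]
        have h6 := pair_centralizer P hτ1 hy₀ hKk hyμF hzM hzp q hq
        have h7 : P.τ (r₁ * q) = P.τ (z * q) := hr₁p q hq
        rw [h6, h7, sub_self]
    exact sub_eq_zero.1 h5
  subst hr₁eq
  have hy₀F : y₀ ∈ Fy P l y₀ := TL.y_mem
  have hLyF : Ly P l y₀ ≤ Fy P l y₀ := by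
    refine Algebra.adjoin_le ?_
    rintro _ ⟨a, ha, rfl⟩
    exact mul_mem (DoubleCent.inv_mem_subalgebra _ hy₀F) ha.1
  have hμF : μ ∈ Fy P l y₀ := hLyF hμL
  have hML := mov_leads Ls n ρ r S t1 t2 Xt gt S' hT TLd hμF hT0
  have hm0 : (lv n).eK (⟨0, (lv n).m_pos⟩, ⟨0, (lv n).m_pos⟩) = 0 := rfl
  have hAy : Ay P l y₀ ≤ (lv n).leadK.lead 0 (MovX Ls n l Xt) := by
    intro a ha
    have h4 := (hML ⟨0, (lv n).m_pos⟩).1 a ha
    rwa [hm0] at h4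
  have hy₀A : y₀ ∈ Ay P l y₀ := ⟨hy₀F, y₀, hy₀.mem, fun _ _ => rfl⟩
  obtain ⟨y', hy'M, hy'v, hy'c⟩ := hAy hy₀A
  have hVy' : VL (lv n) y' 0 y₀ := ⟨(lv n).le_vK_iff.1 hy'v, hy'c⟩
  have hy'ne : y' ≠ 0 := hVy'.ne_zero hy₀.ne
  have hr : ∀ r' : Fin (lv n).m, (r' : ℕ) ≠ 0 → ∀ ℓ ∈ Ly P l y₀,
      y₀ * ℓ ∈ (lv n).leadK.lead ((lv n).eK (⟨0, (lv n).m_pos⟩, r')) (MovX Ls n l Xt) := by
    intro r' hr' ℓ hℓ
    obtain ⟨a, ha, a', ha', he⟩ := hμcov ℓ hℓ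
    rw [he]
    exact add_mem ((hML r').1 a ha) ((hML r').2 hr' a' ha')
  -- the Euler element
  obtain ⟨G, hG⟩ : ∃ G, G = (lv n).lev.coeff n0 j (Er Ls n ρ l X gl) := ⟨_, rfl⟩
  have hτn1 : P.τ 1 = 1 := hτ1
  obtain ⟨e, heF, hτe, heL⟩ : ∃ e ∈ Fy P l y₀, (∀ f ∈ Fy P l y₀, τ n (e * f) = τ n (G * f)) ∧
      e ∈ (lv n).leadK.lead 0 (MovX Ls n l Xt) := by
    by_cases hG0 : G = 0
    · refine ⟨0, zero_mem _, fun f _ => ?_, zero_mem _⟩
      rw [hG0]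
    · have hn0ne : (lv n).lev.coeff n0 j (Er Ls n ρ l X gl) ≠ 0 := by rw [← hG]; exact hG0
      obtain ⟨e, he⟩ : ∃ e, e = CentFactsB.proj hτ1 P.τ_comm (Fy P l y₀) G := ⟨_, rfl⟩
      have heF : e ∈ Fy P l y₀ := by
        rw [he]
        exact CentFactsB.proj_mem hτ1 P.τ_comm _ _
      have hτe : ∀ f ∈ Fy P l y₀, τ n (e * f) = τ n (G * f) := by
        intro f hf
        have h4 := (CentFactsB.mem_orth P.τ).mp
          (CentFactsB.sub_proj_mem_orth hτ1 P.τ_comm (Fy P l y₀) G) f hf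
        rw [← he, mul_sub, map_sub, sub_eq_zero] at h4
        have h5 : P.τ (e * f) = P.τ (G * f) := by
          rw [P.τ_comm e f, P.τ_comm G f]
          exact h4.symm
        exact h5
      refine ⟨e, heF, hτe, ?_⟩
      have hn0s : n0 ∈ s := hs n0 hn0ne
      have hn0c : n0 ≠ - cExp νl := fun h => by
        have := (hsl n0 hn0s).1
        rw [h] at this
        exact lt_irrefl _ this
      obtain ⟨G', hG'⟩ : ∃ G' : CE → An n, G' = fun n' =>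
        if n' = - cExp νl then y₀ else (lv n).lev.coeff n' j (Er Ls n ρ l X gl) := ⟨_, rfl⟩
      have hG'1 : G' (- cExp νl) = y₀ := by rw [hG']; simp
      have hG'2 : ∀ n' ∈ s, G' n' = (lv n).lev.coeff n' j (Er Ls n ρ l X gl) := fun n' hn' => by
        have h4 : n' ≠ - cExp νl := fun h => by
          have := (hsl n' hn').1
          rw [h] at this
          exact lt_irrefl _ this
        rw [hG']
        simp [h4]
      obtain ⟨s₀, hs₀⟩ : ∃ s₀, s₀ = s.filter (fun n' => (lv n).lev.coeff n' j (Er Ls n ρ l X gl) ≠ 0) :=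
        ⟨_, rfl⟩
      have hmem₀ : ∀ n', n' ∈ s₀ ↔ n' ∈ s ∧ (lv n).lev.coeff n' j (Er Ls n ρ l X gl) ≠ 0 := fun n' => by
        rw [hs₀, Finset.mem_filter]
      have hsum : ∑ n' ∈ s₀, (lv n).lev.mono (G' n') n' j =
          ∑ n' ∈ s, (lv n).lev.mono ((lv n).lev.coeff n' j (Er Ls n ρ l X gl)) n' j := by
        have h4 : ∑ n' ∈ s₀, (lv n).lev.mono (G' n') n' j =
            ∑ n' ∈ s₀, (lv n).lev.mono ((lv n).lev.coeff n' j (Er Ls n ρ l X gl)) n' j :=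
          Finset.sum_congr rfl fun n' hn' => by rw [hG'2 n' ((hmem₀ n').1 hn').1]
        rw [h4, hs₀]
        refine Finset.sum_filter_of_ne fun n' _ hne => ?_
        intro h5
        exact hne (by rw [h5, (lv n).lev.mono_zero])
      have hHH : Uu⁻¹ * (ev Xt (Ls.a l) * Uu) - (lv n).lev.inc (P.β l)
          - ((lv n).lev.mono (G' (- cExp νl)) (- cExp νl) j + ∑ n' ∈ s₀, (lv n).lev.mono (G' n') n' j)
          ∈ (lv n).lev.Φ.fil (j + 1) := by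
        rw [hsum, hG'1]
        have h4 : (lv n).lev.mono y₀ (- (2 : ℤ) • cExp νη) (j + 1) + (lv n).lev.mono z (- cExp νη + sExp) (j + 1)
            + ∑ n' ∈ s', (lv n).lev.mono (Zf n') n' (j + 1) ∈ (lv n).lev.Φ.fil (j + 1) :=
          add_mem (add_mem ((lv n).lev.mono_mem _ _ _) ((lv n).lev.mono_mem _ _ _))
            (sum_mem fun n' _ => (lv n).lev.mono_mem _ _ _)
        have h5 := add_mem ((lv n).lev.Φ.anti (Nat.le_succ (j + 1)) hH) h4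
        convert h5 using 1
        abel
      have hjne : ((j : ℕ) : Kn n) ≠ 0 := Nat.cast_ne_zero.2 (by omega)
      refine euler_lead Ls n ρ r S t1 t2 Xt gt S' hT TLd hj hmj Uu hU νl s₀ G' n0 ?_ hn0 ?_ ?_ hHH e heF
        ?_ hjne
      · exact (hmem₀ n0).2 ⟨hn0s, hn0ne⟩
      · intro n' hn' hne
        obtain ⟨h4, h5⟩ := (hmem₀ n').1 hn'
        exact ⟨lt_of_le_of_ne (hlow n' h5) (Ne.symm hne), (hsl n' h4).2⟩
      · exact (hsl n0 hn0s).2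
      · intro f hf
        rw [hτe f hf, hG, hG'2 n0 hn0s]
  -- the count
  have hm3 : 3 ≤ (lv n).m := by
    have : 0 ≤ 100 * N n ^ 2 := Nat.zero_le _
    omega
  have hLp : ∀ x ∈ MovX Ls n l Xt, y'⁻¹ * x ∈ Ly P' l y' := fun x hx =>
    inv_mul_mem_Ly P' hT.valid.one hT.mov_le hy'M hx
  obtain ⟨hc1, hc2⟩ := count_main (lv n) hm3 hy'M (zero_mem _) hy₀.ne hVy' hLp hAy heL hr
  rw [← hΛd] at hc1 hc2
  obtain ⟨dLp, hdLp⟩ : ∃ dLp, dLp = finrank (Kn (n + 1)) (Ly P' l y') := ⟨_, rfl⟩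
  obtain ⟨dM, hdM⟩ : ∃ dM, dM = finrank (Kn (n + 1)) (MovX Ls n l Xt) := ⟨_, rfl⟩
  obtain ⟨dAe, hdAe⟩ : ∃ dAe, dAe = finrank (Kn n) ↥(Ay P l y₀ ⊔ Submodule.span (Kn n) {e}) := ⟨_, rfl⟩
  obtain ⟨dA, hdA⟩ : ∃ dA, dA = finrank (Kn n) (Ay P l y₀) := ⟨_, rfl⟩
  rw [← hdLp] at hc1
  rw [← hdM, ← hdAe] at hc2
  have hdM' : dM = finrank (Kn (n + 1)) (P'.Mov l) := hdM
  -- the class bound at `y'`
  obtain ⟨-, hCB⟩ := hT.cb y' hy'M hy'ne
  have hFtEq : (Ls.R l).n * finrank (Kn (n + 1)) (Algebra.adjoin (Kn (n + 1)) ({P'.β l} : Set _)) =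
      N (n + 1) := by
    rw [← hdFt', hFt2, ← hnl, hNs, ← hD]
    ring
  obtain ⟨hCB1, hCB2⟩ := hCB hFtEq
  rw [← hsg, ← hdLp, hNs] at hCB1
  have hLpeq : dLp = (lv n).m * Λ := by
    refine le_antisymm ?_ hc1
    refine Nat.le_of_mul_le_mul_left ?_ hsgpos
    calc sg * dLp ≤ N n * (lv n).m := hCB1
      _ = sg * ((lv n).m * Λ) := by rw [← hΛ]; ring
  have hσEq : (Ls.R l).σ * finrank (Kn (n + 1)) (Ly P' l y') = N (n + 1) := by
    rw [← hsg, ← hdLp, hLpeq, hNs, ← hΛ]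
    ring
  have hdimA : N n / (Ls.R l).σ ≤ dA + (Ls.R l).q := by
    rw [hdA]
    exact hy₀.dimA
  have hΛ2 : N n / (Ls.R l).σ = Λ := by
    rw [hΛd, hy₀.dimL]
  rw [hΛ2, ← hqq] at hdimA
  rw [hΛ2, ← hqq] at hq
  have hAe : dA ≤ dAe := by
    rw [hdA, hdAe]
    exact Submodule.finrank_mono le_sup_left
  have hmΛ : (lv n).m * Λ = ((lv n).m - 1) * Λ + Λ := by
    obtain ⟨k, hk⟩ : ∃ k, (lv n).m = k + 1 := ⟨(lv n).m - 1, by omega⟩
    rw [hk]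
    simp
    ring
  have hMovFt : dM ≤ dFt := by
    rw [hdM, hdFt]
    exact Submodule.finrank_mono hT.mov_le
  have hDN : DD ≤ N n := by
    rw [← hD]
    exact Nat.le_mul_of_pos_left _ hnlpos
  have hMdim : finrank (Kn (n + 1)) (P'.Mov l) ≤ (lv n).m * N n := by
    rw [← hdM', Nat.mul_comm]
    calc dM ≤ dFt := hMovFt
      _ = DD * (lv n).m := hFt2
      _ ≤ N n * (lv n).m := Nat.mul_le_mul_right _ hDN
  have hRC : RC P' (N (n + 1)) Ls.R l (finrank (Kn (n + 1)) (Ly P' l y')) := by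
    refine ⟨?_, rc_rank Ls n ρ r S t1 t2 Xt gt S' hT hMdim⟩
    rw [← hdLp, ← hdM', hLpeq]
    have h4 : Λ ≤ (lv n).m * Λ := Nat.le_mul_of_pos_left _ hmpos
    omega
  have hq3 := hCB2 hσEq hRC
  rw [← hqq, ← hdLp, ← hdM'] at hq3
  -- `Mov' → Lp` is injective
  have hMLp : dM ≤ dLp := by
    rw [hdM, hdLp]
    have hinj : Function.Injective (LinearMap.mulLeft (Kn (n + 1)) y'⁻¹) :=
      mul_right_injective₀ (inv_ne_zero hy'ne)
    have e1 := (Submodule.equivMapOfInjective (LinearMap.mulLeft (Kn (n + 1)) y'⁻¹) hinj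
      (MovX Ls n l Xt)).finrank_eq
    rw [e1]
    refine Submodule.finrank_mono (s := (MovX Ls n l Xt).map (LinearMap.mulLeft (Kn (n + 1)) y'⁻¹))
      (t := Subalgebra.toSubmodule (Ly P' l y')) ?_
    rintro _ ⟨x, hx, rfl⟩
    exact hLp x hx
  have hfin : dAe + qq ≤ Λ := by omega
  have hAeq : Ay P l y₀ = Ay P l y₀ ⊔ Submodule.span (Kn n) {e} := by
    refine Submodule.eq_of_le_of_finrank_le le_sup_left ?_
    rw [← hdAe, ← hdA]
    omega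
  have heA : e ∈ Ay P l y₀ := by
    rw [hAeq]
    exact Submodule.mem_sup_right (Submodule.mem_span_singleton_self e)
  refine ⟨?_, fun f hf hfA => ?_⟩
  · rw [← hdA, hΛ2, ← hqq]
    omega
  · have h4 := hτe f hf
    have h5 := hfA e heA
    have hcomm' : τ n (f * G) = τ n (G * f) := (Tw.hτ n).comm _ _
    have hcomm'' : τ n (e * f) = τ n (f * e) := (Tw.hτ n).comm _ _
    rw [← hG, hcomm', ← h4, hcomm'', h5]

open LiftGlue in
theorem main_testS {l : ℕ} (h1 : Orc F l) (h2 : Val F l l) (h3 : KeyS F l) : MainTestS F l :=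
  fun Ls n _ ρ r S TT hlr hC t1 t2 hA j hj hmj X g gl hex hF hE hκ n0 hn0 hlow y hy =>
    main_test h1 h2 h3 Ls n ρ r S TT hlr hC t1 t2 hA hj hmj X g gl hex hF hE hκ n0 hn0 hlow y hy

/-- **The tight test** (blueprint §J(j)). -/
theorem tight_of (l : ℕ) (h1 : Orc F l) (h2 : Val F l l) (h3 : KeyS F l) : TightS F l :=
  LiftGlue.tight_of_main l h1 h2 h3 (main_testS h1 h2 h3)

/-- **The Lifting Lemma** (blueprint §L). -/
theorem lift_of (l : ℕ) (h1 : Orc F l) (h2 : Val F l l) (h3 : KeyS F l) : LiftS F l :=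
  LiftGlue.lift_of_main l h1 h2 h3 (main_testS h1 h2 h3)

end Crest.Agent.Kurosh.LiftMain
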