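/-
S0270 (Kurosh for division rings), module M13a: the abstract final step.
From a central countable subfield `F` of a division ring `U` of characteristic zero and two
elements `x y` such that every element of the ring `F<x,y>` is algebraic over `F`, and such that
no standard identity holds on `F<x,y>`, we get the frozen statement.
-/
import Mathlib

set_option autoImplicit false

namespace Crest.Agent.Kurosh.Limit

open Polynomial

/-- The standard polynomial `s_M` evaluated on a tuple in a ring. -/
noncomputable def stdPoly {R : Type*} [Ring R] {M : ℕ} (a : Fin M → R) : R :=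
  ∑ σ : Equiv.Perm (Fin M), ((Equiv.Perm.sign σ : ℤˣ) : ℤ) • (List.ofFn fun i => a (σ i)).prod

/-- `a` is a root of a nonzero one-variable polynomial with (left) coefficients in `F`. -/
def AlgOver {U : Type*} [Ring U] (F : Set U) (a : U) : Prop :=
  ∃ (n : ℕ) (c : ℕ → U), (∀ i, c i ∈ F) ∧ c n ≠ 0 ∧ ∑ i ∈ Finset.range (n + 1), c i * a ^ i = 0

section
variable {U : Type} [DivisionRing U]

/-- Inverse of an algebraic element lies in the ring generated by the coefficients and it. -/
theorem inv_mem_of_rel (D : Subring U) (F : Subfield U) (hFD : ∀ f ∈ F, f ∈ D)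
    {a : U} (ha : a ∈ D) (ha0 : a ≠ 0) :
    ∀ (n : ℕ) (c : ℕ → U), (∀ i, c i ∈ F) → c n ≠ 0 →
      ∑ i ∈ Finset.range (n + 1), c i * a ^ i = 0 → a⁻¹ ∈ D := by
  intro n
  induction n with
  | zero =>
    intro c _ hn h
    simp at h
    exact absurd h hn
  | succ n ih =>
    intro c hc hn h
    rw [Finset.sum_range_succ'] at h
    by_cases h0 : c 0 = 0
    · -- divide by `a`
      have h1 : (∑ i ∈ Finset.range (n + 1), c (i + 1) * a ^ i) * a = 0 := by
        rw [Finset.sum_mul]
        simpa [h0, pow_succ, mul_assoc] using h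
      have h2 : ∑ i ∈ Finset.range (n + 1), c (i + 1) * a ^ i = 0 := by
        rcases mul_eq_zero.mp h1 with h3 | h3
        · exact h3
        · exact absurd h3 ha0
      exact ih (fun i => c (i + 1)) (fun i => hc _) hn h2
    · have h1 : (∑ i ∈ Finset.range (n + 1), c (i + 1) * a ^ i) * a + c 0 = 0 := by
        rw [Finset.sum_mul]
        simpa [pow_succ, mul_assoc] using h
      have h2 : a⁻¹ = -((c 0)⁻¹ * ∑ i ∈ Finset.range (n + 1), c (i + 1) * a ^ i) := by
        have h3 : (∑ i ∈ Finset.range (n + 1), c (i + 1) * a ^ i) * a = - c 0 :=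
          eq_neg_of_add_eq_zero_left h1
        have h4 : (c 0)⁻¹ * ((∑ i ∈ Finset.range (n + 1), c (i + 1) * a ^ i) * a) * a⁻¹
            = -a⁻¹ := by
          rw [h3, mul_neg, inv_mul_cancel₀ h0]
          simp
        rw [mul_assoc, mul_assoc, mul_inv_cancel₀ ha0, mul_one] at h4
        rw [h4, neg_neg]
      rw [h2]
      refine D.neg_mem (D.mul_mem (hFD _ (F.inv_mem (hc 0))) (D.sum_mem fun i _ => ?_))
      exact D.mul_mem (hFD _ (hc _)) (D.pow_mem ha _)

/-- The abstract final step of S0270. -/
theorem kurosh_abstract [CharZero U] (F : Subfield U) (hFc : ∀ f ∈ F, ∀ u : U, f * u = u * f)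
    (hFcount : Countable F) (x y : U)
    (hAlg : ∀ a ∈ Subring.closure ((F : Set U) ∪ {x, y}), AlgOver (F : Set U) a)
    (hStd : ∀ M : ℕ, ∃ a : Fin M → U,
      (∀ i, a i ∈ Subring.closure ((F : Set U) ∪ {x, y})) ∧ stdPoly a ≠ 0) :
    ∃ (D : Type) (_ : DivisionRing D), Countable D ∧ CharZero D ∧
      Algebra.IsAlgebraic (Subring.center D) D ∧
      (∃ x y : D, Algebra.adjoin (Subring.center D) ({x, y} : Set D) = ⊤) ∧
      ¬ FiniteDimensional (Subring.center D) D := by
  classical
  set R : Subring U := Subring.closure ((F : Set U) ∪ {x, y}) with hR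
  have hFR : ∀ f ∈ F, f ∈ R := fun f hf => Subring.subset_closure (Or.inl hf)
  have hxR : x ∈ R := Subring.subset_closure (Or.inr (Or.inl rfl))
  have hyR : y ∈ R := Subring.subset_closure (Or.inr (Or.inr rfl))
  have hinv : ∀ a ∈ R, a⁻¹ ∈ R := by
    intro a ha
    by_cases ha0 : a = 0
    · simp [ha0]
    · obtain ⟨n, c, hc, hn, h⟩ := hAlg a ha
      exact inv_mem_of_rel R F hFR ha ha0 n c hc hn h
  let DF : Subfield U := { R with inv_mem' := hinv }
  have hDF : ∀ a, a ∈ DF ↔ a ∈ R := fun a => Iff.rfl
  -- countability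
  have hcount : Countable DF := by
    have hle : (DF : Set U) ⊆ Subfield.closure ((F : Set U) ∪ {x, y}) := by
      intro a ha
      have h1 : R ≤ (Subfield.closure ((F : Set U) ∪ {x, y})).toSubring :=
        (Subring.closure_le).2 Subfield.subset_closure
      exact h1 ha
    have hs : ((F : Set U) ∪ {x, y}).Countable :=
      (Set.countable_coe_iff.mp hFcount).union ((Set.countable_singleton y).insert x)
    have hc2 : (Subfield.closure ((F : Set U) ∪ {x, y}) : Set U).Countable := by
      have h3 := Subfield.cardinalMk_closure_le_max ((F : Set U) ∪ {x, y})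
      have h4 : max (Cardinal.mk ↥((F : Set U) ∪ {x, y})) Cardinal.aleph0 ≤ Cardinal.aleph0 :=
        max_le (Cardinal.le_aleph0_iff_set_countable.mpr hs) le_rfl
      exact Cardinal.le_aleph0_iff_set_countable.mp (h3.trans h4)
    exact Set.countable_coe_iff.mpr (hc2.mono hle)
  -- the elements of `F` are central in `DF`
  have hFcen : ∀ f (hf : f ∈ F), (⟨f, hFR f hf⟩ : DF) ∈ Subring.center DF := by
    intro f hf
    rw [Subring.mem_center_iff]
    intro g
    apply Subtype.ext
    exact (hFc f hf g).symm
  refine ⟨DF, inferInstance, hcount, ?_, ?_, ?_, ?_⟩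
  · -- char zero
    refine ⟨fun a b h => Nat.cast_injective (R := U) ?_⟩
    have h1 := congrArg (Subfield.subtype DF) h
    simpa using h1
  · -- algebraic
    constructor
    intro a
    obtain ⟨n, c, hc, hn, h⟩ := hAlg a.1 a.2
    let c' : ℕ → Subring.center DF := fun i => ⟨⟨c i, hFR _ (hc i)⟩, hFcen _ (hc i)⟩
    refine ⟨∑ i ∈ Finset.range (n + 1), C (c' i) * X ^ i, ?_, ?_⟩
    · intro h0
      have h1 := congrArg (fun p => coeff p n) h0
      simp only [finsetSum_coeff, coeff_C_mul, coeff_X_pow, coeff_zero] at h1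
      rw [Finset.sum_eq_single n] at h1
      · have h2 : c' n = 0 := by simpa using h1
        apply hn
        have h3 := congrArg (fun z : Subring.center DF => ((z : DF) : U)) h2
        simpa [c'] using h3
      · intro b _ hb
        simp [hb.symm]
      · intro hh
        exact absurd (Finset.mem_range.mpr (Nat.lt_succ_self n)) hh
    · apply Subtype.ext
      simp only [map_sum, map_mul, aeval_C, map_pow, aeval_X]
      have : ∀ i, (((algebraMap (Subring.center DF) DF) (c' i) * a ^ i : DF) : U) = c i * a.1 ^ i := by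
        intro i
        rfl
      simpa [this] using h
  · -- generated by two elements
    refine ⟨⟨x, hxR⟩, ⟨y, hyR⟩, ?_⟩
    rw [eq_top_iff]
    rintro ⟨a, ha⟩ -
    have ha' : a ∈ R := ha
    set A := Algebra.adjoin (Subring.center DF) ({⟨x, hxR⟩, ⟨y, hyR⟩} : Set DF) with hA
    have key : ∀ (b : U) (hb : b ∈ R), (⟨b, hb⟩ : DF) ∈ A := by
      intro b hb
      induction hb using Subring.closure_induction with
      | mem z hz =>
        rcases hz with hz | hz
        · have : (⟨z, Subring.subset_closure (Or.inl hz)⟩ : DF)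
              = algebraMap (Subring.center DF) DF ⟨⟨z, hFR z hz⟩, hFcen z hz⟩ := rfl
          rw [this]
          exact A.algebraMap_mem _
        · rcases hz with rfl | hz
          · exact Algebra.subset_adjoin (Or.inl rfl)
          · rw [Set.mem_singleton_iff] at hz
            subst hz
            exact Algebra.subset_adjoin (Or.inr rfl)
      | zero => exact A.zero_mem
      | one => exact A.one_mem
      | add u v hu hv ihu ihv => exact A.add_mem ihu ihv
      | neg u hu ihu => exact A.neg_mem ihu
      | mul u v hu hv ihu ihv => exact A.mul_mem ihu ihv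
    exact key a ha'
  · -- not finite dimensional
    intro hfd
    set N := Module.finrank (Subring.center DF) DF with hN
    obtain ⟨a, ha, hne⟩ := hStd (N + 1)
    apply hne
    let a' : Fin (N + 1) → DF := fun i => ⟨a i, ha i⟩
    have hdep : ¬ LinearIndependent (Subring.center DF) a' := by
      intro hli
      have := hli.fintype_card_le_finrank
      simp at this
      omega
    let f := (MultilinearMap.mkPiAlgebraFin (Subring.center DF) (N + 1) DF).alternatization
    have hf0 : f a' = 0 := f.map_linearDependent a' hdep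
    have hf1 : f a' = stdPoly a' := by
      simp only [f, stdPoly, MultilinearMap.alternatization_apply]
      refine Finset.sum_congr rfl fun σ _ => ?_
      simp only [MultilinearMap.domDomCongr_apply, MultilinearMap.mkPiAlgebraFin_apply]
      rw [show (Equiv.Perm.sign σ • (List.ofFn fun i => a' (σ i)).prod)
        = ((Equiv.Perm.sign σ : ℤˣ) : ℤ) • (List.ofFn fun i => a' (σ i)).prod from rfl]
    have hprod : ∀ l : List DF, ((l.prod : DF) : U) = (l.map (fun z : DF => (z : U))).prod := by
      intro l
      induction l with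
      | nil => simp
      | cons b l ih => simp [ih]
    have hmap : ((stdPoly a' : DF) : U) = stdPoly a := by
      simp only [stdPoly]
      rw [show ((∑ σ : Equiv.Perm (Fin (N + 1)), ((Equiv.Perm.sign σ : ℤˣ) : ℤ) •
          (List.ofFn fun i => a' (σ i)).prod : DF) : U)
          = ∑ σ : Equiv.Perm (Fin (N + 1)), ((((Equiv.Perm.sign σ : ℤˣ) : ℤ) •
          (List.ofFn fun i => a' (σ i)).prod : DF) : U) from map_sum (Subfield.subtype DF) _ _]
      refine Finset.sum_congr rfl fun σ _ => ?_
      have : ((((Equiv.Perm.sign σ : ℤˣ) : ℤ) • (List.ofFn fun i => a' (σ i)).prod : DF) : U)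
          = ((Equiv.Perm.sign σ : ℤˣ) : ℤ) • (((List.ofFn fun i => a' (σ i)).prod : DF) : U) :=
        map_zsmul (Subfield.subtype DF) _ _
      rw [this, hprod]
      congr 2
      rw [List.map_ofFn]
      rfl
    rw [← hmap, ← hf1, hf0]
    rfl

end

/-! ### Non-finite dimensionality: double centraliser, staircase, reduction to levels -/

section DoubleCentraliser

variable {K A : Type*} [Field K] [DivisionRing A] [Algebra K A] [FiniteDimensional K A]

open TensorProduct in
/-- Double centraliser theorem for a division algebra, in the case needed: a subalgebra whose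
centraliser is the base field is everything. -/
theorem subalgebra_eq_top_of_centralizer (B : Subalgebra K A)
    (hC : ∀ a : A, (∀ b ∈ B, a * b = b * a) → ∃ c : K, a = algebraMap K A c) : B = ⊤ := by
  classical
  -- left and right multiplications
  let L : B →ₐ[K] Module.End K A := (Algebra.lmul K A).comp B.val
  let R : Aᵐᵒᵖ →ₐ[K] Module.End K A := AlgHom.ofLinearMap
    { toFun := fun a => LinearMap.mulRight K (MulOpposite.unop a)
      map_add' := fun a b => by ext x; simp [mul_add]
      map_smul' := fun c a => by ext x; simp }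
    (by ext x; simp)
    (fun a b => by ext x; simp [mul_assoc])
  have hLR : ∀ (b : B) (a : Aᵐᵒᵖ), Commute (L b) (R a) := by
    intro b a
    ext x
    simp [L, R, mul_assoc]
  let φ : B ⊗[K] Aᵐᵒᵖ →ₐ[K] Module.End K A :=
    Algebra.TensorProduct.lift L R (fun b a => hLR b a)
  let T : Subalgebra K (Module.End K A) := φ.range
  have hLT : ∀ b : B, L b ∈ T := fun b => ⟨b ⊗ₜ 1, by simp [φ]⟩
  have hRT : ∀ a : Aᵐᵒᵖ, R a ∈ T := fun a => ⟨1 ⊗ₜ a, by simp [φ]⟩
  -- `A` is a simple `T`-module
  have hTsmul : ∀ (t : T) (x : A), t • x = (t : Module.End K A) x := fun t x => rfl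
  have hsimple : IsSimpleModule T A := by
    rw [isSimpleModule_iff]
    refine ⟨fun N => ?_⟩
    by_cases h : N = ⊥
    · exact Or.inl h
    · right
      obtain ⟨x, hx, hx0⟩ := (Submodule.ne_bot_iff N).mp h
      rw [eq_top_iff]
      intro y _
      have hy : y = (⟨R (MulOpposite.op (x⁻¹ * y)), hRT _⟩ : T) • x := by
        rw [hTsmul]
        simp [R, mul_inv_cancel₀ hx0]
      rw [hy]
      exact N.smul_mem _ hx
  -- endomorphisms are scalars
  have hscal : ∀ ψ : Module.End T A, ∃ c : K, ∀ x, ψ x = c • x := by
    intro ψ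
    have h1 : ∀ x, ψ x = ψ 1 * x := by
      intro x
      have h2 := ψ.map_smul (⟨R (MulOpposite.op x), hRT _⟩ : T) 1
      rw [hTsmul, hTsmul] at h2
      simpa [R] using h2
    have h3 : ∀ b ∈ B, ψ 1 * b = b * ψ 1 := by
      intro b hb
      have h2 := ψ.map_smul (⟨L ⟨b, hb⟩, hLT _⟩ : T) 1
      rw [hTsmul, hTsmul] at h2
      have h4 : ψ b = b * ψ 1 := by simpa [L] using h2
      rw [← h1, h4]
    obtain ⟨c, hc⟩ := hC (ψ 1) h3
    refine ⟨c, fun x => ?_⟩
    rw [h1, hc, Algebra.smul_def]
  -- density
  have hdense : ∀ g : Module.End K A, g ∈ T := by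
    intro g
    let b := Module.finBasis K A
    obtain ⟨r, hr⟩ := jacobson_density (R := T) (M := A)
      { toFun := g
        map_add' := g.map_add
        map_smul' := by
          intro ψ x
          obtain ⟨c, hc⟩ := hscal ψ
          simp only [Module.End.smul_def, RingHom.id_apply, hc, map_smul] }
      (Finset.univ.image b)
    have : (r : Module.End K A) = g := by
      apply b.ext
      intro i
      have := hr (b i) (Finset.mem_image_of_mem _ (Finset.mem_univ _))
      exact this.symm
    rw [← this]
    exact r.2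
  have hsurj : Function.Surjective φ.toLinearMap := fun g => hdense g
  have hle := LinearMap.finrank_le_finrank_of_surjective hsurj
  have h1 : Module.finrank K (Module.End K A) = Module.finrank K A * Module.finrank K A :=
    Module.finrank_linearMap K K A A
  have h2 : Module.finrank K (B ⊗[K] Aᵐᵒᵖ) = Module.finrank K B * Module.finrank K A := by
    rw [Module.finrank_tensorProduct, (MulOpposite.opLinearEquiv K : A ≃ₗ[K] Aᵐᵒᵖ).finrank_eq]
  have hpos : 0 < Module.finrank K A := Module.finrank_pos
  rw [h1, h2] at hle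
  have h3 : Module.finrank K A ≤ Module.finrank K B := Nat.le_of_mul_le_mul_right hle hpos
  have h4 : Subalgebra.toSubmodule B = ⊤ := by
    apply Submodule.eq_top_of_finrank_eq
    exact le_antisymm (Submodule.finrank_le _) h3
  exact Subalgebra.toSubmodule_injective (by rw [h4]; rfl)

end DoubleCentraliser

section Staircase

variable {K A : Type*} [Field K] [Ring A] [Algebra K A]

theorem v_mul_u_pow {u v : A} {ζ : K} (hvu : v * u = ζ • (u * v)) (n : ℕ) :
    v * u ^ n = ζ ^ n • (u ^ n * v) := by
  induction n with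
  | zero => simp
  | succ n ih =>
    rw [pow_succ, ← mul_assoc, ih, smul_mul_assoc, mul_assoc, hvu, mul_smul_comm, smul_smul,
      pow_succ, mul_assoc]

theorem v_pow_mul_u_pow {u v : A} {ζ : K} (hvu : v * u = ζ • (u * v)) (b n : ℕ) :
    v ^ b * u ^ n = ζ ^ (b * n) • (u ^ n * v ^ b) := by
  induction b with
  | zero => simp
  | succ b ih =>
    rw [pow_succ, mul_assoc, v_mul_u_pow hvu, mul_smul_comm, ← mul_assoc, ih, smul_mul_assoc,
      smul_smul, mul_assoc, ← pow_succ, ← pow_add, add_one_mul, add_comm]

theorem prod_ofFn_staircase {u v : A} {ζ : K} (hvu : v * u = ζ • (u * v)) :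
    ∀ (M : ℕ) (f : Fin M → ℕ), (List.ofFn fun i => u * v ^ f i).prod =
      (∏ i : Fin M, (ζ ^ (M - 1 - i.val)) ^ f i) • (u ^ M * v ^ (∑ i, f i)) := by
  intro M
  induction M with
  | zero => intro f; simp
  | succ M ih =>
    intro f
    rw [List.ofFn_succ, List.prod_cons, ih (fun i => f i.succ), Fin.prod_univ_succ,
      Fin.sum_univ_succ, mul_smul_comm, mul_assoc, ← mul_assoc (v ^ f 0),
      v_pow_mul_u_pow hvu, smul_mul_assoc, mul_smul_comm, smul_smul, pow_add v, pow_succ' u,
      mul_assoc u, mul_assoc (u ^ M)]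
    congr 1
    have h1 : ∀ i : Fin M, (M + 1 - 1 - (i.succ).val) = M - 1 - i.val := by
      intro i
      simp only [Fin.val_succ]
      omega
    simp only [Fin.val_zero, Nat.add_sub_cancel, Nat.sub_zero]
    rw [← pow_mul, mul_comm (f 0) M]
    have h3 : ∏ x : Fin M, (ζ ^ (M - (x.succ).val)) ^ f x.succ
        = ∏ i : Fin M, (ζ ^ (M - 1 - i.val)) ^ f i.succ := by
      refine Finset.prod_congr rfl fun i _ => ?_
      have h2 : M - (i.succ).val = M - 1 - i.val := by
        simp only [Fin.val_succ]
        omega
      rw [h2]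
    rw [h3, mul_comm]

/-- Nonvanishing of the standard polynomial on the staircase `u, u v, u v², …`. -/
theorem stdPoly_staircase_ne_zero [NoZeroDivisors A] [Nontrivial A] {u v : A} {ζ : K}
    (hvu : v * u = ζ • (u * v))
    (hu : u ≠ 0) (hv : v ≠ 0) {M : ℕ}
    (hinj : Function.Injective fun i : Fin M => ζ ^ i.val) :
    stdPoly (fun i : Fin M => u * v ^ i.val) ≠ 0 := by
  classical
  set w : Fin M → K := fun i => ζ ^ (M - 1 - i.val) with hw
  have hwinj : Function.Injective w := by
    intro i j hij
    have h1 : (⟨M - 1 - i.val, by omega⟩ : Fin M) = ⟨M - 1 - j.val, by omega⟩ := hinj hij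
    have h2 : M - 1 - i.val = M - 1 - j.val := Fin.mk.inj h1
    ext
    omega
  have hdet : Matrix.det (Matrix.vandermonde w) ≠ 0 := Matrix.det_vandermonde_ne_zero_iff.mpr hwinj
  have hS : ∀ σ : Equiv.Perm (Fin M), ∑ i, (σ i).val = ∑ i : Fin M, i.val :=
    fun σ => Equiv.sum_comp σ (fun i : Fin M => i.val)
  have hexp : stdPoly (fun i : Fin M => u * v ^ i.val) =
      Matrix.det (Matrix.vandermonde w) • (u ^ M * v ^ (∑ i : Fin M, i.val)) := by
    rw [← Matrix.det_transpose, Matrix.det_apply, Finset.sum_smul]
    unfold stdPoly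
    refine Finset.sum_congr rfl fun σ _ => ?_
    rw [prod_ofFn_staircase hvu M (fun i => (σ i).val), hS σ, smul_assoc]
    have h1 : ∏ i : Fin M, (ζ ^ (M - 1 - i.val)) ^ (σ i).val
        = ∏ i : Fin M, (Matrix.vandermonde w).transpose (σ i) i := by
      refine Finset.prod_congr rfl fun i _ => ?_
      simp [Matrix.vandermonde, Matrix.transpose, hw]
    rw [h1]
    rfl
  rw [hexp]
  have hne : u ^ M * v ^ (∑ i : Fin M, i.val) ≠ 0 :=
    mul_ne_zero (pow_ne_zero _ hu) (pow_ne_zero _ hv)
  intro h0
  rcases smul_eq_zero.mp h0 with h2 | h2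
  · exact hdet h2
  · exact hne h2

end Staircase

section Span

variable {K A : Type*} [Field K] [Ring A] [Algebra K A]

theorem stdPoly_eq_alternatization {M : ℕ} (a : Fin M → A) :
    stdPoly a = (MultilinearMap.mkPiAlgebraFin K M A).alternatization a := by
  simp only [stdPoly, MultilinearMap.alternatization_apply]
  refine Finset.sum_congr rfl fun σ _ => ?_
  simp only [MultilinearMap.domDomCongr_apply, MultilinearMap.mkPiAlgebraFin_apply]
  rfl

/-- A standard polynomial vanishing on a spanning set vanishes everywhere. -/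
theorem stdPoly_eq_zero_of_span {M : ℕ} (W : Set A) (hW : Submodule.span K W = ⊤)
    (hs : ∀ a : Fin M → A, (∀ i, a i ∈ W) → stdPoly a = 0) (a : Fin M → A) : stdPoly a = 0 := by
  classical
  let f := (MultilinearMap.mkPiAlgebraFin K M A).alternatization
  have key : ∀ k, k ≤ M → ∀ a : Fin M → A, (∀ i : Fin M, k ≤ i.val → a i ∈ W) → f a = 0 := by
    intro k
    induction k with
    | zero =>
      intro _ a ha
      rw [← stdPoly_eq_alternatization (K := K)]
      exact hs a fun i => ha i (Nat.zero_le _)
    | succ k ih =>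
      intro hk a ha
      let i0 : Fin M := ⟨k, hk⟩
      have h1 : ∀ z : A, z ∈ Submodule.span K W → f (Function.update a i0 z) = 0 := by
        intro z hz
        induction hz using Submodule.span_induction with
        | mem z hz =>
          apply ih (by omega)
          intro i hi
          by_cases h2 : i = i0
          · subst h2; simpa using hz
          · rw [Function.update_of_ne h2]
            apply ha
            have : i.val ≠ k := fun h3 => h2 (Fin.ext h3)
            omega
        | zero =>
          exact f.toMultilinearMap.map_coord_zero i0 (by simp)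
        | add x y _ _ hx hy =>
          have := f.toMultilinearMap.map_update_add a i0 x y
          simp only [AlternatingMap.coe_multilinearMap] at this
          rw [this, hx, hy, add_zero]
        | smul c x _ hx =>
          have := f.toMultilinearMap.map_update_smul a i0 c x
          simp only [AlternatingMap.coe_multilinearMap] at this
          rw [this, hx, smul_zero]
      have h3 := h1 (a i0) (by rw [hW]; trivial)
      simpa using h3
  rw [stdPoly_eq_alternatization (K := K)]
  exact key M le_rfl a fun i hi => absurd i.2 (by omega)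

end Span

section Level

variable {K A : Type*} [Field K] [DivisionRing A] [Algebra K A] [FiniteDimensional K A]

/-- On a level: a generating pair with trivial commutant has a nonzero standard polynomial on
words, as soon as the level contains a quantum plane of order `≥ M`. -/
theorem exists_word_stdPoly_ne_zero (X Y : A)
    (hC : ∀ a : A, a * X = X * a → a * Y = Y * a → ∃ c : K, a = algebraMap K A c)
    {u v : A} {ζ : K} (hvu : v * u = ζ • (u * v)) (hu : u ≠ 0) (hv : v ≠ 0) {M : ℕ}
    (hinj : Function.Injective fun i : Fin M => ζ ^ i.val) :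
    ∃ w : Fin M → A, (∀ i, w i ∈ Submonoid.closure ({X, Y} : Set A)) ∧ stdPoly w ≠ 0 := by
  by_contra hcon
  push Not at hcon
  have htop : Algebra.adjoin K ({X, Y} : Set A) = ⊤ := by
    apply subalgebra_eq_top_of_centralizer
    intro a ha
    exact hC a (ha X (Algebra.subset_adjoin (Or.inl rfl)))
      (ha Y (Algebra.subset_adjoin (Or.inr rfl)))
  have hspan : Submodule.span K (Submonoid.closure ({X, Y} : Set A) : Set A) = ⊤ := by
    rw [← Algebra.adjoin_eq_span, htop]
    rfl
  exact stdPoly_staircase_ne_zero hvu hu hv hinj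
    (stdPoly_eq_zero_of_span (K := K) _ hspan hcon _)

end Level

theorem map_stdPoly {R S : Type*} [Ring R] [Ring S] (f : R →+* S) {M : ℕ} (a : Fin M → R) :
    f (stdPoly a) = stdPoly (fun i => f (a i)) := by
  unfold stdPoly
  rw [map_sum]
  refine Finset.sum_congr rfl fun σ _ => ?_
  rw [map_zsmul, map_list_prod, List.map_ofFn]
  rfl

/-- Lift a nonzero standard polynomial along a residue map. -/
theorem exists_std_ne_zero_of_res {U A : Type*} [Ring U] [Ring A] (O : Subring U) (res : O →+* A)
    (x y : U) (hx : x ∈ O) (hy : y ∈ O) {M : ℕ} (w : Fin M → A)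
    (hw : ∀ i, w i ∈ Submonoid.closure ({res ⟨x, hx⟩, res ⟨y, hy⟩} : Set A))
    (hne : stdPoly w ≠ 0) :
    ∃ a : Fin M → U, (∀ i, a i ∈ Submonoid.closure ({x, y} : Set U)) ∧ stdPoly a ≠ 0 := by
  classical
  have hlift : ∀ z ∈ Submonoid.closure ({res ⟨x, hx⟩, res ⟨y, hy⟩} : Set A),
      ∃ z' : O, (z' : U) ∈ Submonoid.closure ({x, y} : Set U) ∧ res z' = z := by
    intro z hz
    induction hz using Submonoid.closure_induction with
    | mem z hz =>
      rcases hz with rfl | hz
      · exact ⟨⟨x, hx⟩, Submonoid.subset_closure (Or.inl rfl), rfl⟩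
      · rw [Set.mem_singleton_iff] at hz
        subst hz
        exact ⟨⟨y, hy⟩, Submonoid.subset_closure (Or.inr rfl), rfl⟩
    | one => exact ⟨1, Submonoid.one_mem _, map_one _⟩
    | mul p q _ _ hp hq =>
      obtain ⟨p', hp1, hp2⟩ := hp
      obtain ⟨q', hq1, hq2⟩ := hq
      exact ⟨p' * q', Submonoid.mul_mem _ hp1 hq1, by rw [map_mul, hp2, hq2]⟩
  choose b hb1 hb2 using fun i => hlift (w i) (hw i)
  refine ⟨fun i => (b i : U), hb1, fun h0 => hne ?_⟩
  have h1 : stdPoly b = 0 := by
    apply Subtype.ext
    have := map_stdPoly (O.subtype) b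
    simpa [h0] using this
  have h2 := map_stdPoly res b
  rw [h1, map_zero] at h2
  rw [show w = fun i => res (b i) from funext fun i => (hb2 i).symm]
  exact h2.symm

/-- The final form of the limit step. `hLevels` is what the tower provides: for each `M` a level
`A` with residue map `res` on a subring `O ∋ x, y`, such that the residues of `x, y` have trivial
commutant in `A`, and `A` contains a quantum plane with parameter of order `≥ M`. -/
theorem kurosh_final {U : Type} [DivisionRing U] [CharZero U] (F : Subfield U)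
    (hFc : ∀ f ∈ F, ∀ u : U, f * u = u * f) (hFcount : Countable F) (x y : U)
    (hAlg : ∀ a ∈ Subring.closure ((F : Set U) ∪ {x, y}), AlgOver (F : Set U) a)
    (hLevels : ∀ M : ℕ, ∃ (K : Type) (A : Type) (_ : Field K) (_ : DivisionRing A)
      (_ : Algebra K A) (_ : FiniteDimensional K A) (O : Subring U) (res : O →+* A)
      (hx : x ∈ O) (hy : y ∈ O),
      (∀ a : A, a * res ⟨x, hx⟩ = res ⟨x, hx⟩ * a → a * res ⟨y, hy⟩ = res ⟨y, hy⟩ * a →
        ∃ c : K, a = algebraMap K A c) ∧
      ∃ (u v : A) (ζ : K), v * u = ζ • (u * v) ∧ u ≠ 0 ∧ v ≠ 0 ∧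
        Function.Injective fun i : Fin M => ζ ^ i.val) :
    ∃ (D : Type) (_ : DivisionRing D), Countable D ∧ CharZero D ∧
      Algebra.IsAlgebraic (Subring.center D) D ∧
      (∃ x y : D, Algebra.adjoin (Subring.center D) ({x, y} : Set D) = ⊤) ∧
      ¬ FiniteDimensional (Subring.center D) D := by
  refine kurosh_abstract F hFc hFcount x y hAlg fun M => ?_
  obtain ⟨K, A, _, _, _, _, O, res, hx, hy, hC, u, v, ζ, hvu, hu, hv, hinj⟩ := hLevels M
  obtain ⟨w, hw, hne⟩ := exists_word_stdPoly_ne_zero (res ⟨x, hx⟩) (res ⟨y, hy⟩) hC hvu hu hv hinj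
  obtain ⟨a, ha, hane⟩ := exists_std_ne_zero_of_res O res x y hx hy w hw hne
  refine ⟨a, fun i => ?_, hane⟩
  have hsub : Submonoid.closure ({x, y} : Set U) ≤
      (Subring.closure ((F : Set U) ∪ {x, y})).toSubmonoid := by
    rw [Submonoid.closure_le]
    intro z hz
    exact Subring.subset_closure (Or.inr hz)
  exact hsub (ha i)

end Crest.Agent.Kurosh.Limit
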