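import Mathlib

/-!
# Gaussian binomial coefficients and the generator lemma (S0270 blueprint v3, §K EXPLORE, §E)

* `qBinom q n a`: the Gaussian binomial `[n choose a]_q` over a commutative ring, by q-Pascal.
* `qBinom_mul_prod`: `[n, a] ∏_{i<a} (1 - q^(i+1)) = ∏_{i<a} (1 - q^(n-i))`.
* `qBinom_ne_zero`: nonvanishing at a primitive `m`-th root of unity for `a ≤ n < m`.
* `prod_one_add`, `prodPoly`, `coeff_prodPoly`: the q-binomial theorem.
* `prodPoly_prim`: `∏_{i<m} (1 + ζ^i X) = 1 + X^m` for `m` odd, `ζ` primitive.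
* `tailPoly`, `coeff_tailPoly`, `tailCoeff_ne_zero`: the coefficients `b_{r,a}` of
  `Q_r = ∏_{r ≤ i < m} (1 + ζ^i X)`, nonzero for `a ≤ m - r`, `r ≥ 1`.
* `aeval_prodPoly_mul_tailPoly`, `aeval_prodPoly_inv`: in an algebra,
  `∏_{i<r} (1 + ζ^i x)⁻¹ = Q_r(x) (1 + x^m)⁻¹`.
* `twist_pow`: `(y (1 + x) s')^r = y^r (∏_{i<r} (1 + ζ^i x)) s'^r` when `s' x = ζ x s'`.
* `exists_generator`, `exists_generator_subalgebra`: a subspace generating a finite separable field
  over an infinite field contains a primitive element.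
-/

set_option autoImplicit false

open Polynomial Finset

namespace Crest.Agent.Kurosh.QBinom

section Comm

variable {R S : Type*} [CommRing R] [CommRing S]

/-- The Gaussian binomial coefficient, by the q-Pascal recursion
`[n+1, a+1] = [n, a] + q^(a+1) [n, a+1]`. -/
def qBinom (q : R) : ℕ → ℕ → R
  | _, 0 => 1
  | 0, _ + 1 => 0
  | n + 1, a + 1 => qBinom q n a + q ^ (a + 1) * qBinom q n (a + 1)

@[simp] theorem qBinom_zero_right (q : R) (n : ℕ) : qBinom q n 0 = 1 := by
  cases n <;> rfl

@[simp] theorem qBinom_zero_succ (q : R) (a : ℕ) : qBinom q 0 (a + 1) = 0 := rfl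

theorem qBinom_succ_succ (q : R) (n a : ℕ) :
    qBinom q (n + 1) (a + 1) = qBinom q n a + q ^ (a + 1) * qBinom q n (a + 1) := rfl

theorem qBinom_eq_zero_of_lt (q : R) {n a : ℕ} (h : n < a) : qBinom q n a = 0 := by
  induction n generalizing a with
  | zero =>
    obtain ⟨a, rfl⟩ : ∃ b, a = b + 1 := ⟨a - 1, by omega⟩
    rfl
  | succ n ih =>
    obtain ⟨a, rfl⟩ : ∃ b, a = b + 1 := ⟨a - 1, by omega⟩
    rw [qBinom_succ_succ, ih (by omega), ih (by omega)]
    simp

@[simp] theorem qBinom_self (q : R) (n : ℕ) : qBinom q n n = 1 := by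
  induction n with
  | zero => simp
  | succ n ih => rw [qBinom_succ_succ, ih, qBinom_eq_zero_of_lt q (Nat.lt_succ_self n)]; simp

theorem map_qBinom (f : R →+* S) (q : R) (n a : ℕ) :
    f (qBinom q n a) = qBinom (f q) n a := by
  induction n generalizing a with
  | zero => cases a <;> simp
  | succ n ih =>
    cases a with
    | zero => simp
    | succ a => simp [qBinom_succ_succ, ih]

/-- `[n, 1] = ∑_{i<n} q^i`. -/
theorem qBinom_one (q : R) (n : ℕ) : qBinom q n 1 = ∑ i ∈ range n, q ^ i := by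
  induction n with
  | zero => simp
  | succ n ih =>
    rw [show qBinom q (n + 1) 1 = 1 + q * qBinom q n 1 by
      simpa using qBinom_succ_succ q n 0, ih, Finset.sum_range_succ', Finset.mul_sum]
    simp only [pow_succ', pow_zero]
    ring

/-- The product formula for the Gaussian binomial.  For `a > n` both sides are zero. -/
theorem qBinom_mul_prod (q : R) (n a : ℕ) :
    qBinom q n a * ∏ i ∈ range a, (1 - q ^ (i + 1)) = ∏ i ∈ range a, (1 - q ^ (n - i)) := by
  induction n generalizing a with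
  | zero =>
    cases a with
    | zero => simp
    | succ a =>
      rw [qBinom_zero_succ, zero_mul, Finset.prod_range_succ']
      simp
  | succ n ih =>
    cases a with
    | zero => simp
    | succ a =>
      have h1 := ih a
      have h2 := ih (a + 1)
      rw [Finset.prod_range_succ, Finset.prod_range_succ] at h2
      have h3 : ∏ i ∈ range (a + 1), (1 - q ^ (n + 1 - i))
          = (1 - q ^ (n + 1)) * ∏ i ∈ range a, (1 - q ^ (n - i)) := by
        rw [Finset.prod_range_succ', mul_comm]
        simp only [Nat.sub_zero, Nat.add_sub_add_right]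
      rw [h3, qBinom_succ_succ, Finset.prod_range_succ]
      by_cases ha : a ≤ n
      · have h4 : q ^ (a + 1) * q ^ (n - a) = q ^ (n + 1) := by
          rw [← pow_add]; congr 1; omega
        linear_combination (1 - q ^ (a + 1)) * h1 + q ^ (a + 1) * h2
          + (-(∏ i ∈ range a, (1 - q ^ (n - i)))) * h4
      · -- then `a > n`, and the products contain the vanishing factor `i = n`
        have hna : n < a := by omega
        have h0 : ∏ i ∈ range a, (1 - q ^ (n - i)) = 0 :=
          Finset.prod_eq_zero (Finset.mem_range.2 hna) (by simp)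
        rw [h0] at h1 h2 ⊢
        linear_combination (1 - q ^ (a + 1)) * h1 + q ^ (a + 1) * h2

/-- The second q-Pascal rule. -/
theorem qBinom_succ_succ' (q : R) {n a : ℕ} (h : a ≤ n) :
    qBinom q (n + 1) (a + 1) = q ^ (n - a) * qBinom q n a + qBinom q n (a + 1) := by
  induction n generalizing a with
  | zero =>
    obtain rfl : a = 0 := by omega
    simp
  | succ n ih =>
    cases a with
    | zero =>
      have h1 := ih (a := 0) (by omega)
      have h2 : qBinom q (n + 1) 1 = 1 + q * qBinom q n 1 := by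
        simpa using qBinom_succ_succ q n 0
      have h3 : qBinom q (n + 1 + 1) 1 = 1 + q * qBinom q (n + 1) 1 := by
        simpa using qBinom_succ_succ q (n + 1) 0
      simp only [Nat.zero_add, qBinom_zero_right, mul_one, Nat.sub_zero] at h1 ⊢
      rw [h3, pow_succ]
      linear_combination q * h1 - h2
    | succ a =>
      have E1 := ih (a := a) (by omega)
      have E2 := qBinom_succ_succ q n a
      have E3 := qBinom_succ_succ q n (a + 1)
      rw [qBinom_succ_succ q (n + 1) (a + 1), show n + 1 - (a + 1) = n - a by omega]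
      by_cases hn : a + 1 ≤ n
      · have E4 := ih (a := a + 1) hn
        have h4 : q ^ (a + 1) * q ^ (n - a) = q ^ (n + 1) := by
          rw [← pow_add]; congr 1; omega
        have h5 : q ^ (a + 1 + 1) * q ^ (n - (a + 1)) = q ^ (n + 1) := by
          rw [← pow_add]; congr 1; omega
        linear_combination E1 + q ^ (a + 1 + 1) * E4 - q ^ (n - a) * E2 - E3
          + (qBinom q n (a + 1)) * (h5 - h4)
      · obtain rfl : a = n := by omega
        have z1 : qBinom q (a + 1) (a + 1 + 1) = 0 := qBinom_eq_zero_of_lt q (by omega)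
        have z2 : qBinom q a (a + 1) = 0 := qBinom_eq_zero_of_lt q (by omega)
        rw [z2] at E1 E2
        rw [z1]
        simp only [Nat.sub_self, pow_zero, one_mul, mul_zero, add_zero]

/-- **q-binomial theorem**, for an element `x` of the commutative ring. -/
theorem prod_one_add (q x : R) (r : ℕ) :
    ∏ i ∈ range r, (1 + q ^ i * x)
      = ∑ a ∈ range (r + 1), q ^ (a.choose 2) * qBinom q r a * x ^ a := by
  induction r generalizing x with
  | zero => simp
  | succ r ih =>
    have h1 : ∏ i ∈ range (r + 1), (1 + q ^ i * x)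
        = (∏ i ∈ range r, (1 + q ^ i * (q * x))) * (1 + x) := by
      rw [Finset.prod_range_succ']
      congr 1
      · exact Finset.prod_congr rfl fun i _ => by ring
      · simp
    set T : ℕ → R := fun a => q ^ (a.choose 2) * qBinom q r a * (q * x) ^ a with hT
    have h2 : ∀ a, q ^ ((a + 1).choose 2) * qBinom q (r + 1) (a + 1) * x ^ (a + 1)
        = T a * x + T (a + 1) := by
      intro a
      have : (a + 1).choose 2 = a.choose 2 + a := by
        have h : (a + 1).choose 2 = a.choose 1 + a.choose 2 := Nat.choose_succ_succ' a 1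
        rw [h, Nat.choose_one_right]; omega
      simp only [hT]
      rw [qBinom_succ_succ, this, mul_pow, mul_pow, pow_add]
      ring
    have h3 : T (r + 1) = 0 := by
      simp only [hT]
      rw [qBinom_eq_zero_of_lt q (show r < r + 1 by omega)]
      simp
    have h4 : ∑ a ∈ range (r + 1), T (a + 1) = ∑ a ∈ range (r + 1), T a - 1 := by
      rw [Finset.sum_range_succ, h3, add_zero, Finset.sum_range_succ' T r]
      simp [hT]
    rw [h1, ih (q * x), Finset.sum_range_succ' _ (r + 1)]
    simp_rw [h2]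
    rw [Finset.sum_add_distrib, h4, ← Finset.sum_mul]
    simp only [Nat.choose_zero_succ, pow_zero, qBinom_zero_right, mul_one, hT]
    ring

/-! ### Polynomial form -/

/-- `∏_{i<r} (1 + q^i X)`. -/
noncomputable def prodPoly (q : R) (r : ℕ) : R[X] := ∏ i ∈ range r, (1 + C (q ^ i) * X)

/-- `∏_{i<s} (1 + q^(r+i) X)`, the tail of `prodPoly q (r + s)`. -/
noncomputable def tailPoly (q : R) (r s : ℕ) : R[X] := ∏ i ∈ range s, (1 + C (q ^ (r + i)) * X)

/-- The coefficient `b_{r,a} = q^(r a + C(a,2)) [s, a]` of `tailPoly q r s`. -/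
def tailCoeff (q : R) (r s a : ℕ) : R := q ^ (r * a + a.choose 2) * qBinom q s a

theorem prodPoly_add (q : R) (r s : ℕ) :
    prodPoly q (r + s) = prodPoly q r * tailPoly q r s := by
  simp [prodPoly, tailPoly, Finset.prod_range_add]

theorem tailPoly_eq_sum (q : R) (r s : ℕ) :
    tailPoly q r s = ∑ a ∈ range (s + 1), C (tailCoeff q r s a) * X ^ a := by
  have h := prod_one_add (C q) (C (q ^ r) * X : R[X]) s
  have h1 : tailPoly q r s = ∏ i ∈ range s, (1 + C q ^ i * (C (q ^ r) * X)) := by
    refine Finset.prod_congr rfl fun i _ => ?_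
    simp only [pow_add, map_mul, map_pow]
    ring
  rw [h1, h]
  refine Finset.sum_congr rfl fun a _ => ?_
  have h2 : qBinom (C q : R[X]) s a = C (qBinom q s a) := (map_qBinom (C : R →+* R[X]) q s a).symm
  rw [h2, tailCoeff]
  simp only [pow_add, map_mul, map_pow]
  ring

theorem coeff_tailPoly (q : R) (r s a : ℕ) :
    (tailPoly q r s).coeff a = if a ≤ s then tailCoeff q r s a else 0 := by
  rw [tailPoly_eq_sum, Polynomial.finsetSum_coeff]
  simp only [coeff_C_mul_X_pow]
  rw [Finset.sum_ite_eq]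
  simp

theorem prodPoly_eq_tailPoly (q : R) (r : ℕ) : prodPoly q r = tailPoly q 0 r := by
  simp [prodPoly, tailPoly]

theorem coeff_prodPoly (q : R) (r a : ℕ) :
    (prodPoly q r).coeff a = q ^ (a.choose 2) * qBinom q r a := by
  rw [prodPoly_eq_tailPoly, coeff_tailPoly]
  split_ifs with h
  · simp [tailCoeff]
  · rw [qBinom_eq_zero_of_lt q (by omega), mul_zero]

@[simp] theorem coeff_prodPoly_zero (q : R) (r : ℕ) : (prodPoly q r).coeff 0 = 1 := by
  rw [coeff_prodPoly]; simp

theorem prodPoly_succ (q : R) (r : ℕ) :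
    prodPoly q (r + 1) = prodPoly q r * (1 + C (q ^ r) * X) := by
  simp [prodPoly, Finset.prod_range_succ]

/-- The coefficient of `X` in `∏_{i<r} (1 + q^i X)` is `∑_{i<r} q^i`. -/
theorem coeff_prodPoly_one (q : R) (r : ℕ) :
    (prodPoly q r).coeff 1 = ∑ i ∈ range r, q ^ i := by
  rw [coeff_prodPoly, qBinom_one]
  simp

end Comm

section Domain

variable {K : Type*} [CommRing K] [IsDomain K]

/-- **Nonvanishing.**  At a primitive `m`-th root of unity, `[n, a] ≠ 0` for `a ≤ n < m`. -/
theorem qBinom_ne_zero {ζ : K} {m : ℕ} (hζ : IsPrimitiveRoot ζ m) {n a : ℕ} (ha : a ≤ n)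
    (hn : n < m) : qBinom ζ n a ≠ 0 := by
  intro h
  have h1 := qBinom_mul_prod ζ n a
  rw [h, zero_mul] at h1
  obtain ⟨i, hi, hi0⟩ := Finset.prod_eq_zero_iff.1 h1.symm
  have hia : i < a := Finset.mem_range.1 hi
  have h2 : ζ ^ (n - i) = 1 := by
    have := sub_eq_zero.1 hi0
    exact this.symm
  have h3 : m ∣ n - i := (hζ.pow_eq_one_iff_dvd _).1 h2
  have h4 : m ≤ n - i := Nat.le_of_dvd (by omega) h3
  omega

theorem ne_zero_of_prim {ζ : K} {m : ℕ} (hζ : IsPrimitiveRoot ζ m) (hm : 0 < m) : ζ ≠ 0 :=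
  hζ.ne_zero hm.ne'

/-- At a primitive `m`-th root of unity, `[m, a] = 0` for `0 < a < m`. -/
theorem qBinom_prim_eq_zero {ζ : K} {m : ℕ} (hζ : IsPrimitiveRoot ζ m) {a : ℕ} (h0 : 0 < a)
    (ha : a < m) : qBinom ζ m a = 0 := by
  have h1 := qBinom_mul_prod ζ m a
  have h2 : ∏ i ∈ range a, (1 - ζ ^ (m - i)) = 0 :=
    Finset.prod_eq_zero (Finset.mem_range.2 h0) (by simp [hζ.pow_eq_one])
  rw [h2] at h1
  refine (mul_eq_zero.1 h1).resolve_right ?_
  refine Finset.prod_ne_zero_iff.2 fun i hi hi0 => ?_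
  have hia : i < a := Finset.mem_range.1 hi
  have h3 : ζ ^ (i + 1) = 1 := (sub_eq_zero.1 hi0).symm
  have h4 : m ∣ i + 1 := (hζ.pow_eq_one_iff_dvd _).1 h3
  have h5 : m ≤ i + 1 := Nat.le_of_dvd (by omega) h4
  omega

/-- `c_r = ∑_{i<r} ζ^i ≠ 0` for `0 < r < m`. -/
theorem geom_sum_prim_ne_zero {ζ : K} {m : ℕ} (hζ : IsPrimitiveRoot ζ m) {r : ℕ} (h0 : 0 < r)
    (hr : r < m) : ∑ i ∈ range r, ζ ^ i ≠ 0 := by
  rw [← qBinom_one]
  exact qBinom_ne_zero hζ h0 hr

/-- `∏_{i<m} (1 + ζ^i X) = 1 + ζ^C(m,2) X^m`, `ζ` primitive `m`-th root, `m > 0`. -/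
theorem prodPoly_prim' {ζ : K} {m : ℕ} (hζ : IsPrimitiveRoot ζ m) (hm : 0 < m) :
    prodPoly ζ m = 1 + C (ζ ^ (m.choose 2)) * X ^ m := by
  ext a
  rw [coeff_prodPoly, coeff_add, coeff_C_mul_X_pow, coeff_one]
  rcases Nat.eq_zero_or_pos a with rfl | h0
  · simp [hm.ne]
  · have h1 : a ≠ 0 := h0.ne'
    rcases lt_trichotomy a m with ha | rfl | ha
    · rw [qBinom_prim_eq_zero hζ h0 ha]
      simp [h1, ha.ne]
    · simp [h1]
    · rw [qBinom_eq_zero_of_lt ζ ha]
      simp [h1, ha.ne']

/-- `∏_{i<m} (1 + ζ^i X) = 1 + X^m`, `ζ` primitive `m`-th root, `m` odd. -/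
theorem prodPoly_prim {ζ : K} {m : ℕ} (hζ : IsPrimitiveRoot ζ m) (hm : Odd m) :
    prodPoly ζ m = 1 + X ^ m := by
  have hm0 : 0 < m := hm.pos
  rw [prodPoly_prim' hζ hm0]
  have : ζ ^ (m.choose 2) = 1 := by
    obtain ⟨k, rfl⟩ := hm
    have : (2 * k + 1).choose 2 = (2 * k + 1) * k := by
      rw [Nat.choose_two_right]
      have : (2 * k + 1) * (2 * k + 1 - 1) = 2 * ((2 * k + 1) * k) := by
        simp only [Nat.add_sub_cancel]; ring
      rw [this]
      simp
    rw [this, pow_mul, hζ.pow_eq_one, one_pow]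
  rw [this]
  simp

/-- **Nonvanishing of the tail coefficients.**  `b_{r,a} ≠ 0` for `1 ≤ r`, `r + s = m`, `a ≤ s`. -/
theorem tailCoeff_ne_zero {ζ : K} {m : ℕ} (hζ : IsPrimitiveRoot ζ m) {r s a : ℕ} (hr : 0 < r)
    (hrs : r + s = m) (ha : a ≤ s) : tailCoeff ζ r s a ≠ 0 := by
  have hm : 0 < m := by omega
  exact mul_ne_zero (pow_ne_zero _ (hζ.ne_zero hm.ne')) (qBinom_ne_zero hζ ha (by omega))

/-- `∏_{i<r} (1 + ζ^i X) * ∏_{i<s} (1 + ζ^(r+i) X) = 1 + X^m`, `r + s = m`, `m` odd, `ζ` primitive. -/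
theorem prodPoly_mul_tailPoly {ζ : K} {m : ℕ} (hζ : IsPrimitiveRoot ζ m) (hm : Odd m) {r s : ℕ}
    (hrs : r + s = m) : prodPoly ζ r * tailPoly ζ r s = 1 + X ^ m := by
  rw [← prodPoly_add, hrs, prodPoly_prim hζ hm]

end Domain

section Algebra

variable {K A : Type*} [CommRing K] [Ring A] [Algebra K A]

/-- The value of `∏_{i<r} (1 + q^i X)` at `x` satisfies the recursion. -/
theorem aeval_prodPoly_succ (q : K) (r : ℕ) (x : A) :
    aeval x (prodPoly q (r + 1))
      = aeval x (prodPoly q r) * (1 + algebraMap K A (q ^ r) * x) := by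
  rw [prodPoly_succ, map_mul]
  simp

/-- Elements of `K[x]` commute. -/
theorem aeval_commute (p p' : K[X]) (x : A) : Commute (aeval x p) (aeval x p') := by
  change aeval x p * aeval x p' = aeval x p' * aeval x p
  rw [← map_mul, ← map_mul, mul_comm]

theorem aeval_tailPoly (q : K) (r s : ℕ) (x : A) :
    aeval x (tailPoly q r s)
      = ∑ a ∈ range (s + 1), algebraMap K A (tailCoeff q r s a) * x ^ a := by
  rw [tailPoly_eq_sum, map_sum]
  refine Finset.sum_congr rfl fun a _ => ?_
  rw [map_mul, aeval_C, map_pow, aeval_X]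

end Algebra

/-- An element commuting with `x` commutes with every polynomial in `x`. -/
theorem aeval_commute_of_commute {K A : Type*} [CommRing K] [Ring A] [Algebra K A] {x y : A}
    (h : Commute y x) (p : K[X]) : Commute y (aeval x p) := by
  rw [aeval_eq_sum_range]
  refine Commute.sum_right _ _ _ fun i _ => ?_
  exact (h.pow_right i).smul_right _

section AlgebraDomain

variable {K A : Type*} [CommRing K] [IsDomain K] [Ring A] [Algebra K A]

/-- `(∏_{i<r} (1 + ζ^i x)) Q_r(x) = 1 + x^m`. -/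
theorem aeval_prodPoly_mul_tailPoly {ζ : K} {m : ℕ} (hζ : IsPrimitiveRoot ζ m) (hm : Odd m)
    {r s : ℕ} (hrs : r + s = m) (x : A) :
    aeval x (prodPoly ζ r) * aeval x (tailPoly ζ r s) = 1 + x ^ m := by
  rw [← map_mul, prodPoly_mul_tailPoly hζ hm hrs]
  simp

/-- **The inverse of `∏_{i<r} (1 + ζ^i x)`**: if `U` is inverse to `1 + x^m`, then
`Q_r(x) U` inverts `∏_{i<r} (1 + ζ^i x)` on both sides. -/
theorem aeval_prodPoly_inv {ζ : K} {m : ℕ} (hζ : IsPrimitiveRoot ζ m) (hm : Odd m)
    {r s : ℕ} (hrs : r + s = m) (x U : A) (hU : (1 + x ^ m) * U = 1) (hU' : U * (1 + x ^ m) = 1) :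
    aeval x (prodPoly ζ r) * (aeval x (tailPoly ζ r s) * U) = 1 ∧
      (aeval x (tailPoly ζ r s) * U) * aeval x (prodPoly ζ r) = 1 := by
  have h := aeval_prodPoly_mul_tailPoly (A := A) hζ hm hrs x
  have hc : Commute (aeval x (prodPoly ζ r)) (aeval x (tailPoly ζ r s)) := aeval_commute _ _ x
  -- `U` commutes with every polynomial in `x`
  have hUc : ∀ p : K[X], Commute U (aeval x p) := by
    intro p
    have h1 : Commute (1 + x ^ m) (aeval x p) := by
      have : (1 + x ^ m) = aeval x (1 + X ^ m : K[X]) := by simp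
      rw [this]
      exact aeval_commute _ _ x
    -- `U = U (1 + x^m) U`
    have h2 : U * aeval x p = aeval x p * U := by
      calc U * aeval x p = U * (aeval x p * ((1 + x ^ m) * U)) := by rw [hU, mul_one]
        _ = U * ((aeval x p * (1 + x ^ m)) * U) := by rw [mul_assoc]
        _ = U * (((1 + x ^ m) * aeval x p) * U) := by rw [h1.eq]
        _ = (U * (1 + x ^ m)) * (aeval x p * U) := by simp only [mul_assoc]
        _ = aeval x p * U := by rw [hU', one_mul]
    exact h2
  constructor
  · rw [← mul_assoc, h, hU]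
  · rw [mul_assoc, (hUc (prodPoly ζ r)).eq, ← mul_assoc, hc.symm.eq, h, hU]

/-- The version with `-x`: if `U` inverts `1 - x^m`, then `Q_r(-x) U` inverts `∏_{i<r} (1 - ζ^i x)`
(which is `aeval (-x) (prodPoly ζ r)`). -/
theorem aeval_prodPoly_neg_inv {ζ : K} {m : ℕ} (hζ : IsPrimitiveRoot ζ m) (hm : Odd m)
    {r s : ℕ} (hrs : r + s = m) (x U : A) (hU : (1 - x ^ m) * U = 1) (hU' : U * (1 - x ^ m) = 1) :
    aeval (-x) (prodPoly ζ r) * (aeval (-x) (tailPoly ζ r s) * U) = 1 ∧
      (aeval (-x) (tailPoly ζ r s) * U) * aeval (-x) (prodPoly ζ r) = 1 := by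
  refine aeval_prodPoly_inv hζ hm hrs (-x) U ?_ ?_
  · rw [hm.neg_pow, ← sub_eq_add_neg, hU]
  · rw [hm.neg_pow, ← sub_eq_add_neg, hU']

/-- In a division ring: `(∏_{i<r} (1 + ζ^i x))⁻¹ = Q_r(x) (1 + x^m)⁻¹`, if `1 + x^m ≠ 0`. -/
theorem aeval_prodPoly_inv_div {D : Type*} [DivisionRing D] [Algebra K D] {ζ : K} {m : ℕ}
    (hζ : IsPrimitiveRoot ζ m) (hm : Odd m) {r s : ℕ} (hrs : r + s = m) (x : D)
    (hx : 1 + x ^ m ≠ 0) :
    (aeval x (prodPoly ζ r))⁻¹ = aeval x (tailPoly ζ r s) * (1 + x ^ m)⁻¹ := by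
  obtain ⟨h1, -⟩ := aeval_prodPoly_inv (A := D) hζ hm hrs x (1 + x ^ m)⁻¹
    (mul_inv_cancel₀ hx) (inv_mul_cancel₀ hx)
  exact inv_eq_of_mul_eq_one_right h1

omit [IsDomain K] in
/-- **Twisted powers.**  If `y` commutes with `x` and `s'`, and `s' x = ζ x s'`, then
`(y (1 + x) s')^r = y^r (∏_{i<r} (1 + ζ^i x)) s'^r`. -/
theorem twist_pow (ζ : K) (x y s' : A) (hsx : s' * x = algebraMap K A ζ * x * s')
    (hyx : Commute y x) (hys : Commute y s') (r : ℕ) :
    (y * (1 + x) * s') ^ r = y ^ r * aeval x (prodPoly ζ r) * s' ^ r := by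
  have hsx' : ∀ n : ℕ, s' ^ n * x = algebraMap K A (ζ ^ n) * x * s' ^ n := by
    intro n
    induction n with
    | zero => simp
    | succ n ih =>
      calc s' ^ (n + 1) * x = s' ^ n * (s' * x) := by rw [pow_succ, mul_assoc]
        _ = s' ^ n * (algebraMap K A ζ * x * s') := by rw [hsx]
        _ = algebraMap K A ζ * (s' ^ n * x) * s' := by
            rw [← mul_assoc, ← mul_assoc, (Algebra.commutes ζ (s' ^ n)).symm]
            simp only [mul_assoc]
        _ = algebraMap K A ζ * (algebraMap K A (ζ ^ n) * x * s' ^ n) * s' := by rw [ih]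
        _ = algebraMap K A (ζ ^ (n + 1)) * x * s' ^ (n + 1) := by
            rw [pow_succ' ζ, map_mul, pow_succ]
            simp only [mul_assoc]
  have hs1 : ∀ n : ℕ, s' ^ n * (1 + x) = (1 + algebraMap K A (ζ ^ n) * x) * s' ^ n := by
    intro n
    rw [mul_add, mul_one, hsx', add_mul, one_mul]
  induction r with
  | zero => simp [prodPoly]
  | succ r ih =>
    rw [pow_succ, ih, aeval_prodPoly_succ]
    have hyp : aeval x (prodPoly ζ r) * y = y * aeval x (prodPoly ζ r) :=
      ((aeval_commute_of_commute (K := K) hyx) _).symm.eq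
    have hsy : s' ^ r * y = y * s' ^ r := ((hys.pow_right r).symm).eq
    have h1 : s' ^ r * (y * (1 + x) * s') = y * ((1 + algebraMap K A (ζ ^ r) * x) * s' ^ r) * s' := by
      rw [← hs1 r]
      simp only [← mul_assoc]
      rw [hsy]
    calc y ^ r * aeval x (prodPoly ζ r) * s' ^ r * (y * (1 + x) * s')
        = y ^ r * aeval x (prodPoly ζ r) * (s' ^ r * (y * (1 + x) * s')) := by rw [mul_assoc]
      _ = y ^ r * (aeval x (prodPoly ζ r) * y) * ((1 + algebraMap K A (ζ ^ r) * x) * s' ^ r) * s' := by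
          rw [h1]; simp only [mul_assoc]
      _ = y ^ (r + 1) * (aeval x (prodPoly ζ r) * (1 + algebraMap K A (ζ ^ r) * x)) * s' ^ (r + 1) := by
          rw [hyp, pow_succ, pow_succ]; simp only [mul_assoc]

end AlgebraDomain

section Generator

variable {K L : Type*} [Field K] [Infinite K] [Field L] [Algebra K L]

/-- **E4 generator lemma.**  A subspace `A` generating a finite separable extension `L` of an
infinite field `K` contains a primitive element. -/
theorem exists_generator [FiniteDimensional K L] [Algebra.IsSeparable K L] (A : Submodule K L)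
    (hA : IntermediateField.adjoin K (A : Set L) = ⊤) :
    ∃ μ ∈ A, IntermediateField.adjoin K {μ} = ⊤ := by
  classical
  have : Finite (IntermediateField K L) :=
    (Field.exists_primitive_element_iff_finite_intermediateField K L).1
      ⟨inferInstance, Field.exists_primitive_element K L⟩
  by_contra hcon
  push Not at hcon
  let ι := {E : IntermediateField K L // E ≠ ⊤}
  let p : ι → Subspace K A := fun E =>
    (E.1.toSubalgebra.toSubmodule).comap A.subtype
  have hcover : ⋃ i, (p i : Set A) = Set.univ := by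
    ext a
    simp only [Set.mem_iUnion, Set.mem_univ, iff_true]
    refine ⟨⟨IntermediateField.adjoin K {(a : L)}, hcon a a.2⟩, ?_⟩
    change ((a : A) : L) ∈ IntermediateField.adjoin K {(a : L)}
    exact IntermediateField.mem_adjoin_simple_self K (a : L)
  obtain ⟨E, hE⟩ := Subspace.exists_eq_top_of_iUnion_eq_univ hcover
  apply E.2
  have hle : IntermediateField.adjoin K (A : Set L) ≤ E.1 := by
    rw [IntermediateField.adjoin_le_iff]
    intro a ha
    have : (⟨a, ha⟩ : A) ∈ p E := by rw [hE]; trivial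
    exact this
  rw [hA] at hle
  exact top_le_iff.1 hle

/-- **E4 generator lemma, inside a (possibly noncommutative) domain.**  `B` is a commutative finite
dimensional subalgebra of a domain over a field `K` of characteristic zero, generated by the subspace
`A`.  Then some `μ ∈ A` generates `B`. -/
theorem exists_generator_subalgebra {K D : Type*} [Field K] [CharZero K] [Ring D] [IsDomain D]
    [Algebra K D] (B : Subalgebra K D) [FiniteDimensional K B]
    (hcomm : ∀ a ∈ B, ∀ b ∈ B, a * b = b * a) (A : Submodule K D)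
    (hA : Algebra.adjoin K (A : Set D) = B) :
    ∃ μ ∈ A, Algebra.adjoin K {μ} = B := by
  classical
  have hAB : ∀ a ∈ A, a ∈ B := fun a ha => hA ▸ Algebra.subset_adjoin ha
  let _ : CommRing B :=
    { (inferInstance : Ring B) with
      mul_comm := fun a b => Subtype.ext (hcomm a a.2 b b.2) }
  have : IsDomain B := inferInstance
  have hfield : IsField B := isField_of_isIntegral_of_isField' (R := K) (Field.toIsField K)
  let _ : Field B := hfield.toField
  let A' : Submodule K B := A.comap B.val.toLinearMap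
  have hA' : IntermediateField.adjoin K (A' : Set B) = ⊤ := by
    let E := IntermediateField.adjoin K (A' : Set B)
    have h1 : B ≤ E.toSubalgebra.map B.val := by
      refine le_of_eq_of_le hA.symm (Algebra.adjoin_le ?_)
      intro a ha
      refine ⟨⟨a, hAB a ha⟩, ?_, rfl⟩
      exact IntermediateField.subset_adjoin K (A' : Set B) ha
    rw [eq_top_iff]
    rintro ⟨b, hb⟩ -
    obtain ⟨x, hx, hxb⟩ := h1 hb
    have : x = ⟨b, hb⟩ := Subtype.ext hxb
    rw [← this]
    exact hx
  obtain ⟨μ, hμ, hμtop⟩ := exists_generator A' hA'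
  refine ⟨μ, hμ, ?_⟩
  have h2 : Algebra.adjoin K {μ} = ⊤ := by
    rw [← IntermediateField.adjoin_simple_toSubalgebra_of_isAlgebraic (IsAlgebraic.of_finite K μ),
      hμtop]
    rfl
  have h3 := congrArg (Subalgebra.map B.val) h2
  rw [AlgHom.map_adjoin, Set.image_singleton, Algebra.map_top, Subalgebra.range_val] at h3
  exact h3

end Generator

end Crest.Agent.Kurosh.QBinom
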